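import Crest.Agent.FreeIs.CohD

/-!
S0241, module M8: the abstract inequalities `coh` and `Rt_le`.
-/

set_option autoImplicit false
set_option linter.unusedVariables false

open MeasureTheory Filter Topology

namespace Crest.Agent.FreeIs.Coh

open Crest.Agent.FreeIs Crest.Agent.FreeIs.Rec

variable {q : ℕ} {θ θ' : ℝ} {M M' : Lab (W q) → ℝ}

theorem tri_sum (g : ℕ → ℕ → ℝ) (hg : ∀ i j, 0 ≤ g i j) (L : ℕ) :
    ∑ k ∈ Finset.range L, ∑ j ∈ Finset.range (k + 1), g j (k - j)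
      ≤ ∑ j ∈ Finset.range L, ∑ i ∈ Finset.range L, g j i := by
  have key : ∑ k ∈ Finset.range L, ∑ j ∈ Finset.range (k + 1), g j (k - j)
      = ∑ j ∈ Finset.range L, ∑ i ∈ Finset.range (L - j), g j i := by
    induction L with
    | zero => simp
    | succ L ih =>
      rw [Finset.sum_range_succ, ih, Finset.sum_range_succ, Finset.sum_range_succ,
        ← add_assoc, ← Finset.sum_add_distrib]
      congr 1
      · refine Finset.sum_congr rfl fun j hj => ?_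
        rw [Finset.mem_range] at hj
        have : L + 1 - j = (L - j) + 1 := by omega
        rw [this, Finset.sum_range_succ]
      · simp
  rw [key]
  refine Finset.sum_le_sum fun j _ => ?_
  refine Finset.sum_le_sum_of_subset_of_nonneg ?_ fun i _ _ => hg _ _
  intro i hi
  rw [Finset.mem_range] at hi ⊢
  omega

/-- truncation of the susceptibility -/
theorem trunc (hq : 2 ≤ q) {c C s : ℝ} (h0 : 0 ≤ θ) (h1 : q * θ ^ 2 < 1)
    (hF : Facts q θ s c C M) (hs : 0 < s) (hC : 0 ≤ C) (e : Fin (q + 1)) (k : ℕ) :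
    ∃ X : Lab (W q) → ℝ, Integrable X (labP (W q)) ∧ Integrable (fun ω => X ω ^ 2) (labP (W q)) ∧
      (∀ ω, 0 ≤ X ω) ∧ ∫ ω, X ω ∂(labP (W q)) ≤ (1 + C) * Real.exp (-(2 : ℝ) ^ k) ∧
      ∫ ω, X ω ^ 2 ∂(labP (W q)) ≤ C * Real.exp (-(2 : ℝ) ^ k) ∧
      ∀ᵐ ω ∂(labP (W q)), ∀ L, ∑ n ∈ Finset.range L, Asum (aa θ M) n e ω
        ≤ (C / s + k + 1) + X ω := by
  have hx1 : 1 - c * s < 1 := by linarith [hF.cpos]
  have hx0 : 0 ≤ 1 - c * s := by linarith [hF.cle]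
  obtain ⟨hsum, hint⟩ := sum_sq_integrable (μ := labP (W q))
    (A := fun n ω => Asum (aa θ M) n e ω)
    (fun n => measurable_Asum (fun i => measurable_aa hF.sys.meas i) n e)
    (by
      filter_upwards [goodAll_ae hF.sys] with ω hω n
      exact Asum_bounds hq h0 h1 n e hω) hx0 hx1 (fun n => hF.decay e n)
  set B : ℝ := C / s + ((k + 1 : ℕ) : ℝ) with hB
  have hB0 : 0 ≤ B := by positivity
  have hI := hint B hB0
  obtain ⟨X, hX⟩ : ∃ X : Lab (W q) → ℝ, X = fun ω => max 0 (∑' n, Asum (aa θ M) n e ω - B) :=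
    ⟨_, rfl⟩
  have hXnn : ∀ ω, 0 ≤ X ω := fun ω => by rw [hX]; exact le_max_left _ _
  replace hI : Integrable (fun ω => X ω ^ 2) (labP (W q)) := by rw [hX]; exact hI
  have hXs : (fun ω => √(X ω ^ 2)) = X := by
    funext ω; exact Real.sqrt_sq (hXnn ω)
  have hXm : AEStronglyMeasurable X (labP (W q)) := by
    rw [← hXs]
    exact Real.continuous_sqrt.comp_aestronglyMeasurable hI.aestronglyMeasurable
  have hXi : Integrable X (labP (W q)) := by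
    refine Integrable.mono' (hI.add (integrable_const (1 : ℝ))) hXm ?_
    refine Eventually.of_forall fun ω => ?_
    rw [Real.norm_eq_abs, abs_of_nonneg (hXnn ω)]
    simp only [Pi.add_apply]
    nlinarith [sq_nonneg (X ω - 1)]
  have ht := hF.tail e (k + 1)
  have ht' : ∫ ω, X ω ^ 2 ∂(labP (W q)) ≤ C * Real.exp (-(2 : ℝ) ^ (k + 1)) := by
    rw [hX]; exact ht
  set E := Real.exp (-(2 : ℝ) ^ k) with hE
  have hE0 : 0 < E := Real.exp_pos _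
  have hE1 : E ≤ 1 := by
    rw [hE, Real.exp_le_one_iff]
    have : (0 : ℝ) < 2 ^ k := by positivity
    linarith
  have hE2 : Real.exp (-(2 : ℝ) ^ (k + 1)) = E * E := by
    rw [hE, ← Real.exp_add]
    congr 1
    rw [pow_succ]; ring
  rw [hE2] at ht'
  refine ⟨X, hXi, hI, hXnn, ?_, ?_, ?_⟩
  · have hp : ∀ ω, X ω ≤ E + E⁻¹ * X ω ^ 2 := by
      intro ω
      have h3 : 0 ≤ E⁻¹ * (X ω - E) ^ 2 := by positivity
      have h4 : E⁻¹ * (X ω - E) ^ 2 = E⁻¹ * X ω ^ 2 - 2 * X ω + E := by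
        field_simp
        ring
      have := hXnn ω
      linarith
    calc ∫ ω, X ω ∂(labP (W q)) ≤ ∫ ω, (E + E⁻¹ * X ω ^ 2) ∂(labP (W q)) :=
          integral_mono hXi ((integrable_const E).add (hI.const_mul E⁻¹)) hp
      _ = E + E⁻¹ * ∫ ω, X ω ^ 2 ∂(labP (W q)) := by
          rw [integral_add (integrable_const E) (hI.const_mul E⁻¹), integral_const_mul]
          simp
      _ ≤ E + E⁻¹ * (C * (E * E)) := by
          have := mul_le_mul_of_nonneg_left ht' (inv_nonneg.2 hE0.le)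
          linarith
      _ = (1 + C) * E := by
          field_simp
  · refine ht'.trans ?_
    have : E * E ≤ E := mul_le_of_le_one_left hE0.le hE1
    exact mul_le_mul_of_nonneg_left this hC
  · filter_upwards [hsum, goodAll_ae hF.sys] with ω hω hg L
    have h3 : ∑ n ∈ Finset.range L, Asum (aa θ M) n e ω ≤ ∑' n, Asum (aa θ M) n e ω :=
      hω.sum_le_tsum _ fun n _ => (Asum_bounds hq h0 h1 n e hg).1
    have h4 : ∑' n, Asum (aa θ M) n e ω - B ≤ X ω := by rw [hX]; exact le_max_right _ _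
    have h5 : B = C / s + k + 1 := by rw [hB]; push_cast; ring
    linarith

/-- Lipschitz dependence of the regression coefficients -/
theorem lip_aa (hq : 2 ≤ q) (h0 : 0 ≤ θ) (h1 : q * θ ^ 2 < 1) (h0' : 0 ≤ θ')
    (h1' : q * θ' ^ 2 < 1) {K1 : ℝ} (hK1 : 0 ≤ K1)
    (hlip : ∀ θ θ' m n : ℝ, 0 ≤ θ → θ ≤ 3 / 4 → 0 ≤ θ' → θ' ≤ 3 / 4 → |m| ≤ 1 → |n| ≤ 1 →
      |gg θ m - gg θ' n| ≤ K1 * ((|m| + |n|) * |m - n| + |θ - θ'|))
    (ω : Lab (W q)) (e : Fin (q + 1)) (hg : Good θ M ω) (hg' : Good θ' M' ω) :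
    |aa θ M e ω - aa θ' M' e ω| ≤ (√(q : ℝ) + K1) * ((|msg θ M e ω| + |msg θ' M' e ω|) *
        |msg θ M e ω - msg θ' M' e ω| + |θ - θ'|) := by
  have ht := th_lt hq h0 h1
  have ht' := th_lt hq h0' h1'
  obtain ⟨hm, -, -, -⟩ := msg_spec h0 (by linarith) hg e
  obtain ⟨hm', -, -, -⟩ := msg_spec h0' (by linarith) hg' e
  have hl := hlip θ θ' _ _ h0 ht.le h0' ht'.le hm hm'
  have g0 := gg_nonneg h0 (by linarith : θ < 1) hm
  have g1 := gg_le_one' h0 (by linarith : θ < 1) hm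
  have s1 := sqrt_th h0' h1'
  have sq0 := Real.sqrt_nonneg (q : ℝ)
  unfold aa
  set g := gg θ (msg θ M e ω)
  set g' := gg θ' (msg θ' M' e ω)
  set Z := (|msg θ M e ω| + |msg θ' M' e ω|) * |msg θ M e ω - msg θ' M' e ω| with hZ
  have hZ0 : 0 ≤ Z := by positivity
  have hδ := abs_nonneg (θ - θ')
  have e1 : √(q : ℝ) * θ * g - √(q : ℝ) * θ' * g'
      = √(q : ℝ) * ((θ - θ') * g) + √(q : ℝ) * θ' * (g - g') := by ring
  rw [e1]
  calc |√(q : ℝ) * ((θ - θ') * g) + √(q : ℝ) * θ' * (g - g')|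
      ≤ |√(q : ℝ) * ((θ - θ') * g)| + |√(q : ℝ) * θ' * (g - g')| := abs_add_le _ _
    _ = √(q : ℝ) * (|θ - θ'| * g) + √(q : ℝ) * θ' * |g - g'| := by
      rw [abs_mul, abs_mul, abs_mul, abs_of_nonneg sq0, abs_of_nonneg g0,
        abs_of_nonneg (mul_nonneg sq0 h0')]
    _ ≤ √(q : ℝ) * |θ - θ'| + |g - g'| := by
      have a1 : |θ - θ'| * g ≤ |θ - θ'| := mul_le_of_le_one_right hδ g1
      have a2 : √(q : ℝ) * θ' * |g - g'| ≤ |g - g'| := mul_le_of_le_one_left (abs_nonneg _) s1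
      have a3 := mul_le_mul_of_nonneg_left a1 sq0
      linarith
    _ ≤ (√(q : ℝ) + K1) * (Z + |θ - θ'|) := by nlinarith [mul_nonneg sq0 hZ0]

theorem dd_le (hq : 2 ≤ q) (h0 : 0 ≤ θ) (h1 : q * θ ^ 2 < 1) (h0' : 0 ≤ θ')
    (h1' : q * θ' ^ 2 < 1) {K2 : ℝ} (hK2 : 0 ≤ K2)
    (hlip : ∀ θ θ' m m' n n' : ℝ, 0 ≤ θ → θ ≤ 3 / 4 → 0 ≤ θ' → θ' ≤ 3 / 4 →
      |m| ≤ 1 → |m'| ≤ 1 → |n| ≤ 1 → |n'| ≤ 1 →
      |m - n| ≤ K2 * (|ein m' (θ * m) - ein n' (θ' * n)| + |ein m (θ * m') - ein n (θ' * n')|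
      + |θ - θ'|))
    (ω : Lab (W q)) (e : Fin (q + 1)) (hg : Good θ M ω) (hg' : Good θ' M' ω) :
    DD θ θ' M M' e ω ≤ 3 * K2 ^ 2 * ((M ω - M' ω) ^ 2 + (M (sh e ω) - M' (sh e ω)) ^ 2
      + |θ - θ'|) ∧ DD θ θ' M M' e ω ≤ 4 := by
  have ht := th_lt hq h0 h1
  have ht' := th_lt hq h0' h1'
  obtain ⟨hm, hmb, e1, e2⟩ := msg_spec h0 (by linarith) hg e
  obtain ⟨hm', hmb', e1', e2'⟩ := msg_spec h0' (by linarith) hg' e
  have hl := hlip θ θ' _ _ _ _ h0 ht.le h0' ht'.le hm hmb hm' hmb'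
  rw [← e1, ← e2, ← e1', ← e2'] at hl
  have hδ := abs_nonneg (θ - θ')
  have hδ1 : |θ - θ'| ≤ 1 := by rw [abs_le]; constructor <;> linarith
  unfold DD
  set x := |M ω - M' ω| with hx
  set y := |M (sh e ω) - M' (sh e ω)| with hy
  set δ := |θ - θ'|
  constructor
  · rw [← sq_abs, ← sq_abs (M ω - M' ω), ← sq_abs (M (sh e ω) - M' (sh e ω)), ← hx, ← hy]
    have hx0 : 0 ≤ x := abs_nonneg _
    have hy0 : 0 ≤ y := abs_nonneg _
    calc |msg θ M e ω - msg θ' M' e ω| ^ 2 ≤ (K2 * (x + y + δ)) ^ 2 :=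
          pow_le_pow_left₀ (abs_nonneg _) hl 2
      _ = K2 ^ 2 * (x + y + δ) ^ 2 := by ring
      _ ≤ K2 ^ 2 * (3 * (x ^ 2 + y ^ 2 + δ)) := by
        refine mul_le_mul_of_nonneg_left ?_ (sq_nonneg _)
        nlinarith [sq_nonneg (x - y), sq_nonneg (x - δ), sq_nonneg (y - δ)]
      _ = _ := by ring
  · have : |msg θ M e ω - msg θ' M' e ω| ≤ 2 := (abs_sub _ _).trans (by linarith)
    rw [← sq_abs]
    nlinarith [abs_nonneg (msg θ M e ω - msg θ' M' e ω)]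

theorem integrable_sh {f : Lab (W q) → ℝ} (hf : Integrable f (labP (W q))) (e : Fin (q + 1)) :
    Integrable (fun ω => f (sh e ω)) (labP (W q)) := by
  have h := sh_mp (q := q) e
  rw [← h.map_eq] at hf
  exact hf.comp_measurable h.measurable

/-- first estimate -/
theorem est1 (hq : 2 ≤ q) {c C s : ℝ} (hs : 0 < s) (hC : 0 ≤ C)
    (hM : Sys q θ M) (h0' : 0 ≤ θ') (h1' : q * θ' ^ 2 < 1)
    (hF' : Facts q θ' s c C M') (i : Fin (q + 1)) (k L : ℕ) :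
    ∫ ω, (M ω - M' ω) ^ 2 * ∑ n ∈ Finset.range L, Asum (aa θ' M') n i ω ∂(labP (W q))
      ≤ (C / s + k + 1) * nn M M' + 4 * ((1 + C) * Real.exp (-(2 : ℝ) ^ k)) := by
  obtain ⟨Y, hYi, hY2, hY0, hY1, hYs, hYb⟩ := trunc hq h0' h1' hF' hs hC i k
  have hN : BM (fun ω => (M ω - M' ω) ^ 2) :=
    ((BM.ofM hM.meas hM.bd).sub (BM.ofM hF'.sys.meas hF'.sys.bd)).sq
  have hA := fun n => BM.asum (BM.aa hq h0' h1' hF'.sys) n i
  have hB : 0 ≤ C / s + k + 1 := by positivity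
  calc ∫ ω, (M ω - M' ω) ^ 2 * ∑ n ∈ Finset.range L, Asum (aa θ' M') n i ω ∂(labP (W q))
      ≤ ∫ ω, ((C / s + k + 1) * (M ω - M' ω) ^ 2 + 4 * Y ω) ∂(labP (W q)) := by
        refine integral_mono_ae (hN.mul (BM.sum _ hA)).integrable
          ((hN.integrable.const_mul _).add (hYi.const_mul 4)) ?_
        filter_upwards [hYb] with ω hω
        have h3 := hω L
        have h4 : (M ω - M' ω) ^ 2 ≤ 4 := by
          have h5 : |M ω - M' ω| ≤ 2 := (abs_sub _ _).trans (by linarith [hM.bd ω, hF'.sys.bd ω])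
          rw [← sq_abs]; nlinarith [abs_nonneg (M ω - M' ω)]
        have h5 := mul_le_mul_of_nonneg_left h3 (sq_nonneg (M ω - M' ω))
        have h6 := mul_le_mul_of_nonneg_right h4 (hY0 ω)
        linarith
    _ = (C / s + k + 1) * nn M M' + 4 * ∫ ω, Y ω ∂(labP (W q)) := by
        rw [integral_add (hN.integrable.const_mul _) (hYi.const_mul 4), integral_const_mul,
          integral_const_mul]
        rfl
    _ ≤ _ := by linarith

theorem est2_real {B K d N N' δ x y a b : ℝ} (hB : 0 ≤ B) (d0 : 0 ≤ d) (d1 : d ≤ K * (N + N' + δ))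
    (d2 : d ≤ 4) (x1 : x ≤ B + a) (y1 : y ≤ B + b) (x0 : 0 ≤ x) (y0 : 0 ≤ y) (ha : 0 ≤ a)
    (hb : 0 ≤ b) : d * (x * y) ≤ K * B ^ 2 * (N + N' + δ) + 4 * (B * a + B * b + (a ^ 2 + b ^ 2)) := by
  have m1 : x * y ≤ (B + a) * (B + b) := mul_le_mul x1 y1 y0 (by positivity)
  have m2 : d * (x * y) ≤ d * ((B + a) * (B + b)) := mul_le_mul_of_nonneg_left m1 d0
  have m3 : d * ((B + a) * (B + b)) = B ^ 2 * d + d * (B * a + B * b + a * b) := by ring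
  have m4 := mul_le_mul_of_nonneg_left d1 (sq_nonneg B)
  have m5 : B * a + B * b + a * b ≤ B * a + B * b + (a ^ 2 + b ^ 2) := by
    nlinarith [sq_nonneg (a - b)]
  have m6 : d * (B * a + B * b + a * b) ≤ 4 * (B * a + B * b + (a ^ 2 + b ^ 2)) :=
    mul_le_mul d2 m5 (by positivity) (by norm_num)
  linarith

theorem est2_fin {B C E IX IY IX2 IY2 : ℝ} (hB : 1 ≤ B) (hC : 0 ≤ C) (hE : 0 < E)
    (hX1 : IX ≤ (1 + C) * E) (hY1 : IY ≤ (1 + C) * E) (hXs : IX2 ≤ C * E) (hYs : IY2 ≤ C * E) :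
    4 * (B * IX + B * IY + (IX2 + IY2)) ≤ 16 * (1 + C) * B ^ 2 * E := by
  have hB0 : 0 ≤ B := by linarith
  have n1 := mul_le_mul_of_nonneg_left hX1 hB0
  have n2 := mul_le_mul_of_nonneg_left hY1 hB0
  have n3 : B ≤ B ^ 2 := by nlinarith
  have n4 : (1 : ℝ) ≤ B ^ 2 := by nlinarith
  have n5 : B * ((1 + C) * E) ≤ B ^ 2 * ((1 + C) * E) :=
    mul_le_mul_of_nonneg_right n3 (by positivity)
  have n6 : C * E ≤ (1 + C) * E := mul_le_mul_of_nonneg_right (by linarith) hE.le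
  have n7 : (1 + C) * E ≤ B ^ 2 * ((1 + C) * E) :=
    le_mul_of_one_le_left (by positivity) n4
  linarith

set_option maxHeartbeats 1000000 in
/-- second estimate -/
theorem est2 (hq : 2 ≤ q) {c C s : ℝ} (hs : 0 < s) (hC : 0 ≤ C)
    (h0 : 0 ≤ θ) (h1 : q * θ ^ 2 < 1) (hF : Facts q θ s c C M)
    (h0' : 0 ≤ θ') (h1' : q * θ' ^ 2 < 1) (hF' : Facts q θ' s c C M')
    {K2 : ℝ} (hK2 : 0 ≤ K2)
    (hlip : ∀ θ θ' m m' n n' : ℝ, 0 ≤ θ → θ ≤ 3 / 4 → 0 ≤ θ' → θ' ≤ 3 / 4 →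
      |m| ≤ 1 → |m'| ≤ 1 → |n| ≤ 1 → |n'| ≤ 1 →
      |m - n| ≤ K2 * (|ein m' (θ * m) - ein n' (θ' * n)| + |ein m (θ * m') - ein n (θ' * n')|
      + |θ - θ'|))
    (e : Fin (q + 1)) (k L : ℕ) :
    ∫ ω, DD θ θ' M M' e ω * ((∑ n ∈ Finset.range L, Asum (aa θ M) n e (sh e ω)) *
        ∑ n ∈ Finset.range L, Asum (aa θ' M') n e ω) ∂(labP (W q))
      ≤ 3 * K2 ^ 2 * (C / s + k + 1) ^ 2 * (2 * nn M M' + |θ - θ'|)
        + 16 * (1 + C) * (C / s + k + 1) ^ 2 * Real.exp (-(2 : ℝ) ^ k) := by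
  obtain ⟨X, hXi, hX2, hX0, hX1, hXs, hXb⟩ := trunc hq h0 h1 hF hs hC e k
  obtain ⟨Y, hYi, hY2, hY0, hY1, hYs, hYb⟩ := trunc hq h0' h1' hF' hs hC e k
  have hN : BM (fun ω => (M ω - M' ω) ^ 2) :=
    ((BM.ofM hF.sys.meas hF.sys.bd).sub (BM.ofM hF'.sys.meas hF'.sys.bd)).sq
  have hA := fun n => BM.asum (BM.aa hq h0 h1 hF.sys) n e
  have hA' := fun n => BM.asum (BM.aa hq h0' h1' hF'.sys) n e
  have hD := BM.dd hq h0 h1 hF.sys h0' h1' hF'.sys e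
  set B : ℝ := C / s + k + 1 with hBd
  have hB1 : 1 ≤ B := by
    have h3 : 0 ≤ C / s := by positivity
    have h4 : (0 : ℝ) ≤ k := Nat.cast_nonneg k
    linarith
  have hB0 : 0 ≤ B := by linarith
  set E := Real.exp (-(2 : ℝ) ^ k)
  have hE0 : 0 < E := Real.exp_pos _
  have hXbs : ∀ᵐ ω ∂(labP (W q)), ∀ L, ∑ n ∈ Finset.range L, Asum (aa θ M) n e (sh e ω)
      ≤ B + X (sh e ω) := (sh_mp e).quasiMeasurePreserving.ae hXb
  have i1 := hN.integrable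
  have i2 := (hN.shi e).integrable
  have i3 := integrable_sh hXi e
  have i4 : Integrable (fun ω => X (sh e ω) ^ 2) (labP (W q)) := integrable_sh hX2 e
  have J1 : Integrable (fun ω => 3 * K2 ^ 2 * B ^ 2 * ((M ω - M' ω) ^ 2 +
      (M (sh e ω) - M' (sh e ω)) ^ 2 + |θ - θ'|)) (labP (W q)) :=
    ((i1.add i2).add (integrable_const _)).const_mul _
  have J2 : Integrable (fun ω => 4 * (B * X (sh e ω) + B * Y ω
      + (X (sh e ω) ^ 2 + Y ω ^ 2))) (labP (W q)) :=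
    (((i3.const_mul B).add (hYi.const_mul B)).add (i4.add hY2)).const_mul 4
  calc ∫ ω, DD θ θ' M M' e ω * ((∑ n ∈ Finset.range L, Asum (aa θ M) n e (sh e ω)) *
        ∑ n ∈ Finset.range L, Asum (aa θ' M') n e ω) ∂(labP (W q))
      ≤ ∫ ω, (3 * K2 ^ 2 * B ^ 2 * ((M ω - M' ω) ^ 2 +
        (M (sh e ω) - M' (sh e ω)) ^ 2 + |θ - θ'|) + 4 * (B * X (sh e ω) + B * Y ω
        + (X (sh e ω) ^ 2 + Y ω ^ 2))) ∂(labP (W q)) := by
        refine integral_mono_ae (hD.mul ((BM.sum _ (fun n => (hA n).shi e)).mul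
          (BM.sum _ hA'))).integrable (J1.add J2) ?_
        filter_upwards [hXbs, hYb, goodAll_ae hF.sys, goodAll_ae hF'.sys] with ω h3 h4 h5 h6
        obtain ⟨d1, d2⟩ := dd_le hq h0 h1 h0' h1' hK2 hlip ω e h5.good h6.good
        have d0 : 0 ≤ DD θ θ' M M' e ω := sq_nonneg _
        have x0 : 0 ≤ ∑ n ∈ Finset.range L, Asum (aa θ M) n e (sh e ω) :=
          Finset.sum_nonneg fun n _ => (Asum_bounds hq h0 h1 n e (h5.shift e)).1
        have y0 : 0 ≤ ∑ n ∈ Finset.range L, Asum (aa θ' M') n e ω :=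
          Finset.sum_nonneg fun n _ => (Asum_bounds hq h0' h1' n e h6).1
        have x1 := h3 L
        have y1 := h4 L
        exact est2_real hB0 d0 d1 d2 x1 y1 x0 y0 (hX0 (sh e ω)) (hY0 ω)
    _ = 3 * K2 ^ 2 * B ^ 2 * (2 * nn M M' + |θ - θ'|)
        + 4 * (B * (∫ ω, X ω ∂(labP (W q))) + B * (∫ ω, Y ω ∂(labP (W q)))
        + ((∫ ω, X ω ^ 2 ∂(labP (W q))) + ∫ ω, Y ω ^ 2 ∂(labP (W q)))) := by
        rw [integral_add J1 J2]
        congr 1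
        · rw [integral_const_mul]
          congr 1
          have k1 : Integrable (fun ω => (M ω - M' ω) ^ 2 +
            (M (sh e ω) - M' (sh e ω)) ^ 2) (labP (W q)) := i1.add i2
          rw [integral_add k1 (integrable_const _), integral_add i1 i2,
            integral_sh e (fun ω => (M ω - M' ω) ^ 2)]
          simp only [nn, integral_const, probReal_univ, smul_eq_mul, one_mul]
          ring
        · rw [integral_const_mul]
          congr 1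
          have k1 : Integrable (fun ω => B * X (sh e ω) + B * Y ω) (labP (W q)) :=
            (i3.const_mul B).add (hYi.const_mul B)
          have k2 : Integrable (fun ω => X (sh e ω) ^ 2 + Y ω ^ 2) (labP (W q)) := i4.add hY2
          rw [integral_add k1 k2, integral_add (i3.const_mul B) (hYi.const_mul B),
            integral_add i4 hY2, integral_const_mul, integral_const_mul,
            integral_sh e X, integral_sh e (fun ω => X ω ^ 2)]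
    _ ≤ _ := by
        have := est2_fin hB1 hC hE0 hX1 hY1 hXs hYs
        linarith

theorem sum_split (L : ℕ) (a b c d : ℕ → ℝ) (k1 k2 k3 : ℝ)
    (h : ∀ r, a r ≤ k1 * b r + (k2 * c r + k3 * d r)) :
    ∑ r ∈ Finset.range L, a r ≤ k1 * ∑ r ∈ Finset.range L, b r
      + (k2 * ∑ r ∈ Finset.range L, c r + k3 * ∑ r ∈ Finset.range L, d r) := by
  rw [Finset.mul_sum, Finset.mul_sum, Finset.mul_sum, ← Finset.sum_add_distrib,
    ← Finset.sum_add_distrib]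
  exact Finset.sum_le_sum fun r _ => h r

/-- the sum of the near levels -/
theorem near (hq : 2 ≤ q) {c C s : ℝ} (hs : 0 < s) (hC : 0 ≤ C)
    (h0 : 0 ≤ θ) (h1 : q * θ ^ 2 < 1) (hF : Facts q θ s c C M)
    (h0' : 0 ≤ θ') (h1' : q * θ' ^ 2 < 1) (hF' : Facts q θ' s c C M')
    {K1 K2 : ℝ} (hK1 : 0 ≤ K1) (hK2 : 0 ≤ K2)
    (hlip1 : ∀ θ θ' m n : ℝ, 0 ≤ θ → θ ≤ 3 / 4 → 0 ≤ θ' → θ' ≤ 3 / 4 → |m| ≤ 1 → |n| ≤ 1 →
      |gg θ m - gg θ' n| ≤ K1 * ((|m| + |n|) * |m - n| + |θ - θ'|))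
    (hlip2 : ∀ θ θ' m m' n n' : ℝ, 0 ≤ θ → θ ≤ 3 / 4 → 0 ≤ θ' → θ' ≤ 3 / 4 →
      |m| ≤ 1 → |m'| ≤ 1 → |n| ≤ 1 → |n'| ≤ 1 →
      |m - n| ≤ K2 * (|ein m' (θ * m) - ein n' (θ' * n)| + |ein m (θ * m') - ein n (θ' * n')|
      + |θ - θ'|)) (k L : ℕ) :
    ∑ r ∈ Finset.range L, wsum q (r + 1) (fun l => ∫ ω, RtI θ θ' M M' l ω ∂(labP (W q)))
      ≤ 72 * ((C / s + k + 1) * nn M M' + 4 * ((1 + C) * Real.exp (-(2 : ℝ) ^ k)))
        + 72 * (√(q : ℝ) + K1) ^ 2 * (3 * K2 ^ 2 * (C / s + k + 1) ^ 2 * (2 * nn M M' + |θ - θ'|)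
        + 16 * (1 + C) * (C / s + k + 1) ^ 2 * Real.exp (-(2 : ℝ) ^ k))
        + 18 * (√(q : ℝ) + K1) ^ 2 * (L ^ 3 * |θ - θ'|) := by
  have hqr : (0 : ℝ) < q := by exact_mod_cast (by omega : 0 < q)
  have hq2 : (2 : ℝ) ≤ q := by exact_mod_cast hq
  have hle : (q + 1) * (q : ℝ)⁻¹ ≤ 3 / 2 := by
    rw [← div_eq_mul_inv, div_le_iff₀ hqr]; linarith
  set K := √(q : ℝ) + K1 with hKdef
  have hK : 0 ≤ K := by positivity
  have hlip := fun (ω : Lab (W q)) e (hg : Good θ M ω) (hg' : Good θ' M' ω) =>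
    lip_aa hq h0 h1 h0' h1' hK1 hlip1 ω e hg hg'
  have hlev := fun r => level hq h0 h1 hF.sys h0' h1' hF'.sys hK hlip r
  have ht := th_lt hq h0 h1
  have ht' := th_lt hq h0' h1'
  have hδ := abs_nonneg (θ - θ')
  have hδ1 : |θ - θ'| ≤ 1 := by rw [abs_le]; constructor <;> linarith
  have hN : BM (fun ω => (M ω - M' ω) ^ 2) :=
    ((BM.ofM hF.sys.meas hF.sys.bd).sub (BM.ofM hF'.sys.meas hF'.sys.bd)).sq
  have hA := fun n e => BM.asum (BM.aa hq h0 h1 hF.sys) n e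
  have hA' := fun n e => BM.asum (BM.aa hq h0' h1' hF'.sys) n e
  have hD := BM.dd hq h0 h1 hF.sys h0' h1' hF'.sys
  -- first sum
  have t1 : ∑ r ∈ Finset.range L, ((q : ℝ)⁻¹ * ∑ i, ∫ ω, (M ω - M' ω) ^ 2 *
      Asum (aa θ' M') r i ω ∂(labP (W q)))
      ≤ 3 / 2 * ((C / s + k + 1) * nn M M' + 4 * ((1 + C) * Real.exp (-(2 : ℝ) ^ k))) := by
    rw [← Finset.mul_sum, Finset.sum_comm]
    have e1 : ∀ i ∈ (Finset.univ : Finset (Fin (q + 1))),
        ∑ r ∈ Finset.range L, ∫ ω, (M ω - M' ω) ^ 2 * Asum (aa θ' M') r i ω ∂(labP (W q))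
        ≤ (C / s + k + 1) * nn M M' + 4 * ((1 + C) * Real.exp (-(2 : ℝ) ^ k)) := by
      intro i _
      rw [← integral_fsum (Finset.range L) (fun r => hN.mul (hA' r i))]
      simp_rw [← Finset.mul_sum]
      exact est1 hq hs hC hF.sys h0' h1' hF' i k L
    have e2 := Finset.sum_le_sum e1
    rw [Finset.sum_const, Finset.card_univ, Fintype.card_fin, nsmul_eq_mul] at e2
    have hnn : 0 ≤ nn M M' := integral_nonneg fun ω => sq_nonneg _
    have hpos : 0 ≤ (C / s + k + 1) * nn M M' + 4 * ((1 + C) * Real.exp (-(2 : ℝ) ^ k)) := by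
      positivity
    calc _ ≤ (q : ℝ)⁻¹ * (((q + 1 : ℕ) : ℝ) *
          ((C / s + k + 1) * nn M M' + 4 * ((1 + C) * Real.exp (-(2 : ℝ) ^ k)))) :=
          mul_le_mul_of_nonneg_left e2 (by positivity)
      _ = ((q + 1) * (q : ℝ)⁻¹) *
          ((C / s + k + 1) * nn M M' + 4 * ((1 + C) * Real.exp (-(2 : ℝ) ^ k))) := by
          push_cast; ring
      _ ≤ _ := mul_le_mul_of_nonneg_right hle hpos
  -- second sum
  have t2 : ∑ r ∈ Finset.range L, ((q : ℝ)⁻¹ * ∑ j ∈ Finset.range (r + 1), ∑ e,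
      ∫ ω, DD θ θ' M M' e ω * (Asum (aa θ M) j e (sh e ω) * Asum (aa θ' M') (r - j) e ω)
        ∂(labP (W q)))
      ≤ 3 / 2 * (3 * K2 ^ 2 * (C / s + k + 1) ^ 2 * (2 * nn M M' + |θ - θ'|)
        + 16 * (1 + C) * (C / s + k + 1) ^ 2 * Real.exp (-(2 : ℝ) ^ k)) := by
    rw [← Finset.mul_sum]
    have e1 := tri_sum (fun j i => ∑ e, ∫ ω, DD θ θ' M M' e ω *
      (Asum (aa θ M) j e (sh e ω) * Asum (aa θ' M') i e ω) ∂(labP (W q))) (by
        intro j i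
        refine Finset.sum_nonneg fun e _ => integral_nonneg_of_ae ?_
        filter_upwards [goodAll_ae hF.sys, goodAll_ae hF'.sys] with ω g1 g2
        have d0 : 0 ≤ DD θ θ' M M' e ω := sq_nonneg _
        have a0 := (Asum_bounds hq h0 h1 j e (g1.shift e)).1
        have b0 := (Asum_bounds hq h0' h1' i e g2).1
        exact mul_nonneg d0 (mul_nonneg a0 b0)) L
    have e2 : ∑ j ∈ Finset.range L, ∑ i ∈ Finset.range L, ∑ e, ∫ ω, DD θ θ' M M' e ω *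
        (Asum (aa θ M) j e (sh e ω) * Asum (aa θ' M') i e ω) ∂(labP (W q))
        = ∑ e, ∫ ω, DD θ θ' M M' e ω * ((∑ n ∈ Finset.range L, Asum (aa θ M) n e (sh e ω)) *
        ∑ n ∈ Finset.range L, Asum (aa θ' M') n e ω) ∂(labP (W q)) := by
      have e3 : ∀ e, ∫ ω, DD θ θ' M M' e ω * ((∑ n ∈ Finset.range L,
          Asum (aa θ M) n e (sh e ω)) * ∑ n ∈ Finset.range L, Asum (aa θ' M') n e ω)
            ∂(labP (W q))
          = ∑ j ∈ Finset.range L, ∑ i ∈ Finset.range L, ∫ ω, DD θ θ' M M' e ω *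
        (Asum (aa θ M) j e (sh e ω) * Asum (aa θ' M') i e ω) ∂(labP (W q)) := by
        intro e
        have e4 : ∀ j, ∑ i ∈ Finset.range L, ∫ ω, DD θ θ' M M' e ω *
            (Asum (aa θ M) j e (sh e ω) * Asum (aa θ' M') i e ω) ∂(labP (W q))
            = ∫ ω, ∑ i ∈ Finset.range L, DD θ θ' M M' e ω *
            (Asum (aa θ M) j e (sh e ω) * Asum (aa θ' M') i e ω) ∂(labP (W q)) := fun j =>
          (integral_fsum (Finset.range L)
            (fun i => (hD e).mul (((hA j e).shi e).mul (hA' i e)))).symm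
        simp_rw [e4]
        rw [← integral_fsum (Finset.range L) (F := fun j ω => ∑ i ∈ Finset.range L,
          DD θ θ' M M' e ω * (Asum (aa θ M) j e (sh e ω) * Asum (aa θ' M') i e ω))
          (fun j => BM.sum _ (fun i => (hD e).mul (((hA j e).shi e).mul (hA' i e))))]
        refine integral_congr_ae (Eventually.of_forall fun ω => ?_)
        simp only
        rw [Finset.sum_mul_sum, Finset.mul_sum]
        refine Finset.sum_congr rfl fun j _ => ?_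
        rw [Finset.mul_sum]
      have e5 : ∀ j ∈ Finset.range L, ∑ i ∈ Finset.range L, ∑ e, ∫ ω, DD θ θ' M M' e ω *
          (Asum (aa θ M) j e (sh e ω) * Asum (aa θ' M') i e ω) ∂(labP (W q))
          = ∑ e, ∑ i ∈ Finset.range L, ∫ ω, DD θ θ' M M' e ω *
          (Asum (aa θ M) j e (sh e ω) * Asum (aa θ' M') i e ω) ∂(labP (W q)) :=
        fun j _ => Finset.sum_comm
      rw [Finset.sum_congr rfl e5, Finset.sum_comm]
      exact Finset.sum_congr rfl fun e _ => (e3 e).symm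
    have e6 : ∀ e ∈ (Finset.univ : Finset (Fin (q + 1))),
        ∫ ω, DD θ θ' M M' e ω * ((∑ n ∈ Finset.range L, Asum (aa θ M) n e (sh e ω)) *
        ∑ n ∈ Finset.range L, Asum (aa θ' M') n e ω) ∂(labP (W q))
        ≤ 3 * K2 ^ 2 * (C / s + k + 1) ^ 2 * (2 * nn M M' + |θ - θ'|)
        + 16 * (1 + C) * (C / s + k + 1) ^ 2 * Real.exp (-(2 : ℝ) ^ k) := fun e _ =>
      est2 hq hs hC h0 h1 hF h0' h1' hF' hK2 hlip2 e k L
    have e7 := Finset.sum_le_sum e6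
    rw [Finset.sum_const, Finset.card_univ, Fintype.card_fin, nsmul_eq_mul] at e7
    rw [e2] at e1
    have e8 := e1.trans e7
    have hnn : 0 ≤ nn M M' := integral_nonneg fun ω => sq_nonneg _
    have hpos : 0 ≤ 3 * K2 ^ 2 * (C / s + k + 1) ^ 2 * (2 * nn M M' + |θ - θ'|)
        + 16 * (1 + C) * (C / s + k + 1) ^ 2 * Real.exp (-(2 : ℝ) ^ k) := by positivity
    calc _ ≤ (q : ℝ)⁻¹ * (((q + 1 : ℕ) : ℝ) *
          (3 * K2 ^ 2 * (C / s + k + 1) ^ 2 * (2 * nn M M' + |θ - θ'|)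
        + 16 * (1 + C) * (C / s + k + 1) ^ 2 * Real.exp (-(2 : ℝ) ^ k))) :=
          mul_le_mul_of_nonneg_left e8 (by positivity)
      _ = ((q + 1) * (q : ℝ)⁻¹) *
          (3 * K2 ^ 2 * (C / s + k + 1) ^ 2 * (2 * nn M M' + |θ - θ'|)
        + 16 * (1 + C) * (C / s + k + 1) ^ 2 * Real.exp (-(2 : ℝ) ^ k)) := by
          push_cast; ring
      _ ≤ _ := mul_le_mul_of_nonneg_right hle hpos
  -- third sum
  have t3 : ∑ r ∈ Finset.range L, (((r : ℝ) + 1) * |θ - θ'|) ^ 2 ≤ L ^ 3 * |θ - θ'| := by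
    have e1 : ∀ r ∈ Finset.range L, (((r : ℝ) + 1) * |θ - θ'|) ^ 2 ≤ (L : ℝ) ^ 2 * |θ - θ'| := by
      intro r hr
      rw [Finset.mem_range] at hr
      have h3 : (r : ℝ) + 1 ≤ L := by exact_mod_cast hr
      rw [mul_pow]
      have h4 : ((r : ℝ) + 1) ^ 2 ≤ (L : ℝ) ^ 2 := pow_le_pow_left₀ (by positivity) h3 2
      have h5 : |θ - θ'| ^ 2 ≤ |θ - θ'| := by nlinarith
      exact mul_le_mul h4 h5 (by positivity) (by positivity)
    have e2 := Finset.sum_le_sum e1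
    rw [Finset.sum_const, Finset.card_range, nsmul_eq_mul] at e2
    calc _ ≤ _ := e2
      _ = _ := by ring
  have t0 := sum_split L _ _ _ _ _ _ _ hlev
  have hK2' : 0 ≤ K ^ 2 := sq_nonneg K
  have u2 := mul_le_mul_of_nonneg_left t2 (by positivity : 0 ≤ 48 * K ^ 2)
  have u3 := mul_le_mul_of_nonneg_left t3 (by positivity : 0 ≤ 18 * K ^ 2)
  linarith

end Crest.Agent.FreeIs.Coh

namespace Crest.Agent.FreeIs

open Crest.Agent.FreeIs.Rec Crest.Agent.FreeIs.Coh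

variable {q : ℕ}

theorem coh_real {c C K K2 N δ E s k B P L3 : ℝ} (hc : 0 < c) (hC : 0 < C) (hK0 : 0 ≤ K)
    (hnn : 0 ≤ N) (hδ : 0 ≤ δ) (hE : 0 < E) (hs : 0 < s) (hs1 : s ≤ 1) (hk : 0 ≤ k)
    (hB : B = C / s + k + 1) (hP0 : 0 ≤ P) (hL : 0 ≤ L3) :
    40 * N + (72 * (B * N + 4 * ((1 + C) * E)) + 72 * K ^ 2 * (3 * K2 ^ 2 * B ^ 2 * (2 * N + δ)
      + 16 * (1 + C) * B ^ 2 * E) + 18 * K ^ 2 * (L3 * δ)) + 204 * (P / (c * s))
    ≤ ((40 + 72 * ((C + 1) ^ 2 + 4 * (1 + C))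
    + 72 * K ^ 2 * (C + 1) ^ 2 * (9 * K2 ^ 2 + 16 * (1 + C))) + 18 * K ^ 2 + 204 / c) *
      ((1 / s + k) ^ 2 * (N + δ + E) + L3 * δ + (1 / s) * P) := by
  obtain ⟨R, hR⟩ : ∃ R : ℝ, R = 1 / s + k := ⟨_, rfl⟩
  rw [← hR]
  have h1s : 1 ≤ 1 / s := by rw [le_div_iff₀ hs]; linarith
  have hR1 : 1 ≤ R := by linarith
  have hCs : C / s = C * (1 / s) := by ring
  have hCs0 : 0 ≤ C / s := by positivity
  have hB0 : 0 ≤ B := by linarith
  have hB1 : 1 ≤ B := by linarith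
  have hBR : B ≤ (C + 1) * R := by
    rw [hB, hR, hCs]
    linarith [mul_nonneg hC.le hk]
  have hB2 : B ^ 2 ≤ (C + 1) ^ 2 * R ^ 2 := by
    rw [← mul_pow]; exact pow_le_pow_left₀ hB0 hBR 2
  have hR2 : 1 ≤ R ^ 2 := one_le_pow₀ hR1
  have hBB : B ≤ (C + 1) ^ 2 * R ^ 2 := by
    have : B ≤ B ^ 2 := by rw [pow_two]; exact le_mul_of_one_le_left hB0 hB1
    linarith
  obtain ⟨S, hS⟩ : ∃ S : ℝ, S = N + δ + E := ⟨_, rfl⟩
  rw [← hS]
  have hS0 : 0 ≤ S := by rw [hS]; positivity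
  have hNS : N ≤ S := by linarith
  have hES : E ≤ S := by linarith
  have q1 : 40 * N ≤ 40 * (R ^ 2 * S) := by
    have : N ≤ R ^ 2 * S := hNS.trans (le_mul_of_one_le_left hS0 hR2)
    linarith
  have q2 : 72 * (B * N + 4 * ((1 + C) * E)) ≤ 72 * ((C + 1) ^ 2 + 4 * (1 + C)) * (R ^ 2 * S) := by
    have a1 : B * N ≤ (C + 1) ^ 2 * R ^ 2 * S := mul_le_mul hBB hNS hnn (by positivity)
    have a2 : E ≤ R ^ 2 * S := hES.trans (le_mul_of_one_le_left hS0 hR2)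
    have a3 := mul_le_mul_of_nonneg_left a2 (by linarith : 0 ≤ 1 + C)
    linarith
  have q3 : 72 * K ^ 2 * (3 * K2 ^ 2 * B ^ 2 * (2 * N + δ) + 16 * (1 + C) * B ^ 2 * E)
      ≤ 72 * K ^ 2 * (C + 1) ^ 2 * (9 * K2 ^ 2 + 16 * (1 + C)) * (R ^ 2 * S) := by
    have a1 : 3 * K2 ^ 2 * B ^ 2 * (2 * N + δ) ≤ 3 * K2 ^ 2 * ((C + 1) ^ 2 * R ^ 2) * (3 * S) := by
      have b1 : 3 * K2 ^ 2 * B ^ 2 ≤ 3 * K2 ^ 2 * ((C + 1) ^ 2 * R ^ 2) :=
        mul_le_mul_of_nonneg_left hB2 (by positivity)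
      have b2 : 2 * N + δ ≤ 3 * S := by linarith
      exact mul_le_mul b1 b2 (by positivity) (by positivity)
    have a2 : 16 * (1 + C) * B ^ 2 * E ≤ 16 * (1 + C) * ((C + 1) ^ 2 * R ^ 2) * S := by
      have b1 : 16 * (1 + C) * B ^ 2 ≤ 16 * (1 + C) * ((C + 1) ^ 2 * R ^ 2) :=
        mul_le_mul_of_nonneg_left hB2 (by positivity)
      exact mul_le_mul b1 hES hE.le (by positivity)
    have a3 := mul_le_mul_of_nonneg_left (add_le_add a1 a2) (by positivity : 0 ≤ 72 * K ^ 2)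
    refine a3.trans (le_of_eq ?_)
    ring
  have q4 : 204 * (P / (c * s)) = 204 / c * ((1 / s) * P) := by
    field_simp
  obtain ⟨Y, hY⟩ : ∃ Y : ℝ, Y = (1 / s) * P := ⟨_, rfl⟩
  have hY0 : 0 ≤ Y := by rw [hY]; positivity
  obtain ⟨X, hX⟩ : ∃ X : ℝ, X = L3 * δ := ⟨_, rfl⟩
  have hX0 : 0 ≤ X := by rw [hX]; positivity
  obtain ⟨Z, hZ⟩ : ∃ Z : ℝ, Z = R ^ 2 * S := ⟨_, rfl⟩
  have hZ0 : 0 ≤ Z := by rw [hZ]; positivity
  rw [← hZ] at q1 q2 q3 ⊢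
  rw [← hY] at q4 ⊢
  rw [← hX]
  obtain ⟨k1, hk1⟩ : ∃ k1 : ℝ, k1 = 40 + 72 * ((C + 1) ^ 2 + 4 * (1 + C))
    + 72 * K ^ 2 * (C + 1) ^ 2 * (9 * K2 ^ 2 + 16 * (1 + C)) := ⟨_, rfl⟩
  have hk10 : 0 ≤ k1 := by rw [hk1]; positivity
  obtain ⟨k2, hk2⟩ : ∃ k2 : ℝ, k2 = 18 * K ^ 2 := ⟨_, rfl⟩
  have hk20 : 0 ≤ k2 := by rw [hk2]; positivity
  obtain ⟨k3, hk3⟩ : ∃ k3 : ℝ, k3 = 204 / c := ⟨_, rfl⟩
  have hk30 : 0 ≤ k3 := by rw [hk3]; positivity
  have tot : 40 * N + (72 * (B * N + 4 * ((1 + C) * E)) + 72 * K ^ 2 *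
      (3 * K2 ^ 2 * B ^ 2 * (2 * N + δ) + 16 * (1 + C) * B ^ 2 * E) + 18 * K ^ 2 * X)
      + 204 * (P / (c * s)) ≤ k1 * Z + k2 * X + k3 * Y := by
    rw [q4, hk1, hk2, hk3]
    linarith
  rw [← hk1, ← hk2, ← hk3]
  refine (le_trans ?_ (tot.trans ?_))
  · rw [hk2]
  · have e : (k1 + k2 + k3) * (Z + X + Y) = k1 * Z + k2 * X + k3 * Y + (k1 * X + k1 * Y + k2 * Z
      + k2 * Y + k3 * Z + k3 * X) := by ring
    rw [e]
    have := mul_nonneg hk10 hX0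
    have := mul_nonneg hk10 hY0
    have := mul_nonneg hk20 hZ0
    have := mul_nonneg hk20 hY0
    have := mul_nonneg hk30 hZ0
    have := mul_nonneg hk30 hX0
    linarith

theorem coh (hq : 2 ≤ q) {c C : ℝ} (hc : 0 < c) (hC : 0 < C) :
    ∃ C' : ℝ, 0 ≤ C' ∧ ∀ (θ θ' s : ℝ) (M M' : Lab (W q) → ℝ), 0 ≤ θ → q * θ ^ 2 < 1 → 0 ≤ θ' →
      q * θ' ^ 2 < 1 → 0 < s → s ≤ 1 → Facts q θ s c C M → Facts q θ' s c C M' →
      ∀ L k : ℕ, Rt θ θ' M M' ≤ C' * ((1 / s + k) ^ 2 * (nn M M' + |θ - θ'| + Real.exp (-(2 : ℝ) ^ k))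
        + L ^ 3 * |θ - θ'| + (1 / s) * (1 - c * s) ^ L) := by
  obtain ⟨K1, hK1, hlip1⟩ := gg_lip (θ0 := 3 / 4) (by norm_num) (by norm_num)
  obtain ⟨K2, hK2, hlip2⟩ := cav_lip (θ0 := 3 / 4) (by norm_num) (by norm_num)
  have hK0 : 0 ≤ √(q : ℝ) + K1 := by positivity
  refine ⟨(40 + 72 * ((C + 1) ^ 2 + 4 * (1 + C))
    + 72 * (√(q : ℝ) + K1) ^ 2 * (C + 1) ^ 2 * (9 * K2 ^ 2 + 16 * (1 + C)))
    + 18 * (√(q : ℝ) + K1) ^ 2 + 204 / c, by positivity, ?_⟩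
  intro θ θ' s M M' h0 h1 h0' h1' hs hs1 hF hF' L k
  have hsplit := Rt_split hq h0 h1.le h0' h1'.le hF hF' L
    (fun r => wsum q (r + 1) (fun l => ∫ ω, RtI θ θ' M M' l ω ∂(labP (W q))))
    (fun r => wsum_nonneg fun l => integral_nonneg fun ω => RtI_nonneg _ _ _ _ _ _)
    (fun r _ => le_rfl)
  have hnear := near hq hs hC.le h0 h1 hF h0' h1' hF' hK1 hK2 hlip1 hlip2 k L
  have hnn : 0 ≤ nn M M' := integral_nonneg fun ω => sq_nonneg _
  have hx0 : 0 ≤ 1 - c * s := by linarith [hF.cle]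
  have hfin := coh_real (K2 := K2) (B := C / s + k + 1) (P := (1 - c * s) ^ L)
    (L3 := (L : ℝ) ^ 3) hc hC hK0 hnn
    (abs_nonneg (θ - θ')) (Real.exp_pos (-(2 : ℝ) ^ k)) hs hs1 (Nat.cast_nonneg k) rfl
    (pow_nonneg hx0 L) (by positivity)
  linarith

/-- domination -/
theorem Rt_le (hq : 2 ≤ q) {c C : ℝ} (hc : 0 < c) (hC : 0 < C) :
    ∃ C' : ℝ, ∀ (θ θ' s : ℝ) (M M' : Lab (W q) → ℝ), 0 ≤ θ → q * θ ^ 2 < 1 → 0 ≤ θ' →
      q * θ' ^ 2 < 1 → 0 < s → s ≤ 1 → Facts q θ s c C M → Facts q θ' s c C M' →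
      Rt θ θ' M M' ≤ C' / s := by
  refine ⟨160 + 204 / c, ?_⟩
  intro θ θ' s M M' h0 h1 h0' h1' hs hs1 hF hF'
  have hsplit := Rt_split hq h0 h1.le h0' h1'.le hF hF' 0 (fun _ => 0) (fun _ => le_rfl)
    (fun r hr => absurd hr (by omega))
  simp only [Finset.range_zero, Finset.sum_empty, add_zero, pow_zero] at hsplit
  have hN : Coh.BM (fun ω => (M ω - M' ω) ^ 2) :=
    ((Coh.BM.ofM hF.sys.meas hF.sys.bd).sub (Coh.BM.ofM hF'.sys.meas hF'.sys.bd)).sq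
  have hnn : nn M M' ≤ 4 := by
    unfold nn
    calc ∫ ω, (M ω - M' ω) ^ 2 ∂(labP (W q)) ≤ ∫ ω, (4 : ℝ) ∂(labP (W q)) := by
          refine integral_mono hN.integrable (integrable_const _) fun ω => ?_
          have h5 : |M ω - M' ω| ≤ 2 :=
            (abs_sub _ _).trans (by linarith [hF.sys.bd ω, hF'.sys.bd ω])
          simp only
          rw [← sq_abs]; nlinarith [abs_nonneg (M ω - M' ω)]
      _ = 4 := by simp
  have e1 : 204 * (1 / (c * s)) = 204 / c / s := by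
    field_simp
  rw [e1] at hsplit
  rw [add_div]
  have e2 : 40 * nn M M' ≤ 160 / s := by
    rw [le_div_iff₀ hs]
    have : 0 ≤ nn M M' := integral_nonneg fun ω => sq_nonneg _
    nlinarith
  linarith

end Crest.Agent.FreeIs
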