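import Crest.Agent.FreeIs.Defs

/-!
Shared facts on single-site laws: `ein`, `comb`, `SiteLaw` closure, `msgLaw`, `muLaw`.
-/

set_option autoImplicit false
set_option linter.unusedVariables false

open MeasureTheory Filter Topology

namespace Crest.Agent.FreeIs

theorem measurable_ein : Measurable fun p : ℝ × ℝ => ein p.1 p.2 := by
  unfold ein; fun_prop

theorem ein_den_pos {x y τ τ' : ℝ} (hx : |x| ≤ τ) (hy : |y| ≤ τ') (h1 : τ < 1) (h2 : τ' ≤ 1) :
    0 < 1 + x * y := by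
  have hx' := abs_nonneg x
  have hy' := abs_nonneg y
  have h3 : |x * y| < 1 := by
    rw [abs_mul]
    nlinarith
  linarith [(abs_lt.1 h3).1]

theorem ein_comm (x y : ℝ) : ein x y = ein y x := by
  unfold ein; rw [add_comm, mul_comm]

theorem ein_neg (x y : ℝ) : ein (-x) (-y) = - ein x y := by
  unfold ein
  rw [← neg_div]
  congr 1
  · ring
  · ring

theorem ein_le_of {x y τ τ' : ℝ} (hx : |x| ≤ τ) (hy : |y| ≤ τ') (h1 : τ < 1) (h2 : τ' < 1) :
    ein x y ≤ (τ + τ') / (1 + τ * τ') := by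
  have hd := ein_den_pos hx hy h1 h2.le
  have hτ : 0 ≤ τ := (abs_nonneg x).trans hx
  have hτ' : 0 ≤ τ' := (abs_nonneg y).trans hy
  have hx2 := abs_le.1 hx
  have hy2 := abs_le.1 hy
  unfold ein
  rw [div_le_div_iff₀ hd (by positivity)]
  have e : (τ + τ') * (1 + x * y) - (x + y) * (1 + τ * τ')
      = (τ - x) * (1 + τ * τ' - (τ + τ') * y) + (τ' - y) * (1 - τ ^ 2) := by ring
  have a1 : 0 ≤ 1 + τ * τ' - (τ + τ') * y := by nlinarith
  have a2 : 0 ≤ 1 - τ ^ 2 := by nlinarith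
  have a3 := mul_nonneg (sub_nonneg.2 hx2.2) a1
  have a4 := mul_nonneg (sub_nonneg.2 hy2.2) a2
  linarith

theorem ein_abs_le {x y τ τ' : ℝ} (hx : |x| ≤ τ) (hy : |y| ≤ τ') (h1 : τ < 1) (h2 : τ' < 1) :
    |ein x y| ≤ (τ + τ') / (1 + τ * τ') := by
  rw [abs_le']
  refine ⟨ein_le_of hx hy h1 h2, ?_⟩
  rw [← ein_neg]
  exact ein_le_of (by rwa [abs_neg]) (by rwa [abs_neg]) h1 h2

theorem ein_tau_lt {τ τ' : ℝ} (h0 : 0 ≤ τ) (h1 : τ < 1) (h0' : 0 ≤ τ') (h2 : τ' < 1) :
    (τ + τ') / (1 + τ * τ') < 1 := by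
  rw [div_lt_one (by positivity)]
  nlinarith [mul_pos (sub_pos.2 h1) (sub_pos.2 h2)]

theorem ein_abs_lt {x y : ℝ} (hx : |x| < 1) (hy : |y| < 1) : |ein x y| < 1 :=
  (ein_abs_le le_rfl le_rfl hx hy).trans_lt (ein_tau_lt (abs_nonneg x) hx (abs_nonneg y) hy)

/-! ### symmetric laws -/

namespace SiteLaw

variable {π ρ : Measure ℝ} {τ τ' : ℝ}

theorem mono (hπ : SiteLaw π τ) (h : τ ≤ τ') (h1 : τ' < 1) : SiteLaw π τ' :=
  ⟨hπ.prob, hπ.symm, hπ.supp.mono fun _ ht => ht.trans h, h1, hπ.nonneg.trans h⟩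

theorem integral_neg (hπ : SiteLaw π τ) (f : ℝ → ℝ) : ∫ x, f (-x) ∂π = ∫ x, f x ∂π := by
  conv_rhs => rw [← hπ.symm]
  have e : MeasurableEmbedding (fun t : ℝ => -t) := (MeasurableEquiv.neg ℝ).measurableEmbedding
  rw [e.integral_map]

theorem integral_odd (hπ : SiteLaw π τ) (f : ℝ → ℝ) (hf : ∀ x, f (-x) = - f x) :
    ∫ x, f x ∂π = 0 := by
  have h := hπ.integral_neg f
  simp only [hf] at h
  rw [MeasureTheory.integral_neg] at h
  linarith

theorem integral_id (hπ : SiteLaw π τ) : ∫ x, x ∂π = 0 :=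
  hπ.integral_odd (fun x => x) fun _ => rfl

/-- integrability of a measurable function bounded on the support -/
theorem integrable (hπ : SiteLaw π τ) {f : ℝ → ℝ} (hf : Measurable f) {K : ℝ}
    (hK : ∀ x, |x| ≤ τ → |f x| ≤ K) : Integrable f π := by
  have := hπ.prob
  refine Integrable.of_bound hf.aestronglyMeasurable K ?_
  filter_upwards [hπ.supp] with x hx
  rw [Real.norm_eq_abs]
  exact hK x hx

theorem ae_prod (hπ : SiteLaw π τ) (hρ : SiteLaw ρ τ') :
    ∀ᵐ p ∂(π.prod ρ), |p.1| ≤ τ ∧ |p.2| ≤ τ' := by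
  have := hπ.prob
  have := hρ.prob
  have h1 : ∀ᵐ p ∂(π.prod ρ), |p.1| ≤ τ := Measure.quasiMeasurePreserving_fst.ae hπ.supp
  have h2 : ∀ᵐ p ∂(π.prod ρ), |p.2| ≤ τ' := Measure.quasiMeasurePreserving_snd.ae hρ.supp
  filter_upwards [h1, h2] with p a b using ⟨a, b⟩

theorem integrable_prod (hπ : SiteLaw π τ) (hρ : SiteLaw ρ τ') {f : ℝ × ℝ → ℝ}
    (hf : Measurable f) {K : ℝ} (hK : ∀ x y, |x| ≤ τ → |y| ≤ τ' → |f (x, y)| ≤ K) :
    Integrable f (π.prod ρ) := by
  have := hπ.prob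
  have := hρ.prob
  refine Integrable.of_bound hf.aestronglyMeasurable K ?_
  filter_upwards [hπ.ae_prod hρ] with p hp
  rw [Real.norm_eq_abs]
  exact hK p.1 p.2 hp.1 hp.2

end SiteLaw

theorem measurable_density : Measurable fun p : ℝ × ℝ => ENNReal.ofReal (1 + p.1 * p.2) := by
  fun_prop

/-- integrals with respect to `comb`, product form; no boundedness needed -/
theorem integral_comb {π ρ : Measure ℝ} {τ τ' : ℝ} (hπ : SiteLaw π τ) (hρ : SiteLaw ρ τ')
    {F : ℝ → ℝ} (hF : Measurable F) :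
    ∫ m, F m ∂(comb π ρ) = ∫ p : ℝ × ℝ, (1 + p.1 * p.2) * F (ein p.1 p.2) ∂(π.prod ρ) := by
  unfold comb
  rw [integral_map measurable_ein.aemeasurable hF.aestronglyMeasurable,
    integral_withDensity_eq_integral_toReal_smul measurable_density
      (ae_of_all _ fun _ => ENNReal.ofReal_lt_top)]
  refine integral_congr_ae ?_
  filter_upwards [hπ.ae_prod hρ] with p hp
  have := ein_den_pos hp.1 hp.2 hπ.lt hρ.lt.le
  rw [smul_eq_mul, ENNReal.toReal_ofReal this.le]

/-- integrals with respect to `comb`, iterated form -/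
theorem integral_comb_iter {π ρ : Measure ℝ} {τ τ' : ℝ} (hπ : SiteLaw π τ) (hρ : SiteLaw ρ τ')
    {F : ℝ → ℝ} (hF : Measurable F) {K : ℝ} (hK : ∀ x, |x| < 1 → |F x| ≤ K) :
    ∫ m, F m ∂(comb π ρ) = ∫ x, ∫ y, (1 + x * y) * F (ein x y) ∂ρ ∂π := by
  have := hπ.prob
  have := hρ.prob
  rw [integral_comb hπ hρ hF, integral_prod]
  have hm : Measurable fun p : ℝ × ℝ => (1 + p.1 * p.2) * F (ein p.1 p.2) :=
    (by fun_prop : Measurable fun p : ℝ × ℝ => (1 + p.1 * p.2)).mul (hF.comp measurable_ein)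
  refine hπ.integrable_prod hρ hm (K := 2 * K) fun x y hx hy => ?_
  have hx1 := hx.trans_lt hπ.lt
  have hy1 := hy.trans_lt hρ.lt
  have h1 := hK _ (ein_abs_lt hx1 hy1)
  rw [abs_mul]
  have h2 : |1 + x * y| ≤ 2 := by
    have : |x * y| ≤ 1 := by
      rw [abs_mul]
      nlinarith [abs_nonneg x, abs_nonneg y]
    have := abs_le.1 this
    rw [abs_le]; constructor <;> linarith
  exact mul_le_mul h2 h1 (abs_nonneg _) (by norm_num)

namespace SiteLaw

variable {π ρ : Measure ℝ} {τ τ' : ℝ}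

theorem integral_prod_odd (hπ : SiteLaw π τ) (hρ : SiteLaw ρ τ') (f : ℝ × ℝ → ℝ) :
    ∫ p, f (-p.1, -p.2) ∂(π.prod ρ) = ∫ p, f p ∂(π.prod ρ) := by
  have := hπ.prob
  have := hρ.prob
  have e : MeasurableEmbedding (fun t : ℝ × ℝ => -t) :=
    (MeasurableEquiv.neg (ℝ × ℝ)).measurableEmbedding
  have h : (π.prod ρ).map (fun t : ℝ × ℝ => -t) = π.prod ρ := by
    have := Measure.map_prod_map π ρ (measurable_neg : Measurable fun t : ℝ => -t)
      (measurable_neg : Measurable fun t : ℝ => -t)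
    rw [hπ.symm, hρ.symm] at this
    exact this.symm
  conv_rhs => rw [← h]
  rw [e.integral_map]
  rfl

/-- the combination of two site laws -/
protected theorem comb (hπ : SiteLaw π τ) (hρ : SiteLaw ρ τ') :
    SiteLaw (comb π ρ) ((τ + τ') / (1 + τ * τ')) := by
  have := hπ.prob
  have := hρ.prob
  have hprob : IsProbabilityMeasure (comb π ρ) := by
    constructor
    unfold comb
    rw [Measure.map_apply measurable_ein MeasurableSet.univ, Set.preimage_univ,
      withDensity_apply _ MeasurableSet.univ, Measure.restrict_univ,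
      ← ofReal_integral_eq_lintegral_ofReal]
    · rw [integral_add (integrable_const _)]
      · have : ∫ p : ℝ × ℝ, p.1 * p.2 ∂(π.prod ρ) = 0 := by
          rw [integral_prod_mul (fun x : ℝ => x) (fun y : ℝ => y), hπ.integral_id, zero_mul]
        rw [this]
        simp
      · exact hπ.integrable_prod hρ (by fun_prop) (K := 1) fun x y hx hy => by
          have hx1 := hx.trans_lt hπ.lt
          have hy1 := hy.trans_lt hρ.lt
          simp only [abs_mul]
          nlinarith [abs_nonneg x, abs_nonneg y]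
    · exact hπ.integrable_prod hρ (by fun_prop) (K := 2) fun x y hx hy => by
        have hx1 := hx.trans_lt hπ.lt
        have hy1 := hy.trans_lt hρ.lt
        have : |x * y| ≤ 1 := by
          rw [abs_mul]
          nlinarith [abs_nonneg x, abs_nonneg y]
        have := abs_le.1 this
        rw [abs_le]; constructor <;> linarith
    · filter_upwards [hπ.ae_prod hρ] with p hp
      exact (ein_den_pos hp.1 hp.2 hπ.lt hρ.lt.le).le
  refine ⟨hprob, ?_, ?_, ein_tau_lt hπ.nonneg hπ.lt hρ.nonneg hρ.lt, ?_⟩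
  · have : IsProbabilityMeasure ((comb π ρ).map (fun t => -t)) :=
      Measure.isProbabilityMeasure_map measurable_neg.aemeasurable
    refine ext_of_forall_integral_eq_of_IsFiniteMeasure fun f => ?_
    have e : MeasurableEmbedding (fun t : ℝ => -t) := (MeasurableEquiv.neg ℝ).measurableEmbedding
    rw [e.integral_map]
    have hf : Measurable f := f.continuous.measurable
    rw [integral_comb hπ hρ (F := fun x => f (-x)) (hf.comp measurable_neg),
      integral_comb hπ hρ hf]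
    rw [← hπ.integral_prod_odd hρ (fun p => (1 + p.1 * p.2) * f (ein p.1 p.2))]
    refine integral_congr_ae (ae_of_all _ fun p => ?_)
    simp only [ein_neg, neg_mul_neg]
  · unfold FreeIs.comb
    have hs : MeasurableSet {x : ℝ | |x| ≤ (τ + τ') / (1 + τ * τ')} :=
      measurableSet_le (by fun_prop) measurable_const
    rw [ae_map_iff measurable_ein.aemeasurable hs]
    refine (withDensity_absolutelyContinuous _ _).ae_le ?_
    filter_upwards [hπ.ae_prod hρ] with p hp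
    exact ein_abs_le hp.1 hp.2 hπ.lt hρ.lt
  · have := hπ.nonneg
    have := hρ.nonneg
    positivity

/-- scaling of a site law -/
protected theorem scale (hπ : SiteLaw π τ) {θ : ℝ} (h0 : 0 ≤ θ) (h1 : θ ≤ 1) :
    SiteLaw (π.map (fun m => θ * m)) (θ * τ) := by
  have := hπ.prob
  have hm : Measurable fun m : ℝ => θ * m := by fun_prop
  refine ⟨Measure.isProbabilityMeasure_map hm.aemeasurable, ?_, ?_, ?_, mul_nonneg h0 hπ.nonneg⟩
  · rw [Measure.map_map (by fun_prop) hm]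
    conv_rhs => rw [← hπ.symm, Measure.map_map hm (by fun_prop)]
    congr 1
    funext t
    simp
  · rw [ae_map_iff hm.aemeasurable (measurableSet_le (by fun_prop) measurable_const)]
    filter_upwards [hπ.supp] with t ht
    rw [abs_mul, abs_of_nonneg h0]
    exact mul_le_mul_of_nonneg_left ht h0
  · have := hπ.nonneg
    nlinarith [hπ.lt]

theorem integral_scale (π : Measure ℝ) (θ : ℝ) {F : ℝ → ℝ} (hF : Measurable F) :
    ∫ m, F m ∂(π.map (fun m => θ * m)) = ∫ m, F (θ * m) ∂π := by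
  rw [integral_map (by fun_prop) hF.aestronglyMeasurable]

/-- iterated combination -/
theorem iter (hπ : SiteLaw π τ) (hρ : SiteLaw ρ τ') (n : ℕ) :
    ∃ σ : ℝ, SiteLaw ((fun μ => FreeIs.comb μ ρ)^[n] π) σ := by
  induction n with
  | zero => exact ⟨τ, hπ⟩
  | succ n ih =>
    obtain ⟨σ, hσ⟩ := ih
    rw [Function.iterate_succ_apply']
    exact ⟨_, hσ.comb hρ⟩

end SiteLaw

theorem msgLaw_site (q : ℕ) {θ : ℝ} (h0 : 0 ≤ θ) (h1 : θ ≤ 1) {π : Measure ℝ} {τ : ℝ}
    (hπ : SiteLaw π τ) (N : ℕ) : ∃ τ' : ℝ, SiteLaw (msgLaw q θ π N) τ' := by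
  induction N with
  | zero => exact ⟨τ, hπ⟩
  | succ N ih =>
    obtain ⟨σ, hσ⟩ := ih
    exact hπ.iter (hσ.scale h0 h1) q

theorem muLaw_site (q : ℕ) {θ : ℝ} (h0 : 0 ≤ θ) (h1 : θ ≤ 1) {π : Measure ℝ} {τ : ℝ}
    (hπ : SiteLaw π τ) (N : ℕ) : ∃ τ' : ℝ, SiteLaw (muLaw q θ π N) τ' := by
  obtain ⟨σ, hσ⟩ := msgLaw_site q h0 h1 hπ N
  exact hπ.iter (hσ.scale h0 h1) (q - 1)

theorem msgLaw_succ (q : ℕ) (θ : ℝ) (π : Measure ℝ) (N : ℕ) :
    msgLaw q θ π (N + 1) = (fun μ => comb μ ((msgLaw q θ π N).map (fun m => θ * m)))^[q] π := rfl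

/-- one distinguished child -/
theorem msgLaw_succ_mu {q : ℕ} (hq : 1 ≤ q) (θ : ℝ) (π : Measure ℝ) (N : ℕ) :
    msgLaw q θ π (N + 1) = comb (muLaw q θ π N) ((msgLaw q θ π N).map (fun m => θ * m)) := by
  rw [msgLaw_succ, muLaw]
  obtain ⟨k, rfl⟩ : ∃ k, q = k + 1 := ⟨q - 1, by omega⟩
  rw [Function.iterate_succ_apply']
  simp

end Crest.Agent.FreeIs
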