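import Crest.Agent.FreeIs.ConeRec

/-!
Planted measures on the cones (module CB of S0241): integral identities.
-/

set_option autoImplicit false
set_option linter.unusedVariables false

open MeasureTheory Filter Topology

namespace Crest.Agent.FreeIs

namespace CB

variable {q : ℕ}

/-- one child is decoupled from everything else -/
theorem step {θ : ℝ} (h0 : 0 ≤ θ) (h1 : θ < 1) {π : Measure ℝ} {τ : ℝ} (hπ : SiteLaw π τ)
    {i j : Fin (q + 1)} (hij : j ≠ i) {J : Finset (Fin (q + 1))} (hj : j ∉ J) (hJ : i ∉ J) (N : ℕ)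
    {f : (W q → ℝ) → ℝ} (hf : BC f)
    (hfd : ∀ t t' : W q → ℝ, (∀ x : W q, ¬ [i, j] <+: x.1 → t x = t' x) → f t = f t')
    {K : ℝ → (W q → ℝ) → ℝ} (hK : Measurable (Function.uncurry K))
    (hKb : ∃ B, ∀ x t, |x| < 1 → (∀ w, |t w| < 1) → |K x t| ≤ B)
    (hKd : ∀ x (t t' : W q → ℝ), (∀ w ∈ wcone (toW [j]) N, t w = t' w) → K x t = K x t') :
    ∫ t, f t * K (mu θ i N J t) (fun w => t (tog i w)) ∂(Measure.infinitePi fun _ : W q => π)
      = ∫ t, f t * (∫ s, K (mu θ i N J t) s ∂(Measure.infinitePi fun _ : W q => π))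
          ∂(Measure.infinitePi fun _ : W q => π) := by
  have := hπ.prob
  have hmt : Measurable fun (t : W q → ℝ) (w : W q) => t (tog i w) :=
    measurable_pi_lambda _ fun v => measurable_pi_apply _
  have hH : Measurable (Function.uncurry fun (t s : W q → ℝ) =>
      f t * K (mu θ i N J t) (fun w => s (tog i w))) := by
    have h2 : Measurable fun p : (W q → ℝ) × (W q → ℝ) =>
        (mu θ i N J p.1, fun w => p.2 (tog i w)) :=
      ((mu_BC i N J h0 h1).meas.comp measurable_fst).prodMk (hmt.comp measurable_snd)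
    exact (hf.meas.comp measurable_fst).mul (hK.comp h2)
  obtain ⟨B, hB⟩ := hKb
  obtain ⟨F, hF⟩ := hf.bd
  have hdec := decouple (π := π) {x : W q | ¬ [i, j] <+: x.1}
    (H := fun t s => f t * K (mu θ i N J t) (fun w => s (tog i w))) hH ?_ ?_ ?_
  · rw [hdec]
    refine integral_congr_ae (ae_of_all _ fun t => ?_)
    simp only
    rw [integral_const_mul]
    congr 1
    exact integral_perm (Rec.togE i) (fun s => K (mu θ i N J t) s)
  · intro t t' s h
    have h2 := mu_congr (θ := θ) i N hij hj hJ h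
    rw [hfd t t' h]
    unfold mu
    rw [h2.1.1, h2.1.2]
  · intro t s s' h
    congr 1
    refine hKd _ _ _ fun w hw => h _ ?_
    rw [mem_cone1] at hw
    obtain ⟨_, m, hm⟩ := hw
    simp only [Set.mem_ofPred_eq, not_not]
    rw [tog_val_ne hij (l := m) hm.symm]
    exact ⟨m, rfl⟩
  · refine hπ.integrable_cube2 hH (K := F * B) fun t s ht hs => ?_
    rw [abs_mul]
    have h3 := hB _ (fun w => s (tog i w)) (mu_abs_lt i N J h0 h1 ht) (fun w => hs _)
    exact mul_le_mul (hF t ht) h3 (abs_nonneg _) ((abs_nonneg _).trans (hF t ht))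

theorem measurable_K1 {θ : ℝ} (j : Fin (q + 1)) (N : ℕ) {Φ : ℝ → ℝ} (hΦ : Measurable Φ) :
    Measurable (Function.uncurry fun (x : ℝ) (s : W q → ℝ) =>
      (1 + x * (θ * cmsg θ j N s (toW [j]))) * Φ (ein x (θ * cmsg θ j N s (toW [j])))) := by
  have h1 : Measurable fun p : ℝ × (W q → ℝ) => θ * cmsg θ j N p.2 (toW [j]) :=
    ((measurable_cmsg j N _).comp measurable_snd).const_mul _
  have h2 : Measurable fun p : ℝ × (W q → ℝ) => ein p.1 (θ * cmsg θ j N p.2 (toW [j])) :=
    measurable_ein.comp (measurable_fst.prodMk h1)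
  exact ((measurable_fst.mul h1).const_add 1).mul (hΦ.comp h2)

theorem K1_bd {θ : ℝ} (h0 : 0 ≤ θ) (h1 : θ < 1) {Φ : ℝ → ℝ} {B : ℝ}
    (hB : ∀ x, |x| < 1 → |Φ x| ≤ B) {x m : ℝ} (hx : |x| < 1) (hm : |m| < 1) :
    |(1 + x * (θ * m)) * Φ (ein x (θ * m))| ≤ 2 * B := by
  have h2 := scaled_abs_lt h0 h1 hm
  have h3 := hB _ (ein_abs_lt hx h2)
  rw [abs_mul]
  have h4 : |1 + x * (θ * m)| ≤ 2 := by
    have : |x * (θ * m)| ≤ 1 := by
      rw [abs_mul]
      nlinarith [abs_nonneg x, abs_nonneg (θ * m)]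
    have := abs_le.1 this
    rw [abs_le]; constructor <;> linarith
  exact mul_le_mul h4 h3 (abs_nonneg _) (by norm_num)

/-- law of the magnetisation from the own tilt and a set of children -/
theorem comb_law {θ : ℝ} (h0 : 0 ≤ θ) (h1 : θ < 1) {π : Measure ℝ} {τ : ℝ} (hπ : SiteLaw π τ)
    (N : ℕ)
    (hmsg : ∀ (j : Fin (q + 1)) (Φ : ℝ → ℝ), Measurable Φ → (∃ B, ∀ x, |x| < 1 → |Φ x| ≤ B) →
      ∫ t, Φ (cmsg θ j N t (toW [j])) * Zc θ j N t ∂(Measure.infinitePi fun _ : W q => π)
        = ∫ m, Φ m ∂(msgLaw q θ π N))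
    (i : Fin (q + 1)) (J : Finset (Fin (q + 1))) (hJ : i ∉ J) (Φ : ℝ → ℝ) (hΦ : Measurable Φ)
    (hΦb : ∃ B, ∀ x, |x| < 1 → |Φ x| ≤ B) :
    ∫ t, Φ (mu θ i N J t) * ZJ θ i N J t ∂(Measure.infinitePi fun _ : W q => π)
      = ∫ x, Φ x ∂((fun μ => comb μ ((msgLaw q θ π N).map (fun m => θ * m)))^[J.card] π) := by
  have := hπ.prob
  obtain ⟨σ, hσ⟩ := msgLaw_site q h0 h1.le hπ N
  have := hσ.prob
  have hρ := hσ.scale h0 h1.le
  have := hρ.prob
  induction J using Finset.induction_on generalizing Φ with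
  | empty =>
    simp only [mu_empty, ZJ_empty, mul_one, Finset.card_empty, Function.iterate_zero, id_eq]
    have hmp := measurePreserving_eval_infinitePi (fun _ : W q => π) (toW [i])
    conv_rhs => rw [← hmp.map_eq]
    rw [integral_map (measurable_pi_apply _).aemeasurable hΦ.aestronglyMeasurable]
  | insert j J hj ih =>
    have hJ' : i ∉ J := fun h => hJ (Finset.mem_insert_of_mem h)
    have hij : j ≠ i := fun h => hJ (h ▸ Finset.mem_insert_self _ _)
    obtain ⟨B, hB⟩ := hΦb
    set ρ := (msgLaw q θ π N).map (fun m => θ * m) with hρdef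
    have hstep := step h0 h1 hπ hij hj hJ' N (f := ZJ θ i N J) (ZJ_BC i N J h0 h1)
      (fun t t' h => ZJ_congr i N hij hj hJ' h)
      (K := fun x s => (1 + x * (θ * cmsg θ j N s (toW [j])))
        * Φ (ein x (θ * cmsg θ j N s (toW [j]))) * Zc θ j N s)
      ((measurable_K1 j N hΦ).mul ((Zc_BC h0 h1.le j N).meas.comp measurable_snd)) ?_ ?_
    · have e1 : ∫ t, Φ (mu θ i N (insert j J) t) * ZJ θ i N (insert j J) t
          ∂(Measure.infinitePi fun _ : W q => π)
          = ∫ t, ZJ θ i N J t * ((1 + mu θ i N J t * (θ * cmsg θ j N (fun w => t (tog i w)) (toW [j])))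
        * Φ (ein (mu θ i N J t) (θ * cmsg θ j N (fun w => t (tog i w)) (toW [j])))
          * Zc θ j N (fun w => t (tog i w))) ∂(Measure.infinitePi fun _ : W q => π) := by
        refine integral_congr_ae ?_
        filter_upwards [hπ.ae_cube1 (ι := W q)] with t ht
        rw [mu_insert i N h0 h1 hj ht, ZJ_insert i N h0 h1 hj ht]
        unfold rr
        ring
      rw [e1, hstep]
      have e2 : ∫ t, ZJ θ i N J t * ∫ s, (1 + mu θ i N J t * (θ * cmsg θ j N s (toW [j])))
          * Φ (ein (mu θ i N J t) (θ * cmsg θ j N s (toW [j]))) * Zc θ j N s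
            ∂(Measure.infinitePi fun _ : W q => π) ∂(Measure.infinitePi fun _ : W q => π)
          = ∫ t, (∫ y, (1 + mu θ i N J t * y) * Φ (ein (mu θ i N J t) y) ∂ρ) * ZJ θ i N J t
            ∂(Measure.infinitePi fun _ : W q => π) := by
        refine integral_congr_ae ?_
        filter_upwards [hπ.ae_cube1 (ι := W q)] with t ht
        have hx := mu_abs_lt i N J h0 h1 ht
        have hm1 : Measurable fun y : ℝ => (1 + mu θ i N J t * y) * Φ (ein (mu θ i N J t) y) :=
          ((measurable_const.mul measurable_id).const_add 1).mul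
            (hΦ.comp (measurable_ein.comp (measurable_const.prodMk measurable_id)))
        rw [hmsg j (fun m => (1 + mu θ i N J t * (θ * m)) * Φ (ein (mu θ i N J t) (θ * m)))
          (hm1.comp (measurable_id.const_mul θ)) ⟨2 * B, fun x hx' => K1_bd h0 h1 hB hx hx'⟩,
          hρdef, SiteLaw.integral_scale _ θ hm1]
        ring
      rw [e2, ih hJ' (fun x => ∫ y, (1 + x * y) * Φ (ein x y) ∂ρ) ?_ ?_]
      · obtain ⟨σ', hσ'⟩ := hπ.iter hρ J.card
        rw [Finset.card_insert_of_notMem hj, Function.iterate_succ_apply',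
          integral_comb_iter hσ' hρ hΦ hB]
      · have hm2 : Measurable (Function.uncurry fun (x y : ℝ) => (1 + x * y) * Φ (ein x y)) :=
          ((measurable_fst.mul measurable_snd).const_add 1).mul (hΦ.comp measurable_ein)
        exact hm2.stronglyMeasurable.integral_prod_right.measurable
      · refine ⟨2 * B, fun x hx => ?_⟩
        rw [← Real.norm_eq_abs]
        have h3 : ∀ᵐ y ∂ρ, ‖(1 + x * y) * Φ (ein x y)‖ ≤ 2 * B := by
          filter_upwards [hρ.supp] with y hy
          have hy1 : |y| < 1 := hy.trans_lt hρ.lt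
          rw [Real.norm_eq_abs, abs_mul]
          have h4 : |1 + x * y| ≤ 2 := by
            have : |x * y| ≤ 1 := by
              rw [abs_mul]
              nlinarith [abs_nonneg x, abs_nonneg y]
            have := abs_le.1 this
            rw [abs_le]; constructor <;> linarith
          exact mul_le_mul h4 (hB _ (ein_abs_lt hx hy1)) (abs_nonneg _) (by norm_num)
        have := norm_integral_le_of_norm_le_const h3
        simpa using this
    · obtain ⟨L, hL⟩ := (Zc_BC h0 h1.le j N (q := q)).bd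
      refine ⟨2 * B * L, fun x t hx ht => ?_⟩
      rw [abs_mul]
      have hB0 : 0 ≤ B := (abs_nonneg _).trans (hB 0 (by norm_num))
      exact mul_le_mul (K1_bd h0 h1 hB hx (cmsg_abs_lt h0 h1 j N ht _)) (hL t ht)
        (abs_nonneg _) (by linarith)
    · intro x t t' h
      rw [cmsg_congr θ j N h, Zc_congr θ j N h]

/-- law of the message of a cone -/
theorem msg_law {θ : ℝ} (h0 : 0 ≤ θ) (h1 : θ < 1) {π : Measure ℝ} {τ : ℝ} (hπ : SiteLaw π τ)
    (N : ℕ) : ∀ (i : Fin (q + 1)) (Φ : ℝ → ℝ), Measurable Φ → (∃ B, ∀ x, |x| < 1 → |Φ x| ≤ B) →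
      ∫ t, Φ (cmsg θ i N t (toW [i])) * Zc θ i N t ∂(Measure.infinitePi fun _ : W q => π)
        = ∫ m, Φ m ∂(msgLaw q θ π N) := by
  have := hπ.prob
  induction N with
  | zero =>
    intro i Φ hΦ hΦb
    have e1 : ∫ t, Φ (cmsg θ i 0 t (toW [i])) * Zc θ i 0 t ∂(Measure.infinitePi fun _ : W q => π)
        = ∫ t, Φ (t (toW [i])) ∂(Measure.infinitePi fun _ : W q => π) := by
      refine integral_congr_ae ?_
      filter_upwards [hπ.ae_cube1 (ι := W q)] with t ht
      rw [(cone_zero i h0 h1 ht).1, (cone_zero i h0 h1 ht).2, mul_one]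
    rw [e1]
    have hmp := measurePreserving_eval_infinitePi (fun _ : W q => π) (toW [i])
    change _ = ∫ m, Φ m ∂π
    conv_rhs => rw [← hmp.map_eq]
    rw [integral_map (measurable_pi_apply _).aemeasurable hΦ.aestronglyMeasurable]
  | succ N ih =>
    intro i Φ hΦ hΦb
    have e1 : ∫ t, Φ (cmsg θ i (N + 1) t (toW [i])) * Zc θ i (N + 1) t
        ∂(Measure.infinitePi fun _ : W q => π)
        = ∫ t, Φ (mu θ i N (Finset.univ.erase i) t) * ZJ θ i N (Finset.univ.erase i) t
          ∂(Measure.infinitePi fun _ : W q => π) := by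
      refine integral_congr_ae ?_
      filter_upwards [hπ.ae_cube1 (ι := W q)] with t ht
      rw [(cone_succ i N h0 h1 ht).1, (cone_succ i N h0 h1 ht).2]
    rw [e1, comb_law h0 h1 hπ N ih i _ (Finset.notMem_erase i _) Φ hΦ hΦb, msgLaw_succ]
    congr 2
    rw [Finset.card_erase_of_mem (Finset.mem_univ _)]
    simp

end CB

open CB

variable {q : ℕ}

theorem coneE_msg {θ : ℝ} (h0 : 0 ≤ θ) (h1 : θ < 1) {π : Measure ℝ} {τ : ℝ} (hπ : SiteLaw π τ)
    (i : Fin (q + 1)) (N : ℕ) (F : ℝ → ℝ) (hF : Measurable F) (hFb : ∃ K, ∀ x, |F x| ≤ K) :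
    (coneE θ π i N fun t => F (cmsg θ i N t (toW [i]))) = ∫ m, F m ∂(msgLaw q θ π N) := by
  obtain ⟨K, hK⟩ := hFb
  exact msg_law h0 h1 hπ N i F hF ⟨K, fun x _ => hK x⟩

theorem coneE_one {θ : ℝ} (h0 : 0 ≤ θ) (h1 : θ < 1) {π : Measure ℝ} {τ : ℝ} (hπ : SiteLaw π τ)
    (i : Fin (q + 1)) (N : ℕ) : (coneE θ π i N fun _ => 1) = 1 := by
  have h2 := coneE_msg h0 h1 hπ i N (fun _ => 1) measurable_const ⟨1, fun _ => by simp⟩
  rw [h2]
  obtain ⟨σ, hσ⟩ := msgLaw_site q h0 h1.le hπ N
  have := hσ.prob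
  simp

/-- one distinguished child `j0` -/
theorem coneE_child {θ : ℝ} (h0 : 0 ≤ θ) (h1 : θ < 1) {π : Measure ℝ} {τ : ℝ} (hπ : SiteLaw π τ)
    {i j0 : Fin (q + 1)} (hij : j0 ≠ i) (N : ℕ) (F : ℝ → ℝ) (hF : Measurable F)
    (hFb : ∃ K, ∀ x, |F x| ≤ K) (G : (W q → ℝ) → ℝ) (hG : Measurable G) (hGb : ∃ K, ∀ t, |G t| ≤ K)
    (hGd : ∀ t t' : W q → ℝ, (∀ w ∈ wcone (toW [j0]) N, t w = t' w) → G t = G t') :
    (coneE θ π i (N + 1) fun t => F (cmsg θ i (N + 1) t (toW [i])) * G (fun w => t (tog i w)))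
      = ∫ μ, (coneE θ π j0 N fun t => F (ein μ (θ * cmsg θ j0 N t (toW [j0]))) *
          (1 + μ * (θ * cmsg θ j0 N t (toW [j0]))) * G t) ∂(muLaw q θ π N) := by
  have := hπ.prob
  obtain ⟨B, hB⟩ := hFb
  obtain ⟨C, hC⟩ := hGb
  obtain ⟨L, hL⟩ := (Zc_BC h0 h1.le j0 N (q := q)).bd
  have hB0 : 0 ≤ B := (abs_nonneg _).trans (hB 0)
  have hC0 : 0 ≤ C := (abs_nonneg _).trans (hC 0)
  set J : Finset (Fin (q + 1)) := (Finset.univ.erase i).erase j0 with hJdef
  have hj : j0 ∉ J := Finset.notMem_erase _ _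
  have hJ : i ∉ J := fun h => Finset.notMem_erase i _ (Finset.mem_of_mem_erase h)
  have hins : insert j0 J = Finset.univ.erase i :=
    Finset.insert_erase (Finset.mem_erase.2 ⟨hij, Finset.mem_univ _⟩)
  have hKm : Measurable (Function.uncurry fun (x : ℝ) (s : W q → ℝ) =>
      (1 + x * (θ * cmsg θ j0 N s (toW [j0])))
        * F (ein x (θ * cmsg θ j0 N s (toW [j0]))) * G s * Zc θ j0 N s) :=
    ((measurable_K1 j0 N hF).mul (hG.comp measurable_snd)).mul
      ((Zc_BC h0 h1.le j0 N).meas.comp measurable_snd)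
  have hKb : ∀ (x : ℝ) (s : W q → ℝ), |x| < 1 → (∀ w, |s w| < 1) →
      |(1 + x * (θ * cmsg θ j0 N s (toW [j0])))
        * F (ein x (θ * cmsg θ j0 N s (toW [j0]))) * G s * Zc θ j0 N s| ≤ 2 * B * C * L := by
    intro x t hx ht
    rw [abs_mul, abs_mul]
    refine mul_le_mul (mul_le_mul (K1_bd h0 h1 (fun x _ => hB x) hx
      (cmsg_abs_lt h0 h1 j0 N ht _)) (hC t) (abs_nonneg _) (by linarith)) (hL t ht)
        (abs_nonneg _) (by positivity)
  have hstep := step h0 h1 hπ hij hj hJ N (f := ZJ θ i N J) (ZJ_BC i N J h0 h1)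
    (fun t t' h => ZJ_congr i N hij hj hJ h)
    (K := fun x s => (1 + x * (θ * cmsg θ j0 N s (toW [j0])))
      * F (ein x (θ * cmsg θ j0 N s (toW [j0]))) * G s * Zc θ j0 N s)
    hKm ⟨_, hKb⟩ ?_
  · have e1 : (coneE θ π i (N + 1) fun t => F (cmsg θ i (N + 1) t (toW [i]))
          * G (fun w => t (tog i w)))
        = ∫ t, ZJ θ i N J t * ((1 + mu θ i N J t * (θ * cmsg θ j0 N (fun w => t (tog i w)) (toW [j0])))
        * F (ein (mu θ i N J t) (θ * cmsg θ j0 N (fun w => t (tog i w)) (toW [j0])))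
          * G (fun w => t (tog i w)) * Zc θ j0 N (fun w => t (tog i w)))
            ∂(Measure.infinitePi fun _ : W q => π) := by
      unfold coneE
      refine integral_congr_ae ?_
      filter_upwards [hπ.ae_cube1 (ι := W q)] with t ht
      change F (cmsg θ i (N + 1) t (toW [i])) * G (fun w => t (tog i w)) * Zc θ i (N + 1) t = _
      rw [(cone_succ i N h0 h1 ht).1, (cone_succ i N h0 h1 ht).2, ← hins,
        mu_insert i N h0 h1 hj ht, ZJ_insert i N h0 h1 hj ht]
      unfold rr
      ring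
    rw [e1, hstep]
    have hcard : J.card = q - 1 := by
      rw [hJdef, Finset.card_erase_of_mem (Finset.mem_erase.2 ⟨hij, Finset.mem_univ _⟩),
        Finset.card_erase_of_mem (Finset.mem_univ _)]
      simp
    have hlaw := comb_law h0 h1 hπ N (msg_law h0 h1 hπ N) i J hJ
      (fun x => ∫ s, (1 + x * (θ * cmsg θ j0 N s (toW [j0])))
        * F (ein x (θ * cmsg θ j0 N s (toW [j0]))) * G s * Zc θ j0 N s
        ∂(Measure.infinitePi fun _ : W q => π)) hKm.stronglyMeasurable.integral_prod_right.measurable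
      ⟨2 * B * C * L, fun x hx => ?_⟩
    · rw [hcard] at hlaw
      unfold muLaw coneE
      have e2 : ∀ x : ℝ, (fun s : W q → ℝ => F (ein x (θ * cmsg θ j0 N s (toW [j0]))) *
          (1 + x * (θ * cmsg θ j0 N s (toW [j0]))) * G s * Zf (WG q) θ (wcone (toW [j0]) N) s)
          = fun s => (1 + x * (θ * cmsg θ j0 N s (toW [j0])))
        * F (ein x (θ * cmsg θ j0 N s (toW [j0]))) * G s * Zc θ j0 N s := by
        intro x; funext s; unfold Zc; ring
      simp only [e2]
      rw [← hlaw]
      refine integral_congr_ae (ae_of_all _ fun t => ?_)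
      simp only
      ring
    · rw [← Real.norm_eq_abs]
      have h3 : ∀ᵐ s ∂(Measure.infinitePi fun _ : W q => π),
          ‖(1 + x * (θ * cmsg θ j0 N s (toW [j0])))
            * F (ein x (θ * cmsg θ j0 N s (toW [j0]))) * G s * Zc θ j0 N s‖ ≤ 2 * B * C * L := by
        filter_upwards [hπ.ae_cube1 (ι := W q)] with s hs
        rw [Real.norm_eq_abs]
        exact hKb x s hx hs
      have := norm_integral_le_of_norm_le_const h3
      simpa using this
  · intro x t t' h
    rw [cmsg_congr θ j0 N h, Zc_congr θ j0 N h, hGd t t' h]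

/-- `G` of a child cone alone -/
theorem coneE_sub {θ : ℝ} (h0 : 0 ≤ θ) (h1 : θ < 1) {π : Measure ℝ} {τ : ℝ} (hπ : SiteLaw π τ)
    {i j0 : Fin (q + 1)} (hij : j0 ≠ i) (N : ℕ) (G : (W q → ℝ) → ℝ) (hG : Measurable G)
    (hGb : ∃ K, ∀ t, |G t| ≤ K)
    (hGd : ∀ t t' : W q → ℝ, (∀ w ∈ wcone (toW [j0]) N, t w = t' w) → G t = G t') :
    (coneE θ π i (N + 1) fun t => G (fun w => t (tog i w))) = coneE θ π j0 N G := by
  have h2 := coneE_child h0 h1 hπ hij N (fun _ => 1) measurable_const ⟨1, fun _ => by simp⟩ G hG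
    hGb hGd
  simp only [one_mul] at h2
  rw [h2]
  obtain ⟨σ, hσ⟩ := muLaw_site q h0 h1.le hπ N
  have := hσ.prob
  have := hπ.prob
  obtain ⟨C, hC⟩ := hGb
  have hGBC : BC G := ⟨hG, C, fun t _ => hC t⟩
  have e : ∀ μ : ℝ, (coneE θ π j0 N fun t => (1 + μ * (θ * cmsg θ j0 N t (toW [j0]))) * G t)
      = coneE θ π j0 N G + μ * coneE θ π j0 N (fun t => (θ * cmsg θ j0 N t (toW [j0])) * G t) := by
    intro μ
    unfold coneE
    rw [← integral_const_mul, ← integral_add]
    · refine integral_congr_ae (ae_of_all _ fun t => ?_)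
      simp only
      ring
    · exact (hGBC.mul (Zc_BC h0 h1.le j0 N)).integrable hπ
    · exact ((BC.const μ).mul (((BC.const θ).mul (cmsg_BC h0 h1 j0 N _)).mul hGBC |>.mul
        (Zc_BC h0 h1.le j0 N))).integrable hπ
  simp only [e]
  rw [integral_add (integrable_const _), integral_mul_const, hσ.integral_id]
  · simp
  · exact (hσ.integrable measurable_id (K := σ) fun x hx => hx).mul_const _

/-- independence of even functionals of the child cones -/
theorem coneE_prod {θ : ℝ} (h0 : 0 ≤ θ) (h1 : θ < 1) {π : Measure ℝ} {τ : ℝ} (hπ : SiteLaw π τ)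
    (i : Fin (q + 1)) (N : ℕ) (G : Fin (q + 1) → (W q → ℝ) → ℝ) (hG : ∀ j, Measurable (G j))
    (hGb : ∃ K, ∀ j t, |G j t| ≤ K) (hGe : ∀ j t, G j (fun w => - t w) = G j t)
    (hGd : ∀ j (t t' : W q → ℝ), (∀ w ∈ wcone (toW [j]) N, t w = t' w) → G j t = G j t') :
    (coneE θ π i (N + 1) fun t => ∏ j ∈ Finset.univ.erase i, G j (fun w => t (tog i w)))
      = ∏ j ∈ Finset.univ.erase i, coneE θ π j N (G j) := by
  have := hπ.prob
  obtain ⟨C, hC⟩ := hGb
  have hGBC : ∀ j, BC (G j) := fun j => ⟨hG j, C, fun t _ => hC j t⟩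
  have key : ∀ J : Finset (Fin (q + 1)), i ∉ J →
      ∫ t, ZJ θ i N J t * ∏ j ∈ J, G j (fun w => t (tog i w))
        ∂(Measure.infinitePi fun _ : W q => π) = ∏ j ∈ J, coneE θ π j N (G j) := by
    intro J
    induction J using Finset.induction_on with
    | empty =>
      intro _
      simp [ZJ_empty]
    | insert j J hj ih =>
      intro hJ
      have hJ' : i ∉ J := fun h => hJ (Finset.mem_insert_of_mem h)
      have hij : j ≠ i := fun h => hJ (h ▸ Finset.mem_insert_self _ _)
      obtain ⟨L, hL⟩ := (Zc_BC h0 h1.le j N (q := q)).bd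
      have hstep := step h0 h1 hπ hij hj hJ' N
        (f := fun t => ZJ θ i N J t * ∏ j ∈ J, G j (fun w => t (tog i w)))
        ((ZJ_BC i N J h0 h1).mul (BC.prod J fun k _ => (hGBC k).comp_tog i)) ?_
        (K := fun x s => (1 + x * (θ * cmsg θ j N s (toW [j]))) * G j s * Zc θ j N s) ?_ ?_ ?_
      · have e1 : ∫ t, ZJ θ i N (insert j J) t * ∏ j ∈ insert j J, G j (fun w => t (tog i w))
            ∂(Measure.infinitePi fun _ : W q => π)
            = ∫ t, (ZJ θ i N J t * ∏ j ∈ J, G j (fun w => t (tog i w))) *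
              ((1 + mu θ i N J t * (θ * cmsg θ j N (fun w => t (tog i w)) (toW [j])))
                * G j (fun w => t (tog i w)) * Zc θ j N (fun w => t (tog i w)))
            ∂(Measure.infinitePi fun _ : W q => π) := by
          refine integral_congr_ae ?_
          filter_upwards [hπ.ae_cube1 (ι := W q)] with t ht
          rw [ZJ_insert i N h0 h1 hj ht, Finset.prod_insert hj]
          unfold rr
          ring
        rw [e1, hstep, Finset.prod_insert hj, ← ih hJ', mul_comm, ← integral_mul_const]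
        refine integral_congr_ae (ae_of_all _ fun t => ?_)
        simp only
        congr 1
        have hodd : ∫ s, (θ * cmsg θ j N s (toW [j])) * G j s * Zc θ j N s
            ∂(Measure.infinitePi fun _ : W q => π) = 0 := by
          have h3 := hπ.integral_flip (ι := W q)
            (fun s => (θ * cmsg θ j N s (toW [j])) * G j s * Zc θ j N s)
          simp only [cmsg_neg, hGe, Zc_neg] at h3
          have h4 : ∫ s, θ * -cmsg θ j N s (toW [j]) * G j s * Zc θ j N s
              ∂(Measure.infinitePi fun _ : W q => π)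
              = - ∫ s, θ * cmsg θ j N s (toW [j]) * G j s * Zc θ j N s
                ∂(Measure.infinitePi fun _ : W q => π) := by
            rw [← integral_neg]
            refine integral_congr_ae (ae_of_all _ fun s => ?_)
            simp only
            ring
          rw [h4] at h3
          linarith
        have e3 : ∫ s, (1 + mu θ i N J t * (θ * cmsg θ j N s (toW [j]))) * G j s * Zc θ j N s
            ∂(Measure.infinitePi fun _ : W q => π)
            = coneE θ π j N (G j) + mu θ i N J t *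
              ∫ s, (θ * cmsg θ j N s (toW [j])) * G j s * Zc θ j N s
                ∂(Measure.infinitePi fun _ : W q => π) := by
          unfold coneE
          rw [← integral_const_mul, ← integral_add]
          · refine integral_congr_ae (ae_of_all _ fun t => ?_)
            simp only [Zc]
            ring
          · exact ((hGBC j).mul (Zc_BC h0 h1.le j N)).integrable hπ
          · exact ((BC.const _).mul (((BC.const θ).mul (cmsg_BC h0 h1 j N _)).mul (hGBC j) |>.mul
              (Zc_BC h0 h1.le j N))).integrable hπ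
        rw [e3, hodd, mul_zero, add_zero]
      · intro t t' h
        rw [ZJ_congr i N hij hj hJ' h]
        refine congrArg _ (Finset.prod_congr rfl fun k hk => ?_)
        exact hGd k _ _ ((mu_congr (θ := θ) i N hij hj hJ' h).2 k hk)
      · have h1' : Measurable fun p : ℝ × (W q → ℝ) => θ * cmsg θ j N p.2 (toW [j]) :=
          ((measurable_cmsg j N _).comp measurable_snd).const_mul _
        exact (((measurable_fst.mul h1').const_add 1).mul ((hG j).comp measurable_snd)).mul
          ((Zc_BC h0 h1.le j N).meas.comp measurable_snd)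
      · have hC0 : 0 ≤ C := (abs_nonneg _).trans (hC j 0)
        refine ⟨2 * 1 * C * L, fun x s hx hs => ?_⟩
        rw [abs_mul, abs_mul]
        have h5 := K1_bd h0 h1 (Φ := fun _ => 1) (B := 1) (fun x _ => by simp) hx
          (cmsg_abs_lt h0 h1 j N hs (toW [j]))
        rw [mul_one] at h5
        exact mul_le_mul (mul_le_mul h5 (hC j s) (abs_nonneg _) (by norm_num)) (hL s hs)
          (abs_nonneg _) (by positivity)
      · intro x t t' h
        rw [cmsg_congr θ j N h, Zc_congr θ j N h, hGd j t t' h]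
  rw [← key _ (Finset.notMem_erase i _)]
  unfold coneE
  refine integral_congr_ae ?_
  filter_upwards [hπ.ae_cube1 (ι := W q)] with t ht
  change _ * Zc θ i (N + 1) t = _
  rw [(cone_succ i N h0 h1 ht).1]
  ring

end Crest.Agent.FreeIs
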