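import Crest.Agent.FreeIs.ConeWords

/-!
Planted measures on the cones (module CB of S0241): integral identities.
-/

set_option autoImplicit false
set_option linter.unusedVariables false

open MeasureTheory Filter Topology

namespace Crest.Agent.FreeIs

namespace CB

variable {q : ℕ}

/-- bounded measurable on the open cube -/
structure BC (f : (W q → ℝ) → ℝ) : Prop where
  meas : Measurable f
  bd : ∃ K : ℝ, ∀ t, (∀ w, |t w| < 1) → |f t| ≤ K

namespace BC

variable {f g : (W q → ℝ) → ℝ}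

theorem const (c : ℝ) : BC (fun _ : W q → ℝ => c) := ⟨measurable_const, |c|, fun _ _ => le_rfl⟩

theorem coord (w : W q) : BC (fun t : W q → ℝ => t w) :=
  ⟨measurable_pi_apply w, 1, fun t ht => (ht w).le⟩

theorem add (hf : BC f) (hg : BC g) : BC (fun t => f t + g t) := by
  obtain ⟨K, hK⟩ := hf.bd
  obtain ⟨L, hL⟩ := hg.bd
  exact ⟨hf.meas.add hg.meas, K + L, fun t ht =>
    (abs_add_le _ _).trans (add_le_add (hK t ht) (hL t ht))⟩

theorem mul (hf : BC f) (hg : BC g) : BC (fun t => f t * g t) := by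
  obtain ⟨K, hK⟩ := hf.bd
  obtain ⟨L, hL⟩ := hg.bd
  refine ⟨hf.meas.mul hg.meas, K * L, fun t ht => ?_⟩
  rw [abs_mul]
  exact mul_le_mul (hK t ht) (hL t ht) (abs_nonneg _) ((abs_nonneg _).trans (hK t ht))

theorem neg (hf : BC f) : BC (fun t => - f t) := by
  have := (const (-1)).mul hf
  simpa using this

theorem sub (hf : BC f) (hg : BC g) : BC (fun t => f t - g t) := by
  have := hf.add hg.neg
  simpa [sub_eq_add_neg] using this

theorem div_const (hf : BC f) (c : ℝ) : BC (fun t => f t / c) := by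
  have := hf.mul (const c⁻¹)
  simpa [div_eq_mul_inv] using this

theorem prod {ι : Type*} (J : Finset ι) {F : ι → (W q → ℝ) → ℝ} (hF : ∀ j ∈ J, BC (F j)) :
    BC (fun t => ∏ j ∈ J, F j t) := by
  classical
  induction J using Finset.induction_on with
  | empty => simpa using const 1
  | insert a J ha ih =>
    have h1 := (hF a (Finset.mem_insert_self a J)).mul
      (ih fun j hj => hF j (Finset.mem_insert_of_mem hj))
    simpa [Finset.prod_insert ha] using h1

theorem sum {ι : Type*} (J : Finset ι) {F : ι → (W q → ℝ) → ℝ} (hF : ∀ j ∈ J, BC (F j)) :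
    BC (fun t => ∑ j ∈ J, F j t) := by
  classical
  induction J using Finset.induction_on with
  | empty => simpa using const 0
  | insert a J ha ih =>
    have h1 := (hF a (Finset.mem_insert_self a J)).add
      (ih fun j hj => hF j (Finset.mem_insert_of_mem hj))
    simpa [Finset.sum_insert ha] using h1

theorem comp_tog (hf : BC f) (i : Fin (q + 1)) : BC (fun t => f (fun w => t (tog i w))) := by
  obtain ⟨K, hK⟩ := hf.bd
  refine ⟨hf.meas.comp (measurable_pi_lambda _ fun v => measurable_pi_apply _), K, fun t ht => ?_⟩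
  exact hK _ fun w => ht _

theorem integrable {π : Measure ℝ} {τ : ℝ} (hπ : SiteLaw π τ) (hf : BC f) :
    Integrable f (Measure.infinitePi fun _ : W q => π) := by
  obtain ⟨K, hK⟩ := hf.bd
  exact hπ.integrable_cube hf.meas hK

end BC

/-- partition function of the cone below `[i]` -/
noncomputable def Zc (θ : ℝ) (i : Fin (q + 1)) (N : ℕ) (t : W q → ℝ) : ℝ :=
  Zf (WG q) θ (wcone (toW [i]) N) t

theorem Zc_BC {θ : ℝ} (h0 : 0 ≤ θ) (h1 : θ ≤ 1) (i : Fin (q + 1)) (N : ℕ) : BC (Zc θ i N) := by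
  refine ⟨measurable_Zf _ _ _, ?_⟩
  obtain ⟨K, hK⟩ := Zf_bdd (WG q) h0 h1 (wcone (toW [i]) N)
  exact ⟨K, fun t ht => hK t fun v _ => (ht v).le⟩

theorem Zc_neg (θ : ℝ) (i : Fin (q + 1)) (N : ℕ) (t : W q → ℝ) :
    Zc θ i N (fun w => - t w) = Zc θ i N t := Zf_neg _ _ _ _

theorem Zc_congr (θ : ℝ) (i : Fin (q + 1)) (N : ℕ) {t t' : W q → ℝ}
    (h : ∀ v ∈ wcone (toW [i]) N, t v = t' v) : Zc θ i N t = Zc θ i N t' := Zf_congr _ _ h

/-- scaled message of the child `j`, in the coordinates of the parent `i` -/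
noncomputable def rr (θ : ℝ) (i : Fin (q + 1)) (N : ℕ) (j : Fin (q + 1)) (t : W q → ℝ) : ℝ :=
  θ * cmsg θ j N (fun w => t (tog i w)) (toW [j])

theorem cmsg_BC {θ : ℝ} (h0 : 0 ≤ θ) (h1 : θ < 1) (i : Fin (q + 1)) (N : ℕ) (w : W q) :
    BC (fun t => cmsg θ i N t w) :=
  ⟨measurable_cmsg i N w, 1, fun t ht => (cmsg_abs_lt h0 h1 i N ht w).le⟩

theorem rr_BC {θ : ℝ} (h0 : 0 ≤ θ) (h1 : θ < 1) (i : Fin (q + 1)) (N : ℕ) (j : Fin (q + 1)) :
    BC (rr θ i N j) :=
  (BC.const θ).mul ((cmsg_BC h0 h1 j N (toW [j])).comp_tog i)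

theorem scaled_abs_lt {θ m : ℝ} (h0 : 0 ≤ θ) (h1 : θ < 1) (hm : |m| < 1) : |θ * m| < 1 := by
  rw [abs_mul, abs_of_nonneg h0]
  nlinarith [abs_nonneg m]

theorem rr_abs_lt {θ : ℝ} (h0 : 0 ≤ θ) (h1 : θ < 1) (i : Fin (q + 1)) (N : ℕ) (j : Fin (q + 1))
    {t : W q → ℝ} (ht : ∀ w, |t w| < 1) : |rr θ i N j t| < 1 :=
  scaled_abs_lt h0 h1 (cmsg_abs_lt h0 h1 j N (fun w => ht _) _)

/-- the two half densities -/
noncomputable def Ap (θ : ℝ) (i : Fin (q + 1)) (N : ℕ) (J : Finset (Fin (q + 1)))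
    (t : W q → ℝ) : ℝ := (1 + t (toW [i])) * ∏ j ∈ J, (1 + rr θ i N j t)

noncomputable def Am (θ : ℝ) (i : Fin (q + 1)) (N : ℕ) (J : Finset (Fin (q + 1)))
    (t : W q → ℝ) : ℝ := (1 - t (toW [i])) * ∏ j ∈ J, (1 - rr θ i N j t)

/-- magnetisation of `[i]` from its own tilt and the children in `J` -/
noncomputable def mu (θ : ℝ) (i : Fin (q + 1)) (N : ℕ) (J : Finset (Fin (q + 1)))
    (t : W q → ℝ) : ℝ := (Ap θ i N J t - Am θ i N J t) / (Ap θ i N J t + Am θ i N J t)

/-- the corresponding partition function -/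
noncomputable def ZJ (θ : ℝ) (i : Fin (q + 1)) (N : ℕ) (J : Finset (Fin (q + 1)))
    (t : W q → ℝ) : ℝ := (Ap θ i N J t + Am θ i N J t) / 2
      * ∏ j ∈ J, Zc θ j N (fun w => t (tog i w))

section facts

variable {θ : ℝ} (i : Fin (q + 1)) (N : ℕ) (J : Finset (Fin (q + 1)))

theorem Ap_pos (h0 : 0 ≤ θ) (h1 : θ < 1) {t : W q → ℝ} (ht : ∀ w, |t w| < 1) :
    0 < Ap θ i N J t := by
  unfold Ap
  refine mul_pos ?_ (Finset.prod_pos fun j _ => ?_)
  · linarith [(abs_lt.1 (ht (toW [i]))).1]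
  · linarith [(abs_lt.1 (rr_abs_lt h0 h1 i N j ht)).1]

theorem Am_pos (h0 : 0 ≤ θ) (h1 : θ < 1) {t : W q → ℝ} (ht : ∀ w, |t w| < 1) :
    0 < Am θ i N J t := by
  unfold Am
  refine mul_pos ?_ (Finset.prod_pos fun j _ => ?_)
  · linarith [(abs_lt.1 (ht (toW [i]))).2]
  · linarith [(abs_lt.1 (rr_abs_lt h0 h1 i N j ht)).2]

theorem mu_abs_lt (h0 : 0 ≤ θ) (h1 : θ < 1) {t : W q → ℝ} (ht : ∀ w, |t w| < 1) :
    |mu θ i N J t| < 1 := by
  have h2 := Ap_pos i N J h0 h1 ht
  have h3 := Am_pos i N J h0 h1 ht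
  unfold mu
  rw [abs_div, abs_of_pos (by linarith : 0 < Ap θ i N J t + Am θ i N J t),
    div_lt_one (by linarith), abs_lt]
  constructor <;> linarith

theorem Ap_BC (h0 : 0 ≤ θ) (h1 : θ < 1) : BC (Ap θ i N J) :=
  ((BC.const 1).add (BC.coord _)).mul (BC.prod J fun j _ => (BC.const 1).add (rr_BC h0 h1 i N j))

theorem Am_BC (h0 : 0 ≤ θ) (h1 : θ < 1) : BC (Am θ i N J) :=
  ((BC.const 1).sub (BC.coord _)).mul (BC.prod J fun j _ => (BC.const 1).sub (rr_BC h0 h1 i N j))

theorem mu_BC (h0 : 0 ≤ θ) (h1 : θ < 1) : BC (mu θ i N J) :=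
  ⟨((Ap_BC i N J h0 h1).meas.sub (Am_BC i N J h0 h1).meas).div
    ((Ap_BC i N J h0 h1).meas.add (Am_BC i N J h0 h1).meas), 1,
    fun t ht => (mu_abs_lt i N J h0 h1 ht).le⟩

theorem ZJ_BC (h0 : 0 ≤ θ) (h1 : θ < 1) : BC (ZJ θ i N J) :=
  (((Ap_BC i N J h0 h1).add (Am_BC i N J h0 h1)).div_const 2).mul
    (BC.prod J fun j _ => (Zc_BC h0 h1.le j N).comp_tog i)

theorem mu_empty {t : W q → ℝ} : mu θ i N ∅ t = t (toW [i]) := by
  unfold mu Ap Am
  simp only [Finset.prod_empty, mul_one]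
  rw [show 1 + t (toW [i]) - (1 - t (toW [i])) = 2 * t (toW [i]) by ring,
    show 1 + t (toW [i]) + (1 - t (toW [i])) = 2 by ring]
  field_simp

theorem ZJ_empty {t : W q → ℝ} : ZJ θ i N ∅ t = 1 := by
  unfold ZJ Ap Am
  simp only [Finset.prod_empty, mul_one]
  ring

variable {J} {j : Fin (q + 1)}

theorem Ap_insert (hj : j ∉ J) (t : W q → ℝ) :
    Ap θ i N (insert j J) t = Ap θ i N J t * (1 + rr θ i N j t) := by
  unfold Ap
  rw [Finset.prod_insert hj]; ring

theorem Am_insert (hj : j ∉ J) (t : W q → ℝ) :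
    Am θ i N (insert j J) t = Am θ i N J t * (1 - rr θ i N j t) := by
  unfold Am
  rw [Finset.prod_insert hj]; ring

theorem mu_insert (h0 : 0 ≤ θ) (h1 : θ < 1) (hj : j ∉ J) {t : W q → ℝ} (ht : ∀ w, |t w| < 1) :
    mu θ i N (insert j J) t = ein (mu θ i N J t) (rr θ i N j t) := by
  have h2 := Ap_pos i N J h0 h1 ht
  have h3 := Am_pos i N J h0 h1 ht
  have h4 := abs_lt.1 (rr_abs_lt h0 h1 i N j ht)
  unfold mu ein
  rw [Ap_insert i N hj, Am_insert i N hj]
  set a := Ap θ i N J t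
  set b := Am θ i N J t
  set r := rr θ i N j t
  have h5 : a + b ≠ 0 := by positivity
  have h6 : a * (1 + r) + b * (1 - r) ≠ 0 := by
    have : 0 < a * (1 + r) + b * (1 - r) :=
      add_pos (mul_pos h2 (by linarith)) (mul_pos h3 (by linarith))
    exact this.ne'
  have h7 : 1 + (a - b) / (a + b) * r ≠ 0 := by
    have : 1 + (a - b) / (a + b) * r = (a * (1 + r) + b * (1 - r)) / (a + b) := by
      field_simp; ring
    rw [this]
    exact div_ne_zero h6 h5
  rw [div_eq_div_iff h6 h7]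
  field_simp
  ring

theorem ZJ_insert (h0 : 0 ≤ θ) (h1 : θ < 1) (hj : j ∉ J) {t : W q → ℝ} (ht : ∀ w, |t w| < 1) :
    ZJ θ i N (insert j J) t = ZJ θ i N J t *
      ((1 + mu θ i N J t * rr θ i N j t) * Zc θ j N (fun w => t (tog i w))) := by
  have h2 := Ap_pos i N J h0 h1 ht
  have h3 := Am_pos i N J h0 h1 ht
  unfold ZJ mu
  rw [Ap_insert i N hj, Am_insert i N hj, Finset.prod_insert hj]
  set a := Ap θ i N J t
  set b := Am θ i N J t
  set r := rr θ i N j t
  have h5 : a + b ≠ 0 := by positivity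
  field_simp
  ring

/-- dependence on the coordinates outside the cone of the child `j` -/
theorem mu_congr (hij : j ≠ i) (hj : j ∉ J) (hJ : i ∉ J) {t t' : W q → ℝ}
    (h : ∀ x : W q, ¬ [i, j] <+: x.1 → t x = t' x) :
    (Ap θ i N J t = Ap θ i N J t' ∧ Am θ i N J t = Am θ i N J t') ∧
    ∀ k ∈ J, ∀ v ∈ wcone (toW [k]) N, t (tog i v) = t' (tog i v) := by
  have key : ∀ k ∈ J, ∀ v ∈ wcone (toW [k]) N, t (tog i v) = t' (tog i v) := by
    intro k hk v hv
    refine h _ ?_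
    rw [mem_cone1] at hv
    obtain ⟨_, m, hm⟩ := hv
    have hki : k ≠ i := fun e => hJ (e ▸ hk)
    have hkj : k ≠ j := fun e => hj (e ▸ hk)
    rw [tog_val_ne hki (l := m) hm.symm]
    rintro ⟨m', hm'⟩
    simp only [List.cons_append, List.cons.injEq, true_and] at hm'
    exact hkj hm'.1.symm
  have hr : ∀ k ∈ J, rr θ i N k t = rr θ i N k t' := by
    intro k hk
    unfold rr
    rw [cmsg_congr θ k N (fun v hv => key k hk v hv)]
  have h1 : t (toW [i]) = t' (toW [i]) := by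
    refine h _ ?_
    rw [toW1_val]
    rintro ⟨m', hm'⟩
    simp at hm'
  refine ⟨⟨?_, ?_⟩, key⟩
  · unfold Ap
    rw [h1]
    exact congrArg _ (Finset.prod_congr rfl fun k hk => by rw [hr k hk])
  · unfold Am
    rw [h1]
    exact congrArg _ (Finset.prod_congr rfl fun k hk => by rw [hr k hk])

theorem ZJ_congr (hij : j ≠ i) (hj : j ∉ J) (hJ : i ∉ J) {t t' : W q → ℝ}
    (h : ∀ x : W q, ¬ [i, j] <+: x.1 → t x = t' x) : ZJ θ i N J t = ZJ θ i N J t' := by
  have h2 := mu_congr (θ := θ) i N hij hj hJ h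
  unfold ZJ
  rw [h2.1.1, h2.1.2]
  exact congrArg _ (Finset.prod_congr rfl fun k hk => Zc_congr θ k N (h2.2 k hk))

/-- the recursion for the whole cone -/
theorem cone_succ (h0 : 0 ≤ θ) (h1 : θ < 1) {t : W q → ℝ} (ht : ∀ w, |t w| < 1) :
    Zc θ i (N + 1) t = ZJ θ i N (Finset.univ.erase i) t ∧
    cmsg θ i (N + 1) t (toW [i]) = mu θ i N (Finset.univ.erase i) t := by
  have hw : toW [i] ∈ wcone (toW [i]) (N + 1) := by
    rw [mem_cone1, toW1_val]
    exact ⟨by simp, List.prefix_refl _⟩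
  have hc : ∀ j : Fin (q + 1), j ≠ i → [i, j].IsChain (· ≠ ·) := fun j hj =>
    List.isChain_cons_cons.2 ⟨hj.symm, List.isChain_singleton j⟩
  have hmem : ∀ j ∈ Finset.univ.erase i, toW ((toW [i]).1 ++ [j]) ∈ wcone (toW [i]) (N + 1) := by
    intro j hj
    have hj' := Finset.ne_of_mem_erase hj
    rw [toW1_val]
    change toW [i, j] ∈ _
    rw [mem_cone1, toW_val (hc j hj')]
    exact ⟨by simp; omega, ⟨[j], rfl⟩⟩
  have hrec := cone_rec h0 h1 (Λ := wcone (toW [i]) (N + 1)) (t := t) (fun v _ => ht v) hw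
    (Finset.univ.erase i) (by rw [toW1_val, nxt_single]) hmem
  have hΛ : insert (toW [i]) ((Finset.univ.erase i).biUnion fun j =>
      below (wcone (toW [i]) (N + 1)) (toW ((toW [i]).1 ++ [j]))) = wcone (toW [i]) (N + 1) := by
    ext x
    rw [Finset.mem_insert, Finset.mem_biUnion]
    constructor
    · rintro (rfl | ⟨j, _, hj⟩)
      · exact hw
      · exact (mem_below.1 hj).1
    · intro hx
      have hx' := hx
      rw [mem_cone1] at hx'
      obtain ⟨hl, m, hm⟩ := hx'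
      rcases m with _ | ⟨j, m⟩
      · left
        apply Subtype.ext
        rw [toW1_val, ← hm]; rfl
      · right
        have hxc := x.2
        rw [← hm] at hxc
        have hji : j ≠ i := by
          have := (List.isChain_cons_cons.1 hxc).1
          exact this.symm
        refine ⟨j, Finset.mem_erase.2 ⟨hji, Finset.mem_univ _⟩, ?_⟩
        rw [mem_below, toW1_val]
        refine ⟨hx, ?_⟩
        change (toW [i, j]).1 <+: x.1
        rw [toW_val (hc j hji), ← hm]
        exact ⟨m, rfl⟩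
  simp only [hΛ] at hrec
  have hr : ∀ j ∈ Finset.univ.erase i, θ * mag (WG q) θ (below (wcone (toW [i]) (N + 1))
      (toW ((toW [i]).1 ++ [j]))) t (toW ((toW [i]).1 ++ [j])) = rr θ i N j t := by
    intro j hj
    have hj' := Finset.ne_of_mem_erase hj
    have := cmsg_shift (θ := θ) hj' N t [] (List.isChain_singleton j)
    unfold rr
    rw [← this, toW1_val]
    rfl
  have hZ : ∀ j ∈ Finset.univ.erase i, Zf (WG q) θ (below (wcone (toW [i]) (N + 1))
      (toW ((toW [i]).1 ++ [j]))) t = Zc θ j N (fun w => t (tog i w)) := by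
    intro j hj
    have hj' := Finset.ne_of_mem_erase hj
    rw [toW1_val]
    change Zf (WG q) θ (below (wcone (toW [i]) (N + 1)) (toW [i, j])) t = _
    rw [child_cone hj' N (List.isChain_singleton j)]
    unfold Zc
    rw [below_wcone]
    exact Zf_map (Rec.togE i) (tog_adj' i) θ _ t
  have hp : ∏ j ∈ Finset.univ.erase i, (1 + θ * mag (WG q) θ (below (wcone (toW [i]) (N + 1))
      (toW ((toW [i]).1 ++ [j]))) t (toW ((toW [i]).1 ++ [j])))
      = ∏ j ∈ Finset.univ.erase i, (1 + rr θ i N j t) :=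
    Finset.prod_congr rfl fun j hj => by rw [hr j hj]
  have hm : ∏ j ∈ Finset.univ.erase i, (1 - θ * mag (WG q) θ (below (wcone (toW [i]) (N + 1))
      (toW ((toW [i]).1 ++ [j]))) t (toW ((toW [i]).1 ++ [j])))
      = ∏ j ∈ Finset.univ.erase i, (1 - rr θ i N j t) :=
    Finset.prod_congr rfl fun j hj => by rw [hr j hj]
  rw [hp, hm, Finset.prod_congr rfl hZ] at hrec
  refine ⟨hrec.1, ?_⟩
  unfold cmsg
  rw [below_wcone]
  exact hrec.2

theorem cone_zero (h0 : 0 ≤ θ) (h1 : θ < 1) {t : W q → ℝ} (ht : ∀ w, |t w| < 1) :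
    Zc θ i 0 t = 1 ∧ cmsg θ i 0 t (toW [i]) = t (toW [i]) := by
  have hw : toW [i] ∈ wcone (toW [i]) 0 := by
    rw [mem_cone1, toW1_val]
    exact ⟨by simp, List.prefix_refl _⟩
  have hrec := cone_rec h0 h1 (Λ := wcone (toW [i]) 0) (t := t) (fun v _ => ht v) hw
    ∅ (Finset.empty_subset _) (by simp)
  have hΛ : insert (toW [i]) ((∅ : Finset (Fin (q + 1))).biUnion fun j =>
      below (wcone (toW [i]) 0) (toW ((toW [i]).1 ++ [j]))) = wcone (toW [i]) 0 := by
    ext x
    rw [Finset.mem_insert, Finset.mem_biUnion]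
    constructor
    · rintro (rfl | ⟨j, hj, _⟩)
      · exact hw
      · simp at hj
    · intro hx
      rw [mem_cone1] at hx
      obtain ⟨hl, m, hm⟩ := hx
      left
      apply Subtype.ext
      rw [toW1_val, ← hm]
      rw [← hm] at hl
      simp only [List.cons_append, List.nil_append, List.length_cons] at hl
      have : m = [] := List.length_eq_zero_iff.1 (by omega)
      rw [this]; rfl
  simp only [hΛ, Finset.prod_empty, mul_one] at hrec
  constructor
  · rw [Zc, hrec.1]; ring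
  · unfold cmsg
    rw [below_wcone, hrec.2, show 1 + t (toW [i]) - (1 - t (toW [i])) = 2 * t (toW [i]) by ring,
      show 1 + t (toW [i]) + (1 - t (toW [i])) = 2 by ring]
    field_simp

end facts

end CB

end Crest.Agent.FreeIs
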