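import Crest.Agent.FreeIs.Comb

/-!
Decoupling of disjoint blocks of coordinates for iid families of reals, invariance under
permutations and under the global sign flip, integrability on the cube.
-/

set_option autoImplicit false
set_option linter.unusedVariables false

open MeasureTheory Filter Topology

namespace Crest.Agent.FreeIs

section Glue

variable {ι : Type*} {π : Measure ℝ} [IsProbabilityMeasure π]

open Classical in
/-- glue two configurations along a set of coordinates -/
noncomputable def glue (A : Set ι) (p : (ι → ℝ) × (ι → ℝ)) : ι → ℝ :=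
  fun v => if v ∈ A then p.1 v else p.2 v

theorem measurable_glue (A : Set ι) : Measurable (glue A) := by
  unfold glue
  refine measurable_pi_lambda _ fun v => ?_
  split_ifs
  · exact (measurable_pi_apply v).comp measurable_fst
  · exact (measurable_pi_apply v).comp measurable_snd

theorem glue_map (A : Set ι) :
    ((Measure.infinitePi fun _ : ι => π).prod (Measure.infinitePi fun _ : ι => π)).map (glue A)
      = Measure.infinitePi fun _ : ι => π := by
  classical
  refine Measure.eq_infinitePi _ fun s t ht => ?_
  rw [Measure.map_apply (measurable_glue A)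
    (MeasurableSet.pi s.countable_toSet (fun i _ => ht i))]
  have h1 : (glue A ⁻¹' (Set.pi (s : Set ι) t) : Set ((ι → ℝ) × (ι → ℝ)))
      = (Set.pi ((s.filter (· ∈ A) : Finset ι) : Set ι) t) ×ˢ
        (Set.pi ((s.filter (· ∉ A) : Finset ι) : Set ι) t) := by
    ext p
    simp only [glue, Set.mem_preimage, Set.mem_pi, Finset.mem_coe, Set.mem_prod,
      Finset.mem_filter]
    constructor
    · intro h
      refine ⟨fun v hv => ?_, fun v hv => ?_⟩
      · have := h v hv.1
        rwa [if_pos hv.2] at this
      · have := h v hv.1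
        rwa [if_neg hv.2] at this
    · rintro ⟨h, h'⟩ v hv
      split_ifs with hA
      · exact h v ⟨hv, hA⟩
      · exact h' v ⟨hv, hA⟩
  rw [h1, Measure.prod_prod, Measure.infinitePi_pi _ (fun i _ => ht i),
    Measure.infinitePi_pi _ (fun i _ => ht i), Finset.prod_filter_mul_prod_filter_not]

/-- decoupling of disjoint blocks of coordinates -/
theorem decouple (A : Set ι) {H : (ι → ℝ) → (ι → ℝ) → ℝ}
    (hH : Measurable (Function.uncurry H))
    (hA : ∀ t t' s, (∀ w ∈ A, t w = t' w) → H t s = H t' s)
    (hB : ∀ t s s', (∀ w, w ∉ A → s w = s' w) → H t s = H t s')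
    (hi : Integrable (Function.uncurry H)
      ((Measure.infinitePi fun _ : ι => π).prod (Measure.infinitePi fun _ : ι => π))) :
    ∫ t, H t t ∂(Measure.infinitePi fun _ : ι => π)
      = ∫ t, ∫ s, H t s ∂(Measure.infinitePi fun _ : ι => π) ∂(Measure.infinitePi fun _ : ι => π) := by
  have hm : Measurable fun t : ι → ℝ => H t t :=
    hH.comp (measurable_id.prodMk measurable_id)
  conv_lhs => rw [← glue_map (π := π) A]
  rw [integral_map (measurable_glue A).aemeasurable hm.aestronglyMeasurable,
    integral_integral hi]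
  refine integral_congr_ae (ae_of_all _ fun p => ?_)
  simp only
  rw [hA (glue A p) p.1 _ (fun w hw => by simp [glue, hw]),
    hB p.1 (glue A p) p.2 (fun w hw => by simp [glue, hw])]

/-- invariance under permutations of the coordinates -/
theorem perm_mp (e : ι ≃ ι) : MeasurePreserving (fun (t : ι → ℝ) (v : ι) => t (e v))
    (Measure.infinitePi fun _ : ι => π) (Measure.infinitePi fun _ : ι => π) := by
  have hm : Measurable (fun (t : ι → ℝ) (v : ι) => t (e v)) :=
    measurable_pi_lambda _ fun v => measurable_pi_apply _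
  refine ⟨hm, ?_⟩
  refine Measure.eq_infinitePi _ fun s t ht => ?_
  rw [Measure.map_apply hm (MeasurableSet.pi s.countable_toSet (fun i _ => ht i))]
  have h1 : ((fun (t : ι → ℝ) (v : ι) => t (e v)) ⁻¹' (Set.pi (s : Set ι) t) : Set (ι → ℝ))
      = Set.pi ((s.map e.toEmbedding : Finset ι) : Set ι) (fun v => t (e.symm v)) := by
    ext x
    simp only [Set.mem_preimage, Set.mem_pi, Finset.mem_coe, Finset.mem_map_equiv]
    constructor
    · intro h v hv
      have := h _ hv
      simpa using this
    · intro h v hv
      have := h (e v) (by simpa using hv)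
      simpa using this
  rw [h1, Measure.infinitePi_pi _ (fun i _ => ht _), Finset.prod_map]
  simp

theorem integral_perm (e : ι ≃ ι) (f : (ι → ℝ) → ℝ) :
    ∫ t, f (fun v => t (e v)) ∂(Measure.infinitePi fun _ : ι => π)
      = ∫ t, f t ∂(Measure.infinitePi fun _ : ι => π) := by
  have hm : ∀ e : ι ≃ ι, Measurable (fun (t : ι → ℝ) (v : ι) => t (e v)) := fun e =>
    measurable_pi_lambda _ fun v => measurable_pi_apply _
  have he : MeasurableEmbedding (fun (t : ι → ℝ) (v : ι) => t (e v)) := by
    let E : (ι → ℝ) ≃ᵐ (ι → ℝ) :=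
      { toFun := fun t v => t (e v), invFun := fun t v => t (e.symm v),
        left_inv := fun t => by funext v; simp,
        right_inv := fun t => by funext v; simp,
        measurable_toFun := hm e, measurable_invFun := hm e.symm }
    exact E.measurableEmbedding
  exact (perm_mp e).integral_comp he f

end Glue

section Cube

variable {ι : Type*} {π : Measure ℝ} {τ : ℝ}

theorem SiteLaw.integral_flip (hπ : SiteLaw π τ) (f : (ι → ℝ) → ℝ) :
    ∫ t, f (fun v => - t v) ∂(Measure.infinitePi fun _ : ι => π)
      = ∫ t, f t ∂(Measure.infinitePi fun _ : ι => π) := by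
  have := hπ.prob
  have hm : Measurable (fun (t : ι → ℝ) (v : ι) => - t v) :=
    measurable_pi_lambda _ fun v => (measurable_pi_apply _).neg
  have he : MeasurableEmbedding (fun (t : ι → ℝ) (v : ι) => - t v) := by
    let E : (ι → ℝ) ≃ᵐ (ι → ℝ) :=
      { toFun := fun t v => - t v, invFun := fun t v => - t v,
        left_inv := fun t => by funext v; simp,
        right_inv := fun t => by funext v; simp,
        measurable_toFun := hm, measurable_invFun := hm }
    exact E.measurableEmbedding
  have hmp : MeasurePreserving (fun (t : ι → ℝ) (v : ι) => - t v)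
      (Measure.infinitePi fun _ : ι => π) (Measure.infinitePi fun _ : ι => π) := by
    refine ⟨hm, ?_⟩
    refine Measure.eq_infinitePi _ fun s t ht => ?_
    rw [Measure.map_apply hm (MeasurableSet.pi s.countable_toSet (fun i _ => ht i))]
    have h1 : ((fun (t : ι → ℝ) (v : ι) => - t v) ⁻¹' (Set.pi (s : Set ι) t) : Set (ι → ℝ))
        = Set.pi (s : Set ι) (fun v => (fun x : ℝ => -x) ⁻¹' t v) := by
      ext x
      simp only [Set.mem_preimage, Set.mem_pi]
    rw [h1, Measure.infinitePi_pi _ (fun i _ => measurable_neg (ht i))]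
    refine Finset.prod_congr rfl fun i _ => ?_
    rw [← Measure.map_apply measurable_neg (ht i)]
    congr 1
    exact hπ.symm
  exact hmp.integral_comp he f

theorem SiteLaw.ae_cube [Countable ι] (hπ : SiteLaw π τ) :
    ∀ᵐ t ∂(Measure.infinitePi fun _ : ι => π), ∀ w, |t w| ≤ τ := by
  have := hπ.prob
  rw [ae_all_iff]
  intro w
  exact (measurePreserving_eval_infinitePi (fun _ : ι => π) w).quasiMeasurePreserving.ae hπ.supp

theorem SiteLaw.ae_cube1 [Countable ι] (hπ : SiteLaw π τ) :
    ∀ᵐ t ∂(Measure.infinitePi fun _ : ι => π), ∀ w, |t w| < 1 :=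
  hπ.ae_cube.mono fun t ht w => (ht w).trans_lt hπ.lt

theorem SiteLaw.integrable_cube [Countable ι] (hπ : SiteLaw π τ) {f : (ι → ℝ) → ℝ}
    (hf : Measurable f) {K : ℝ} (hK : ∀ t, (∀ w, |t w| < 1) → |f t| ≤ K) :
    Integrable f (Measure.infinitePi fun _ : ι => π) := by
  have := hπ.prob
  refine Integrable.of_bound hf.aestronglyMeasurable K ?_
  filter_upwards [hπ.ae_cube1] with t ht
  rw [Real.norm_eq_abs]
  exact hK t ht

theorem SiteLaw.integrable_cube2 [Countable ι] (hπ : SiteLaw π τ) {H : (ι → ℝ) → (ι → ℝ) → ℝ}
    (hH : Measurable (Function.uncurry H)) {K : ℝ}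
    (hK : ∀ t s, (∀ w, |t w| < 1) → (∀ w, |s w| < 1) → |H t s| ≤ K) :
    Integrable (Function.uncurry H)
      ((Measure.infinitePi fun _ : ι => π).prod (Measure.infinitePi fun _ : ι => π)) := by
  have := hπ.prob
  refine Integrable.of_bound hH.aestronglyMeasurable K ?_
  filter_upwards [Measure.quasiMeasurePreserving_fst.ae (hπ.ae_cube1 (ι := ι)),
    Measure.quasiMeasurePreserving_snd.ae (hπ.ae_cube1 (ι := ι))] with p hp hp'
  rw [Real.norm_eq_abs]
  exact hK p.1 p.2 hp hp'

end Cube

end Crest.Agent.FreeIs
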