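import Crest.Agent.FreeIs.GapB

/-! M3: decay of the forward averaging operator `Bop`. -/

set_option autoImplicit false
open MeasureTheory ProbabilityTheory

universe u

namespace Crest.Agent.FreeIs.Gap

open Crest.Agent.FreeIs

variable {q : ℕ}

theorem Loc.bm {f : Lab (W q) → ℝ} (h : Loc f) : BM f := ⟨h.meas, h.bd⟩

theorem young (x y δ : ℝ) (hδ : 0 < δ) : (x + y) ^ 2 ≤ (1 + δ) * x ^ 2 + (1 + 1 / δ) * y ^ 2 := by
  have h : 0 ≤ (δ * x - y) ^ 2 / δ := by positivity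
  have e : (1 + δ) * x ^ 2 + (1 + 1 / δ) * y ^ 2 - (x + y) ^ 2 = (δ * x - y) ^ 2 / δ := by
    field_simp
    ring
  linarith

theorem int_young {f g : Lab (W q) → ℝ} (hf : BM f) (hg : BM g) {δ : ℝ} (hδ : 0 < δ) :
    ∫ ω, (f ω + g ω) ^ 2 ∂(labP (W q)) ≤
      (1 + δ) * ∫ ω, f ω ^ 2 ∂(labP (W q)) + (1 + 1 / δ) * ∫ ω, g ω ^ 2 ∂(labP (W q)) := by
  rw [← integral_const_mul, ← integral_const_mul,
    ← integral_add (hf.sq.smul _).integrable (hg.sq.smul _).integrable]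
  exact integral_mono (hf.add hg).sq.integrable ((hf.sq.smul _).add (hg.sq.smul _)).integrable
    fun ω => young _ _ _ hδ

theorem sum_sq_le (x : Fin (q + 1) → ℝ) : (∑ i, x i) ^ 2 ≤ ((q : ℝ) + 1) * ∑ i, x i ^ 2 := by
  have := sq_sum_le_card_mul_sum_sq (s := (Finset.univ : Finset (Fin (q + 1)))) (f := x)
  simpa using this

theorem int_Sop_le {f : Lab (W q) → ℝ} (hf : BM f) :
    ∫ ω, (Sop f ω) ^ 2 ∂(labP (W q)) ≤ ((q : ℝ) + 1) ^ 2 * ∫ ω, f ω ^ 2 ∂(labP (W q)) := by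
  have h1 : ∫ ω, (Sop f ω) ^ 2 ∂(labP (W q)) ≤
      ∫ ω, ((q : ℝ) + 1) * ∑ i, f (sh i ω) ^ 2 ∂(labP (W q)) := by
    refine integral_mono hf.S.sq.integrable ?_ fun ω => sum_sq_le _
    exact ((BM.sum Finset.univ fun i => (hf.sh i).sq).smul _).integrable
  refine h1.trans ?_
  rw [integral_const_mul, integral_finsetSum _ fun i _ => (hf.sh i).sq.integrable]
  have h2 : ∀ i : Fin (q + 1), ∫ ω, f (sh i ω) ^ 2 ∂(labP (W q)) = ∫ ω, f ω ^ 2 ∂(labP (W q)) :=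
    fun i => integral_sh (fun ω => f ω ^ 2) i
  simp_rw [h2]
  simp only [Finset.sum_const, Finset.card_univ, Fintype.card_fin, nsmul_eq_mul]
  push_cast
  linarith

theorem Sop_add (f g : Lab (W q) → ℝ) : Sop (fun ω => f ω + g ω) = fun ω => Sop f ω + Sop g ω := by
  funext ω; unfold Sop; rw [Finset.sum_add_distrib]

/-- `‖S f‖² ≤ 1.01 · 4 q ‖f‖²` for mean zero `f` in `Loc`. -/
theorem gap_loc (hq : 2 ≤ q) {f : Lab (W q) → ℝ} (hf : Loc f)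
    (h0 : ∫ ω, f ω ∂(labP (W q)) = 0) :
    ∫ ω, (Sop f ω) ^ 2 ∂(labP (W q)) ≤ 1.01 * (4 * q) * ∫ ω, f ω ^ 2 ∂(labP (W q)) := by
  have hbf : BM f := Loc.bm hf
  have hq0 : (0:ℝ) < q := by exact_mod_cast (by omega : 0 < q)
  set D := ∫ ω, f ω ^ 2 ∂(labP (W q)) with hD
  have hD0 : 0 ≤ D := integral_nonneg fun ω => sq_nonneg _
  set δ : ℝ := 0.004 with hδ
  have hδ0 : 0 < δ := by norm_num [hδ]
  set Kc : ℝ := (1 + δ) * (4 * q) * (1 + 1 / δ) * 4 + (1 + 1 / δ) * ((q : ℝ) + 1) ^ 2 * 4 with hKc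
  have hKc0 : 0 < Kc := by positivity
  refine le_of_forall_pos_le_add fun ε hε => ?_
  obtain ⟨n, f', hm', hb', hl', happ⟩ := hf.approx (ε / Kc) (by positivity)
  have hbf' : BM f' := ⟨hm', hb'⟩
  set c := ∫ ω, f' ω ∂(labP (W q)) with hc
  set f'' : Lab (W q) → ℝ := fun ω => f' ω - c with hf''
  have hbf'' : BM f'' := hbf'.sub (BM.const c)
  have hl'' : IsLoc n f'' := fun ω ω' h => by simp only [hf'']; rw [hl' ω ω' h]
  have h0'' : ∫ ω, f'' ω ∂(labP (W q)) = 0 := by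
    simp only [hf'']
    rw [integral_sub hbf'.integrable (BM.const c).integrable]
    simp [hc]
  have hbd : BM (fun ω => f ω - f' ω) := hbf.sub hbf'
  have hc2 : c ^ 2 ≤ ∫ ω, (f ω - f' ω) ^ 2 ∂(labP (W q)) := by
    have h1 := cs hbd (BM.const (q := q) 1)
    have h2 : ∫ ω, (f ω - f' ω) * 1 ∂(labP (W q)) = - c := by
      simp only [mul_one]
      rw [integral_sub hbf.integrable hbf'.integrable, h0]; simp [hc]
    have h3 : ∫ ω : Lab (W q), (1:ℝ) ^ 2 ∂(labP (W q)) = 1 := by simp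
    rw [h2, h3] at h1
    simpa using h1
  have hdiff : ∫ ω, (f ω - f'' ω) ^ 2 ∂(labP (W q)) ≤ 4 * (ε / Kc) := by
    have h1 := int_young hbd (BM.const (q := q) c) (δ := 1) one_pos
    have h2 : ∫ ω : Lab (W q), c ^ 2 ∂(labP (W q)) = c ^ 2 := by simp
    rw [h2] at h1
    have h3 : ∀ ω, f ω - f'' ω = (f ω - f' ω) + c := by intro ω; simp only [hf'']; ring
    simp_rw [h3]
    norm_num at h1
    linarith
  have hbd'' : BM (fun ω => f ω - f'' ω) := hbf.sub hbf''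
  have e1 : Sop f = fun ω => Sop f'' ω + Sop (fun ω => f ω - f'' ω) ω := by
    rw [← Sop_add]; congr 1; funext ω; ring
  have e2 : ∀ ω, f'' ω = f ω + (f'' ω - f ω) := by intro ω; ring
  have s1 := int_young hbf''.S hbd''.S hδ0
  have s2 := gap_local hq hbf'' hl'' h0''
  have s3 := int_Sop_le hbd''
  have s4 : ∫ ω, f'' ω ^ 2 ∂(labP (W q)) ≤ (1 + δ) * D + (1 + 1 / δ) * (4 * (ε / Kc)) := by
    have h1 := int_young hbf (hbf''.sub hbf) hδ0
    have h2 : ∫ ω, (f ω + (f'' ω - f ω)) ^ 2 ∂(labP (W q)) = ∫ ω, f'' ω ^ 2 ∂(labP (W q)) := by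
      congr 1; funext ω; congr 1; ring
    have h3 : ∫ ω, (f'' ω - f ω) ^ 2 ∂(labP (W q)) = ∫ ω, (f ω - f'' ω) ^ 2 ∂(labP (W q)) := by
      congr 1; funext ω; ring
    rw [h2, h3] at h1
    have h4 : 0 ≤ 1 + 1 / δ := by positivity
    nlinarith
  rw [e1]
  refine s1.trans ?_
  have h5 : 0 ≤ 1 + 1 / δ := by positivity
  have t1 : (1 + δ) * ∫ ω, (Sop f'' ω) ^ 2 ∂(labP (W q)) ≤
      (1 + δ) * (4 * q * ((1 + δ) * D + (1 + 1 / δ) * (4 * (ε / Kc)))) := by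
    refine mul_le_mul_of_nonneg_left (s2.trans ?_) (by positivity)
    exact mul_le_mul_of_nonneg_left s4 (by positivity)
  have t2 : (1 + 1 / δ) * ∫ ω, (Sop (fun ω => f ω - f'' ω) ω) ^ 2 ∂(labP (W q)) ≤
      (1 + 1 / δ) * (((q : ℝ) + 1) ^ 2 * (4 * (ε / Kc))) := by
    refine mul_le_mul_of_nonneg_left (s3.trans ?_) h5
    exact mul_le_mul_of_nonneg_left hdiff (by positivity)
  have t3 : (1 + δ) * (4 * q * ((1 + δ) * D + (1 + 1 / δ) * (4 * (ε / Kc)))) +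
      (1 + 1 / δ) * (((q : ℝ) + 1) ^ 2 * (4 * (ε / Kc))) = (1 + δ) ^ 2 * (4 * q) * D + ε := by
    have h9 : Kc * (ε / Kc) = ε := by field_simp
    have h10 : ∀ X : ℝ, (1 + δ) * (4 * q * ((1 + δ) * D + (1 + 1 / δ) * (4 * X))) +
      (1 + 1 / δ) * (((q : ℝ) + 1) ^ 2 * (4 * X)) = (1 + δ) ^ 2 * (4 * q) * D + Kc * X := by
      intro X; rw [hKc]; ring
    rw [h10, h9]
  have t4 : (1 + δ) ^ 2 * (4 * q) * D ≤ 1.01 * (4 * q) * D := by
    refine mul_le_mul_of_nonneg_right (mul_le_mul_of_nonneg_right ?_ (by positivity)) hD0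
    norm_num [hδ]
  linarith

/-! ### closure of `Loc` -/

theorem loc_add {f g : Lab (W q) → ℝ} (hf : Loc f) (hg : Loc g) : Loc (fun ω => f ω + g ω) where
  meas := hf.meas.add hg.meas
  bd := ((Loc.bm hf).add (Loc.bm hg)).2
  approx := by
    intro ε hε
    obtain ⟨n, f', a1, a2, a3, a4⟩ := hf.approx (ε / 4) (by positivity)
    obtain ⟨m, g', b1, b2, b3, b4⟩ := hg.approx (ε / 4) (by positivity)
    refine ⟨max n m, fun ω => f' ω + g' ω, a1.add b1, (BM.add ⟨a1, a2⟩ ⟨b1, b2⟩).2, ?_, ?_⟩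
    · intro ω ω' h
      show f' ω + g' ω = f' ω' + g' ω'
      rw [a3 ω ω' fun e he => h e (by rw [mem_wball] at he ⊢; exact he.trans (le_max_left _ _)),
        b3 ω ω' fun e he => h e (by rw [mem_wball] at he ⊢; exact he.trans (le_max_right _ _))]
    · have h1 := int_young ((Loc.bm hf).sub ⟨a1, a2⟩) ((Loc.bm hg).sub ⟨b1, b2⟩) (δ := 1) one_pos
      have h2 : ∀ ω, f ω + g ω - (f' ω + g' ω) = (f ω - f' ω) + (g ω - g' ω) := by intro ω; ring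
      simp_rw [h2]
      norm_num at h1
      linarith

theorem loc_smul {f : Lab (W q) → ℝ} (hf : Loc f) (c : ℝ) : Loc (fun ω => c * f ω) where
  meas := measurable_const.mul hf.meas
  bd := ((Loc.bm hf).smul c).2
  approx := by
    intro ε hε
    obtain ⟨n, f', a1, a2, a3, a4⟩ := hf.approx (ε / (c ^ 2 + 1)) (by positivity)
    refine ⟨n, fun ω => c * f' ω, measurable_const.mul a1, (BM.smul ⟨a1, a2⟩ c).2, ?_, ?_⟩
    · intro ω ω' h
      show c * f' ω = c * f' ω'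
      rw [a3 ω ω' h]
    · have h2 : ∀ ω, (c * f ω - c * f' ω) ^ 2 = c ^ 2 * (f ω - f' ω) ^ 2 := by intro ω; ring
      simp_rw [h2]
      rw [integral_const_mul]
      have h3 : c ^ 2 * (ε / (c ^ 2 + 1)) ≤ ε := by
        rw [mul_div_assoc', div_le_iff₀ (by positivity)]
        nlinarith [sq_nonneg c]
      exact (mul_le_mul_of_nonneg_left a4 (sq_nonneg c)).trans h3

theorem loc_sum {ι : Type*} (s : Finset ι) {f : ι → Lab (W q) → ℝ} (hf : ∀ i, Loc (f i)) :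
    Loc (fun ω => ∑ i ∈ s, f i ω) := by
  classical
  induction s using Finset.induction_on with
  | empty =>
    simp only [Finset.sum_empty]
    exact ⟨measurable_const, ⟨0, fun _ => by simp⟩, fun ε hε => ⟨0, fun _ => 0, measurable_const,
      ⟨0, fun _ => by simp⟩, fun _ _ _ => rfl, by simp [hε.le]⟩⟩
  | insert a s ha ih =>
    simp only [Finset.sum_insert ha]
    exact loc_add (hf a) ih

theorem loc_sh {f : Lab (W q) → ℝ} (hf : Loc f) (i : Fin (q + 1)) : Loc (fun ω => f (sh i ω)) where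
  meas := hf.meas.comp (sh_mp i).measurable
  bd := ((Loc.bm hf).sh i).2
  approx := by
    intro ε hε
    obtain ⟨n, f', a1, a2, a3, a4⟩ := hf.approx ε hε
    refine ⟨n + 1, fun ω => f' (sh i ω), a1.comp (sh_mp i).measurable, (BM.sh ⟨a1, a2⟩ i).2, ?_, ?_⟩
    · intro ω ω' h
      refine a3 _ _ fun e he => h (tog i e.1, e.2) ?_
      rw [mem_wball] at he ⊢
      rcases len_tog i e.1 with h1 | h1 <;> simp only <;> omega
    · have := integral_sh (fun ω => (f ω - f' ω) ^ 2) i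
      rw [this]; exact a4

theorem loc_Bop {ξ : Fin (q + 1) → Lab (W q) → ℝ} (hξ : ∀ i, Loc (ξ i)) (i : Fin (q + 1)) :
    Loc (Bop ξ i) := by
  unfold Bop
  exact loc_smul (loc_sum _ fun k => loc_sh (hξ k) i) _

/-- mean of the family -/
noncomputable def avg (ξ : Fin (q + 1) → Lab (W q) → ℝ) (ω : Lab (W q)) : ℝ :=
  ((q : ℝ) + 1)⁻¹ * ∑ i, ξ i ω

theorem avg_spec (ξ : Fin (q + 1) → Lab (W q) → ℝ) (ω : Lab (W q)) :
    ∑ i, ξ i ω = ((q : ℝ) + 1) * avg ξ ω := by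
  unfold avg
  have : (q : ℝ) + 1 ≠ 0 := by positivity
  field_simp

theorem dev_sum (ξ : Fin (q + 1) → Lab (W q) → ℝ) (ω : Lab (W q)) :
    ∑ i, (avg ξ ω - ξ i ω) = 0 := by
  rw [Finset.sum_sub_distrib, avg_spec ξ ω]
  simp only [Finset.sum_const, Finset.card_univ, Fintype.card_fin, nsmul_eq_mul]
  push_cast
  ring

theorem Bop_eq (hq : 2 ≤ q) (ξ : Fin (q + 1) → Lab (W q) → ℝ) (i : Fin (q + 1)) (ω : Lab (W q)) :
    Bop ξ i ω = avg ξ (sh i ω) + (q : ℝ)⁻¹ * (avg ξ (sh i ω) - ξ i (sh i ω)) := by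
  have hq0 : (q : ℝ) ≠ 0 := by exact_mod_cast (by omega : q ≠ 0)
  unfold Bop
  have h1 := Finset.add_sum_erase Finset.univ (fun k => ξ k (sh i ω)) (Finset.mem_univ i)
  rw [avg_spec ξ (sh i ω)] at h1
  have h2 : ∑ k ∈ Finset.univ.erase i, ξ k (sh i ω) =
      ((q : ℝ) + 1) * avg ξ (sh i ω) - ξ i (sh i ω) := by linarith
  rw [h2]
  field_simp
  ring

/-- total energy -/
noncomputable def Q (ξ : Fin (q + 1) → Lab (W q) → ℝ) : ℝ :=
  ∑ i, ∫ ω, (ξ i ω) ^ 2 ∂(labP (W q))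

theorem bm_avg {ξ : Fin (q + 1) → Lab (W q) → ℝ} (hξ : ∀ i, BM (ξ i)) : BM (avg ξ) := by
  unfold avg
  exact (BM.sum _ hξ).smul _

/-- energy of a combination `avg + c dev`. -/
theorem Q_comb {ξ : Fin (q + 1) → Lab (W q) → ℝ} (hξ : ∀ i, BM (ξ i)) (c : ℝ) :
    ∑ i, ∫ ω, (avg ξ ω + c * (avg ξ ω - ξ i ω)) ^ 2 ∂(labP (W q)) =
      ((q : ℝ) + 1) * (∫ ω, avg ξ ω ^ 2 ∂(labP (W q))) +
        c ^ 2 * ∑ i, ∫ ω, (avg ξ ω - ξ i ω) ^ 2 ∂(labP (W q)) := by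
  have ha := bm_avg hξ
  have hd : ∀ i, BM (fun ω => avg ξ ω - ξ i ω) := fun i => ha.sub (hξ i)
  rw [← integral_finsetSum _ fun i _ => (ha.add ((hd i).smul c)).sq.integrable,
    ← integral_finsetSum _ fun i _ => (hd i).sq.integrable, ← integral_const_mul,
    ← integral_const_mul, ← integral_add (ha.sq.smul _).integrable
      ((BM.sum Finset.univ fun i => (hd i).sq).smul _).integrable]
  congr 1
  funext ω
  have h1 : ∀ i : Fin (q + 1), (avg ξ ω + c * (avg ξ ω - ξ i ω)) ^ 2 =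
      avg ξ ω ^ 2 + (2 * c * avg ξ ω) * (avg ξ ω - ξ i ω) + c ^ 2 * (avg ξ ω - ξ i ω) ^ 2 := by
    intro i; ring
  simp_rw [h1]
  rw [Finset.sum_add_distrib, Finset.sum_add_distrib, ← Finset.mul_sum, dev_sum, ← Finset.mul_sum]
  simp only [Finset.sum_const, Finset.card_univ, Fintype.card_fin, nsmul_eq_mul]
  push_cast
  ring

theorem Q_self {ξ : Fin (q + 1) → Lab (W q) → ℝ} (hξ : ∀ i, BM (ξ i)) :
    Q ξ = ((q : ℝ) + 1) * (∫ ω, avg ξ ω ^ 2 ∂(labP (W q))) +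
        ∑ i, ∫ ω, (avg ξ ω - ξ i ω) ^ 2 ∂(labP (W q)) := by
  have h := Q_comb hξ (-1)
  have e : ∀ i ω, avg ξ ω + -1 * (avg ξ ω - ξ i ω) = ξ i ω := by intro i ω; ring
  simp_rw [e] at h
  unfold Q
  rw [h]; ring

theorem Q_Bop (hq : 2 ≤ q) {ξ : Fin (q + 1) → Lab (W q) → ℝ} (hξ : ∀ i, BM (ξ i)) :
    Q (Bop ξ) = ((q : ℝ) + 1) * (∫ ω, avg ξ ω ^ 2 ∂(labP (W q))) +
        ((q : ℝ)⁻¹) ^ 2 * ∑ i, ∫ ω, (avg ξ ω - ξ i ω) ^ 2 ∂(labP (W q)) := by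
  rw [← Q_comb hξ]
  unfold Q
  refine Finset.sum_congr rfl fun i _ => ?_
  simp_rw [Bop_eq hq]
  exact integral_sh (fun ω => (avg ξ ω + (q : ℝ)⁻¹ * (avg ξ ω - ξ i ω)) ^ 2) i

theorem Q_nonneg (ξ : Fin (q + 1) → Lab (W q) → ℝ) : 0 ≤ Q ξ :=
  Finset.sum_nonneg fun _ _ => integral_nonneg fun _ => sq_nonneg _

theorem mean_Bop {ξ : Fin (q + 1) → Lab (W q) → ℝ} (hξ : ∀ i, BM (ξ i))
    (h0 : ∀ i, ∫ ω, ξ i ω ∂(labP (W q)) = 0) (i : Fin (q + 1)) :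
    ∫ ω, Bop ξ i ω ∂(labP (W q)) = 0 := by
  unfold Bop
  rw [integral_const_mul, integral_finsetSum _ fun k _ => ((hξ k).sh i).integrable]
  have : ∀ k, ∫ ω, ξ k (sh i ω) ∂(labP (W q)) = 0 := fun k => by
    rw [integral_sh (ξ k) i, h0]
  simp [this]

theorem mean_avg {ξ : Fin (q + 1) → Lab (W q) → ℝ} (hξ : ∀ i, BM (ξ i))
    (h0 : ∀ i, ∫ ω, ξ i ω ∂(labP (W q)) = 0) :
    ∫ ω, avg ξ ω ∂(labP (W q)) = 0 := by
  unfold avg
  rw [integral_const_mul, integral_finsetSum _ fun k _ => (hξ k).integrable]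
  simp [h0]

theorem loc_avg {ξ : Fin (q + 1) → Lab (W q) → ℝ} (hξ : ∀ i, Loc (ξ i)) : Loc (avg ξ) := by
  unfold avg
  exact loc_smul (loc_sum _ hξ) _

/-- two steps contract -/
theorem Q_two (hq : 2 ≤ q) {ξ : Fin (q + 1) → Lab (W q) → ℝ} (hξ : ∀ i, Loc (ξ i))
    (h0 : ∀ i, ∫ ω, ξ i ω ∂(labP (W q)) = 0) : Q (Bop (Bop ξ)) ≤ 0.998 * Q ξ := by
  have hb : ∀ i, BM (ξ i) := fun i => Loc.bm (hξ i)
  have hbB : ∀ i, BM (Bop ξ i) := fun i => Loc.bm (loc_Bop hξ i)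
  have hq2 : (2:ℝ) ≤ q := by exact_mod_cast hq
  have hq0 : (0:ℝ) < q := by linarith
  set κ : ℝ := ((q : ℝ)⁻¹) ^ 2 with hκ
  have hκ0 : 0 ≤ κ := by positivity
  have hκ1 : κ ≤ 1 / 4 := by
    rw [hκ, inv_pow, inv_le_comm₀ (by positivity) (by norm_num)]
    nlinarith
  set A : ℝ := ((q : ℝ) + 1) * ∫ ω, avg ξ ω ^ 2 ∂(labP (W q)) with hA
  set B : ℝ := ∑ i, ∫ ω, (avg ξ ω - ξ i ω) ^ 2 ∂(labP (W q)) with hB
  have hA0 : 0 ≤ A := mul_nonneg (by positivity) (integral_nonneg fun ω => sq_nonneg _)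
  have hB0 : 0 ≤ B := Finset.sum_nonneg fun _ _ => integral_nonneg fun ω => sq_nonneg _
  set G : ℝ := ((q : ℝ) + 1) * ∫ ω, avg (Bop ξ) ω ^ 2 ∂(labP (W q)) with hG
  have e1 : Q ξ = A + B := Q_self hb
  have e2 : Q (Bop ξ) = A + κ * B := Q_Bop hq hb
  have e3 : Q (Bop (Bop ξ)) = G + κ * (Q (Bop ξ) - G) := by
    rw [Q_Bop hq hbB, Q_self hbB]; ring
  have hG1 : G ≤ A + κ * B := by
    rw [← e2, Q_self hbB]
    have : 0 ≤ ∑ i, ∫ ω, (avg (Bop ξ) ω - Bop ξ i ω) ^ 2 ∂(labP (W q)) :=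
      Finset.sum_nonneg fun _ _ => integral_nonneg fun ω => sq_nonneg _
    linarith
  have hG2 : G ≤ 0.95625 * A + 17 * κ * B := by
    have ha := bm_avg hb
    have hd : ∀ i, BM (fun ω => avg ξ ω - ξ i ω) := fun i => ha.sub (hb i)
    set T : Lab (W q) → ℝ := fun ω => (q : ℝ)⁻¹ * ∑ i, (avg ξ (sh i ω) - ξ i (sh i ω)) with hT
    have hTb : BM T := (BM.sum _ fun i => (hd i).sh i).smul _
    have f1 : ∀ ω, ((q : ℝ) + 1) * avg (Bop ξ) ω = Sop (avg ξ) ω + T ω := by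
      intro ω
      rw [← avg_spec]
      simp_rw [Bop_eq hq]
      rw [Finset.sum_add_distrib, ← Finset.mul_sum]
      rfl
    have f2 : ((q : ℝ) + 1) * G = ∫ ω, (Sop (avg ξ) ω + T ω) ^ 2 ∂(labP (W q)) := by
      simp_rw [← f1, mul_pow]
      rw [integral_const_mul, hG]; ring
    have f3 := int_young ha.S hTb (δ := 1 / 16) (by norm_num)
    have f4 := gap_loc hq (loc_avg hξ) (mean_avg hb h0)
    have f5 : ∫ ω, T ω ^ 2 ∂(labP (W q)) ≤ κ * (((q : ℝ) + 1) * B) := by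
      have g1 : ∫ ω, T ω ^ 2 ∂(labP (W q)) ≤
          ∫ ω, κ * (((q : ℝ) + 1) * ∑ i, (avg ξ (sh i ω) - ξ i (sh i ω)) ^ 2) ∂(labP (W q)) := by
        refine integral_mono hTb.sq.integrable
          ((((BM.sum Finset.univ fun i => ((hd i).sh i).sq).smul _).smul _).integrable) fun ω => ?_
        show T ω ^ 2 ≤ _
        simp only [hT]
        rw [mul_pow, ← hκ]
        exact mul_le_mul_of_nonneg_left (sum_sq_le _) hκ0
      refine g1.trans ?_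
      rw [integral_const_mul, integral_const_mul,
        integral_finsetSum _ fun i _ => ((hd i).sh i).sq.integrable]
      have g2 : ∀ i : Fin (q + 1), ∫ ω, (avg ξ (sh i ω) - ξ i (sh i ω)) ^ 2 ∂(labP (W q)) =
          ∫ ω, (avg ξ ω - ξ i ω) ^ 2 ∂(labP (W q)) :=
        fun i => integral_sh (fun ω => (avg ξ ω - ξ i ω) ^ 2) i
      simp_rw [g2]
      exact le_rfl
    rw [← f2] at f3
    have f6 : 1.01 * (4 * (q:ℝ)) ≤ 0.9 * ((q : ℝ) + 1) ^ 2 := by nlinarith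
    have f7 : ∫ ω, (Sop (avg ξ) ω) ^ 2 ∂(labP (W q)) ≤ 0.9 * ((q : ℝ) + 1) * A := by
      refine f4.trans ?_
      rw [hA]
      have hI : 0 ≤ ∫ ω, avg ξ ω ^ 2 ∂(labP (W q)) := integral_nonneg fun ω => sq_nonneg _
      nlinarith [mul_le_mul_of_nonneg_right f6 hI]
    have hp : (0:ℝ) < (q : ℝ) + 1 := by positivity
    have f8 : ((q : ℝ) + 1) * G ≤ ((q : ℝ) + 1) * (0.95625 * A + 17 * κ * B) := by
      norm_num at f3
      nlinarith
    exact le_of_mul_le_mul_left f8 hp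
  rw [e3, e2, e1]
  have hG3 : G ≤ (1 / 16) * (0.95625 * A + 17 * κ * B) + (15 / 16) * (A + κ * B) := by linarith
  have h1κ : 0 ≤ 1 - κ := by linarith
  have s1 := mul_le_mul_of_nonneg_left hG3 h1κ
  have s2 : 0 ≤ κ * A := mul_nonneg hκ0 hA0
  have s3 : κ * A ≤ (1 / 4) * A := mul_le_mul_of_nonneg_right hκ1 hA0
  have s4 : 0 ≤ κ * B := mul_nonneg hκ0 hB0
  have s5 : κ * B ≤ (1 / 4) * B := mul_le_mul_of_nonneg_right hκ1 hB0
  have s6 : 0 ≤ κ * (κ * B) := mul_nonneg hκ0 s4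
  nlinarith

theorem Q_one (hq : 2 ≤ q) {ξ : Fin (q + 1) → Lab (W q) → ℝ} (hb : ∀ i, BM (ξ i)) :
    Q (Bop ξ) ≤ Q ξ := by
  have hq2 : (2:ℝ) ≤ q := by exact_mod_cast hq
  rw [Q_Bop hq hb, Q_self hb]
  have hB0 : 0 ≤ ∑ i, ∫ ω, (avg ξ ω - ξ i ω) ^ 2 ∂(labP (W q)) :=
    Finset.sum_nonneg fun _ _ => integral_nonneg fun ω => sq_nonneg _
  have hκ1 : ((q : ℝ)⁻¹) ^ 2 ≤ 1 := by
    rw [inv_pow]
    apply inv_le_one_of_one_le₀
    nlinarith
  have := mul_le_mul_of_nonneg_right hκ1 hB0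
  linarith

theorem Q_iter (hq : 2 ≤ q) : ∀ (k : ℕ) (ξ : Fin (q + 1) → Lab (W q) → ℝ), (∀ i, Loc (ξ i)) →
      (∀ i, ∫ ω, ξ i ω ∂(labP (W q)) = 0) → Q (Bop^[k] ξ) ≤ 2 * (0.9995 : ℝ) ^ k * Q ξ := by
  intro k
  induction k using Nat.strong_induction_on with
  | _ k ih =>
    intro ξ hξ h0
    have hQ := Q_nonneg ξ
    rcases k with _ | _ | k
    · simp only [Function.iterate_zero, id, pow_zero]; linarith
    · have := Q_one hq (fun i => Loc.bm (hξ i))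
      simp only [zero_add, Function.iterate_one, pow_one]
      nlinarith
    · have h1 := ih k (by omega) (Bop (Bop ξ)) (fun i => loc_Bop (fun i => loc_Bop hξ i) i)
        (fun i => mean_Bop (fun i => Loc.bm (loc_Bop hξ i))
          (fun i => mean_Bop (fun i => Loc.bm (hξ i)) h0 i) i)
      have h2 := Q_two hq hξ h0
      rw [Function.iterate_succ_apply, Function.iterate_succ_apply]
      refine h1.trans ?_
      have h3 : (0:ℝ) ≤ 2 * (0.9995 : ℝ) ^ k := by positivity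
      refine (mul_le_mul_of_nonneg_left h2 h3).trans ?_
      rw [pow_succ, pow_succ]
      have h4 : (0:ℝ) ≤ (0.9995 : ℝ) ^ k * Q ξ := by positivity
      nlinarith

end Crest.Agent.FreeIs.Gap

namespace Crest.Agent.FreeIs

open Crest.Agent.FreeIs.Gap

/-- **M3**: exponential decay of `Bop` on mean zero families. -/
theorem bop_decay {q : ℕ} (hq : 2 ≤ q) : ∃ C γ : ℝ, 0 ≤ C ∧ 0 ≤ γ ∧ γ < 1 ∧
    ∀ ξ : Fin (q + 1) → Lab (W q) → ℝ, (∀ i, Loc (ξ i)) →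
      (∀ i, ∫ ω, ξ i ω ∂(labP (W q)) = 0) → ∀ k : ℕ,
      ∑ i, ∫ ω, (Bop^[k] ξ i ω) ^ 2 ∂(labP (W q)) ≤ C * γ ^ k * ∑ i, ∫ ω, (ξ i ω) ^ 2 ∂(labP (W q)) :=
  ⟨2, 0.9995, by norm_num, by norm_num, by norm_num, fun ξ h1 h2 k => Q_iter hq k ξ h1 h2⟩

end Crest.Agent.FreeIs
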