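import Crest.Agent.FreeIs.IncB

/-!
M7: the inequality `inc`.
-/

set_option autoImplicit false
set_option linter.unusedVariables false

open MeasureTheory Filter Topology

namespace Crest.Agent.FreeIs.IncA

open Crest.Agent.FreeIs Crest.Agent.FreeIs.Rec

variable {q : ℕ}

/-- interpolation by slicing -/
theorem slice {A B : Lab (W q) → ℝ} (hA : BM A) (hB : BM B) (hA0 : ∀ ω, 0 ≤ A ω)
    (hB0 : ∀ ω, 0 ≤ B ω) (hB4 : ∀ ω, B ω ≤ 4) {p : ℕ} (hp : 1 ≤ p) {s Cp n : ℝ} (hs : 0 < s)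
    (hCp : 0 ≤ Cp) (hn : 0 ≤ n) (h1 : ∫ ω, A ω ^ p ∂(labP (W q)) ≤ Cp * s ^ p)
    (h2 : ∫ ω, B ω ∂(labP (W q)) = n) :
    ∫ ω, A ω * B ω ∂(labP (W q)) ≤ (1 + 4 * Cp) * (s * n ^ (1 - 1 / (p : ℝ))) := by
  have hp0 : (0 : ℝ) < p := by exact_mod_cast hp
  rcases hn.eq_or_lt with hn0 | hn0
  · -- `B = 0` a.e.
    rw [← hn0] at h2
    have h3 := (integral_eq_zero_iff_of_nonneg hB0 hB.integrable).1 h2
    have h4 : ∫ ω, A ω * B ω ∂(labP (W q)) = 0 := by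
      rw [integral_congr_ae (g := fun _ => (0 : ℝ))]
      · simp
      · filter_upwards [h3] with ω hω
        rw [hω]; simp
    rw [h4]
    positivity
  · set lam : ℝ := s * n ^ (-(1 / (p : ℝ))) with hlam
    have hl : 0 < lam := by rw [hlam]; positivity
    have hpt : ∀ ω, A ω * B ω ≤ lam * B ω + 4 / lam ^ (p - 1) * A ω ^ p := by
      intro ω
      by_cases h : A ω ≤ lam
      · have h5 : 0 ≤ 4 / lam ^ (p - 1) * A ω ^ p :=
          mul_nonneg (by positivity) (pow_nonneg (hA0 ω) _)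
        have := mul_le_mul_of_nonneg_right h (hB0 ω)
        linarith
      · rw [not_le] at h
        have h5 : 0 ≤ lam * B ω := mul_nonneg hl.le (hB0 ω)
        have h6 : A ω * B ω ≤ 4 * A ω := by nlinarith [hA0 ω, hB4 ω]
        have h7 : 4 * A ω ≤ 4 / lam ^ (p - 1) * A ω ^ p := by
          have e : A ω ^ p = A ω ^ (p - 1) * A ω := by
            rw [← pow_succ]; congr 1; omega
          rw [e, div_mul_eq_mul_div, le_div_iff₀ (by positivity)]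
          have h8 : lam ^ (p - 1) ≤ A ω ^ (p - 1) := pow_le_pow_left₀ hl.le h.le _
          have := mul_le_mul_of_nonneg_right h8 (hA0 ω)
          linarith
        linarith
    have h3 : ∫ ω, A ω * B ω ∂(labP (W q)) ≤ lam * n + 4 / lam ^ (p - 1) * (Cp * s ^ p) := by
      calc _ ≤ ∫ ω, (lam * B ω + 4 / lam ^ (p - 1) * A ω ^ p) ∂(labP (W q)) :=
            integral_mono (hA.mul hB).integrable
              ((hB.const_mul _).add ((hA.pow p).const_mul _)).integrable hpt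
        _ = lam * n + 4 / lam ^ (p - 1) * ∫ ω, A ω ^ p ∂(labP (W q)) := by
            rw [integral_add (hB.const_mul _).integrable ((hA.pow p).const_mul _).integrable,
              integral_const_mul, integral_const_mul, h2]
        _ ≤ _ := by
            have : 0 ≤ 4 / lam ^ (p - 1) := by positivity
            nlinarith
    refine h3.trans (le_of_eq ?_)
    have e1 : lam * n = s * n ^ (1 - 1 / (p : ℝ)) := by
      rw [hlam, mul_assoc]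
      congr 1
      rw [← Real.rpow_add_one hn0.ne']
      congr 1
      ring
    have e2 : s ^ p / lam ^ (p - 1) = s * n ^ (1 - 1 / (p : ℝ)) := by
      rw [div_eq_iff (by positivity), hlam, mul_pow]
      have e3 : (n ^ (-(1 / (p : ℝ)))) ^ (p - 1) = n ^ (-(1 - 1 / (p : ℝ))) := by
        rw [← Real.rpow_natCast, ← Real.rpow_mul hn]
        congr 1
        rw [Nat.cast_sub hp]
        field_simp
        push_cast
        ring
      rw [e3]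
      have e4 : n ^ (1 - 1 / (p : ℝ)) * n ^ (-(1 - 1 / (p : ℝ))) = 1 := by
        rw [← Real.rpow_add hn0]; simp
      have e5 : s ^ p = s * s ^ (p - 1) := by
        rw [← pow_succ']; congr 1; omega
      rw [e5]
      linear_combination (-(s * s ^ (p - 1))) * e4
    calc lam * n + 4 / lam ^ (p - 1) * (Cp * s ^ p)
        = lam * n + 4 * Cp * (s ^ p / lam ^ (p - 1)) := by ring
      _ = _ := by rw [e1, e2]; ring

theorem var_le {X : Lab (W q) → ℝ} (hX : BM X) (c : ℝ) :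
    ∫ ω, (X ω - ∫ ω', X ω' ∂(labP (W q))) ^ 2 ∂(labP (W q))
      ≤ ∫ ω, (X ω - c) ^ 2 ∂(labP (W q)) := by
  set m : ℝ := ∫ ω', X ω' ∂(labP (W q)) with hm
  have e : ∀ ω, (X ω - c) ^ 2 = (X ω - m) ^ 2 + (2 * (m - c) * (X ω - m) + (m - c) ^ 2) := by
    intro ω; ring
  have h1 : ∫ ω, (X ω - c) ^ 2 ∂(labP (W q)) = ∫ ω, (X ω - m) ^ 2 ∂(labP (W q)) + (m - c) ^ 2 := by
    rw [integral_congr_ae (Eventually.of_forall e),
      integral_add ((hX.sub (BM.const m)).pow 2).integrable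
        (((hX.sub (BM.const m)).const_mul _).add (BM.const _)).integrable,
      integral_add ((hX.sub (BM.const m)).const_mul _).integrable (BM.const _).integrable,
      integral_const_mul, integral_sub hX.integrable (BM.const m).integrable]
    simp [← hm]
  rw [h1]
  nlinarith [sq_nonneg (m - c)]

/-- pure real arithmetic for `dl_sq` -/
theorem pt_real {K K' t x y am am' aN aNi L : ℝ} (hK : 0 ≤ K) (hK' : 0 ≤ K') (ht0 : 0 ≤ t)
    (ht1 : t ≤ 1) (hL : |L| ≤ K * ((am + am') * |x - y| + t)) (hx0 : 0 ≤ am) (hy0 : 0 ≤ am')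
    (hx1 : am ≤ 1) (hy1 : am' ≤ 1) (hN0 : 0 ≤ aN) (hNi0 : 0 ≤ aNi)
    (hd : |x - y| ≤ K' * (aN + aNi + t)) :
    L ^ 2 ≤ K ^ 2 * (36 * K' ^ 2 + 2) * ((am ^ 2 * aN ^ 2 + am ^ 2 * aNi ^ 2
        + am' ^ 2 * aN ^ 2 + am' ^ 2 * aNi ^ 2) + t) := by
  have hd0 : 0 ≤ |x - y| := abs_nonneg _
  generalize |x - y| = d at *
  have k0 : 0 ≤ K' ^ 2 := sq_nonneg _
  have h1 : d ^ 2 ≤ K' ^ 2 * (3 * (aN ^ 2 + aNi ^ 2 + t ^ 2)) := by
    calc d ^ 2 ≤ (K' * (aN + aNi + t)) ^ 2 := pow_le_pow_left₀ hd0 hd 2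
      _ = K' ^ 2 * (aN + aNi + t) ^ 2 := by ring
      _ ≤ _ := by
          refine mul_le_mul_of_nonneg_left ?_ k0
          linarith [sq_nonneg (aN - aNi), sq_nonneg (aN - t), sq_nonneg (aNi - t)]
  have h2 : (am + am') ^ 2 ≤ 2 * (am ^ 2 + am' ^ 2) := by linarith [sq_nonneg (am - am')]
  have h3 : t ^ 2 ≤ t := by nlinarith
  have m1 : am ^ 2 ≤ 1 := pow_le_one₀ hx0 hx1
  have m2 : am' ^ 2 ≤ 1 := pow_le_one₀ hy0 hy1
  have h4 : (am ^ 2 + am' ^ 2) * t ^ 2 ≤ 2 * t := by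
    calc _ ≤ 2 * t := mul_le_mul (by linarith) h3 (sq_nonneg _) (by norm_num)
      _ = _ := rfl
  have h5 : ((am + am') * d) ^ 2 ≤ 6 * (K' ^ 2 * (am ^ 2 * aN ^ 2 + am ^ 2 * aNi ^ 2
        + am' ^ 2 * aN ^ 2 + am' ^ 2 * aNi ^ 2)) + 12 * (K' ^ 2 * t) := by
    calc ((am + am') * d) ^ 2 = (am + am') ^ 2 * d ^ 2 := by ring
      _ ≤ 2 * (am ^ 2 + am' ^ 2) * (K' ^ 2 * (3 * (aN ^ 2 + aNi ^ 2 + t ^ 2))) :=
          mul_le_mul h2 h1 (sq_nonneg _) (by positivity)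
      _ = 6 * (K' ^ 2 * (am ^ 2 * aN ^ 2 + am ^ 2 * aNi ^ 2
        + am' ^ 2 * aN ^ 2 + am' ^ 2 * aNi ^ 2)) + 6 * (K' ^ 2 * ((am ^ 2 + am' ^ 2) * t ^ 2)) := by
          ring
      _ ≤ _ := by
          have := mul_le_mul_of_nonneg_left h4 k0
          linarith
  have hX0 : 0 ≤ am ^ 2 * aN ^ 2 + am ^ 2 * aNi ^ 2
        + am' ^ 2 * aN ^ 2 + am' ^ 2 * aNi ^ 2 := by positivity
  generalize am ^ 2 * aN ^ 2 + am ^ 2 * aNi ^ 2
        + am' ^ 2 * aN ^ 2 + am' ^ 2 * aNi ^ 2 = X at *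
  rw [← sq_abs]
  calc |L| ^ 2 ≤ (K * ((am + am') * d + t)) ^ 2 := pow_le_pow_left₀ (abs_nonneg _) hL 2
    _ = K ^ 2 * ((am + am') * d + t) ^ 2 := by ring
    _ ≤ K ^ 2 * (2 * ((am + am') * d) ^ 2 + 2 * t ^ 2) := by
        refine mul_le_mul_of_nonneg_left ?_ (sq_nonneg _)
        linarith [sq_nonneg ((am + am') * d - t)]
    _ ≤ K ^ 2 * ((36 * K' ^ 2 + 2) * (X + t)) := by
        refine mul_le_mul_of_nonneg_left ?_ (sq_nonneg _)
        have e : (36 * K' ^ 2 + 2) * (X + t) = 36 * (K' ^ 2 * X) + 36 * (K' ^ 2 * t)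
          + 2 * X + 2 * t := by ring
        rw [e]
        linarith [mul_nonneg k0 hX0, mul_nonneg k0 ht0]
    _ = _ := by ring

/-- second moment of the differences of the (truncated) logarithms -/
theorem dl_sq {θ0 μ : ℝ} (hq : 2 ≤ q) (hμ0 : 0 ≤ μ) (hμ : μ < 1) {Cp : ℝ} (hCp : 0 ≤ Cp)
    (p : ℕ) (hp : 1 ≤ p) : ∃ K3 : ℝ, 0 ≤ K3 ∧ ∀ (θ θ' s : ℝ) (M M' : Lab (W q) → ℝ),
      0 ≤ θ → q * θ ^ 2 ≤ 1 → 0 ≤ θ' → q * θ' ^ 2 ≤ 1 → 0 < s →
      Sys q θ M → Sys q θ' M' →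
      (∀ i, ∀ᵐ ω ∂(labP (W q)), |msg θ M i ω| ≤ μ) → (∀ i, ∀ᵐ ω ∂(labP (W q)), |msg θ' M' i ω| ≤ μ) →
      (∀ i, ∫ ω, (msg θ M i ω) ^ (2 * p) ∂(labP (W q)) ≤ Cp * s ^ p) →
      (∀ i, ∫ ω, (msg θ' M' i ω) ^ (2 * p) ∂(labP (W q)) ≤ Cp * s ^ p) →
      ∀ i, ∫ ω, (lgT μ θ (msg θ M i ω) - lgT μ θ' (msg θ' M' i ω)) ^ 2 ∂(labP (W q))
        ≤ K3 * (s * (nn M M') ^ (1 - 1 / (p : ℝ)) + |θ - θ'|) := by
  set t0 : ℝ := √(1 / 2) with ht0
  have t00 : 0 ≤ t0 := Real.sqrt_nonneg _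
  have t01 : t0 < 1 := by
    rw [ht0, Real.sqrt_lt' one_pos]; norm_num
  have htle : ∀ θ : ℝ, q * θ ^ 2 ≤ 1 → θ ≤ t0 := by
    intro θ h
    have h2 : (2 : ℝ) ≤ q := by exact_mod_cast hq
    rw [ht0]
    refine Real.le_sqrt_of_sq_le ?_
    nlinarith [mul_nonneg (sub_nonneg.2 h2) (sq_nonneg θ)]
  obtain ⟨K, hK0, hK⟩ := log_gg_lip t00 t01 hμ0 hμ
  obtain ⟨K', hK'0, hK'⟩ := cav_lip t00 t01
  refine ⟨K ^ 2 * (36 * K' ^ 2 + 2) * (1 + 4 * (1 + 4 * Cp)), by positivity, ?_⟩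
  intro θ θ' s M M' h0 h1 h0' h1' hs hM hM' hmμ hm'μ hmp hm'p i
  have ht := theta_lt_one hq h1
  have ht' := theta_lt_one hq h1'
  -- bounded representatives of the messages
  have bM : BM M := ⟨hM.meas, 1, hM.bd⟩
  have bM' : BM M' := ⟨hM'.meas, 1, hM'.bd⟩
  have bm : BM (fun ω => clamp μ (msg θ M i ω)) :=
    ⟨(continuous_clamp μ).measurable.comp (measurable_msg hM.meas i), μ,
      fun ω => clamp_abs _ hμ0⟩
  have bm' : BM (fun ω => clamp μ (msg θ' M' i ω)) :=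
    ⟨(continuous_clamp μ).measurable.comp (measurable_msg hM'.meas i), μ,
      fun ω => clamp_abs _ hμ0⟩
  set m : Lab (W q) → ℝ := fun ω => clamp μ (msg θ M i ω) with hm
  set m' : Lab (W q) → ℝ := fun ω => clamp μ (msg θ' M' i ω) with hm'
  set N : Lab (W q) → ℝ := fun ω => M ω - M' ω with hN
  have bN : BM N := bM.sub bM'
  have bNi : BM (fun ω => N (sh i ω)) := bN.comp_sh i
  set n : ℝ := nn M M' with hn
  have hn0 : 0 ≤ n := integral_nonneg fun ω => sq_nonneg _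
  set t : ℝ := |θ - θ'| with htt
  have t0' : 0 ≤ t := abs_nonneg _
  have t1' : t ≤ 1 := by
    rw [htt, abs_le]; constructor <;> linarith
  have N2 : ∀ ω, N ω ^ 2 ≤ 4 := by
    intro ω
    have : |N ω| ≤ 2 := (abs_sub _ _).trans (by linarith [hM.bd ω, hM'.bd ω])
    rw [← sq_abs]; nlinarith [abs_nonneg (N ω)]
  have eN : ∫ ω, N ω ^ 2 ∂(labP (W q)) = n := rfl
  have eNi : ∫ ω, N (sh i ω) ^ 2 ∂(labP (W q)) = n := by
    rw [← eN]; exact integral_sh i (fun ω => N ω ^ 2)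
  have em : ∫ ω, (m ω ^ 2) ^ p ∂(labP (W q)) ≤ Cp * s ^ p := by
    refine (le_of_eq ?_).trans (hmp i)
    refine integral_congr_ae ?_
    filter_upwards [hmμ i] with ω hω
    simp only [hm]
    rw [clamp_eq hω]
    ring
  have em' : ∫ ω, (m' ω ^ 2) ^ p ∂(labP (W q)) ≤ Cp * s ^ p := by
    refine (le_of_eq ?_).trans (hm'p i)
    refine integral_congr_ae ?_
    filter_upwards [hm'μ i] with ω hω
    simp only [hm']
    rw [clamp_eq hω]
    ring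
  set R : ℝ := s * n ^ (1 - 1 / (p : ℝ)) with hR
  have R0 : 0 ≤ R := by positivity
  have s1 := slice (bm.pow 2) (bN.pow 2) (fun ω => sq_nonneg _) (fun ω => sq_nonneg _) N2 hp hs
    hCp hn0 em eN
  have s2 := slice (bm.pow 2) (bNi.pow 2) (fun ω => sq_nonneg _) (fun ω => sq_nonneg _)
    (fun ω => N2 (sh i ω)) hp hs hCp hn0 em eNi
  have s3 := slice (bm'.pow 2) (bN.pow 2) (fun ω => sq_nonneg _) (fun ω => sq_nonneg _) N2 hp hs
    hCp hn0 em' eN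
  have s4 := slice (bm'.pow 2) (bNi.pow 2) (fun ω => sq_nonneg _) (fun ω => sq_nonneg _)
    (fun ω => N2 (sh i ω)) hp hs hCp hn0 em' eNi
  -- pointwise bound
  have hpt : ∀ᵐ ω ∂(labP (W q)), (lgT μ θ (msg θ M i ω) - lgT μ θ' (msg θ' M' i ω)) ^ 2
      ≤ K ^ 2 * (36 * K' ^ 2 + 2) * ((m ω ^ 2 * N ω ^ 2 + m ω ^ 2 * N (sh i ω) ^ 2
        + m' ω ^ 2 * N ω ^ 2 + m' ω ^ 2 * N (sh i ω) ^ 2) + t) := by
    filter_upwards [good1_ae h0 ht hM, good1_ae h0' ht' hM', hmμ i, hm'μ i] with ω g g' u u'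
    obtain ⟨a1, a2, a3, a4⟩ := g i
    obtain ⟨b1, b2, b3, b4⟩ := g' i
    have l1 := hK θ θ' (clamp μ (msg θ M i ω)) (clamp μ (msg θ' M' i ω)) h0 (htle θ h1) h0'
      (htle θ' h1') (clamp_abs _ hμ0) (clamp_abs _ hμ0)
    have l2 := hK' θ θ' (msg θ M i ω) (msg θ M i (sh i ω)) (msg θ' M' i ω) (msg θ' M' i (sh i ω))
      h0 (htle θ h1) h0' (htle θ' h1') a1 a2 b1 b2
    rw [← a3, ← b3, ← a4, ← b4] at l2
    have e1 : m ω = msg θ M i ω := clamp_eq u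
    have e2 : m' ω = msg θ' M' i ω := clamp_eq u'
    have l1' : |lgT μ θ (msg θ M i ω) - lgT μ θ' (msg θ' M' i ω)|
        ≤ K * ((|m ω| + |m' ω|) * |m ω - m' ω| + t) := l1
    have l2' : |m ω - m' ω| ≤ K' * (|N ω| + |N (sh i ω)| + t) := by
      rw [e1, e2]; exact l2
    have m1 : |m ω| ≤ 1 := by rw [e1]; exact a1
    have m2 : |m' ω| ≤ 1 := by rw [e2]; exact b1
    have := pt_real hK0 hK'0 t0' t1' l1' (abs_nonneg _) (abs_nonneg _) m1 m2 (abs_nonneg _)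
      (abs_nonneg _) l2'
    simpa only [sq_abs] using this
  have b1 := (bm.pow 2).mul (bN.pow 2)
  have b2 := (bm.pow 2).mul (bNi.pow 2)
  have b3 := (bm'.pow 2).mul (bN.pow 2)
  have b4 := (bm'.pow 2).mul (bNi.pow 2)
  calc _ ≤ ∫ ω, K ^ 2 * (36 * K' ^ 2 + 2) * ((m ω ^ 2 * N ω ^ 2 + m ω ^ 2 * N (sh i ω) ^ 2
        + m' ω ^ 2 * N ω ^ 2 + m' ω ^ 2 * N (sh i ω) ^ 2) + t) ∂(labP (W q)) :=
        integral_mono_of_nonneg (Eventually.of_forall fun ω => sq_nonneg _)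
          ((((((b1.add b2).add b3).add b4).add (BM.const t)).const_mul _).integrable) hpt
    _ = K ^ 2 * (36 * K' ^ 2 + 2) * ((∫ ω, m ω ^ 2 * N ω ^ 2 ∂(labP (W q)))
        + (∫ ω, m ω ^ 2 * N (sh i ω) ^ 2 ∂(labP (W q)))
        + (∫ ω, m' ω ^ 2 * N ω ^ 2 ∂(labP (W q)))
        + (∫ ω, m' ω ^ 2 * N (sh i ω) ^ 2 ∂(labP (W q))) + t) := by
        rw [integral_const_mul,
          integral_add (((b1.add b2).add b3).add b4).integrable (BM.const t).integrable,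
          integral_add ((b1.add b2).add b3).integrable b4.integrable,
          integral_add (b1.add b2).integrable b3.integrable,
          integral_add b1.integrable b2.integrable]
        simp
    _ ≤ K ^ 2 * (36 * K' ^ 2 + 2) * (4 * ((1 + 4 * Cp) * R) + t) := by
        refine mul_le_mul_of_nonneg_left ?_ (by positivity)
        linarith
    _ ≤ K ^ 2 * (36 * K' ^ 2 + 2) * ((1 + 4 * (1 + 4 * Cp)) * (R + t)) := by
        refine mul_le_mul_of_nonneg_left ?_ (by positivity)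
        have e : (1 + 4 * (1 + 4 * Cp)) * (R + t) = 4 * ((1 + 4 * Cp) * R) + R + t
          + (4 * t + 16 * (Cp * t)) := by ring
        rw [e]
        linarith [mul_nonneg hCp t0']
    _ = _ := by ring

/-- near part of `Rt`: level `k + 1` -/
theorem level_le {μ θ θ' : ℝ} (hq : 2 ≤ q) (h0 : 0 < θ) (h1 : q * θ ^ 2 ≤ 1) (h0' : 0 < θ')
    (h1' : q * θ' ^ 2 ≤ 1) (hμ0 : 0 ≤ μ) (hμ : μ < 1)
    {M M' : Lab (W q) → ℝ} (hS : Sys q θ M) (hS' : Sys q θ' M')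
    (hM : ∀ ω, |M ω| ≤ μ) (hM' : ∀ ω, |M' ω| ≤ μ)
    (hm : ∀ i, ∀ᵐ ω ∂(labP (W q)), |msg θ M i ω| ≤ μ)
    (hm' : ∀ i, ∀ᵐ ω ∂(labP (W q)), |msg θ' M' i ω| ≤ μ) (k : ℕ) {Z : ℝ}
    (hZ : wsum q (k + 1) (fun l => ∫ ω, LS (fun a ω => lamT μ θ M a ω - lamT μ θ' M' a ω) l ω ^ 2
      ∂(labP (W q))) ≤ (q : ℝ) ^ k * Z) :
    wsum q (k + 1) (fun l => ∫ ω, RtI θ θ' M M' l ω ∂(labP (W q)))
      ≤ (24 / (1 - μ ^ 2) ^ 2 + 48) * nn M M' + 3 * Z := by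
  have hq0 : (0 : ℝ) < q := by positivity
  have hq2 : (2 : ℝ) ≤ q := by exact_mod_cast hq
  have ht := theta_lt_one hq h1
  have ht' := theta_lt_one hq h1'
  have p0 : 0 < 1 - μ ^ 2 := by nlinarith
  have bM : BM M := ⟨hS.meas, 1, hS.bd⟩
  have bM' : BM M' := ⟨hS'.meas, 1, hS'.bd⟩
  have bN : BM (fun ω => (M ω - M' ω) ^ 2) := (bM.sub bM').pow 2
  set ξ : Fin (q + 1) → Lab (W q) → ℝ := fun a ω => lamT μ θ M a ω - lamT μ θ' M' a ω with hξ
  have bξ : ∀ a, BM (ξ a) := fun a =>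
    (loc_bm (loc_lamT h0.le ht hμ0 hμ (sys_loc hS) a)).sub
      (loc_bm (loc_lamT h0'.le ht' hμ0 hμ (sys_loc hS') a))
  have hmA : ∀ᵐ ω ∂(labP (W q)), ∀ (l : List (Fin (q + 1))) i, |msg θ M i (shl l ω)| ≤ μ :=
    ae_shl (P := fun ω => ∀ i, |msg θ M i ω| ≤ μ) (ae_all_iff.2 hm)
  have hmA' : ∀ᵐ ω ∂(labP (W q)), ∀ (l : List (Fin (q + 1))) i, |msg θ' M' i (shl l ω)| ≤ μ :=
    ae_shl (P := fun ω => ∀ i, |msg θ' M' i ω| ≤ μ) (ae_all_iff.2 hm')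
  set c0 : ℝ := 8 / (1 - μ ^ 2) ^ 2 with hc0
  have c0p : 0 ≤ c0 := by rw [hc0]; positivity
  have key : ∀ l : List (Fin (q + 1)), l.length = k + 1 →
      ∫ ω, RtI θ θ' M M' l ω ∂(labP (W q))
        ≤ (q : ℝ)⁻¹ ^ (k + 1) * ((2 * c0 + 32) * nn M M')
          + 6 * (q : ℝ)⁻¹ ^ (k + 1) * ∫ ω, LS ξ l ω ^ 2 ∂(labP (W q)) := by
    intro l hl
    have b1 := (bN.const_mul ((q : ℝ)⁻¹ ^ (k + 1) * c0))
    have b2 := ((bN.comp_shl l).const_mul ((q : ℝ)⁻¹ ^ (k + 1) * (c0 + 32)))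
    have b3 := ((LS_BM bξ l).pow 2).const_mul (6 * (q : ℝ)⁻¹ ^ (k + 1))
    calc _ ≤ ∫ ω, (((q : ℝ)⁻¹ ^ (k + 1) * c0) * (M ω - M' ω) ^ 2
          + ((q : ℝ)⁻¹ ^ (k + 1) * (c0 + 32)) * (M (shl l ω) - M' (shl l ω)) ^ 2
          + (6 * (q : ℝ)⁻¹ ^ (k + 1)) * LS ξ l ω ^ 2) ∂(labP (W q)) := by
          refine integral_mono_of_nonneg (Eventually.of_forall fun ω => RtI_nonneg _ _ _ _ _ _)
            ((b1.add b2).add b3).integrable ?_
          filter_upwards [goodA_ae h0.le ht hS, goodA_ae h0'.le ht' hS', hmA, hmA']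
            with ω g g' u u'
          have e1 := covr_sub_sq hq h0 h1 h0' h1' hμ0 hμ hM hM' l ω g u g' u'
          obtain ⟨d0, d1⟩ := covr_mem h0'.le ht' (hS'.bd ω) g' l
          obtain ⟨r0, r1⟩ := regr_mem h0'.le ht' g' l
          have e2 : covr θ' M' l ω ^ 2 ≤ (q : ℝ)⁻¹ ^ (k + 1) := by
            calc _ ≤ (θ' ^ l.length) ^ 2 := pow_le_pow_left₀ d0 (d1.trans r1) 2
              _ = (θ' ^ 2) ^ (k + 1) := by rw [hl]; ring
              _ ≤ _ := pow_le_pow_left₀ (sq_nonneg _) (theta_sq_le hq h1') _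
          rw [hl] at e1
          simp only [RtI, atW_eq]
          have e3 := mul_le_mul_of_nonneg_right e2 (sq_nonneg (M (shl l ω) - M' (shl l ω)))
          have e4 : 2 * (4 / (1 - μ ^ 2) ^ 2) = c0 := by rw [hc0]; ring
          have e5 : 2 * ((q : ℝ)⁻¹ ^ (k + 1) * (4 / (1 - μ ^ 2) ^ 2 *
              ((M ω - M' ω) ^ 2 + (M (shl l ω) - M' (shl l ω)) ^ 2) + 3 * LS ξ l ω ^ 2))
              = ((q : ℝ)⁻¹ ^ (k + 1) * c0) * (M ω - M' ω) ^ 2
                + ((q : ℝ)⁻¹ ^ (k + 1) * c0) * (M (shl l ω) - M' (shl l ω)) ^ 2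
                + (6 * (q : ℝ)⁻¹ ^ (k + 1)) * LS ξ l ω ^ 2 := by
            rw [← e4]; ring
          have e6 := mul_le_mul_of_nonneg_left e1 (by norm_num : (0:ℝ) ≤ 2)
          rw [e5] at e6
          linarith
      _ = ((q : ℝ)⁻¹ ^ (k + 1) * c0) * nn M M' + ((q : ℝ)⁻¹ ^ (k + 1) * (c0 + 32)) * nn M M'
          + (6 * (q : ℝ)⁻¹ ^ (k + 1)) * ∫ ω, LS ξ l ω ^ 2 ∂(labP (W q)) := by
          rw [integral_add (b1.add b2).integrable b3.integrable,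
            integral_add b1.integrable b2.integrable, integral_const_mul, integral_const_mul,
            integral_const_mul, integral_shl l (fun ω => (M ω - M' ω) ^ 2)]
          rfl
      _ = _ := by ring
  refine (wsum_mono fun l hl _ => key l hl).trans ?_
  rw [wsum_add, wsum_const_succ, wsum_mul]
  have h3 := mul_le_mul_of_nonneg_left hZ (by positivity : (0:ℝ) ≤ 6 * (q : ℝ)⁻¹ ^ (k + 1))
  have h4 : (q : ℝ)⁻¹ ^ (k + 1) * (q : ℝ) ^ k = (q : ℝ)⁻¹ := by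
    rw [pow_succ, mul_right_comm, ← mul_pow, inv_mul_cancel₀ hq0.ne', one_pow, one_mul]
  have hZ0 : 0 ≤ Z := by
    have h5 : 0 ≤ (q : ℝ) ^ k * Z := le_trans
      (wsum_nonneg fun l => integral_nonneg fun ω => sq_nonneg _) hZ
    exact nonneg_of_mul_nonneg_right h5 (by positivity)
  have hqi : (q : ℝ)⁻¹ ≤ 1 / 2 := by
    rw [inv_eq_one_div]; exact div_le_div_of_nonneg_left (by norm_num) (by norm_num) hq2
  have h5 : (6 * (q : ℝ)⁻¹ ^ (k + 1)) * ((q : ℝ) ^ k * Z) ≤ 3 * Z := by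
    calc _ = 6 * ((q : ℝ)⁻¹ ^ (k + 1) * (q : ℝ) ^ k) * Z := by ring
      _ = 6 * (q : ℝ)⁻¹ * Z := by rw [h4]
      _ ≤ 3 * Z := mul_le_mul_of_nonneg_right (by linarith) hZ0
  have hnn : 0 ≤ nn M M' := integral_nonneg fun ω => sq_nonneg _
  have h6 : ((q : ℝ) + 1) * (q : ℝ) ^ k * ((q : ℝ)⁻¹ ^ (k + 1) * ((2 * c0 + 32) * nn M M'))
      ≤ (24 / (1 - μ ^ 2) ^ 2 + 48) * nn M M' := by
    have e : ((q : ℝ) + 1) * (q : ℝ) ^ k * ((q : ℝ)⁻¹ ^ (k + 1) * ((2 * c0 + 32) * nn M M'))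
        = (((q : ℝ) + 1) * ((q : ℝ)⁻¹ ^ (k + 1) * (q : ℝ) ^ k)) * ((2 * c0 + 32) * nn M M') := by
      ring
    rw [e, h4]
    have h7 : ((q : ℝ) + 1) * (q : ℝ)⁻¹ ≤ 3 / 2 := by
      rw [← div_eq_mul_inv, div_le_iff₀ hq0]; linarith
    calc _ ≤ 3 / 2 * ((2 * c0 + 32) * nn M M') :=
          mul_le_mul_of_nonneg_right h7 (by positivity)
      _ = _ := by rw [hc0]; ring
  linarith

/-- the path sums of the difference of the two systems -/
theorem path_diff (hq : 2 ≤ q) {μ θ0 : ℝ} (hμ0 : 0 ≤ μ) (hμ : μ < 1) (hθ0 : 0 < θ0) {Cp : ℝ}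
    (hCp : 0 ≤ Cp) (p : ℕ) (hp : 1 ≤ p) : ∃ K4 : ℝ, 0 ≤ K4 ∧ ∀ (θ θ' s : ℝ)
      (M M' : Lab (W q) → ℝ), θ0 ≤ θ → q * θ ^ 2 ≤ 1 → θ0 ≤ θ' → q * θ' ^ 2 ≤ 1 → 0 < s →
      Sys q θ M → Sys q θ' M' →
      (∀ i, ∀ᵐ ω ∂(labP (W q)), |msg θ M i ω| ≤ μ) → (∀ i, ∀ᵐ ω ∂(labP (W q)), |msg θ' M' i ω| ≤ μ) →
      (∀ i, ∫ ω, (msg θ M i ω) ^ (2 * p) ∂(labP (W q)) ≤ Cp * s ^ p) →
      (∀ i, ∫ ω, (msg θ' M' i ω) ^ (2 * p) ∂(labP (W q)) ≤ Cp * s ^ p) →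
      ∀ k : ℕ, wsum q (k + 1) (fun l => ∫ ω, LS (fun a ω => lamT μ θ M a ω - lamT μ θ' M' a ω) l ω ^ 2
        ∂(labP (W q))) ≤ (q : ℝ) ^ k * (K4 * ((k + 1) * (s * (nn M M') ^ (1 - 1 / (p : ℝ)) + |θ - θ'|)
          + (k + 1) ^ 2 * (∑ i, (mlg θ M i - mlg θ' M' i) ^ 2 + |θ - θ'|))) := by
  obtain ⟨C, γ, hC, hγ0, hγ1, hdec⟩ := bop_decay hq
  obtain ⟨K, hK0, hK⟩ := path_sq hq hC hγ0 hγ1
  obtain ⟨K3, hK30, hK3⟩ := dl_sq (θ0 := θ0) hq hμ0 hμ hCp p hp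
  have hq0 : (0 : ℝ) < q := by positivity
  set K5 : ℝ := 2 * (K * ((q + 1) * K3)) with hK5
  set K6 : ℝ := 2 * (q + 1) * (2 + 2 * (q + 1) / θ0 ^ 2) with hK6
  have hK50 : 0 ≤ K5 := by rw [hK5]; positivity
  have hK60 : 0 ≤ K6 := by rw [hK6]; positivity
  refine ⟨K5 + K6, by positivity, ?_⟩
  intro θ θ' s M M' h0 h1 h0' h1' hs hM hM' hmμ hm'μ hmp hm'p k
  have h0p : 0 < θ := lt_of_lt_of_le hθ0 h0
  have h0p' : 0 < θ' := lt_of_lt_of_le hθ0 h0'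
  have ht := theta_lt_one hq h1
  have ht' := theta_lt_one hq h1'
  have hd := hK3 θ θ' s M M' h0p.le h1 h0p'.le h1' hs hM hM' hmμ hm'μ hmp hm'p
  set t : ℝ := |θ - θ'| with htt
  have t0' : 0 ≤ t := abs_nonneg _
  have t1' : t ≤ 1 := by
    rw [htt, abs_le]; constructor <;> linarith
  set R : ℝ := s * (nn M M') ^ (1 - 1 / (p : ℝ)) with hR
  have hnn : 0 ≤ nn M M' := integral_nonneg fun ω => sq_nonneg _
  have R0 : 0 ≤ R := by positivity
  set Sm : ℝ := ∑ i, (mlg θ M i - mlg θ' M' i) ^ 2 with hSm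
  have Sm0 : 0 ≤ Sm := Finset.sum_nonneg fun i _ => sq_nonneg _
  set ξ : Fin (q + 1) → Lab (W q) → ℝ := fun a ω => lamT μ θ M a ω - lamT μ θ' M' a ω with hξ
  have lξ : ∀ a, Loc (ξ a) := by
    intro a
    have l1 := loc_lamT h0p.le ht hμ0 hμ (sys_loc hM) a
    have l2 := loc_lamT h0p'.le ht' hμ0 hμ (sys_loc hM') a
    exact loc_comp2 (F := fun p => p.1 - p.2) (by fun_prop) l1 l2
  have bξ : ∀ a, BM (ξ a) := fun a => loc_bm (lξ a)
  set c : Fin (q + 1) → ℝ := fun a => ∫ ω, ξ a ω ∂(labP (W q)) with hc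
  set ζ : Fin (q + 1) → Lab (W q) → ℝ := fun a ω => ξ a ω - c a with hζ
  have lζ : ∀ a, Loc (ζ a) := fun a =>
    loc_comp2 (F := fun p => p.1 - c a) (by fun_prop) (lξ a) (lξ a)
  have bζ : ∀ a, BM (ζ a) := fun a => loc_bm (lζ a)
  have mζ : ∀ a, ∫ ω, ζ a ω ∂(labP (W q)) = 0 := by
    intro a
    simp only [hζ]
    rw [integral_sub (bξ a).integrable (BM.const (c a)).integrable]
    simp [hc]
  have hpath := hK ζ bζ (hdec ζ lζ mζ) k
  -- the truncated logarithm differences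
  set dl : Fin (q + 1) → Lab (W q) → ℝ :=
    fun a ω => lgT μ θ (msg θ M a ω) - lgT μ θ' (msg θ' M' a ω) with hdl
  have bdl : ∀ a, BM (dl a) := fun a =>
    (loc_bm (loc_lgT h0p.le ht hμ0 hμ (sys_loc hM) a)).sub
      (loc_bm (loc_lgT h0p'.le ht' hμ0 hμ (sys_loc hM') a))
  have eξ : ∀ a ω, ξ a ω = (Real.log θ - Real.log θ') + (dl a ω + dl a (sh a ω)) / 2 := by
    intro a ω
    simp only [hξ, hdl, lamT]
    ring
  -- variances
  have hvar : ∀ a, ∫ ω, ζ a ω ^ 2 ∂(labP (W q)) ≤ K3 * (R + t) := by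
    intro a
    have v1 := var_le (bξ a) (Real.log θ - Real.log θ')
    have b1 := ((bdl a).pow 2).const_mul (1 / 2)
    have b2 := (((bdl a).comp_sh a).pow 2).const_mul (1 / 2)
    calc ∫ ω, ζ a ω ^ 2 ∂(labP (W q)) ≤ ∫ ω, (ξ a ω - (Real.log θ - Real.log θ')) ^ 2
          ∂(labP (W q)) := v1
      _ ≤ ∫ ω, (1 / 2 * dl a ω ^ 2 + 1 / 2 * dl a (sh a ω) ^ 2) ∂(labP (W q)) := by
          refine integral_mono_of_nonneg (Eventually.of_forall fun ω => sq_nonneg _)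
            (b1.add b2).integrable (Eventually.of_forall fun ω => ?_)
          simp only
          rw [eξ a ω]
          have e : Real.log θ - Real.log θ' + (dl a ω + dl a (sh a ω)) / 2
              - (Real.log θ - Real.log θ') = (dl a ω + dl a (sh a ω)) / 2 := by ring
          rw [e]
          linarith [sq_nonneg (dl a ω - dl a (sh a ω))]
      _ = 1 / 2 * (∫ ω, dl a ω ^ 2 ∂(labP (W q))) + 1 / 2 * ∫ ω, dl a ω ^ 2 ∂(labP (W q)) := by
          rw [integral_add b1.integrable b2.integrable, integral_const_mul, integral_const_mul,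
            integral_sh a (fun ω => dl a ω ^ 2)]
      _ = ∫ ω, dl a ω ^ 2 ∂(labP (W q)) := by ring
      _ ≤ _ := hd a
  have hX : ∑ a, ∫ ω, ζ a ω ^ 2 ∂(labP (W q)) ≤ (q + 1) * K3 * (R + t) := by
    refine (Finset.sum_le_sum fun a _ => hvar a).trans (le_of_eq ?_)
    simp
    ring
  -- means
  have hlog : (Real.log θ - Real.log θ') ^ 2 ≤ t / θ0 ^ 2 := by
    refine (log_sub_sq hθ0 h0 h0').trans (div_le_div_of_nonneg_right ?_ (by positivity))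
    rw [← sq_abs]
    nlinarith
  have hmean : ∀ a, c a ^ 2 ≤ 2 * (t / θ0 ^ 2) + 2 * (mlg θ M a - mlg θ' M' a) ^ 2 := by
    intro a
    have e1 : c a = (Real.log θ - Real.log θ') + (mlg θ M a - mlg θ' M' a) := by
      have e2 : ∫ ω, dl a ω ∂(labP (W q)) = mlg θ M a - mlg θ' M' a := by
        simp only [hdl]
        rw [integral_sub (loc_bm (loc_lgT h0p.le ht hμ0 hμ (sys_loc hM) a)).integrable
          (loc_bm (loc_lgT h0p'.le ht' hμ0 hμ (sys_loc hM') a)).integrable]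
        unfold mlg
        congr 1
        · refine integral_congr_ae ?_
          filter_upwards [hmμ a] with ω hω
          exact lgT_eq hω
        · refine integral_congr_ae ?_
          filter_upwards [hm'μ a] with ω hω
          exact lgT_eq hω
      simp only [hc]
      rw [integral_congr_ae (Eventually.of_forall (eξ a)),
        integral_add (BM.const _).integrable
          (by
            have := ((bdl a).add ((bdl a).comp_sh a)).const_mul (1 / 2)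
            have h := this.integrable
            refine h.congr (Eventually.of_forall fun ω => ?_)
            simp only
            ring)]
      have e3 : ∫ ω, (dl a ω + dl a (sh a ω)) / 2 ∂(labP (W q)) = ∫ ω, dl a ω ∂(labP (W q)) := by
        rw [integral_div, integral_add (bdl a).integrable ((bdl a).comp_sh a).integrable,
          integral_sh a (dl a)]
        ring
      rw [e3, e2]
      simp
    rw [e1]
    nlinarith [sq_nonneg ((Real.log θ - Real.log θ') - (mlg θ M a - mlg θ' M' a))]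
  set B2 : ℝ := ∑ a, c a ^ 2 with hB2
  have B20 : 0 ≤ B2 := Finset.sum_nonneg fun a _ => sq_nonneg _
  have hB2le : B2 ≤ (2 + 2 * (q + 1) / θ0 ^ 2) * (Sm + t) := by
    have : B2 ≤ ∑ a, (2 * (t / θ0 ^ 2) + 2 * (mlg θ M a - mlg θ' M' a) ^ 2) :=
      Finset.sum_le_sum fun a _ => hmean a
    have e0 : ∑ a, 2 * (mlg θ M a - mlg θ' M' a) ^ 2 = 2 * Sm := by
      rw [hSm, Finset.mul_sum]
    rw [Finset.sum_add_distrib, e0] at this
    simp only [Finset.sum_const, Finset.card_univ, Fintype.card_fin, nsmul_eq_mul] at this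
    push_cast at this
    have e : (2 + 2 * ((q : ℝ) + 1) / θ0 ^ 2) * (Sm + t)
        = 2 * Sm + ((q : ℝ) + 1) * (2 * (t / θ0 ^ 2)) + (2 * t + 2 * (q + 1) / θ0 ^ 2 * Sm) := by
      field_simp
      ring
    rw [e]
    have : 0 ≤ 2 * t + 2 * ((q : ℝ) + 1) / θ0 ^ 2 * Sm := by positivity
    linarith
  have hc1 : ∀ a, |c a| ≤ √B2 := by
    intro a
    refine Real.abs_le_sqrt ?_
    exact Finset.single_le_sum (f := fun a => c a ^ 2) (fun b _ => sq_nonneg _)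
      (Finset.mem_univ a)
  -- splitting
  have hsplit : ∀ l : List (Fin (q + 1)), l.length = k + 1 →
      ∫ ω, LS ξ l ω ^ 2 ∂(labP (W q)) ≤ 2 * (∫ ω, LS ζ l ω ^ 2 ∂(labP (W q)))
        + 2 * ((k + 1) ^ 2 * B2) := by
    intro l hl
    have b1 := ((LS_BM bζ l).pow 2).const_mul 2
    calc _ ≤ ∫ ω, (2 * LS ζ l ω ^ 2 + 2 * ((k + 1) ^ 2 * B2)) ∂(labP (W q)) := by
          refine integral_mono_of_nonneg (Eventually.of_forall fun ω => sq_nonneg _)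
            (b1.add (BM.const _)).integrable (Eventually.of_forall fun ω => ?_)
          simp only
          have e1 : LS ζ l ω = LS ξ l ω - LS (fun a _ => c a) l ω :=
            LS_sub ξ (fun a _ => c a) l ω
          have e2 : |LS (fun a _ => c a) l ω| ≤ l.length * √B2 := LS_const_abs hc1 l ω
          have e3 : LS (fun a _ => c a) l ω ^ 2 ≤ (k + 1) ^ 2 * B2 := by
            rw [← sq_abs]
            calc _ ≤ ((l.length : ℝ) * √B2) ^ 2 := pow_le_pow_left₀ (abs_nonneg _) e2 2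
              _ = (k + 1) ^ 2 * B2 := by
                rw [mul_pow, Real.sq_sqrt B20, hl]
                push_cast
                ring
          have e4 : LS ξ l ω = LS ζ l ω + LS (fun a _ => c a) l ω := by rw [e1]; ring
          rw [e4]
          linarith [sq_nonneg (LS ζ l ω - LS (fun a _ => c a) l ω)]
      _ = _ := by
          rw [integral_add b1.integrable (BM.const _).integrable, integral_const_mul]
          simp
  refine (wsum_mono fun l hl _ => hsplit l hl).trans ?_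
  rw [wsum_add, wsum_mul, wsum_const_succ]
  have hk0 : (0 : ℝ) ≤ (k : ℝ) + 1 := by positivity
  have h2 : 2 * wsum q (k + 1) (fun l => ∫ ω, LS ζ l ω ^ 2 ∂(labP (W q)))
      ≤ (q : ℝ) ^ k * (K5 * ((k + 1) * (R + t))) := by
    have h3 : (q : ℝ) ^ k * ((k + 1) * (K * ∑ i, ∫ ω, (ζ i ω) ^ 2 ∂(labP (W q))))
        ≤ (q : ℝ) ^ k * ((k + 1) * (K * ((q + 1) * K3 * (R + t)))) := by gcongr
    calc _ ≤ 2 * ((q : ℝ) ^ k * ((k + 1) * (K * ((q + 1) * K3 * (R + t))))) := by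
          linarith [hpath.trans h3]
      _ = _ := by rw [hK5]; ring
  have h4 : ((q : ℝ) + 1) * (q : ℝ) ^ k * (2 * ((k + 1) ^ 2 * B2))
      ≤ (q : ℝ) ^ k * (K6 * ((k + 1) ^ 2 * (Sm + t))) := by
    calc _ ≤ ((q : ℝ) + 1) * (q : ℝ) ^ k * (2 * ((k + 1) ^ 2 *
          ((2 + 2 * (q + 1) / θ0 ^ 2) * (Sm + t)))) := by gcongr
      _ = _ := by rw [hK6]; ring
  calc _ ≤ (q : ℝ) ^ k * (K5 * ((k + 1) * (R + t)))
        + (q : ℝ) ^ k * (K6 * ((k + 1) ^ 2 * (Sm + t))) := add_le_add h2 h4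
    _ ≤ (q : ℝ) ^ k * ((K5 + K6) * ((k + 1) * (R + t))) +
        (q : ℝ) ^ k * ((K5 + K6) * ((k + 1) ^ 2 * (Sm + t))) := by
        gcongr
        · linarith
        · linarith
    _ = _ := by ring

end Crest.Agent.FreeIs.IncA

namespace Crest.Agent.FreeIs

open Rec IncA

variable {q : ℕ}

theorem inc (hq : 2 ≤ q) {θ0 μ c Cp : ℝ} (hθ0 : 0 < θ0) (hμ0 : 0 ≤ μ) (hμ : μ < 1) (hc : 0 < c)
    (hCp : 0 ≤ Cp) (p : ℕ) (hp : 1 ≤ p) :
    ∃ C : ℝ, 0 ≤ C ∧ ∀ (θ θ' s C1 C1' : ℝ) (M M' : Lab (W q) → ℝ), θ0 ≤ θ → q * θ ^ 2 < 1 → θ0 ≤ θ' →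
      q * θ' ^ 2 < 1 → 0 < s → s ≤ 1 → Facts q θ s c C1 M → Facts q θ' s c C1' M' →
      (∀ ω, |M ω| ≤ μ) → (∀ ω, |M' ω| ≤ μ) →
      (∀ i, ∀ᵐ ω ∂(labP (W q)), |msg θ M i ω| ≤ μ) → (∀ i, ∀ᵐ ω ∂(labP (W q)), |msg θ' M' i ω| ≤ μ) →
      (∀ i, ∫ ω, (msg θ M i ω) ^ (2 * p) ∂(labP (W q)) ≤ Cp * s ^ p) →
      (∀ i, ∫ ω, (msg θ' M' i ω) ^ (2 * p) ∂(labP (W q)) ≤ Cp * s ^ p) →
      ∀ L : ℕ, 1 ≤ L → Rt θ θ' M M' ≤ C * (L * nn M M'
        + L ^ 2 * (s * (nn M M') ^ (1 - 1 / (p : ℝ)) + |θ - θ'|)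
        + L ^ 3 * (∑ i, (mlg θ M i - mlg θ' M' i) ^ 2 + |θ - θ'|)
        + (1 / s) * (1 - c * s) ^ L) := by
  obtain ⟨K4, hK40, hK4⟩ := path_diff hq hμ0 hμ hθ0 hCp p hp
  have p0 : 0 < 1 - μ ^ 2 := by nlinarith
  set D : ℝ := 24 / (1 - μ ^ 2) ^ 2 + 48 with hD
  have D0 : 0 ≤ D := by rw [hD]; positivity
  refine ⟨40 + D + 3 * K4 + 204 / c, by positivity, ?_⟩
  intro θ θ' s C1 C1' M M' h0 h1 h0' h1' hs hs1 hF hF' hM hM' hmμ hm'μ hmp hm'p L hL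
  have h0p : 0 < θ := lt_of_lt_of_le hθ0 h0
  have h0p' : 0 < θ' := lt_of_lt_of_le hθ0 h0'
  have hP := hK4 θ θ' s M M' h0 h1.le h0' h1'.le hs hF.sys hF'.sys hmμ hm'μ hmp hm'p
  have hnn : 0 ≤ nn M M' := integral_nonneg fun ω => sq_nonneg _
  set t : ℝ := |θ - θ'| with htt
  have t0 : 0 ≤ t := abs_nonneg _
  set R : ℝ := s * (nn M M') ^ (1 - 1 / (p : ℝ)) with hR
  have R0 : 0 ≤ R := by positivity
  set Sm : ℝ := ∑ i, (mlg θ M i - mlg θ' M' i) ^ 2 with hSm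
  have Sm0 : 0 ≤ Sm := Finset.sum_nonneg fun i _ => sq_nonneg _
  have hL1 : (1 : ℝ) ≤ L := by exact_mod_cast hL
  set Bd : ℝ := D * nn M M' + 3 * (K4 * (L * (R + t) + L ^ 2 * (Sm + t))) with hBd
  have Bd0 : 0 ≤ Bd := by rw [hBd]; positivity
  have hsp := Rt_split hq h0p.le h1.le h0p'.le h1'.le hF hF' L (fun _ => Bd) (fun _ => Bd0) (by
    intro k hk
    refine (level_le hq h0p h1.le h0p' h1'.le hμ0 hμ hF.sys hF'.sys hM hM' hmμ hm'μ k
      (hP k)).trans ?_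
    have hk1 : (k : ℝ) + 1 ≤ L := by exact_mod_cast hk
    have hk0 : (0 : ℝ) ≤ (k : ℝ) + 1 := by positivity
    rw [hBd]
    gcongr)
  simp only [Finset.sum_const, Finset.card_range, nsmul_eq_mul] at hsp
  have hx : 0 ≤ (1 - c * s) ^ L := pow_nonneg (by linarith [hF.cle]) L
  have e1 : 204 * ((1 - c * s) ^ L / (c * s)) = 204 / c * (1 / s * (1 - c * s) ^ L) := by
    field_simp
  rw [e1] at hsp
  have e2 : (L : ℝ) * Bd = D * (L * nn M M') + 3 * K4 * (L ^ 2 * (R + t))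
      + 3 * K4 * (L ^ 3 * (Sm + t)) := by
    rw [hBd]; ring
  rw [e2] at hsp
  have a1 : nn M M' ≤ L * nn M M' := by nlinarith
  have X1 : 0 ≤ L * nn M M' := by positivity
  have X2 : 0 ≤ (L : ℝ) ^ 2 * (R + t) := by positivity
  have X3 : 0 ≤ (L : ℝ) ^ 3 * (Sm + t) := by positivity
  have X4 : 0 ≤ 1 / s * (1 - c * s) ^ L := by positivity
  generalize (L : ℝ) * nn M M' = x1 at *
  generalize (L : ℝ) ^ 2 * (R + t) = x2 at *
  generalize (L : ℝ) ^ 3 * (Sm + t) = x3 at *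
  generalize 1 / s * (1 - c * s) ^ L = x4 at *
  have C4 : 0 ≤ 204 / c := by positivity
  generalize 204 / c = c4 at *
  have e3 : (40 + D + 3 * K4 + c4) * (x1 + x2 + x3 + x4)
      = 40 * x1 + D * x1 + 3 * K4 * x2 + 3 * K4 * x3 + c4 * x4
        + (3 * (K4 * x1) + c4 * x1 + 40 * x2 + D * x2 + c4 * x2 + 40 * x3 + D * x3 + c4 * x3
        + 40 * x4 + D * x4 + 3 * (K4 * x4)) := by ring
  rw [e3]
  have : 0 ≤ 3 * (K4 * x1) + c4 * x1 + 40 * x2 + D * x2 + c4 * x2 + 40 * x3 + D * x3 + c4 * x3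
        + 40 * x4 + D * x4 + 3 * (K4 * x4) := by positivity
  linarith

end Crest.Agent.FreeIs
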