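import Mathlib

/-! # Module M9 of S0241: two Gronwall-type uniqueness lemmas -/

set_option autoImplicit false
set_option linter.unusedVariables false

open MeasureTheory Filter Topology Set

namespace Crest.Agent.FreeIs

namespace Ode

/-- Gronwall inequality with a variable rate `h = E'`. -/
lemma gron (G h E : ℝ → ℝ) (a b A : ℝ) (hab : a ≤ b) (hG : Continuous G) (hhm : Measurable h)
    (hh : ∀ x ∈ Icc a b, ContinuousAt h x) (hE : ∀ x ∈ Icc a b, HasDerivAt E (h x) x)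
    (hh0 : ∀ x ∈ Icc a b, 0 ≤ h x)
    (hle : ∀ s ∈ Icc a b, G s ≤ A + ∫ r in a..s, h r * G r) :
    G b ≤ A * Real.exp (E b - E a) := by
  set H : ℝ → ℝ := fun s => A + ∫ r in a..s, h r * G r with hH
  have hcont : ∀ x ∈ Icc a b, ContinuousAt (fun r => h r * G r) x := fun x hx =>
    (hh x hx).mul hG.continuousAt
  have hint : ∀ x ∈ Icc a b, IntervalIntegrable (fun r => h r * G r) volume a x := by
    intro x hx
    apply ContinuousOn.intervalIntegrable
    intro y hy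
    rw [uIcc_of_le hx.1] at hy
    exact (hcont y ⟨hy.1, hy.2.trans hx.2⟩).continuousWithinAt
  have hHd : ∀ x ∈ Icc a b, HasDerivAt H (h x * G x) x := by
    intro x hx
    have h1 := intervalIntegral.integral_hasDerivAt_right (hint x hx)
      ((hhm.mul hG.measurable).stronglyMeasurable.stronglyMeasurableAtFilter) (hcont x hx)
    exact h1.const_add A
  set K : ℝ → ℝ := fun s => H s * Real.exp (-E s) with hK
  have hKd : ∀ x ∈ Icc a b, HasDerivAt K (h x * G x * Real.exp (-E x) +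
      H x * (Real.exp (-E x) * (-h x))) x := by
    intro x hx
    exact (hHd x hx).mul ((hE x hx).neg.exp)
  have hanti : AntitoneOn K (Icc a b) := by
    apply antitoneOn_of_deriv_nonpos (convex_Icc a b)
    · intro x hx
      exact (hKd x hx).continuousAt.continuousWithinAt
    · intro x hx
      exact (hKd x (interior_subset hx)).differentiableAt.differentiableWithinAt
    · intro x hx
      have hx' := interior_subset hx
      rw [(hKd x hx').deriv]
      have h1 : G x ≤ H x := hle x hx'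
      have h2 := hh0 x hx'
      have h3 := (Real.exp_pos (-E x)).le
      nlinarith [mul_nonneg (mul_nonneg h2 h3) (sub_nonneg.2 h1)]
  have h1 := hanti (left_mem_Icc.2 hab) (right_mem_Icc.2 hab) hab
  have h2 : K a = A * Real.exp (-E a) := by
    simp only [hK, hH, intervalIntegral.integral_same, add_zero]
  have h3 : H b = K b * Real.exp (E b) := by
    simp only [hK]
    rw [mul_assoc, ← Real.exp_add, neg_add_cancel, Real.exp_zero, mul_one]
  calc G b ≤ H b := hle b (right_mem_Icc.2 hab)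
    _ = K b * Real.exp (E b) := h3
    _ ≤ K a * Real.exp (E b) := mul_le_mul_of_nonneg_right h1 (Real.exp_pos _).le
    _ = A * Real.exp (E b - E a) := by
        rw [h2, mul_assoc, ← Real.exp_add]
        congr 2
        ring

lemma ev (C : ℝ) : ∀ᶠ k : ℕ in atTop, C * (1 + (k:ℝ)) ^ 2 ≤ (2:ℝ) ^ k / 4 := by
  have h1 : Tendsto (fun k : ℕ => (k:ℝ) ^ 2 / (2:ℝ) ^ k) atTop (𝓝 0) :=
    tendsto_pow_const_div_const_pow_of_one_lt 2 (by norm_num)
  have h2 : (0:ℝ) < 1 / (16 * (|C| + 1)) := by positivity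
  filter_upwards [h1.eventually (gt_mem_nhds h2), eventually_ge_atTop 1] with k hk hk1
  have h3 : (0:ℝ) < (2:ℝ) ^ k := by positivity
  rw [div_lt_iff₀ h3] at hk
  have hk1' : (1:ℝ) ≤ k := by exact_mod_cast hk1
  have h4 : (1 + (k:ℝ)) ^ 2 ≤ 4 * (k:ℝ) ^ 2 := by nlinarith
  have h5 : C * (1 + (k:ℝ)) ^ 2 ≤ |C| * (4 * (k:ℝ) ^ 2) :=
    (mul_le_mul_of_nonneg_right (le_abs_self C) (by positivity)).trans
      (mul_le_mul_of_nonneg_left h4 (abs_nonneg C))
  have h6 : |C| * (4 * (k:ℝ) ^ 2) ≤ |C| * (4 * (1 / (16 * (|C| + 1)) * 2 ^ k)) :=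
    mul_le_mul_of_nonneg_left (by linarith) (abs_nonneg C)
  have h7 : |C| * (4 * (1 / (16 * (|C| + 1)) * 2 ^ k)) = (|C| / (|C| + 1)) * (2 ^ k / 4) := by
    field_simp
    ring
  have h8 : |C| / (|C| + 1) ≤ 1 := by
    rw [div_le_one (by positivity)]; linarith
  calc C * (1 + (k:ℝ)) ^ 2 ≤ (|C| / (|C| + 1)) * (2 ^ k / 4) := by rw [← h7]; exact h5.trans h6
    _ ≤ 1 * (2 ^ k / 4) := mul_le_mul_of_nonneg_right h8 (by positivity)
    _ = 2 ^ k / 4 := one_mul _

/-- Common set-up. -/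
lemma setup (f ρ : ℝ → ℝ) (hρ : Measurable ρ) (C0 : ℝ)
    (hρ0 : ∀ r, 0 ≤ ρ r) (hρ1 : ∀ r, 0 < r → r ≤ 1 → ρ r ≤ C0)
    (hint : ∀ s0 s, 0 ≤ s0 → s0 ≤ s → s ≤ 1 → f s ≤ f s0 + ∫ r in s0..s, ρ r)
    (h0 : f 0 = 0) :
    ∃ F : ℝ → ℝ, Continuous F ∧ F 0 = 0 ∧ (∀ s, 0 ≤ s → s ≤ 1 → f s ≤ F s) ∧
      (∀ s, 0 ≤ s → 0 ≤ F s) ∧ (∀ s, 0 ≤ s → s ≤ 1 → F s ≤ F 1) ∧
      (∀ M s, 0 < s → s ≤ 1 → (∀ r, 0 < r → r ≤ s → ρ r ≤ M) → F s ≤ M * s) ∧
      (∀ g : ℝ → ℝ, ∀ a s, 0 ≤ a → a ≤ s → s ≤ 1 → IntervalIntegrable g volume a s →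
        (∀ r, a < r → r ≤ s → ρ r ≤ g r) → F s ≤ F a + ∫ r in a..s, g r) := by
  have hC0 : 0 ≤ C0 := (hρ0 1).trans (hρ1 1 one_pos le_rfl)
  set σ : ℝ → ℝ := (Ioc (0:ℝ) 1).indicator ρ with hσ
  have hσm : Measurable σ := hρ.indicator measurableSet_Ioc
  have hσ0 : ∀ r, 0 ≤ σ r := fun r => Set.indicator_nonneg (fun r _ => hρ0 r) r
  have hσ1 : ∀ r, σ r ≤ C0 := by
    intro r
    by_cases hr : r ∈ Ioc (0:ℝ) 1
    · rw [hσ, Set.indicator_of_mem hr]; exact hρ1 r hr.1 hr.2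
    · rw [hσ, Set.indicator_of_notMem hr]; exact hC0
  have hσi : ∀ a b, IntervalIntegrable σ volume a b := by
    intro a b
    have h1 : IntervalIntegrable (fun _ : ℝ => C0) volume a b := intervalIntegrable_const
    refine h1.mono_fun hσm.aestronglyMeasurable ?_
    filter_upwards with r
    rw [Real.norm_eq_abs, Real.norm_eq_abs, abs_of_nonneg (hσ0 r), abs_of_nonneg hC0]
    exact hσ1 r
  have hσeq : ∀ a s, 0 ≤ a → a ≤ s → s ≤ 1 → ∫ r in a..s, σ r = ∫ r in a..s, ρ r := by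
    intro a s ha has hs
    rw [intervalIntegral.integral_of_le has, intervalIntegral.integral_of_le has]
    refine setIntegral_congr_fun measurableSet_Ioc ?_
    intro r hr
    have : r ∈ Ioc (0:ℝ) 1 := ⟨ha.trans_lt hr.1, hr.2.trans hs⟩
    simp only [hσ, Set.indicator_of_mem this]
  refine ⟨fun s => ∫ r in (0:ℝ)..s, σ r, ?_, ?_, ?_, ?_, ?_, ?_, ?_⟩
  · exact intervalIntegral.continuous_primitive hσi 0
  · simp
  · intro s hs hs1
    have h1 := hint 0 s le_rfl hs hs1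
    rw [h0, zero_add] at h1
    show f s ≤ ∫ r in (0:ℝ)..s, σ r
    rw [hσeq 0 s le_rfl hs hs1]
    exact h1
  · intro s hs
    exact intervalIntegral.integral_nonneg hs (fun r _ => hσ0 r)
  · intro s hs hs1
    have h1 : (∫ r in (0:ℝ)..s, σ r) + ∫ r in s..1, σ r = ∫ r in (0:ℝ)..1, σ r :=
      intervalIntegral.integral_add_adjacent_intervals (hσi 0 s) (hσi s 1)
    have h2 : 0 ≤ ∫ r in s..1, σ r := intervalIntegral.integral_nonneg hs1 (fun r _ => hσ0 r)
    simp only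
    linarith
  · intro M s hs hs1 hM
    have h1 : ∫ r in (0:ℝ)..s, σ r ≤ ∫ _r in (0:ℝ)..s, M := by
      rw [intervalIntegral.integral_of_le hs.le, intervalIntegral.integral_of_le hs.le]
      refine setIntegral_mono_on (hσi 0 s).1 (intervalIntegrable_const (μ := volume)).1
        measurableSet_Ioc ?_
      intro r hr
      have : r ∈ Ioc (0:ℝ) 1 := ⟨hr.1, hr.2.trans hs1⟩
      rw [hσ, Set.indicator_of_mem this]
      exact hM r hr.1 hr.2
    rw [intervalIntegral.integral_const, smul_eq_mul, sub_zero] at h1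
    linarith
  · intro g a s ha has hs1 hg hgr
    have h1 : (∫ r in (0:ℝ)..a, σ r) + ∫ r in a..s, σ r = ∫ r in (0:ℝ)..s, σ r :=
      intervalIntegral.integral_add_adjacent_intervals (hσi 0 a) (hσi a s)
    have h2 : ∫ r in a..s, σ r ≤ ∫ r in a..s, g r := by
      rw [intervalIntegral.integral_of_le has, intervalIntegral.integral_of_le has]
      refine setIntegral_mono_on (hσi a s).1 hg.1 measurableSet_Ioc ?_
      intro r hr
      have : r ∈ Ioc (0:ℝ) 1 := ⟨ha.trans_lt hr.1, hr.2.trans hs1⟩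
      rw [hσ, Set.indicator_of_mem this]
      exact hgr r hr.1 hr.2
    simp only
    linarith

end Ode

open Ode

theorem ode1 (f ρ : ℝ → ℝ) (hf : Measurable f) (hρ : Measurable ρ) (C0 : ℝ)
    (hf0 : ∀ s, 0 ≤ f s) (hf4 : ∀ s, f s ≤ 4) (hρ0 : ∀ r, 0 ≤ ρ r) (hρ1 : ∀ r, 0 ≤ r → r ≤ 1 → ρ r ≤ C0)
    (hint : ∀ s0 s, 0 ≤ s0 → s0 ≤ s → s ≤ 1 → f s ≤ f s0 + ∫ r in s0..s, ρ r)
    (hcoh : ∃ C : ℝ, ∀ r, 0 ≤ r → r ≤ 1 → ∀ k : ℕ,
      ρ r ≤ C * (1 + k) ^ 2 * (f r + Real.exp (-(2 : ℝ) ^ k)))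
    (h0 : f 0 = 0) : ∀ s, 0 ≤ s → s ≤ 1 → f s = 0 := by
  obtain ⟨F, hFc, hF0, hfF, hFnn, hF1, -, hFg⟩ := setup f ρ hρ C0 hρ0
    (fun r hr hr1 => hρ1 r hr.le hr1) hint h0
  obtain ⟨C', hC'⟩ := hcoh
  set C : ℝ := max C' 0 with hCdef
  have hC0 : 0 ≤ C := le_max_right _ _
  have hC : ∀ r, 0 ≤ r → r ≤ 1 → ∀ k : ℕ,
      ρ r ≤ C * (1 + k) ^ 2 * (F r + Real.exp (-(2 : ℝ) ^ k)) := by
    intro r hr hr1 k
    have h1 := hC' r hr hr1 k
    have h2 : 0 ≤ f r + Real.exp (-(2 : ℝ) ^ k) := add_nonneg (hf0 r) (Real.exp_pos _).le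
    calc ρ r ≤ C' * (1 + k) ^ 2 * (f r + Real.exp (-(2 : ℝ) ^ k)) := h1
      _ ≤ C * (1 + k) ^ 2 * (f r + Real.exp (-(2 : ℝ) ^ k)) := by
          apply mul_le_mul_of_nonneg_right _ h2
          apply mul_le_mul_of_nonneg_right (le_max_left _ _) (by positivity)
      _ ≤ C * (1 + k) ^ 2 * (F r + Real.exp (-(2 : ℝ) ^ k)) := by
          apply mul_le_mul_of_nonneg_left _ (by positivity)
          linarith [hfF r hr hr1]
  have hkey : ∀ k : ℕ, F 1 ≤ Real.exp (-(2 : ℝ) ^ k) * Real.exp (C * (1 + k) ^ 2) := by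
    intro k
    set ε := Real.exp (-(2 : ℝ) ^ k) with hε
    have hε0 : 0 < ε := Real.exp_pos _
    have h1 := gron (fun s => F s + ε) (fun _ => C * (1 + k) ^ 2) (fun s => C * (1 + k) ^ 2 * s)
      0 1 ε zero_le_one (hFc.add continuous_const) measurable_const
      (fun x _ => continuousAt_const)
      (fun x _ => by simpa using (hasDerivAt_id x).const_mul (C * (1 + (k:ℝ)) ^ 2))
      (fun x _ => by positivity)
      (fun s hs => by
        have h2 := hFg (fun r => C * (1 + k) ^ 2 * (F r + ε)) 0 s le_rfl hs.1 hs.2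
          ((continuous_const.mul (hFc.add continuous_const)).intervalIntegrable _ _)
          (fun r hr hrs => hC r hr.le (hrs.trans hs.2) k)
        rw [hF0, zero_add] at h2
        linarith)
    simp only [mul_one, mul_zero, sub_zero] at h1
    linarith
  have hF1z : F 1 ≤ 0 := by
    have hlim : Tendsto (fun k : ℕ => Real.exp (-((2:ℝ) ^ k / 2))) atTop (𝓝 0) := by
      apply Real.tendsto_exp_neg_atTop_nhds_zero.comp
      apply Tendsto.atTop_div_const (by norm_num)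
      exact tendsto_pow_atTop_atTop_of_one_lt (by norm_num)
    refine ge_of_tendsto hlim ?_
    filter_upwards [ev C] with k hk
    refine (hkey k).trans ?_
    rw [← Real.exp_add]
    apply Real.exp_le_exp.2
    have : (0:ℝ) < 2 ^ k := by positivity
    linarith
  intro s hs hs1
  exact le_antisymm ((hfF s hs hs1).trans ((hF1 s hs hs1).trans hF1z)) (hf0 s)

theorem ode0 (f ρ : ℝ → ℝ) (hf : Measurable f) (hρ : Measurable ρ) (C0 : ℝ)
    (hf0 : ∀ s, 0 ≤ f s) (hf4 : ∀ s, f s ≤ 4) (hρ0 : ∀ r, 0 ≤ ρ r) (hρ1 : ∀ r, 0 < r → r ≤ 1 → ρ r ≤ C0)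
    (hint : ∀ s0 s, 0 ≤ s0 → s0 ≤ s → s ≤ 1 → f s ≤ f s0 + ∫ r in s0..s, ρ r)
    (hinc : ∀ p : ℕ, 2 ≤ p → ∃ C : ℝ, ∀ r, 0 < r → r ≤ 1 →
      ρ r ≤ C * (r ^ (-(1 / 5 : ℝ)) * (f r) ^ (1 - 1 / (p : ℝ)) + r ^ p))
    (hcoh : ∃ C : ℝ, ∀ r, 0 < r → r ≤ 1 → ∀ k : ℕ,
      ρ r ≤ C * r * (1 / r + k) ^ 2 * (f r + Real.exp (-(2 : ℝ) ^ k)))
    (h0 : f 0 = 0) : ∀ s, 0 ≤ s → s ≤ 1 → f s = 0 := by
  obtain ⟨F, hFc, hF0, hfF, hFnn, hF1, hFM, hFg⟩ := setup f ρ hρ C0 hρ0 hρ1 hint h0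
  -- bootstrapping
  have hboot : ∀ n : ℕ, ∃ D : ℝ, 0 ≤ D ∧ ∀ s, 0 < s → s ≤ 1 → F s ≤ D * s ^ (1 + 2 * (n:ℝ) / 5) := by
    intro n
    induction n with
    | zero =>
      refine ⟨C0, (hρ0 1).trans (hρ1 1 one_pos le_rfl), fun s hs hs1 => ?_⟩
      have h1 := hFM C0 s hs hs1 (fun r hr hrs => hρ1 r hr (hrs.trans hs1))
      simpa using h1
    | succ n ih =>
      obtain ⟨D, hD0, hD⟩ := ih
      obtain ⟨C', hC'⟩ := hinc (n + 3) (by omega)
      set C : ℝ := max C' 0 with hCdef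
      have hC0 : 0 ≤ C := le_max_right _ _
      set p : ℕ := n + 3 with hp
      have hpR : (p:ℝ) = n + 3 := by rw [hp]; push_cast; ring
      set a : ℝ := 1 + 2 * (n:ℝ) / 5 with ha
      set e : ℝ := 1 - 1 / (p:ℝ) with he
      have hn0 : (0:ℝ) ≤ n := Nat.cast_nonneg n
      have hp0 : (0:ℝ) < p := by rw [hpR]; linarith
      have hpinv : 1 / (p:ℝ) ≤ 1 := by
        rw [div_le_one hp0, hpR]; linarith
      have he0 : 0 ≤ e := by rw [he]; linarith
      have hap : a / p ≤ 2 / 5 := by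
        rw [div_le_iff₀ hp0, hpR, ha]
        linarith
      set b : ℝ := 2 * ((n:ℝ) + 1) / 5 with hb
      have hb0 : 0 ≤ b := by rw [hb]; positivity
      have hbe : b ≤ -(1/5) + a * e := by
        have : a * e = a - a / p := by rw [he]; ring
        rw [this, hb]
        have : a = 1 + 2 * (n:ℝ) / 5 := ha
        linarith
      have hbp : b ≤ (p:ℝ) := by
        rw [hpR, hb]; linarith
      have hρb : ∀ r, 0 < r → r ≤ 1 → ρ r ≤ C * (D ^ e + 1) * r ^ b := by
        intro r hr hr1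
        have h1 := hC' r hr hr1
        have hFr : 0 ≤ F r := hFnn r hr.le
        have h2 : (f r) ^ e ≤ D ^ e * r ^ (a * e) := by
          calc (f r) ^ e ≤ (D * r ^ a) ^ e :=
                Real.rpow_le_rpow (hf0 r) ((hfF r hr.le hr1).trans (hD r hr hr1)) he0
            _ = D ^ e * r ^ (a * e) := by
                rw [Real.mul_rpow hD0 (Real.rpow_nonneg hr.le _), ← Real.rpow_mul hr.le]
        have h3 : r ^ (-(1 / 5 : ℝ)) * (f r) ^ e ≤ D ^ e * r ^ b := by
          calc r ^ (-(1 / 5 : ℝ)) * (f r) ^ e ≤ r ^ (-(1 / 5 : ℝ)) * (D ^ e * r ^ (a * e)) :=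
                mul_le_mul_of_nonneg_left h2 (Real.rpow_nonneg hr.le _)
            _ = D ^ e * r ^ (-(1 / 5 : ℝ) + a * e) := by
                rw [Real.rpow_add hr]; ring
            _ ≤ D ^ e * r ^ b :=
                mul_le_mul_of_nonneg_left (Real.rpow_le_rpow_of_exponent_ge hr hr1 hbe)
                  (Real.rpow_nonneg hD0 _)
        have h4 : r ^ p ≤ r ^ b := by
          rw [← Real.rpow_natCast]
          exact Real.rpow_le_rpow_of_exponent_ge hr hr1 hbp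
        have h5 : 0 ≤ r ^ (-(1 / 5 : ℝ)) * (f r) ^ e + r ^ p :=
          add_nonneg (mul_nonneg (Real.rpow_nonneg hr.le _) (Real.rpow_nonneg (hf0 r) _))
            (pow_nonneg hr.le _)
        calc ρ r ≤ C' * (r ^ (-(1 / 5 : ℝ)) * (f r) ^ e + r ^ p) := h1
          _ ≤ C * (r ^ (-(1 / 5 : ℝ)) * (f r) ^ e + r ^ p) :=
              mul_le_mul_of_nonneg_right (le_max_left _ _) h5
          _ ≤ C * (D ^ e * r ^ b + r ^ b) :=
              mul_le_mul_of_nonneg_left (add_le_add h3 h4) hC0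
          _ = C * (D ^ e + 1) * r ^ b := by ring
      refine ⟨C * (D ^ e + 1), mul_nonneg hC0 (add_nonneg (Real.rpow_nonneg hD0 _) zero_le_one),
        fun s hs hs1 => ?_⟩
      have h1 := hFM (C * (D ^ e + 1) * s ^ b) s hs hs1 (fun r hr hrs => by
        refine (hρb r hr (hrs.trans hs1)).trans ?_
        apply mul_le_mul_of_nonneg_left (Real.rpow_le_rpow hr.le hrs hb0)
        exact mul_nonneg hC0 (add_nonneg (Real.rpow_nonneg hD0 _) zero_le_one))
      have h2 : (1 + 2 * ((n + 1 : ℕ) : ℝ) / 5) = b + 1 := by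
        rw [hb]; push_cast; ring
      rw [h2, Real.rpow_add hs, Real.rpow_one]
      linarith
  -- polynomial decay of every order
  have hpoly : ∀ A : ℕ, ∃ D : ℝ, 0 ≤ D ∧ ∀ s, 0 < s → s ≤ 1 → F s ≤ D * s ^ A := by
    intro A
    obtain ⟨D, hD0, hD⟩ := hboot (3 * A)
    refine ⟨D, hD0, fun s hs hs1 => (hD s hs hs1).trans ?_⟩
    apply mul_le_mul_of_nonneg_left _ hD0
    rw [← Real.rpow_natCast]
    apply Real.rpow_le_rpow_of_exponent_ge hs hs1
    push_cast
    have : (0:ℝ) ≤ A := Nat.cast_nonneg A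
    linarith
  obtain ⟨C', hC'⟩ := hcoh
  set C : ℝ := max C' 1 with hCdef
  have hC1 : 1 ≤ C := le_max_right _ _
  have hC0 : 0 ≤ C := zero_le_one.trans hC1
  have hC : ∀ r, 0 < r → r ≤ 1 → ∀ k : ℕ,
      ρ r ≤ C * (r⁻¹ + 2 * k + k ^ 2 * r) * (F r + Real.exp (-(2 : ℝ) ^ k)) := by
    intro r hr hr1 k
    have h1 := hC' r hr hr1 k
    have h2 : 0 ≤ f r + Real.exp (-(2 : ℝ) ^ k) := add_nonneg (hf0 r) (Real.exp_pos _).le
    have h3 : C' * r * (1 / r + k) ^ 2 = C' * (r⁻¹ + 2 * k + k ^ 2 * r) := by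
      field_simp
      ring
    have h4 : 0 ≤ (r⁻¹ + 2 * k + k ^ 2 * r) := by positivity
    calc ρ r ≤ C' * r * (1 / r + k) ^ 2 * (f r + Real.exp (-(2 : ℝ) ^ k)) := h1
      _ = C' * (r⁻¹ + 2 * k + k ^ 2 * r) * (f r + Real.exp (-(2 : ℝ) ^ k)) := by rw [h3]
      _ ≤ C * (r⁻¹ + 2 * k + k ^ 2 * r) * (f r + Real.exp (-(2 : ℝ) ^ k)) := by
          apply mul_le_mul_of_nonneg_right _ h2
          apply mul_le_mul_of_nonneg_right (le_max_left _ _) h4
      _ ≤ C * (r⁻¹ + 2 * k + k ^ 2 * r) * (F r + Real.exp (-(2 : ℝ) ^ k)) := by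
          apply mul_le_mul_of_nonneg_left _ (mul_nonneg hC0 h4)
          linarith [hfF r hr.le hr1]
  obtain ⟨A, hA⟩ := exists_nat_ge (2 * C)
  have hApos : (0:ℝ) < A := by linarith
  obtain ⟨D, hD0, hD⟩ := hpoly A
  have hkey : ∀ k : ℕ, F 1 ≤ (D + 1) * Real.exp (-(2 : ℝ) ^ k) *
      Real.exp (C * ((2:ℝ) ^ k / A + (1 + k) ^ 2)) := by
    intro k
    set ε := Real.exp (-(2 : ℝ) ^ k) with hε
    have hε0 : 0 < ε := Real.exp_pos _
    set s1 : ℝ := Real.exp (-((2:ℝ) ^ k / A)) with hs1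
    have hs1pos : 0 < s1 := Real.exp_pos _
    have hs1le : s1 ≤ 1 := by
      rw [hs1, Real.exp_le_one_iff]
      have : (0:ℝ) ≤ (2:ℝ) ^ k / A := by positivity
      linarith
    have hFs1 : F s1 ≤ D * ε := by
      have h1 := hD s1 hs1pos hs1le
      have h2 : s1 ^ A = ε := by
        rw [hs1, hε, ← Real.exp_nat_mul]
        congr 1
        field_simp
      rw [h2] at h1
      exact h1
    have h1 := gron (fun s => F s + ε) (fun r => C * (r⁻¹ + 2 * k + k ^ 2 * r))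
      (fun s => C * (Real.log s + 2 * k * s + k ^ 2 * (s ^ 2 / 2)))
      s1 1 (F s1 + ε) hs1le (hFc.add continuous_const)
      ((((measurable_inv).add_const _).add (measurable_const.mul measurable_id)).const_mul C)
      (fun x hx => by
        have hx0 : x ≠ 0 := (hs1pos.trans_le hx.1).ne'
        exact ContinuousAt.mul continuousAt_const
          (((continuousAt_inv₀ hx0).add continuousAt_const).add
            (continuousAt_const.mul continuousAt_id)))
      (fun x hx => by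
        have hx0 : x ≠ 0 := (hs1pos.trans_le hx.1).ne'
        have h2 : HasDerivAt (fun s : ℝ => s ^ 2 / 2) x x := by
          have := (hasDerivAt_pow 2 x).div_const 2
          refine this.congr_deriv ?_
          norm_num
        have h3 : HasDerivAt (fun s : ℝ => 2 * (k:ℝ) * s) (2 * (k:ℝ)) x := by
          simpa using (hasDerivAt_id x).const_mul (2 * (k:ℝ))
        exact (((Real.hasDerivAt_log hx0).add h3).add (h2.const_mul ((k:ℝ) ^ 2))).const_mul C)
      (fun x hx => by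
        have hx0 : 0 < x := hs1pos.trans_le hx.1
        positivity)
      (fun s hs => by
        have h2 := hFg (fun r => C * (r⁻¹ + 2 * k + k ^ 2 * r) * (F r + ε)) s1 s hs1pos.le hs.1 hs.2
          (by
            apply ContinuousOn.intervalIntegrable
            intro x hx
            rw [uIcc_of_le hs.1] at hx
            have hx0 : x ≠ 0 := (hs1pos.trans_le hx.1).ne'
            have hc : ContinuousAt (fun r : ℝ => C * (r⁻¹ + 2 * k + k ^ 2 * r) * (F r + ε)) x :=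
              (ContinuousAt.mul continuousAt_const
                (((continuousAt_inv₀ hx0).add continuousAt_const).add
                (continuousAt_const.mul continuousAt_id))).mul
                (hFc.continuousAt.add continuousAt_const)
            exact hc.continuousWithinAt)
          (fun r hr hrs => hC r (hs1pos.trans hr) (hrs.trans hs.2) k)
        linarith)
    have h4 : C * (Real.log 1 + 2 * k * 1 + k ^ 2 * (1 ^ 2 / 2)) -
        C * (Real.log s1 + 2 * k * s1 + k ^ 2 * (s1 ^ 2 / 2)) ≤ C * ((2:ℝ) ^ k / A + (1 + k) ^ 2) := by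
      rw [← mul_sub]
      apply mul_le_mul_of_nonneg_left _ hC0
      rw [Real.log_one, hs1, Real.log_exp]
      have hk0 : (0:ℝ) ≤ k := Nat.cast_nonneg k
      have h5 : 0 ≤ 2 * (k:ℝ) * Real.exp (-((2:ℝ) ^ k / A)) := by positivity
      have h6 : 0 ≤ (k:ℝ) ^ 2 * (Real.exp (-((2:ℝ) ^ k / A)) ^ 2 / 2) := by positivity
      nlinarith
    have h5 : F 1 + ε ≤ (F s1 + ε) * Real.exp (C * ((2:ℝ) ^ k / A + (1 + k) ^ 2)) :=
      h1.trans (mul_le_mul_of_nonneg_left (Real.exp_le_exp.2 h4)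
        (add_nonneg (hFnn s1 hs1pos.le) hε0.le))
    have h6 : (F s1 + ε) * Real.exp (C * ((2:ℝ) ^ k / A + (1 + k) ^ 2)) ≤
        (D + 1) * ε * Real.exp (C * ((2:ℝ) ^ k / A + (1 + k) ^ 2)) := by
      apply mul_le_mul_of_nonneg_right _ (Real.exp_pos _).le
      linarith
    linarith
  have hF1z : F 1 ≤ 0 := by
    have hlim : Tendsto (fun k : ℕ => (D + 1) * Real.exp (-((2:ℝ) ^ k / 4))) atTop (𝓝 ((D + 1) * 0)) := by
      apply Tendsto.const_mul
      apply Real.tendsto_exp_neg_atTop_nhds_zero.comp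
      apply Tendsto.atTop_div_const (by norm_num)
      exact tendsto_pow_atTop_atTop_of_one_lt (by norm_num)
    rw [mul_zero] at hlim
    refine ge_of_tendsto hlim ?_
    filter_upwards [ev C] with k hk
    refine (hkey k).trans ?_
    rw [mul_assoc, ← Real.exp_add]
    apply mul_le_mul_of_nonneg_left _ (by linarith)
    apply Real.exp_le_exp.2
    have h2k : (0:ℝ) < 2 ^ k := by positivity
    have h3 : C * ((2:ℝ) ^ k / A) ≤ 2 ^ k / 2 := by
      rw [mul_div_assoc', div_le_div_iff₀ hApos (by norm_num)]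
      nlinarith
    rw [mul_add]
    linarith
  intro s hs hs1
  exact le_antisymm ((hfF s hs hs1).trans ((hF1 s hs hs1).trans hF1z)) (hf0 s)

end Crest.Agent.FreeIs
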