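import Crest.Agent.FreeIs.SuscA

/-!
Double exponential tail of the susceptibility on cones (module M5 of S0241).
-/

set_option autoImplicit false
set_option linter.unusedVariables false

open MeasureTheory Filter Topology

namespace Crest.Agent.FreeIs

namespace Susc

open CB

variable {q : ℕ}

/-- average of `AN l` over the `k`-descendants of `w` -/
noncomputable def UN (θ : ℝ) (i : Fin (q + 1)) (N : ℕ) (t : W q → ℝ) (l : ℕ) :
    ℕ → List (Fin (q + 1)) → ℝ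
  | 0, w => AN θ i N t l w
  | k + 1, w => (q : ℝ)⁻¹ * ∑ j ∈ nxt w, UN θ i N t l k (w ++ [j])

theorem UN_mem {θ : ℝ} (h0 : 0 ≤ θ) (h1 : q * θ ^ 2 ≤ 1) (hq : 2 ≤ q) (i : Fin (q + 1))
    (N l k : ℕ) {t : W q → ℝ} (ht : ∀ w, |t w| < 1) (w : List (Fin (q + 1)))
    (hw : w.IsChain (· ≠ ·)) (hw0 : w ≠ []) : 0 ≤ UN θ i N t l k w ∧ UN θ i N t l k w ≤ 1 := by
  have hq0 : (0 : ℝ) < q := by exact_mod_cast (by omega : 0 < q)
  induction k generalizing w with
  | zero => exact AN_nonneg_le_one h0 h1 hq i N l t ht w hw hw0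
  | succ k ih =>
    have hterm : ∀ j ∈ nxt w, 0 ≤ UN θ i N t l k (w ++ [j]) ∧ UN θ i N t l k (w ++ [j]) ≤ 1 :=
      fun j hj => ih (w ++ [j]) (chain_snoc hw hj) (by simp)
    simp only [UN]
    refine ⟨mul_nonneg (by positivity) (Finset.sum_nonneg fun j hj => (hterm j hj).1), ?_⟩
    have : ∑ j ∈ nxt w, UN θ i N t l k (w ++ [j]) ≤ (nxt w).card • (1 : ℝ) :=
      Finset.sum_le_card_nsmul _ _ _ fun j hj => (hterm j hj).2
    rw [nxt_card hw0, nsmul_eq_mul, mul_one] at this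
    rw [inv_mul_le_iff₀ hq0, mul_one]
    exact this

theorem AN_le_UN {θ : ℝ} (h0 : 0 ≤ θ) (h1 : q * θ ^ 2 ≤ 1) (hq : 2 ≤ q) (i : Fin (q + 1))
    (N l k : ℕ) {t : W q → ℝ} (ht : ∀ w, |t w| < 1) (w : List (Fin (q + 1)))
    (hw : w.IsChain (· ≠ ·)) (hw0 : w ≠ []) : AN θ i N t (l + k) w ≤ UN θ i N t l k w := by
  have hθ := theta_lt_one h0 h1 hq
  induction k generalizing w with
  | zero => exact le_rfl
  | succ k ih =>
    simp only [UN]
    change (q : ℝ)⁻¹ * ∑ j ∈ nxt w,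
      √(q : ℝ) * θ * gg θ (cmsg θ i N t (toW (w ++ [j]))) * AN θ i N t (l + k) (w ++ [j]) ≤ _
    refine mul_le_mul_of_nonneg_left (Finset.sum_le_sum fun j hj => ?_) (by positivity)
    have hc := chain_snoc hw hj
    have h2 := ih (w ++ [j]) hc (by simp)
    have h3 := AN_nonneg_le_one h0 h1 hq i N (l + k) t ht (w ++ [j]) hc (by simp)
    have h4 := gg_mem h0 hθ (cmsg_abs_lt h0 hθ i N ht (toW (w ++ [j])))
    have h5 := sqrt_theta_le h0 h1
    have h6 : √(q : ℝ) * θ ≤ 1 := by linarith [h5.2]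
    have h7 : √(q : ℝ) * θ * gg θ (cmsg θ i N t (toW (w ++ [j]))) ≤ 1 := mul_le_one₀ h6 h4.1 h4.2
    exact (mul_le_of_le_one_left h3.1 h7).trans h2

theorem AN_anti {θ : ℝ} (h0 : 0 ≤ θ) (h1 : q * θ ^ 2 ≤ 1) (hq : 2 ≤ q) (i : Fin (q + 1))
    (N l : ℕ) {t : W q → ℝ} (ht : ∀ w, |t w| < 1) (w : List (Fin (q + 1)))
    (hw : w.IsChain (· ≠ ·)) (hw0 : w ≠ []) : AN θ i N t (l + 1) w ≤ AN θ i N t l w := by
  have hθ := theta_lt_one h0 h1 hq
  induction l generalizing w with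
  | zero => exact (AN_nonneg_le_one h0 h1 hq i N 1 t ht w hw hw0).2
  | succ l ih =>
    change (q : ℝ)⁻¹ * ∑ j ∈ nxt w,
      √(q : ℝ) * θ * gg θ (cmsg θ i N t (toW (w ++ [j]))) * AN θ i N t (l + 1) (w ++ [j]) ≤
      (q : ℝ)⁻¹ * ∑ j ∈ nxt w,
      √(q : ℝ) * θ * gg θ (cmsg θ i N t (toW (w ++ [j]))) * AN θ i N t l (w ++ [j])
    refine mul_le_mul_of_nonneg_left (Finset.sum_le_sum fun j hj => ?_) (by positivity)
    have hc := chain_snoc hw hj
    have h4 := gg_mem h0 hθ (cmsg_abs_lt h0 hθ i N ht (toW (w ++ [j])))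
    exact mul_le_mul_of_nonneg_left (ih (w ++ [j]) hc (by simp))
      (mul_nonneg (sqrt_theta_le h0 h1).1 h4.1)

theorem UN_even {θ : ℝ} (i : Fin (q + 1)) (N l k : ℕ) (t : W q → ℝ) (w : List (Fin (q + 1))) :
    UN θ i N (fun w => - t w) l k w = UN θ i N t l k w := by
  induction k generalizing w with
  | zero => exact AN_even i N l t w
  | succ k ih =>
    simp only [UN]
    exact congrArg _ (Finset.sum_congr rfl fun j _ => ih _)

theorem measurable_UN {θ : ℝ} (i : Fin (q + 1)) (N l k : ℕ) (w : List (Fin (q + 1))) :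
    Measurable fun t : W q → ℝ => UN θ i N t l k w := by
  induction k generalizing w with
  | zero => exact measurable_AN i N l w
  | succ k ih =>
    simp only [UN]
    refine Measurable.const_mul ?_ _
    exact Finset.measurable_fun_sum _ fun j _ => ih _

theorem UN_congr (θ : ℝ) (i : Fin (q + 1)) (N l k : ℕ) {t t' : W q → ℝ}
    (h : ∀ v ∈ wcone (toW [i]) N, t v = t' v) (w : List (Fin (q + 1))) :
    UN θ i N t l k w = UN θ i N t' l k w := by
  induction k generalizing w with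
  | zero => exact AN_congr θ i N l h w
  | succ k ih =>
    simp only [UN]
    exact congrArg _ (Finset.sum_congr rfl fun j _ => ih _)

theorem UN_shift {θ : ℝ} {i j : Fin (q + 1)} (hij : j ≠ i) (N l k : ℕ) (t : W q → ℝ)
    (w : List (Fin (q + 1))) (hw : (j :: w).IsChain (· ≠ ·)) :
    UN θ i (N + 1) t l k (i :: j :: w) = UN θ j N (fun v => t (tog i v)) l k (j :: w) := by
  induction k generalizing w with
  | zero => exact AN_shift' hij N l t w hw
  | succ k ih =>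
    simp only [UN]
    rw [nxt_cons]
    refine congrArg _ (Finset.sum_congr rfl fun a ha => ?_)
    exact ih (w ++ [a]) (chain_snoc hw ha)

theorem UN_succ {θ : ℝ} (i : Fin (q + 1)) (N l k : ℕ) (t : W q → ℝ) :
    UN θ i (N + 1) t l (k + 1) [i] = (q : ℝ)⁻¹ * ∑ j ∈ Finset.univ.erase i,
      UN θ j N (fun v => t (tog i v)) l k [j] := by
  simp only [UN]
  rw [nxt_single]
  refine congrArg _ (Finset.sum_congr rfl fun j hj => ?_)
  exact UN_shift (Finset.ne_of_mem_erase hj) N l k t [] (List.isChain_singleton j)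

theorem exp_le_chord {x : ℝ} (hx0 : 0 ≤ x) (hx1 : x ≤ 1) :
    Real.exp x ≤ 1 + (Real.exp 1 - 1) * x := by
  have h := convexOn_exp.2 (Set.mem_univ (0 : ℝ)) (Set.mem_univ (1 : ℝ))
    (sub_nonneg.2 hx1) hx0 (by ring)
  simp only [smul_eq_mul, mul_zero, mul_one, zero_add, Real.exp_zero] at h
  linarith

theorem exp_BC {f : (W q → ℝ) → ℝ} (hf : BC f) : BC fun t => Real.exp (f t) := by
  obtain ⟨K, hK⟩ := hf.bd
  refine ⟨Real.measurable_exp.comp hf.meas, Real.exp K, fun t ht => ?_⟩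
  rw [abs_of_pos (Real.exp_pos _)]
  exact Real.exp_le_exp.2 ((le_abs_self _).trans (hK t ht))

theorem UN_BC {θ : ℝ} (h0 : 0 ≤ θ) (h1 : q * θ ^ 2 ≤ 1) (hq : 2 ≤ q) (i : Fin (q + 1))
    (N l k : ℕ) : BC (fun t : W q → ℝ => UN θ i N t l k [i]) :=
  ⟨measurable_UN i N l k _, 1, fun t ht => by
    have := UN_mem h0 h1 hq i N l k ht [i] (List.isChain_singleton i) (by simp)
    rw [abs_of_nonneg this.1]; exact this.2⟩

theorem coneE_nonneg {θ : ℝ} (h0 : 0 ≤ θ) (h1 : θ < 1) {π : Measure ℝ} {τ : ℝ}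
    (hπ : SiteLaw π τ) {i : Fin (q + 1)} {N : ℕ} {f : (W q → ℝ) → ℝ} (hf : BC f)
    (h : ∀ t : W q → ℝ, (∀ w, |t w| < 1) → 0 ≤ f t) : 0 ≤ coneE θ π i N f := by
  rw [← coneE_const (θ := θ) (π := π) (i := i) (N := N) h0 h1 hπ 0]
  exact coneE_mono h0 h1 hπ (BC.const _) hf h

/-- exponential moments of the averages over descendants -/
theorem mgf {θ : ℝ} (h0 : 0 ≤ θ) (h1 : q * θ ^ 2 ≤ 1) (hq : 2 ≤ q) {π : Measure ℝ} {τ : ℝ}
    (hπ : SiteLaw π τ) {μ : ℝ} (l M : ℕ)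
    (hμ : ∀ j : Fin (q + 1), (coneE θ π j M fun t => AN θ j M t l [j]) ≤ μ) (k : ℕ) :
    ∀ i : Fin (q + 1), (coneE θ π i (M + k) fun t =>
      Real.exp ((q : ℝ) ^ k * UN θ i (M + k) t l k [i]))
        ≤ Real.exp ((q : ℝ) ^ k * ((Real.exp 1 - 1) * μ)) := by
  have hθ := theta_lt_one h0 h1 hq
  have hq0 : (0 : ℝ) < q := by exact_mod_cast (by omega : 0 < q)
  have he : 0 ≤ Real.exp 1 - 1 := by
    have := Real.add_one_le_exp (1 : ℝ)
    linarith
  induction k with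
  | zero =>
    intro i
    simp only [pow_zero, one_mul, UN, Nat.add_zero]
    have hA := AN_BC h0 h1 hq i M l (List.isChain_singleton i) (by simp)
    have h2 : (coneE θ π i M fun t => Real.exp (AN θ i M t l [i]))
        ≤ coneE θ π i M fun t => 1 + (Real.exp 1 - 1) * AN θ i M t l [i] := by
      refine coneE_mono h0 hθ hπ (exp_BC hA) ((BC.const 1).add ((BC.const _).mul hA))
        fun t ht => ?_
      have h3 := AN_nonneg_le_one h0 h1 hq i M l t ht [i] (List.isChain_singleton i) (by simp)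
      exact exp_le_chord h3.1 h3.2
    refine h2.trans ?_
    rw [coneE_add h0 hθ hπ (BC.const 1) ((BC.const _).mul hA), coneE_one h0 hθ hπ, coneE_mul]
    have h4 := mul_le_mul_of_nonneg_left (hμ i) he
    have h5 := Real.add_one_le_exp ((Real.exp 1 - 1) * μ)
    linarith
  | succ k ih =>
    intro i
    have e1 : (fun t : W q → ℝ => Real.exp ((q : ℝ) ^ (k + 1) * UN θ i (M + (k + 1)) t l (k + 1) [i]))
        = fun t => ∏ j ∈ Finset.univ.erase i,
          Real.exp ((q : ℝ) ^ k * UN θ j (M + k) (fun v => t (tog i v)) l k [j]) := by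
      funext t
      rw [← Real.exp_sum, ← Finset.mul_sum]
      congr 1
      change (q : ℝ) ^ (k + 1) * UN θ i (M + k + 1) t l (k + 1) [i] = _
      rw [UN_succ, pow_succ]
      field_simp
    rw [e1]
    change (coneE θ π i (M + k + 1) fun t => ∏ j ∈ Finset.univ.erase i,
      (fun (j : Fin (q + 1)) (s : W q → ℝ) => Real.exp ((q : ℝ) ^ k * UN θ j (M + k) s l k [j]))
        j (fun v => t (tog i v))) ≤ _
    have hBC : ∀ j : Fin (q + 1), BC fun s : W q → ℝ =>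
        Real.exp ((q : ℝ) ^ k * UN θ j (M + k) s l k [j]) := fun j =>
      exp_BC ((BC.const _).mul (UN_BC h0 h1 hq j (M + k) l k))
    rw [coneE_prod' h0 hθ hπ i (M + k) _ hBC
      (fun j t => by simp only [UN_even]) (fun j t t' h => by simp only [UN_congr θ j (M + k) l k h])]
    have h6 : ∏ j ∈ Finset.univ.erase i, coneE θ π j (M + k)
        (fun s => Real.exp ((q : ℝ) ^ k * UN θ j (M + k) s l k [j]))
        ≤ ∏ j ∈ Finset.univ.erase i, Real.exp ((q : ℝ) ^ k * ((Real.exp 1 - 1) * μ)) := by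
      refine Finset.prod_le_prod (fun j _ => ?_) fun j _ => ih j
      exact coneE_nonneg h0 hθ hπ (hBC j) fun t _ => (Real.exp_pos _).le
    refine h6.trans (le_of_eq ?_)
    have hcard : (Finset.univ.erase i).card = q := by
      rw [Finset.card_erase_of_mem (Finset.mem_univ _)]; simp
    rw [Finset.prod_const, hcard, ← Real.exp_nat_mul]
    congr 1
    ring

/-! ### deterministic sums -/

theorem sum_levels {A : ℕ → ℝ} (hA : Antitone A) (hA1 : ∀ l, A l ≤ 1) (k p m : ℕ) :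
    ∑ l ∈ Finset.range (k + m * p), A l ≤ k + ∑ i ∈ Finset.range m, p * A (k + i * p) := by
  induction m with
  | zero =>
    simp only [Nat.zero_mul, Finset.range_zero, Finset.sum_empty, add_zero]
    calc ∑ l ∈ Finset.range k, A l ≤ (Finset.range k).card • (1 : ℝ) :=
        Finset.sum_le_card_nsmul _ _ _ fun l _ => hA1 l
      _ = k := by simp
  | succ m ih =>
    rw [Finset.sum_range_succ, show k + (m + 1) * p = (k + m * p) + p by ring,
      Finset.sum_range_add]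
    have h2 : ∑ x ∈ Finset.range p, A (k + m * p + x) ≤ (Finset.range p).card • A (k + m * p) :=
      Finset.sum_le_card_nsmul _ _ _ fun l _ => hA (by omega)
    rw [Finset.card_range, nsmul_eq_mul] at h2
    linarith

theorem geom_le {r C : ℝ} (hr0 : 0 ≤ r) (hr1 : r < 1) (hC : 1 ≤ C * (1 - r)) (n : ℕ) :
    ∑ i ∈ Finset.range n, r ^ i ≤ C := by
  have h : 0 < 1 - r := by linarith
  have h2 : (∑ i ∈ Finset.range n, r ^ i) * (1 - r) ≤ 1 := by
    have := geom_sum_mul_neg r n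
    rw [this]
    have := pow_nonneg hr0 n
    linarith
  by_contra hcon
  push Not at hcon
  nlinarith

theorem exp_one_bounds : 2.5 < Real.exp 1 ∧ Real.exp 1 < 2.8 := by
  constructor
  · have := Real.exp_one_gt_d9
    linarith
  · have := Real.exp_one_lt_d9
    linarith

theorem exp_neg_one_le : Real.exp (-1) ≤ 2 / 5 := by
  rw [Real.exp_neg]
  rw [inv_le_comm₀ (Real.exp_pos 1) (by norm_num)]
  have := exp_one_bounds.1
  norm_num at this ⊢
  linarith

/-- if all levels are small then the sum is small -/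
theorem sum_good {A : ℕ → ℝ} (hA : Antitone A) (hA1 : ∀ l, A l ≤ 1) (k p n : ℕ) (hp : 1 ≤ p)
    (hgood : ∀ i : ℕ, A (k + i * p) ≤ 3 * Real.exp (-(i : ℝ))) (hA0 : ∀ l, 0 ≤ A l) :
    ∑ l ∈ Finset.range n, A l ≤ k + 5 * p := by
  have h1 : ∑ l ∈ Finset.range n, A l ≤ ∑ l ∈ Finset.range (k + n * p), A l := by
    refine Finset.sum_le_sum_of_subset_of_nonneg ?_ fun l _ _ => hA0 l
    refine Finset.range_subset_range.2 ?_
    nlinarith
  refine h1.trans ((sum_levels hA hA1 k p n).trans ?_)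
  have h2 : ∑ i ∈ Finset.range n, (p : ℝ) * A (k + i * p)
      ≤ ∑ i ∈ Finset.range n, (p : ℝ) * (3 * Real.exp (-1) ^ i) := by
    refine Finset.sum_le_sum fun i _ => mul_le_mul_of_nonneg_left ?_ (Nat.cast_nonneg p)
    refine (hgood i).trans (le_of_eq ?_)
    rw [← Real.exp_nat_mul]
    ring_nf
  have h3 : ∑ i ∈ Finset.range n, (p : ℝ) * (3 * Real.exp (-1) ^ i)
      = p * (3 * ∑ i ∈ Finset.range n, Real.exp (-1) ^ i) := by
    rw [← Finset.mul_sum, ← Finset.mul_sum]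
  have h4 : ∑ i ∈ Finset.range n, Real.exp (-1) ^ i ≤ 5 / 3 := by
    have := exp_neg_one_le
    exact geom_le (Real.exp_pos _).le (by linarith) (by linarith) n
  have hp0 : (0 : ℝ) ≤ p := Nat.cast_nonneg p
  nlinarith

theorem level_real {q : ℕ} (hq : 2 ≤ q) (k i : ℕ) :
    (2 : ℝ) ^ k * (1 + 2 / 5 * i) ≤ (q : ℝ) ^ (k + 2 * i) * Real.exp (-(i : ℝ)) := by
  have hq2 : (2 : ℝ) ≤ q := by exact_mod_cast hq
  have h1 : (2 : ℝ) ^ (k + 2 * i) ≤ (q : ℝ) ^ (k + 2 * i) := pow_le_pow_left₀ (by norm_num) hq2 _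
  have h2 : (7 / 5 : ℝ) ≤ 4 * Real.exp (-1) := by
    have h3 := exp_one_bounds.2
    have h4 := Real.exp_pos 1
    rw [Real.exp_neg, ← div_eq_mul_inv, le_div_iff₀ h4]
    linarith
  have h3 : (1 : ℝ) + 2 / 5 * i ≤ (7 / 5) ^ i := by
    have := one_add_mul_le_pow (a := (2 / 5 : ℝ)) (by norm_num) i
    calc (1 : ℝ) + 2 / 5 * i = 1 + i * (2 / 5) := by ring
      _ ≤ (1 + 2 / 5) ^ i := this
      _ = (7 / 5) ^ i := by norm_num
  have h4 : (7 / 5 : ℝ) ^ i ≤ (4 * Real.exp (-1)) ^ i := pow_le_pow_left₀ (by norm_num) h2 _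
  have h5 : (4 * Real.exp (-1)) ^ i = (2 : ℝ) ^ (2 * i) * Real.exp (-(i : ℝ)) := by
    rw [mul_pow, ← Real.exp_nat_mul, pow_mul]
    norm_num
  calc (2 : ℝ) ^ k * (1 + 2 / 5 * i) ≤ (2 : ℝ) ^ k * ((2 : ℝ) ^ (2 * i) * Real.exp (-(i : ℝ))) := by
        refine mul_le_mul_of_nonneg_left ?_ (by positivity)
        rw [← h5]
        exact h3.trans h4
    _ = (2 : ℝ) ^ (k + 2 * i) * Real.exp (-(i : ℝ)) := by rw [pow_add]; ring
    _ ≤ _ := mul_le_mul_of_nonneg_right h1 (Real.exp_pos _).le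

theorem exp_term {k i : ℕ} {x : ℝ} (hx : (2 : ℝ) ^ k * (1 + 2 / 5 * i) ≤ x) :
    Real.exp (-x) ≤ Real.exp (-(2 : ℝ) ^ k) * (3 / 4) ^ i := by
  have h1 : (1 : ℝ) ≤ 2 ^ k := one_le_pow₀ (by norm_num)
  have h2 : Real.exp (-(2 / 5)) ≤ 3 / 4 := by
    have h3 := Real.add_one_le_exp (2 / 5 : ℝ)
    rw [Real.exp_neg, inv_le_comm₀ (Real.exp_pos _) (by norm_num)]
    norm_num at h3 ⊢
    linarith
  have h3 : Real.exp (-(2 / 5)) ^ i ≤ (3 / 4) ^ i := pow_le_pow_left₀ (Real.exp_pos _).le h2 _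
  calc Real.exp (-x) ≤ Real.exp (-(2 : ℝ) ^ k + i * (-(2 / 5))) := by
        refine Real.exp_le_exp.2 ?_
        have hi : (0 : ℝ) ≤ i := Nat.cast_nonneg i
        nlinarith [mul_nonneg (sub_nonneg.2 h1) hi]
    _ = Real.exp (-(2 : ℝ) ^ k) * Real.exp (-(2 / 5)) ^ i := by
        rw [Real.exp_add, Real.exp_nat_mul]
    _ ≤ _ := mul_le_mul_of_nonneg_left h3 (Real.exp_pos _).le

/-- the sum of the Chernoff terms -/
noncomputable def PT (θ : ℝ) (i0 : Fin (q + 1)) (N K j1 k : ℕ) (t : W q → ℝ) : ℝ :=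
  ∑ i ∈ (Finset.range (K + 1)).filter (fun i => k + i * (j1 + 2) ≤ K),
    Real.exp ((q : ℝ) ^ (k + 2 * i) *
      (UN θ i0 N t (i * j1) (k + 2 * i) [i0] - 3 * Real.exp (-(i : ℝ))))

theorem PT_BC {θ : ℝ} (h0 : 0 ≤ θ) (h1 : q * θ ^ 2 ≤ 1) (hq : 2 ≤ q) (i0 : Fin (q + 1))
    (N K j1 k : ℕ) : BC (PT θ i0 N K j1 k) :=
  BC.sum _ fun i _ => exp_BC ((BC.const _).mul ((UN_BC h0 h1 hq i0 N _ _).sub (BC.const _)))

theorem PT_nonneg (θ : ℝ) (i0 : Fin (q + 1)) (N K j1 k : ℕ) (t : W q → ℝ) :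
    0 ≤ PT θ i0 N K j1 k t :=
  Finset.sum_nonneg fun _ _ => (Real.exp_pos _).le

theorem PT_ge {θ : ℝ} (h0 : 0 ≤ θ) (h1 : q * θ ^ 2 ≤ 1) (hq : 2 ≤ q) (i0 : Fin (q + 1))
    (N K j1 k : ℕ) {t : W q → ℝ} (ht : ∀ w, |t w| < 1)
    (hS : (k : ℝ) + 5 * ((j1 + 2 : ℕ) : ℝ) < ∑ l ∈ Finset.range (K + 1), AN θ i0 N t l [i0]) :
    1 ≤ PT θ i0 N K j1 k t := by
  by_contra hcon
  push Not at hcon
  have hAN := fun l => AN_nonneg_le_one h0 h1 hq i0 N l t ht [i0] (List.isChain_singleton i0)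
    (by simp)
  have hanti : Antitone fun l => AN θ i0 N t l [i0] :=
    antitone_nat_of_succ_le fun l => AN_anti h0 h1 hq i0 N l ht [i0] (List.isChain_singleton i0)
      (by simp)
  set B : ℕ → ℝ := fun l => if l ≤ K then AN θ i0 N t l [i0] else 0 with hB
  have hBanti : Antitone B := by
    intro a b hab
    simp only [hB]
    split_ifs with h2 h3 h3
    · exact hanti hab
    · omega
    · exact (hAN a).1
    · exact le_rfl
  have hB1 : ∀ l, B l ≤ 1 := by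
    intro l
    simp only [hB]
    split_ifs
    · exact (hAN l).2
    · exact zero_le_one
  have hB0 : ∀ l, 0 ≤ B l := by
    intro l
    simp only [hB]
    split_ifs
    · exact (hAN l).1
    · exact le_rfl
  have hgood : ∀ i : ℕ, B (k + i * (j1 + 2)) ≤ 3 * Real.exp (-(i : ℝ)) := by
    intro i
    simp only [hB]
    split_ifs with hi
    · have hmem : i ∈ (Finset.range (K + 1)).filter (fun i => k + i * (j1 + 2) ≤ K) := by
        rw [Finset.mem_filter, Finset.mem_range]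
        refine ⟨?_, hi⟩
        nlinarith
      have hlt : Real.exp ((q : ℝ) ^ (k + 2 * i) *
          (UN θ i0 N t (i * j1) (k + 2 * i) [i0] - 3 * Real.exp (-(i : ℝ)))) < 1 := by
        refine lt_of_le_of_lt ?_ hcon
        unfold PT
        exact Finset.single_le_sum (f := fun i : ℕ => Real.exp ((q : ℝ) ^ (k + 2 * i) *
          (UN θ i0 N t (i * j1) (k + 2 * i) [i0] - 3 * Real.exp (-(i : ℝ)))))
          (fun _ _ => (Real.exp_pos _).le) hmem
      rw [Real.exp_lt_one_iff] at hlt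
      have hq0 : (0 : ℝ) < (q : ℝ) ^ (k + 2 * i) := by
        have : (0 : ℝ) < q := by exact_mod_cast (by omega : 0 < q)
        positivity
      have h3 : UN θ i0 N t (i * j1) (k + 2 * i) [i0] - 3 * Real.exp (-(i : ℝ)) < 0 := by
        by_contra h4
        push Not at h4
        exact absurd hlt (not_lt.2 (mul_nonneg hq0.le h4))
      have h5 := AN_le_UN h0 h1 hq i0 N (i * j1) (k + 2 * i) ht [i0] (List.isChain_singleton i0)
        (by simp)
      have e : i * j1 + (k + 2 * i) = k + i * (j1 + 2) := by ring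
      rw [e] at h5
      linarith
    · positivity
  have hsum := sum_good hBanti hB1 k (j1 + 2) (K + 1) (by omega) hgood hB0
  have e : ∑ l ∈ Finset.range (K + 1), B l = ∑ l ∈ Finset.range (K + 1), AN θ i0 N t l [i0] := by
    refine Finset.sum_congr rfl fun l hl => ?_
    simp only [hB]
    rw [if_pos (by have := Finset.mem_range.1 hl; omega)]
  rw [e] at hsum
  linarith

theorem PT_le {θ : ℝ} (h0 : 0 ≤ θ) (h1 : q * θ ^ 2 ≤ 1) (hq : 2 ≤ q) {π : Measure ℝ} {τ : ℝ}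
    (hπ : SiteLaw π τ) (i0 : Fin (q + 1)) (N N0 K j1 k : ℕ) (hN : N0 + K ≤ N)
    (hμ : ∀ (i : ℕ) (j : Fin (q + 1)) (M : ℕ), N0 + i * j1 ≤ M →
      (coneE θ π j M fun t => AN θ j M t (i * j1) [j]) ≤ Real.exp (-(i : ℝ))) :
    coneE θ π i0 N (PT θ i0 N K j1 k) ≤ 4 * Real.exp (-(2 : ℝ) ^ k) := by
  have hθ := theta_lt_one h0 h1 hq
  have hterm : ∀ i ∈ (Finset.range (K + 1)).filter (fun i => k + i * (j1 + 2) ≤ K),
      (coneE θ π i0 N fun t => Real.exp ((q : ℝ) ^ (k + 2 * i) *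
        (UN θ i0 N t (i * j1) (k + 2 * i) [i0] - 3 * Real.exp (-(i : ℝ)))))
      ≤ Real.exp (-(2 : ℝ) ^ k) * (3 / 4) ^ i := by
    intro i hi
    rw [Finset.mem_filter] at hi
    have e : k + i * (j1 + 2) = i * j1 + (k + 2 * i) := by ring
    obtain ⟨M, rfl⟩ : ∃ M, N = M + (k + 2 * i) := ⟨N - (k + 2 * i), by omega⟩
    have hM : N0 + i * j1 ≤ M := by omega
    have h2 := mgf h0 h1 hq hπ (i * j1) M (fun j => hμ i j M hM) (k + 2 * i) i0
    have e2 : (fun t : W q → ℝ => Real.exp ((q : ℝ) ^ (k + 2 * i) *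
        (UN θ i0 (M + (k + 2 * i)) t (i * j1) (k + 2 * i) [i0] - 3 * Real.exp (-(i : ℝ)))))
        = fun t => Real.exp (-(3 * (q : ℝ) ^ (k + 2 * i) * Real.exp (-(i : ℝ)))) *
          Real.exp ((q : ℝ) ^ (k + 2 * i) * UN θ i0 (M + (k + 2 * i)) t (i * j1) (k + 2 * i) [i0]) := by
      funext t
      rw [← Real.exp_add]
      congr 1
      ring
    rw [e2, coneE_mul]
    refine (mul_le_mul_of_nonneg_left h2 (Real.exp_pos _).le).trans ?_
    rw [← Real.exp_add]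
    have h3 := level_real hq k i
    refine le_trans (Real.exp_le_exp.2 ?_) (exp_term h3)
    have h4 := exp_one_bounds.2
    have h5 : 0 ≤ (q : ℝ) ^ (k + 2 * i) * Real.exp (-(i : ℝ)) := by positivity
    nlinarith
  unfold PT
  rw [coneE_sum h0 hθ hπ _ fun i _ =>
    exp_BC ((BC.const _).mul ((UN_BC h0 h1 hq i0 N _ _).sub (BC.const _)))]
  refine (Finset.sum_le_sum hterm).trans ?_
  have h6 : ∑ i ∈ (Finset.range (K + 1)).filter (fun i => k + i * (j1 + 2) ≤ K),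
      Real.exp (-(2 : ℝ) ^ k) * (3 / 4) ^ i
      ≤ ∑ i ∈ Finset.range (K + 1), Real.exp (-(2 : ℝ) ^ k) * (3 / 4) ^ i :=
    Finset.sum_le_sum_of_subset_of_nonneg (Finset.filter_subset _ _) fun i _ _ => by positivity
  refine h6.trans ?_
  rw [← Finset.mul_sum, mul_comm (4 : ℝ)]
  refine mul_le_mul_of_nonneg_left ?_ (Real.exp_pos _).le
  exact geom_le (by norm_num) (by norm_num) (by norm_num) _

theorem weight_sum (k n : ℕ) :
    ∑ m ∈ Finset.range n, ((m : ℝ) + 1) ^ 2 * (4 * Real.exp (-(2 : ℝ) ^ (k + m)))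
      ≤ 168 * Real.exp (-(2 : ℝ) ^ k) := by
  have hexp : Real.exp (1 / 2) ≤ 7 / 4 := by
    have h1 : Real.exp (1 / 2) * Real.exp (1 / 2) = Real.exp 1 := by
      rw [← Real.exp_add]; norm_num
    have h2 := exp_one_bounds.2
    have h3 := Real.exp_pos (1 / 2)
    nlinarith
  have hexp2 : Real.exp (-(1 / 2)) ≤ 2 / 3 := by
    have h3 := Real.add_one_le_exp (1 / 2 : ℝ)
    rw [Real.exp_neg, inv_le_comm₀ (Real.exp_pos _) (by norm_num)]
    norm_num at h3 ⊢
    linarith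
  have hterm : ∀ m : ℕ, ((m : ℝ) + 1) ^ 2 * (4 * Real.exp (-(2 : ℝ) ^ (k + m)))
      ≤ 56 * Real.exp (-(2 : ℝ) ^ k) * (2 / 3) ^ m := by
    intro m
    have h1 : (1 : ℝ) ≤ 2 ^ k := one_le_pow₀ (by norm_num)
    have h2 : (m : ℝ) + 1 ≤ 2 ^ m := by
      have : m + 1 ≤ 2 ^ m := Nat.lt_two_pow_self
      exact_mod_cast this
    have h3 : (2 : ℝ) ^ k + m ≤ 2 ^ (k + m) := by
      rw [pow_add]
      nlinarith [mul_nonneg (sub_nonneg.2 h1) (sub_nonneg.2 ((le_add_of_nonneg_left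
        (Nat.cast_nonneg m)).trans h2 : (1 : ℝ) ≤ 2 ^ m))]
    have h4 : Real.exp (-(2 : ℝ) ^ (k + m)) ≤ Real.exp (-(2 : ℝ) ^ k) * Real.exp (-(m : ℝ)) := by
      rw [← Real.exp_add]
      exact Real.exp_le_exp.2 (by linarith)
    have h5 : ((m : ℝ) + 1) ^ 2 ≤ 8 * (Real.exp (m / 2) * Real.exp (1 / 2)) := by
      have h6 := Real.quadratic_le_exp_of_nonneg (x := ((m : ℝ) + 1) / 2) (by positivity)
      have h7 : Real.exp (((m : ℝ) + 1) / 2) = Real.exp (m / 2) * Real.exp (1 / 2) := by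
        rw [← Real.exp_add]; congr 1; ring
      rw [h7] at h6
      have hm : (0 : ℝ) ≤ m := Nat.cast_nonneg m
      nlinarith
    have h8 : Real.exp (m / 2) * Real.exp (-(m : ℝ)) = Real.exp (-(1 / 2)) ^ m := by
      rw [← Real.exp_add, ← Real.exp_nat_mul]
      congr 1; ring
    have h9 : Real.exp (-(1 / 2)) ^ m ≤ (2 / 3) ^ m := pow_le_pow_left₀ (Real.exp_pos _).le hexp2 _
    calc ((m : ℝ) + 1) ^ 2 * (4 * Real.exp (-(2 : ℝ) ^ (k + m)))
        ≤ (8 * (Real.exp (m / 2) * Real.exp (1 / 2))) *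
          (4 * (Real.exp (-(2 : ℝ) ^ k) * Real.exp (-(m : ℝ)))) := by
          refine mul_le_mul h5 (by linarith) (by positivity) (by positivity)
      _ = 32 * Real.exp (1 / 2) * Real.exp (-(2 : ℝ) ^ k) *
          (Real.exp (m / 2) * Real.exp (-(m : ℝ))) := by ring
      _ = 32 * Real.exp (1 / 2) * Real.exp (-(2 : ℝ) ^ k) * Real.exp (-(1 / 2)) ^ m := by rw [h8]
      _ ≤ 56 * Real.exp (-(2 : ℝ) ^ k) * (2 / 3) ^ m := by
          refine mul_le_mul ?_ h9 (by positivity) (by positivity)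
          refine mul_le_mul_of_nonneg_right ?_ (Real.exp_pos _).le
          linarith
  refine (Finset.sum_le_sum fun m _ => hterm m).trans ?_
  rw [← Finset.mul_sum]
  have h := geom_le (r := (2 / 3 : ℝ)) (C := 3) (by norm_num) (by norm_num) (by norm_num) n
  have h' : (0 : ℝ) ≤ 56 * Real.exp (-(2 : ℝ) ^ k) := by positivity
  calc 56 * Real.exp (-(2 : ℝ) ^ k) * ∑ i ∈ Finset.range n, (2 / 3 : ℝ) ^ i
      ≤ 56 * Real.exp (-(2 : ℝ) ^ k) * 3 := mul_le_mul_of_nonneg_left h h'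
    _ = 168 * Real.exp (-(2 : ℝ) ^ k) := by ring

end Susc

open Susc CB

theorem cone_tail {q : ℕ} (hq : 2 ≤ q) : ∃ C : ℝ, 0 < C ∧ ∀ (θ : ℝ), 0 ≤ θ → q * θ ^ 2 ≤ 1 →
    ∀ (π : Measure ℝ) (τ : ℝ), SiteLaw π τ → 0 < ∫ t, t ^ 2 ∂π →
    ∃ N0 : ℕ, ∀ (i : Fin (q + 1)) (N K k : ℕ), N0 + K ≤ N →
      (coneE θ π i N fun t => (max 0 ((∑ l ∈ Finset.range (K + 1), AN θ i N t l [i])
        - (C / √(∫ t, t ^ 2 ∂π) + k))) ^ 2) ≤ C * Real.exp (-(2 : ℝ) ^ k) := by
  obtain ⟨c, hc, hc1, hdec⟩ := cone_decay hq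
  refine ⟨5 / c + 168, by positivity, ?_⟩
  intro θ h0 h1 π τ hπ ho
  obtain ⟨N0, hN0⟩ := hdec θ h0 h1 π τ hπ ho
  have hθ := theta_lt_one h0 h1 hq
  set s := √(∫ t, t ^ 2 ∂π) with hs
  have hs0 : 0 < s := Real.sqrt_pos.2 ho
  have hs1 : s ≤ 1 := Real.sqrt_le_one.2 (second_le_one hπ)
  have hcs : 0 < c * s := mul_pos hc hs0
  set j1 := ⌈1 / (c * s)⌉₊ with hj1
  have hj1a : 1 / (c * s) ≤ j1 := Nat.le_ceil _
  have hj1b : (j1 : ℝ) < 1 / (c * s) + 1 := Nat.ceil_lt_add_one (by positivity)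
  have hj1c : 1 ≤ c * s * j1 := by
    rw [div_le_iff₀ hcs] at hj1a
    linarith
  have hp : 5 * ((j1 + 2 : ℕ) : ℝ) ≤ (5 / c + 168) / s := by
    rw [le_div_iff₀ hs0]
    push_cast
    have h2 : (1 / (c * s)) * s = 1 / c := by field_simp
    have h3 : (j1 : ℝ) * s ≤ 1 / c + s := by nlinarith
    have h4 : 5 * ((j1 : ℝ) + 2) * s = 5 * (j1 * s) + 10 * s := by ring
    have h5 : 5 / c = 5 * (1 / c) := by ring
    rw [h4, h5]
    linarith
  have hμ : ∀ (i : ℕ) (j : Fin (q + 1)) (M : ℕ), N0 + i * j1 ≤ M →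
      (coneE θ π j M fun t => AN θ j M t (i * j1) [j]) ≤ Real.exp (-(i : ℝ)) := by
    intro i j M hM
    refine (hN0 j M (i * j1) hM).trans ?_
    have h2 : 1 - c * s ≤ Real.exp (-(c * s)) := by
      have := Real.add_one_le_exp (-(c * s))
      linarith
    have h3 : 0 ≤ 1 - c * s := by nlinarith
    refine (pow_le_pow_left₀ h3 h2 _).trans ?_
    rw [← Real.exp_nat_mul]
    refine Real.exp_le_exp.2 ?_
    push_cast
    have hi : (0 : ℝ) ≤ i := Nat.cast_nonneg i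
    nlinarith
  refine ⟨N0, fun i N K k hN => ?_⟩
  have hAN := fun (l : ℕ) => AN_BC h0 h1 hq i N l (List.isChain_singleton i) (by simp)
  have hSBC : BC fun t : W q → ℝ => ∑ l ∈ Finset.range (K + 1), AN θ i N t l [i] :=
    BC.sum _ fun l _ => hAN l
  have hS1 : ∀ t : W q → ℝ, (∀ w, |t w| < 1) →
      ∑ l ∈ Finset.range (K + 1), AN θ i N t l [i] ≤ K + 1 := by
    intro t ht
    calc ∑ l ∈ Finset.range (K + 1), AN θ i N t l [i] ≤ (Finset.range (K + 1)).card • (1 : ℝ) :=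
        Finset.sum_le_card_nsmul _ _ _ fun l _ =>
          (AN_nonneg_le_one h0 h1 hq i N l t ht [i] (List.isChain_singleton i) (by simp)).2
      _ = K + 1 := by simp
  have hlhs : BC fun t : W q → ℝ => (max 0 ((∑ l ∈ Finset.range (K + 1), AN θ i N t l [i])
        - ((5 / c + 168) / s + k))) ^ 2 := by
    refine ⟨((measurable_const.max ((hSBC.meas.sub measurable_const))).pow_const 2),
      (K + 1) ^ 2, fun t ht => ?_⟩
    rw [abs_of_nonneg (sq_nonneg _)]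
    refine pow_le_pow_left₀ (le_max_left _ _) (max_le (by positivity) ?_) 2
    have h2 := hS1 t ht
    have h3 : 0 ≤ (5 / c + 168) / s + k := by positivity
    linarith
  have hrhs : BC fun t : W q → ℝ => ∑ m ∈ Finset.range (K + 1),
      ((m : ℝ) + 1) ^ 2 * PT θ i N K j1 (k + m) t :=
    BC.sum _ fun m _ => (BC.const _).mul (PT_BC h0 h1 hq i N K j1 (k + m))
  have hpt : ∀ t : W q → ℝ, (∀ w, |t w| < 1) →
      (max 0 ((∑ l ∈ Finset.range (K + 1), AN θ i N t l [i]) - ((5 / c + 168) / s + k))) ^ 2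
      ≤ ∑ m ∈ Finset.range (K + 1), ((m : ℝ) + 1) ^ 2 * PT θ i N K j1 (k + m) t := by
    intro t ht
    have hnn : ∀ m ∈ Finset.range (K + 1), 0 ≤ ((m : ℝ) + 1) ^ 2 * PT θ i N K j1 (k + m) t :=
      fun m _ => mul_nonneg (sq_nonneg _) (PT_nonneg _ _ _ _ _ _ _)
    set S := ∑ l ∈ Finset.range (K + 1), AN θ i N t l [i] with hSdef
    set y := S - ((5 / c + 168) / s + k) with hy
    by_cases hy0 : y ≤ 0
    · rw [max_eq_left hy0]
      have := Finset.sum_nonneg hnn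
      simpa using this
    · push Not at hy0
      rw [max_eq_right hy0.le]
      set m0 := ⌈y⌉₊ - 1 with hm0
      have hceil : 0 < ⌈y⌉₊ := Nat.ceil_pos.2 hy0
      have hm0' : (m0 : ℝ) + 1 = ⌈y⌉₊ := by
        have : m0 + 1 = ⌈y⌉₊ := by omega
        exact_mod_cast this
      have h2 : y ≤ (m0 : ℝ) + 1 := by
        rw [hm0']; exact Nat.le_ceil y
      have h3 : (m0 : ℝ) < y := by
        have := Nat.ceil_lt_add_one hy0.le
        linarith
      have hKm : m0 ∈ Finset.range (K + 1) := by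
        rw [Finset.mem_range]
        have h4 := hS1 t ht
        have h5 : 0 ≤ (5 / c + 168) / s + k := by positivity
        have h6 : (m0 : ℝ) < K + 1 := by linarith
        exact_mod_cast h6
      have hP : 1 ≤ PT θ i N K j1 (k + m0) t := by
        refine PT_ge h0 h1 hq i N K j1 (k + m0) ht ?_
        push_cast
        push_cast at hp
        linarith
      have h7 : y ^ 2 ≤ ((m0 : ℝ) + 1) ^ 2 := pow_le_pow_left₀ hy0.le h2 2
      have h8 : ((m0 : ℝ) + 1) ^ 2 * 1 ≤ ((m0 : ℝ) + 1) ^ 2 * PT θ i N K j1 (k + m0) t :=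
        mul_le_mul_of_nonneg_left hP (sq_nonneg _)
      have h9 := Finset.single_le_sum (f := fun m : ℕ =>
        ((m : ℝ) + 1) ^ 2 * PT θ i N K j1 (k + m) t) hnn hKm
      linarith
  refine (coneE_mono h0 hθ hπ hlhs hrhs hpt).trans ?_
  rw [coneE_sum h0 hθ hπ _ fun m _ => (BC.const _).mul (PT_BC h0 h1 hq i N K j1 (k + m))]
  have hterm : ∀ m ∈ Finset.range (K + 1),
      (coneE θ π i N fun t => ((m : ℝ) + 1) ^ 2 * PT θ i N K j1 (k + m) t)
      ≤ ((m : ℝ) + 1) ^ 2 * (4 * Real.exp (-(2 : ℝ) ^ (k + m))) := by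
    intro m _
    rw [coneE_mul]
    exact mul_le_mul_of_nonneg_left (PT_le h0 h1 hq hπ i N N0 K j1 (k + m) hN hμ) (sq_nonneg _)
  refine (Finset.sum_le_sum hterm).trans ((weight_sum k (K + 1)).trans ?_)
  refine mul_le_mul_of_nonneg_right ?_ (Real.exp_pos _).le
  have : 0 < 5 / c := by positivity
  linarith

end Crest.Agent.FreeIs
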