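import Crest.Agent.FreeIs.Limit
import Crest.Agent.FreeIs.Coh
import Crest.Agent.FreeIs.Inc
import Crest.Agent.FreeIs.Susc
import Crest.Agent.FreeIs.Gap
import Crest.Agent.FreeIs.ConeRec
import Crest.Agent.FreeIs.ConeBase
import Crest.Agent.FreeIs.Ode
import Crest.Agent.FreeIs.Decouple
import Crest.Agent.FreeIs.Comb

/-!
S0241, module FACTS: from the finite volume cone estimates to the infinite volume system.
-/

set_option autoImplicit false
set_option linter.unusedVariables false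

open MeasureTheory Filter Topology

namespace Crest.Agent.FreeIs

namespace Bridge

open Crest.Agent.FreeIs.Rec

/-! ### clamp -/

/-- truncation to `[-b, b]` -/
noncomputable def clamp (b x : ℝ) : ℝ := max (-b) (min b x)

theorem clamp_abs {b : ℝ} (hb : 0 ≤ b) (x : ℝ) : |clamp b x| ≤ b := by
  unfold clamp
  rw [abs_le]
  exact ⟨le_max_left _ _, max_le (by linarith) (min_le_left _ _)⟩

theorem clamp_eq {b x : ℝ} (h : |x| ≤ b) : clamp b x = x := by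
  obtain ⟨h1, h2⟩ := abs_le.1 h
  unfold clamp
  rw [min_eq_right h2, max_eq_right h1]

theorem continuous_clamp (b : ℝ) : Continuous (clamp b) := by
  unfold clamp
  fun_prop

variable {q : ℕ}

/-! ### words -/

theorem mem_wcone {w v : W q} {n : ℕ} :
    v ∈ wcone w n ↔ w.1 <+: v.1 ∧ v.1.length ≤ w.1.length + n := by
  unfold wcone below
  rw [Finset.mem_filter, mem_wball]
  exact and_comm

theorem mem_nxt {l : List (Fin (q + 1))} {j : Fin (q + 1)} :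
    j ∈ nxt l ↔ l.getLast? ≠ some j := by
  simp [nxt]

theorem chain_append {l : List (Fin (q + 1))} (h : l.IsChain (· ≠ ·)) {j : Fin (q + 1)}
    (hj : j ∈ nxt l) : (l ++ [j]).IsChain (· ≠ ·) := by
  rw [List.isChain_append]
  refine ⟨h, List.isChain_singleton j, ?_⟩
  intro x hx y hy
  rw [mem_nxt] at hj
  simp at hy
  subst hy
  intro hxy
  subst hxy
  exact hj hx

/-! ### the averaged sum as a function of the messages -/

/-- `Asum` as a function of all messages (clamped). -/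
noncomputable def AX (θ : ℝ) (x : W q → ℝ) : ℕ → List (Fin (q + 1)) → ℝ
  | 0, _ => 1
  | k + 1, l => (q : ℝ)⁻¹ * ∑ j ∈ nxt l,
      √(q : ℝ) * θ * gg θ (clamp 1 (x (toW (l ++ [j])))) * AX θ x k (l ++ [j])

theorem gg_clamp_mem {θ : ℝ} (h0 : 0 ≤ θ) (h1 : θ < 1) (x : ℝ) :
    0 ≤ gg θ (clamp 1 x) ∧ gg θ (clamp 1 x) ≤ 1 :=
  ⟨gg_nonneg' h0 h1 (clamp_abs zero_le_one x), gg_le_one' h0 h1 (clamp_abs zero_le_one x)⟩

theorem continuous_gg_clamp {θ : ℝ} (h0 : 0 ≤ θ) (h1 : θ < 1) :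
    Continuous fun x => gg θ (clamp 1 x) := by
  unfold gg
  have hc := continuous_clamp 1
  refine Continuous.div (by fun_prop) (by fun_prop) fun x => ?_
  have h2 := clamp_abs zero_le_one x
  have h3 : clamp 1 x ^ 2 ≤ 1 := by rw [← sq_abs]; nlinarith [abs_nonneg (clamp 1 x)]
  have h4 : θ ^ 2 < 1 := by nlinarith
  have h5 : θ ^ 2 * clamp 1 x ^ 2 ≤ θ ^ 2 := by nlinarith [sq_nonneg θ]
  exact (by linarith : (0 : ℝ) < 1 - θ ^ 2 * clamp 1 x ^ 2).ne'

theorem continuous_AX {θ : ℝ} (h0 : 0 ≤ θ) (h1 : θ < 1) (k : ℕ) (l : List (Fin (q + 1))) :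
    Continuous fun x : W q → ℝ => AX θ x k l := by
  induction k generalizing l with
  | zero => exact continuous_const
  | succ k ih =>
    unfold AX
    refine continuous_const.mul (continuous_finsetSum _ fun j _ => ?_)
    refine (continuous_const.mul ?_).mul (ih _)
    exact (continuous_gg_clamp h0 h1).comp (continuous_apply _)

theorem card_nxt {l : List (Fin (q + 1))} (hl : l ≠ []) : (nxt l).card = q := by
  obtain ⟨l', a, rfl⟩ : ∃ l' a, l = l' ++ [a] := ⟨l.dropLast, l.getLast hl, (List.dropLast_append_getLast hl).symm⟩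
  have : nxt (l' ++ [a]) = Finset.univ.erase a := by
    ext j
    simp [nxt, eq_comm]
  rw [this]
  simp

theorem AX_mem {θ : ℝ} (hq : 2 ≤ q) (h0 : 0 ≤ θ) (h1 : q * θ ^ 2 ≤ 1) (x : W q → ℝ) (k : ℕ)
    (l : List (Fin (q + 1))) (hl : l ≠ []) : 0 ≤ AX θ x k l ∧ AX θ x k l ≤ 1 := by
  have ht := theta_lt_one hq h1
  have hq0 : (0 : ℝ) < q := by positivity
  have hs : √(q : ℝ) * θ ≤ 1 := by
    have : √(q : ℝ) * θ = √(q * θ ^ 2) := by
      rw [Real.sqrt_mul (by positivity), Real.sqrt_sq h0]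
    rw [this]
    exact Real.sqrt_le_one.2 h1
  induction k generalizing l with
  | zero => simp [AX]
  | succ k ih =>
    unfold AX
    have key : ∀ j ∈ nxt l,
        0 ≤ √(q : ℝ) * θ * gg θ (clamp 1 (x (toW (l ++ [j])))) * AX θ x k (l ++ [j]) ∧
        √(q : ℝ) * θ * gg θ (clamp 1 (x (toW (l ++ [j])))) * AX θ x k (l ++ [j]) ≤ 1 := by
      intro j _
      obtain ⟨a0, a1⟩ := gg_clamp_mem h0 ht (x (toW (l ++ [j])))
      obtain ⟨b0, b1⟩ := ih (l ++ [j]) (by simp)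
      refine ⟨by positivity, mul_le_one₀ (mul_le_one₀ hs a0 a1) b0 b1⟩
    constructor
    · exact mul_nonneg (by positivity) (Finset.sum_nonneg fun j hj => (key j hj).1)
    · have := Finset.sum_le_sum fun j hj => (key j hj).2
      rw [Finset.sum_const, card_nxt hl, nsmul_eq_mul, mul_one] at this
      calc (q : ℝ)⁻¹ * _ ≤ (q : ℝ)⁻¹ * q := mul_le_mul_of_nonneg_left this (by positivity)
        _ = 1 := by field_simp

theorem AX_local {θ : ℝ} (x y : W q → ℝ) (k : ℕ) (l : List (Fin (q + 1)))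
    (hl : l.IsChain (· ≠ ·))
    (h : ∀ w : W q, l <+: w.1 → w.1.length ≤ l.length + k → x w = y w) :
    AX θ x k l = AX θ y k l := by
  induction k generalizing l with
  | zero => rfl
  | succ k ih =>
    unfold AX
    congr 1
    refine Finset.sum_congr rfl fun j hj => ?_
    have hc := chain_append hl hj
    rw [ih (l ++ [j]) hc, h (toW (l ++ [j]))]
    · rw [toW_val hc]; exact List.prefix_append _ _
    · rw [toW_val hc]; simp
    · intro w hw hw'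
      refine h w ((List.prefix_append _ _).trans hw) ?_
      simp at hw'
      omega

theorem AN_eq_AX {θ : ℝ} (i : Fin (q + 1)) (N : ℕ) (t : W q → ℝ)
    (ht : ∀ w, |cmsg θ i N t w| ≤ 1) (k : ℕ) (l : List (Fin (q + 1))) :
    AN θ i N t k l = AX θ (cmsg θ i N t) k l := by
  induction k generalizing l with
  | zero => rfl
  | succ k ih =>
    unfold AN AX
    congr 1
    refine Finset.sum_congr rfl fun j hj => ?_
    rw [ih, clamp_eq (ht _)]

theorem msgW_append (θ : ℝ) (M : Lab (W q) → ℝ) (l : List (Fin (q + 1))) (j : Fin (q + 1))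
    (ω : Lab (W q)) : msgW θ M (l ++ [j]) ω = msg θ M j (shl l ω) := by
  induction l generalizing ω with
  | nil => rfl
  | cons a l ih =>
    cases l with
    | nil => rfl
    | cons b l => exact ih (sh a ω)

theorem AX_eq_Asum {θ : ℝ} {M : Lab (W q) → ℝ} {ω : Lab (W q)} (h : GoodA θ M ω) (k : ℕ)
    (l : List (Fin (q + 1))) (i : Fin (q + 1)) (hl : (l ++ [i]).IsChain (· ≠ ·)) :
    AX θ (fun w => msgW θ M w.1 ω) k (l ++ [i]) = Asum (aa θ M) k i (shl l ω) := by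
  induction k generalizing l i with
  | zero => rfl
  | succ k ih =>
    unfold AX Asum Bop
    have e : nxt (l ++ [i]) = Finset.univ.erase i := by
      ext j
      simp [nxt, eq_comm]
    rw [e]
    congr 1
    refine Finset.sum_congr rfl fun j hj => ?_
    have hc : (l ++ [i] ++ [j]).IsChain (· ≠ ·) := chain_append hl (by rw [e]; exact hj)
    rw [ih (l ++ [i]) j hc, shl_append]
    simp only [toW_val hc, msgW_append, shl_append]
    rw [clamp_eq]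
    · rfl
    · exact (h.shl l |>.sh i |>.good1 j).1

/-! ### congruence of the planted expectation -/

theorem ae_tilt {π : Measure ℝ} {τ : ℝ} (hπ : SiteLaw π τ) :
    ∀ᵐ t ∂(Measure.infinitePi (fun _ : W q => π)), ∀ w, |t w| ≤ τ := by
  have := hπ.prob
  rw [ae_all_iff]
  intro w
  exact (measurePreserving_eval_infinitePi (fun _ : W q => π) w).quasiMeasurePreserving.ae hπ.supp

theorem coneE_congr {θ : ℝ} {π : Measure ℝ} {τ : ℝ} (hπ : SiteLaw π τ) (i : Fin (q + 1)) (N : ℕ)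
    {F G : (W q → ℝ) → ℝ} (h : ∀ t, (∀ w, |t w| ≤ τ) → F t = G t) :
    coneE θ π i N F = coneE θ π i N G := by
  unfold coneE
  refine integral_congr_ae ?_
  filter_upwards [ae_tilt hπ] with t ht
  rw [h t ht]

theorem cmsg_le {θ : ℝ} (h0 : 0 ≤ θ) (h1 : θ < 1) {τ : ℝ} (hτ : τ < 1) (i : Fin (q + 1)) (N : ℕ)
    {t : W q → ℝ} (ht : ∀ w, |t w| ≤ τ) (w : W q) : |cmsg θ i N t w| ≤ 1 :=
  (mag_lt (WG q) h0 h1 (fun v _ => (ht v).trans_lt hτ) w).le

/-! ### limits -/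

/-- law of a single message -/
theorem msg_lim (hq : 2 ≤ q) {θ : ℝ} (h0 : 0 ≤ θ) (h1 : q * θ ^ 2 < 1) (j : ℕ) {r : ℝ}
    (hr0 : 0 ≤ r) (hr : r ≤ 1) (i : Fin (q + 1)) {μ : ℝ} (hμ : 0 ≤ μ) (φ : ℝ → ℝ)
    (hφ : Continuous fun x => φ (clamp μ x))
    (hb : ∀ᵐ ω ∂(labP (W q)), |msg θ (Mr q θ j r) i ω| ≤ μ)
    (hb' : ∀ N, ∃ τ', τ' ≤ μ ∧ SiteLaw (msgLaw q θ (siteL j r) N) τ') :
    Tendsto (fun N => ∫ m, φ m ∂(msgLaw q θ (siteL j r) N)) atTop
      (𝓝 (∫ ω, φ (msg θ (Mr q θ j r) i ω) ∂(labP (W q)))) := by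
  obtain ⟨τ, hτ⟩ := site_law j
  have hπ := hτ r hr0 hr
  have ht := theta_lt_one hq h1.le
  have hbd : ∃ K, ∀ x, |φ (clamp μ x)| ≤ K := by
    obtain ⟨K, hK⟩ := (isCompact_Icc (a := -μ) (b := μ)).exists_bound_of_continuousOn
      hφ.continuousOn
    refine ⟨K, fun x => ?_⟩
    have := hK (clamp μ x) (abs_le.1 (clamp_abs hμ x))
    rwa [clamp_eq (clamp_abs hμ x)] at this
  have key := cone_law hq h0 h1 j hr0 hr i 0 (fun x => φ (clamp μ (x (toW [i]))))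
    (hφ.comp (continuous_apply _)) (by
      obtain ⟨K, hK⟩ := hbd
      exact ⟨K, fun x => hK _⟩) (by
      intro x y h
      have : x (toW [i]) = y (toW [i]) := h _ (by
        rw [mem_wcone]; exact ⟨List.prefix_rfl, by omega⟩)
      rw [this])
  have e1 : ∀ N, (coneE θ (siteL j r) i N fun t => φ (clamp μ (cmsg θ i N t (toW [i]))))
      = ∫ m, φ m ∂(msgLaw q θ (siteL j r) N) := by
    intro N
    rw [coneE_msg h0 ht hπ i N (fun x => φ (clamp μ x)) hφ.measurable hbd]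
    obtain ⟨τ', h1', h2'⟩ := hb' N
    refine integral_congr_ae ?_
    filter_upwards [h2'.supp] with m hm
    rw [clamp_eq (hm.trans h1')]
  have e2 : ∫ ω, φ (clamp μ (msgW θ (Mr q θ j r) (toW [i]).1 ω)) ∂(labP (W q))
      = ∫ ω, φ (msg θ (Mr q θ j r) i ω) ∂(labP (W q)) := by
    refine integral_congr_ae ?_
    filter_upwards [hb] with ω hω
    rw [toW_val (List.isChain_singleton i)]
    change φ (clamp μ (msg θ (Mr q θ j r) i ω)) = _
    rw [clamp_eq hω]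
  rw [← e2]
  simp only [e1] at key
  exact key

/-- law of finitely many `Asum` -/
theorem asum_lim (hq : 2 ≤ q) {θ : ℝ} (h0 : 0 ≤ θ) (h1 : q * θ ^ 2 < 1) (j : ℕ) {r : ℝ}
    (hr0 : 0 ≤ r) (hr : r ≤ 1) (i : Fin (q + 1)) (K : ℕ) (Φ : (ℕ → ℝ) → ℝ) (hΦ : Continuous Φ)
    (hb : ∃ B, ∀ x : ℕ → ℝ, (∀ n, 0 ≤ x n ∧ x n ≤ 1) → |Φ x| ≤ B)
    (hloc : ∀ x y : ℕ → ℝ, (∀ n ≤ K, x n = y n) → Φ x = Φ y) :
    Tendsto (fun N => coneE θ (siteL j r) i N fun t => Φ (fun n => AN θ i N t n [i])) atTop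
      (𝓝 (∫ ω, Φ (fun n => Asum (aa θ (Mr q θ j r)) n i ω) ∂(labP (W q)))) := by
  obtain ⟨τ, hτ⟩ := site_law j
  have hπ := hτ r hr0 hr
  have ht := theta_lt_one hq h1.le
  have key := cone_law hq h0 h1 j hr0 hr i K (fun x => Φ (fun n => AX θ x n [i]))
    (hΦ.comp (continuous_pi fun n => continuous_AX h0 ht n [i])) (by
      obtain ⟨B, hB⟩ := hb
      exact ⟨B, fun x => hB _ fun n => AX_mem hq h0 h1.le x n [i] (by simp)⟩) (by
      intro x y h
      refine hloc _ _ fun n hn => ?_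
      refine AX_local x y n [i] (List.isChain_singleton i) fun w hw hw' => h w ?_
      rw [mem_wcone, toW_val (List.isChain_singleton i)]
      exact ⟨hw, by omega⟩)
  have e1 : ∀ N, (coneE θ (siteL j r) i N fun t => Φ (fun n => AX θ (cmsg θ i N t) n [i]))
      = coneE θ (siteL j r) i N fun t => Φ (fun n => AN θ i N t n [i]) := by
    intro N
    refine coneE_congr hπ i N fun t ht' => ?_
    congr 1
    funext n
    rw [AN_eq_AX i N t (fun w => cmsg_le h0 ht hπ.lt i N ht' w)]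
  have e2 : ∫ ω, Φ (fun n => AX θ (fun w => msgW θ (Mr q θ j r) w.1 ω) n [i]) ∂(labP (W q))
      = ∫ ω, Φ (fun n => Asum (aa θ (Mr q θ j r)) n i ω) ∂(labP (W q)) := by
    refine integral_congr_ae ?_
    filter_upwards [goodA_ae h0 ht (sys_Mr hq h0 h1 j hr0 hr)] with ω hω
    congr 1
    funext n
    exact AX_eq_Asum hω n [] i (List.isChain_singleton i)
  rw [← e2]
  simp only [e1] at key
  exact key

theorem decay_gen (hq : 2 ≤ q) : ∃ c : ℝ, 0 < c ∧ c ≤ 1 ∧ ∀ θ : ℝ, 0 < θ → q * θ ^ 2 < 1 →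
    ∀ (j : ℕ) (r : ℝ), 0 ≤ r → r ≤ 1 → 0 < ∫ t, t ^ 2 ∂(siteL j r) → ∀ (i : Fin (q + 1)) (n : ℕ),
    ∫ ω, Asum (aa θ (Mr q θ j r)) n i ω ∂(labP (W q))
      ≤ (1 - c * √(∫ t, t ^ 2 ∂(siteL j r))) ^ n := by
  obtain ⟨c, hc0, hc1, h⟩ := cone_decay hq
  refine ⟨c, hc0, hc1, fun θ h0 h1 j r hr0 hr hv i n => ?_⟩
  obtain ⟨τ, hτ⟩ := site_law j
  obtain ⟨N0, hN⟩ := h θ h0.le h1.le (siteL j r) τ (hτ r hr0 hr) hv
  have lim := asum_lim hq h0.le h1 j hr0 hr i n (fun x => x n) (continuous_apply n)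
    ⟨1, fun x hx => by rw [abs_of_nonneg (hx n).1]; exact (hx n).2⟩ (fun x y h => h n le_rfl)
  exact le_of_tendsto lim (eventually_atTop.2 ⟨N0 + n, fun N hN' => hN i N n hN'⟩)

theorem tail_gen (hq : 2 ≤ q) : ∃ C : ℝ, 0 < C ∧ ∀ θ : ℝ, 0 < θ → q * θ ^ 2 < 1 →
    ∀ (j : ℕ) (r : ℝ), 0 ≤ r → r ≤ 1 → 0 < ∫ t, t ^ 2 ∂(siteL j r) → ∀ (i : Fin (q + 1)) (k : ℕ)
    (c0 : ℝ), C / √(∫ t, t ^ 2 ∂(siteL j r)) + k ≤ c0 →
    ∫ ω, (max 0 (Sus (aa θ (Mr q θ j r)) i ω - c0)) ^ 2 ∂(labP (W q))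
      ≤ C * Real.exp (-(2 : ℝ) ^ k) := by
  obtain ⟨C, hC0, h⟩ := cone_tail hq
  refine ⟨C, hC0, fun θ h0 h1 j r hr0 hr hv i k c0 hc0 => ?_⟩
  obtain ⟨τ, hτ⟩ := site_law j
  obtain ⟨N0, hN⟩ := h θ h0.le h1.le (siteL j r) τ (hτ r hr0 hr) hv
  have ht := theta_lt_one hq h1.le
  have hsys := sys_Mr hq h0.le h1 j hr0 hr
  set M := Mr q θ j r with hM
  set c1 := C / √(∫ t, t ^ 2 ∂(siteL j r)) + k with hc1
  have hc1' : 0 ≤ c1 := by positivity
  set B := C * Real.exp (-(2 : ℝ) ^ k) with hB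
  have hB0 : 0 ≤ B := by positivity
  have hgood := goodA_ae h0.le ht hsys
  have hmeas : ∀ (K : ℕ) (c : ℝ), Measurable fun ω : Lab (W q) =>
      (max 0 ((∑ l ∈ Finset.range (K + 1), Asum (aa θ M) l i ω) - c)) ^ 2 := by
    intro K c
    have : Measurable fun ω : Lab (W q) => ∑ l ∈ Finset.range (K + 1), Asum (aa θ M) l i ω :=
      Finset.measurable_fun_sum _ fun l _ => measurable_Asum (fun i => measurable_aa hsys.meas i) l i
    fun_prop
  have hbd : ∀ (K : ℕ) (x : ℕ → ℝ), (∀ n, 0 ≤ x n ∧ x n ≤ 1) →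
      0 ≤ ∑ l ∈ Finset.range (K + 1), x l ∧ ∑ l ∈ Finset.range (K + 1), x l ≤ K + 1 := by
    intro K x hx
    refine ⟨Finset.sum_nonneg fun l _ => (hx l).1, ?_⟩
    refine (Finset.sum_le_sum fun l _ => (hx l).2).trans ?_
    simp
  have hbd2 : ∀ (K : ℕ) (c : ℝ), 0 ≤ c → ∀ (x : ℕ → ℝ), (∀ n, 0 ≤ x n ∧ x n ≤ 1) →
      |(max 0 ((∑ l ∈ Finset.range (K + 1), x l) - c)) ^ 2| ≤ (K + 1 : ℝ) ^ 2 := by
    intro K c hc x hx
    obtain ⟨h1, h2⟩ := hbd K x hx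
    rw [abs_pow, abs_of_nonneg (le_max_left _ _)]
    refine pow_le_pow_left₀ (le_max_left _ _) (max_le (by positivity) ?_) 2
    linarith
  have hint : ∀ (K : ℕ) (c : ℝ), 0 ≤ c → Integrable (fun ω : Lab (W q) =>
      (max 0 ((∑ l ∈ Finset.range (K + 1), Asum (aa θ M) l i ω) - c)) ^ 2) (labP (W q)) := by
    intro K c hc
    refine Integrable.of_bound (hmeas K c).aestronglyMeasurable ((K + 1 : ℝ) ^ 2) ?_
    filter_upwards [hgood] with ω hω
    exact hbd2 K c hc _ fun n => Asum_mem hq h0.le h1.le hω n i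
  have hK : ∀ K : ℕ, ∫ ω, (max 0 ((∑ l ∈ Finset.range (K + 1), Asum (aa θ M) l i ω) - c0)) ^ 2
      ∂(labP (W q)) ≤ B := by
    intro K
    have lim := asum_lim hq h0.le h1 j hr0 hr i K
      (fun x => (max 0 ((∑ l ∈ Finset.range (K + 1), x l) - c1)) ^ 2) (by fun_prop)
      ⟨(K + 1 : ℝ) ^ 2, fun x hx => hbd2 K c1 hc1' x hx⟩ (by
        intro x y hxy
        have : ∑ l ∈ Finset.range (K + 1), x l = ∑ l ∈ Finset.range (K + 1), y l :=
          Finset.sum_congr rfl fun l hl => hxy l (by rw [Finset.mem_range] at hl; omega)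
        simp only [this])
    have h2 := le_of_tendsto lim (eventually_atTop.2 ⟨N0 + K, fun N hN' => hN i N K k hN'⟩)
    refine le_trans ?_ h2
    refine integral_mono (hint K c0 (hc1'.trans hc0)) (hint K c1 hc1') fun ω => ?_
    exact pow_le_pow_left₀ (le_max_left _ _) (max_le_max le_rfl (by linarith)) 2
  by_cases hf : Integrable (fun ω => (max 0 (Sus (aa θ M) i ω - c0)) ^ 2) (labP (W q))
  swap
  · rw [integral_undef hf]; exact hB0
  rw [integral_eq_lintegral_of_nonneg_ae (ae_of_all _ fun ω => by positivity) hf.1]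
  refine ENNReal.toReal_le_of_le_ofReal hB0 ?_
  calc ∫⁻ ω, ENNReal.ofReal ((max 0 (Sus (aa θ M) i ω - c0)) ^ 2) ∂(labP (W q))
      ≤ ∫⁻ ω, liminf (fun K : ℕ => ENNReal.ofReal ((max 0 ((∑ l ∈ Finset.range (K + 1),
          Asum (aa θ M) l i ω) - c0)) ^ 2)) atTop ∂(labP (W q)) := by
        refine lintegral_mono_ae ?_
        filter_upwards [hgood] with ω hω
        by_cases hs : Summable fun n => Asum (aa θ M) n i ω
        · have h3 : Tendsto (fun K : ℕ => ∑ l ∈ Finset.range (K + 1), Asum (aa θ M) l i ω) atTop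
              (𝓝 (Sus (aa θ M) i ω)) :=
            (hs.hasSum.tendsto_sum_nat).comp (tendsto_add_atTop_nat 1)
          have h4 : Tendsto (fun K : ℕ => ENNReal.ofReal ((max 0 ((∑ l ∈ Finset.range (K + 1),
              Asum (aa θ M) l i ω) - c0)) ^ 2)) atTop
              (𝓝 (ENNReal.ofReal ((max 0 (Sus (aa θ M) i ω - c0)) ^ 2))) := by
            refine (ENNReal.continuous_ofReal.tendsto _).comp ?_
            have : Continuous fun x : ℝ => (max 0 (x - c0)) ^ 2 := by fun_prop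
            exact (this.tendsto _).comp h3
          rw [h4.liminf_eq]
        · have : Sus (aa θ M) i ω = 0 := tsum_eq_zero_of_not_summable hs
          rw [this, max_eq_left (by linarith)]
          simp
    _ ≤ liminf (fun K : ℕ => ∫⁻ ω, ENNReal.ofReal ((max 0 ((∑ l ∈ Finset.range (K + 1),
          Asum (aa θ M) l i ω) - c0)) ^ 2) ∂(labP (W q))) atTop :=
        lintegral_liminf_le fun K => (hmeas K c0).ennreal_ofReal
    _ ≤ ENNReal.ofReal B := by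
        refine liminf_le_of_le (by isBoundedDefault) fun b hb => ?_
        obtain ⟨K, hK'⟩ := hb.exists
        refine hK'.trans ?_
        rw [← ofReal_integral_eq_lintegral_ofReal (hint K c0 (hc1'.trans hc0))
          (ae_of_all _ fun ω => by positivity)]
        exact ENNReal.ofReal_le_ofReal (hK K)

/-! ### logarithms -/

/-- `-log (1 - m²)` -/
noncomputable def F1 (m : ℝ) : ℝ := - Real.log (1 - m ^ 2)

theorem F1_neg (m : ℝ) : F1 (-m) = F1 m := by unfold F1; rw [neg_sq]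

theorem measurable_F1 : Measurable F1 := by unfold F1; fun_prop

theorem F1_nonneg {m : ℝ} (h : |m| ≤ 1) : 0 ≤ F1 m := by
  unfold F1
  have h2 : 0 ≤ 1 - m ^ 2 := by nlinarith [sq_abs m, abs_nonneg m]
  have := Real.log_nonpos h2 (by nlinarith [sq_nonneg m])
  linarith

theorem F1_mono {m m' : ℝ} (h : |m| ≤ |m'|) (h' : |m'| < 1) : F1 m ≤ F1 m' := by
  unfold F1
  have h1 : m ^ 2 ≤ m' ^ 2 := sq_le_sq.2 h
  have h2 : 0 < 1 - m' ^ 2 := by nlinarith [sq_abs m', abs_nonneg m']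
  have := Real.log_le_log h2 (by linarith : 1 - m' ^ 2 ≤ 1 - m ^ 2)
  linarith

theorem F1_le {m μ : ℝ} (hμ : μ < 1) (h : |m| ≤ μ) : F1 m ≤ (1 - μ ^ 2)⁻¹ * m ^ 2 := by
  unfold F1
  have hm := abs_nonneg m
  have h1 : m ^ 2 ≤ μ ^ 2 := by rw [← sq_abs]; nlinarith
  have h2 : 0 < 1 - μ ^ 2 := by nlinarith
  have h3 : 0 < 1 - m ^ 2 := by linarith
  have h4 := Real.one_sub_inv_le_log_of_pos h3
  have h5 : (1 - m ^ 2)⁻¹ ≤ (1 - μ ^ 2)⁻¹ := inv_anti₀ h2 (by linarith)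
  have h6 : -(1 - (1 - m ^ 2)⁻¹) = (1 - m ^ 2)⁻¹ * m ^ 2 := by field_simp; ring
  nlinarith [sq_nonneg m]

theorem F1_convex : ConvexOn ℝ (Set.Ioo (-1) 1) F1 := by
  have hlog := strictConcaveOn_log_Ioi.concaveOn
  refine ⟨convex_Ioo _ _, ?_⟩
  intro x hx y hy a b ha hb hab
  have key : ∀ z : ℝ, z ∈ Set.Ioo (-1 : ℝ) 1 → F1 z = - Real.log (1 - z) - Real.log (1 + z) := by
    intro z hz
    unfold F1
    have h1 : (1 - z ^ 2) = (1 - z) * (1 + z) := by ring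
    have h2 : (0 : ℝ) < 1 - z := by linarith [hz.2]
    have h3 : (0 : ℝ) < 1 + z := by linarith [hz.1]
    rw [h1, Real.log_mul h2.ne' h3.ne']
    ring
  have hz : a • x + b • y ∈ Set.Ioo (-1 : ℝ) 1 := (convex_Ioo (-1 : ℝ) 1) hx hy ha hb hab
  rw [key _ hz, key _ hx, key _ hy]
  have e1 := hlog.2 (x := 1 - x) (y := 1 - y) (by simpa using hx.2) (by simpa using hy.2) ha hb hab
  have e2 := hlog.2 (x := 1 + x) (y := 1 + y) (by simpa using (by linarith [hx.1] : (0 : ℝ) < 1 + x))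
    (by simpa using (by linarith [hy.1] : (0 : ℝ) < 1 + y)) ha hb hab
  simp only [smul_eq_mul] at e1 e2 ⊢
  have f1 : a * (1 - x) + b * (1 - y) = 1 - (a * x + b * y) := by
    linear_combination hab
  have f2 : a * (1 + x) + b * (1 + y) = 1 + (a * x + b * y) := by
    linear_combination hab
  rw [f1] at e1
  rw [f2] at e2
  linarith

theorem log_gg {θ m : ℝ} (h0 : 0 ≤ θ) (h1 : θ < 1) (hm : |m| < 1) :
    Real.log (gg θ m) = F1 (θ * m) - F1 m := by
  unfold gg F1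
  have h2 : 0 < 1 - m ^ 2 := by nlinarith [sq_abs m, abs_nonneg m]
  have h3 : 0 < 1 - θ ^ 2 * m ^ 2 := by
    have h4 : θ ^ 2 < 1 := by nlinarith
    nlinarith [sq_nonneg m, sq_nonneg θ]
  rw [Real.log_div h2.ne' h3.ne', mul_pow]
  ring

theorem F1_scale {θ m : ℝ} (h0 : 0 ≤ θ) (h1 : θ ≤ 1) : |θ * m| ≤ |m| := by
  rw [abs_mul, abs_of_nonneg h0]
  exact mul_le_of_le_one_left (abs_nonneg m) h1

theorem abs_log_gg {θ m μ : ℝ} (h0 : 0 ≤ θ) (h1 : θ < 1) (hμ : μ < 1) (hm : |m| ≤ μ) :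
    |Real.log (gg θ m)| ≤ (1 - μ ^ 2)⁻¹ * m ^ 2 := by
  have hm1 := hm.trans_lt hμ
  have hs := F1_scale (m := m) h0 h1.le
  rw [log_gg h0 h1 hm1, abs_le]
  have a1 := F1_le hμ hm
  have a2 := F1_mono hs hm1
  have a3 := F1_nonneg (hs.trans hm1.le)
  have a4 := F1_nonneg hm1.le
  constructor <;> nlinarith

theorem continuous_F1_clamp {μ : ℝ} (hμ0 : 0 ≤ μ) (hμ : μ < 1) {θ : ℝ} (h0 : 0 ≤ θ) (h1 : θ ≤ 1) :
    Continuous fun x => F1 (θ * clamp μ x) := by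
  unfold F1
  have hc := continuous_clamp μ
  refine Continuous.neg (Continuous.log (by fun_prop) fun x => ?_)
  have h2 := clamp_abs hμ0 x
  have h3 := (F1_scale (m := clamp μ x) h0 h1).trans h2
  have h4 : (θ * clamp μ x) ^ 2 < 1 := by
    rw [← sq_abs]; nlinarith [abs_nonneg (θ * clamp μ x)]
  exact (by linarith : 0 < 1 - (θ * clamp μ x) ^ 2).ne'

end Bridge

open Bridge

variable {q : ℕ}

theorem facts0 (hq : 2 ≤ q) : ∃ c C : ℝ, 0 < c ∧ 0 < C ∧ ∀ θ : ℝ, 0 < θ → q * θ ^ 2 < 1 →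
    ∀ r, 0 < r → r ≤ 1 → Facts q θ r c C (Mr q θ 0 r) := by
  obtain ⟨c, hc0, hc1, hd⟩ := decay_gen hq
  obtain ⟨C, hC0, ht⟩ := tail_gen hq
  set a : ℝ := √(1 / 48) with ha
  have ha0 : 0 < a := Real.sqrt_pos.2 (by norm_num)
  have ha1 : a ≤ 1 := Real.sqrt_le_one.2 (by norm_num)
  refine ⟨c * a, C / a, by positivity, by positivity, fun θ h0 h1 r hr0 hr => ?_⟩
  have hv : ∫ t, t ^ 2 ∂(siteL 0 r) = r ^ 2 / 48 := site_second0 hr0.le hr
  have hsq : √(∫ t, t ^ 2 ∂(siteL 0 r)) = a * r := by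
    rw [hv, ha]
    have : r ^ 2 / 48 = (1 / 48) * r ^ 2 := by ring
    rw [this, Real.sqrt_mul (by norm_num), Real.sqrt_sq hr0.le]
  have hpos : 0 < ∫ t, t ^ 2 ∂(siteL 0 r) := by rw [hv]; positivity
  refine ⟨sys_Mr hq h0.le h1 0 hr0.le hr, by positivity, ?_, fun i n => ?_, fun i k => ?_⟩
  · have h1 : c * a ≤ 1 := mul_le_one₀ hc1 ha0.le ha1
    exact mul_le_one₀ h1 hr0.le hr
  · have := hd θ h0 h1 0 r hr0.le hr hpos i n
    rw [hsq] at this
    rw [mul_assoc]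
    exact this
  · have := ht θ h0 h1 0 r hr0.le hr hpos i k (C / a / r + k) (by
      rw [hsq, div_div])
    refine this.trans ?_
    refine mul_le_mul_of_nonneg_right ?_ (Real.exp_pos _).le
    rw [le_div_iff₀ ha0]
    nlinarith

theorem facts1 (hq : 2 ≤ q) (j : ℕ) : ∃ c C : ℝ, 0 < c ∧ 0 < C ∧ ∀ θ : ℝ, 0 < θ → q * θ ^ 2 < 1 →
    ∀ r, 0 ≤ r → r ≤ 1 → Facts q θ 1 c C (Mr q θ (j + 1) r) := by
  obtain ⟨c, hc0, hc1, hd⟩ := decay_gen hq
  obtain ⟨C, hC0, ht⟩ := tail_gen hq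
  set a : ℝ := √(1 / 48) with ha
  have ha0 : 0 < a := Real.sqrt_pos.2 (by norm_num)
  have ha1 : a ≤ 1 := Real.sqrt_le_one.2 (by norm_num)
  refine ⟨c * a, C / a, by positivity, by positivity, fun θ h0 h1 r hr0 hr => ?_⟩
  have hv : 1 / 48 ≤ ∫ t, t ^ 2 ∂(siteL (j + 1) r) := site_second_succ j hr0 hr
  have hpos : 0 < ∫ t, t ^ 2 ∂(siteL (j + 1) r) := lt_of_lt_of_le (by norm_num) hv
  have hle : a ≤ √(∫ t, t ^ 2 ∂(siteL (j + 1) r)) := Real.sqrt_le_sqrt hv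
  have hle1 : √(∫ t, t ^ 2 ∂(siteL (j + 1) r)) ≤ 1 := by
    obtain ⟨τ, hτ⟩ := site_law (j + 1)
    have hπ := hτ r hr0 hr
    have := hπ.prob
    refine Real.sqrt_le_one.2 ?_
    have h2 : ∫ t, t ^ 2 ∂(siteL (j + 1) r) ≤ ∫ t, (1 : ℝ) ∂(siteL (j + 1) r) := by
      refine integral_mono_ae (hπ.integrable (by fun_prop) (K := 1) fun x hx => ?_)
        (integrable_const _) ?_
      · rw [abs_pow]; exact pow_le_one₀ (abs_nonneg x) (hx.trans hπ.lt.le)
      · filter_upwards [hπ.supp] with x hx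
        have := hx.trans hπ.lt.le
        rw [← sq_abs]
        exact pow_le_one₀ (abs_nonneg x) this
    simpa using h2
  refine ⟨sys_Mr hq h0.le h1 (j + 1) hr0 hr, by positivity, ?_, fun i n => ?_, fun i k => ?_⟩
  · rw [mul_one]
    exact mul_le_one₀ hc1 ha0.le ha1
  · refine (hd θ h0 h1 (j + 1) r hr0 hr hpos i n).trans ?_
    refine pow_le_pow_left₀ ?_ ?_ n
    · have := mul_le_one₀ hc1 (Real.sqrt_nonneg _) hle1
      linarith
    · have := mul_le_mul_of_nonneg_left hle hc0.le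
      linarith
  · have := ht θ h0 h1 (j + 1) r hr0 hr hpos i k (C / a / 1 + k) (by
      rw [div_one]
      have := div_le_div_of_nonneg_left hC0.le ha0 hle
      linarith)
    refine this.trans ?_
    refine mul_le_mul_of_nonneg_right ?_ (Real.exp_pos _).le
    rw [le_div_iff₀ ha0]
    nlinarith

theorem mom0 (hq : 2 ≤ q) (p : ℕ) (hp : 1 ≤ p) : ∃ Cp : ℝ, ∀ θ : ℝ, 0 < θ → q * θ ^ 2 < 1 →
    ∀ r, 0 < r → r ≤ 1 →
    ∀ i, ∫ ω, (msg θ (Mr q θ 0 r) i ω) ^ (2 * p) ∂(labP (W q)) ≤ Cp * r ^ p := by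
  obtain ⟨Cp, hC, h⟩ := msg_moments hq p hp 1
  refine ⟨Cp, fun θ h0 h1 r hr0 hr i => ?_⟩
  obtain ⟨τ, hτ⟩ := site_law 0
  have hπ := hτ r hr0.le hr
  obtain ⟨μ, hμ0, hμ1, hμ⟩ := msg_bound 0 hq
  obtain ⟨τ', hτ'⟩ := msg_site hq hπ
  have hlim := msg_lim hq h0.le h1 0 hr0.le hr i (μ := max μ τ') (hμ0.trans (le_max_left _ _))
    (fun m => m ^ (2 * p)) ((continuous_clamp _).pow _) (by
      filter_upwards [hμ θ h0.le h1 r hr0.le hr i] with ω hω using hω.trans (le_max_left _ _))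
    (fun N => ⟨τ', le_max_right _ _, (hτ' θ h0.le h1.le N).1⟩)
  refine le_of_tendsto hlim (Eventually.of_forall fun N => ?_)
  refine h θ h0.le h1.le (siteL 0 r) τ r hπ hr0 hr ?_ ?_ N
  · rw [site_second0 hr0.le hr]
    nlinarith [sq_nonneg r]
  · intro l hl hlp
    refine (site_mom0 hr0.le hr l hl).trans ?_
    rw [pow_succ]
    have : 0 ≤ r ^ l := by positivity
    nlinarith

theorem mlg_small (hq : 2 ≤ q) : ∃ C : ℝ, ∀ θ : ℝ, 0 < θ → q * θ ^ 2 < 1 →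
    ∀ r, 0 < r → r ≤ 1 → ∀ i, |mlg θ (Mr q θ 0 r) i| ≤ C * r := by
  obtain ⟨μ, hμ0, hμ1, hμ⟩ := msg_bound 0 hq
  have hK : 0 ≤ (1 - μ ^ 2)⁻¹ := inv_nonneg.2 (by nlinarith)
  refine ⟨(1 - μ ^ 2)⁻¹, fun θ h0 h1 r hr0 hr i => ?_⟩
  have ht := Rec.theta_lt_one hq h1.le
  obtain ⟨τ, hτ⟩ := site_law 0
  have hπ := hτ r hr0.le hr
  obtain ⟨τ', hτ'⟩ := msg_site hq hπ
  have hsys := sys_Mr hq h0.le h1 0 hr0.le hr
  have hb := hμ θ h0.le h1 r hr0.le hr i
  have hlim := msg_lim hq h0.le h1 0 hr0.le hr i (μ := max μ τ') (hμ0.trans (le_max_left _ _))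
    (fun m => m ^ 2) ((continuous_clamp _).pow _) (by
      filter_upwards [hb] with ω hω using hω.trans (le_max_left _ _))
    (fun N => ⟨τ', le_max_right _ _, (hτ' θ h0.le h1.le N).1⟩)
  have h2 : ∫ ω, (msg θ (Mr q θ 0 r) i ω) ^ 2 ∂(labP (W q)) ≤ r := by
    refine le_of_tendsto hlim (Eventually.of_forall fun N => ?_)
    have := msg_second_le hq h0.le h1.le hπ N
    rw [site_second0 hr0.le hr] at this
    have h3 : (∫ m, m ^ 2 ∂(msgLaw q θ (siteL 0 r) N)) ^ 2 ≤ r ^ 2 := by nlinarith [sq_nonneg r]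
    exact le_of_sq_le_sq h3 hr0.le
  have hm := Rec.measurable_msg (θ := θ) hsys.meas i
  unfold mlg
  calc |∫ ω, Real.log (gg θ (msg θ (Mr q θ 0 r) i ω)) ∂(labP (W q))|
      ≤ ∫ ω, |Real.log (gg θ (msg θ (Mr q θ 0 r) i ω))| ∂(labP (W q)) := abs_integral_le_integral_abs
    _ ≤ ∫ ω, (1 - μ ^ 2)⁻¹ * (msg θ (Mr q θ 0 r) i ω) ^ 2 ∂(labP (W q)) := by
        refine integral_mono_of_nonneg (ae_of_all _ fun ω => abs_nonneg _) ?_ ?_
        · refine Integrable.of_bound (by fun_prop) ((1 - μ ^ 2)⁻¹ * 1) ?_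
          filter_upwards [hb] with ω hω
          rw [Real.norm_eq_abs, abs_mul, abs_of_nonneg hK]
          refine mul_le_mul_of_nonneg_left ?_ hK
          rw [abs_pow]
          exact pow_le_one₀ (abs_nonneg _) (hω.trans hμ1.le)
        · filter_upwards [hb] with ω hω
          exact abs_log_gg h0.le ht hμ1 hω
    _ = (1 - μ ^ 2)⁻¹ * ∫ ω, (msg θ (Mr q θ 0 r) i ω) ^ 2 ∂(labP (W q)) := integral_const_mul _ _
    _ ≤ (1 - μ ^ 2)⁻¹ * r := mul_le_mul_of_nonneg_left h2 hK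

theorem mlg_cauchy (hq : 2 ≤ q) (θs : ℕ → ℝ) (hmono : Monotone θs) (h0 : ∀ n, 0 < θs n)
    (h1 : ∀ n, q * (θs n) ^ 2 < 1) {r : ℝ} (hr0 : 0 ≤ r) (hr : r ≤ 1) (i : Fin (q + 1)) :
    CauchySeq fun n => mlg (θs n) (Mr q (θs n) 0 r) i := by
  obtain ⟨μ, hμ0, hμ1, hμ⟩ := msg_bound 0 hq
  obtain ⟨τ, hτ⟩ := site_law 0
  have hπ := hτ r hr0 hr
  obtain ⟨τ', hτ'⟩ := msg_site hq hπ
  have hτ'1 : τ' < 1 := (hτ' (θs 0) (h0 0).le (h1 0).le 0).1.lt
  have ht : ∀ n, θs n < 1 := fun n => Rec.theta_lt_one hq (h1 n).le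
  set ν := max μ τ' with hν
  have hν0 : 0 ≤ ν := hμ0.trans (le_max_left _ _)
  have hν1 : ν < 1 := max_lt hμ1 hτ'1
  have hsys : ∀ n, Sys q (θs n) (Mr q (θs n) 0 r) := fun n => sys_Mr hq (h0 n).le (h1 n) 0 hr0 hr
  have hb : ∀ n, ∀ᵐ ω ∂(labP (W q)), |msg (θs n) (Mr q (θs n) 0 r) i ω| ≤ ν := fun n => by
    filter_upwards [hμ (θs n) (h0 n).le (h1 n) r hr0 hr i] with ω hω using hω.trans (le_max_left _ _)
  -- the two monotone sequences
  have hlim : ∀ (n : ℕ) (κ : ℝ), 0 ≤ κ → κ ≤ 1 →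
      Tendsto (fun N => ∫ m, F1 (κ * m) ∂(msgLaw q (θs n) (siteL 0 r) N)) atTop
      (𝓝 (∫ ω, F1 (κ * msg (θs n) (Mr q (θs n) 0 r) i ω) ∂(labP (W q)))) := fun n κ hκ0 hκ1 =>
    msg_lim hq (h0 n).le (h1 n) 0 hr0 hr i hν0 (fun m => F1 (κ * m))
      (continuous_F1_clamp hν0 hν1 hκ0 hκ1) (hb n)
      (fun N => ⟨τ', le_max_right _ _, (hτ' (θs n) (h0 n).le (h1 n).le N).1⟩)
  have hint : ∀ (n : ℕ) (κ : ℝ), 0 ≤ κ → κ ≤ 1 →
      Integrable (fun ω => F1 (κ * msg (θs n) (Mr q (θs n) 0 r) i ω)) (labP (W q)) := by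
    intro n κ hκ0 hκ1
    have hm := Rec.measurable_msg (θ := θs n) (hsys n).meas i
    refine Integrable.of_bound ((measurable_F1.comp (hm.const_mul κ)).aestronglyMeasurable) (F1 ν) ?_
    filter_upwards [hb n] with ω hω
    have h2 := F1_scale (m := msg (θs n) (Mr q (θs n) 0 r) i ω) hκ0 hκ1
    rw [Real.norm_eq_abs, abs_of_nonneg (F1_nonneg (h2.trans (hω.trans hν1.le)))]
    refine F1_mono ?_ (by rwa [abs_of_nonneg hν0])
    rw [abs_of_nonneg hν0]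
    exact h2.trans hω
  have hle : ∀ (n : ℕ) (κ : ℝ), 0 ≤ κ → κ ≤ 1 →
      ∫ ω, F1 (κ * msg (θs n) (Mr q (θs n) 0 r) i ω) ∂(labP (W q)) ≤ F1 ν := by
    intro n κ hκ0 hκ1
    have h3 : ∫ ω, F1 (κ * msg (θs n) (Mr q (θs n) 0 r) i ω) ∂(labP (W q))
        ≤ ∫ ω, F1 ν ∂(labP (W q)) := by
      refine integral_mono_ae (hint n κ hκ0 hκ1) (integrable_const _) ?_
      filter_upwards [hb n] with ω hω
      have h2 := F1_scale (m := msg (θs n) (Mr q (θs n) 0 r) i ω) hκ0 hκ1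
      refine F1_mono ?_ (by rwa [abs_of_nonneg hν0])
      rw [abs_of_nonneg hν0]
      exact h2.trans hω
    simpa using h3
  have hconv : ∀ κ : ℝ, 0 ≤ κ → κ ≤ 1 → ConvexOn ℝ (Set.Ioo (-1) 1) fun m => F1 (κ * m) := by
    intro κ hκ0 hκ1
    refine ⟨convex_Ioo _ _, ?_⟩
    intro x hx y hy a b ha hb hab
    have hin : ∀ z : ℝ, z ∈ Set.Ioo (-1 : ℝ) 1 → κ * z ∈ Set.Ioo (-1 : ℝ) 1 := by
      intro z hz
      have h2 := (F1_scale (m := z) hκ0 hκ1).trans_lt (abs_lt.2 hz)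
      exact abs_lt.1 h2
    have := F1_convex.2 (hin x hx) (hin y hy) ha hb hab
    simp only [smul_eq_mul] at this ⊢
    have e : κ * (a * x + b * y) = a * (κ * x) + b * (κ * y) := by ring
    rw [e]
    exact this
  have hA : ∀ κ : ℝ, 0 ≤ κ → κ ≤ 1 → ∀ n n', n ≤ n' →
      ∫ ω, F1 (κ * msg (θs n) (Mr q (θs n) 0 r) i ω) ∂(labP (W q))
        ≤ ∫ ω, F1 (κ * msg (θs n') (Mr q (θs n') 0 r) i ω) ∂(labP (W q)) := by
    intro κ hκ0 hκ1 n n' hn
    refine le_of_tendsto_of_tendsto (hlim n κ hκ0 hκ1) (hlim n' κ hκ0 hκ1)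
      (Eventually.of_forall fun N => ?_)
    exact msg_mono hq (h0 n).le (hmono hn) (ht n') hπ (fun m => F1 (κ * m)) (hconv κ hκ0 hκ1)
      (fun x => by simp only [mul_neg, F1_neg]) (measurable_F1.comp (measurable_const_mul κ)) le_rfl
  have m1 : Monotone fun n => ∫ ω, F1 (1 * msg (θs n) (Mr q (θs n) 0 r) i ω) ∂(labP (W q)) :=
    fun n n' hn => hA 1 zero_le_one le_rfl n n' hn
  have m2 : Monotone fun n => ∫ ω, F1 (θs n * msg (θs n) (Mr q (θs n) 0 r) i ω) ∂(labP (W q)) := by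
    intro n n' hn
    refine le_trans ?_ (hA (θs n') (h0 n').le (ht n').le n n' hn)
    refine integral_mono_ae (hint n _ (h0 n).le (ht n).le) (hint n _ (h0 n').le (ht n').le) ?_
    filter_upwards [hb n] with ω hω
    refine F1_mono ?_ ((F1_scale (h0 n').le (ht n').le).trans_lt (hω.trans_lt hν1))
    rw [abs_mul, abs_mul, abs_of_nonneg (h0 n).le, abs_of_nonneg (h0 n').le]
    exact mul_le_mul_of_nonneg_right (hmono hn) (abs_nonneg _)
  have c1 := tendsto_atTop_ciSup m1 ⟨F1 ν, by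
    rintro _ ⟨n, rfl⟩; exact hle n 1 zero_le_one le_rfl⟩
  have c2 := tendsto_atTop_ciSup m2 ⟨F1 ν, by
    rintro _ ⟨n, rfl⟩; exact hle n _ (h0 n).le (ht n).le⟩
  have e : (fun n => mlg (θs n) (Mr q (θs n) 0 r) i)
      = fun n => (∫ ω, F1 (θs n * msg (θs n) (Mr q (θs n) 0 r) i ω) ∂(labP (W q)))
        - ∫ ω, F1 (1 * msg (θs n) (Mr q (θs n) 0 r) i ω) ∂(labP (W q)) := by
    funext n
    unfold mlg
    rw [← integral_sub (hint n _ (h0 n).le (ht n).le) (hint n 1 zero_le_one le_rfl)]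
    refine integral_congr_ae ?_
    filter_upwards [hb n] with ω hω
    rw [log_gg (h0 n).le (ht n) (hω.trans_lt hν1), one_mul]
  rw [e]
  exact (c2.sub c1).cauchySeq

end Crest.Agent.FreeIs
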