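import Crest.Agent.FreeIs.Defs

set_option autoImplicit false
set_option linter.unusedVariables false

namespace Crest.Agent.FreeIs
theorem cav_ein {θ m m' : ℝ} (h0 : 0 ≤ θ) (h1 : θ < 1) (hm : |m| ≤ 1) (hm' : |m'| ≤ 1) :
    cav θ (ein m' (θ * m)) (ein m (θ * m')) = m := by
  have hmm : |m * m'| ≤ 1 := by
    rw [abs_mul]; nlinarith [abs_nonneg m, abs_nonneg m']
  have hmm1 := abs_le.1 hmm
  have hD : 0 < 1 + θ * (m * m') := by nlinarith [hmm1.1, hmm1.2]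
  have hE : 0 ≤ 1 - θ * (m * m') := by nlinarith [hmm1.1, hmm1.2]
  have hθ : (1 - θ ^ 2) ≠ 0 := by nlinarith
  have e1 : ein m' (θ * m) = (m' + θ * m) / (1 + θ * (m * m')) := by
    unfold ein; congr 1; ring
  have e2 : ein m (θ * m') = (m + θ * m') / (1 + θ * (m * m')) := by
    unfold ein; congr 1; ring
  rw [e1, e2]
  unfold cav
  have hDn := hD.ne'
  generalize hDD : 1 + θ * (m * m') = D at *
  have e3 : ((m + θ * m') / D - θ * ((m' + θ * m) / D)) / (1 - θ ^ 2) = m / D := by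
    field_simp; ring
  have e4 : ((m' + θ * m) / D - θ * ((m + θ * m') / D)) / (1 - θ ^ 2) = m' / D := by
    field_simp; ring
  rw [e3, e4]
  have e5 : 1 - 4 * θ * (m / D) * (m' / D) = ((1 - θ * (m * m')) / D) ^ 2 := by
    field_simp
    rw [← hDD]
    ring
  rw [e5, Real.sqrt_sq (div_nonneg hE hD.le)]
  have e6 : 1 + (1 - θ * (m * m')) / D = 2 / D := by
    field_simp
    rw [← hDD]
    ring
  rw [e6]
  field_simp

theorem one_sub_pos {θ m : ℝ} (h0 : 0 ≤ θ) (h1 : θ < 1) (hm : |m| ≤ 1) :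
    0 < 1 - θ ^ 2 * m ^ 2 := by
  have h3 : m ^ 2 ≤ 1 := by rw [sq_le_one_iff_abs_le_one]; exact hm
  have h4 : θ ^ 2 < 1 := by nlinarith
  nlinarith [sq_nonneg θ, sq_nonneg m]

theorem continuous_cav (θ : ℝ) : Continuous fun p : ℝ × ℝ => cav θ p.1 p.2 := by
  unfold cav
  apply Continuous.div
  · fun_prop
  · fun_prop
  · intro p
    have := Real.sqrt_nonneg (1 - 4 * θ * ((p.2 - θ * p.1) / (1 - θ ^ 2)) *
      ((p.1 - θ * p.2) / (1 - θ ^ 2)))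
    positivity

theorem gg_nonneg {θ m : ℝ} (h0 : 0 ≤ θ) (h1 : θ < 1) (hm : |m| ≤ 1) : 0 ≤ gg θ m := by
  have h3 : m ^ 2 ≤ 1 := by rw [sq_le_one_iff_abs_le_one]; exact hm
  unfold gg
  exact div_nonneg (by linarith) (one_sub_pos h0 h1 hm).le

theorem gg_le {θ m : ℝ} (h0 : 0 ≤ θ) (h1 : θ < 1) (hm : |m| ≤ 1) :
    gg θ m ≤ 1 - (1 - θ ^ 2) * m ^ 2 := by
  have h3 := one_sub_pos h0 h1 hm
  have h4 : θ ^ 2 < 1 := by nlinarith
  unfold gg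
  rw [div_le_iff₀ h3]
  nlinarith [mul_nonneg (mul_nonneg (sub_nonneg.2 h4.le) (sq_nonneg θ)) (sq_nonneg (m ^ 2))]

theorem gg_lip {θ0 : ℝ} (h0 : 0 ≤ θ0) (h1 : θ0 < 1) : ∃ K : ℝ, 0 ≤ K ∧ ∀ θ θ' m n : ℝ,
    0 ≤ θ → θ ≤ θ0 → 0 ≤ θ' → θ' ≤ θ0 → |m| ≤ 1 → |n| ≤ 1 →
    |gg θ m - gg θ' n| ≤ K * ((|m| + |n|) * |m - n| + |θ - θ'|) := by
  have he : 0 < 1 - θ0 ^ 2 := by nlinarith
  refine ⟨2 / (1 - θ0 ^ 2) ^ 2, by positivity, ?_⟩
  intro θ θ' m n hθ hθ0 hθ' hθ0' hm hn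
  have hA := one_sub_pos hθ (hθ0.trans_lt h1) hm
  have hB := one_sub_pos hθ' (hθ0'.trans_lt h1) hn
  have hm2 : m ^ 2 ≤ 1 := by rw [sq_le_one_iff_abs_le_one]; exact hm
  have hn2 : n ^ 2 ≤ 1 := by rw [sq_le_one_iff_abs_le_one]; exact hn
  have hA' : 1 - θ0 ^ 2 ≤ 1 - θ ^ 2 * m ^ 2 := by
    have : θ ^ 2 ≤ θ0 ^ 2 := by nlinarith
    nlinarith [sq_nonneg m, sq_nonneg θ]
  have hB' : 1 - θ0 ^ 2 ≤ 1 - θ' ^ 2 * n ^ 2 := by
    have : θ' ^ 2 ≤ θ0 ^ 2 := by nlinarith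
    nlinarith [sq_nonneg n, sq_nonneg θ']
  have hnum : |(1 - m ^ 2) * (1 - θ' ^ 2 * n ^ 2) - (1 - θ ^ 2 * m ^ 2) * (1 - n ^ 2)|
      ≤ 2 * ((|m| + |n|) * |m - n| + |θ - θ'|) := by
    have e : (1 - m ^ 2) * (1 - θ' ^ 2 * n ^ 2) - (1 - θ ^ 2 * m ^ 2) * (1 - n ^ 2)
        = (1 - θ ^ 2) * ((n + m) * (n - m)) + (θ + θ') * (θ - θ') * (n ^ 2 * (1 - m ^ 2)) := by
      ring
    rw [e]
    refine (abs_add_le _ _).trans ?_
    have t1 : |(1 - θ ^ 2) * ((n + m) * (n - m))| ≤ (|m| + |n|) * |m - n| := by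
      rw [abs_mul, abs_mul, abs_sub_comm n m]
      have a1 : |1 - θ ^ 2| ≤ 1 := by rw [abs_le]; constructor <;> nlinarith
      have a2 : |n + m| ≤ |m| + |n| := by rw [add_comm]; exact abs_add_le _ _
      have a3 : |n + m| * |m - n| ≤ (|m| + |n|) * |m - n| :=
        mul_le_mul_of_nonneg_right a2 (abs_nonneg _)
      have a4 : 0 ≤ |n + m| * |m - n| := by positivity
      nlinarith [abs_nonneg (1 - θ ^ 2)]
    have t2 : |(θ + θ') * (θ - θ') * (n ^ 2 * (1 - m ^ 2))| ≤ 2 * |θ - θ'| := by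
      rw [abs_mul, abs_mul]
      have a1 : |θ + θ'| ≤ 2 := by rw [abs_le]; constructor <;> linarith
      have a2 : |n ^ 2 * (1 - m ^ 2)| ≤ 1 := by
        rw [abs_le]; constructor <;> nlinarith [sq_nonneg n, sq_nonneg m]
      have a3 : |θ + θ'| * |θ - θ'| ≤ 2 * |θ - θ'| :=
        mul_le_mul_of_nonneg_right a1 (abs_nonneg _)
      have a4 : 0 ≤ |θ + θ'| * |θ - θ'| := by positivity
      nlinarith [abs_nonneg (n ^ 2 * (1 - m ^ 2))]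
    have : 0 ≤ (|m| + |n|) * |m - n| := by positivity
    linarith
  unfold gg
  rw [div_sub_div _ _ hA.ne' hB.ne', abs_div, abs_of_pos (mul_pos hA hB),
    div_le_iff₀ (mul_pos hA hB)]
  have hS : 0 ≤ (|m| + |n|) * |m - n| + |θ - θ'| := by positivity
  have hAB : (1 - θ0 ^ 2) ^ 2 ≤ (1 - θ ^ 2 * m ^ 2) * (1 - θ' ^ 2 * n ^ 2) := by
    rw [sq]; exact mul_le_mul hA' hB' he.le hA.le
  have h5 : 2 / (1 - θ0 ^ 2) ^ 2 * ((|m| + |n|) * |m - n| + |θ - θ'|) *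
      ((1 - θ ^ 2 * m ^ 2) * (1 - θ' ^ 2 * n ^ 2))
      ≥ 2 / (1 - θ0 ^ 2) ^ 2 * ((|m| + |n|) * |m - n| + |θ - θ'|) * (1 - θ0 ^ 2) ^ 2 :=
    mul_le_mul_of_nonneg_left hAB (by positivity)
  have h6 : 2 / (1 - θ0 ^ 2) ^ 2 * ((|m| + |n|) * |m - n| + |θ - θ'|) * (1 - θ0 ^ 2) ^ 2
      = 2 * ((|m| + |n|) * |m - n| + |θ - θ'|) := by
    field_simp
  linarith

theorem log_lip {x y c : ℝ} (hc : 0 < c) (hx : c ≤ x) (hy : c ≤ y) :
    |Real.log x - Real.log y| ≤ |x - y| / c := by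
  have hx0 : 0 < x := hc.trans_le hx
  have hy0 : 0 < y := hc.trans_le hy
  have key : ∀ a b : ℝ, c ≤ a → c ≤ b → Real.log a - Real.log b ≤ |a - b| / c := by
    intro a b ha hb
    have ha0 : 0 < a := hc.trans_le ha
    have hb0 : 0 < b := hc.trans_le hb
    rw [← Real.log_div ha0.ne' hb0.ne']
    have h2 := Real.log_le_sub_one_of_pos (div_pos ha0 hb0)
    have h3 : a / b - 1 = (a - b) / b := by field_simp
    rw [h3] at h2
    refine h2.trans ?_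
    rw [div_le_div_iff₀ hb0 hc]
    have := le_abs_self (a - b)
    nlinarith [abs_nonneg (a - b)]
  rw [abs_le]
  constructor
  · have := key y x hy hx
    rw [abs_sub_comm] at this
    linarith
  · exact key x y hx hy

theorem log_gg_lip {θ0 μ : ℝ} (h0 : 0 ≤ θ0) (h1 : θ0 < 1) (hμ : 0 ≤ μ) (hμ1 : μ < 1) :
    ∃ K : ℝ, 0 ≤ K ∧ ∀ θ θ' m n : ℝ,
    0 ≤ θ → θ ≤ θ0 → 0 ≤ θ' → θ' ≤ θ0 → |m| ≤ μ → |n| ≤ μ →
    |Real.log (gg θ m) - Real.log (gg θ' n)| ≤ K * ((|m| + |n|) * |m - n| + |θ - θ'|) := by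
  obtain ⟨K, hK, hlip⟩ := gg_lip h0 h1
  have hμ2 : 0 < 1 - μ ^ 2 := by nlinarith
  refine ⟨K / (1 - μ ^ 2), by positivity, ?_⟩
  intro θ θ' m n hθ hθ0 hθ' hθ0' hm hn
  have low : ∀ θ m : ℝ, 0 ≤ θ → θ ≤ θ0 → |m| ≤ μ → 1 - μ ^ 2 ≤ gg θ m := by
    intro θ m hθ hθ0 hm
    have h3 := one_sub_pos hθ (hθ0.trans_lt h1) (hm.trans hμ1.le)
    unfold gg
    rw [le_div_iff₀ h3]
    have h4 : m ^ 2 ≤ μ ^ 2 := by
      rw [← sq_abs m]; exact pow_le_pow_left₀ (abs_nonneg m) hm 2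
    nlinarith [sq_nonneg θ, sq_nonneg m, mul_nonneg (sq_nonneg θ) (sq_nonneg m)]
  refine (log_lip hμ2 (low θ m hθ hθ0 hm) (low θ' n hθ' hθ0' hn)).trans ?_
  rw [div_mul_eq_mul_div]
  exact div_le_div_of_nonneg_right (hlip θ θ' m n hθ hθ0 hθ' hθ0' (hm.trans hμ1.le)
    (hn.trans hμ1.le)) hμ2.le

theorem ein_abs_le_one {θ m m' : ℝ} (h0 : 0 ≤ θ) (h1 : θ < 1) (hm : |m| ≤ 1) (hm' : |m'| ≤ 1) :
    |ein m' (θ * m)| ≤ 1 := by
  have hmm : |m' * m| ≤ 1 := by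
    rw [abs_mul]; nlinarith [abs_nonneg m, abs_nonneg m']
  have hmm1 := abs_le.1 hmm
  have hD : 0 < 1 + m' * (θ * m) := by nlinarith [hmm1.1, hmm1.2]
  unfold ein
  have a1 := abs_le.1 hm
  have a2 := abs_le.1 hm'
  have b1 : -1 ≤ θ * m := by nlinarith
  have b2 : θ * m ≤ 1 := by nlinarith
  rw [abs_div, abs_of_pos hD, div_le_one hD, abs_le]
  constructor <;> nlinarith

theorem abs_mul_le' {x y a b : ℝ} (hx : |x| ≤ a) (hy : |y| ≤ b) : |x * y| ≤ a * b := by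
  rw [abs_mul]; exact mul_le_mul hx hy (abs_nonneg _) ((abs_nonneg _).trans hx)

theorem cav_data {θ0 θ m m' : ℝ} (h0 : 0 ≤ θ0) (h1 : θ0 < 1) (hθ : 0 ≤ θ) (hθ0 : θ ≤ θ0)
    (hm : |m| ≤ 1) (hm' : |m'| ≤ 1) :
      ∃ D A B s : ℝ, 0 < D ∧ D ≤ 2 ∧ |A| ≤ 1 / (1 - θ0) ∧ |B| ≤ 1 / (1 - θ0) ∧
        m = A * D ∧ m' = B * D ∧
        A * (1 - θ ^ 2) = ein m (θ * m') - θ * ein m' (θ * m) ∧
        B * (1 - θ ^ 2) = ein m' (θ * m) - θ * ein m (θ * m') ∧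
        (1 - θ0) / 2 ≤ s ∧ s ^ 2 = 1 - 4 * (θ * (A * B)) ∧ D * (1 + s) = 2 := by
  have hR0 : 0 < 1 - θ0 := by linarith
  have hmm : |m * m'| ≤ 1 := by
    have := abs_mul_le' hm hm'; linarith
  have hmm1 := abs_le.1 hmm
  have hD : 1 - θ0 ≤ 1 + θ * (m * m') := by nlinarith [hmm1.1, hmm1.2]
  have hD2 : 1 + θ * (m * m') ≤ 2 := by nlinarith [hmm1.1, hmm1.2]
  have hE : 1 - θ0 ≤ 1 - θ * (m * m') := by nlinarith [hmm1.1, hmm1.2]
  have hDp : 0 < 1 + θ * (m * m') := hR0.trans_le hD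
  have e1 : 1 + m * (θ * m') = 1 + θ * (m * m') := by ring
  have e2 : 1 + m' * (θ * m) = 1 + θ * (m * m') := by ring
  unfold ein
  rw [e1, e2]
  obtain ⟨D, hDD⟩ : ∃ D, D = 1 + θ * (m * m') := ⟨_, rfl⟩
  rw [← hDD] at hD hD2 hDp ⊢
  refine ⟨D, m / D, m' / D, (1 - θ * (m * m')) / D, hDp, hD2, ?_, ?_, ?_, ?_, ?_, ?_, ?_, ?_, ?_⟩
  · rw [abs_div, abs_of_pos hDp]
    exact div_le_div₀ (by norm_num) hm hR0 hD
  · rw [abs_div, abs_of_pos hDp]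
    exact div_le_div₀ (by norm_num) hm' hR0 hD
  · field_simp
  · field_simp
  · field_simp; ring
  · field_simp; ring
  · exact div_le_div₀ (by linarith) hE hDp hD2
  · field_simp; rw [hDD]; ring
  · field_simp; rw [hDD]; ring

theorem cav_lipA {θ0 θ θ' A A' r r' p p' R S : ℝ} (h0 : 0 ≤ θ0) (h1 : θ0 < 1) (hθ : 0 ≤ θ)
    (hθ0 : θ ≤ θ0) (hθ' : 0 ≤ θ') (hθ0' : θ' ≤ θ0) (hR : 0 ≤ R)
    (hA' : |A'| ≤ R) (hp' : |p'| ≤ 1) (h1A : A * (1 - θ ^ 2) = r - θ * p)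
    (h2A : A' * (1 - θ' ^ 2) = r' - θ' * p') (hSS : |p - p'| + |r - r'| + |θ - θ'| ≤ S) :
    |A - A'| ≤ (1 + 2 * R) / (1 - θ0 ^ 2) * S := by
  have he : 0 < 1 - θ0 ^ 2 := by nlinarith
  have hθ2 : 1 - θ0 ^ 2 ≤ 1 - θ ^ 2 := by nlinarith
  have e : (A - A') * (1 - θ ^ 2) = (r - r') - θ * (p - p') - (θ - θ') * p'
      + A' * (θ + θ') * (θ - θ') := by
    linear_combination h1A - h2A
  have h3 : |A - A'| * (1 - θ0 ^ 2) ≤ |(A - A') * (1 - θ ^ 2)| := by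
    rw [abs_mul, abs_of_pos (he.trans_le hθ2)]
    exact mul_le_mul_of_nonneg_left hθ2 (abs_nonneg _)
  have t5 : 0 ≤ |p - p'| := abs_nonneg _
  have t6 : 0 ≤ |r - r'| := abs_nonneg _
  have t7 : 0 ≤ |θ - θ'| := abs_nonneg _
  have t1 : |θ * (p - p')| ≤ 1 * |p - p'| :=
    abs_mul_le' (by rw [abs_of_nonneg hθ]; linarith) le_rfl
  have t2 : |(θ - θ') * p'| ≤ |θ - θ'| * 1 := abs_mul_le' le_rfl hp'
  have t3 : |A' * (θ + θ') * (θ - θ')| ≤ R * 2 * |θ - θ'| := by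
    have : |θ + θ'| ≤ 2 := by rw [abs_le]; constructor <;> linarith
    exact abs_mul_le' (abs_mul_le' hA' this) le_rfl
  have t4 : |(r - r') - θ * (p - p') - (θ - θ') * p' + A' * (θ + θ') * (θ - θ')|
      ≤ |r - r'| + |θ * (p - p')| + |(θ - θ') * p'| + |A' * (θ + θ') * (θ - θ')| := by
    refine (abs_add_le _ _).trans ?_
    have := abs_sub (r - r' - θ * (p - p')) ((θ - θ') * p')
    have := abs_sub (r - r') (θ * (p - p'))
    linarith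
  have t8 : R * 2 * |θ - θ'| ≤ R * 2 * S :=
    mul_le_mul_of_nonneg_left (by linarith) (by positivity)
  rw [div_mul_eq_mul_div, le_div_iff₀ he]
  rw [e] at h3
  have t9 : (1 + 2 * R) * S = S + R * 2 * S := by ring
  rw [t9]
  linarith

theorem cav_lip {θ0 : ℝ} (h0 : 0 ≤ θ0) (h1 : θ0 < 1) : ∃ K : ℝ, 0 ≤ K ∧ ∀ θ θ' m m' n n' : ℝ,
    0 ≤ θ → θ ≤ θ0 → 0 ≤ θ' → θ' ≤ θ0 → |m| ≤ 1 → |m'| ≤ 1 → |n| ≤ 1 → |n'| ≤ 1 →
    |m - n| ≤ K * (|ein m' (θ * m) - ein n' (θ' * n)| + |ein m (θ * m') - ein n (θ' * n')|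
      + |θ - θ'|) := by
  have he : 0 < 1 - θ0 ^ 2 := by nlinarith
  have hR0 : 0 < 1 - θ0 := by linarith
  obtain ⟨R, hR⟩ : ∃ R : ℝ, R = 1 / (1 - θ0) := ⟨_, rfl⟩
  have hRp : 0 < R := by rw [hR]; positivity
  obtain ⟨K1, hK1⟩ : ∃ K1 : ℝ, K1 = (1 + 2 * R) / (1 - θ0 ^ 2) := ⟨_, rfl⟩
  have hK1p : 0 < K1 := by rw [hK1]; positivity
  obtain ⟨K2, hK2⟩ : ∃ K2 : ℝ, K2 = R ^ 2 + 2 * (R * K1) := ⟨_, rfl⟩
  have hK2p : 0 < K2 := by rw [hK2]; positivity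
  refine ⟨2 * K1 + 8 * R ^ 2 * K2, by positivity, ?_⟩
  intro θ θ' m m' n n' hθ hθ0 hθ' hθ0' hm hm' hn hn'
  obtain ⟨D, A, B, s, hD, hD2, hA, hB, hmA, hmB, eA, eB, hs, hs2, hDs⟩ :=
    cav_data h0 h1 hθ hθ0 hm hm'
  obtain ⟨D', A', B', s', hD', hD2', hA', hB', hnA, hnB, eA', eB', hs', hs2', hDs'⟩ :=
    cav_data h0 h1 hθ' hθ0' hn hn'
  rw [← hR] at hA hB hA' hB'
  have hp := ein_abs_le_one hθ' (hθ0'.trans_lt h1) hn hn'
  have hq := ein_abs_le_one hθ' (hθ0'.trans_lt h1) hn' hn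
  obtain ⟨S, hS⟩ : ∃ S : ℝ, S = |ein m' (θ * m) - ein n' (θ' * n)|
      + |ein m (θ * m') - ein n (θ' * n')| + |θ - θ'| := ⟨_, rfl⟩
  rw [← hS]
  have hS0 : 0 ≤ S := by rw [hS]; positivity
  have s2 : |θ - θ'| ≤ S := by
    rw [hS]; linarith [abs_nonneg (ein m' (θ * m) - ein n' (θ' * n)),
      abs_nonneg (ein m (θ * m') - ein n (θ' * n'))]
  have lA : |A - A'| ≤ K1 * S := by
    rw [hK1]
    exact cav_lipA h0 h1 hθ hθ0 hθ' hθ0' hRp.le hA' hp eA eA' (by rw [hS])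
  have lB : |B - B'| ≤ K1 * S := by
    rw [hK1]
    exact cav_lipA h0 h1 hθ hθ0 hθ' hθ0' hRp.le hB' hq eB eB' (by rw [hS]; linarith)
  have hθ1 : |θ'| ≤ 1 := by rw [abs_of_nonneg hθ']; linarith
  have la : |θ * (A * B) - θ' * (A' * B')| ≤ K2 * S := by
    have e : θ * (A * B) - θ' * (A' * B') = (θ - θ') * (A * B) + θ' * ((A - A') * B)
        + θ' * (A' * (B - B')) := by ring
    rw [e]
    have t1 : |(θ - θ') * (A * B)| ≤ S * (R * R) := abs_mul_le' s2 (abs_mul_le' hA hB)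
    have t2 : |θ' * ((A - A') * B)| ≤ 1 * (K1 * S * R) := abs_mul_le' hθ1 (abs_mul_le' lA hB)
    have t3 : |θ' * (A' * (B - B'))| ≤ 1 * (R * (K1 * S)) := abs_mul_le' hθ1 (abs_mul_le' hA' lB)
    refine (abs_add_le _ _).trans ?_
    have := abs_add_le ((θ - θ') * (A * B)) (θ' * ((A - A') * B))
    have e2 : K2 * S = S * (R * R) + 1 * (K1 * S * R) + 1 * (R * (K1 * S)) := by rw [hK2]; ring
    rw [e2]
    linarith
  have ls : |s - s'| * (1 - θ0) ≤ 4 * (K2 * S) := by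
    have e : (s - s') * (s + s') = -4 * (θ * (A * B) - θ' * (A' * B')) := by
      linear_combination hs2 - hs2'
    have h5 : |s - s'| * (s + s') = 4 * |θ * (A * B) - θ' * (A' * B')| := by
      have h6 : 0 ≤ s + s' := by linarith
      rw [← abs_of_nonneg h6, ← abs_mul, e, abs_mul]
      norm_num
    have h7 : |s - s'| * (1 - θ0) ≤ |s - s'| * (s + s') :=
      mul_le_mul_of_nonneg_left (by linarith) (abs_nonneg _)
    linarith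
  have lD : |D - D'| ≤ 8 * R * (K2 * S) := by
    have e : (D - D') * ((1 + s) * (1 + s')) = 2 * (s' - s) := by
      linear_combination (1 + s') * hDs - (1 + s) * hDs'
    have hs0 : 0 ≤ s := by linarith
    have hs0' : 0 ≤ s' := by linarith
    have h5 : |D - D'| * 1 ≤ |(D - D') * ((1 + s) * (1 + s'))| := by
      rw [abs_mul]
      apply mul_le_mul_of_nonneg_left _ (abs_nonneg _)
      rw [abs_of_nonneg (by positivity)]
      have : 0 ≤ s * s' := mul_nonneg hs0 hs0'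
      linarith
    rw [e, abs_mul, abs_sub_comm s' s] at h5
    have h6 : |s - s'| ≤ 4 * R * (K2 * S) := by
      rw [hR]
      have : 4 * (1 / (1 - θ0)) * (K2 * S) = (4 * (K2 * S)) / (1 - θ0) := by ring
      rw [this, le_div_iff₀ hR0]
      exact ls
    have h7 : |(2:ℝ)| = 2 := by norm_num
    rw [h7] at h5
    linarith
  have e : m - n = (A - A') * D + A' * (D - D') := by rw [hmA, hnA]; ring
  rw [e]
  refine (abs_add_le _ _).trans ?_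
  have h8 : |(A - A') * D| ≤ K1 * S * 2 := abs_mul_le' lA (by rw [abs_of_pos hD]; exact hD2)
  have h9 : |A' * (D - D')| ≤ R * (8 * R * (K2 * S)) := abs_mul_le' hA' lD
  have e3 : (2 * K1 + 8 * R ^ 2 * K2) * S = K1 * S * 2 + R * (8 * R * (K2 * S)) := by ring
  rw [e3]
  linarith

end Crest.Agent.FreeIs
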