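import Crest.Agent.FreeIs.Rec
import Crest.Agent.FreeIs.Real

/-!
M8, part A: path products, reversal along a path, good configurations.
-/

set_option autoImplicit false
set_option linter.unusedVariables false

open MeasureTheory Filter Topology

namespace Crest.Agent.FreeIs.Coh

open Crest.Agent.FreeIs Crest.Agent.FreeIs.Rec

variable {q : ℕ}

/-- good configuration: the edge relations hold at the root -/
def Good (θ : ℝ) (M : Lab (W q) → ℝ) (ω : Lab (W q)) : Prop :=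
  ∀ i, ∃ m m' : ℝ, |m| ≤ 1 ∧ |m'| ≤ 1 ∧ M ω = ein m' (θ * m) ∧ M (sh i ω) = ein m (θ * m')

/-- the edge relations hold everywhere -/
def GoodAll (θ : ℝ) (M : Lab (W q) → ℝ) (ω : Lab (W q)) : Prop := ∀ l, Good θ M (shl l ω)

theorem goodAll_ae {θ : ℝ} {M : Lab (W q) → ℝ} (h : Sys q θ M) :
    ∀ᵐ ω ∂(labP (W q)), GoodAll θ M ω := ae_shl (ae_all_iff.2 h.edge)

theorem GoodAll.shift {θ : ℝ} {M : Lab (W q) → ℝ} {ω : Lab (W q)} (h : GoodAll θ M ω)
    (i : Fin (q + 1)) : GoodAll θ M (sh i ω) := fun l => h (i :: l)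

theorem GoodAll.shiftl {θ : ℝ} {M : Lab (W q) → ℝ} {ω : Lab (W q)} (h : GoodAll θ M ω)
    (l : List (Fin (q + 1))) : GoodAll θ M (shl l ω) := fun l' => by
  rw [← shl_append]; exact h _

theorem GoodAll.good {θ : ℝ} {M : Lab (W q) → ℝ} {ω : Lab (W q)} (h : GoodAll θ M ω) :
    Good θ M ω := h []

theorem msg_spec {θ : ℝ} (h0 : 0 ≤ θ) (h1 : θ < 1) {M : Lab (W q) → ℝ} {ω : Lab (W q)}
    (h : Good θ M ω) (i : Fin (q + 1)) :
    |msg θ M i ω| ≤ 1 ∧ |msg θ M i (sh i ω)| ≤ 1 ∧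
      M ω = ein (msg θ M i (sh i ω)) (θ * msg θ M i ω) ∧
      M (sh i ω) = ein (msg θ M i ω) (θ * msg θ M i (sh i ω)) := by
  obtain ⟨m, m', hm, hm', e1, e2⟩ := h i
  have a1 : msg θ M i ω = m := by
    unfold msg
    rw [e1, e2]
    exact cav_ein h0 h1 hm hm'
  have a2 : msg θ M i (sh i ω) = m' := by
    unfold msg
    rw [sh_sh, e1, e2]
    exact cav_ein h0 h1 hm' hm
  rw [a1, a2]
  exact ⟨hm, hm', e1, e2⟩

theorem one_sub_ein_sq {x y : ℝ} (h : 1 + x * y ≠ 0) :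
    1 - ein x y ^ 2 = (1 - x ^ 2) * (1 - y ^ 2) / (1 + x * y) ^ 2 := by
  unfold ein
  field_simp
  ring

/-- the edge identity -/
theorem edge_id {θ : ℝ} (h0 : 0 ≤ θ) (h1 : θ < 1) {M : Lab (W q) → ℝ} {ω : Lab (W q)}
    (h : Good θ M ω) (i : Fin (q + 1)) :
    (1 - M ω ^ 2) * gg θ (msg θ M i ω) = (1 - M (sh i ω) ^ 2) * gg θ (msg θ M i (sh i ω)) := by
  obtain ⟨hm, hm', e1, e2⟩ := msg_spec h0 h1 h i
  rw [e1, e2]
  set m := msg θ M i ω
  set m' := msg θ M i (sh i ω)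
  have b : |θ * m * m'| < 1 := by
    rw [abs_mul, abs_mul, abs_of_nonneg h0]
    have : |m| * |m'| ≤ 1 := mul_le_one₀ hm (abs_nonneg _) hm'
    calc θ * |m| * |m'| = θ * (|m| * |m'|) := by ring
      _ ≤ θ * 1 := mul_le_mul_of_nonneg_left this h0
      _ < 1 := by linarith
  have b1 := (abs_lt.mp b).1
  have n1 : 1 + m' * (θ * m) ≠ 0 := by nlinarith
  have n2 : 1 + m * (θ * m') ≠ 0 := by nlinarith
  have sm : m ^ 2 ≤ 1 := by rw [← sq_abs]; exact pow_le_one₀ (abs_nonneg _) hm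
  have sm' : m' ^ 2 ≤ 1 := by rw [← sq_abs]; exact pow_le_one₀ (abs_nonneg _) hm'
  have st : θ ^ 2 < 1 := by nlinarith
  have n3 : 1 - θ ^ 2 * m ^ 2 ≠ 0 := by nlinarith [sq_nonneg m, sq_nonneg θ]
  have n4 : 1 - θ ^ 2 * m' ^ 2 ≠ 0 := by nlinarith [sq_nonneg m', sq_nonneg θ]
  rw [one_sub_ein_sq n1, one_sub_ein_sq n2]
  unfold gg
  have e : 1 + m * (θ * m') = 1 + m' * (θ * m) := by ring
  have k1 : (1 - m' ^ 2) * (1 - (θ * m) ^ 2) / (1 + m' * (θ * m)) ^ 2 *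
      ((1 - m ^ 2) / (1 - θ ^ 2 * m ^ 2)) = (1 - m' ^ 2) * (1 - m ^ 2) / (1 + m' * (θ * m)) ^ 2 := by
    rw [mul_pow]; field_simp
  have k2 : (1 - m ^ 2) * (1 - (θ * m') ^ 2) / (1 + m' * (θ * m)) ^ 2 *
      ((1 - m' ^ 2) / (1 - θ ^ 2 * m' ^ 2)) = (1 - m' ^ 2) * (1 - m ^ 2) / (1 + m' * (θ * m)) ^ 2 := by
    rw [mul_pow]; field_simp
  rw [e, k1, k2]

/-- product of `a` along a path from the root -/
noncomputable def Pr (a : Fin (q + 1) → Lab (W q) → ℝ) : List (Fin (q + 1)) → Lab (W q) → ℝ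
  | [] => fun _ => 1
  | i :: l => fun ω => a i ω * Pr a l (sh i ω)

@[simp] theorem Pr_nil (a : Fin (q + 1) → Lab (W q) → ℝ) (ω : Lab (W q)) : Pr a [] ω = 1 := rfl
@[simp] theorem Pr_cons (a : Fin (q + 1) → Lab (W q) → ℝ) (i : Fin (q + 1))
    (l : List (Fin (q + 1))) (ω : Lab (W q)) : Pr a (i :: l) ω = a i ω * Pr a l (sh i ω) := rfl

theorem Pr_append (a : Fin (q + 1) → Lab (W q) → ℝ) (l l' : List (Fin (q + 1)))
    (ω : Lab (W q)) : Pr a (l ++ l') ω = Pr a l ω * Pr a l' (shl l ω) := by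
  induction l generalizing ω with
  | nil => simp
  | cons i l ih => simp [ih, mul_assoc]

theorem regr_eq (hq : 0 < q) (θ : ℝ) (M : Lab (W q) → ℝ) (l : List (Fin (q + 1)))
    (ω : Lab (W q)) : regr θ M l ω = ((√(q : ℝ))⁻¹) ^ l.length * Pr (aa θ M) l ω := by
  have hs : √(q : ℝ) ≠ 0 := by
    rw [Real.sqrt_ne_zero']; exact_mod_cast hq
  induction l generalizing ω with
  | nil => simp [regr]
  | cons i l ih =>
    have h1 : (√(q : ℝ))⁻¹ * √(q : ℝ) = 1 := inv_mul_cancel₀ hs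
    simp only [regr, Pr_cons, List.length_cons, ih, aa, pow_succ]
    linear_combination (-(θ * gg θ (msg θ M i ω) * (√(q : ℝ))⁻¹ ^ l.length *
      Pr (aa θ M) l (sh i ω))) * h1

theorem Asum_eq (a : Fin (q + 1) → Lab (W q) → ℝ) (n : ℕ) (i : Fin (q + 1)) (ω : Lab (W q)) :
    Asum a n i ω = ((q : ℝ)⁻¹) ^ n * ws i n (fun l => Pr a l (sh i ω)) := by
  induction n generalizing i ω with
  | zero => simp [Asum, ws]
  | succ n ih =>
    simp only [Asum, Bop, ws, Pr_cons]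
    rw [pow_succ, mul_assoc, Finset.mul_sum, Finset.mul_sum, Finset.mul_sum]
    refine Finset.sum_congr rfl fun k _ => ?_
    rw [ih, ws_mul]
    ring

/-- sum over a level of the path product -/
theorem wsum_Pr (hq : 0 < q) (a : Fin (q + 1) → Lab (W q) → ℝ) (n : ℕ) (ω : Lab (W q)) :
    wsum q (n + 1) (fun l => Pr a l ω) = (q : ℝ) ^ n * ∑ i, a i ω * Asum a n i ω := by
  have hq' : (q : ℝ) ≠ 0 := by exact_mod_cast hq.ne'
  simp only [wsum, Pr_cons]
  rw [Finset.mul_sum]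
  refine Finset.sum_congr rfl fun i _ => ?_
  have h1 : (q : ℝ) ^ n * ((q : ℝ)⁻¹) ^ n = 1 := by
    rw [← mul_pow, mul_inv_cancel₀ hq', one_pow]
  rw [ws_mul, Asum_eq]
  linear_combination (-(a i ω * ws i n (fun l => Pr a l (sh i ω)))) * h1

/-- reversal of a path -/
theorem Pr_rev {θ : ℝ} (h0 : 0 ≤ θ) (h1 : θ < 1) {M : Lab (W q) → ℝ}
    (l : List (Fin (q + 1))) {ω : Lab (W q)} (h : GoodAll θ M ω) :
    (1 - M ω ^ 2) * Pr (aa θ M) l ω
      = (1 - M (shl l ω) ^ 2) * Pr (aa θ M) l.reverse (shl l ω) := by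
  induction l generalizing ω with
  | nil => simp
  | cons i l ih =>
    have e := edge_id h0 h1 h.good i
    have e2 := ih (h.shift i)
    rw [List.reverse_cons, Pr_append, shl_cons, shl_reverse, ← mul_assoc, ← e2]
    simp only [Pr_cons, Pr_nil, mul_one, aa]
    linear_combination (√(q : ℝ) * θ * Pr (aa θ M) l (sh i ω)) * e

section bounds

variable {θ : ℝ} {M : Lab (W q) → ℝ} {ω : Lab (W q)}

theorem th_lt (hq : 2 ≤ q) (h0 : 0 ≤ θ) (h1 : q * θ ^ 2 < 1) : θ < 3 / 4 := by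
  have : (2 : ℝ) ≤ q := by exact_mod_cast hq
  nlinarith [sq_nonneg θ]

theorem sq_th (hq : 2 ≤ q) (h1 : q * θ ^ 2 < 1) : θ ^ 2 ≤ 1 / 2 := by
  have : (2 : ℝ) ≤ q := by exact_mod_cast hq
  nlinarith [sq_nonneg θ]

theorem sqrt_th (h0 : 0 ≤ θ) (h1 : q * θ ^ 2 < 1) : √(q : ℝ) * θ ≤ 1 := by
  have h : (√(q : ℝ) * θ) ^ 2 ≤ 1 := by
    rw [mul_pow, Real.sq_sqrt (Nat.cast_nonneg q)]; exact h1.le
  nlinarith [mul_nonneg (Real.sqrt_nonneg (q : ℝ)) h0]

theorem aa_bounds (hq : 2 ≤ q) (h0 : 0 ≤ θ) (h1 : q * θ ^ 2 < 1) (h : Good θ M ω)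
    (i : Fin (q + 1)) : 0 ≤ aa θ M i ω ∧ aa θ M i ω ≤ 1 - (msg θ M i ω) ^ 2 / 2 := by
  have ht1 : θ < 1 := by linarith [th_lt hq h0 h1]
  obtain ⟨hm, -, -, -⟩ := msg_spec h0 ht1 h i
  have g0 := gg_nonneg h0 ht1 hm
  have g1 := gg_le h0 ht1 hm
  have s1 := sqrt_th h0 h1
  have s0 : 0 ≤ √(q : ℝ) * θ := mul_nonneg (Real.sqrt_nonneg _) h0
  have s2 := sq_th hq h1
  unfold aa
  constructor
  · positivity
  · have : √(q : ℝ) * θ * gg θ (msg θ M i ω) ≤ gg θ (msg θ M i ω) := by nlinarith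
    nlinarith [sq_nonneg (msg θ M i ω)]

theorem aa_nonneg' (hq : 2 ≤ q) (h0 : 0 ≤ θ) (h1 : q * θ ^ 2 < 1) (h : Good θ M ω)
    (i : Fin (q + 1)) : 0 ≤ aa θ M i ω := (aa_bounds hq h0 h1 h i).1

theorem aa_le_one (hq : 2 ≤ q) (h0 : 0 ≤ θ) (h1 : q * θ ^ 2 < 1) (h : Good θ M ω)
    (i : Fin (q + 1)) : aa θ M i ω ≤ 1 := by
  have := (aa_bounds hq h0 h1 h i).2
  nlinarith [sq_nonneg (msg θ M i ω)]

theorem Pr_bounds (hq : 2 ≤ q) (h0 : 0 ≤ θ) (h1 : q * θ ^ 2 < 1) (l : List (Fin (q + 1)))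
    (h : GoodAll θ M ω) : 0 ≤ Pr (aa θ M) l ω ∧ Pr (aa θ M) l ω ≤ 1 := by
  induction l generalizing ω with
  | nil => simp
  | cons i l ih =>
    obtain ⟨i1, i2⟩ := ih (h.shift i)
    have a1 := aa_nonneg' hq h0 h1 h.good i
    have a2 := aa_le_one hq h0 h1 h.good i
    rw [Pr_cons]
    exact ⟨mul_nonneg a1 i1, mul_le_one₀ a2 i1 i2⟩

theorem Asum_bounds (hq : 2 ≤ q) (h0 : 0 ≤ θ) (h1 : q * θ ^ 2 < 1) (n : ℕ) (i : Fin (q + 1))
    (h : GoodAll θ M ω) : 0 ≤ Asum (aa θ M) n i ω ∧ Asum (aa θ M) n i ω ≤ 1 := by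
  have hq' : (0 : ℝ) < q := by exact_mod_cast (by omega : 0 < q)
  rw [Asum_eq]
  constructor
  · have : 0 ≤ ws i n (fun l => Pr (aa θ M) l (sh i ω)) :=
      ws_nonneg fun l => (Pr_bounds hq h0 h1 l (h.shift i)).1
    positivity
  · have : ws i n (fun l => Pr (aa θ M) l (sh i ω)) ≤ ws i n (fun _ => 1) :=
      ws_mono fun l _ _ => (Pr_bounds hq h0 h1 l (h.shift i)).2
    rw [ws_const, mul_one] at this
    calc ((q : ℝ)⁻¹) ^ n * ws i n (fun l => Pr (aa θ M) l (sh i ω))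
        ≤ ((q : ℝ)⁻¹) ^ n * (q : ℝ) ^ n := mul_le_mul_of_nonneg_left this (by positivity)
      _ = 1 := by rw [← mul_pow, inv_mul_cancel₀ hq'.ne', one_pow]

theorem Asum_anti (hq : 2 ≤ q) (h0 : 0 ≤ θ) (h1 : q * θ ^ 2 < 1) (n : ℕ) (i : Fin (q + 1))
    (h : GoodAll θ M ω) : Asum (aa θ M) (n + 1) i ω ≤ Asum (aa θ M) n i ω := by
  have hq' : (0 : ℝ) < q := by exact_mod_cast (by omega : 0 < q)
  induction n generalizing i ω with
  | zero => 
    have := (Asum_bounds hq h0 h1 1 i h).2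
    simpa [Asum] using this
  | succ n ih =>
    change Bop (fun i ω => aa θ M i ω * Asum (aa θ M) (n + 1) i ω) i ω
      ≤ Bop (fun i ω => aa θ M i ω * Asum (aa θ M) n i ω) i ω
    unfold Bop
    refine mul_le_mul_of_nonneg_left (Finset.sum_le_sum fun k _ => ?_) (by positivity)
    exact mul_le_mul_of_nonneg_left (ih k (h.shift i)) (aa_nonneg' hq h0 h1 (h.shift i).good k)

end bounds

/-! ### measurability -/

section meas

variable {θ : ℝ} {M : Lab (W q) → ℝ}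

theorem measurable_msg (hM : Measurable M) (i : Fin (q + 1)) : Measurable (msg θ M i) := by
  unfold msg
  exact (continuous_cav θ).measurable.comp (hM.prodMk (hM.comp (measurable_sh i)))

theorem measurable_gg (θ : ℝ) : Measurable (gg θ) := by
  unfold gg
  fun_prop

theorem measurable_aa (hM : Measurable M) (i : Fin (q + 1)) : Measurable (aa θ M i) := by
  unfold aa
  exact ((measurable_gg θ).comp (measurable_msg hM i)).const_mul _

theorem measurable_Pr {a : Fin (q + 1) → Lab (W q) → ℝ} (ha : ∀ i, Measurable (a i))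
    (l : List (Fin (q + 1))) : Measurable (Pr a l) := by
  induction l with
  | nil => exact measurable_const
  | cons i l ih => exact (ha i).mul (ih.comp (measurable_sh i))

theorem measurable_ws {F : List (Fin (q + 1)) → Lab (W q) → ℝ} (hF : ∀ l, Measurable (F l))
    (i : Fin (q + 1)) (n : ℕ) : Measurable fun ω => ws i n (fun l => F l ω) := by
  obtain ⟨S, _, hS⟩ := ws_eq_sum i n
  simp_rw [hS]
  exact Finset.measurable_sum _ fun l _ => hF l

theorem measurable_wsum {F : List (Fin (q + 1)) → Lab (W q) → ℝ} (hF : ∀ l, Measurable (F l))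
    (n : ℕ) : Measurable fun ω => wsum q n (fun l => F l ω) := by
  obtain ⟨S, _, hS⟩ := wsum_eq_sum (q := q) n
  simp_rw [hS]
  exact Finset.measurable_sum _ fun l _ => hF l

theorem measurable_Asum {a : Fin (q + 1) → Lab (W q) → ℝ} (ha : ∀ i, Measurable (a i))
    (n : ℕ) (i : Fin (q + 1)) : Measurable (Asum a n i) := by
  have : Asum a n i = fun ω => ((q : ℝ)⁻¹) ^ n * ws i n (fun l => Pr a l (sh i ω)) := by
    funext ω; exact Asum_eq a n i ω
  rw [this]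
  exact (measurable_ws (F := fun l ω => Pr a l (sh i ω))
    (fun l => (measurable_Pr ha l).comp (measurable_sh i)) i n).const_mul _

theorem integral_wsum {F : List (Fin (q + 1)) → Lab (W q) → ℝ}
    (hF : ∀ l, Integrable (F l) (labP (W q))) (n : ℕ) :
    ∫ ω, wsum q n (fun l => F l ω) ∂(labP (W q))
      = wsum q n (fun l => ∫ ω, F l ω ∂(labP (W q))) := by
  obtain ⟨S, _, hS⟩ := wsum_eq_sum (q := q) n
  simp_rw [hS]
  exact integral_finsetSum _ fun l _ => hF l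

theorem integrable_wsum {F : List (Fin (q + 1)) → Lab (W q) → ℝ}
    (hF : ∀ l, Integrable (F l) (labP (W q))) (n : ℕ) :
    Integrable (fun ω => wsum q n (fun l => F l ω)) (labP (W q)) := by
  obtain ⟨S, _, hS⟩ := wsum_eq_sum (q := q) n
  simp_rw [hS]
  exact integrable_finsetSum _ fun l _ => hF l

theorem integral_ws {F : List (Fin (q + 1)) → Lab (W q) → ℝ}
    (hF : ∀ l, Integrable (F l) (labP (W q))) (i : Fin (q + 1)) (n : ℕ) :
    ∫ ω, ws i n (fun l => F l ω) ∂(labP (W q))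
      = ws i n (fun l => ∫ ω, F l ω ∂(labP (W q))) := by
  obtain ⟨S, _, hS⟩ := ws_eq_sum i n
  simp_rw [hS]
  exact integral_finsetSum _ fun l _ => hF l

theorem integrable_ws {F : List (Fin (q + 1)) → Lab (W q) → ℝ}
    (hF : ∀ l, Integrable (F l) (labP (W q))) (i : Fin (q + 1)) (n : ℕ) :
    Integrable (fun ω => ws i n (fun l => F l ω)) (labP (W q)) := by
  obtain ⟨S, _, hS⟩ := ws_eq_sum i n
  simp_rw [hS]
  exact integrable_finsetSum _ fun l _ => hF l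

/-- reversal of the summation words -/
theorem wsum_reverse (n : ℕ) (f : List (Fin (q + 1)) → ℝ) :
    wsum q n (fun l => f l.reverse) = wsum q n f := by
  obtain ⟨S, hS, hS'⟩ := wsum_eq_sum (q := q) n
  rw [hS', hS']
  refine Finset.sum_bij' (fun l _ => l.reverse) (fun l _ => l.reverse) ?_ ?_ ?_ ?_ ?_
  · intro l hl
    rw [hS] at hl ⊢
    refine ⟨by simpa using hl.1, ?_⟩
    rw [List.isChain_reverse]
    exact hl.2.imp fun a b h => Ne.symm h
  · intro l hl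
    rw [hS] at hl ⊢
    refine ⟨by simpa using hl.1, ?_⟩
    rw [List.isChain_reverse]
    exact hl.2.imp fun a b h => Ne.symm h
  · intro l _; simp
  · intro l _; simp
  · intro l _; rfl

end meas

end Crest.Agent.FreeIs.Coh
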