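import Crest.Agent.FreeIs.CohA

/-!
M8, part B: bounded measurable functions; pointwise telescoping; recentred sums.
-/

set_option autoImplicit false
set_option linter.unusedVariables false

open MeasureTheory Filter Topology

namespace Crest.Agent.FreeIs.Coh

open Crest.Agent.FreeIs Crest.Agent.FreeIs.Rec

variable {q : ℕ}

/-- measurable and almost surely bounded -/
structure BM (f : Lab (W q) → ℝ) : Prop where
  meas : Measurable f
  bd : ∃ K, ∀ᵐ ω ∂(labP (W q)), |f ω| ≤ K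

namespace BM

variable {f g : Lab (W q) → ℝ}

theorem integrable (hf : BM f) : Integrable f (labP (W q)) := by
  obtain ⟨K, hK⟩ := hf.bd
  exact Integrable.of_bound hf.meas.aestronglyMeasurable K hK

theorem const (c : ℝ) : BM (fun _ : Lab (W q) => c) :=
  ⟨measurable_const, |c|, Eventually.of_forall fun _ => le_rfl⟩

theorem add (hf : BM f) (hg : BM g) : BM (fun ω => f ω + g ω) := by
  obtain ⟨K, hK⟩ := hf.bd
  obtain ⟨L, hL⟩ := hg.bd
  refine ⟨hf.meas.add hg.meas, K + L, ?_⟩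
  filter_upwards [hK, hL] with ω h1 h2
  exact (abs_add_le _ _).trans (add_le_add h1 h2)

theorem mul (hf : BM f) (hg : BM g) : BM (fun ω => f ω * g ω) := by
  obtain ⟨K, hK⟩ := hf.bd
  obtain ⟨L, hL⟩ := hg.bd
  refine ⟨hf.meas.mul hg.meas, K * L, ?_⟩
  filter_upwards [hK, hL] with ω h1 h2
  rw [abs_mul]
  exact mul_le_mul h1 h2 (abs_nonneg _) ((abs_nonneg _).trans h1)

theorem neg (hf : BM f) : BM (fun ω => - f ω) := by
  obtain ⟨K, hK⟩ := hf.bd
  refine ⟨hf.meas.neg, K, ?_⟩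
  filter_upwards [hK] with ω h1
  rwa [abs_neg]

theorem sub (hf : BM f) (hg : BM g) : BM (fun ω => f ω - g ω) := by
  simpa only [sub_eq_add_neg] using hf.add hg.neg

theorem sq (hf : BM f) : BM (fun ω => f ω ^ 2) := by
  simpa only [pow_two] using hf.mul hf

theorem cmul (c : ℝ) (hf : BM f) : BM (fun ω => c * f ω) := (const c).mul hf

theorem shi (hf : BM f) (i : Fin (q + 1)) : BM (fun ω => f (sh i ω)) := by
  obtain ⟨K, hK⟩ := hf.bd
  exact ⟨hf.meas.comp (measurable_sh i), K, (sh_mp i).quasiMeasurePreserving.ae hK⟩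

theorem shiftl (hf : BM f) (l : List (Fin (q + 1))) : BM (fun ω => f (shl l ω)) := by
  obtain ⟨K, hK⟩ := hf.bd
  exact ⟨hf.meas.comp (measurable_shl l), K, (shl_mp l).quasiMeasurePreserving.ae hK⟩

theorem sum {ι : Type*} (s : Finset ι) {F : ι → Lab (W q) → ℝ} (hF : ∀ i, BM (F i)) :
    BM (fun ω => ∑ i ∈ s, F i ω) := by
  classical
  induction s using Finset.induction_on with
  | empty => simpa using const 0
  | insert a s ha ih =>
    simp only [Finset.sum_insert ha]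
    exact (hF a).add ih

theorem ws {F : List (Fin (q + 1)) → Lab (W q) → ℝ} (hF : ∀ l, BM (F l))
    (i : Fin (q + 1)) (n : ℕ) : BM fun ω => Rec.ws i n (fun l => F l ω) := by
  obtain ⟨S, _, hS⟩ := ws_eq_sum i n
  simp_rw [hS]
  exact sum S hF

theorem wsum {F : List (Fin (q + 1)) → Lab (W q) → ℝ} (hF : ∀ l, BM (F l))
    (n : ℕ) : BM fun ω => Rec.wsum q n (fun l => F l ω) := by
  obtain ⟨S, _, hS⟩ := wsum_eq_sum (q := q) n
  simp_rw [hS]
  exact sum S hF

theorem pr {a : Fin (q + 1) → Lab (W q) → ℝ} (ha : ∀ i, BM (a i))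
    (l : List (Fin (q + 1))) : BM (Pr a l) := by
  induction l with
  | nil => exact const 1
  | cons i l ih => exact (ha i).mul (ih.shi i)

theorem asum {a : Fin (q + 1) → Lab (W q) → ℝ} (ha : ∀ i, BM (a i))
    (n : ℕ) (i : Fin (q + 1)) : BM (Asum a n i) := by
  have : Asum a n i = fun ω => ((q : ℝ)⁻¹) ^ n * Rec.ws i n (fun l => Pr a l (sh i ω)) := by
    funext ω; exact Asum_eq a n i ω
  rw [this]
  exact (ws (fun l => (pr ha l).shi i) i n).cmul _

end BM

/-- the path functional coming from telescoping -/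
noncomputable def Tl (a a' D : Fin (q + 1) → Lab (W q) → ℝ) :
    List (Fin (q + 1)) → Lab (W q) → ℝ
  | [] => fun _ => 0
  | e :: l => fun ω => D e ω * Pr a' l (sh e ω) + a e ω * Tl a a' D l (sh e ω)

theorem BM.tl {a a' D : Fin (q + 1) → Lab (W q) → ℝ} (ha : ∀ i, BM (a i)) (ha' : ∀ i, BM (a' i))
    (hD : ∀ i, BM (D i)) (l : List (Fin (q + 1))) : BM (Tl a a' D l) := by
  induction l with
  | nil => exact BM.const 0
  | cons i l ih => exact ((hD i).mul ((BM.pr ha' l).shi i)).add ((ha i).mul (ih.shi i))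

theorem cs_aux {m d p a t X T : ℝ} (hp : 0 ≤ p) (ha : 0 ≤ a) (hX : 0 ≤ X) (hT : 0 ≤ T)
    (ht : t ^ 2 ≤ 2 * X * T) : (m * d * p + a * t) ^ 2 ≤ (m ^ 2 * p + 2 * a * X) * (d ^ 2 * p + a * T) := by
  have key : 0 ≤ m ^ 2 * T + 2 * X * d ^ 2 - 2 * m * d * t := by
    rcases hT.eq_or_lt with h | h
    · rw [← h, mul_zero] at ht
      have : t = 0 := by nlinarith [sq_nonneg t]
      rw [this, ← h]
      nlinarith [sq_nonneg d, mul_nonneg hX (sq_nonneg d)]
    · have h2 : 0 ≤ T * (m ^ 2 * T + 2 * X * d ^ 2 - 2 * m * d * t) := by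
        have : T * (m ^ 2 * T + 2 * X * d ^ 2 - 2 * m * d * t)
          = (m * T - d * t) ^ 2 + d ^ 2 * (2 * X * T - t ^ 2) := by ring
        rw [this]
        have := mul_nonneg (sq_nonneg d) (sub_nonneg.2 ht)
        positivity
      exact nonneg_of_mul_nonneg_right h2 h
  have e : (m ^ 2 * p + 2 * a * X) * (d ^ 2 * p + a * T) - (m * d * p + a * t) ^ 2
      = a * p * (m ^ 2 * T + 2 * X * d ^ 2 - 2 * m * d * t) + a ^ 2 * (2 * X * T - t ^ 2) := by ring
  have e1 := mul_nonneg (mul_nonneg ha hp) key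
  have e2 := mul_nonneg (sq_nonneg a) (sub_nonneg.2 ht)
  linarith

section pointwise

variable {θ θ' : ℝ} {M M' : Lab (W q) → ℝ} {ω : Lab (W q)}

/-- squared difference of the messages -/
noncomputable def DD (θ θ' : ℝ) (M M' : Lab (W q) → ℝ) (e : Fin (q + 1)) (ω : Lab (W q)) : ℝ :=
  (msg θ M e ω - msg θ' M' e ω) ^ 2

theorem Tl_nonneg (hq : 2 ≤ q) (h0 : 0 ≤ θ) (h1 : q * θ ^ 2 < 1) (h0' : 0 ≤ θ')
    (h1' : q * θ' ^ 2 < 1) (l : List (Fin (q + 1))) (h : GoodAll θ M ω) (h' : GoodAll θ' M' ω) :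
    0 ≤ Tl (aa θ M) (aa θ' M') (DD θ θ' M M') l ω := by
  induction l generalizing ω with
  | nil => exact le_rfl
  | cons e l ih =>
    have i1 := ih (h.shift e) (h'.shift e)
    have i2 := (Pr_bounds hq h0' h1' l (h'.shift e)).1
    have i3 := aa_nonneg' hq h0 h1 h.good e
    have i4 : 0 ≤ DD θ θ' M M' e ω := sq_nonneg _
    simp only [Tl]
    positivity

theorem Pr_diff (hq : 2 ≤ q) (h0 : 0 ≤ θ) (h1 : q * θ ^ 2 < 1) (h0' : 0 ≤ θ')
    (h1' : q * θ' ^ 2 < 1) {K : ℝ} (hK : 0 ≤ K)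
    (hlip : ∀ (ω : Lab (W q)) (e : Fin (q + 1)), Good θ M ω → Good θ' M' ω →
      |aa θ M e ω - aa θ' M' e ω| ≤ K * ((|msg θ M e ω| + |msg θ' M' e ω|) *
        |msg θ M e ω - msg θ' M' e ω| + |θ - θ'|))
    (l : List (Fin (q + 1))) (h : GoodAll θ M ω) (h' : GoodAll θ' M' ω) :
    ∃ t1 t2 t3 : ℝ, 0 ≤ t1 ∧ 0 ≤ t2 ∧ 0 ≤ t3 ∧
      |Pr (aa θ M) l ω - Pr (aa θ' M') l ω| ≤ K * (t1 + t2 + t3) ∧
      t1 ^ 2 ≤ 2 * (1 - Pr (aa θ M) l ω) * Tl (aa θ M) (aa θ' M') (DD θ θ' M M') l ω ∧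
      t2 ^ 2 ≤ 2 * (1 - Pr (aa θ' M') l ω) * Tl (aa θ M) (aa θ' M') (DD θ θ' M M') l ω ∧
      t3 ≤ l.length * |θ - θ'| := by
  induction l generalizing ω with
  | nil => exact ⟨0, 0, 0, le_rfl, le_rfl, le_rfl, by simp, by simp [Tl], by simp [Tl], by simp⟩
  | cons e l ih =>
    obtain ⟨t1, t2, t3, p1, p2, p3, hd, b1, b2, b3⟩ := ih (h.shift e) (h'.shift e)
    set P := Pr (aa θ M) l (sh e ω)
    set P' := Pr (aa θ' M') l (sh e ω)
    set T := Tl (aa θ M) (aa θ' M') (DD θ θ' M M') l (sh e ω)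
    have hP := Pr_bounds hq h0 h1 l (h.shift e)
    have hP' := Pr_bounds hq h0' h1' l (h'.shift e)
    have hT := Tl_nonneg hq h0 h1 h0' h1' l (h.shift e) (h'.shift e)
    have ha := aa_bounds hq h0 h1 h.good e
    have ha' := aa_bounds hq h0' h1' h'.good e
    have ha1 := aa_le_one hq h0 h1 h.good e
    have hl := hlip ω e h.good h'.good
    set a := aa θ M e ω
    set a' := aa θ' M' e ω
    set m := msg θ M e ω with hm
    set m' := msg θ' M' e ω with hm'
    have eT : Tl (aa θ M) (aa θ' M') (DD θ θ' M M') (e :: l) ω = (m - m') ^ 2 * P' + a * T := rfl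
    have eP : Pr (aa θ M) (e :: l) ω = a * P := rfl
    have eP' : Pr (aa θ' M') (e :: l) ω = a' * P' := rfl
    rw [eT, eP, eP']
    have hT' : 0 ≤ (m - m') ^ 2 * P' + a * T := by
      have := hP'.1
      have := ha.1
      positivity
    refine ⟨|m| * |m - m'| * P' + a * t1, |m'| * |m - m'| * P' + a * t2, |θ - θ'| * P' + a * t3,
      ?_, ?_, ?_, ?_, ?_, ?_, ?_⟩
    · have := hP'.1
      have := ha.1
      positivity
    · have := hP'.1
      have := ha.1
      positivity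
    · have := hP'.1
      have := ha.1
      positivity
    · have e1 : a * P - a' * P' = (a - a') * P' + a * (P - P') := by ring
      rw [e1]
      calc |(a - a') * P' + a * (P - P')| ≤ |(a - a') * P'| + |a * (P - P')| := abs_add_le _ _
        _ = |a - a'| * P' + a * |P - P'| := by
          rw [abs_mul, abs_mul, abs_of_nonneg hP'.1, abs_of_nonneg ha.1]
        _ ≤ (K * ((|m| + |m'|) * |m - m'| + |θ - θ'|)) * P' + a * (K * (t1 + t2 + t3)) :=
          add_le_add (mul_le_mul_of_nonneg_right hl hP'.1) (mul_le_mul_of_nonneg_left hd ha.1)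
        _ = _ := by ring
    · have c := cs_aux (m := |m|) (d := |m - m'|) hP'.1 ha.1 (sub_nonneg.2 hP.2) hT b1
      rw [sq_abs, sq_abs] at c
      refine c.trans (mul_le_mul_of_nonneg_right ?_ hT')
      have hx : m ^ 2 * P' ≤ m ^ 2 := mul_le_of_le_one_right (sq_nonneg m) hP'.2
      nlinarith [ha.2]
    · have c := cs_aux (m := |m'|) (d := |m - m'|) hP'.1 ha.1 (sub_nonneg.2 hP'.2) hT b2
      rw [sq_abs, sq_abs] at c
      refine c.trans (mul_le_mul_of_nonneg_right ?_ hT')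
      have hx : a * (1 - P') ≤ 1 * (1 - P') := mul_le_mul_of_nonneg_right ha1 (sub_nonneg.2 hP'.2)
      have hy : m' ^ 2 * P' ≤ 2 * (1 - a') * P' := by
        apply mul_le_mul_of_nonneg_right _ hP'.1
        linarith [ha'.2]
      nlinarith
    · have hδ := abs_nonneg (θ - θ')
      have x1 : |θ - θ'| * P' ≤ |θ - θ'| := mul_le_of_le_one_right hδ hP'.2
      have x2 : a * t3 ≤ t3 := mul_le_of_le_one_left p3 ha1
      rw [List.length_cons]
      push_cast
      linarith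

theorem Pr_diff_sq (hq : 2 ≤ q) (h0 : 0 ≤ θ) (h1 : q * θ ^ 2 < 1) (h0' : 0 ≤ θ')
    (h1' : q * θ' ^ 2 < 1) {K : ℝ} (hK : 0 ≤ K)
    (hlip : ∀ (ω : Lab (W q)) (e : Fin (q + 1)), Good θ M ω → Good θ' M' ω →
      |aa θ M e ω - aa θ' M' e ω| ≤ K * ((|msg θ M e ω| + |msg θ' M' e ω|) *
        |msg θ M e ω - msg θ' M' e ω| + |θ - θ'|))
    (l : List (Fin (q + 1))) (h : GoodAll θ M ω) (h' : GoodAll θ' M' ω) :
    (Pr (aa θ M) l ω - Pr (aa θ' M') l ω) ^ 2 ≤
      K ^ 2 * (12 * Tl (aa θ M) (aa θ' M') (DD θ θ' M M') l ω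
        + 3 * (l.length * |θ - θ'|) ^ 2) := by
  obtain ⟨t1, t2, t3, p1, p2, p3, hd, b1, b2, b3⟩ := Pr_diff hq h0 h1 h0' h1' hK hlip l h h'
  have hT := Tl_nonneg hq h0 h1 h0' h1' l h h'
  have hP := Pr_bounds hq h0 h1 l h
  have hP' := Pr_bounds hq h0' h1' l h'
  set P := Pr (aa θ M) l ω
  set P' := Pr (aa θ' M') l ω
  set T := Tl (aa θ M) (aa θ' M') (DD θ θ' M M') l ω
  have c1 : t1 ^ 2 ≤ 2 * T := b1.trans (by nlinarith [mul_nonneg hP.1 hT])
  have c2 : t2 ^ 2 ≤ 2 * T := b2.trans (by nlinarith [mul_nonneg hP'.1 hT])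
  have c3 : t3 ^ 2 ≤ (l.length * |θ - θ'|) ^ 2 := pow_le_pow_left₀ p3 b3 2
  have c4 : (t1 + t2 + t3) ^ 2 ≤ 12 * T + 3 * (l.length * |θ - θ'|) ^ 2 := by
    nlinarith [sq_nonneg (t1 - t2), sq_nonneg (t1 - t3), sq_nonneg (t2 - t3)]
  calc (P - P') ^ 2 = |P - P'| ^ 2 := (sq_abs _).symm
    _ ≤ (K * (t1 + t2 + t3)) ^ 2 := pow_le_pow_left₀ (abs_nonneg _) hd 2
    _ = K ^ 2 * (t1 + t2 + t3) ^ 2 := by ring
    _ ≤ _ := mul_le_mul_of_nonneg_left c4 (sq_nonneg K)

end pointwise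

section recentre

variable {a a' D : Fin (q + 1) → Lab (W q) → ℝ} {V : Lab (W q) → ℝ}

theorem ws_swap (n : ℕ) (f : Fin (q + 1) → List (Fin (q + 1)) → ℝ) :
    ∑ e, ws e (n + 1) (f e) = ∑ e2, ws e2 n (fun l => ∑ e ∈ Finset.univ.erase e2, f e (e2 :: l)) := by
  have h : ∀ e2, ws e2 n (fun l => ∑ e ∈ Finset.univ.erase e2, f e (e2 :: l))
      = ∑ e ∈ Finset.univ.erase e2, ws e2 n (fun l => f e (e2 :: l)) := by
    intro e2
    obtain ⟨S, _, hS⟩ := ws_eq_sum e2 n
    simp_rw [hS]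
    exact Finset.sum_comm
  simp_rw [h]
  simp only [ws]
  refine Finset.sum_comm' ?_
  intro x y
  simp only [Finset.mem_univ, Finset.mem_erase, and_true, true_and, ne_eq]
  exact ⟨fun h1 h2 => h1 h2.symm, fun h1 h2 => h1 h2.symm⟩

theorem integral_fsum {ι : Type*} (s : Finset ι) {F : ι → Lab (W q) → ℝ} (hF : ∀ i, BM (F i)) :
    ∫ ω, ∑ i ∈ s, F i ω ∂(labP (W q)) = ∑ i ∈ s, ∫ ω, F i ω ∂(labP (W q)) :=
  integral_finsetSum _ fun i _ => (hF i).integrable

theorem integral_ws' {F : List (Fin (q + 1)) → Lab (W q) → ℝ} (hF : ∀ l, BM (F l))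
    (i : Fin (q + 1)) (n : ℕ) :
    ws i n (fun l => ∫ ω, F l ω ∂(labP (W q))) = ∫ ω, ws i n (fun l => F l ω) ∂(labP (W q)) :=
  (integral_ws (fun l => (hF l).integrable) i n).symm

/-- the main recentring identity -/
theorem recentre (ha : ∀ i, BM (a i)) (ha' : ∀ i, BM (a' i)) (hD : ∀ i, BM (D i)) (hV : BM V)
    (hedge : ∀ᵐ ω ∂(labP (W q)), ∀ e, V ω * a e ω = V (sh e ω) * a e (sh e ω)) (n i : ℕ) :
    ∑ e, ws e n (fun l => ∫ ω, V ω * ws e i (fun b => Pr a b ω) * Tl a a' D (e :: l) ω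
        ∂(labP (W q)))
      = ∑ j ∈ Finset.range (n + 1), ∑ e, ∫ ω, V ω * ws e (i + j) (fun b => Pr a b ω) *
        (D e ω * ws e (n - j) (fun f => Pr a' f (sh e ω))) ∂(labP (W q)) := by
  induction n generalizing i with
  | zero =>
    rw [Finset.sum_range_one]
    refine Finset.sum_congr rfl fun e _ => ?_
    simp [ws, Tl]
  | succ n ih =>
    have hΨ : ∀ (e : Fin (q + 1)) (i : ℕ), BM (fun ω => ws e i (fun b => Pr a b ω)) :=
      fun e i => BM.ws (fun b => BM.pr ha b) e i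
    -- split `Tl`
    have s1 : ∀ (e : Fin (q + 1)) (l : List (Fin (q + 1))),
        ∫ ω, V ω * ws e i (fun b => Pr a b ω) * Tl a a' D (e :: l) ω ∂(labP (W q))
        = (∫ ω, V ω * ws e i (fun b => Pr a b ω) * (D e ω * Pr a' l (sh e ω)) ∂(labP (W q)))
          + ∫ ω, V ω * (a e ω * ws e i (fun b => Pr a b (sh e ω))) * Tl a a' D l ω
            ∂(labP (W q)) := by
      intro e l
      have h1 : ∫ ω, V ω * ws e i (fun b => Pr a b ω) * Tl a a' D (e :: l) ω ∂(labP (W q))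
          = (∫ ω, V ω * ws e i (fun b => Pr a b ω) * (D e ω * Pr a' l (sh e ω)) ∂(labP (W q)))
          + ∫ ω, V ω * ws e i (fun b => Pr a b ω) * (a e ω * Tl a a' D l (sh e ω))
            ∂(labP (W q)) := by
        rw [← integral_add]
        · refine integral_congr_ae (Eventually.of_forall fun ω => ?_)
          simp only [Tl]
          ring
        · exact ((hV.mul (hΨ e i)).mul ((hD e).mul ((BM.pr ha' l).shi e))).integrable
        · exact ((hV.mul (hΨ e i)).mul ((ha e).mul ((BM.tl ha ha' hD l).shi e))).integrable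
      rw [h1]
      congr 1
      rw [← integral_sh e (fun ω => V ω * (a e ω * ws e i (fun b => Pr a b (sh e ω))) *
        Tl a a' D l ω)]
      refine integral_congr_ae ?_
      filter_upwards [hedge] with ω hω
      have := hω e
      simp only [sh_sh]
      linear_combination (ws e i (fun b => Pr a b ω) * Tl a a' D l (sh e ω)) * this
    have s2 : ∀ e, ws e (n + 1) (fun l => ∫ ω, V ω * ws e i (fun b => Pr a b ω) *
        Tl a a' D (e :: l) ω ∂(labP (W q)))
        = (∫ ω, V ω * ws e i (fun b => Pr a b ω) *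
            (D e ω * ws e (n + 1) (fun f => Pr a' f (sh e ω))) ∂(labP (W q)))
          + ws e (n + 1) (fun l => ∫ ω, V ω * (a e ω * ws e i (fun b => Pr a b (sh e ω))) *
            Tl a a' D l ω ∂(labP (W q))) := by
      intro e
      simp_rw [s1]
      rw [ws_add]
      congr 1
      rw [integral_ws' (fun l => (hV.mul (hΨ e i)).mul ((hD e).mul ((BM.pr ha' l).shi e)))]
      refine integral_congr_ae (Eventually.of_forall fun ω => ?_)
      simp only
      have : ∀ l, V ω * ws e i (fun b => Pr a b ω) * (D e ω * Pr a' l (sh e ω))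
          = (V ω * ws e i (fun b => Pr a b ω) * D e ω) * Pr a' l (sh e ω) := fun l => by ring
      simp_rw [this]
      rw [ws_mul]
      ring
    simp_rw [s2]
    rw [Finset.sum_add_distrib, ws_swap]
    have s3 : ∀ e2, ws e2 n (fun l => ∑ e ∈ Finset.univ.erase e2,
        ∫ ω, V ω * (a e ω * ws e i (fun b => Pr a b (sh e ω))) * Tl a a' D (e2 :: l) ω
          ∂(labP (W q)))
        = ws e2 n (fun l => ∫ ω, V ω * ws e2 (i + 1) (fun b => Pr a b ω) *
          Tl a a' D (e2 :: l) ω ∂(labP (W q))) := by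
      intro e2
      congr 1
      funext l
      rw [← integral_fsum (Finset.univ.erase e2) (F := fun e ω => V ω * (a e ω *
        ws e i (fun b => Pr a b (sh e ω))) * Tl a a' D (e2 :: l) ω)
        (fun e => (hV.mul ((ha e).mul ((hΨ e i).shi e))).mul (BM.tl ha ha' hD _))]
      refine integral_congr_ae (Eventually.of_forall fun ω => ?_)
      simp only
      rw [← Finset.sum_mul, ← Finset.mul_sum]
      congr 2
      simp only [ws, Pr_cons]
      refine Finset.sum_congr rfl fun e _ => ?_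
      rw [ws_mul]
    simp_rw [s3]
    rw [ih (i + 1), Finset.sum_range_succ' _ (n + 1), add_comm]
    congr 1
    refine Finset.sum_congr rfl fun j _ => Finset.sum_congr rfl fun e _ => ?_
    have e1 : i + 1 + j = i + (j + 1) := by ring
    have e2 : n + 1 - (j + 1) = n - j := by omega
    rw [e1, e2]

end recentre

end Crest.Agent.FreeIs.Coh
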