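import Crest.Agent.FreeIs.CohB

/-!
M8, part C: susceptibility is square integrable; truncation by the tail bound.
-/

set_option autoImplicit false
set_option linter.unusedVariables false

open MeasureTheory Filter Topology

namespace Crest.Agent.FreeIs.Coh

open Crest.Agent.FreeIs Crest.Agent.FreeIs.Rec

section abs

variable {Ω : Type*} [MeasurableSpace Ω] {μ : Measure Ω} [IsProbabilityMeasure μ]

/-- A series of `[0,1]`-valued functions with geometrically small means: summable a.e., and the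
truncated square of the sum is integrable. -/
theorem sum_sq_integrable {A : ℕ → Ω → ℝ} (hA : ∀ n, Measurable (A n))
    (h01 : ∀ᵐ ω ∂μ, ∀ n, 0 ≤ A n ω ∧ A n ω ≤ 1) {ρ : ℝ} (h0 : 0 ≤ ρ) (h1 : ρ < 1)
    (hρ : ∀ n, ∫ ω, A n ω ∂μ ≤ ρ ^ n) :
    (∀ᵐ ω ∂μ, Summable fun n => A n ω) ∧
      ∀ B : ℝ, 0 ≤ B → Integrable (fun ω => (max 0 (∑' n, A n ω - B)) ^ 2) μ := by
  have hint : ∀ n, Integrable (A n) μ := fun n =>
    Integrable.of_bound (hA n).aestronglyMeasurable 1 (by
      filter_upwards [h01] with ω hω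
      rw [Real.norm_eq_abs, abs_of_nonneg (hω n).1]
      exact (hω n).2)
  have hl : ∀ n, ∫⁻ ω, ENNReal.ofReal (A n ω) ∂μ ≤ ENNReal.ofReal (ρ ^ n) := by
    intro n
    rw [← ofReal_integral_eq_lintegral_ofReal (hint n) (by
      filter_upwards [h01] with ω hω using (hω n).1)]
    exact ENNReal.ofReal_le_ofReal (hρ n)
  -- weighted sum
  set w : ℕ → ENNReal := fun n => ENNReal.ofReal (2 * n + 1) with hw
  have hW : ∑' n, w n * ENNReal.ofReal (ρ ^ n) ≠ ⊤ := by
    have hs : Summable fun n : ℕ => (2 * (n : ℝ) + 1) * ρ ^ n := by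
      have s1 := summable_pow_mul_geometric_of_norm_lt_one 1 (r := ρ)
        (by rw [Real.norm_eq_abs, abs_of_nonneg h0]; exact h1)
      have s2 := summable_geometric_of_lt_one h0 h1
      have s3 := (s1.mul_left 2).add s2
      refine s3.congr fun n => ?_
      simp only [pow_one]
      ring
    have : ∀ n, w n * ENNReal.ofReal (ρ ^ n) = ENNReal.ofReal ((2 * (n : ℝ) + 1) * ρ ^ n) := by
      intro n
      rw [hw, ENNReal.ofReal_mul (by positivity)]
    simp_rw [this]
    exact hs.tsum_ofReal_ne_top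
  have hmeas : ∀ n, Measurable fun ω => ENNReal.ofReal (A n ω) := fun n => (hA n).ennreal_ofReal
  have hWint : ∫⁻ ω, ∑' n, w n * ENNReal.ofReal (A n ω) ∂μ ≠ ⊤ := by
    rw [lintegral_tsum (fun n => ((hmeas n).const_mul _).aemeasurable)]
    refine ne_top_of_le_ne_top hW (ENNReal.tsum_le_tsum fun n => ?_)
    rw [lintegral_const_mul _ (hmeas n)]
    exact mul_le_mul_right (hl n) _
  have hWae : ∀ᵐ ω ∂μ, ∑' n, w n * ENNReal.ofReal (A n ω) < ⊤ :=
    ae_lt_top (Measurable.tsum fun n => (hmeas n).const_mul _) hWint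
  have hle : ∀ ω, ∑' n, ENNReal.ofReal (A n ω) ≤ ∑' n, w n * ENNReal.ofReal (A n ω) := by
    intro ω
    refine ENNReal.tsum_le_tsum fun n => ?_
    have : (1 : ENNReal) ≤ w n := by
      rw [hw]
      simp only
      rw [ENNReal.one_le_ofReal]
      have : (0 : ℝ) ≤ n := Nat.cast_nonneg n
      linarith
    calc ENNReal.ofReal (A n ω) = 1 * ENNReal.ofReal (A n ω) := (one_mul _).symm
      _ ≤ _ := mul_le_mul_left this _
  have hsum : ∀ᵐ ω ∂μ, Summable fun n => A n ω := by
    filter_upwards [h01, hWae] with ω hω hω2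
    have h3 : ∑' n, ENNReal.ofReal (A n ω) ≠ ⊤ := ((hle ω).trans_lt hω2).ne
    have h4 := ENNReal.summable_toReal h3
    refine h4.congr fun n => ?_
    exact ENNReal.toReal_ofReal (hω n).1
  refine ⟨hsum, fun B hB => ?_⟩
  -- identify the sum
  have hid : ∀ᵐ ω ∂μ, ∑' n, A n ω = (∑' n, ENNReal.ofReal (A n ω)).toReal := by
    filter_upwards [h01, hsum] with ω hω hs
    rw [← ENNReal.ofReal_tsum_of_nonneg (fun n => (hω n).1) hs,
      ENNReal.toReal_ofReal (tsum_nonneg fun n => (hω n).1)]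
  have hSm : Measurable fun ω => (∑' n, ENNReal.ofReal (A n ω)).toReal :=
    (Measurable.tsum hmeas).ennreal_toReal
  have hsq : ∀ᵐ ω ∂μ, (∑' n, ENNReal.ofReal (A n ω)) ^ 2
      ≤ ∑' n, w n * ENNReal.ofReal (A n ω) := by
    filter_upwards [h01] with ω hω
    have ht : Tendsto (fun N => (∑ n ∈ Finset.range N, ENNReal.ofReal (A n ω)) ^ 2) atTop
        (𝓝 ((∑' n, ENNReal.ofReal (A n ω)) ^ 2)) :=
      ((ENNReal.continuous_pow 2).tendsto _).comp (ENNReal.tendsto_nat_tsum _)
    refine le_of_tendsto' ht fun N => ?_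
    have key : ∀ N : ℕ, (∑ n ∈ Finset.range N, A n ω) ^ 2
        ≤ ∑ n ∈ Finset.range N, (2 * (n : ℝ) + 1) * A n ω := by
      intro N
      induction N with
      | zero => simp
      | succ N ih =>
        rw [Finset.sum_range_succ, Finset.sum_range_succ]
        have b1 : ∑ n ∈ Finset.range N, A n ω ≤ N := by
          calc ∑ n ∈ Finset.range N, A n ω ≤ ∑ n ∈ Finset.range N, (1 : ℝ) :=
                Finset.sum_le_sum fun n _ => (hω n).2
            _ = N := by simp
        have b0 := (hω N).1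
        have b2 := (hω N).2
        nlinarith [mul_le_mul_of_nonneg_right b1 b0]
    have e1 : (∑ n ∈ Finset.range N, ENNReal.ofReal (A n ω)) ^ 2
        = ENNReal.ofReal ((∑ n ∈ Finset.range N, A n ω) ^ 2) := by
      rw [ENNReal.ofReal_pow (Finset.sum_nonneg fun n _ => (hω n).1),
        ENNReal.ofReal_sum_of_nonneg fun n _ => (hω n).1]
    have e2 : ∑ n ∈ Finset.range N, w n * ENNReal.ofReal (A n ω)
        = ENNReal.ofReal (∑ n ∈ Finset.range N, (2 * (n : ℝ) + 1) * A n ω) := by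
      rw [ENNReal.ofReal_sum_of_nonneg fun n _ => mul_nonneg (by positivity) (hω n).1]
      refine Finset.sum_congr rfl fun n _ => ?_
      rw [hw, ENNReal.ofReal_mul (by positivity)]
    rw [e1]
    calc ENNReal.ofReal ((∑ n ∈ Finset.range N, A n ω) ^ 2)
        ≤ ENNReal.ofReal (∑ n ∈ Finset.range N, (2 * (n : ℝ) + 1) * A n ω) :=
          ENNReal.ofReal_le_ofReal (key N)
      _ = ∑ n ∈ Finset.range N, w n * ENNReal.ofReal (A n ω) := e2.symm
      _ ≤ _ := ENNReal.sum_le_tsum _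
  have hcongr : (fun ω => (max 0 (∑' n, A n ω - B)) ^ 2)
      =ᵐ[μ] fun ω => (max 0 ((∑' n, ENNReal.ofReal (A n ω)).toReal - B)) ^ 2 := by
    filter_upwards [hid] with ω hω
    rw [hω]
  refine Integrable.congr ?_ hcongr.symm
  refine ⟨((measurable_const.max (hSm.sub_const B)).pow_const 2).aestronglyMeasurable, ?_⟩
  unfold HasFiniteIntegral
  refine lt_of_le_of_lt (lintegral_mono_ae ?_) (lt_top_iff_ne_top.2 hWint)
  filter_upwards [hsq, hWae] with ω h3 h4
  have h5 : ∑' n, ENNReal.ofReal (A n ω) ≠ ⊤ := ((hle ω).trans_lt h4).ne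
  refine le_trans ?_ h3
  set X := ∑' n, ENNReal.ofReal (A n ω) with hX
  have h6 : 0 ≤ X.toReal := ENNReal.toReal_nonneg
  have h7 : 0 ≤ max 0 (X.toReal - B) := le_max_left _ _
  have h8 : max 0 (X.toReal - B) ≤ X.toReal := max_le h6 (by linarith)
  rw [← ofReal_norm, Real.norm_eq_abs, abs_of_nonneg (sq_nonneg _)]
  calc ENNReal.ofReal ((max 0 (X.toReal - B)) ^ 2) ≤ ENNReal.ofReal (X.toReal ^ 2) :=
        ENNReal.ofReal_le_ofReal (pow_le_pow_left₀ h7 h8 2)
    _ = X ^ 2 := by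
      rw [ENNReal.ofReal_pow h6, ENNReal.ofReal_toReal h5]

end abs

end Crest.Agent.FreeIs.Coh
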