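import Crest.Agent.FreeIs.Edge

/-!
Shared infrastructure for M7/M8: measurability and bounds of `regr`, `covr`, `Asum`, decay of the
far part of `Rt`.
-/

set_option autoImplicit false
set_option linter.unusedVariables false

open MeasureTheory Filter Topology

namespace Crest.Agent.FreeIs.Rec

open Crest.Agent.FreeIs

variable {q : ℕ}

theorem measurable_cav (θ : ℝ) : Measurable fun p : ℝ × ℝ => cav θ p.1 p.2 := by
  unfold cav
  fun_prop

theorem measurable_gg (θ : ℝ) : Measurable (gg θ) := by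
  unfold gg
  fun_prop

theorem measurable_msg {θ : ℝ} {M : Lab (W q) → ℝ} (hM : Measurable M) (i : Fin (q + 1)) :
    Measurable (msg θ M i) := by
  have := (measurable_cav θ).comp (hM.prodMk (hM.comp (measurable_sh i)))
  exact this

theorem measurable_aa {θ : ℝ} {M : Lab (W q) → ℝ} (hM : Measurable M) (i : Fin (q + 1)) :
    Measurable (aa θ M i) := by
  have := ((measurable_gg θ).comp (measurable_msg (θ := θ) hM i)).const_mul (√(q : ℝ) * θ)
  exact this

theorem measurable_Bop {ξ : Fin (q + 1) → Lab (W q) → ℝ} (h : ∀ i, Measurable (ξ i))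
    (i : Fin (q + 1)) : Measurable (Bop ξ i) := by
  unfold Bop
  refine Measurable.const_mul ?_ _
  exact Finset.measurable_fun_sum _ fun k _ => (h k).comp (measurable_sh i)

theorem measurable_Asum {a : Fin (q + 1) → Lab (W q) → ℝ} (h : ∀ i, Measurable (a i)) (n : ℕ)
    (i : Fin (q + 1)) : Measurable (Asum a n i) := by
  induction n generalizing i with
  | zero => exact measurable_const
  | succ n ih => exact measurable_Bop (fun k => (h k).mul (ih k)) i

theorem measurable_regr {θ : ℝ} {M : Lab (W q) → ℝ} (hM : Measurable M)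
    (l : List (Fin (q + 1))) : Measurable (regr θ M l) := by
  induction l with
  | nil => exact measurable_const
  | cons a l ih =>
    have := (((measurable_gg θ).comp (measurable_msg (θ := θ) hM a)).const_mul θ).mul
      (ih.comp (measurable_sh a))
    exact this

theorem measurable_covr {θ : ℝ} {M : Lab (W q) → ℝ} (hM : Measurable M)
    (l : List (Fin (q + 1))) : Measurable (covr θ M l) := by
  have := (measurable_const.sub (hM.pow_const 2)).mul (measurable_regr (θ := θ) hM l)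
      (f := fun ω : Lab (W q) => (1 : ℝ) - M ω ^ 2)
  exact this

theorem regr_mem {θ : ℝ} (h0 : 0 ≤ θ) (h1 : θ < 1) {M : Lab (W q) → ℝ} {ω : Lab (W q)}
    (h : GoodA θ M ω) (l : List (Fin (q + 1))) :
    0 ≤ regr θ M l ω ∧ regr θ M l ω ≤ θ ^ l.length := by
  induction l generalizing ω with
  | nil => simp [regr]
  | cons a l ih =>
    have g0 := gg_nonneg' h0 h1 (h.good1 a).1
    have g1 := gg_le_one' h0 h1 (h.good1 a).1
    obtain ⟨i0, i1⟩ := ih (h.sh a)
    simp only [regr, List.length_cons, pow_succ]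
    refine ⟨by positivity, ?_⟩
    have : θ * gg θ (msg θ M a ω) ≤ θ := by nlinarith
    calc θ * gg θ (msg θ M a ω) * regr θ M l (sh a ω) ≤ θ * θ ^ l.length :=
          mul_le_mul this i1 i0 h0
      _ = _ := by ring

theorem covr_mem {θ : ℝ} (h0 : 0 ≤ θ) (h1 : θ < 1) {M : Lab (W q) → ℝ} {ω : Lab (W q)}
    (hM : |M ω| ≤ 1) (h : GoodA θ M ω) (l : List (Fin (q + 1))) :
    0 ≤ covr θ M l ω ∧ covr θ M l ω ≤ regr θ M l ω := by
  obtain ⟨i0, i1⟩ := regr_mem h0 h1 h l
  have h2 : M ω ^ 2 ≤ 1 := by rw [← sq_abs]; nlinarith [abs_nonneg (M ω)]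
  unfold covr
  exact ⟨mul_nonneg (by linarith) i0, by nlinarith [sq_nonneg (M ω)]⟩

theorem Asum_mem {θ : ℝ} (hq : 2 ≤ q) (h0 : 0 ≤ θ) (h1 : q * θ ^ 2 ≤ 1)
    {M : Lab (W q) → ℝ} {ω : Lab (W q)} (h : GoodA θ M ω) (n : ℕ) (i : Fin (q + 1)) :
    0 ≤ Asum (aa θ M) n i ω ∧ Asum (aa θ M) n i ω ≤ 1 := by
  have hq0 : (0 : ℝ) < q := by positivity
  induction n generalizing ω i with
  | zero => simp [Asum]
  | succ n ih =>
    simp only [Asum, Bop]
    have key : ∀ k ∈ (Finset.univ : Finset (Fin (q + 1))).erase i,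
        0 ≤ aa θ M k (sh i ω) * Asum (aa θ M) n k (sh i ω) ∧
        aa θ M k (sh i ω) * Asum (aa θ M) n k (sh i ω) ≤ 1 := by
      intro k _
      obtain ⟨a0, a1⟩ := (h.sh i).good1.aa_mem hq h0 h1 k
      obtain ⟨b0, b1⟩ := ih (h.sh i) k
      exact ⟨mul_nonneg a0 b0, mul_le_one₀ a1 b0 b1⟩
    constructor
    · exact mul_nonneg (by positivity) (Finset.sum_nonneg fun k hk => (key k hk).1)
    · have := Finset.sum_le_sum fun k hk => (key k hk).2
      simp only [Finset.sum_const, Finset.card_erase_of_mem (Finset.mem_univ i),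
        Finset.card_univ, Fintype.card_fin, nsmul_eq_mul, mul_one, Nat.add_sub_cancel] at this
      calc (q : ℝ)⁻¹ * _ ≤ (q : ℝ)⁻¹ * q := mul_le_mul_of_nonneg_left this (by positivity)
        _ = 1 := by field_simp

theorem ws_regr_sq_le {θ : ℝ} (hq : 2 ≤ q) (h0 : 0 ≤ θ) (h1 : q * θ ^ 2 ≤ 1)
    {M : Lab (W q) → ℝ} {ω : Lab (W q)} (h : GoodA θ M ω) (k : ℕ) (a : Fin (q + 1)) :
    ws a k (fun l => regr θ M (a :: l) ω ^ 2)
      ≤ (q : ℝ)⁻¹ * (aa θ M a ω * Asum (aa θ M) k a ω) := by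
  have hq0 : (0 : ℝ) < q := by positivity
  have key : ∀ (ω : Lab (W q)), GoodA θ M ω → ∀ a,
      (θ * gg θ (msg θ M a ω)) ^ 2 ≤ (q : ℝ)⁻¹ * aa θ M a ω := by
    intro ω h a
    obtain ⟨a0, a1⟩ := h.good1.aa_mem hq h0 h1 a
    have e : (q : ℝ) * (θ * gg θ (msg θ M a ω)) ^ 2 = aa θ M a ω ^ 2 := by
      unfold aa
      have e0 : (√(q : ℝ) * θ * gg θ (msg θ M a ω)) ^ 2
          = (√(q : ℝ)) ^ 2 * (θ * gg θ (msg θ M a ω)) ^ 2 := by ring
      rw [e0, Real.sq_sqrt (by positivity)]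
    rw [inv_eq_one_div, div_mul_eq_mul_div, one_mul, le_div_iff₀ hq0, mul_comm, e]
    nlinarith
  induction k generalizing ω a with
  | zero =>
    simp only [ws, regr, Asum, mul_one]
    exact key ω h a
  | succ k ih =>
    simp only [ws, Asum, Bop]
    obtain ⟨a0, a1⟩ := h.good1.aa_mem hq h0 h1 a
    have e : ∀ b ∈ (Finset.univ : Finset (Fin (q + 1))).erase a,
        ws b k (fun l => regr θ M (a :: b :: l) ω ^ 2)
        ≤ (θ * gg θ (msg θ M a ω)) ^ 2 *
          ((q : ℝ)⁻¹ * (aa θ M b (sh a ω) * Asum (aa θ M) k b (sh a ω))) := by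
      intro b _
      have e1 : (fun l => regr θ M (a :: b :: l) ω ^ 2)
          = fun l => (θ * gg θ (msg θ M a ω)) ^ 2 * (regr θ M (b :: l) (sh a ω) ^ 2) := by
        funext l
        simp only [regr]
        ring
      rw [e1, ws_mul]
      exact mul_le_mul_of_nonneg_left (ih (h.sh a) b) (sq_nonneg _)
    refine (Finset.sum_le_sum e).trans ?_
    rw [← Finset.mul_sum, ← Finset.mul_sum]
    have hS : 0 ≤ (q : ℝ)⁻¹ * ∑ b ∈ Finset.univ.erase a,
        aa θ M b (sh a ω) * Asum (aa θ M) k b (sh a ω) := by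
      refine mul_nonneg (by positivity) (Finset.sum_nonneg fun b _ => ?_)
      exact mul_nonneg ((h.sh a).good1.aa_mem hq h0 h1 b).1 (Asum_mem hq h0 h1 (h.sh a) k b).1
    rw [← mul_assoc (q : ℝ)⁻¹]
    exact mul_le_mul_of_nonneg_right (key ω h a) hS

theorem integral_wsum_regr_le {θ c s C : ℝ} (hq : 2 ≤ q) (h0 : 0 ≤ θ) (h1 : q * θ ^ 2 ≤ 1)
    {M : Lab (W q) → ℝ} (hF : Facts q θ s c C M) (k : ℕ) :
    wsum q (k + 1) (fun l => ∫ ω, regr θ M l ω ^ 2 ∂(labP (W q)))
      ≤ 3 / 2 * (1 - c * s) ^ k := by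
  have hq0 : (0 : ℝ) < q := by positivity
  have hq2 : (2 : ℝ) ≤ q := by exact_mod_cast hq
  have ht := theta_lt_one hq h1
  have hg := goodA_ae h0 ht hF.sys
  have hI : ∀ l : List (Fin (q + 1)), Integrable (fun ω => regr θ M l ω ^ 2) (labP (W q)) := by
    intro l
    refine Integrable.of_bound ((measurable_regr hF.sys.meas l).pow_const 2).aestronglyMeasurable
      1 ?_
    filter_upwards [hg] with ω hω
    obtain ⟨r0, r1⟩ := regr_mem h0 ht hω l
    have : θ ^ l.length ≤ 1 := pow_le_one₀ h0 ht.le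
    rw [Real.norm_eq_abs, abs_of_nonneg (sq_nonneg _)]
    nlinarith
  have hA : ∀ a : Fin (q + 1), Integrable (Asum (aa θ M) k a) (labP (W q)) := by
    intro a
    refine Integrable.of_bound (measurable_Asum (measurable_aa hF.sys.meas) k a).aestronglyMeasurable
      1 ?_
    filter_upwards [hg] with ω hω
    obtain ⟨r0, r1⟩ := Asum_mem hq h0 h1 hω k a
    rw [Real.norm_eq_abs, abs_of_nonneg r0]
    exact r1
  have h3 : ∀ a : Fin (q + 1), ws a k (fun l => ∫ ω, regr θ M (a :: l) ω ^ 2 ∂(labP (W q)))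
      ≤ (q : ℝ)⁻¹ * (1 - c * s) ^ k := by
    intro a
    rw [← integral_ws (fun l => hI (a :: l))]
    calc _ ≤ ∫ ω, (q : ℝ)⁻¹ * Asum (aa θ M) k a ω ∂(labP (W q)) := by
          refine integral_mono_of_nonneg (Eventually.of_forall fun ω => ?_)
            ((hA a).const_mul _) ?_
          · exact ws_nonneg fun l => sq_nonneg _
          · filter_upwards [hg] with ω hω
            refine (ws_regr_sq_le hq h0 h1 hω k a).trans ?_
            obtain ⟨a0, a1⟩ := hω.good1.aa_mem hq h0 h1 a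
            obtain ⟨r0, r1⟩ := Asum_mem hq h0 h1 hω k a
            exact mul_le_mul_of_nonneg_left (mul_le_of_le_one_left r0 a1) (by positivity)
      _ = (q : ℝ)⁻¹ * ∫ ω, Asum (aa θ M) k a ω ∂(labP (W q)) := integral_const_mul _ _
      _ ≤ _ := mul_le_mul_of_nonneg_left (hF.decay a k) (by positivity)
  simp only [wsum]
  refine (Finset.sum_le_sum fun a _ => h3 a).trans ?_
  simp only [Finset.sum_const, Finset.card_univ, Fintype.card_fin, nsmul_eq_mul]
  have h4 : 0 ≤ (1 - c * s) ^ k := pow_nonneg (by linarith [hF.cle]) k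
  have h5 : ((q + 1 : ℕ) : ℝ) * (q : ℝ)⁻¹ ≤ 3 / 2 := by
    push_cast
    rw [← div_eq_mul_inv, div_le_iff₀ hq0]
    linarith
  calc ((q + 1 : ℕ) : ℝ) * ((q : ℝ)⁻¹ * (1 - c * s) ^ k)
      = (((q + 1 : ℕ) : ℝ) * (q : ℝ)⁻¹) * (1 - c * s) ^ k := by ring
    _ ≤ _ := mul_le_mul_of_nonneg_right h5 h4

/-- The integrand of `Rt`. -/
noncomputable def RtI (θ θ' : ℝ) (M M' : Lab (W q) → ℝ) (l : List (Fin (q + 1)))
    (ω : Lab (W q)) : ℝ :=
  2 * (covr θ M l ω - covr θ' M' l ω) ^ 2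
    + 32 * (covr θ' M' l ω) ^ 2 * (atW M l ω - atW M' l ω) ^ 2

theorem RtI_nonneg (θ θ' : ℝ) (M M' : Lab (W q) → ℝ) (l : List (Fin (q + 1)))
    (ω : Lab (W q)) : 0 ≤ RtI θ θ' M M' l ω := by
  unfold RtI; positivity

theorem geom_tail {x : ℝ} (h0 : 0 ≤ x) (h1 : x < 1) (L n : ℕ) :
    ∑ k ∈ Finset.range n, (if L ≤ k then x ^ k else 0) ≤ x ^ L / (1 - x) := by
  have key : ∀ n, (∑ k ∈ Finset.range n, (if L ≤ k then x ^ k else 0)) * (1 - x)
      + x ^ (max n L) ≤ x ^ L := by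
    intro n
    induction n with
    | zero => simp
    | succ n ih =>
      rw [Finset.sum_range_succ]
      by_cases h : L ≤ n
      · rw [if_pos h]
        rw [max_eq_left h] at ih
        rw [max_eq_left (by omega)]
        rw [pow_succ]
        nlinarith
      · rw [if_neg h]
        rw [max_eq_right (by omega)] at ih ⊢
        linarith
  rw [le_div_iff₀ (by linarith)]
  have := key n
  have h2 : 0 ≤ x ^ (max n L) := pow_nonneg h0 _
  linarith

/-- Splitting of `Rt`: root term, near part (`k < L`), far part. -/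
theorem Rt_split {θ θ' c s C C' : ℝ} (hq : 2 ≤ q) (h0 : 0 ≤ θ) (h1 : q * θ ^ 2 ≤ 1)
    (h0' : 0 ≤ θ') (h1' : q * θ' ^ 2 ≤ 1) {M M' : Lab (W q) → ℝ} (hF : Facts q θ s c C M)
    (hF' : Facts q θ' s c C' M') (L : ℕ) (B : ℕ → ℝ) (hB0 : ∀ k, 0 ≤ B k)
    (hB : ∀ k < L, wsum q (k + 1) (fun l => ∫ ω, RtI θ θ' M M' l ω ∂(labP (W q))) ≤ B k) :
    Rt θ θ' M M' ≤ 40 * nn M M' + ∑ k ∈ Finset.range L, B k
      + 204 * ((1 - c * s) ^ L / (c * s)) := by
  have hx0 : 0 ≤ 1 - c * s := by linarith [hF.cle]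
  have hx1 : 1 - c * s < 1 := by linarith [hF.cpos]
  have ht := theta_lt_one hq h1
  have ht' := theta_lt_one hq h1'
  have hg := goodA_ae h0 ht hF.sys
  have hg' := goodA_ae h0' ht' hF'.sys
  have hMM : Integrable (fun ω => (M ω - M' ω) ^ 2) (labP (W q)) := by
    have b1 : BM M := ⟨hF.sys.meas, 1, hF.sys.bd⟩
    have b2 : BM M' := ⟨hF'.sys.meas, 1, hF'.sys.bd⟩
    exact ((b1.sub b2).pow 2).integrable
  have hnn : 0 ≤ nn M M' := integral_nonneg fun ω => sq_nonneg _
  -- root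
  have hroot : ∫ ω, RtI θ θ' M M' [] ω ∂(labP (W q)) ≤ 40 * nn M M' := by
    unfold nn
    rw [← integral_const_mul]
    refine integral_mono_of_nonneg (Eventually.of_forall fun ω => RtI_nonneg _ _ _ _ _ _)
      (hMM.const_mul _) (Eventually.of_forall fun ω => ?_)
    have h3 := hF.sys.bd ω
    have h4 := hF'.sys.bd ω
    have h5 : |M ω + M' ω| ≤ 2 := (abs_add_le _ _).trans (by linarith)
    have h6 : (M ω + M' ω) ^ 2 ≤ 4 := by
      rw [← sq_abs]; nlinarith [abs_nonneg (M ω + M' ω)]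
    have h7 : M' ω ^ 2 ≤ 1 := by rw [← sq_abs]; nlinarith [abs_nonneg (M' ω)]
    have h8 : (1 - M' ω ^ 2) ^ 2 ≤ 1 := by nlinarith [sq_nonneg (M' ω)]
    simp only [RtI, covr, regr, atW, mul_one]
    have e : (1 - M ω ^ 2 - (1 - M' ω ^ 2)) ^ 2 = (M ω + M' ω) ^ 2 * (M ω - M' ω) ^ 2 := by ring
    rw [e]
    nlinarith [sq_nonneg (M ω - M' ω), mul_le_mul_of_nonneg_right h6 (sq_nonneg (M ω - M' ω)),
      mul_le_mul_of_nonneg_right h8 (sq_nonneg (M ω - M' ω))]
  -- far
  have hfar : ∀ k, wsum q (k + 1) (fun l => ∫ ω, RtI θ θ' M M' l ω ∂(labP (W q)))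
      ≤ 204 * (1 - c * s) ^ k := by
    intro k
    have hI : ∀ l : List (Fin (q + 1)), Integrable (fun ω => regr θ M l ω ^ 2) (labP (W q)) := by
      intro l
      refine Integrable.of_bound ((measurable_regr hF.sys.meas l).pow_const 2).aestronglyMeasurable
        1 ?_
      filter_upwards [hg] with ω hω
      obtain ⟨r0, r1⟩ := regr_mem h0 ht hω l
      have : θ ^ l.length ≤ 1 := pow_le_one₀ h0 ht.le
      rw [Real.norm_eq_abs, abs_of_nonneg (sq_nonneg _)]
      nlinarith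
    have hI' : ∀ l : List (Fin (q + 1)), Integrable (fun ω => regr θ' M' l ω ^ 2) (labP (W q)) := by
      intro l
      refine Integrable.of_bound ((measurable_regr hF'.sys.meas l).pow_const 2).aestronglyMeasurable
        1 ?_
      filter_upwards [hg'] with ω hω
      obtain ⟨r0, r1⟩ := regr_mem h0' ht' hω l
      have : θ' ^ l.length ≤ 1 := pow_le_one₀ h0' ht'.le
      rw [Real.norm_eq_abs, abs_of_nonneg (sq_nonneg _)]
      nlinarith
    have e : ∀ l : List (Fin (q + 1)), ∫ ω, RtI θ θ' M M' l ω ∂(labP (W q))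
        ≤ 4 * (∫ ω, regr θ M l ω ^ 2 ∂(labP (W q)))
          + 132 * ∫ ω, regr θ' M' l ω ^ 2 ∂(labP (W q)) := by
      intro l
      rw [← integral_const_mul, ← integral_const_mul, ← integral_add ((hI l).const_mul _)
        ((hI' l).const_mul _)]
      refine integral_mono_of_nonneg (Eventually.of_forall fun ω => RtI_nonneg _ _ _ _ _ _)
        (((hI l).const_mul _).add ((hI' l).const_mul _)) ?_
      filter_upwards [hg, hg'] with ω hω hω'
      obtain ⟨c0, c1⟩ := covr_mem h0 ht (hF.sys.bd ω) hω l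
      obtain ⟨d0, d1⟩ := covr_mem h0' ht' (hF'.sys.bd ω) hω' l
      obtain ⟨r0, r1⟩ := regr_mem h0 ht hω l
      obtain ⟨r0', r1'⟩ := regr_mem h0' ht' hω' l
      have h3 := hF.sys.bd (shl l ω)
      have h4 := hF'.sys.bd (shl l ω)
      have h5 : |M (shl l ω) - M' (shl l ω)| ≤ 2 := (abs_sub _ _).trans (by linarith)
      have h6 : (M (shl l ω) - M' (shl l ω)) ^ 2 ≤ 4 := by
        rw [← sq_abs]; nlinarith [abs_nonneg (M (shl l ω) - M' (shl l ω))]
      simp only [RtI, atW_eq]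
      have q1 : covr θ M l ω ^ 2 ≤ regr θ M l ω ^ 2 := by nlinarith
      have q2 : covr θ' M' l ω ^ 2 ≤ regr θ' M' l ω ^ 2 := by nlinarith
      have q3 : (covr θ' M' l ω) ^ 2 * (M (shl l ω) - M' (shl l ω)) ^ 2
          ≤ regr θ' M' l ω ^ 2 * 4 := mul_le_mul q2 h6 (sq_nonneg _) (sq_nonneg _)
      have q4 : (covr θ M l ω - covr θ' M' l ω) ^ 2
          ≤ 2 * covr θ M l ω ^ 2 + 2 * covr θ' M' l ω ^ 2 := by
        nlinarith [sq_nonneg (covr θ M l ω + covr θ' M' l ω)]
      nlinarith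
    refine (wsum_mono fun l _ _ => e l).trans ?_
    rw [wsum_add, wsum_mul, wsum_mul]
    have f1 := integral_wsum_regr_le hq h0 h1 hF k
    have f2 := integral_wsum_regr_le hq h0' h1' hF' k
    linarith
  unfold Rt
  refine tsum_le_of_wsum (f := fun l => ∫ ω, RtI θ θ' M M' l ω ∂(labP (W q)))
    (fun l => integral_nonneg fun ω => RtI_nonneg _ _ _ _ _ _) fun n => ?_
  rw [Finset.sum_range_succ']
  have h8 : ∑ k ∈ Finset.range n,
      wsum q (k + 1) (fun l => ∫ ω, RtI θ θ' M M' l ω ∂(labP (W q)))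
      ≤ ∑ k ∈ Finset.range n, ((if k < L then B k else 0)
        + 204 * (if L ≤ k then (1 - c * s) ^ k else 0)) := by
    refine Finset.sum_le_sum fun k _ => ?_
    by_cases hk : k < L
    · rw [if_pos hk, if_neg (by omega)]
      simpa using hB k hk
    · rw [if_neg hk, if_pos (by omega)]
      simpa using hfar k
  rw [Finset.sum_add_distrib, ← Finset.mul_sum] at h8
  have h9 : ∑ k ∈ Finset.range n, (if k < L then B k else 0) ≤ ∑ k ∈ Finset.range L, B k := by
    rw [← Finset.sum_filter]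
    refine Finset.sum_le_sum_of_subset_of_nonneg (fun k hk => ?_) fun k _ _ => hB0 k
    rw [Finset.mem_filter] at hk
    exact Finset.mem_range.2 hk.2
  have h10 := geom_tail hx0 hx1 L n
  have e : 1 - (1 - c * s) = c * s := by ring
  rw [e] at h10
  have e2 : wsum q 0 (fun l => ∫ ω, RtI θ θ' M M' l ω ∂(labP (W q)))
      = ∫ ω, RtI θ θ' M M' [] ω ∂(labP (W q)) := rfl
  rw [e2]
  linarith

end Crest.Agent.FreeIs.Rec
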