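import Crest.Agent.FreeIs.CohC
import Crest.Agent.FreeIs.Far

/-!
M8, part D: one level of the near part of `Rt`.
-/

set_option autoImplicit false
set_option linter.unusedVariables false

open MeasureTheory Filter Topology

namespace Crest.Agent.FreeIs.Coh

open Crest.Agent.FreeIs Crest.Agent.FreeIs.Rec

variable {q : ℕ} {θ θ' : ℝ} {M M' : Lab (W q) → ℝ}

theorem good_ae2 (h0 : 0 ≤ θ) (h1 : θ < 1) (h : Sys q θ M) :
    ∀ᵐ ω ∂(labP (W q)), GoodAll θ M ω ∧ GoodA θ M ω := by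
  filter_upwards [goodAll_ae h, goodA_ae h0 h1 h] with ω h1 h2
  exact ⟨h1, h2⟩

theorem BM.ofM (hM : Measurable M) (hb : ∀ ω, |M ω| ≤ 1) : BM M :=
  ⟨hM, 1, Eventually.of_forall hb⟩

theorem BM.msg (hq : 2 ≤ q) (h0 : 0 ≤ θ) (h1 : q * θ ^ 2 < 1) (h : Sys q θ M)
    (i : Fin (q + 1)) : BM (Crest.Agent.FreeIs.msg θ M i) := by
  refine ⟨measurable_msg h.meas i, 1, ?_⟩
  have ht : θ < 1 := by linarith [th_lt hq h0 h1]
  filter_upwards [goodAll_ae h] with ω hω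
  exact (msg_spec h0 ht hω.good i).1

theorem BM.aa (hq : 2 ≤ q) (h0 : 0 ≤ θ) (h1 : q * θ ^ 2 < 1) (h : Sys q θ M)
    (i : Fin (q + 1)) : BM (Crest.Agent.FreeIs.aa θ M i) := by
  refine ⟨measurable_aa h.meas i, 1, ?_⟩
  filter_upwards [goodAll_ae h] with ω hω
  rw [abs_of_nonneg (aa_nonneg' hq h0 h1 hω.good i)]
  exact aa_le_one hq h0 h1 hω.good i

theorem BM.dd (hq : 2 ≤ q) (h0 : 0 ≤ θ) (h1 : q * θ ^ 2 < 1) (h : Sys q θ M)
    (h0' : 0 ≤ θ') (h1' : q * θ' ^ 2 < 1) (h' : Sys q θ' M')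
    (i : Fin (q + 1)) : BM (DD θ θ' M M' i) :=
  ((BM.msg hq h0 h1 h i).sub (BM.msg hq h0' h1' h' i)).sq

theorem BM.regr (hq : 2 ≤ q) (h0 : 0 ≤ θ) (h1 : q * θ ^ 2 < 1) (h : Sys q θ M)
    (l : List (Fin (q + 1))) : BM (Crest.Agent.FreeIs.regr θ M l) := by
  have : Crest.Agent.FreeIs.regr θ M l = fun ω => ((√(q : ℝ))⁻¹) ^ l.length *
      Pr (Crest.Agent.FreeIs.aa θ M) l ω := by
    funext ω; exact regr_eq (by omega) θ M l ω
  rw [this]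
  exact (BM.pr (BM.aa hq h0 h1 h) l).cmul _

theorem BM.covr (hq : 2 ≤ q) (h0 : 0 ≤ θ) (h1 : q * θ ^ 2 < 1) (h : Sys q θ M)
    (l : List (Fin (q + 1))) : BM (Crest.Agent.FreeIs.covr θ M l) :=
  ((BM.const 1).sub (BM.ofM h.meas h.bd).sq).mul (BM.regr hq h0 h1 h l)

theorem regr_sub_sq (hq : 0 < q) (l : List (Fin (q + 1))) (ω : Lab (W q)) :
    (regr θ M l ω - regr θ' M' l ω) ^ 2
      = ((q : ℝ)⁻¹) ^ l.length * (Pr (aa θ M) l ω - Pr (aa θ' M') l ω) ^ 2 := by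
  rw [regr_eq hq, regr_eq hq, ← mul_sub, mul_pow, ← pow_mul, mul_comm l.length 2, pow_mul,
    inv_pow, Real.sq_sqrt (Nat.cast_nonneg q)]

theorem covr_reverse (hq : 0 < q) (h0 : 0 ≤ θ) (h1 : θ < 1) (l : List (Fin (q + 1)))
    {ω : Lab (W q)} (h : GoodAll θ M ω) : covr θ M l ω = covr θ M l.reverse (shl l ω) := by
  unfold covr
  rw [regr_eq hq, regr_eq hq, List.length_reverse]
  have := Pr_rev h0 h1 l h
  linear_combination ((√(q : ℝ))⁻¹ ^ l.length) * this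

theorem V_mem {ω : Lab (W q)} (hb : |M ω| ≤ 1) : 0 ≤ 1 - M ω ^ 2 ∧ 1 - M ω ^ 2 ≤ 1 := by
  have : M ω ^ 2 ≤ 1 := by rw [← sq_abs]; exact pow_le_one₀ (abs_nonneg _) hb
  exact ⟨by linarith, by linarith [sq_nonneg (M ω)]⟩

theorem ws_Asum (hq : 0 < q) (a : Fin (q + 1) → Lab (W q) → ℝ) (n : ℕ) (e : Fin (q + 1))
    (ω : Lab (W q)) : ws e n (fun l => Pr a l (sh e ω)) = (q : ℝ) ^ n * Asum a n e ω := by
  have hq' : (q : ℝ) ≠ 0 := by exact_mod_cast hq.ne'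
  have h1 : (q : ℝ) ^ n * ((q : ℝ)⁻¹) ^ n = 1 := by
    rw [← mul_pow, mul_inv_cancel₀ hq', one_pow]
  rw [Asum_eq, ← mul_assoc, h1, one_mul]

theorem ws_Asum' (hq : 0 < q) (a : Fin (q + 1) → Lab (W q) → ℝ) (n : ℕ) (e : Fin (q + 1))
    (ω : Lab (W q)) : ws e n (fun l => Pr a l ω) = (q : ℝ) ^ n * Asum a n e (sh e ω) := by
  have := ws_Asum hq a n e (sh e ω)
  rwa [sh_sh] at this

/-- the first part of a level -/
theorem level_one (hq : 2 ≤ q) (h0 : 0 ≤ θ) (h1 : q * θ ^ 2 < 1) (hs : Sys q θ M)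
    (h0' : 0 ≤ θ') (h1' : q * θ' ^ 2 < 1) (hs' : Sys q θ' M') (k : ℕ) :
    wsum q (k + 1) (fun l => ∫ ω, (M ω - M' ω) ^ 2 * regr θ' M' l ω ^ 2 ∂(labP (W q)))
      ≤ (q : ℝ)⁻¹ * ∑ i, ∫ ω, (M ω - M' ω) ^ 2 * Asum (aa θ' M') k i ω ∂(labP (W q)) := by
  have ht' : θ' < 1 := by linarith [th_lt hq h0' h1']
  have hN : BM (fun ω => (M ω - M' ω) ^ 2) :=
    ((BM.ofM hs.meas hs.bd).sub (BM.ofM hs'.meas hs'.bd)).sq
  have hR : ∀ l, BM (fun ω => (M ω - M' ω) ^ 2 * regr θ' M' l ω ^ 2) := fun l =>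
    hN.mul (BM.regr hq h0' h1' hs' l).sq
  have hA : ∀ i, BM (fun ω => (M ω - M' ω) ^ 2 * Asum (aa θ' M') k i ω) := fun i =>
    hN.mul (BM.asum (BM.aa hq h0' h1' hs') k i)
  rw [← integral_wsum (fun l => (hR l).integrable), ← integral_fsum Finset.univ hA,
    ← integral_const_mul]
  refine integral_mono_ae (BM.wsum hR (k + 1)).integrable
    ((BM.sum Finset.univ hA).cmul _).integrable ?_
  filter_upwards [good_ae2 h0' ht' hs'] with ω hω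
  have e1 : wsum q (k + 1) (fun l => (M ω - M' ω) ^ 2 * regr θ' M' l ω ^ 2)
      = (M ω - M' ω) ^ 2 * wsum q (k + 1) (fun l => regr θ' M' l ω ^ 2) := wsum_mul _ _
  rw [e1]
  have e2 : wsum q (k + 1) (fun l => regr θ' M' l ω ^ 2)
      ≤ (q : ℝ)⁻¹ * ∑ i, Asum (aa θ' M') k i ω := by
    simp only [wsum]
    rw [Finset.mul_sum]
    refine Finset.sum_le_sum fun i _ => ?_
    refine (ws_regr_sq_le hq h0' h1'.le hω.2 k i).trans ?_
    have a1 := aa_le_one hq h0' h1' hω.1.good i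
    have a2 := (Asum_bounds hq h0' h1' k i hω.1).1
    exact mul_le_mul_of_nonneg_left (mul_le_of_le_one_left a2 a1) (by positivity)
  calc (M ω - M' ω) ^ 2 * wsum q (k + 1) (fun l => regr θ' M' l ω ^ 2)
      ≤ (M ω - M' ω) ^ 2 * ((q : ℝ)⁻¹ * ∑ i, Asum (aa θ' M') k i ω) :=
        mul_le_mul_of_nonneg_left e2 (sq_nonneg _)
    _ = _ := by
      rw [Finset.mul_sum, Finset.mul_sum, Finset.mul_sum]
      exact Finset.sum_congr rfl fun i _ => by ring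

/-- the telescoped part of a level -/
theorem level_two (hq : 2 ≤ q) (h0 : 0 ≤ θ) (h1 : q * θ ^ 2 < 1) (hs : Sys q θ M)
    (h0' : 0 ≤ θ') (h1' : q * θ' ^ 2 < 1) (hs' : Sys q θ' M') {K : ℝ} (hK : 0 ≤ K)
    (hlip : ∀ (ω : Lab (W q)) (e : Fin (q + 1)), Good θ M ω → Good θ' M' ω →
      |aa θ M e ω - aa θ' M' e ω| ≤ K * ((|msg θ M e ω| + |msg θ' M' e ω|) *
        |msg θ M e ω - msg θ' M' e ω| + |θ - θ'|)) (k : ℕ) :
    wsum q (k + 1) (fun l => ∫ ω, (1 - M ω ^ 2) * (regr θ M l ω - regr θ' M' l ω) ^ 2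
        ∂(labP (W q)))
      ≤ 12 * K ^ 2 * ((q : ℝ)⁻¹ * ∑ j ∈ Finset.range (k + 1), ∑ e, ∫ ω, DD θ θ' M M' e ω *
          (Asum (aa θ M) j e (sh e ω) * Asum (aa θ' M') (k - j) e ω) ∂(labP (W q)))
        + 9 / 2 * K ^ 2 * ((k + 1) * |θ - θ'|) ^ 2 := by
  have hq0 : 0 < q := by omega
  have hqr : (0 : ℝ) < q := by exact_mod_cast hq0
  have ht : θ < 1 := by linarith [th_lt hq h0 h1]
  have ht' : θ' < 1 := by linarith [th_lt hq h0' h1']
  have hV : BM (fun ω => 1 - M ω ^ 2) := (BM.const 1).sub (BM.ofM hs.meas hs.bd).sq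
  have ha := BM.aa hq h0 h1 hs
  have ha' := BM.aa hq h0' h1' hs'
  have hD := BM.dd hq h0 h1 hs h0' h1' hs'
  have hT := fun l => BM.tl ha ha' hD l
  -- pointwise bound for one word
  have p1 : ∀ l : List (Fin (q + 1)), l.length = k + 1 →
      ∫ ω, (1 - M ω ^ 2) * (regr θ M l ω - regr θ' M' l ω) ^ 2 ∂(labP (W q))
      ≤ 12 * K ^ 2 * ((q : ℝ)⁻¹) ^ (k + 1) *
          (∫ ω, (1 - M ω ^ 2) * Tl (aa θ M) (aa θ' M') (DD θ θ' M M') l ω ∂(labP (W q)))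
        + 3 * K ^ 2 * ((q : ℝ)⁻¹) ^ (k + 1) * ((k + 1) * |θ - θ'|) ^ 2 := by
    intro l hl
    have e0 : 3 * K ^ 2 * ((q : ℝ)⁻¹) ^ (k + 1) * ((k + 1) * |θ - θ'|) ^ 2
        = ∫ ω : Lab (W q), 3 * K ^ 2 * ((q : ℝ)⁻¹) ^ (k + 1) * ((k + 1) * |θ - θ'|) ^ 2
          ∂(labP (W q)) := by simp
    rw [e0, ← integral_const_mul, ← integral_add ((hV.mul (hT l)).cmul _).integrable
      (BM.const _).integrable]
    refine integral_mono_ae (hV.mul ((BM.regr hq h0 h1 hs l).sub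
      (BM.regr hq h0' h1' hs' l)).sq).integrable
      (((hV.mul (hT l)).cmul _).add (BM.const _)).integrable ?_
    filter_upwards [goodAll_ae hs, goodAll_ae hs'] with ω hω hω'
    obtain ⟨v0, v1⟩ := V_mem (hs.bd ω)
    rw [regr_sub_sq hq0, hl]
    have hp := Pr_diff_sq hq h0 h1 h0' h1' hK hlip l hω hω'
    rw [hl] at hp
    push_cast at hp
    set T := Tl (aa θ M) (aa θ' M') (DD θ θ' M M') l ω
    set Q := ((q : ℝ)⁻¹) ^ (k + 1)
    have hQ : 0 ≤ Q := by positivity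
    set V := 1 - M ω ^ 2
    calc V * (Q * (Pr (aa θ M) l ω - Pr (aa θ' M') l ω) ^ 2)
        ≤ V * (Q * (K ^ 2 * (12 * T + 3 * ((k + 1) * |θ - θ'|) ^ 2))) :=
          mul_le_mul_of_nonneg_left (mul_le_mul_of_nonneg_left hp hQ) v0
      _ = 12 * K ^ 2 * Q * (V * T) + V * (3 * K ^ 2 * Q * ((k + 1) * |θ - θ'|) ^ 2) := by ring
      _ ≤ _ := by
        have : V * (3 * K ^ 2 * Q * ((k + 1) * |θ - θ'|) ^ 2)
            ≤ 3 * K ^ 2 * Q * ((k + 1) * |θ - θ'|) ^ 2 :=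
          mul_le_of_le_one_left (by positivity) v1
        linarith
  refine (wsum_mono fun l hl _ => p1 l hl).trans ?_
  rw [wsum_add, wsum_mul, wsum_const_succ]
  -- recentring
  have hedge : ∀ᵐ ω ∂(labP (W q)), ∀ e, (1 - M ω ^ 2) * aa θ M e ω
      = (1 - M (sh e ω) ^ 2) * aa θ M e (sh e ω) := by
    filter_upwards [goodAll_ae hs] with ω hω e
    have := edge_id h0 ht hω.good e
    unfold aa
    linear_combination (√(q : ℝ) * θ) * this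
  have hrec := recentre ha ha' hD hV hedge k 0
  simp only [ws, Pr_nil, mul_one, zero_add] at hrec
  have e1 : wsum q (k + 1) (fun l => ∫ ω, (1 - M ω ^ 2) *
      Tl (aa θ M) (aa θ' M') (DD θ θ' M M') l ω ∂(labP (W q)))
      = ∑ e, ws e k (fun l => ∫ ω, (1 - M ω ^ 2) *
        Tl (aa θ M) (aa θ' M') (DD θ θ' M M') (e :: l) ω ∂(labP (W q))) := rfl
  rw [e1, hrec]
  have e2 : ∀ j ∈ Finset.range (k + 1), ∀ e : Fin (q + 1),
      ((q : ℝ)⁻¹) ^ (k + 1) * ∫ ω, (1 - M ω ^ 2) * ws e j (fun b => Pr (aa θ M) b ω) *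
        (DD θ θ' M M' e ω * ws e (k - j) (fun f => Pr (aa θ' M') f (sh e ω))) ∂(labP (W q))
      ≤ (q : ℝ)⁻¹ * ∫ ω, DD θ θ' M M' e ω *
          (Asum (aa θ M) j e (sh e ω) * Asum (aa θ' M') (k - j) e ω) ∂(labP (W q)) := by
    intro j hj e
    have hj' : j ≤ k := by rw [Finset.mem_range] at hj; omega
    rw [← integral_const_mul, ← integral_const_mul]
    have hΨ : ∀ (e : Fin (q + 1)) (i : ℕ), BM (fun ω => ws e i (fun b => Pr (aa θ M) b ω)) :=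
      fun e i => BM.ws (fun b => BM.pr ha b) e i
    have hΦ : ∀ (e : Fin (q + 1)) (i : ℕ),
        BM (fun ω => ws e i (fun b => Pr (aa θ' M') b (sh e ω))) :=
      fun e i => BM.ws (fun b => (BM.pr ha' b).shi e) e i
    refine integral_mono_ae (((hV.mul (hΨ e j)).mul ((hD e).mul (hΦ e (k - j)))).cmul _).integrable
      ((hD e).mul (((BM.asum ha j e).shi e).mul (BM.asum ha' (k - j) e)) |>.cmul _).integrable ?_
    filter_upwards [goodAll_ae hs, goodAll_ae hs'] with ω hω hω'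
    rw [ws_Asum' hq0, ws_Asum hq0]
    obtain ⟨v0, v1⟩ := V_mem (hs.bd ω)
    have b1 := (Asum_bounds hq h0 h1 j e (hω.shift e)).1
    have b2 := (Asum_bounds hq h0' h1' (k - j) e hω').1
    have b3 : 0 ≤ DD θ θ' M M' e ω := sq_nonneg _
    set x := Asum (aa θ M) j e (sh e ω)
    set y := Asum (aa θ' M') (k - j) e ω
    set V := 1 - M ω ^ 2
    have hpow : ((q : ℝ)⁻¹) ^ (k + 1) * ((q : ℝ) ^ j * (q : ℝ) ^ (k - j)) = (q : ℝ)⁻¹ := by
      rw [← pow_add, Nat.add_sub_cancel' hj', pow_succ, mul_right_comm, ← mul_pow,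
        inv_mul_cancel₀ hqr.ne', one_pow, one_mul]
    calc ((q : ℝ)⁻¹) ^ (k + 1) * (V * ((q : ℝ) ^ j * x) *
          (DD θ θ' M M' e ω * ((q : ℝ) ^ (k - j) * y)))
        = (((q : ℝ)⁻¹) ^ (k + 1) * ((q : ℝ) ^ j * (q : ℝ) ^ (k - j))) *
          (V * (DD θ θ' M M' e ω * (x * y))) := by ring
      _ = (q : ℝ)⁻¹ * (V * (DD θ θ' M M' e ω * (x * y))) := by rw [hpow]
      _ ≤ _ := mul_le_mul_of_nonneg_left (mul_le_of_le_one_left (by positivity) v1)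
        (by positivity)
  have e3 : ((q : ℝ)⁻¹) ^ (k + 1) * ∑ j ∈ Finset.range (k + 1), ∑ e, ∫ ω, (1 - M ω ^ 2) *
        ws e j (fun b => Pr (aa θ M) b ω) *
        (DD θ θ' M M' e ω * ws e (k - j) (fun f => Pr (aa θ' M') f (sh e ω))) ∂(labP (W q))
      ≤ (q : ℝ)⁻¹ * ∑ j ∈ Finset.range (k + 1), ∑ e, ∫ ω, DD θ θ' M M' e ω *
          (Asum (aa θ M) j e (sh e ω) * Asum (aa θ' M') (k - j) e ω) ∂(labP (W q)) := by
    rw [Finset.mul_sum, Finset.mul_sum]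
    refine Finset.sum_le_sum fun j hj => ?_
    rw [Finset.mul_sum, Finset.mul_sum]
    exact Finset.sum_le_sum fun e _ => e2 j hj e
  have e4 : (q + 1) * (q : ℝ) ^ k * (3 * K ^ 2 * ((q : ℝ)⁻¹) ^ (k + 1) *
      ((k + 1) * |θ - θ'|) ^ 2) ≤ 9 / 2 * K ^ 2 * ((k + 1) * |θ - θ'|) ^ 2 := by
    have hpow : (q : ℝ) ^ k * ((q : ℝ)⁻¹) ^ (k + 1) = (q : ℝ)⁻¹ := by
      rw [pow_succ, ← mul_assoc, ← mul_pow, mul_inv_cancel₀ hqr.ne', one_pow, one_mul]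
    have hq2 : (2 : ℝ) ≤ q := by exact_mod_cast hq
    have hle : (q + 1) * (q : ℝ)⁻¹ ≤ 3 / 2 := by
      rw [← div_eq_mul_inv, div_le_iff₀ hqr]; linarith
    calc (q + 1) * (q : ℝ) ^ k * (3 * K ^ 2 * ((q : ℝ)⁻¹) ^ (k + 1) *
          ((k + 1) * |θ - θ'|) ^ 2)
        = (q + 1) * ((q : ℝ) ^ k * ((q : ℝ)⁻¹) ^ (k + 1)) * (3 * K ^ 2 *
          ((k + 1) * |θ - θ'|) ^ 2) := by ring
      _ = ((q + 1) * (q : ℝ)⁻¹) * (3 * K ^ 2 * ((k + 1) * |θ - θ'|) ^ 2) := by rw [hpow]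
      _ ≤ 3 / 2 * (3 * K ^ 2 * ((k + 1) * |θ - θ'|) ^ 2) :=
        mul_le_mul_of_nonneg_right hle (by positivity)
      _ = _ := by ring
  have e5 : 12 * K ^ 2 * ((q : ℝ)⁻¹) ^ (k + 1) * ∑ j ∈ Finset.range (k + 1), ∑ e,
        ∫ ω, (1 - M ω ^ 2) * ws e j (fun b => Pr (aa θ M) b ω) *
        (DD θ θ' M M' e ω * ws e (k - j) (fun f => Pr (aa θ' M') f (sh e ω))) ∂(labP (W q))
      = 12 * K ^ 2 * (((q : ℝ)⁻¹) ^ (k + 1) * ∑ j ∈ Finset.range (k + 1), ∑ e,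
        ∫ ω, (1 - M ω ^ 2) * ws e j (fun b => Pr (aa θ M) b ω) *
        (DD θ θ' M M' e ω * ws e (k - j) (fun f => Pr (aa θ' M') f (sh e ω))) ∂(labP (W q))) := by
    ring
  rw [e5]
  have e6 := mul_le_mul_of_nonneg_left e3 (by positivity : 0 ≤ 12 * K ^ 2)
  linarith

/-- one level -/
theorem level (hq : 2 ≤ q) (h0 : 0 ≤ θ) (h1 : q * θ ^ 2 < 1) (hs : Sys q θ M)
    (h0' : 0 ≤ θ') (h1' : q * θ' ^ 2 < 1) (hs' : Sys q θ' M') {K : ℝ} (hK : 0 ≤ K)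
    (hlip : ∀ (ω : Lab (W q)) (e : Fin (q + 1)), Good θ M ω → Good θ' M' ω →
      |aa θ M e ω - aa θ' M' e ω| ≤ K * ((|msg θ M e ω| + |msg θ' M' e ω|) *
        |msg θ M e ω - msg θ' M' e ω| + |θ - θ'|)) (k : ℕ) :
    wsum q (k + 1) (fun l => ∫ ω, RtI θ θ' M M' l ω ∂(labP (W q)))
      ≤ 48 * ((q : ℝ)⁻¹ * ∑ i, ∫ ω, (M ω - M' ω) ^ 2 * Asum (aa θ' M') k i ω ∂(labP (W q)))
        + (48 * K ^ 2 * ((q : ℝ)⁻¹ * ∑ j ∈ Finset.range (k + 1), ∑ e, ∫ ω, DD θ θ' M M' e ω *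
          (Asum (aa θ M) j e (sh e ω) * Asum (aa θ' M') (k - j) e ω) ∂(labP (W q)))
        + 18 * K ^ 2 * ((k + 1) * |θ - θ'|) ^ 2) := by
  have hq0 : 0 < q := by omega
  have ht : θ < 1 := by linarith [th_lt hq h0 h1]
  have ht' : θ' < 1 := by linarith [th_lt hq h0' h1']
  have hV : BM (fun ω => 1 - M ω ^ 2) := (BM.const 1).sub (BM.ofM hs.meas hs.bd).sq
  have hN : BM (fun ω => (M ω - M' ω) ^ 2) :=
    ((BM.ofM hs.meas hs.bd).sub (BM.ofM hs'.meas hs'.bd)).sq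
  have hreg := fun l => BM.regr hq h0 h1 hs l
  have hreg' := fun l => BM.regr hq h0' h1' hs' l
  have hcov := fun l => BM.covr hq h0 h1 hs l
  have hcov' := fun l => BM.covr hq h0' h1' hs' l
  have b1 : ∀ l, BM (fun ω => (M ω - M' ω) ^ 2 * regr θ' M' l ω ^ 2) := fun l =>
    hN.mul (hreg' l).sq
  have b2 : ∀ l, BM (fun ω => (1 - M ω ^ 2) * (regr θ M l ω - regr θ' M' l ω) ^ 2) := fun l =>
    hV.mul ((hreg l).sub (hreg' l)).sq
  have b3 : ∀ l, BM (fun ω => covr θ' M' l ω ^ 2 * (M (shl l ω) - M' (shl l ω)) ^ 2) := fun l =>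
    (hcov' l).sq.mul (hN.shiftl l)
  have bR : ∀ l, BM (RtI θ θ' M M' l) := fun l => by
    have : RtI θ θ' M M' l = fun ω => 2 * (covr θ M l ω - covr θ' M' l ω) ^ 2
        + 32 * (covr θ' M' l ω ^ 2 * (M (shl l ω) - M' (shl l ω)) ^ 2) := by
      funext ω
      unfold RtI
      rw [atW_eq, atW_eq]
      ring
    rw [this]
    exact (((hcov l).sub (hcov' l)).sq.cmul 2).add ((b3 l).cmul 32)
  have s1 : ∀ l, ∫ ω, RtI θ θ' M M' l ω ∂(labP (W q))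
      ≤ 16 * (∫ ω, (M ω - M' ω) ^ 2 * regr θ' M' l ω ^ 2 ∂(labP (W q)))
        + (4 * (∫ ω, (1 - M ω ^ 2) * (regr θ M l ω - regr θ' M' l ω) ^ 2 ∂(labP (W q)))
        + 32 * ∫ ω, covr θ' M' l ω ^ 2 * (M (shl l ω) - M' (shl l ω)) ^ 2 ∂(labP (W q))) := by
    intro l
    rw [← integral_const_mul, ← integral_const_mul, ← integral_const_mul,
      ← integral_add ((b2 l).cmul 4).integrable ((b3 l).cmul 32).integrable,
      ← integral_add ((b1 l).cmul 16).integrable (((b2 l).cmul 4).add ((b3 l).cmul 32)).integrable]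
    refine integral_mono_ae (bR l).integrable
      (((b1 l).cmul 16).add (((b2 l).cmul 4).add ((b3 l).cmul 32))).integrable ?_
    refine Eventually.of_forall fun ω => ?_
    simp only [RtI, atW_eq, covr]
    obtain ⟨v0, v1⟩ := V_mem (hs.bd ω)
    have hMs : (M ω + M' ω) ^ 2 ≤ 4 := by
      have h5 : |M ω + M' ω| ≤ 2 := (abs_add_le _ _).trans (by linarith [hs.bd ω, hs'.bd ω])
      rw [← sq_abs]; nlinarith [abs_nonneg (M ω + M' ω)]
    set r := regr θ M l ω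
    set r' := regr θ' M' l ω
    set m := M ω
    set m' := M' ω
    have e1 : (1 - m ^ 2) * r - (1 - m' ^ 2) * r'
        = -((m + m') * (m - m') * r') + (1 - m ^ 2) * (r - r') := by ring
    have e2 : ((1 - m ^ 2) * r - (1 - m' ^ 2) * r') ^ 2
        ≤ 2 * ((m + m') * (m - m') * r') ^ 2 + 2 * ((1 - m ^ 2) * (r - r')) ^ 2 := by
      rw [e1]
      nlinarith [sq_nonneg (((m + m') * (m - m') * r') + (1 - m ^ 2) * (r - r'))]
    have e3 : ((m + m') * (m - m') * r') ^ 2 ≤ 4 * ((m - m') ^ 2 * r' ^ 2) := by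
      have : ((m + m') * (m - m') * r') ^ 2 = (m + m') ^ 2 * ((m - m') ^ 2 * r' ^ 2) := by ring
      rw [this]
      exact mul_le_mul_of_nonneg_right hMs (by positivity)
    have e4 : ((1 - m ^ 2) * (r - r')) ^ 2 ≤ (1 - m ^ 2) * (r - r') ^ 2 := by
      have : ((1 - m ^ 2) * (r - r')) ^ 2 = (1 - m ^ 2) * ((1 - m ^ 2) * (r - r') ^ 2) := by ring
      rw [this]
      exact mul_le_mul_of_nonneg_left (mul_le_of_le_one_left (sq_nonneg _) v1) v0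
    linarith
  have s2 : ∀ l, ∫ ω, covr θ' M' l ω ^ 2 * (M (shl l ω) - M' (shl l ω)) ^ 2 ∂(labP (W q))
      ≤ ∫ ω, (M ω - M' ω) ^ 2 * regr θ' M' l.reverse ω ^ 2 ∂(labP (W q)) := by
    intro l
    have e1 : ∫ ω, covr θ' M' l ω ^ 2 * (M (shl l ω) - M' (shl l ω)) ^ 2 ∂(labP (W q))
        = ∫ ω, covr θ' M' l.reverse ω ^ 2 * (M ω - M' ω) ^ 2 ∂(labP (W q)) := by
      rw [← integral_shl l (fun ω => covr θ' M' l.reverse ω ^ 2 * (M ω - M' ω) ^ 2)]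
      refine integral_congr_ae ?_
      filter_upwards [goodAll_ae hs'] with ω hω
      rw [covr_reverse hq0 h0' ht' l hω]
    rw [e1]
    refine integral_mono_ae ((hcov' l.reverse).sq.mul hN).integrable (b1 l.reverse).integrable ?_
    refine Eventually.of_forall fun ω => ?_
    simp only [covr]
    obtain ⟨v0, v1⟩ := V_mem (hs'.bd ω)
    have : ((1 - M' ω ^ 2) * regr θ' M' l.reverse ω) ^ 2 ≤ regr θ' M' l.reverse ω ^ 2 := by
      rw [mul_pow]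
      exact mul_le_of_le_one_left (sq_nonneg _) (pow_le_one₀ v0 v1)
    calc ((1 - M' ω ^ 2) * regr θ' M' l.reverse ω) ^ 2 * (M ω - M' ω) ^ 2
        ≤ regr θ' M' l.reverse ω ^ 2 * (M ω - M' ω) ^ 2 :=
          mul_le_mul_of_nonneg_right this (sq_nonneg _)
      _ = _ := mul_comm _ _
  have s3 : wsum q (k + 1) (fun l => ∫ ω, RtI θ θ' M M' l ω ∂(labP (W q)))
      ≤ 48 * wsum q (k + 1)
          (fun l => ∫ ω, (M ω - M' ω) ^ 2 * regr θ' M' l ω ^ 2 ∂(labP (W q)))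
        + 4 * wsum q (k + 1) (fun l => ∫ ω, (1 - M ω ^ 2) *
          (regr θ M l ω - regr θ' M' l ω) ^ 2 ∂(labP (W q))) := by
    have t1 := wsum_mono (q := q) (n := k + 1) (fun l _ _ => (s1 l).trans
      (add_le_add_right (add_le_add_right (mul_le_mul_of_nonneg_left (s2 l)
        (by norm_num : (0 : ℝ) ≤ 32)) _) _))
    refine t1.trans (le_of_eq ?_)
    rw [wsum_add, wsum_add, wsum_mul, wsum_mul, wsum_mul]
    have t2 := wsum_reverse (k + 1) (fun l : List (Fin (q + 1)) => ∫ ω, (M ω - M' ω) ^ 2 *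
      regr θ' M' l ω ^ 2 ∂(labP (W q)))
    rw [t2]
    ring
  have l1 := level_one hq h0 h1 hs h0' h1' hs' k
  have l2 := level_two hq h0 h1 hs h0' h1' hs' hK hlip k
  linarith

end Crest.Agent.FreeIs.Coh
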