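import Crest.Agent.FreeIs.GibbsGen
import Crest.Agent.FreeIs.Real

set_option autoImplicit false
set_option linter.unusedVariables false
set_option linter.unusedSectionVars false

open MeasureTheory

universe u

namespace Crest.Agent.FreeIs

section Cut

variable {V : Type u} [DecidableEq V] (G : SimpleGraph V)

theorem one_eq_inter (A : Finset V) : ∀ P : Finset V, (fun _ : Finset V => (1:ℝ)) P
    = (fun _ : Finset V => (1:ℝ)) (P ∩ A) := fun _ => rfl

theorem spin_eq_inter {A : Finset V} {x : V} (hx : x ∈ A) : ∀ P : Finset V,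
    (fun P : Finset V => spin P x) P = (fun P : Finset V => spin P x) (P ∩ A) := by
  intro P
  exact (spin_inter hx).symm

theorem gexp_spin_eq {θ : ℝ} (h0 : 0 ≤ θ) (h1 : θ < 1) {Λ : Finset V} {t : V → ℝ}
    (ht : ∀ v ∈ Λ, |t v| < 1) {v : V} (hv : v ∈ Λ) :
    gexp G θ Λ t (fun P => spin P v) = mag G θ Λ t v * Zf G θ Λ t := by
  have hZ := Zf_pos G h0 h1 ht
  rw [mag_of_mem G hv]; field_simp

/-- all the cut identities at once -/
theorem cut_all {θ : ℝ} (h0 : 0 ≤ θ) (h1 : θ < 1) {A B : Finset V} (hAB : Disjoint A B) {x y : V}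
    (hx : x ∈ A) (hy : y ∈ B)
    (hxy : G.Adj x y) (hc : ∀ a ∈ A, ∀ b ∈ B, G.Adj a b → a = x ∧ b = y) {t : V → ℝ}
    (ht : ∀ v ∈ A ∪ B, |t v| < 1) :
    Zf G θ (A ∪ B) t = Zf G θ A t * Zf G θ B t * (1 + θ * (mag G θ A t x * mag G θ B t y)) ∧
    mag G θ (A ∪ B) t x = ein (mag G θ A t x) (θ * mag G θ B t y) ∧
    mag G θ (A ∪ B) t y = ein (mag G θ B t y) (θ * mag G θ A t x) ∧
    ∀ v ∈ A, cov G θ (A ∪ B) t v y = cov G θ (A ∪ B) t v x * (θ * gg θ (mag G θ B t y)) := by
  have htA : ∀ v ∈ A, |t v| < 1 := fun v hv => ht v (Finset.mem_union_left _ hv)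
  have htB : ∀ v ∈ B, |t v| < 1 := fun v hv => ht v (Finset.mem_union_right _ hv)
  have hZA := Zf_pos G h0 h1 htA
  have hZB := Zf_pos G h0 h1 htB
  have hZ := Zf_pos G h0 h1 ht
  have hA : x ∈ A ∪ B := Finset.mem_union_left _ hx
  have hB : y ∈ A ∪ B := Finset.mem_union_right _ hy
  have ha := mag_lt G h0 h1 htA x
  have hb := mag_lt G h0 h1 htB y
  have sA := gexp_spin_eq G h0 h1 htA hx
  have sB := gexp_spin_eq G h0 h1 htB hy
  have e1 := gexp_cut G (θ := θ) hAB hx hy hxy hc t (fun _ => 1) (fun _ => 1) (one_eq_inter A)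
    (one_eq_inter B)
  have e2 := gexp_cut G (θ := θ) hAB hx hy hxy hc t (fun P => spin P x) (fun _ => 1)
    (spin_eq_inter hx) (one_eq_inter B)
  have e3 := gexp_cut G (θ := θ) hAB hx hy hxy hc t (fun _ => 1) (fun P => spin P y)
    (one_eq_inter A) (spin_eq_inter hy)
  have oneA : gexp G θ A t (fun _ => 1) = Zf G θ A t := rfl
  have oneB : gexp G θ B t (fun _ => 1) = Zf G θ B t := rfl
  have oneAB : gexp G θ (A ∪ B) t (fun _ => 1) = Zf G θ (A ∪ B) t := rfl
  have sqA : gexp G θ A t (fun P => spin P x * spin P x) = Zf G θ A t := by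
    unfold Zf; congr 1; funext P; exact spin_sq P x
  have sqB : gexp G θ B t (fun P => spin P y * spin P y) = Zf G θ B t := by
    unfold Zf; congr 1; funext P; exact spin_sq P y
  simp only [one_mul, mul_one] at e1 e2 e3
  rw [oneA, oneB, oneAB, sA, sB] at e1
  rw [oneB, sA, sB, sqA] at e2
  rw [oneA, sB, sA, sqB] at e3
  have hD : 0 < 1 + θ * (mag G θ A t x * mag G θ B t y) := by
    have h3 : |mag G θ A t x * mag G θ B t y| < 1 := by
      rw [abs_mul]; nlinarith [abs_nonneg (mag G θ A t x), abs_nonneg (mag G θ B t y)]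
    nlinarith [(abs_lt.1 h3).1, (abs_lt.1 h3).2]
  have hZe : Zf G θ (A ∪ B) t
      = Zf G θ A t * Zf G θ B t * (1 + θ * (mag G θ A t x * mag G θ B t y)) := by
    rw [e1]; ring
  have hmx : mag G θ (A ∪ B) t x = ein (mag G θ A t x) (θ * mag G θ B t y) := by
    rw [mag_of_mem G hA, e2, hZe]
    unfold ein
    have hD' : 1 + mag G θ A t x * (θ * mag G θ B t y) ≠ 0 := by
      have : 1 + mag G θ A t x * (θ * mag G θ B t y)
        = 1 + θ * (mag G θ A t x * mag G θ B t y) := by ring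
      rw [this]; exact hD.ne'
    rw [div_eq_div_iff (mul_ne_zero (mul_ne_zero hZA.ne' hZB.ne') hD.ne') hD']
    ring
  have hmy : mag G θ (A ∪ B) t y = ein (mag G θ B t y) (θ * mag G θ A t x) := by
    rw [mag_of_mem G hB, e3, hZe]
    unfold ein
    have hD' : 1 + mag G θ B t y * (θ * mag G θ A t x) ≠ 0 := by
      have : 1 + mag G θ B t y * (θ * mag G θ A t x)
        = 1 + θ * (mag G θ A t x * mag G θ B t y) := by ring
      rw [this]; exact hD.ne'
    rw [div_eq_div_iff (mul_ne_zero (mul_ne_zero hZA.ne' hZB.ne') hD.ne') hD']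
    ring
  refine ⟨hZe, hmx, hmy, ?_⟩
  intro v hv
  have hvU : v ∈ A ∪ B := Finset.mem_union_left _ hv
  have e4 := gexp_cut G (θ := θ) hAB hx hy hxy hc t (fun P => spin P v) (fun _ => 1)
    (spin_eq_inter hv) (one_eq_inter B)
  have e5 := gexp_cut G (θ := θ) hAB hx hy hxy hc t (fun P => spin P v) (fun P => spin P y)
    (spin_eq_inter hv) (spin_eq_inter hy)
  have e6 := gexp_cut G (θ := θ) hAB hx hy hxy hc t (fun P => spin P v * spin P x) (fun _ => 1)
    (by intro P; simp only [spin_inter hv, spin_inter hx]) (one_eq_inter B)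
  simp only [one_mul, mul_one] at e4 e5 e6
  have sAv := gexp_spin_eq G h0 h1 htA hv
  have e7 : gexp G θ A t (fun P => spin P v * spin P x * spin P x)
      = mag G θ A t v * Zf G θ A t := by
    rw [← sAv]; congr 1; funext P; rw [mul_assoc, spin_sq, mul_one]
  rw [oneB, sAv, sB] at e4
  rw [sAv, sB, sqB] at e5
  rw [oneB, sB, e7] at e6
  rw [cov_of_mem G hvU hB, cov_of_mem G hvU hA, e5, e6, mag_of_mem G hvU, e4, hmx, hmy, hZe]
  have hg : 1 - θ ^ 2 * (mag G θ B t y) ^ 2 ≠ 0 := by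
    have h3 : (mag G θ B t y) ^ 2 < 1 := by
      rw [sq_lt_one_iff_abs_lt_one]; exact hb
    have h4 : θ ^ 2 < 1 := by nlinarith
    nlinarith [sq_nonneg θ, sq_nonneg (mag G θ B t y)]
  unfold ein gg
  generalize gexp G θ A t (fun P => spin P v * spin P x) = c at *
  generalize mag G θ A t x = a at *
  generalize mag G θ B t y = b at *
  generalize mag G θ A t v = m at *
  generalize Zf G θ A t = Z1 at *
  generalize Zf G θ B t = Z2 at *
  have hD1 : 1 + a * (θ * b) = 1 + θ * (a * b) := by ring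
  have hD2 : 1 + b * (θ * a) = 1 + θ * (a * b) := by ring
  rw [hD1, hD2]
  have hZ1 := hZA.ne'
  have hZ2 := hZB.ne'
  have hDn := hD.ne'
  generalize hDD : 1 + θ * (a * b) = D at *
  generalize hEE : 1 - θ ^ 2 * b ^ 2 = E at *
  clear e1 e2 e3 e4 e5 e6 e7 sA sB sAv sqA sqB oneA oneB oneAB hmx hmy hZe
  field_simp
  rw [← hDD, ← hEE]
  ring

end Cut

section WordsG

variable {q : ℕ}

theorem mem_below {Λ : Finset (W q)} {w x : W q} : x ∈ below Λ w ↔ x ∈ Λ ∧ w.1 <+: x.1 := by
  unfold below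
  rw [Finset.mem_filter]

theorem below_subset (Λ : Finset (W q)) (w : W q) : below Λ w ⊆ Λ := by
  intro x hx
  exact (mem_below.1 hx).1

theorem cross_aux {u v w : W q} {a : Fin (q + 1)} (hw : w.1 = u.1 ++ [a]) {x y : W q}
    (hx : ¬ w.1 <+: x.1) (hy : w.1 <+: y.1) (h : (WG q).Adj x y) : x = u ∧ y = w := by
  rcases h with ⟨b, hb⟩ | ⟨b, hb⟩
  · rw [hb, List.prefix_concat_iff] at hy
    rcases hy with h2 | h2
    · constructor
      · apply Subtype.ext
        rw [hw] at h2
        exact ((List.append_inj' h2 rfl).1).symm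
      · apply Subtype.ext
        rw [hb, ← h2]
    · exact absurd h2 hx
  · exfalso
    apply hx
    rw [hb]
    exact hy.trans (List.prefix_append _ _)

theorem len_of_concat {u w : W q} {a : Fin (q + 1)} (hw : w.1 = u.1 ++ [a]) :
    w.1.length = u.1.length + 1 := by
  rw [hw]; simp

theorem not_prefix_of_len {l m : List (Fin (q + 1))} (h : m.length < l.length) : ¬ l <+: m := by
  intro h2
  exact absurd h2.length_le (by omega)

theorem adj_concat {u w : W q} {a : Fin (q + 1)} (hw : w.1 = u.1 ++ [a]) : (WG q).Adj u w :=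
  Or.inl ⟨a, hw⟩

/-- the cut at the edge `u — w`, for a set `S` disjoint from the words below `w` -/
theorem cut_word {θ : ℝ} (h0 : 0 ≤ θ) (h1 : θ < 1) {A B : Finset (W q)}
    {u w : W q} {a : Fin (q + 1)} (hw : w.1 = u.1 ++ [a])
    (hA : ∀ x ∈ A, ¬ w.1 <+: x.1) (hB : ∀ x ∈ B, w.1 <+: x.1) (hu : u ∈ A) (hwB : w ∈ B)
    {t : W q → ℝ} (ht : ∀ v ∈ A ∪ B, |t v| < 1) :
    Zf (WG q) θ (A ∪ B) t = Zf (WG q) θ A t * Zf (WG q) θ B t *
      (1 + θ * (mag (WG q) θ A t u * mag (WG q) θ B t w)) ∧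
    mag (WG q) θ (A ∪ B) t u = ein (mag (WG q) θ A t u) (θ * mag (WG q) θ B t w) ∧
    mag (WG q) θ (A ∪ B) t w = ein (mag (WG q) θ B t w) (θ * mag (WG q) θ A t u) ∧
    ∀ v ∈ A, cov (WG q) θ (A ∪ B) t v w
      = cov (WG q) θ (A ∪ B) t v u * (θ * gg θ (mag (WG q) θ B t w)) := by
  apply cut_all (WG q) h0 h1 _ hu hwB (adj_concat hw) _ ht
  · rw [Finset.disjoint_left]
    intro x hxA hxB
    exact hA x hxA (hB x hxB)
  · intro x hx y hy hxy
    exact cross_aux (v := u) hw (hA x hx) (hB y hy) hxy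

theorem sdiff_union_below (Λ : Finset (W q)) (w : W q) : (Λ \ below Λ w) ∪ below Λ w = Λ :=
  Finset.sdiff_union_of_subset (below_subset Λ w)

theorem mem_sdiff_below {Λ : Finset (W q)} {w x : W q} :
    x ∈ Λ \ below Λ w ↔ x ∈ Λ ∧ ¬ w.1 <+: x.1 := by
  rw [Finset.mem_sdiff, mem_below]
  tauto

theorem cut_below {θ : ℝ} (h0 : 0 ≤ θ) (h1 : θ < 1) {Λ : Finset (W q)} {t : W q → ℝ}
    (ht : ∀ v ∈ Λ, |t v| < 1) {u w : W q} {a : Fin (q + 1)} (hw : w.1 = u.1 ++ [a])
    (hu : u ∈ Λ) (hwΛ : w ∈ Λ) :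
    Zf (WG q) θ Λ t = Zf (WG q) θ (Λ \ below Λ w) t * Zf (WG q) θ (below Λ w) t *
      (1 + θ * (mag (WG q) θ (Λ \ below Λ w) t u * mag (WG q) θ (below Λ w) t w)) ∧
    mag (WG q) θ Λ t u = ein (mag (WG q) θ (Λ \ below Λ w) t u)
      (θ * mag (WG q) θ (below Λ w) t w) ∧
    mag (WG q) θ Λ t w = ein (mag (WG q) θ (below Λ w) t w)
      (θ * mag (WG q) θ (Λ \ below Λ w) t u) ∧
    ∀ v ∈ Λ \ below Λ w, cov (WG q) θ Λ t v w
      = cov (WG q) θ Λ t v u * (θ * gg θ (mag (WG q) θ (below Λ w) t w)) := by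
  have h := cut_word h0 h1 (A := Λ \ below Λ w) (B := below Λ w) hw
    (fun x hx => (mem_sdiff_below.1 hx).2) (fun x hx => (mem_below.1 hx).2)
    (mem_sdiff_below.2 ⟨hu, not_prefix_of_len (by rw [len_of_concat hw]; omega)⟩)
    (mem_below.2 ⟨hwΛ, List.prefix_refl _⟩) (t := t) (by rw [sdiff_union_below]; exact ht)
  rw [sdiff_union_below] at h
  exact h

/-- two-sided relation at the edge `u — w`, `w = u ++ [a]` -/
theorem mag_edge {θ : ℝ} (h0 : 0 ≤ θ) (h1 : θ < 1) {Λ : Finset (W q)} {t : W q → ℝ}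
    (ht : ∀ v ∈ Λ, |t v| < 1) {u w : W q} {a : Fin (q + 1)} (hw : w.1 = u.1 ++ [a])
    (hu : u ∈ Λ) (hwΛ : w ∈ Λ) :
    mag (WG q) θ Λ t u
      = ein (mag (WG q) θ (Λ \ below Λ w) t u) (θ * mag (WG q) θ (below Λ w) t w) ∧
    mag (WG q) θ Λ t w
      = ein (mag (WG q) θ (below Λ w) t w) (θ * mag (WG q) θ (Λ \ below Λ w) t u) :=
  ⟨(cut_below h0 h1 ht hw hu hwΛ).2.1, (cut_below h0 h1 ht hw hu hwΛ).2.2.1⟩

theorem cov_step {θ : ℝ} (h0 : 0 ≤ θ) (h1 : θ < 1) {Λ : Finset (W q)} {t : W q → ℝ}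
    (ht : ∀ v ∈ Λ, |t v| < 1) {u w : W q} {a : Fin (q + 1)} (hw : w.1 = u.1 ++ [a])
    (hu : u ∈ Λ) (hwΛ : w ∈ Λ) {v : W q} (hv : v ∈ Λ) (hvw : v ∉ below Λ w) :
    cov (WG q) θ Λ t v w
      = cov (WG q) θ Λ t v u * (θ * gg θ (mag (WG q) θ (below Λ w) t w)) :=
  (cut_below h0 h1 ht hw hu hwΛ).2.2.2 v (Finset.mem_sdiff.2 ⟨hv, hvw⟩)

theorem gg_mem {θ m : ℝ} (h0 : 0 ≤ θ) (h1 : θ < 1) (hm : |m| < 1) :
    0 ≤ gg θ m ∧ gg θ m ≤ 1 := by
  have h3 : m ^ 2 < 1 := by rw [sq_lt_one_iff_abs_lt_one]; exact hm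
  have h4 : θ ^ 2 < 1 := by nlinarith
  have h5 : 0 < 1 - θ ^ 2 * m ^ 2 := by nlinarith [sq_nonneg θ, sq_nonneg m]
  unfold gg
  constructor
  · apply div_nonneg <;> linarith
  · rw [div_le_one h5]; nlinarith [sq_nonneg m]

theorem concat_of_ne_root {w : W q} (hw : w ≠ wroot q) :
    ∃ (u : W q) (a : Fin (q + 1)), w.1 = u.1 ++ [a] := by
  obtain ⟨l, hl⟩ := w
  rcases List.eq_nil_or_concat l with h | ⟨l', a, h⟩
  · exfalso; apply hw; subst h; rfl
  · rw [List.concat_eq_append] at h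
    have : l'.IsChain (· ≠ ·) := by
      rw [h] at hl
      exact (List.isChain_append.1 hl).1
    exact ⟨⟨l', this⟩, a, h⟩

theorem root_of_len {w : W q} (hw : w.1.length = 0) : w = wroot q := by
  apply Subtype.ext
  exact List.eq_nil_of_length_eq_zero hw

/-- decay of the covariance with the root, for ANY finite set -/
theorem cov_root_le {θ : ℝ} (h0 : 0 ≤ θ) (h1 : θ < 1) {Λ : Finset (W q)} {t : W q → ℝ}
    (ht : ∀ v ∈ Λ, |t v| < 1) (w : W q) :
    |cov (WG q) θ Λ t (wroot q) w| ≤ θ ^ w.1.length := by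
  induction hn : w.1.length generalizing w with
  | zero =>
    rw [pow_zero]
    exact cov_abs_le (WG q) h0 h1 ht _ _
  | succ n ih =>
    have hne : w ≠ wroot q := by
      intro h; rw [h] at hn; simp [wroot] at hn
    obtain ⟨u, a, hw⟩ := concat_of_ne_root hne
    have hlen := len_of_concat hw
    have hun : u.1.length = n := by omega
    by_cases hm : wroot q ∈ Λ ∧ w ∈ Λ
    · obtain ⟨hr, hwΛ⟩ := hm
      have hrw : ¬ w.1 <+: (wroot q).1 := not_prefix_of_len (by
        have : (wroot q).1.length = 0 := rfl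
        omega)
      by_cases hu : u ∈ Λ
      · rw [cov_step h0 h1 ht hw hu hwΛ hr (by
          rw [mem_below]; exact fun h => hrw h.2), abs_mul, abs_mul, abs_of_nonneg h0, pow_succ]
        have hg := gg_mem h0 h1 (mag_lt (WG q) h0 h1 (Λ := below Λ w) (t := t)
          (fun v hv => ht v (below_subset Λ w hv)) w)
        rw [abs_of_nonneg hg.1]
        apply mul_le_mul (ih u hun) _ (mul_nonneg h0 hg.1) (pow_nonneg h0 _)
        nlinarith [hg.1, hg.2]
      · -- no edges between the two parts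
        have hd : Disjoint (Λ \ below Λ w) (below Λ w) := Finset.sdiff_disjoint
        have hnc : ∀ x ∈ Λ \ below Λ w, ∀ y ∈ below Λ w, ¬ (WG q).Adj x y := by
          intro x hx y hy hxy
          have := cross_aux (v := u) hw (mem_sdiff_below.1 hx).2 (mem_below.1 hy).2 hxy
          exact hu (this.1 ▸ (mem_sdiff_below.1 hx).1)
        have hrA : wroot q ∈ Λ \ below Λ w := mem_sdiff_below.2 ⟨hr, hrw⟩
        have hwB : w ∈ below Λ w := mem_below.2 ⟨hwΛ, List.prefix_refl _⟩
        have e1 := gexp_nocut (WG q) (θ := θ) hd hnc t (fun _ => 1) (fun _ => 1)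
          (one_eq_inter (Λ \ below Λ w)) (one_eq_inter (below Λ w))
        have e2 := gexp_nocut (WG q) (θ := θ) hd hnc t (fun P => spin P (wroot q)) (fun _ => 1)
          (spin_eq_inter hrA) (one_eq_inter (below Λ w))
        have e3 := gexp_nocut (WG q) (θ := θ) hd hnc t (fun _ => 1) (fun P => spin P w)
          (one_eq_inter (Λ \ below Λ w)) (spin_eq_inter hwB)
        have e4 := gexp_nocut (WG q) (θ := θ) hd hnc t (fun P => spin P (wroot q))
          (fun P => spin P w) (spin_eq_inter hrA) (spin_eq_inter hwB)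
        rw [sdiff_union_below] at e1 e2 e3 e4
        simp only [one_mul, mul_one] at e1 e2 e3
        have hZA : 0 < Zf (WG q) θ (Λ \ below Λ w) t :=
          Zf_pos (WG q) h0 h1 (fun v hv => ht v (Finset.mem_sdiff.1 hv).1)
        have hZB : 0 < Zf (WG q) θ (below Λ w) t :=
          Zf_pos (WG q) h0 h1 (fun v hv => ht v (below_subset Λ w hv))
        have hzero : cov (WG q) θ Λ t (wroot q) w = 0 := by
          rw [cov_of_mem (WG q) hr hwΛ, mag_of_mem (WG q) hr, mag_of_mem (WG q) hwΛ, e4, e2, e3]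
          unfold Zf at *
          rw [e1]
          field_simp
          ring
        rw [hzero, abs_zero]
        positivity
    · unfold cov
      rw [if_neg hm, abs_zero]
      positivity

theorem isChain_take {l : List (Fin (q + 1))} (h : l.IsChain (· ≠ ·)) (n : ℕ) :
    (l.take n).IsChain (· ≠ ·) := by
  exact h.take n

theorem toW_val {l : List (Fin (q + 1))} (h : l.IsChain (· ≠ ·)) : (toW l).1 = l := by
  have e : toW l = ⟨l, h⟩ := dif_pos h
  rw [e]

theorem toW_eq (w : W q) : toW w.1 = w := Subtype.ext (toW_val w.2)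

/-- product formula along the path from the root (all prefixes in `Λ`) -/
theorem cov_root_prod {θ : ℝ} (h0 : 0 ≤ θ) (h1 : θ < 1) {Λ : Finset (W q)} {t : W q → ℝ}
    (ht : ∀ v ∈ Λ, |t v| < 1) (w : W q) (hw : ∀ n ≤ w.1.length, toW (w.1.take n) ∈ Λ) :
    cov (WG q) θ Λ t (wroot q) w = (1 - mag (WG q) θ Λ t (wroot q) ^ 2) *
      ∏ n ∈ Finset.range w.1.length,
        (θ * gg θ (cav θ (mag (WG q) θ Λ t (toW (w.1.take n)))
          (mag (WG q) θ Λ t (toW (w.1.take (n + 1)))))) := by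
  induction hn : w.1.length generalizing w with
  | zero =>
    have h2 := root_of_len hn
    rw [h2, Finset.range_zero, Finset.prod_empty, mul_one]
    have h3 := hw 0 (Nat.zero_le _)
    rw [List.take_zero] at h3
    have h4 : toW ([] : List (Fin (q + 1))) = wroot q := toW_eq (wroot q)
    rw [h4] at h3
    exact cov_self (WG q) h0 h1 ht h3
  | succ n ih =>
    have hne : w ≠ wroot q := by
      intro h; rw [h] at hn; simp [wroot] at hn
    obtain ⟨u, a, hwu⟩ := concat_of_ne_root hne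
    have hlen := len_of_concat hwu
    have hun : u.1.length = n := by omega
    have htake : ∀ m ≤ n, w.1.take m = u.1.take m := by
      intro m hm
      rw [hwu, List.take_append_of_le_length (by omega)]
    have hu : u ∈ Λ := by
      have h2 := hw n (by omega)
      rw [htake n (le_refl _), ← hun, List.take_length, toW_eq] at h2
      exact h2
    have hwΛ : w ∈ Λ := by
      have h2 := hw (n + 1) (by omega)
      rw [← hn, List.take_length, toW_eq] at h2
      exact h2
    have hr : wroot q ∈ Λ := by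
      have h3 := hw 0 (Nat.zero_le _)
      rw [List.take_zero] at h3
      have h4 : toW ([] : List (Fin (q + 1))) = wroot q := toW_eq (wroot q)
      rw [h4] at h3
      exact h3
    have hrw : ¬ w.1 <+: (wroot q).1 := not_prefix_of_len (by
      have : (wroot q).1.length = 0 := rfl
      omega)
    have hstep := cov_step h0 h1 ht hwu hu hwΛ hr (by
      rw [mem_below]; exact fun h => hrw h.2)
    have hih := ih u (fun m hm => by
      rw [← htake m (by omega)]; exact hw m (by omega)) hun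
    have hedge := mag_edge h0 h1 ht hwu hu hwΛ
    have hcav : cav θ (mag (WG q) θ Λ t u) (mag (WG q) θ Λ t w)
        = mag (WG q) θ (below Λ w) t w := by
      rw [hedge.1, hedge.2]
      apply cav_ein h0 h1
      · exact (mag_lt (WG q) h0 h1 (fun v hv => ht v (below_subset Λ w hv)) w).le
      · exact (mag_lt (WG q) h0 h1 (fun v hv => ht v (Finset.mem_sdiff.1 hv).1) u).le
    rw [hstep, hih, Finset.prod_range_succ]
    have e1 : toW (w.1.take n) = u := by
      rw [htake n (le_refl _), ← hun, List.take_length, toW_eq]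
    have e2 : toW (w.1.take (n + 1)) = w := by
      rw [← hn, List.take_length, toW_eq]
    rw [e1, e2, hcav]
    have e3 : ∏ m ∈ Finset.range n, (θ * gg θ (cav θ (mag (WG q) θ Λ t (toW (w.1.take m)))
          (mag (WG q) θ Λ t (toW (w.1.take (m + 1))))))
        = ∏ m ∈ Finset.range n, (θ * gg θ (cav θ (mag (WG q) θ Λ t (toW (u.1.take m)))
          (mag (WG q) θ Λ t (toW (u.1.take (m + 1)))))) := by
      apply Finset.prod_congr rfl
      intro m hm
      rw [Finset.mem_range] at hm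
      rw [htake m (by omega), htake (m + 1) (by omega)]
    rw [e3]
    ring

/-! #### uniform bound -/

/-- neighbours of `v` lie in an explicit finite set with at most `q + 2` elements -/
theorem adj_cases {v y : W q} (h : (WG q).Adj v y) :
    y.1 = v.1.dropLast ∨ ∃ a : Fin (q + 1), y.1 = v.1 ++ [a] := by
  rcases h with ⟨a, h⟩ | ⟨a, h⟩
  · exact Or.inr ⟨a, h⟩
  · left
    rw [h]; simp

open Classical in
theorem card_edges_le (Λ : Finset (W q)) (v : W q) :
    ((Eg (WG q) Λ).filter (v ∈ ·)).card ≤ q + 2 := by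
  let S : Finset (List (Fin (q + 1))) := insert v.1.dropLast
    (Finset.univ.image fun a : Fin (q + 1) => v.1 ++ [a])
  have hS : S.card ≤ q + 2 := by
    refine (Finset.card_insert_le _ _).trans ?_
    have := Finset.card_image_le (s := (Finset.univ : Finset (Fin (q + 1))))
      (f := fun a : Fin (q + 1) => v.1 ++ [a])
    rw [Finset.card_univ, Fintype.card_fin] at this
    omega
  refine le_trans ?_ hS
  have : (Eg (WG q) Λ).filter (v ∈ ·) ⊆ S.image (fun l => s(v, toW l)) := by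
    intro e he
    rw [Finset.mem_filter] at he
    obtain ⟨he, hv⟩ := he
    obtain ⟨y, rfl⟩ := Sym2.mem_iff_exists.1 hv
    rw [mem_Eg] at he
    rw [Finset.mem_image]
    refine ⟨y.1, ?_, ?_⟩
    · rcases adj_cases he.2.2 with h | ⟨a, h⟩
      · rw [h]; exact Finset.mem_insert_self _ _
      · rw [h]
        exact Finset.mem_insert_of_mem (Finset.mem_image.2 ⟨a, Finset.mem_univ _, rfl⟩)
    · rw [toW_eq]
  exact (Finset.card_le_card this).trans Finset.card_image_le

open Classical in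
theorem wt_ratio {θ θ0 τ : ℝ} (h0 : 0 ≤ θ) (h01 : θ ≤ θ0) (h1 : θ0 < 1) (hτ : 0 ≤ τ) (hτ1 : τ < 1)
    {Λ : Finset (W q)} {t : W q → ℝ} (ht : ∀ v ∈ Λ, |t v| ≤ τ) {v : W q}
    {P P' : Finset (W q)} (hP : ∀ x, x ≠ v → spin P x = spin P' x) :
    ((1 - θ0) / (1 + θ0)) ^ (q + 2) * ((1 - τ) / (1 + τ)) * wt (WG q) θ Λ t P
      ≤ wt (WG q) θ Λ t P' := by
  set κ1 := (1 - θ0) / (1 + θ0) with hκ1
  set κ2 := (1 - τ) / (1 + τ) with hκ2
  have hθ0 : 0 ≤ θ0 := h0.trans h01
  have hκ1p : 0 < κ1 := div_pos (by linarith) (by linarith)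
  have hκ1l : κ1 ≤ 1 := by rw [hκ1, div_le_one (by linarith)]; linarith
  have hκ2p : 0 < κ2 := div_pos (by linarith) (by linarith)
  have hκ2l : κ2 ≤ 1 := by rw [hκ2, div_le_one (by linarith)]; linarith
  have key : ∀ x y b : ℝ, |x| ≤ 1 → |y| ≤ 1 → 0 ≤ b → ∀ a : ℝ, |a| ≤ b → b < 1 →
      (1 - b) / (1 + b) * (1 + a * x) ≤ 1 + a * y := by
    intro x y b hx hy hb a ha hb1
    rw [div_mul_eq_mul_div, div_le_iff₀ (by linarith)]
    have h2 : |a * x| ≤ b := by rw [abs_mul]; nlinarith [abs_nonneg a, abs_nonneg x]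
    have h3 : |a * y| ≤ b := by rw [abs_mul]; nlinarith [abs_nonneg a, abs_nonneg y]
    rw [abs_le] at h2 h3
    nlinarith
  rw [wt_eq, wt_eq]
  have hE : (κ1 ^ (q + 2)) * ∏ e ∈ Eg (WG q) Λ, (1 + θ * spinE P e)
      ≤ ∏ e ∈ Eg (WG q) Λ, (1 + θ * spinE P' e) := by
    have hpos : ∀ P : Finset (W q), ∀ e, 0 ≤ 1 + θ * spinE P e := by
      intro P e
      have h2 := abs_le.1 (spinE_abs P e).le
      nlinarith
    have h2 : ∏ e ∈ Eg (WG q) Λ, ((if v ∈ e then κ1 else 1) * (1 + θ * spinE P e))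
        ≤ ∏ e ∈ Eg (WG q) Λ, (1 + θ * spinE P' e) := by
      apply Finset.prod_le_prod
      · intro e _
        apply mul_nonneg _ (hpos P e)
        split_ifs
        · exact hκ1p.le
        · norm_num
      · intro e he
        by_cases hv : v ∈ e
        · rw [if_pos hv]
          have h3 := key (spinE P e) (spinE P' e) θ0 (spinE_abs P e).le (spinE_abs P' e).le hθ0
            θ (by rw [abs_of_nonneg h0]; exact h01) h1
          exact h3
        · rw [if_neg hv, one_mul]
          apply le_of_eq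
          congr 2
          induction e using Sym2.ind with
          | _ x y =>
            rw [spinE_mk, spinE_mk]
            rw [Sym2.mem_iff, not_or] at hv
            rw [hP x (Ne.symm hv.1), hP y (Ne.symm hv.2)]
    rw [Finset.prod_mul_distrib] at h2
    refine le_trans ?_ h2
    apply mul_le_mul_of_nonneg_right _ (Finset.prod_nonneg fun e _ => hpos P e)
    rw [Finset.prod_ite, Finset.prod_const, Finset.prod_const_one, mul_one]
    exact pow_le_pow_of_le_one hκ1p.le hκ1l (card_edges_le Λ v)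
  have hS : κ2 * ∏ x ∈ Λ, (1 + t x * spin P x) ≤ ∏ x ∈ Λ, (1 + t x * spin P' x) := by
    have hpos : ∀ P : Finset (W q), ∀ x ∈ Λ, 0 ≤ 1 + t x * spin P x := by
      intro P x hx
      have h2 : |t x * spin P x| ≤ τ := by
        rw [abs_mul, spin_abs, mul_one]; exact ht x hx
      linarith [(abs_le.1 h2).1]
    by_cases hv : v ∈ Λ
    · rw [← Finset.mul_prod_erase Λ _ hv, ← Finset.mul_prod_erase Λ _ hv, ← mul_assoc]
      apply mul_le_mul
      · exact key _ _ τ (spin_abs P v).le (spin_abs P' v).le hτ _ (ht v hv) hτ1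
      · apply le_of_eq
        apply Finset.prod_congr rfl
        intro x hx
        rw [hP x (Finset.ne_of_mem_erase hx)]
      · exact Finset.prod_nonneg fun x hx => hpos P x (Finset.mem_of_mem_erase hx)
      · exact hpos P' v hv
    · have e1 : ∏ x ∈ Λ, (1 + t x * spin P x) = ∏ x ∈ Λ, (1 + t x * spin P' x) := by
        apply Finset.prod_congr rfl
        intro x hx
        rw [hP x (fun h => hv (h ▸ hx))]
      rw [← e1]
      have h3 := Finset.prod_nonneg (hpos P)
      nlinarith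
  have hEp : 0 ≤ ∏ e ∈ Eg (WG q) Λ, (1 + θ * spinE P' e) := by
    apply Finset.prod_nonneg
    intro e _
    have h2 := abs_le.1 (spinE_abs P' e).le
    nlinarith
  have hSp : 0 ≤ ∏ x ∈ Λ, (1 + t x * spin P x) := by
    apply Finset.prod_nonneg
    intro x hx
    have h2 : |t x * spin P x| ≤ τ := by
      rw [abs_mul, spin_abs, mul_one]; exact ht x hx
    linarith [(abs_le.1 h2).1]
  calc κ1 ^ (q + 2) * κ2 * ((∏ e ∈ Eg (WG q) Λ, (1 + θ * spinE P e)) *
        ∏ x ∈ Λ, (1 + t x * spin P x))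
      = (κ1 ^ (q + 2) * ∏ e ∈ Eg (WG q) Λ, (1 + θ * spinE P e)) *
        (κ2 * ∏ x ∈ Λ, (1 + t x * spin P x)) := by ring
    _ ≤ _ := mul_le_mul hE hS (mul_nonneg hκ2p.le hSp) hEp

/-- uniform bound on magnetisations for bounded tilts -/
theorem mag_unif (q : ℕ) {θ0 τ : ℝ} (h0 : 0 ≤ θ0) (h1 : θ0 < 1) (hτ : 0 ≤ τ) (hτ1 : τ < 1) :
    ∃ μ : ℝ, 0 ≤ μ ∧ μ < 1 ∧ ∀ (θ : ℝ), 0 ≤ θ → θ ≤ θ0 → ∀ (Λ : Finset (W q)) (t : W q → ℝ),
      (∀ v ∈ Λ, |t v| ≤ τ) → ∀ v, |mag (WG q) θ Λ t v| ≤ μ := by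
  set κ := ((1 - θ0) / (1 + θ0)) ^ (q + 2) * ((1 - τ) / (1 + τ)) with hκ
  have hκ1 : 0 < (1 - θ0) / (1 + θ0) := div_pos (by linarith) (by linarith)
  have hκ1l : (1 - θ0) / (1 + θ0) ≤ 1 := by rw [div_le_one (by linarith)]; linarith
  have hκ2 : 0 < (1 - τ) / (1 + τ) := div_pos (by linarith) (by linarith)
  have hκ2l : (1 - τ) / (1 + τ) ≤ 1 := by rw [div_le_one (by linarith)]; linarith
  have hκp : 0 < κ := mul_pos (pow_pos hκ1 _) hκ2
  have hκl : κ ≤ 1 := by
    have := pow_le_one₀ hκ1.le hκ1l (n := q + 2)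
    nlinarith
  refine ⟨(1 - κ) / (1 + κ), div_nonneg (by linarith) (by linarith), by
    rw [div_lt_one (by linarith)]; linarith, ?_⟩
  intro θ hθ hθ0 Λ t ht v
  by_cases hv : v ∈ Λ
  · have ht' : ∀ v ∈ Λ, |t v| < 1 := fun v hv => (ht v hv).trans_lt hτ1
    have hZ := Zf_pos (WG q) hθ (hθ0.trans_lt h1) ht'
    have hsum : ∀ f : Finset (W q) → ℝ, ∑ P ∈ Λ.powerset, f P
        = ∑ P ∈ (Λ.erase v).powerset, f P + ∑ P ∈ (Λ.erase v).powerset, f (insert v P) := by
      intro f
      conv_lhs => rw [← Finset.insert_erase hv]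
      exact Finset.sum_powerset_insert (Finset.notMem_erase v Λ) f
    set S0 := ∑ P ∈ (Λ.erase v).powerset, wt (WG q) θ Λ t P with hS0
    set S1 := ∑ P ∈ (Λ.erase v).powerset, wt (WG q) θ Λ t (insert v P) with hS1
    have hZ2 : Zf (WG q) θ Λ t = (2 : ℝ)⁻¹ ^ Λ.card * (S0 + S1) := by
      unfold Zf gexp
      rw [hsum]
      simp only [one_mul]
      rw [hS0, hS1]
    have hM2 : gexp (WG q) θ Λ t (fun P => spin P v) = (2 : ℝ)⁻¹ ^ Λ.card * (S1 - S0) := by
      unfold gexp
      rw [hsum]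
      congr 1
      have e1 : ∑ P ∈ (Λ.erase v).powerset, spin P v * wt (WG q) θ Λ t P = - S0 := by
        rw [hS0, ← Finset.sum_neg_distrib]
        apply Finset.sum_congr rfl
        intro P hP
        have : v ∉ P := fun h => Finset.notMem_erase v Λ (Finset.mem_powerset.1 hP h)
        unfold spin
        rw [if_neg this]; ring
      have e2 : ∑ P ∈ (Λ.erase v).powerset, spin (insert v P) v * wt (WG q) θ Λ t (insert v P)
          = S1 := by
        rw [hS1]
        apply Finset.sum_congr rfl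
        intro P hP
        unfold spin
        rw [if_pos (Finset.mem_insert_self v P)]; ring
      rw [e1, e2]; ring
    have hspin : ∀ P : Finset (W q), ∀ x, x ≠ v → spin P x = spin (insert v P) x := by
      intro P x hx
      unfold spin
      simp [Finset.mem_insert, hx]
    have k1 : κ * S0 ≤ S1 := by
      rw [hS0, hS1, Finset.mul_sum]
      apply Finset.sum_le_sum
      intro P _
      exact wt_ratio hθ hθ0 h1 hτ hτ1 ht (v := v) (hspin P)
    have k2 : κ * S1 ≤ S0 := by
      rw [hS0, hS1, Finset.mul_sum]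
      apply Finset.sum_le_sum
      intro P _
      exact wt_ratio hθ hθ0 h1 hτ hτ1 ht (v := v) (fun x hx => (hspin P x hx).symm)
    have h2n : (0 : ℝ) < (2 : ℝ)⁻¹ ^ Λ.card := by positivity
    have hSS : 0 < S0 + S1 := by
      rw [hZ2] at hZ
      exact (mul_pos_iff_of_pos_left h2n).1 hZ
    rw [mag_of_mem (WG q) hv, hM2, hZ2, mul_div_mul_left _ _ h2n.ne', abs_div, abs_of_pos hSS,
      div_le_div_iff₀ hSS (by linarith)]
    rcases abs_cases (S1 - S0) with ⟨h, _⟩ | ⟨h, _⟩ <;> rw [h] <;> nlinarith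
  · rw [mag_of_notMem (WG q) hv, abs_zero]
    exact div_nonneg (by linarith) (by linarith)

/-! #### recursion on cones -/

theorem mem_nxt {l : List (Fin (q + 1))} {j : Fin (q + 1)} :
    j ∈ nxt l ↔ l.getLast? ≠ some j := by
  unfold nxt; rw [Finset.mem_filter]; simp

theorem isChain_concat {l : List (Fin (q + 1))} (hl : l.IsChain (· ≠ ·)) {j : Fin (q + 1)}
    (hj : j ∈ nxt l) : (l ++ [j]).IsChain (· ≠ ·) := by
  rw [List.isChain_append]
  refine ⟨hl, List.isChain_singleton j, ?_⟩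
  intro x hx y hy
  simp only [List.head?_cons, Option.mem_def, Option.some.injEq] at hy
  subst hy
  intro h
  rw [mem_nxt] at hj
  apply hj
  rw [← h]
  exact hx

theorem toW_concat (w : W q) {j : Fin (q + 1)} (hj : j ∈ nxt w.1) :
    (toW (w.1 ++ [j])).1 = w.1 ++ [j] := toW_val (isChain_concat w.2 hj)

theorem prefix_concat_inj {l x : List (Fin (q + 1))} {j j' : Fin (q + 1)}
    (h : (l ++ [j]) <+: x) (h' : (l ++ [j']) <+: x) : j = j' := by
  obtain ⟨s, rfl⟩ := h
  obtain ⟨s', h'⟩ := h'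
  rw [List.append_assoc, List.append_assoc] at h'
  have := List.append_cancel_left h'
  simp only [List.cons_append, List.nil_append, List.cons.injEq] at this
  exact this.1.symm

theorem Zf_singleton (θ : ℝ) (t : W q → ℝ) (w : W q) :
    Zf (WG q) θ {w} t = 1 ∧ mag (WG q) θ {w} t w = t w := by
  have hE : Eg (WG q) {w} = ∅ := by
    rw [Finset.eq_empty_iff_forall_notMem]
    intro e he
    induction e using Sym2.ind with
    | _ x y =>
      rw [mem_Eg, Finset.mem_singleton, Finset.mem_singleton] at he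
      obtain ⟨rfl, rfl, h⟩ := he
      exact (WG q).loopless.irrefl _ h
  have hw : ∀ P, wt (WG q) θ {w} t P = 1 + t w * spin P w := by
    intro P
    rw [wt_eq, hE]
    simp
  have hp : ({w} : Finset (W q)).powerset = {∅, {w}} := by
    ext P
    rw [Finset.mem_powerset, Finset.subset_singleton_iff, Finset.mem_insert, Finset.mem_singleton]
  have hne : (∅ : Finset (W q)) ≠ {w} := (Finset.singleton_ne_empty w).symm
  have hZ : Zf (WG q) θ {w} t = 1 := by
    unfold Zf gexp
    rw [hp, Finset.sum_pair hne, hw, hw]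
    unfold spin
    simp
    ring
  refine ⟨hZ, ?_⟩
  rw [mag_of_mem (WG q) (Finset.mem_singleton_self w), hZ]
  unfold gexp
  rw [hp, Finset.sum_pair hne, hw, hw]
  unfold spin
  simp
  ring

/-- recursion for the cone below `l` (nonempty): combine own tilt and children one by one.
`Zf` and `mag` of a vertex `w` together with a finset `J` of its child cones. -/
theorem cone_rec {θ : ℝ} (h0 : 0 ≤ θ) (h1 : θ < 1) {Λ : Finset (W q)} {t : W q → ℝ}
    (ht : ∀ v ∈ Λ, |t v| < 1) {w : W q} (hw : w ∈ Λ) (J : Finset (Fin (q + 1)))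
    (hJ : J ⊆ nxt w.1) (hJΛ : ∀ j ∈ J, toW (w.1 ++ [j]) ∈ Λ) :
    let r : Fin (q + 1) → ℝ := fun j =>
      θ * mag (WG q) θ (below Λ (toW (w.1 ++ [j]))) t (toW (w.1 ++ [j]))
    let Λ' : Finset (W q) := insert w (J.biUnion fun j => below Λ (toW (w.1 ++ [j])))
    Zf (WG q) θ Λ' t = ((1 + t w) * ∏ j ∈ J, (1 + r j) + (1 - t w) * ∏ j ∈ J, (1 - r j)) / 2
        * ∏ j ∈ J, Zf (WG q) θ (below Λ (toW (w.1 ++ [j]))) t ∧
    mag (WG q) θ Λ' t w = ((1 + t w) * ∏ j ∈ J, (1 + r j) - (1 - t w) * ∏ j ∈ J, (1 - r j)) /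
      ((1 + t w) * ∏ j ∈ J, (1 + r j) + (1 - t w) * ∏ j ∈ J, (1 - r j)) := by
  intro r
  induction J using Finset.induction_on with
  | empty =>
    intro Λ'
    have e : Λ' = {w} := by
      simp [Λ']
    rw [e]
    have h := Zf_singleton θ t w
    refine ⟨by rw [h.1]; simp, by rw [h.2]; simp; ring⟩
  | insert j J hj ih =>
    intro Λ'
    have hJ' : J ⊆ nxt w.1 := fun x hx => hJ (Finset.mem_insert_of_mem hx)
    have hJΛ' : ∀ j ∈ J, toW (w.1 ++ [j]) ∈ Λ := fun x hx => hJΛ x (Finset.mem_insert_of_mem hx)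
    have ih' := ih hJ' hJΛ'
    set Λ0 : Finset (W q) := insert w (J.biUnion fun j => below Λ (toW (w.1 ++ [j]))) with hΛ0
    have hjn : j ∈ nxt w.1 := hJ (Finset.mem_insert_self j J)
    have hjw := toW_concat w hjn
    have hU : Λ' = Λ0 ∪ below Λ (toW (w.1 ++ [j])) := by
      simp only [Λ', hΛ0, Finset.biUnion_insert]
      ext x
      simp only [Finset.mem_insert, Finset.mem_union]
      tauto
    have hsub : Λ' ⊆ Λ := by
      intro x hx
      simp only [Λ', Finset.mem_insert, Finset.mem_biUnion] at hx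
      rcases hx with rfl | ⟨j', _, hx⟩
      · exact hw
      · exact below_subset _ _ hx
    have hA : ∀ x ∈ Λ0, ¬ (toW (w.1 ++ [j])).1 <+: x.1 := by
      intro x hx
      rw [hΛ0, Finset.mem_insert, Finset.mem_biUnion] at hx
      rcases hx with rfl | ⟨j', hj', hx⟩
      · apply not_prefix_of_len
        rw [hjw]; simp
      · intro hp
        have hx2 := (mem_below.1 hx).2
        rw [toW_concat w (hJ' hj')] at hx2
        rw [hjw] at hp
        have := prefix_concat_inj hp hx2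
        exact hj (this ▸ hj')
    have hc := cut_word h0 h1 (A := Λ0) (B := below Λ (toW (w.1 ++ [j]))) hjw hA
      (fun x hx => (mem_below.1 hx).2) (Finset.mem_insert_self _ _)
      (mem_below.2 ⟨hJΛ j (Finset.mem_insert_self j J), List.prefix_refl _⟩) (t := t)
      (by rw [← hU]; exact fun v hv => ht v (hsub hv))
    rw [hU, hc.1, hc.2.1, Finset.prod_insert hj, Finset.prod_insert hj, Finset.prod_insert hj,
      ih'.1, ih'.2]
    have hr : ∀ i, |r i| < 1 := by
      intro i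
      simp only [r]
      rw [abs_mul, abs_of_nonneg h0]
      have := mag_lt (WG q) h0 h1 (Λ := below Λ (toW (w.1 ++ [i]))) (t := t)
        (fun v hv => ht v (below_subset _ _ hv)) (toW (w.1 ++ [i]))
      nlinarith [abs_nonneg (mag (WG q) θ (below Λ (toW (w.1 ++ [i]))) t (toW (w.1 ++ [i])))]
    have hmr : θ * mag (WG q) θ (below Λ (toW (w.1 ++ [j]))) t (toW (w.1 ++ [j])) = r j := rfl
    have hX : 0 < (1 + t w) * ∏ j ∈ J, (1 + r j) := by
      apply mul_pos
      · linarith [(abs_lt.1 (ht w hw)).1]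
      · exact Finset.prod_pos fun i _ => by linarith [(abs_lt.1 (hr i)).1]
    have hY : 0 < (1 - t w) * ∏ j ∈ J, (1 - r j) := by
      apply mul_pos
      · linarith [(abs_lt.1 (ht w hw)).2]
      · exact Finset.prod_pos fun i _ => by linarith [(abs_lt.1 (hr i)).2]
    have e1 : (1 + t w) * ((1 + r j) * ∏ j ∈ J, (1 + r j))
        = (1 + r j) * ((1 + t w) * ∏ j ∈ J, (1 + r j)) := by ring
    have e2 : (1 - t w) * ((1 - r j) * ∏ j ∈ J, (1 - r j))
        = (1 - r j) * ((1 - t w) * ∏ j ∈ J, (1 - r j)) := by ring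
    rw [e1, e2]
    have e3 : ∀ y : ℝ, θ * (y * mag (WG q) θ (below Λ (toW (w.1 ++ [j]))) t (toW (w.1 ++ [j])))
        = y * r j := by
      intro y; rw [← hmr]; ring
    rw [e3, hmr]
    have hrj := abs_lt.1 (hr j)
    generalize (1 + t w) * ∏ j ∈ J, (1 + r j) = X at *
    generalize (1 - t w) * ∏ j ∈ J, (1 - r j) = Y at *
    generalize r j = ρ at *
    have hXY : 0 < X + Y := by linarith
    have hD : 0 < (1 + ρ) * X + (1 - ρ) * Y := by
      have a1 : 0 < (1 + ρ) * X := mul_pos (by linarith) hX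
      have a2 : 0 < (1 - ρ) * Y := mul_pos (by linarith) hY
      linarith
    constructor
    · field_simp
      ring
    · unfold ein
      have e4 : 1 + (X - Y) / (X + Y) * ρ = ((1 + ρ) * X + (1 - ρ) * Y) / (X + Y) := by
        field_simp; ring
      have e5 : (X - Y) / (X + Y) + ρ = ((1 + ρ) * X - (1 - ρ) * Y) / (X + Y) := by
        field_simp; ring
      rw [e4, e5, div_div_div_cancel_right₀ hXY.ne']

end WordsG

end Crest.Agent.FreeIs
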