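import Crest.Agent.FreeIs.GibbsGen

/-!
Naturality under bijections, spin flip, locality, measurability and boundedness of the finite
Gibbs quantities.
-/

set_option autoImplicit false
set_option linter.unusedVariables false
set_option linter.unusedSectionVars false

open MeasureTheory

universe u

namespace Crest.Agent.FreeIs

section Nat

variable {V V' : Type u} [DecidableEq V] [DecidableEq V']

theorem spin_map (e : V' ≃ V) (P : Finset V') (v : V') :
    spin (P.map e.toEmbedding) (e v) = spin P v := by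
  unfold spin
  simp

theorem Eg_map {G' : SimpleGraph V'} {G : SimpleGraph V} (e : V' ≃ V)
    (hadj : ∀ x y, G.Adj (e x) (e y) ↔ G'.Adj x y) (Λ : Finset V') :
    Eg G (Λ.map e.toEmbedding) = (Eg G' Λ).image (Sym2.map e) := by
  ext s
  induction s using Sym2.ind with
  | _ a b =>
    rw [mem_Eg, Finset.mem_image]
    constructor
    · rintro ⟨ha, hb, hab⟩
      rw [Finset.mem_map_equiv] at ha hb
      refine ⟨s(e.symm a, e.symm b), ?_, ?_⟩
      · rw [mem_Eg]
        refine ⟨ha, hb, ?_⟩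
        rw [← hadj]
        simpa using hab
      · simp
    · rintro ⟨s', hs', he⟩
      induction s' using Sym2.ind with
      | _ a' b' =>
        rw [mem_Eg] at hs'
        obtain ⟨ha, hb, hab⟩ := hs'
        rw [Sym2.map_mk, Sym2.eq_iff] at he
        rcases he with ⟨rfl, rfl⟩ | ⟨rfl, rfl⟩
        · exact ⟨by simpa using ha, by simpa using hb, (hadj _ _).2 hab⟩
        · exact ⟨by simpa using hb, by simpa using ha, (hadj _ _).2 hab.symm⟩

theorem spinE_map (e : V' ≃ V) (P : Finset V') (s : Sym2 V') :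
    spinE (P.map e.toEmbedding) (Sym2.map e s) = spinE P s := by
  induction s using Sym2.ind with
  | _ a b =>
    rw [Sym2.map_mk, spinE_mk, spinE_mk, spin_map, spin_map]

theorem wt_map {G' : SimpleGraph V'} {G : SimpleGraph V} (e : V' ≃ V)
    (hadj : ∀ x y, G.Adj (e x) (e y) ↔ G'.Adj x y) (θ : ℝ) (Λ : Finset V') (t : V → ℝ)
    (P : Finset V') :
    wt G θ (Λ.map e.toEmbedding) t (P.map e.toEmbedding) = wt G' θ Λ (fun v => t (e v)) P := by
  rw [wt_eq, wt_eq, Eg_map e hadj, Finset.prod_image, Finset.prod_map]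
  · congr 1
    · exact Finset.prod_congr rfl fun s _ => by rw [spinE_map]
    · exact Finset.prod_congr rfl fun v _ => by
        rw [Equiv.coe_toEmbedding, spin_map]
  · exact (Sym2.map.injective e.injective).injOn

theorem gexp_map {G' : SimpleGraph V'} {G : SimpleGraph V} (e : V' ≃ V)
    (hadj : ∀ x y, G.Adj (e x) (e y) ↔ G'.Adj x y) (θ : ℝ) (Λ : Finset V') (t : V → ℝ)
    (F : Finset V → ℝ) :
    gexp G θ (Λ.map e.toEmbedding) t F
      = gexp G' θ Λ (fun v => t (e v)) (fun P => F (P.map e.toEmbedding)) := by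
  unfold gexp
  rw [Finset.card_map]
  congr 1
  symm
  refine Finset.sum_nbij' (fun P => P.map e.toEmbedding) (fun P => P.map e.symm.toEmbedding)
    ?_ ?_ ?_ ?_ ?_
  · intro P hP
    rw [Finset.mem_powerset] at hP ⊢
    exact Finset.map_subset_map.2 hP
  · intro P hP
    rw [Finset.mem_powerset] at hP ⊢
    intro v hv
    rw [Finset.mem_map_equiv] at hv
    have := hP hv
    rw [Finset.mem_map_equiv] at this
    simpa using this
  · intro P _
    ext v; simp
  · intro P _
    ext v; simp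
  · intro P _
    rw [wt_map e hadj]

theorem Zf_map {G' : SimpleGraph V'} {G : SimpleGraph V} (e : V' ≃ V)
    (hadj : ∀ x y, G.Adj (e x) (e y) ↔ G'.Adj x y) (θ : ℝ) (Λ : Finset V') (t : V → ℝ) :
    Zf G θ (Λ.map e.toEmbedding) t = Zf G' θ Λ (fun v => t (e v)) :=
  gexp_map e hadj θ Λ t _

theorem mag_map {G' : SimpleGraph V'} {G : SimpleGraph V} (e : V' ≃ V)
    (hadj : ∀ x y, G.Adj (e x) (e y) ↔ G'.Adj x y) (θ : ℝ) (Λ : Finset V') (t : V → ℝ) (v : V') :
    mag G θ (Λ.map e.toEmbedding) t (e v) = mag G' θ Λ (fun v => t (e v)) v := by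
  by_cases hv : v ∈ Λ
  · rw [mag_of_mem _ hv, mag_of_mem _ (by simpa using hv), gexp_map e hadj, Zf_map e hadj]
    simp only [spin_map]
  · rw [mag_of_notMem _ hv, mag_of_notMem _ (by simpa using hv)]

variable (G : SimpleGraph V)

/-! ### flip -/

theorem spin_sdiff {Λ P : Finset V} {v : V} (hv : v ∈ Λ) : spin (Λ \ P) v = - spin P v := by
  unfold spin
  by_cases h : v ∈ P <;> simp [h, hv]

theorem wt_neg (θ : ℝ) (Λ : Finset V) (t : V → ℝ) (P : Finset V) :
    wt G θ Λ (fun v => - t v) P = wt G θ Λ t (Λ \ P) := by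
  rw [wt_eq, wt_eq]
  congr 1
  · refine Finset.prod_congr rfl fun s hs => ?_
    induction s using Sym2.ind with
    | _ a b =>
      rw [mem_Eg] at hs
      rw [spinE_mk, spinE_mk, spin_sdiff hs.1, spin_sdiff hs.2.1]
      ring
  · refine Finset.prod_congr rfl fun v hv => ?_
    rw [spin_sdiff hv]
    ring

theorem gexp_neg (θ : ℝ) (Λ : Finset V) (t : V → ℝ) (F : Finset V → ℝ) :
    gexp G θ Λ (fun v => - t v) F = gexp G θ Λ t (fun P => F (Λ \ P)) := by
  unfold gexp
  congr 1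
  refine Finset.sum_nbij' (fun P => Λ \ P) (fun P => Λ \ P) ?_ ?_ ?_ ?_ ?_
  · intro P _
    exact Finset.mem_powerset.2 Finset.sdiff_subset
  · intro P _
    exact Finset.mem_powerset.2 Finset.sdiff_subset
  · intro P hP
    exact Finset.sdiff_sdiff_eq_self (Finset.mem_powerset.1 hP)
  · intro P hP
    exact Finset.sdiff_sdiff_eq_self (Finset.mem_powerset.1 hP)
  · intro P hP
    simp only
    rw [Finset.sdiff_sdiff_eq_self (Finset.mem_powerset.1 hP), wt_neg]

theorem Zf_neg (θ : ℝ) (Λ : Finset V) (t : V → ℝ) :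
    Zf G θ Λ (fun v => - t v) = Zf G θ Λ t := gexp_neg G θ Λ t _

theorem mag_neg (θ : ℝ) (Λ : Finset V) (t : V → ℝ) (v : V) :
    mag G θ Λ (fun v => - t v) v = - mag G θ Λ t v := by
  by_cases hv : v ∈ Λ
  · rw [mag_of_mem G hv, mag_of_mem G hv, gexp_neg, Zf_neg, ← neg_div]
    congr 1
    simp only [spin_sdiff hv]
    have := gexp_smul G θ Λ t (-1) (fun P => spin P v)
    simp only [neg_mul, one_mul] at this
    exact this
  · rw [mag_of_notMem G hv, mag_of_notMem G hv, neg_zero]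

/-! ### locality -/

theorem wt_congr (θ : ℝ) {Λ : Finset V} {t t' : V → ℝ} (h : ∀ v ∈ Λ, t v = t' v)
    (P : Finset V) : wt G θ Λ t P = wt G θ Λ t' P := by
  rw [wt_eq, wt_eq]
  congr 1
  exact Finset.prod_congr rfl fun v hv => by rw [h v hv]

theorem gexp_congr (θ : ℝ) {Λ : Finset V} {t t' : V → ℝ} (h : ∀ v ∈ Λ, t v = t' v)
    (F : Finset V → ℝ) : gexp G θ Λ t F = gexp G θ Λ t' F := by
  unfold gexp
  simp only [wt_congr G θ h]

theorem Zf_congr (θ : ℝ) {Λ : Finset V} {t t' : V → ℝ} (h : ∀ v ∈ Λ, t v = t' v) :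
    Zf G θ Λ t = Zf G θ Λ t' := gexp_congr G θ h _

theorem mag_congr (θ : ℝ) {Λ : Finset V} {t t' : V → ℝ} (h : ∀ v ∈ Λ, t v = t' v) (v : V) :
    mag G θ Λ t v = mag G θ Λ t' v := by
  unfold mag
  rw [gexp_congr G θ h, Zf_congr G θ h]

/-! ### measurability -/

theorem measurable_wt (θ : ℝ) (Λ : Finset V) (P : Finset V) :
    Measurable fun t : V → ℝ => wt G θ Λ t P := by
  simp only [wt_eq]
  refine Measurable.const_mul ?_ _
  refine Finset.measurable_fun_prod _ fun v _ => ?_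
  exact ((measurable_pi_apply v).mul_const _).const_add _

theorem measurable_gexp (θ : ℝ) (Λ : Finset V) (F : Finset V → ℝ) :
    Measurable fun t : V → ℝ => gexp G θ Λ t F := by
  unfold gexp
  refine Measurable.const_mul ?_ _
  refine Finset.measurable_fun_sum _ fun P _ => ?_
  exact (measurable_wt G θ Λ P).const_mul _

theorem measurable_Zf (θ : ℝ) (Λ : Finset V) : Measurable fun t : V → ℝ => Zf G θ Λ t :=
  measurable_gexp G θ Λ _

theorem measurable_mag (θ : ℝ) (Λ : Finset V) (v : V) :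
    Measurable fun t : V → ℝ => mag G θ Λ t v := by
  unfold mag
  split_ifs
  · exact (measurable_gexp G θ Λ _).div (measurable_Zf G θ Λ)
  · exact measurable_const

theorem wt_abs_le {θ : ℝ} (h0 : 0 ≤ θ) (h1 : θ ≤ 1) (Λ : Finset V) {t : V → ℝ}
    (ht : ∀ v ∈ Λ, |t v| ≤ 1) (P : Finset V) :
    |wt G θ Λ t P| ≤ 2 ^ (Eg G Λ).card * 2 ^ Λ.card := by
  rw [wt_eq, abs_mul, Finset.abs_prod, Finset.abs_prod]
  have h2 : ∀ x y : ℝ, |x| ≤ 1 → |y| = 1 → |1 + x * y| ≤ 2 := by
    intro x y hx hy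
    have : |x * y| ≤ 1 := by rw [abs_mul, hy, mul_one]; exact hx
    have := abs_le.1 this
    rw [abs_le]; constructor <;> linarith
  refine mul_le_mul ?_ ?_ (Finset.prod_nonneg fun _ _ => abs_nonneg _) (by positivity)
  · rw [← Finset.prod_const]
    refine Finset.prod_le_prod (fun _ _ => abs_nonneg _) fun s _ => ?_
    exact h2 _ _ (by rwa [abs_of_nonneg h0]) (spinE_abs P s)
  · rw [← Finset.prod_const]
    refine Finset.prod_le_prod (fun _ _ => abs_nonneg _) fun v hv => ?_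
    exact h2 _ _ (ht v hv) (spin_abs P v)

theorem Zf_bdd {θ : ℝ} (h0 : 0 ≤ θ) (h1 : θ ≤ 1) (Λ : Finset V) :
    ∃ K : ℝ, ∀ t : V → ℝ, (∀ v ∈ Λ, |t v| ≤ 1) → |Zf G θ Λ t| ≤ K := by
  refine ⟨(2 : ℝ)⁻¹ ^ Λ.card * ∑ P ∈ Λ.powerset, 2 ^ (Eg G Λ).card * 2 ^ Λ.card, fun t ht => ?_⟩
  unfold Zf gexp
  rw [abs_mul, abs_of_nonneg (by positivity : (0 : ℝ) ≤ (2 : ℝ)⁻¹ ^ Λ.card)]
  refine mul_le_mul_of_nonneg_left ?_ (by positivity)
  refine (Finset.abs_sum_le_sum_abs _ _).trans (Finset.sum_le_sum fun P _ => ?_)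
  rw [one_mul]
  exact wt_abs_le G h0 h1 Λ ht P

end Nat

end Crest.Agent.FreeIs
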