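import Crest.Agent.FreeIs.Defs

/-!
Shared infrastructure for M7/M8: toggles preserve the label measure, shifts along words,
sums over reduced words, `tsum` over the tree.
-/

set_option autoImplicit false
set_option linter.unusedVariables false

open MeasureTheory Filter Topology

namespace Crest.Agent.FreeIs.Rec

open Crest.Agent.FreeIs

instance labP_prob (V : Type*) : IsProbabilityMeasure (labP V) := by
  unfold labP Crest.ProbabilityR.Labels.labelMeasure; infer_instance

variable {q : ℕ}

theorem tog_tog (i : Fin (q + 1)) (w : W q) : tog i (tog i w) = w := by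
  obtain ⟨l, h⟩ := w
  cases l with
  | nil => simp [tog]
  | cons a l =>
    by_cases ha : a = i
    · subst ha
      cases l with
      | nil => simp [tog]
      | cons b l =>
        have hb : b ≠ a := by
          rw [List.isChain_cons_cons] at h
          exact h.1.symm
        simp [tog, hb]
    · simp [tog, ha]

/-- the toggle as an equivalence -/
def togE (i : Fin (q + 1)) : W q ≃ W q where
  toFun := tog i
  invFun := tog i
  left_inv := tog_tog i
  right_inv := tog_tog i

theorem sh_sh (i : Fin (q + 1)) (ω : Lab (W q)) : sh i (sh i ω) = ω := by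
  funext e
  simp [sh, act, tog_tog]

theorem measurable_sh (i : Fin (q + 1)) : Measurable (sh i : Lab (W q) → Lab (W q)) := by
  unfold sh act
  exact measurable_pi_lambda _ fun e => measurable_pi_apply _

theorem sh_mp (i : Fin (q + 1)) :
    MeasurePreserving (sh i : Lab (W q) → Lab (W q)) (labP (W q)) (labP (W q)) := by
  refine ⟨measurable_sh i, ?_⟩
  unfold labP Crest.ProbabilityR.Labels.labelMeasure
  refine Measure.eq_infinitePi _ fun s t ht => ?_
  rw [Measure.map_apply (measurable_sh i) (MeasurableSet.pi s.countable_toSet (fun i _ => ht i))]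
  let e : (W q × ℕ × Bool) ≃ (W q × ℕ × Bool) := (togE i).prodCongr (Equiv.refl _)
  have he : ∀ x, e (e x) = x := by
    intro x
    exact Prod.ext (tog_tog i _) rfl
  have h1 : (sh i ⁻¹' (Set.pi (s : Set (W q × ℕ × Bool)) t) : Set (Lab (W q)))
      = Set.pi ((s.map e.toEmbedding : Finset _) : Set (W q × ℕ × Bool)) (fun x => t (e x)) := by
    ext ω
    simp only [Set.mem_preimage, Set.mem_pi, Finset.mem_coe, Finset.mem_map, Equiv.coe_toEmbedding]
    constructor
    · rintro h _ ⟨x, hx, rfl⟩
      rw [he]
      exact h x hx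
    · intro h x hx
      have := h (e x) ⟨x, hx, rfl⟩
      rw [he] at this
      exact this
  rw [h1, Measure.infinitePi_pi _ (fun i _ => ht _), Finset.prod_map]
  refine Finset.prod_congr rfl fun x _ => ?_
  simp [he]

theorem integral_sh (i : Fin (q + 1)) (f : Lab (W q) → ℝ) :
    ∫ ω, f (sh i ω) ∂(labP (W q)) = ∫ ω, f ω ∂(labP (W q)) := by
  have := (sh_mp (q := q) i)
  have e : MeasurableEmbedding (sh i : Lab (W q) → Lab (W q)) := by
    let E : Lab (W q) ≃ᵐ Lab (W q) :=
      { toFun := sh i, invFun := sh i, left_inv := sh_sh i, right_inv := sh_sh i,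
        measurable_toFun := measurable_sh i, measurable_invFun := measurable_sh i }
    exact E.measurableEmbedding
  exact this.integral_comp e f

/-- Shift of the labels along a word. -/
def shl : List (Fin (q + 1)) → Lab (W q) → Lab (W q)
  | [] => id
  | a :: l => fun ω => shl l (sh a ω)

@[simp] theorem shl_nil (ω : Lab (W q)) : shl [] ω = ω := rfl
@[simp] theorem shl_cons (a : Fin (q + 1)) (l : List (Fin (q + 1))) (ω : Lab (W q)) :
    shl (a :: l) ω = shl l (sh a ω) := rfl

theorem shl_append (l l' : List (Fin (q + 1))) (ω : Lab (W q)) :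
    shl (l ++ l') ω = shl l' (shl l ω) := by
  induction l generalizing ω with
  | nil => rfl
  | cons a l ih => simp [ih]

theorem shl_reverse (l : List (Fin (q + 1))) (ω : Lab (W q)) :
    shl l.reverse (shl l ω) = ω := by
  induction l generalizing ω with
  | nil => rfl
  | cons a l ih =>
    rw [List.reverse_cons, shl_append]
    change sh a (shl l.reverse (shl l (sh a ω))) = ω
    rw [ih, sh_sh]

theorem atW_eq {X : Type*} (M : Lab (W q) → X) (l : List (Fin (q + 1))) (ω : Lab (W q)) :
    atW M l ω = M (shl l ω) := by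
  induction l generalizing ω with
  | nil => rfl
  | cons a l ih => simp [atW, ih]

theorem shl_mp (l : List (Fin (q + 1))) :
    MeasurePreserving (shl l : Lab (W q) → Lab (W q)) (labP (W q)) (labP (W q)) := by
  induction l with
  | nil => exact MeasurePreserving.id _
  | cons a l ih => exact ih.comp (sh_mp a)

theorem measurable_shl (l : List (Fin (q + 1))) :
    Measurable (shl l : Lab (W q) → Lab (W q)) := (shl_mp l).measurable

theorem integral_shl (l : List (Fin (q + 1))) (f : Lab (W q) → ℝ) :
    ∫ ω, f (shl l ω) ∂(labP (W q)) = ∫ ω, f ω ∂(labP (W q)) := by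
  induction l with
  | nil => rfl
  | cons a l ih =>
    rw [← ih]
    exact integral_sh a (fun ω => f (shl l ω))

theorem ae_shl {P : Lab (W q) → Prop} (h : ∀ᵐ ω ∂(labP (W q)), P ω) :
    ∀ᵐ ω ∂(labP (W q)), ∀ l : List (Fin (q + 1)), P (shl l ω) := by
  rw [ae_all_iff]
  intro l
  exact (shl_mp l).quasiMeasurePreserving.ae h

/-! ### sums over reduced words -/

/-- Sum over the words `l` of length `n` with `i :: l` reduced. -/
noncomputable def ws (i : Fin (q + 1)) : ℕ → (List (Fin (q + 1)) → ℝ) → ℝ
  | 0, f => f []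
  | n + 1, f => ∑ a ∈ Finset.univ.erase i, ws a n (fun l => f (a :: l))

/-- Sum over the reduced words of length `n`. -/
noncomputable def wsum (q : ℕ) : ℕ → (List (Fin (q + 1)) → ℝ) → ℝ
  | 0, f => f []
  | n + 1, f => ∑ a, ws a n (fun l => f (a :: l))

theorem ws_congr {n : ℕ} {i : Fin (q + 1)} {f g : List (Fin (q + 1)) → ℝ}
    (h : ∀ l, l.length = n → (i :: l).IsChain (· ≠ ·) → f l = g l) : ws i n f = ws i n g := by
  induction n generalizing i f g with
  | zero => exact h [] rfl (List.isChain_singleton i)
  | succ n ih =>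
    refine Finset.sum_congr rfl fun a ha => ih fun l hl hc => h _ (by simp [hl]) ?_
    exact List.isChain_cons_cons.2 ⟨(Finset.ne_of_mem_erase ha).symm, hc⟩

theorem ws_mono {n : ℕ} {i : Fin (q + 1)} {f g : List (Fin (q + 1)) → ℝ}
    (h : ∀ l, l.length = n → (i :: l).IsChain (· ≠ ·) → f l ≤ g l) : ws i n f ≤ ws i n g := by
  induction n generalizing i f g with
  | zero => exact h [] rfl (List.isChain_singleton i)
  | succ n ih =>
    refine Finset.sum_le_sum fun a ha => ih fun l hl hc => h _ (by simp [hl]) ?_
    exact List.isChain_cons_cons.2 ⟨(Finset.ne_of_mem_erase ha).symm, hc⟩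

theorem ws_add {n : ℕ} {i : Fin (q + 1)} (f g : List (Fin (q + 1)) → ℝ) :
    ws i n (fun l => f l + g l) = ws i n f + ws i n g := by
  induction n generalizing i f g with
  | zero => rfl
  | succ n ih =>
    simp only [ws]
    rw [← Finset.sum_add_distrib]
    exact Finset.sum_congr rfl fun a _ => ih _ _

theorem ws_mul {n : ℕ} {i : Fin (q + 1)} (c : ℝ) (f : List (Fin (q + 1)) → ℝ) :
    ws i n (fun l => c * f l) = c * ws i n f := by
  induction n generalizing i f with
  | zero => rfl
  | succ n ih =>
    simp only [ws]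
    rw [Finset.mul_sum]
    exact Finset.sum_congr rfl fun a _ => ih _

theorem ws_const {n : ℕ} {i : Fin (q + 1)} (c : ℝ) :
    ws i n (fun _ => c) = (q : ℝ) ^ n * c := by
  induction n generalizing i with
  | zero => simp [ws]
  | succ n ih =>
    simp only [ws]
    rw [Finset.sum_congr rfl fun a _ => ih]
    simp [Finset.card_erase_of_mem]
    ring

theorem ws_nonneg {n : ℕ} {i : Fin (q + 1)} {f : List (Fin (q + 1)) → ℝ} (h : ∀ l, 0 ≤ f l) :
    0 ≤ ws i n f := by
  have := ws_mono (n := n) (i := i) (f := fun _ => 0) (g := f) (fun l _ _ => h l)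
  rw [ws_const] at this
  simpa using this

theorem wsum_congr {n : ℕ} {f g : List (Fin (q + 1)) → ℝ}
    (h : ∀ l, l.length = n → l.IsChain (· ≠ ·) → f l = g l) : wsum q n f = wsum q n g := by
  cases n with
  | zero => exact h [] rfl List.isChain_nil
  | succ n => exact Finset.sum_congr rfl fun a _ => ws_congr fun l hl hc => h _ (by simp [hl]) hc

theorem wsum_mono {n : ℕ} {f g : List (Fin (q + 1)) → ℝ}
    (h : ∀ l, l.length = n → l.IsChain (· ≠ ·) → f l ≤ g l) : wsum q n f ≤ wsum q n g := by
  cases n with
  | zero => exact h [] rfl List.isChain_nil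
  | succ n => exact Finset.sum_le_sum fun a _ => ws_mono fun l hl hc => h _ (by simp [hl]) hc

theorem wsum_add {n : ℕ} (f g : List (Fin (q + 1)) → ℝ) :
    wsum q n (fun l => f l + g l) = wsum q n f + wsum q n g := by
  cases n with
  | zero => rfl
  | succ n =>
    simp only [wsum]
    rw [← Finset.sum_add_distrib]
    exact Finset.sum_congr rfl fun a _ => ws_add _ _

theorem wsum_mul {n : ℕ} (c : ℝ) (f : List (Fin (q + 1)) → ℝ) :
    wsum q n (fun l => c * f l) = c * wsum q n f := by
  cases n with
  | zero => rfl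
  | succ n =>
    simp only [wsum]
    rw [Finset.mul_sum]
    exact Finset.sum_congr rfl fun a _ => ws_mul _ _

theorem wsum_const_zero (c : ℝ) : wsum q 0 (fun _ => c) = c := rfl

theorem wsum_const_succ {n : ℕ} (c : ℝ) :
    wsum q (n + 1) (fun _ => c) = (q + 1) * (q : ℝ) ^ n * c := by
  simp only [wsum]
  rw [Finset.sum_congr rfl fun a _ => ws_const _]
  simp
  ring

theorem wsum_nonneg {n : ℕ} {f : List (Fin (q + 1)) → ℝ} (h : ∀ l, 0 ≤ f l) :
    0 ≤ wsum q n f := by
  cases n with
  | zero => exact h []
  | succ n => exact Finset.sum_nonneg fun a _ => ws_nonneg fun l => h _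

/-- `ws` as a sum over a finset of lists -/
theorem ws_eq_sum (i : Fin (q + 1)) (n : ℕ) : ∃ S : Finset (List (Fin (q + 1))),
    (∀ l, l ∈ S ↔ l.length = n ∧ (i :: l).IsChain (· ≠ ·)) ∧ ∀ f, ws i n f = ∑ l ∈ S, f l := by
  classical
  induction n generalizing i with
  | zero =>
    refine ⟨{[]}, fun l => ?_, fun f => by simp [ws]⟩
    constructor
    · intro h
      rw [Finset.mem_singleton] at h
      subst h
      simp
    · rintro ⟨h, _⟩
      rw [List.length_eq_zero_iff] at h
      simp [h]
  | succ n ih =>
    choose S hS hS' using ih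
    refine ⟨(Finset.univ.erase i).biUnion fun a => (S a).image (fun l => a :: l), fun l => ?_,
      fun f => ?_⟩
    · simp only [Finset.mem_biUnion, Finset.mem_erase, Finset.mem_univ, and_true,
        Finset.mem_image]
      constructor
      · rintro ⟨a, ha, l', hl', rfl⟩
        rw [hS] at hl'
        exact ⟨by simp [hl'.1], List.isChain_cons_cons.2 ⟨Ne.symm ha, hl'.2⟩⟩
      · rintro ⟨h1, h2⟩
        cases l with
        | nil => simp at h1
        | cons a l =>
          rw [List.isChain_cons_cons] at h2
          exact ⟨a, h2.1.symm, l, (hS a l).2 ⟨by simpa using h1, h2.2⟩, rfl⟩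
    · simp only [ws]
      rw [Finset.sum_biUnion]
      · refine Finset.sum_congr rfl fun a _ => ?_
        rw [hS', Finset.sum_image]
        intro x _ y _ h
        simpa using h
      · intro a _ b _ hab
        simp only [Function.onFun]
        rw [Finset.disjoint_left]
        intro x hx hy
        simp only [Finset.mem_image] at hx hy
        obtain ⟨l, _, rfl⟩ := hx
        obtain ⟨l', _, h⟩ := hy
        simp at h
        exact hab h.1.symm

theorem wsum_eq_sum (n : ℕ) : ∃ S : Finset (List (Fin (q + 1))),
    (∀ l, l ∈ S ↔ l.length = n ∧ l.IsChain (· ≠ ·)) ∧ ∀ f, wsum q n f = ∑ l ∈ S, f l := by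
  classical
  cases n with
  | zero =>
    refine ⟨{[]}, fun l => ?_, fun f => by simp [wsum]⟩
    constructor
    · intro h
      rw [Finset.mem_singleton] at h
      subst h
      simp
    · rintro ⟨h, _⟩
      rw [List.length_eq_zero_iff] at h
      simp [h]
  | succ n =>
    choose S hS hS' using fun i : Fin (q + 1) => ws_eq_sum i n
    refine ⟨Finset.univ.biUnion fun a => (S a).image (fun l => a :: l), fun l => ?_,
      fun f => ?_⟩
    · simp only [Finset.mem_biUnion, Finset.mem_univ, true_and,
        Finset.mem_image]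
      constructor
      · rintro ⟨a, l', hl', rfl⟩
        rw [hS] at hl'
        exact ⟨by simp [hl'.1], hl'.2⟩
      · rintro ⟨h1, h2⟩
        cases l with
        | nil => simp at h1
        | cons a l =>
          exact ⟨a, l, (hS a l).2 ⟨by simpa using h1, h2⟩, rfl⟩
    · simp only [wsum]
      rw [Finset.sum_biUnion]
      · refine Finset.sum_congr rfl fun a _ => ?_
        rw [hS', Finset.sum_image]
        intro x _ y _ h
        simpa using h
      · intro a _ b _ hab
        simp only [Function.onFun]
        rw [Finset.disjoint_left]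
        intro x hx hy
        simp only [Finset.mem_image] at hx hy
        obtain ⟨l, _, rfl⟩ := hx
        obtain ⟨l', _, h⟩ := hy
        simp at h
        exact hab h.1.symm

/-- Sum over the ball. -/
theorem sum_wball (f : List (Fin (q + 1)) → ℝ) (n : ℕ) :
    ∑ w ∈ wball q n, f w.1 = ∑ k ∈ Finset.range (n + 1), wsum q k f := by
  classical
  have h1 : ∑ w ∈ wball q n, f w.1 = ∑ k ∈ Finset.range (n + 1),
      ∑ w ∈ wball q n with w.1.length = k, f w.1 := by
    rw [Finset.sum_fiberwise_of_maps_to]
    intro w hw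
    rw [mem_wball] at hw
    simp only [Finset.mem_range]
    omega
  rw [h1]
  refine Finset.sum_congr rfl fun k hk => ?_
  obtain ⟨S, hS, hS'⟩ := wsum_eq_sum (q := q) k
  rw [hS']
  refine Finset.sum_bij (fun w _ => w.1) ?_ ?_ ?_ ?_
  · intro w hw
    rw [Finset.mem_filter] at hw
    exact (hS _).2 ⟨hw.2, w.2⟩
  · intro w _ w' _ h
    exact Subtype.ext h
  · intro l hl
    rw [hS] at hl
    refine ⟨⟨l, hl.2⟩, ?_, rfl⟩
    rw [Finset.mem_filter, mem_wball]
    simp only [Finset.mem_range] at hk
    exact ⟨by simp only [hl.1]; omega, hl.1⟩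
  · intro w _
    rfl

/-- To bound a `tsum` of a nonnegative function over the tree it suffices to bound the sums over
balls. -/
theorem tsum_le_of_wsum {f : List (Fin (q + 1)) → ℝ} (h0 : ∀ l, 0 ≤ f l) {B : ℝ}
    (h : ∀ n, ∑ k ∈ Finset.range (n + 1), wsum q k f ≤ B) :
    ∑' w : W q, f w.1 ≤ B := by
  refine Real.tsum_le_of_sum_le (fun w => h0 w.1) fun s => ?_
  have : ∃ n, s ⊆ wball q n := by
    refine ⟨s.sup fun w => w.1.length, fun w hw => ?_⟩
    rw [mem_wball]
    exact Finset.le_sup (f := fun w : W q => w.1.length) hw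
  obtain ⟨n, hn⟩ := this
  calc ∑ w ∈ s, f w.1 ≤ ∑ w ∈ wball q n, f w.1 :=
        Finset.sum_le_sum_of_subset_of_nonneg hn fun w _ _ => h0 w.1
    _ = _ := sum_wball f n
    _ ≤ B := h n

end Crest.Agent.FreeIs.Rec
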