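import Crest.Agent.FreeIs.Decouple
import Crest.Agent.FreeIs.GibbsNat
import Crest.Agent.FreeIs.Gibbs
import Crest.Agent.FreeIs.Rec

/-!
Planted measures on the cones (module CB of S0241).
-/

set_option autoImplicit false
set_option linter.unusedVariables false

open MeasureTheory Filter Topology

namespace Crest.Agent.FreeIs

namespace CB

variable {q : ℕ}

/-! ### words and cones -/

theorem toW_val {l : List (Fin (q + 1))} (h : l.IsChain (· ≠ ·)) : (toW l).1 = l := by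
  have h2 : toW l = ⟨l, h⟩ := dif_pos h
  rw [h2]

theorem toW1_val (i : Fin (q + 1)) : (toW [i]).1 = [i] := toW_val (List.isChain_singleton i)

theorem mem_below {Λ : Finset (W q)} {w x : W q} : x ∈ below Λ w ↔ x ∈ Λ ∧ w.1 <+: x.1 := by
  simp [below]

theorem mem_wcone {w x : W q} {n : ℕ} :
    x ∈ wcone w n ↔ x.1.length ≤ w.1.length + n ∧ w.1 <+: x.1 := by
  unfold wcone
  rw [mem_below, mem_wball]

theorem mem_cone1 {i : Fin (q + 1)} {N : ℕ} {x : W q} :
    x ∈ wcone (toW [i]) N ↔ x.1.length ≤ 1 + N ∧ [i] <+: x.1 := by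
  rw [mem_wcone, toW1_val]; rfl

theorem below_wcone (w : W q) (n : ℕ) : below (wcone w n) w = wcone w n := by
  ext x
  rw [mem_below, mem_wcone]
  tauto

theorem tog_val_ne {i j : Fin (q + 1)} (hij : j ≠ i) {w : W q} {l : List (Fin (q + 1))}
    (h : w.1 = j :: l) : (tog i w).1 = i :: j :: l := by
  obtain ⟨l', hl'⟩ := w
  simp only at h
  subst h
  simp [tog, hij]

theorem tog_val_eq {i : Fin (q + 1)} {w : W q} {l : List (Fin (q + 1))}
    (h : w.1 = i :: l) : (tog i w).1 = l := by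
  obtain ⟨l', hl'⟩ := w
  simp only at h
  subst h
  simp [tog]

theorem tog_val_nil {i : Fin (q + 1)} {w : W q} (h : w.1 = []) : (tog i w).1 = [i] := by
  obtain ⟨l', hl'⟩ := w
  simp only at h
  subst h
  simp [tog]

theorem tog_adj_aux (i : Fin (q + 1)) {u v : W q} {a : Fin (q + 1)} (h : v.1 = u.1 ++ [a]) :
    (WG q).Adj (tog i u) (tog i v) := by
  rcases hu : u.1 with _ | ⟨b, l⟩
  · rw [hu, List.nil_append] at h
    by_cases ha : a = i
    · subst ha
      right
      exact ⟨a, by rw [tog_val_nil hu, tog_val_eq h]; rfl⟩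
    · left
      exact ⟨a, by rw [tog_val_nil hu, tog_val_ne ha h]; rfl⟩
  · rw [hu] at h
    left
    refine ⟨a, ?_⟩
    by_cases hb : b = i
    · subst hb
      rw [tog_val_eq hu, tog_val_eq (l := l ++ [a]) h]
    · rw [tog_val_ne hb hu, tog_val_ne hb (l := l ++ [a]) h]
      rfl

theorem tog_adj' (i : Fin (q + 1)) (u v : W q) :
    (WG q).Adj (Rec.togE i u) (Rec.togE i v) ↔ (WG q).Adj u v := by
  have key : ∀ u v : W q, (WG q).Adj u v → (WG q).Adj (tog i u) (tog i v) := by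
    rintro u v (⟨a, h⟩ | ⟨a, h⟩)
    · exact tog_adj_aux i h
    · exact (tog_adj_aux i h).symm
  constructor
  · intro h
    have := key _ _ h
    change (WG q).Adj (tog i (tog i u)) (tog i (tog i v)) at this
    rwa [Rec.tog_tog, Rec.tog_tog] at this
  · exact key u v

theorem toW_tog {i j : Fin (q + 1)} (hij : j ≠ i) {l : List (Fin (q + 1))}
    (hl : (j :: l).IsChain (· ≠ ·)) : toW (i :: j :: l) = tog i (toW (j :: l)) := by
  have hc : (i :: j :: l).IsChain (· ≠ ·) := List.isChain_cons_cons.2 ⟨hij.symm, hl⟩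
  apply Subtype.ext
  rw [toW_val hc, tog_val_ne hij (toW_val hl)]

/-- the cone of a child, in the coordinates of the child -/
theorem child_cone {i j : Fin (q + 1)} (hij : j ≠ i) (N : ℕ) {l : List (Fin (q + 1))}
    (hl : (j :: l).IsChain (· ≠ ·)) :
    below (wcone (toW [i]) (N + 1)) (toW (i :: j :: l))
      = (below (wcone (toW [j]) N) (toW (j :: l))).map (Rec.togE i).toEmbedding := by
  have hc : (i :: j :: l).IsChain (· ≠ ·) := List.isChain_cons_cons.2 ⟨hij.symm, hl⟩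
  ext x
  rw [Finset.mem_map_equiv, mem_below, mem_below, mem_cone1, mem_cone1, toW_val hc, toW_val hl]
  change _ ↔ (((tog i x).1.length ≤ 1 + N ∧ [j] <+: (tog i x).1) ∧ j :: l <+: (tog i x).1)
  constructor
  · rintro ⟨⟨h1, _⟩, m, hm⟩
    have e : (tog i x).1 = j :: l ++ m := tog_val_eq (by rw [← hm]; rfl)
    rw [e]
    refine ⟨⟨?_, ?_⟩, List.prefix_append _ _⟩
    · rw [← hm] at h1
      simp only [List.cons_append, List.length_cons, List.length_append] at h1 ⊢
      omega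
    · exact ⟨l ++ m, rfl⟩
  · rintro ⟨⟨h1, _⟩, m, hm⟩
    have e : x.1 = i :: j :: (l ++ m) := by
      have := tog_val_ne hij (w := tog i x) (l := l ++ m) (by rw [← hm]; rfl)
      rwa [Rec.tog_tog] at this
    rw [e]
    refine ⟨⟨?_, ?_⟩, ?_⟩
    · rw [← hm] at h1
      simp only [List.cons_append, List.length_cons, List.length_append] at h1 ⊢
      omega
    · exact ⟨_, rfl⟩
    · exact ⟨m, rfl⟩

end CB

open CB

variable {q : ℕ}

theorem cmsg_shift {θ : ℝ} {i j : Fin (q + 1)} (hij : j ≠ i) (N : ℕ) (t : W q → ℝ)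
    (l : List (Fin (q + 1))) (hl : (j :: l).IsChain (· ≠ ·)) :
    cmsg θ i (N + 1) t (toW (i :: j :: l)) = cmsg θ j N (fun w => t (tog i w)) (toW (j :: l)) := by
  unfold cmsg
  rw [child_cone hij N hl, toW_tog hij hl]
  exact mag_map (Rec.togE i) (tog_adj' i) θ _ t _

theorem cmsg_neg (θ : ℝ) (i : Fin (q + 1)) (N : ℕ) (t : W q → ℝ) (w : W q) :
    cmsg θ i N (fun v => - t v) w = - cmsg θ i N t w := mag_neg _ _ _ _ _

theorem measurable_cmsg {θ : ℝ} (i : Fin (q + 1)) (N : ℕ) (w : W q) :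
    Measurable fun t : W q → ℝ => cmsg θ i N t w := measurable_mag _ _ _ _

theorem cmsg_abs_lt {θ : ℝ} (h0 : 0 ≤ θ) (h1 : θ < 1) (i : Fin (q + 1)) (N : ℕ)
    {t : W q → ℝ} (ht : ∀ w, |t w| < 1) (w : W q) : |cmsg θ i N t w| < 1 :=
  mag_lt _ h0 h1 (fun v _ => ht v) w

theorem cmsg_congr (θ : ℝ) (i : Fin (q + 1)) (N : ℕ) {t t' : W q → ℝ}
    (h : ∀ v ∈ wcone (toW [i]) N, t v = t' v) (w : W q) :
    cmsg θ i N t w = cmsg θ i N t' w :=
  mag_congr _ _ (fun v hv => h v (mem_below.1 hv).1) w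

theorem CB.gg_neg (θ m : ℝ) : gg θ (-m) = gg θ m := by
  unfold gg; ring_nf

theorem AN_even {θ : ℝ} (i : Fin (q + 1)) (N k : ℕ) (t : W q → ℝ) (l : List (Fin (q + 1))) :
    AN θ i N (fun w => - t w) k l = AN θ i N t k l := by
  induction k generalizing l with
  | zero => rfl
  | succ k ih =>
    simp only [AN]
    refine congrArg _ (Finset.sum_congr rfl fun j _ => ?_)
    rw [ih, cmsg_neg, gg_neg]

theorem CB.measurable_gg (θ : ℝ) : Measurable fun m : ℝ => gg θ m := by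
  unfold gg; fun_prop

theorem measurable_AN {θ : ℝ} (i : Fin (q + 1)) (N k : ℕ) (l : List (Fin (q + 1))) :
    Measurable fun t : W q → ℝ => AN θ i N t k l := by
  induction k generalizing l with
  | zero => exact measurable_const
  | succ k ih =>
    simp only [AN]
    refine Measurable.const_mul ?_ _
    refine Finset.measurable_fun_sum _ fun j _ => ?_
    exact (((measurable_gg θ).comp (measurable_cmsg i N _)).const_mul _).mul (ih _)

theorem AN_congr (θ : ℝ) (i : Fin (q + 1)) (N k : ℕ) {t t' : W q → ℝ}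
    (h : ∀ v ∈ wcone (toW [i]) N, t v = t' v) (l : List (Fin (q + 1))) :
    AN θ i N t k l = AN θ i N t' k l := by
  induction k generalizing l with
  | zero => rfl
  | succ k ih =>
    simp only [AN]
    refine congrArg _ (Finset.sum_congr rfl fun j _ => ?_)
    rw [ih, cmsg_congr θ i N h]

namespace CB

theorem nxt_cons (i j : Fin (q + 1)) (l : List (Fin (q + 1))) :
    nxt (i :: j :: l) = nxt (j :: l) := by
  unfold nxt
  rw [List.getLast?_cons_cons]

theorem nxt_single (i : Fin (q + 1)) : nxt [i] = Finset.univ.erase i := by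
  unfold nxt
  ext j
  simp [eq_comm]

theorem mem_nxt {l : List (Fin (q + 1))} {j : Fin (q + 1)} : j ∈ nxt l ↔ l.getLast? ≠ some j := by
  simp [nxt]

theorem chain_snoc {l : List (Fin (q + 1))} (hl : l.IsChain (· ≠ ·)) {j : Fin (q + 1)}
    (hj : j ∈ nxt l) : (l ++ [j]).IsChain (· ≠ ·) := by
  rw [mem_nxt] at hj
  rw [List.isChain_append]
  refine ⟨hl, List.isChain_singleton j, ?_⟩
  intro x hx y hy
  simp only [List.head?_cons, Option.mem_def, Option.some.injEq] at hy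
  subst hy
  rintro rfl
  exact hj hx

theorem nxt_card {l : List (Fin (q + 1))} (hl0 : l ≠ []) : (nxt l).card = q := by
  have : nxt l = Finset.univ.erase (l.getLast hl0) := by
    ext j
    rw [mem_nxt, List.getLast?_eq_some_getLast hl0]
    simp [eq_comm]
  rw [this, Finset.card_erase_of_mem (Finset.mem_univ _)]
  simp

theorem AN_shift' {θ : ℝ} {i j : Fin (q + 1)} (hij : j ≠ i) (N k : ℕ) (t : W q → ℝ)
    (l : List (Fin (q + 1))) (hl : (j :: l).IsChain (· ≠ ·)) :
    AN θ i (N + 1) t k (i :: j :: l) = AN θ j N (fun w => t (tog i w)) k (j :: l) := by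
  induction k generalizing l with
  | zero => rfl
  | succ k ih =>
    simp only [AN]
    rw [nxt_cons]
    refine congrArg _ (Finset.sum_congr rfl fun a ha => ?_)
    have hc := chain_snoc hl ha
    have e1 := ih (l ++ [a]) hc
    have e2 := cmsg_shift (θ := θ) hij N t (l ++ [a]) hc
    simp only [List.cons_append] at e1 e2 ⊢
    rw [e1, e2]

end CB

theorem AN_shift {θ : ℝ} {i j : Fin (q + 1)} (hij : j ≠ i) (N k : ℕ) (t : W q → ℝ) :
    AN θ i (N + 1) t k [i, j] = AN θ j N (fun w => t (tog i w)) k [j] :=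
  AN_shift' hij N k t [] (List.isChain_singleton j)

namespace CB

theorem gg_mem {θ m : ℝ} (h0 : 0 ≤ θ) (h1 : θ < 1) (hm : |m| < 1) :
    0 ≤ gg θ m ∧ gg θ m ≤ 1 := by
  have h2 := abs_lt.1 hm
  have hm2 : m ^ 2 < 1 := by nlinarith
  have hθ2 : θ ^ 2 < 1 := by nlinarith
  have hd : 0 < 1 - θ ^ 2 * m ^ 2 := by nlinarith [sq_nonneg m, sq_nonneg θ]
  unfold gg
  refine ⟨div_nonneg (by linarith) hd.le, ?_⟩
  rw [div_le_one hd]
  nlinarith [sq_nonneg m]

theorem theta_lt_one {θ : ℝ} (h0 : 0 ≤ θ) (h1 : q * θ ^ 2 ≤ 1) (hq : 2 ≤ q) : θ < 1 := by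
  have : (2 : ℝ) ≤ q := by exact_mod_cast hq
  nlinarith [sq_nonneg θ]

end CB

theorem AN_nonneg_le_one {θ : ℝ} (h0 : 0 ≤ θ) (h1 : q * θ ^ 2 ≤ 1) (hq : 2 ≤ q) (i : Fin (q + 1))
    (N k : ℕ) (t : W q → ℝ) (ht : ∀ w, |t w| < 1) (l : List (Fin (q + 1)))
    (hl : l.IsChain (· ≠ ·)) (hl0 : l ≠ []) : 0 ≤ AN θ i N t k l ∧ AN θ i N t k l ≤ 1 := by
  have hθ : θ < 1 := theta_lt_one h0 h1 hq
  have hq0 : (0 : ℝ) < q := by exact_mod_cast (by omega : 0 < q)
  have hs : √(q : ℝ) * θ ≤ 1 := by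
    have h2 : (√(q : ℝ) * θ) ^ 2 ≤ 1 := by
      rw [mul_pow, Real.sq_sqrt hq0.le]; exact h1
    have h3 : 0 ≤ √(q : ℝ) * θ := by positivity
    nlinarith
  have hs0 : 0 ≤ √(q : ℝ) * θ := by positivity
  induction k generalizing l with
  | zero => simp [AN]
  | succ k ih =>
    simp only [AN]
    have hterm : ∀ j ∈ nxt l, 0 ≤ √(q : ℝ) * θ * gg θ (cmsg θ i N t (toW (l ++ [j])))
        * AN θ i N t k (l ++ [j]) ∧ √(q : ℝ) * θ * gg θ (cmsg θ i N t (toW (l ++ [j])))
        * AN θ i N t k (l ++ [j]) ≤ 1 := by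
      intro j hj
      have h2 := ih (l ++ [j]) (chain_snoc hl hj) (by simp)
      have h3 := gg_mem h0 hθ (cmsg_abs_lt h0 hθ i N ht (toW (l ++ [j])))
      refine ⟨mul_nonneg (mul_nonneg hs0 h3.1) h2.1, ?_⟩
      exact mul_le_one₀ (mul_le_one₀ hs h3.1 h3.2) h2.1 h2.2
    refine ⟨mul_nonneg (by positivity) (Finset.sum_nonneg fun j hj => (hterm j hj).1), ?_⟩
    have : ∑ j ∈ nxt l, √(q : ℝ) * θ * gg θ (cmsg θ i N t (toW (l ++ [j])))
        * AN θ i N t k (l ++ [j]) ≤ (nxt l).card • (1 : ℝ) :=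
      Finset.sum_le_card_nsmul _ _ _ fun j hj => (hterm j hj).2
    rw [nxt_card hl0, nsmul_eq_mul, mul_one] at this
    rw [inv_mul_le_iff₀ hq0, mul_one]
    exact this

end Crest.Agent.FreeIs
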