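import Mathlib
import Crest.Prelude.Def_TreeIsing

/-!
S0241: definitions shared by all modules (free Ising on the regular tree is a factor of iid).
The concrete `(q+1)`-regular tree is the graph `WG q` on reduced words `W q` (`q ≥ 2`);
critical point `θ_c = q^(-1/2)`, i.e. `q * θ^2 = 1`.
-/

set_option autoImplicit false
set_option linter.unusedVariables false

open MeasureTheory

universe u

namespace Crest.Agent.FreeIs

/-! ### Elementary functions -/

/-- Einstein sum of two magnetisations. -/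
noncomputable def ein (p q : ℝ) : ℝ := (p + q) / (1 + p * q)

/-- `g_θ(m) = (1 - m²) / (1 - θ² m²)`. -/
noncomputable def gg (θ m : ℝ) : ℝ := (1 - m ^ 2) / (1 - θ ^ 2 * m ^ 2)

/-- Message of `y` away from `x`, reconstructed from `p` = magnetisation of `x` and `q` =
magnetisation of `y` (neighbours). -/
noncomputable def cav (θ p q : ℝ) : ℝ :=
  2 * ((q - θ * p) / (1 - θ ^ 2)) /
    (1 + √(1 - 4 * θ * ((q - θ * p) / (1 - θ ^ 2)) * ((p - θ * q) / (1 - θ ^ 2))))

/-- Quantile function of the density `(1 + κ y) / 2` on `[-1,1]`. -/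
noncomputable def qy (κ w : ℝ) : ℝ := (4 * w - 2 + κ) / (1 + √((1 - κ) ^ 2 + 4 * κ * w))

/-- Strength of an observation made at (within-round) time `r`. -/
noncomputable def eta (r : ℝ) : ℝ := √r / 2

/-- Normalised jump `h y / (1 + h M y)` with `y = qy (h M) w`. -/
noncomputable def jmp (h M w : ℝ) : ℝ := h * qy (h * M) w / (1 + h * M * qy (h * M) w)

/-! ### Finite Gibbs measures; a configuration is its finset of plus spins -/

section Gibbs

variable {V : Type u} (G : SimpleGraph V)

open Classical in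
/-- Spin (±1) of `v` when `P` is the set of plus spins. -/
noncomputable def spin (P : Finset V) (v : V) : ℝ := if v ∈ P then 1 else -1

/-- Product of the two spins along an (unordered) pair. -/
noncomputable def spinE (P : Finset V) : Sym2 V → ℝ :=
  Sym2.lift ⟨fun x y => spin P x * spin P y, fun _ _ => mul_comm _ _⟩

open Classical in
/-- Weight of `P` in the free Ising model on `Λ` with parameter `θ` and site tilts `t`. -/
noncomputable def wt (θ : ℝ) (Λ : Finset V) (t : V → ℝ) (P : Finset V) : ℝ :=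
  (∏ e ∈ Λ.sym2 with e ∈ G.edgeSet, (1 + θ * spinE P e)) * ∏ v ∈ Λ, (1 + t v * spin P v)

/-- Unnormalised Gibbs sum, divided by `2 ^ |Λ|`. -/
noncomputable def gexp (θ : ℝ) (Λ : Finset V) (t : V → ℝ) (F : Finset V → ℝ) : ℝ :=
  (2 : ℝ)⁻¹ ^ Λ.card * ∑ P ∈ Λ.powerset, F P * wt G θ Λ t P

/-- Partition function (normalised so that it is `1` for `t = 0`, `Λ` a forest). -/
noncomputable def Zf (θ : ℝ) (Λ : Finset V) (t : V → ℝ) : ℝ := gexp G θ Λ t (fun _ => 1)

open Classical in
/-- Magnetisation of `v` in the model on `Λ` with tilts `t`; `0` outside `Λ`. -/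
noncomputable def mag (θ : ℝ) (Λ : Finset V) (t : V → ℝ) (v : V) : ℝ :=
  if v ∈ Λ then gexp G θ Λ t (fun P => spin P v) / Zf G θ Λ t else 0

open Classical in
/-- Covariance of the spins at `v`, `u`; `0` unless both are in `Λ`. -/
noncomputable def cov (θ : ℝ) (Λ : Finset V) (t : V → ℝ) (v u : V) : ℝ :=
  if v ∈ Λ ∧ u ∈ Λ then
    gexp G θ Λ t (fun P => spin P v * spin P u) / Zf G θ Λ t - mag G θ Λ t v * mag G θ Λ t u
  else 0

end Gibbs

/-! ### The sampler -/

section Sampler

variable {V : Type u} (G : SimpleGraph V)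

/-- Labels: `(v, j, false)` gives the time, `(v, j, true)` the quantile label of `v` in round `j`. -/
abbrev Lab (V : Type u) := V × ℕ × Bool → unitInterval

noncomputable def labP (V : Type u) : Measure (Lab V) :=
  Crest.ProbabilityR.Labels.labelMeasure (V × ℕ × Bool)

/-- Observation time of `v` in round `j`, uniform on `[0,2]`; used only if it is `< 1`. -/
noncomputable def TT (ω : Lab V) (j : ℕ) (v : V) : ℝ := 2 * (ω (v, j, false) : ℝ)

noncomputable def UU (ω : Lab V) (j : ℕ) (v : V) : ℝ := (ω (v, j, true) : ℝ)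

open Classical in
/-- Tilts at time `r` of a round started from the tilts `t0`, observations `Y`, times `T`. -/
noncomputable def tlt (Λ : Finset V) (t0 T Y : V → ℝ) (r : ℝ) : V → ℝ := fun w =>
  if w ∈ Λ ∧ T w < r then ein (t0 w) (eta (T w) * Y w) else t0 w

/-- One step of the fixed point iteration for the observations of a round. -/
noncomputable def stepY (θ : ℝ) (Λ : Finset V) (t0 T U Y : V → ℝ) : V → ℝ := fun v =>
  qy (eta (T v) * mag G θ Λ (tlt Λ t0 T Y (T v)) v) (U v)

/-- The observations of a round. -/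
noncomputable def Ysol (θ : ℝ) (Λ : Finset V) (t0 T U : V → ℝ) : V → ℝ :=
  (stepY G θ Λ t0 T U)^[Λ.card] (fun _ => 0)

/-- Tilts at time `r` of a round started from `t0`. -/
noncomputable def rnd (θ : ℝ) (Λ : Finset V) (t0 T U : V → ℝ) (r : ℝ) : V → ℝ :=
  tlt Λ t0 T (Ysol G θ Λ t0 T U) r

/-- Tilts at the beginning of round `j`. -/
noncomputable def start (θ : ℝ) (Λ : Finset V) (ω : Lab V) : ℕ → V → ℝ
  | 0 => fun _ => 0
  | j + 1 => rnd G θ Λ (start θ Λ ω j) (TT ω j) (UU ω j) 1

/-- Tilts at time `r` of round `j`. -/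
noncomputable def st (θ : ℝ) (Λ : Finset V) (ω : Lab V) (j : ℕ) (r : ℝ) : V → ℝ :=
  rnd G θ Λ (start G θ Λ ω j) (TT ω j) (UU ω j) r

/-- Finite volume magnetisation at time `r` of round `j`. -/
noncomputable def Mf (θ : ℝ) (Λ : Finset V) (ω : Lab V) (j : ℕ) (r : ℝ) (v : V) : ℝ :=
  mag G θ Λ (st G θ Λ ω j r) v

/-- Finite volume covariance at time `r` of round `j`. -/
noncomputable def Cf (θ : ℝ) (Λ : Finset V) (ω : Lab V) (j : ℕ) (r : ℝ) (v u : V) : ℝ :=
  cov G θ Λ (st G θ Λ ω j r) v u

/-- Action of a map of vertices on labels. -/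
def act {V' : Type u} (g : V' → V) (ω : Lab V) : Lab V' := fun e => ω (g e.1, e.2)

end Sampler

/-! ### Single-site laws -/

section Site

/-- Law of `η(T)·y` (or `0` if `T ≥ r`) for one observation up to time `r`, spin averaged out. -/
noncomputable def obsLaw (r : ℝ) : Measure ℝ :=
  ((volume : Measure unitInterval).prod (volume : Measure unitInterval)).map
    (fun p => if 2 * (p.1 : ℝ) < r then eta (2 * (p.1 : ℝ)) * (2 * (p.2 : ℝ) - 1) else 0)

/-- Combination of two independent pieces of evidence. -/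
noncomputable def comb (π ρ : Measure ℝ) : Measure ℝ :=
  ((π.prod ρ).withDensity (fun p => ENNReal.ofReal (1 + p.1 * p.2))).map (fun p => ein p.1 p.2)

/-- Single-site law of the tilt at the beginning of round `j`. -/
noncomputable def siteS : ℕ → Measure ℝ
  | 0 => Measure.dirac 0
  | j + 1 => comb (siteS j) (obsLaw 1)

/-- Single-site law of the tilt at time `r` of round `j`. -/
noncomputable def siteL (j : ℕ) (r : ℝ) : Measure ℝ := comb (siteS j) (obsLaw r)

end Site

/-! ### The concrete tree -/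

section Words

/-- Reduced words; the head is the first step from the root. -/
def W (q : ℕ) : Type := {l : List (Fin (q + 1)) // l.IsChain (· ≠ ·)}

variable {q : ℕ}

instance : DecidableEq (W q) := inferInstanceAs (DecidableEq {l : List (Fin (q + 1)) // _})

instance : Countable (W q) := inferInstanceAs (Countable {l : List (Fin (q + 1)) // _})

/-- The root. -/
def wroot (q : ℕ) : W q := ⟨[], List.isChain_nil⟩

/-- The `(q+1)`-regular tree: `u` is joined to `u ++ [a]`. -/
def WG (q : ℕ) : SimpleGraph (W q) where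
  Adj u v := (∃ a, v.1 = u.1 ++ [a]) ∨ ∃ a, u.1 = v.1 ++ [a]
  symm := ⟨fun _ _ h => h.symm⟩
  loopless := ⟨fun u h => by
    rcases h with ⟨a, h⟩ | ⟨a, h⟩ <;>
    · have := congrArg List.length h
      simp at this⟩

/-- Left toggle of the letter `i`: an involutive automorphism exchanging the root and `[i]`. -/
def tog (i : Fin (q + 1)) (w : W q) : W q :=
  match w with
  | ⟨[], _⟩ => ⟨[i], List.isChain_singleton i⟩
  | ⟨a :: l, h⟩ => if ha : a = i then ⟨l, h.tail⟩ else
      ⟨i :: a :: l, List.isChain_cons_cons.2 ⟨Ne.symm ha, h⟩⟩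

/-- Translation mapping the root to the reduced word `l`. -/
def tr : List (Fin (q + 1)) → W q → W q
  | [] => id
  | a :: l => fun w => tog a (tr l w)

theorem finite_len (q n : ℕ) : {w : W q | w.1.length ≤ n}.Finite := by
  have h : {l : List (Fin (q + 1)) | l.length ≤ n}.Finite := List.finite_length_le _ n
  exact h.preimage (Subtype.val_injective.injOn)

/-- Ball of radius `n` about the root. -/
noncomputable def wball (q n : ℕ) : Finset (W q) := (finite_len q n).toFinset

theorem mem_wball {q n : ℕ} {w : W q} : w ∈ wball q n ↔ w.1.length ≤ n := by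
  simp [wball]

open Classical in
/-- The part of `Λ` below the word `w` (words having `w` as a prefix). -/
noncomputable def below (Λ : Finset (W q)) (w : W q) : Finset (W q) := Λ.filter (w.1 <+: ·.1)

/-- The cone of depth `n` below `w`. -/
noncomputable def wcone (w : W q) (n : ℕ) : Finset (W q) := below (wball q (w.1.length + n)) w

/-- Shift of the labels by the toggle `i`. -/
def sh (i : Fin (q + 1)) (ω : Lab (W q)) : Lab (W q) := act (tog i) ω

/-- Infinite volume magnetisation at the root at time `r` of round `j`. -/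
noncomputable def Mr (q : ℕ) (θ : ℝ) (j : ℕ) (r : ℝ) (ω : Lab (W q)) : ℝ :=
  Filter.limsup (fun n : ℕ => Mf (WG q) θ (wball q n) ω j r (wroot q)) Filter.atTop

/-- For a root function `M`, the value at the vertex `l`. -/
def atW {X : Type*} (M : Lab (W q) → X) : List (Fin (q + 1)) → Lab (W q) → X
  | [] => M
  | a :: l => fun ω => atW M l (sh a ω)

/-- Message from the neighbour `i` of the root (away from the root), `M` root magnetisation. -/
noncomputable def msg (θ : ℝ) (M : Lab (W q) → ℝ) (i : Fin (q + 1)) (ω : Lab (W q)) : ℝ :=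
  cav θ (M ω) (M (sh i ω))

/-- Normalised regression coefficient `√q θ g(m_i)` at the dart `root → i`. -/
noncomputable def aa (θ : ℝ) (M : Lab (W q) → ℝ) (i : Fin (q + 1)) (ω : Lab (W q)) : ℝ :=
  √(q : ℝ) * θ * gg θ (msg θ M i ω)

/-- Forward averaging operator on dart functions. -/
noncomputable def Bop (ξ : Fin (q + 1) → Lab (W q) → ℝ) (i : Fin (q + 1)) (ω : Lab (W q)) : ℝ :=
  (q : ℝ)⁻¹ * ∑ k ∈ Finset.univ.erase i, ξ k (sh i ω)

/-- `Asum a n i` = average over the `q^n` forward paths from the dart `root → i` of the product of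
`a` over the `n` next darts. -/
noncomputable def Asum (a : Fin (q + 1) → Lab (W q) → ℝ) : ℕ → Fin (q + 1) → Lab (W q) → ℝ
  | 0 => fun _ _ => 1
  | n + 1 => Bop (fun i ω => a i ω * Asum a n i ω)

/-- Susceptibility seen from the dart `root → i`. -/
noncomputable def Sus (a : Fin (q + 1) → Lab (W q) → ℝ) (i : Fin (q + 1)) (ω : Lab (W q)) : ℝ :=
  ∑' n, Asum a n i ω

/-- Product of the regression coefficients `θ g(m)` along the path from the root to `l`. -/
noncomputable def regr (θ : ℝ) (M : Lab (W q) → ℝ) : List (Fin (q + 1)) → Lab (W q) → ℝ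
  | [] => fun _ => 1
  | a :: l => fun ω => θ * gg θ (msg θ M a ω) * regr θ M l (sh a ω)

/-- Infinite volume covariance of the root and the vertex `l`. -/
noncomputable def covr (θ : ℝ) (M : Lab (W q) → ℝ) (l : List (Fin (q + 1))) (ω : Lab (W q)) : ℝ :=
  (1 - M ω ^ 2) * regr θ M l ω

/-- Squared distance of two root functions. -/
noncomputable def nn (M M' : Lab (W q) → ℝ) : ℝ := ∫ ω, (M ω - M' ω) ^ 2 ∂(labP (W q))

/-- The rate of growth of `nn` (up to the factor `r/4`). -/
noncomputable def Rt (θ θ' : ℝ) (M M' : Lab (W q) → ℝ) : ℝ :=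
  ∑' w : W q, ∫ ω, (2 * (covr θ M w.1 ω - covr θ' M' w.1 ω) ^ 2
    + 32 * (covr θ' M' w.1 ω) ^ 2 * (atW M w.1 ω - atW M' w.1 ω) ^ 2) ∂(labP (W q))

/-- A list as a word (root if not reduced). -/
noncomputable def toW (l : List (Fin (q + 1))) : W q :=
  haveI := Classical.propDecidable (l.IsChain (· ≠ ·))
  if h : l.IsChain (· ≠ ·) then ⟨l, h⟩ else wroot q

/-- Letters that may follow the reduced word `l`. -/
def nxt (l : List (Fin (q + 1))) : Finset (Fin (q + 1)) :=
  Finset.univ.filter (fun j => l.getLast? ≠ some j)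

/-- Message at the vertex `l` (nonempty) away from the root. -/
noncomputable def msgW (θ : ℝ) (M : Lab (W q) → ℝ) : List (Fin (q + 1)) → Lab (W q) → ℝ
  | [] => fun _ => 0
  | [a] => msg θ M a
  | a :: b :: l => fun ω => msgW θ M (b :: l) (sh a ω)

/-- Finite volume message at `w` in the depth `N` cone below `[i]`. -/
noncomputable def cmsg (θ : ℝ) (i : Fin (q + 1)) (N : ℕ) (t : W q → ℝ) (w : W q) : ℝ :=
  mag (WG q) θ (below (wcone (toW [i]) N) w) t w

/-- Finite volume analogue of `Asum`, at the vertex `l`. -/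
noncomputable def AN (θ : ℝ) (i : Fin (q + 1)) (N : ℕ) (t : W q → ℝ) :
    ℕ → List (Fin (q + 1)) → ℝ
  | 0, _ => 1
  | k + 1, l => (q : ℝ)⁻¹ * ∑ j ∈ nxt l,
      √(q : ℝ) * θ * gg θ (cmsg θ i N t (toW (l ++ [j]))) * AN θ i N t k (l ++ [j])

/-- Symmetric probability law on `[-τ, τ]`, `τ < 1`. -/
structure SiteLaw (π : Measure ℝ) (τ : ℝ) : Prop where
  prob : IsProbabilityMeasure π
  symm : π.map (fun t => -t) = π
  supp : ∀ᵐ t ∂π, |t| ≤ τ
  lt : τ < 1
  nonneg : 0 ≤ τ

/-- Law of the message from a depth `N` cone: own law `π` combined with `q` independent children. -/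
noncomputable def msgLaw (q : ℕ) (θ : ℝ) (π : Measure ℝ) : ℕ → Measure ℝ
  | 0 => π
  | N + 1 => (fun μ => comb μ ((msgLaw q θ π N).map (fun m => θ * m)))^[q] π

/-- Own law combined with `q - 1` children of depth `N`. -/
noncomputable def muLaw (q : ℕ) (θ : ℝ) (π : Measure ℝ) (N : ℕ) : Measure ℝ :=
  (fun μ => comb μ ((msgLaw q θ π N).map (fun m => θ * m)))^[q - 1] π

/-- Expectation of `F` in the planted measure on the depth `N` cone below `[i]`. -/
noncomputable def coneE (θ : ℝ) (π : Measure ℝ) (i : Fin (q + 1)) (N : ℕ)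
    (F : (W q → ℝ) → ℝ) : ℝ :=
  ∫ t, F t * Zf (WG q) θ (wcone (toW [i]) N) t ∂(Measure.infinitePi (fun _ : W q => π))

/-- Bounded measurable functions of the labels that are `L²` limits of local ones. -/
structure Loc (f : Lab (W q) → ℝ) : Prop where
  meas : Measurable f
  bd : ∃ K, ∀ ω, |f ω| ≤ K
  approx : ∀ ε > 0, ∃ n : ℕ, ∃ f' : Lab (W q) → ℝ, Measurable f' ∧ (∃ K, ∀ ω, |f' ω| ≤ K) ∧
    (∀ ω ω' : Lab (W q), (∀ e, e.1 ∈ wball q n → ω e = ω' e) → f' ω = f' ω') ∧
    ∫ ω, (f ω - f' ω) ^ 2 ∂(labP (W q)) ≤ ε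

/-- A (weak form of a) root magnetisation field: used as abstract interface. -/
structure Sys (q : ℕ) (θ : ℝ) (M : Lab (W q) → ℝ) : Prop where
  meas : Measurable M
  bd : ∀ ω, |M ω| ≤ 1
  edge : ∀ i, ∀ᵐ ω ∂(labP (W q)), ∃ m m' : ℝ, |m| ≤ 1 ∧ |m'| ≤ 1 ∧
    M ω = ein m' (θ * m) ∧ M (sh i ω) = ein m (θ * m')
  approx : ∀ ε > 0, ∃ n : ℕ, ∃ f : Lab (W q) → ℝ, Measurable f ∧ (∀ ω, |f ω| ≤ 1) ∧
    (∀ ω ω' : Lab (W q), (∀ e, e.1 ∈ wball q n → ω e = ω' e) → f ω = f ω') ∧
    ∫ ω, (M ω - f ω) ^ 2 ∂(labP (W q)) ≤ ε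

/-- Quantitative facts about one system at parameter `s ∈ (0,1]` (susceptibility `≍ 1/s`). -/
structure Facts (q : ℕ) (θ s c C : ℝ) (M : Lab (W q) → ℝ) : Prop where
  sys : Sys q θ M
  cpos : 0 < c * s
  cle : c * s ≤ 1
  decay : ∀ (i : Fin (q + 1)) (n : ℕ),
    ∫ ω, Asum (aa θ M) n i ω ∂(labP (W q)) ≤ (1 - c * s) ^ n
  tail : ∀ (i : Fin (q + 1)) (k : ℕ),
    ∫ ω, (max 0 (Sus (aa θ M) i ω - (C / s + k))) ^ 2 ∂(labP (W q)) ≤ C * Real.exp (-(2 : ℝ) ^ k)

/-- Mean of the logarithm of `g`. -/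
noncomputable def mlg (θ : ℝ) (M : Lab (W q) → ℝ) (i : Fin (q + 1)) : ℝ :=
  ∫ ω, Real.log (gg θ (msg θ M i ω)) ∂(labP (W q))

end Words

end Crest.Agent.FreeIs
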