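import Crest.Agent.FreeIs.Rec

/-!
Shared infrastructure for M7/M8: the edge relation of a system almost everywhere along all words,
ranges of the regression coefficients, decay of the covariances, symmetric form of `covr`,
bounded measurable functions.
-/

set_option autoImplicit false
set_option linter.unusedVariables false

open MeasureTheory Filter Topology

namespace Crest.Agent.FreeIs.Rec

open Crest.Agent.FreeIs

/-! ### real lemmas -/

theorem gg_nonneg' {θ m : ℝ} (h0 : 0 ≤ θ) (h1 : θ < 1) (hm : |m| ≤ 1) : 0 ≤ gg θ m := by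
  have h2 : m ^ 2 ≤ 1 := by rw [← sq_abs]; nlinarith [abs_nonneg m]
  have h3 : θ ^ 2 * m ^ 2 ≤ θ ^ 2 := by nlinarith [sq_nonneg θ]
  have h4 : θ ^ 2 < 1 := by nlinarith
  unfold gg
  exact div_nonneg (by linarith) (by linarith)

theorem gg_le_one' {θ m : ℝ} (h0 : 0 ≤ θ) (h1 : θ < 1) (hm : |m| ≤ 1) : gg θ m ≤ 1 := by
  have h2 : m ^ 2 ≤ 1 := by rw [← sq_abs]; nlinarith [abs_nonneg m]
  have h3 : θ ^ 2 * m ^ 2 ≤ θ ^ 2 := by nlinarith [sq_nonneg θ]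
  have h4 : θ ^ 2 < 1 := by nlinarith
  unfold gg
  rw [div_le_one (by linarith)]
  nlinarith [sq_nonneg m]

theorem gg_pos_of_le {θ m μ : ℝ} (h0 : 0 ≤ θ) (h1 : θ < 1) (hμ : μ < 1) (hm : |m| ≤ μ) :
    1 - μ ^ 2 ≤ gg θ m := by
  have h2 : m ^ 2 ≤ μ ^ 2 := by rw [← sq_abs]; nlinarith [abs_nonneg m]
  have h2' : m ^ 2 < 1 := by rw [← sq_abs]; nlinarith [abs_nonneg m]
  have h5 : θ ^ 2 ≤ 1 := by nlinarith
  have h3 : θ ^ 2 * m ^ 2 ≤ m ^ 2 := by nlinarith [sq_nonneg m]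
  have h6 : 0 ≤ θ ^ 2 * m ^ 2 := by positivity
  have h7 : μ ^ 2 ≤ 1 := by nlinarith [abs_nonneg m]
  unfold gg
  rw [le_div_iff₀ (by linarith)]
  nlinarith [mul_nonneg (sub_nonneg.2 h7) h6]

private theorem den_pos {θ m m' : ℝ} (h0 : 0 ≤ θ) (h1 : θ < 1) (hm : |m| ≤ 1) (hm' : |m'| ≤ 1) :
    0 < 1 + θ * m * m' ∧ 0 < 1 - θ * m * m' := by
  have hmm : |m * m'| ≤ 1 := by rw [abs_mul]; nlinarith [abs_nonneg m, abs_nonneg m']
  have hx : |θ * (m * m')| < 1 := by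
    rw [abs_mul, abs_of_nonneg h0]; nlinarith [abs_nonneg (m * m')]
  rw [abs_lt] at hx
  constructor
  · nlinarith [hx.1]
  · nlinarith [hx.2]

theorem cav_ein' {θ m m' : ℝ} (h0 : 0 ≤ θ) (h1 : θ < 1) (hm : |m| ≤ 1) (hm' : |m'| ≤ 1) :
    cav θ (ein m' (θ * m)) (ein m (θ * m')) = m := by
  obtain ⟨hD, hE⟩ := den_pos h0 h1 hm hm'
  have hθ : (1 - θ ^ 2) ≠ 0 := by nlinarith
  obtain ⟨D, hDe⟩ : ∃ D, D = 1 + θ * m * m' := ⟨_, rfl⟩
  rw [← hDe] at hD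
  have hD0 := hD.ne'
  have e1 : ein m' (θ * m) = (m' + θ * m) / D := by
    unfold ein; congr 1; rw [hDe]; ring
  have e2 : ein m (θ * m') = (m + θ * m') / D := by
    unfold ein; congr 1; rw [hDe]; ring
  unfold cav
  rw [e1, e2]
  have e3 : ((m + θ * m') / D - θ * ((m' + θ * m) / D)) / (1 - θ ^ 2) = m / D := by
    rw [div_eq_iff hθ]
    field_simp
    ring
  have e4 : ((m' + θ * m) / D - θ * ((m + θ * m') / D)) / (1 - θ ^ 2) = m' / D := by
    rw [div_eq_iff hθ]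
    field_simp
    ring
  rw [e3, e4]
  have e5 : 1 - 4 * θ * (m / D) * (m' / D) = ((1 - θ * m * m') / D) ^ 2 := by
    rw [div_pow, eq_div_iff (by positivity)]
    have : (1 - 4 * θ * (m / D) * (m' / D)) * D ^ 2 = D ^ 2 - 4 * θ * m * m' := by
      field_simp
    rw [this, hDe]
    ring
  rw [e5, Real.sqrt_sq (by positivity)]
  have e6 : 1 + (1 - θ * m * m') / D = 2 / D := by
    rw [eq_div_iff hD0]
    have : (1 + (1 - θ * m * m') / D) * D = D + (1 - θ * m * m') := by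
      field_simp
    rw [this, hDe]
    ring
  rw [e6]
  field_simp

theorem one_sub_ein_sq {θ m m' : ℝ} (h0 : 0 ≤ θ) (h1 : θ < 1) (hm : |m| ≤ 1) (hm' : |m'| ≤ 1) :
    1 - ein m' (θ * m) ^ 2 = (1 - m' ^ 2) * (1 - θ ^ 2 * m ^ 2) / (1 + θ * m * m') ^ 2 := by
  obtain ⟨hD, hE⟩ := den_pos h0 h1 hm hm'
  obtain ⟨D, hDe⟩ : ∃ D, D = 1 + θ * m * m' := ⟨_, rfl⟩
  rw [← hDe] at hD ⊢
  have e1 : ein m' (θ * m) = (m' + θ * m) / D := by
    unfold ein; congr 1; rw [hDe]; ring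
  rw [e1, eq_div_iff (by positivity)]
  have : (1 - ((m' + θ * m) / D) ^ 2) * D ^ 2 = D ^ 2 - (m' + θ * m) ^ 2 := by
    field_simp
  rw [this, hDe]
  ring

/-- symmetry of the covariance of the two ends of an edge -/
theorem edge_symm {θ m m' : ℝ} (h0 : 0 ≤ θ) (h1 : θ < 1) (hm : |m| ≤ 1) (hm' : |m'| ≤ 1) :
    (1 - ein m' (θ * m) ^ 2) * gg θ m = (1 - ein m (θ * m') ^ 2) * gg θ m' := by
  rw [one_sub_ein_sq h0 h1 hm hm', one_sub_ein_sq h0 h1 hm' hm]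
  have h4 : θ ^ 2 < 1 := by nlinarith
  have h2 : m ^ 2 ≤ 1 := by rw [← sq_abs]; nlinarith [abs_nonneg m]
  have h3 : 1 - θ ^ 2 * m ^ 2 ≠ 0 := by nlinarith [sq_nonneg θ]
  have h2' : m' ^ 2 ≤ 1 := by rw [← sq_abs]; nlinarith [abs_nonneg m']
  have h3' : 1 - θ ^ 2 * m' ^ 2 ≠ 0 := by nlinarith [sq_nonneg θ]
  obtain ⟨hD, hE⟩ := den_pos h0 h1 hm hm'
  have hD' : 1 + θ * m' * m = 1 + θ * m * m' := by ring
  rw [hD']
  unfold gg
  generalize 1 - θ ^ 2 * m ^ 2 = A at *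
  generalize 1 - θ ^ 2 * m' ^ 2 = B at *
  generalize 1 + θ * m * m' = D at *
  have hD0 := hD.ne'
  field_simp

theorem theta_lt_one {q : ℕ} (hq : 2 ≤ q) {θ : ℝ} (h1 : q * θ ^ 2 ≤ 1) : θ < 1 := by
  have : (2 : ℝ) ≤ q := by exact_mod_cast hq
  by_contra h
  rw [not_lt] at h
  nlinarith [mul_nonneg (sub_nonneg.2 this) (sq_nonneg θ)]

theorem theta_sq_le {q : ℕ} (hq : 2 ≤ q) {θ : ℝ} (h1 : q * θ ^ 2 ≤ 1) : θ ^ 2 ≤ (q : ℝ)⁻¹ := by
  have : (0 : ℝ) < q := by positivity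
  rw [inv_eq_one_div, le_div_iff₀ this]
  linarith

variable {q : ℕ}

/-! ### bounded measurable functions -/

/-- bounded measurable -/
structure BM (f : Lab (W q) → ℝ) : Prop where
  meas : Measurable f
  bd : ∃ K, ∀ ω, |f ω| ≤ K

namespace BM

variable {f g : Lab (W q) → ℝ}

theorem integrable (h : BM f) : Integrable f (labP (W q)) := by
  obtain ⟨K, hK⟩ := h.bd
  exact Integrable.of_bound h.meas.aestronglyMeasurable K (Eventually.of_forall hK)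

theorem const (c : ℝ) : BM (fun _ : Lab (W q) => c) := ⟨measurable_const, |c|, fun _ => le_rfl⟩

theorem add (hf : BM f) (hg : BM g) : BM (fun ω => f ω + g ω) := by
  obtain ⟨K, hK⟩ := hf.bd
  obtain ⟨L, hL⟩ := hg.bd
  exact ⟨hf.meas.add hg.meas, K + L, fun ω => (abs_add_le _ _).trans (add_le_add (hK ω) (hL ω))⟩

theorem mul (hf : BM f) (hg : BM g) : BM (fun ω => f ω * g ω) := by
  obtain ⟨K, hK⟩ := hf.bd
  obtain ⟨L, hL⟩ := hg.bd
  refine ⟨hf.meas.mul hg.meas, K * L, fun ω => ?_⟩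
  rw [abs_mul]
  exact mul_le_mul (hK ω) (hL ω) (abs_nonneg _) ((abs_nonneg _).trans (hK ω))

theorem neg (hf : BM f) : BM (fun ω => - f ω) := by
  obtain ⟨K, hK⟩ := hf.bd
  exact ⟨hf.meas.neg, K, fun ω => by rw [abs_neg]; exact hK ω⟩

theorem sub (hf : BM f) (hg : BM g) : BM (fun ω => f ω - g ω) := by
  have := hf.add hg.neg
  simpa [sub_eq_add_neg] using this

theorem const_mul (c : ℝ) (hf : BM f) : BM (fun ω => c * f ω) := (const c).mul hf

theorem pow (hf : BM f) (n : ℕ) : BM (fun ω => f ω ^ n) := by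
  induction n with
  | zero => simpa using const (q := q) 1
  | succ n ih => simpa [pow_succ] using ih.mul hf

theorem sum {ι : Type*} (s : Finset ι) {F : ι → Lab (W q) → ℝ} (h : ∀ i ∈ s, BM (F i)) :
    BM (fun ω => ∑ i ∈ s, F i ω) := by
  classical
  induction s using Finset.induction_on with
  | empty => simpa using const (q := q) 0
  | insert a s ha ih =>
    simp only [Finset.sum_insert ha]
    exact (h a (Finset.mem_insert_self _ _)).add (ih fun i hi => h i (Finset.mem_insert_of_mem hi))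

theorem comp_sh (hf : BM f) (i : Fin (q + 1)) : BM (fun ω => f (sh i ω)) := by
  obtain ⟨K, hK⟩ := hf.bd
  exact ⟨hf.meas.comp (measurable_sh i), K, fun ω => hK _⟩

theorem comp_shl (hf : BM f) (l : List (Fin (q + 1))) : BM (fun ω => f (shl l ω)) := by
  obtain ⟨K, hK⟩ := hf.bd
  exact ⟨hf.meas.comp (measurable_shl l), K, fun ω => hK _⟩

theorem ws {i : Fin (q + 1)} {n : ℕ} {F : List (Fin (q + 1)) → Lab (W q) → ℝ}
    (h : ∀ l, BM (F l)) : BM (fun ω => Rec.ws i n (fun l => F l ω)) := by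
  obtain ⟨S, _, hS⟩ := ws_eq_sum i n
  simp only [hS]
  exact sum S fun l _ => h l

theorem wsum {n : ℕ} {F : List (Fin (q + 1)) → Lab (W q) → ℝ}
    (h : ∀ l, BM (F l)) : BM (fun ω => Rec.wsum q n (fun l => F l ω)) := by
  obtain ⟨S, _, hS⟩ := wsum_eq_sum (q := q) n
  simp only [hS]
  exact sum S fun l _ => h l

end BM

theorem integral_ws {i : Fin (q + 1)} {n : ℕ} {F : List (Fin (q + 1)) → Lab (W q) → ℝ}
    (h : ∀ l, Integrable (F l) (labP (W q))) :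
    ∫ ω, ws i n (fun l => F l ω) ∂(labP (W q)) = ws i n (fun l => ∫ ω, F l ω ∂(labP (W q))) := by
  obtain ⟨S, _, hS⟩ := ws_eq_sum i n
  simp only [hS]
  exact integral_finsetSum S fun l _ => h l

theorem integral_wsum {n : ℕ} {F : List (Fin (q + 1)) → Lab (W q) → ℝ}
    (h : ∀ l, Integrable (F l) (labP (W q))) :
    ∫ ω, wsum q n (fun l => F l ω) ∂(labP (W q)) = wsum q n (fun l => ∫ ω, F l ω ∂(labP (W q))) := by
  obtain ⟨S, _, hS⟩ := wsum_eq_sum (q := q) n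
  simp only [hS]
  exact integral_finsetSum S fun l _ => h l

/-! ### the edge relation -/

/-- The good event for one system at one vertex. -/
def Good1 (θ : ℝ) (M : Lab (W q) → ℝ) (ω : Lab (W q)) : Prop :=
  ∀ i, |msg θ M i ω| ≤ 1 ∧ |msg θ M i (sh i ω)| ≤ 1 ∧
    M ω = ein (msg θ M i (sh i ω)) (θ * msg θ M i ω) ∧
    M (sh i ω) = ein (msg θ M i ω) (θ * msg θ M i (sh i ω))

/-- The good event along all words. -/
def GoodA (θ : ℝ) (M : Lab (W q) → ℝ) (ω : Lab (W q)) : Prop :=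
  ∀ l : List (Fin (q + 1)), Good1 θ M (shl l ω)

theorem good1_ae {θ : ℝ} (h0 : 0 ≤ θ) (h1 : θ < 1) {M : Lab (W q) → ℝ} (hM : Sys q θ M) :
    ∀ᵐ ω ∂(labP (W q)), Good1 θ M ω := by
  unfold Good1
  rw [ae_all_iff]
  intro i
  filter_upwards [hM.edge i] with ω hω
  obtain ⟨m, m', hm, hm', e1, e2⟩ := hω
  have a1 : msg θ M i ω = m := by
    unfold msg
    rw [e1, e2]
    exact cav_ein' h0 h1 hm hm'
  have a2 : msg θ M i (sh i ω) = m' := by
    unfold msg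
    rw [sh_sh, e1, e2]
    exact cav_ein' h0 h1 hm' hm
  rw [a1, a2]
  exact ⟨hm, hm', e1, e2⟩

theorem goodA_ae {θ : ℝ} (h0 : 0 ≤ θ) (h1 : θ < 1) {M : Lab (W q) → ℝ} (hM : Sys q θ M) :
    ∀ᵐ ω ∂(labP (W q)), GoodA θ M ω := ae_shl (good1_ae h0 h1 hM)

theorem GoodA.sh {θ : ℝ} {M : Lab (W q) → ℝ} {ω : Lab (W q)} (h : GoodA θ M ω)
    (i : Fin (q + 1)) : GoodA θ M (sh i ω) := fun l => h (i :: l)

theorem GoodA.shl {θ : ℝ} {M : Lab (W q) → ℝ} {ω : Lab (W q)} (h : GoodA θ M ω)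
    (l : List (Fin (q + 1))) : GoodA θ M (shl l ω) := fun l' => by
  rw [← shl_append]; exact h _

theorem GoodA.good1 {θ : ℝ} {M : Lab (W q) → ℝ} {ω : Lab (W q)} (h : GoodA θ M ω) :
    Good1 θ M ω := h []

/-- symmetry at an edge -/
theorem Good1.symm {θ : ℝ} (h0 : 0 ≤ θ) (h1 : θ < 1) {M : Lab (W q) → ℝ} {ω : Lab (W q)}
    (h : Good1 θ M ω) (i : Fin (q + 1)) :
    (1 - M ω ^ 2) * gg θ (msg θ M i ω) = (1 - M (Crest.Agent.FreeIs.sh i ω) ^ 2) *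
      gg θ (msg θ M i (Crest.Agent.FreeIs.sh i ω)) := by
  obtain ⟨hm, hm', e1, e2⟩ := h i
  have := edge_symm h0 h1 hm hm'
  rw [← e1, ← e2] at this
  exact this

theorem Good1.aa_mem {θ : ℝ} (hq : 2 ≤ q) (h0 : 0 ≤ θ) (h1 : q * θ ^ 2 ≤ 1)
    {M : Lab (W q) → ℝ} {ω : Lab (W q)} (h : Good1 θ M ω) (i : Fin (q + 1)) :
    0 ≤ aa θ M i ω ∧ aa θ M i ω ≤ 1 := by
  have ht := theta_lt_one hq h1
  have g0 := gg_nonneg' h0 ht (h i).1
  have g1 := gg_le_one' h0 ht (h i).1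
  have hs : √(q : ℝ) * θ ≤ 1 := by
    have : √(q : ℝ) * θ = √(q * θ ^ 2) := by
      rw [Real.sqrt_mul (by positivity), Real.sqrt_sq h0]
    rw [this]
    exact Real.sqrt_le_one.2 h1 |> fun h => h
  unfold aa
  exact ⟨by positivity, mul_le_one₀ hs g0 g1⟩

end Crest.Agent.FreeIs.Rec
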