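import Crest.Agent.FreeIs.Samp8

/-!
S0241, sampler part 9: `pair_fin`.
-/

set_option autoImplicit false
set_option linter.style.haveILetI false

open Set MeasureTheory Measure unitInterval

universe u

namespace Crest.Agent.FreeIs

open Samp

variable {V : Type u} [Countable V] (G : SimpleGraph V)

omit [Countable V] in
theorem Samp.pair_fin_aux [DecidableEq V] {θ θ' : ℝ} (hθ : |θ| < 1) (hθ' : |θ'| < 1)
    (Λ Λ' : Finset V) (v : V) (j : ℕ) {s0 s : ℝ} (hs0 : 0 ≤ s0) (hs : s0 ≤ s) (hs1 : s ≤ 1) :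
    ∫ ω, (Df G θ θ' Λ Λ' v j ω s) ^ 2 ∂(labP V)
      ≤ (∫ ω, (Df G θ θ' Λ Λ' v j ω s0) ^ 2 ∂(labP V))
      + ∫ r in s0..s, (r / 4) * ∑ u ∈ Λ ∪ Λ', ∫ ω, Jf G θ θ' Λ Λ' v j u ω r ∂(labP V) := by
  have hDm : ∀ r : ℝ, Measurable fun ω : Lab V => Df G θ θ' Λ Λ' v j ω r := by
    intro r
    have hp : Measurable fun ω : Lab V => (ω, r) := measurable_id.prodMk measurable_const
    have h3 := (Df_meas G (θ := θ) (θ' := θ') (Λ := Λ) (Λ' := Λ') (v := v) (j := j))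
    generalize Df G θ θ' Λ Λ' v j = Q at h3 ⊢
    exact h3.comp hp
  have hDi : ∀ r ≤ 1, Integrable (fun ω : Lab V => (Df G θ θ' Λ Λ' v j ω r) ^ 2) (labP V) := by
    intro r hr
    apply integrable_bdd ((hDm r).pow_const 2) (K := 4)
    intro ω
    have h := abs_Df_le G hθ hθ' ω hr (Λ := Λ) (Λ' := Λ') (v := v) (j := j)
    rw [abs_pow]
    have := pow_le_pow_left₀ (abs_nonneg _) h 2
    linarith
  have hXi : ∀ a : V, Integrable (Xf G θ θ' Λ Λ' v j s0 s a) (labP V) := fun a =>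
    integrable_bdd (Xf_meas G s0 s a) (abs_Xf_le G hθ hθ' hs1 a)
  have e1 : ∫ ω, (Df G θ θ' Λ Λ' v j ω s) ^ 2 ∂(labP V) =
      ∫ ω, ((Df G θ θ' Λ Λ' v j ω s0) ^ 2 + ∑ a ∈ Λ ∪ Λ', Xf G θ θ' Λ Λ' v j s0 s a ω) ∂(labP V) := by
    apply integral_congr_ae
    filter_upwards [ae_TT_injOn j (Λ ∪ Λ')] with ω hω
    exact pair_pointwise G hθ hθ' ω hω hs hs1
  rw [e1, integral_add (hDi s0 (hs.trans hs1)) (integrable_finsetSum _ fun a _ => hXi a),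
    integral_finsetSum _ fun a _ => hXi a]
  apply add_le_add le_rfl
  have hJ0 := fun a => Jf_nonneg G (θ := θ) (θ' := θ') (Λ := Λ) (Λ' := Λ') (v := v) (j := j) a
  have hJ1 : ∀ a, ∀ ω : Lab V, ∀ r ≤ 1, Jf G θ θ' Λ Λ' v j a ω r ≤ 1000 :=
    fun a ω r hr => Jf_le G hθ hθ' (Λ := Λ) (Λ' := Λ') (v := v) (j := j) a ω hr
  have hJm := fun a => Jf_meas G (θ := θ) (θ' := θ') (Λ := Λ) (Λ' := Λ') (v := v) (j := j) a
  have hK0 := fun a => Kf_nonneg G (θ := θ) (θ' := θ') (Λ := Λ) (Λ' := Λ') (v := v) (j := j) a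
  have hK1 : ∀ a, ∀ ω : Lab V, ∀ r ≤ 1, Kf G θ θ' Λ Λ' v j a ω r ≤ 1000 :=
    fun a ω r hr => Kf_le G hθ hθ' (Λ := Λ) (Λ' := Λ') (v := v) (j := j) a ω hr
  have hKm := fun a => Kf_meas G (θ := θ) (θ' := θ') (Λ := Λ) (Λ' := Λ') (v := v) (j := j) a
  have hterm : ∀ a, ∫ ω, Xf G θ θ' Λ Λ' v j s0 s a ω ∂(labP V) ≤
      ∫ r in s0..s, (r / 4) * (1 * ∫ ω, Jf G θ θ' Λ Λ' v j a ω r ∂(labP V)) := by
    intro a
    refine (integral_X_le_Y G hθ hθ' hs1 a).trans ?_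
    rw [integral_Y G hθ hθ' hs0 hs hs1 a]
    apply intervalIntegral.integral_mono_on hs
    · exact par_intervalIntegrable (hKm a) (hK0 a) (hK1 a) hs0 hs hs1 (by norm_num) (by norm_num)
    · exact par_intervalIntegrable (hJm a) (hJ0 a) (hJ1 a) hs0 hs hs1 (by norm_num) (by norm_num)
    · intro r hr
      have hr0 : 0 ≤ r := hs0.trans hr.1
      have h := half_K_le_J G hθ hθ' a hr0 (hr.2.trans hs1) (Λ := Λ) (Λ' := Λ') (v := v) (j := j)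
      apply mul_le_mul_of_nonneg_left _ (by positivity)
      rw [one_mul]
      exact h
  refine (Finset.sum_le_sum fun a _ => hterm a).trans ?_
  rw [← intervalIntegral.integral_finsetSum]
  · apply le_of_eq
    congr 1
    funext r
    rw [Finset.mul_sum]
    simp only [one_mul]
  · intro a _
    exact par_intervalIntegrable (hJm a) (hJ0 a) (hJ1 a) hs0 hs hs1 (by norm_num) (by norm_num)

omit [Countable V] in
/-- finite volume martingale inequality for two systems on the same labels -/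
theorem pair_fin [DecidableEq V] {θ θ' : ℝ} (h0 : 0 ≤ θ) (h1 : θ < 1) (h0' : 0 ≤ θ') (h1' : θ' < 1)
    (Λ Λ' : Finset V) (v : V) (j : ℕ) {s0 s : ℝ} (hs0 : 0 ≤ s0) (hs : s0 ≤ s) (hs1 : s ≤ 1) :
    ∫ ω, (Mf G θ Λ ω j s v - Mf G θ' Λ' ω j s v) ^ 2 ∂(labP V)
      ≤ (∫ ω, (Mf G θ Λ ω j s0 v - Mf G θ' Λ' ω j s0 v) ^ 2 ∂(labP V))
      + ∫ r in s0..s, (r / 4) * ∑ u ∈ Λ ∪ Λ', ∫ ω,
          (2 * (Cf G θ Λ ω j r v u - Cf G θ' Λ' ω j r v u) ^ 2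
          + 32 * (Cf G θ' Λ' ω j r v u) ^ 2 *
            (Mf G θ Λ ω j r u - Mf G θ' Λ' ω j r u) ^ 2) ∂(labP V) :=
  pair_fin_aux G (by rw [abs_of_nonneg h0]; exact h1) (by rw [abs_of_nonneg h0']; exact h1')
    Λ Λ' v j hs0 hs hs1

end Crest.Agent.FreeIs
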