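import Crest.Agent.FreeIs.LimH
import Crest.Agent.FreeIs.Samp9

/-!
M6: infinite volume for `q θ² < 1` (final statements).
-/

set_option autoImplicit false
set_option linter.unusedVariables false

open MeasureTheory Filter Topology

namespace Crest.Agent.FreeIs

variable {q : ℕ}

theorem Lim.pairFin (q : ℕ) : Lim.PairFin q := fun _ _ h0 h1 h0' h1' Λ Λ' v j _ _ hs0 hs hs1 =>
  pair_fin (WG q) h0 h1 h0' h1' Λ Λ' v j hs0 hs hs1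

theorem fin_cauchy (hq : 2 ≤ q) {θ : ℝ} (h0 : 0 ≤ θ) (h1 : q * θ ^ 2 < 1) (j : ℕ) :
    ∃ C κ : ℝ, 0 ≤ κ ∧ κ < 1 ∧ ∀ (k : ℕ) (Λ Λ' : Finset (W q)), wball q k ⊆ Λ → wball q k ⊆ Λ' →
      ∀ r, 0 ≤ r → r ≤ 1 →
      ∫ ω, (Mf (WG q) θ Λ ω j r (wroot q) - Mf (WG q) θ Λ' ω j r (wroot q)) ^ 2 ∂(labP (W q))
        ≤ C * κ ^ k := by
  obtain ⟨κ, hκ0, hκ1, H⟩ := Lim.fin_cauchy_aux (Lim.pairFin q) hq h0 h1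
  obtain ⟨C, hC, Hc⟩ := H j
  exact ⟨C, κ, hκ0.le, hκ1, Hc⟩

theorem fin_lim (hq : 2 ≤ q) {θ : ℝ} (h0 : 0 ≤ θ) (h1 : q * θ ^ 2 < 1) (j : ℕ) :
    ∃ C κ : ℝ, 0 ≤ κ ∧ κ < 1 ∧ ∀ (k : ℕ) (Λ : Finset (W q)), wball q k ⊆ Λ → ∀ r, 0 ≤ r → r ≤ 1 →
      ∫ ω, (Mf (WG q) θ Λ ω j r (wroot q) - Mr q θ j r ω) ^ 2 ∂(labP (W q)) ≤ C * κ ^ k := by
  obtain ⟨κ, hκ0, hκ1, H⟩ := Lim.fin_lim_aux (Lim.pairFin q) hq h0 h1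
  obtain ⟨C, hC, Hc⟩ := H j
  exact ⟨C, κ, hκ0.le, hκ1, Hc⟩

theorem measurable_Mr (θ : ℝ) (j : ℕ) : Measurable fun p : Lab (W q) × ℝ => Mr q θ j p.2 p.1 :=
  Lim.measurable_Mr' θ j

/-- NB: `θ : ℝ` (the blueprint statement without the type ascription elaborates with `θ : ℕ`) -/
theorem Mr_bound (j : ℕ) (hq : 2 ≤ q) : ∃ μ : ℝ, 0 ≤ μ ∧ μ < 1 ∧ ∀ θ : ℝ, 0 ≤ θ →
    q * θ ^ 2 ≤ 1 → ∀ r, 0 ≤ r → r ≤ 1 → ∀ ω, |Mr q θ j r ω| ≤ μ :=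
  Lim.Mr_bound' j hq

/-- NB: `θ : ℝ` (the blueprint statement without the type ascription elaborates with `θ : ℕ`) -/
theorem msg_bound (j : ℕ) (hq : 2 ≤ q) : ∃ μ : ℝ, 0 ≤ μ ∧ μ < 1 ∧ ∀ θ : ℝ, 0 ≤ θ →
    q * θ ^ 2 < 1 → ∀ r, 0 ≤ r → r ≤ 1 → ∀ i,
      ∀ᵐ ω ∂(labP (W q)), |msg θ (Mr q θ j r) i ω| ≤ μ :=
  Lim.msg_bound' (Lim.pairFin q) j hq

theorem sys_Mr (hq : 2 ≤ q) {θ : ℝ} (h0 : 0 ≤ θ) (h1 : q * θ ^ 2 < 1) (j : ℕ) {r : ℝ}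
    (hr0 : 0 ≤ r) (hr : r ≤ 1) : Sys q θ (Mr q θ j r) :=
  Lim.sys_Mr' (Lim.pairFin q) hq h0 h1 j hr0 hr

theorem Mr_natural (θ : ℝ) (j : ℕ) (r : ℝ) (g : WG q ≃g WG q) (hg : g (wroot q) = wroot q)
    (ω : Lab (W q)) : Mr q θ j r (act g ω) = Mr q θ j r ω :=
  Lim.Mr_natural' θ j r g hg ω

theorem Mr_zero (θ : ℝ) (ω : Lab (W q)) : Mr q θ 0 0 ω = 0 := Lim.Mr_zero' θ ω

theorem Mr_succ_zero (θ : ℝ) (j : ℕ) (ω : Lab (W q)) : Mr q θ (j + 1) 0 ω = Mr q θ j 1 ω :=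
  Lim.Mr_succ_zero' θ j ω

theorem pair_inf (hq : 2 ≤ q) {θ θ' : ℝ} (h0 : 0 ≤ θ) (h1 : q * θ ^ 2 < 1) (h0' : 0 ≤ θ')
    (h1' : q * θ' ^ 2 < 1) (j : ℕ) {s0 s : ℝ} (hs0 : 0 ≤ s0) (hs : s0 ≤ s) (hs1 : s ≤ 1) :
    nn (Mr q θ j s) (Mr q θ' j s) ≤ nn (Mr q θ j s0) (Mr q θ' j s0)
      + ∫ r in s0..s, (r / 4) * Rt θ θ' (Mr q θ j r) (Mr q θ' j r) :=
  Lim.pair_inf' (Lim.pairFin q) hq h0 h1 h0' h1' j hs0 hs hs1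

theorem measurable_Rt (hq : 2 ≤ q) {θ θ' : ℝ} (h0 : 0 ≤ θ) (h1 : q * θ ^ 2 < 1) (h0' : 0 ≤ θ')
    (h1' : q * θ' ^ 2 < 1) (j : ℕ) :
    Measurable ((Set.Icc (0 : ℝ) 1).indicator fun r => Rt θ θ' (Mr q θ j r) (Mr q θ' j r)) :=
  Lim.measurable_Rt' (Lim.pairFin q) hq h0 h1 h0' h1' j

/-- law of the messages in the cone below `[i]` -/
theorem cone_law (hq : 2 ≤ q) {θ : ℝ} (h0 : 0 ≤ θ) (h1 : q * θ ^ 2 < 1) (j : ℕ) {r : ℝ}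
    (hr0 : 0 ≤ r) (hr : r ≤ 1) (i : Fin (q + 1)) (K : ℕ) (F : (W q → ℝ) → ℝ) (hF : Continuous F)
    (hFb : ∃ B, ∀ x, |F x| ≤ B)
    (hFd : ∀ x y : W q → ℝ, (∀ w ∈ wcone (toW [i]) K, x w = y w) → F x = F y) :
    Tendsto (fun N => coneE θ (siteL j r) i N fun t => F (cmsg θ i N t)) atTop
      (𝓝 (∫ ω, F (fun w => msgW θ (Mr q θ j r) w.1 ω) ∂(labP (W q)))) :=
  Lim.cone_law' (Lim.pairFin q) hq h0 h1 j hr0 hr i K F hF hFb hFd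

end Crest.Agent.FreeIs
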