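import Crest.Agent.FreeIs.FinalInf
import Crest.Agent.FreeIs.Limit

/-!
S0241, FINAL part F5: decoding at the root.
-/

set_option autoImplicit false
open MeasureTheory Filter Topology
namespace Crest.Agent.FreeIs

namespace FDec

open Samp

theorem ae_summable {Ω : Type*} [MeasurableSpace Ω] {P : Measure Ω} [IsProbabilityMeasure P]
    (f : ℕ → Ω → ℝ) (hf : ∀ j, Measurable (f j)) (hf0 : ∀ j ω, 0 ≤ f j ω) {K : ℝ}
    (hfK : ∀ j ω, f j ω ≤ K) (c : ℕ → ℝ) (hc : Summable c) (hfc : ∀ j, ∫ ω, f j ω ∂P ≤ c j) :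
    ∀ᵐ ω ∂P, Summable fun j => f j ω := by
  have hi : ∀ j, Integrable (f j) P := fun j =>
    integrable_bdd (hf j) (K := K) (fun ω => by rw [abs_of_nonneg (hf0 j ω)]; exact hfK j ω)
  have hc0 : ∀ j, 0 ≤ c j := fun j => (integral_nonneg (hf0 j)).trans (hfc j)
  have h1 : ∫⁻ ω, ∑' j, ENNReal.ofReal (f j ω) ∂P ≠ ⊤ := by
    rw [lintegral_tsum (fun j => (hf j).ennreal_ofReal.aemeasurable)]
    have h2 : ∑' j, ∫⁻ ω, ENNReal.ofReal (f j ω) ∂P ≤ ∑' j, ENNReal.ofReal (c j) := by
      apply ENNReal.tsum_le_tsum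
      intro j
      rw [← ofReal_integral_eq_lintegral_ofReal (hi j) (ae_of_all _ (hf0 j))]
      exact ENNReal.ofReal_le_ofReal (hfc j)
    have h3 : ∑' j, ENNReal.ofReal (c j) ≠ ⊤ := by
      rw [← ENNReal.ofReal_tsum_of_nonneg hc0 hc]
      exact ENNReal.ofReal_ne_top
    exact ne_top_of_le_ne_top h3 h2
  have h4 : Measurable fun ω => ∑' j, ENNReal.ofReal (f j ω) :=
    Measurable.tsum fun j => (hf j).ennreal_ofReal
  filter_upwards [ae_lt_top h4 h1] with ω hω
  have h5 := ENNReal.summable_toReal hω.ne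
  apply h5.congr
  intro j
  rw [ENNReal.toReal_ofReal (hf0 j ω)]

theorem abs_sgB (b : Bool) : |sgB b| = 1 := by
  unfold sgB; split_ifs <;> norm_num

theorem sgB_ne {a b : Bool} (h : a ≠ b) : (1 + sgB a * sgB b) / 2 = 0 := by
  cases a <;> cases b <;> simp_all [sgB]

theorem sgB_self (a : Bool) : (1 + sgB a * sgB a) / 2 = 1 := by
  cases a <;> simp [sgB]

theorem isingWeight_cont {V : Type*} (G : SimpleGraph V) (S : Finset V) (η : V → Bool) :
    Continuous fun θ : ℝ => Crest.ProbabilityR.TreeIsing.isingWeight G θ S η := by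
  unfold Crest.ProbabilityR.TreeIsing.isingWeight
  apply Continuous.mul continuous_const
  apply continuous_finsetProd
  intro e _
  split_ifs <;> fun_prop

end FDec

open FDec Samp

theorem decode {q : ℕ} (hq : 2 ≤ q) {θ : ℝ} (θs : ℕ → ℝ) (h0 : ∀ n, 0 ≤ θs n)
    (h1 : ∀ n, q * (θs n) ^ 2 < 1) (hlim : Tendsto θs atTop (𝓝 θ))
    (hp : ∀ j, Tendsto (fun p : ℕ × ℕ => nn (Mr q (θs p.1) j 1) (Mr q (θs p.2) j 1))
      (atTop ×ˢ atTop) (𝓝 0)) :
    ∃ F : Lab (W q) → Bool, Measurable F ∧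
      (∀ g : WG q ≃g WG q, g (wroot q) = wroot q → ∀ ω, F (act g ω) = F ω) ∧
      ∀ (S : Finset (W q)), wroot q ∈ S → ((WG q).induce (S : Set (W q))).Connected →
        ∀ (η : W q → Bool) (h : W q → (WG q ≃g WG q)), (∀ v ∈ S, h v (wroot q) = v) →
        (labP (W q)) {ω | ∀ v ∈ S, F (act (h v) ω) = η v} =
          ENNReal.ofReal (Crest.ProbabilityR.TreeIsing.isingWeight (WG q) θ S η) := by
  classical
  obtain ⟨ρ, hρ0, hρ1, hfacts⟩ := inf_facts
  -- the diagonal sequence
  have hN : ∀ j, ∃ N : ℕ, ∀ n ≥ N, ∀ m ≥ N,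
      nn (Mr q (θs n) j 1) (Mr q (θs m) j 1) < (1 / 4 : ℝ) ^ j := by
    intro j
    have h2 := (hp j).eventually_lt_const (u := (1 / 4 : ℝ) ^ j) (by positivity)
    rw [prod_atTop_atTop_eq] at h2
    exact (eventually_atTop_prod_self' (p := fun p : ℕ × ℕ => nn (Mr q (θs p.1) j 1) (Mr q (θs p.2) j 1) < (1 / 4 : ℝ) ^ j)).1 h2
  choose N hN using hN
  set k : ℕ → ℕ := fun j => j + ∑ i ∈ Finset.range (j + 1), N i with hk
  have hkN : ∀ j, N j ≤ k j := by
    intro j
    have : N j ≤ ∑ i ∈ Finset.range (j + 1), N i :=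
      Finset.single_le_sum (f := N) (fun i _ => Nat.zero_le _) (Finset.mem_range.2 (Nat.lt_succ_self j))
    rw [hk]; simp only; omega
  have hkmono : ∀ j, k j ≤ k (j + 1) := by
    intro j
    rw [hk]
    simp only
    rw [Finset.sum_range_succ _ (j + 1)]
    omega
  have hkj : ∀ j, j ≤ k j := fun j => Nat.le_add_right _ _
  have hktop : Tendsto k atTop atTop := tendsto_atTop_mono hkj tendsto_id
  set Y : ℕ → Lab (W q) → ℝ := fun j ω => Mr q (θs (k j)) j 1 ω with hY
  have hMm : ∀ (ϑ : ℝ) (j : ℕ), Measurable fun ω : Lab (W q) => Mr q ϑ j 1 ω := by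
    intro ϑ j
    have hp1 : Measurable fun ω : Lab (W q) => (ω, (1 : ℝ)) := measurable_id.prodMk measurable_const
    have h3 := measurable_Mr (q := q) ϑ j
    generalize Mr q ϑ j = Q at h3 ⊢
    exact h3.comp hp1
  have hMb : ∀ (ϑ : ℝ) (j : ℕ), 0 ≤ ϑ → q * ϑ ^ 2 < 1 → ∀ ω, |Mr q ϑ j 1 ω| ≤ 1 := by
    intro ϑ j hϑ hϑ1 ω
    obtain ⟨μ, _, hμ1, hμ⟩ := Mr_bound (q := q) j hq
    exact (hμ ϑ hϑ hϑ1.le 1 zero_le_one le_rfl ω).trans hμ1.le
  have hYm : ∀ j, Measurable (Y j) := fun j => hMm _ j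
  have hYb : ∀ j ω, |Y j ω| ≤ 1 := fun j ω => hMb _ j (h0 _) (h1 _) ω
  have hYn : ∀ g : WG q ≃g WG q, g (wroot q) = wroot q → ∀ j ω, Y j (act g ω) = Y j ω :=
    fun g hg j ω => Mr_natural _ j 1 g hg ω
  -- increments
  set b : ℝ := max ρ (1 / 4) with hb
  have hb0 : 0 < b := lt_of_lt_of_le (by norm_num) (le_max_right _ _)
  have hb1 : b < 1 := max_lt hρ1 (by norm_num)
  have hinc : ∀ j, ∫ ω, (Y (j + 1) ω - Y j ω) ^ 2 ∂(labP (W q)) ≤ 4 * b ^ j := by
    intro j
    have e1 := (hfacts q hq (θs (k (j + 1))) (h0 _) (h1 _) j).1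
    have e2 : ∫ ω, (Mr q (θs (k (j + 1))) j 1 ω - Mr q (θs (k j)) j 1 ω) ^ 2 ∂(labP (W q)) ≤
        (1 / 4 : ℝ) ^ j := (hN j _ ((hkN j).trans (hkmono j)) _ (hkN j)).le
    have m1 := hMm (θs (k (j + 1))) (j + 1)
    have m2 := hMm (θs (k (j + 1))) j
    have m3 := hMm (θs (k j)) j
    have c1 := hMb (θs (k (j + 1))) (j + 1) (h0 _) (h1 _)
    have c2 := hMb (θs (k (j + 1))) j (h0 _) (h1 _)
    have c3 := hMb (θs (k j)) j (h0 _) (h1 _)
    have sq4 : ∀ {x y : ℝ}, |x| ≤ 1 → |y| ≤ 1 → |(x - y) ^ 2| ≤ 4 := by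
      intro x y hx hy
      rw [abs_pow]
      have : |x - y| ≤ 2 := (abs_sub _ _).trans (by linarith)
      nlinarith [abs_nonneg (x - y)]
    have i1 : Integrable (fun ω => (Mr q (θs (k (j + 1))) (j + 1) 1 ω -
        Mr q (θs (k (j + 1))) j 1 ω) ^ 2) (labP (W q)) :=
      integrable_bdd ((m1.sub m2).pow_const 2) (fun ω => sq4 (c1 ω) (c2 ω))
    have i2 : Integrable (fun ω => (Mr q (θs (k (j + 1))) j 1 ω -
        Mr q (θs (k j)) j 1 ω) ^ 2) (labP (W q)) :=
      integrable_bdd ((m2.sub m3).pow_const 2) (fun ω => sq4 (c2 ω) (c3 ω))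
    have i3 : Integrable (fun ω => (Y (j + 1) ω - Y j ω) ^ 2) (labP (W q)) :=
      integrable_bdd (((hYm (j + 1)).sub (hYm j)).pow_const 2) (fun ω => sq4 (hYb _ ω) (hYb _ ω))
    have e3 : ∫ ω, (Y (j + 1) ω - Y j ω) ^ 2 ∂(labP (W q)) ≤
        ∫ ω, (2 * (Mr q (θs (k (j + 1))) (j + 1) 1 ω - Mr q (θs (k (j + 1))) j 1 ω) ^ 2 +
          2 * (Mr q (θs (k (j + 1))) j 1 ω - Mr q (θs (k j)) j 1 ω) ^ 2) ∂(labP (W q)) := by
      apply integral_mono i3 ((i1.const_mul 2).add (i2.const_mul 2))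
      intro ω
      show (Mr q (θs (k (j + 1))) (j + 1) 1 ω - Mr q (θs (k j)) j 1 ω) ^ 2 ≤
        2 * (Mr q (θs (k (j + 1))) (j + 1) 1 ω - Mr q (θs (k (j + 1))) j 1 ω) ^ 2 +
          2 * (Mr q (θs (k (j + 1))) j 1 ω - Mr q (θs (k j)) j 1 ω) ^ 2
      nlinarith [sq_nonneg ((Mr q (θs (k (j + 1))) (j + 1) 1 ω - Mr q (θs (k (j + 1))) j 1 ω) -
        (Mr q (θs (k (j + 1))) j 1 ω - Mr q (θs (k j)) j 1 ω))]
    rw [integral_add (i1.const_mul 2) (i2.const_mul 2), integral_const_mul, integral_const_mul] at e3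
    have e4 : ρ ^ (j + 1) ≤ b ^ j := by
      calc ρ ^ (j + 1) = ρ ^ j * ρ := pow_succ _ _
        _ ≤ ρ ^ j * 1 := mul_le_mul_of_nonneg_left hρ1.le (by positivity)
        _ = ρ ^ j := mul_one _
        _ ≤ b ^ j := pow_le_pow_left₀ hρ0 (le_max_left _ _) j
    have e5 : (1 / 4 : ℝ) ^ j ≤ b ^ j := pow_le_pow_left₀ (by norm_num) (le_max_right _ _) j
    linarith
  -- almost sure convergence
  obtain ⟨s, hs⟩ : ∃ s : ℝ, s = (1 + b) / 2 := ⟨_, rfl⟩
  have hs0 : 0 < s := by rw [hs]; positivity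
  have hs1 : s < 1 := by rw [hs]; linarith
  have hbs : b / s < 1 := by rw [div_lt_one hs0, hs]; linarith
  have hbs0 : 0 ≤ b / s := by positivity
  have hconv1 : ∀ᵐ ω ∂(labP (W q)), Summable fun j => |Y (j + 1) ω - Y j ω| := by
    apply ae_summable (fun j ω => |Y (j + 1) ω - Y j ω|)
      (fun j => continuous_abs.measurable.comp ((hYm (j + 1)).sub (hYm j))) (fun j ω => abs_nonneg _) (K := 2)
      (fun j ω => (abs_sub _ _).trans (by linarith [hYb (j + 1) ω, hYb j ω]))
      (fun j => (4 * (b / s) ^ j + s ^ j) / 2)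
    · exact (((summable_geometric_of_lt_one hbs0 hbs).mul_left 4).add
        (summable_geometric_of_lt_one hs0.le hs1)).div_const 2
    · intro j
      have i3 : Integrable (fun ω => (Y (j + 1) ω - Y j ω) ^ 2) (labP (W q)) :=
        integrable_bdd (((hYm (j + 1)).sub (hYm j)).pow_const 2) (K := 4) (fun ω => by
          rw [abs_pow]
          have : |Y (j + 1) ω - Y j ω| ≤ 2 :=
            (abs_sub _ _).trans (by linarith [hYb (j + 1) ω, hYb j ω])
          nlinarith [abs_nonneg (Y (j + 1) ω - Y j ω)])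
      have hsj : 0 < s ^ j := by positivity
      have e1 : ∫ ω, |Y (j + 1) ω - Y j ω| ∂(labP (W q)) ≤
          ∫ ω, ((s ^ j)⁻¹ * (Y (j + 1) ω - Y j ω) ^ 2 + s ^ j) / 2 ∂(labP (W q)) := by
        apply integral_mono
        · exact integrable_bdd (continuous_abs.measurable.comp ((hYm (j + 1)).sub (hYm j))) (K := 2) (fun ω => by
            show |(|Y (j + 1) ω - Y j ω|)| ≤ 2
            rw [abs_abs]
            exact (abs_sub _ _).trans (by linarith [hYb (j + 1) ω, hYb j ω]))
        · exact ((i3.const_mul _).add (integrable_const _)).div_const 2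
        · intro ω
          show |Y (j + 1) ω - Y j ω| ≤ ((s ^ j)⁻¹ * (Y (j + 1) ω - Y j ω) ^ 2 + s ^ j) / 2
          rw [le_div_iff₀ (by norm_num : (0 : ℝ) < 2), ← sq_abs]
          set x := |Y (j + 1) ω - Y j ω|
          have h3 : 0 ≤ (s ^ j)⁻¹ * (x - s ^ j) ^ 2 := by positivity
          have h4 : (s ^ j)⁻¹ * (x - s ^ j) ^ 2 = (s ^ j)⁻¹ * x ^ 2 + s ^ j - 2 * x := by
            field_simp
            ring
          linarith
      rw [integral_div, integral_add (i3.const_mul _) (integrable_const _), integral_const_mul] at e1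
      simp only [integral_const, probReal_univ, one_smul] at e1
      refine e1.trans ?_
      have e2 : (s ^ j)⁻¹ * ∫ ω, (Y (j + 1) ω - Y j ω) ^ 2 ∂(labP (W q)) ≤ 4 * (b / s) ^ j := by
        calc (s ^ j)⁻¹ * ∫ ω, (Y (j + 1) ω - Y j ω) ^ 2 ∂(labP (W q)) ≤ (s ^ j)⁻¹ * (4 * b ^ j) :=
              mul_le_mul_of_nonneg_left (hinc j) (by positivity)
          _ = 4 * (b / s) ^ j := by rw [div_pow, div_eq_mul_inv]; ring
      linarith
  have hconv2 : ∀ᵐ ω ∂(labP (W q)), Summable fun j => 1 - (Y j ω) ^ 2 := by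
    apply ae_summable (fun j ω => 1 - (Y j ω) ^ 2)
      (fun j => ((hYm j).pow_const 2).const_sub 1) (fun j ω => ?_) (K := 1)
      (fun j ω => by nlinarith [sq_nonneg (Y j ω)]) (fun j => ρ ^ (j + 1))
    · exact (summable_nat_add_iff 1).2 (summable_geometric_of_lt_one hρ0 hρ1)
    · intro j
      exact (hfacts q hq (θs (k j)) (h0 _) (h1 _) j).2.1
    · have := hYb j ω
      rw [← sq_abs]
      nlinarith [abs_nonneg (Y j ω)]
  set F : Lab (W q) → Bool := fun ω =>
    if 0 < limsup (fun j => Y j ω) atTop then true else false with hF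
  have hFm : Measurable F := by
    apply Measurable.ite _ measurable_const measurable_const
    exact measurableSet_lt measurable_const (Measurable.limsup hYm)
  have hFY : ∀ᵐ ω ∂(labP (W q)), Tendsto (fun j => Y j ω) atTop (𝓝 (sgB (F ω))) := by
    filter_upwards [hconv1, hconv2] with ω hω1 hω2
    have hc : CauchySeq fun j => Y j ω := by
      apply cauchySeq_of_summable_dist
      apply hω1.congr
      intro j
      rw [dist_comm, Real.dist_eq]
    obtain ⟨L, hL⟩ := cauchySeq_tendsto_of_complete hc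
    have hL2 : 1 - L ^ 2 = 0 :=
      tendsto_nhds_unique ((hL.pow 2).const_sub 1) hω2.tendsto_atTop_zero
    have hLs : limsup (fun j => Y j ω) atTop = L := hL.limsup_eq
    have hL' : L = 1 ∨ L = -1 := by
      have : (L - 1) * (L + 1) = 0 := by linarith
      rcases mul_eq_zero.1 this with h | h
      · left; linarith
      · right; linarith
    have : sgB (F ω) = L := by
      rw [hF]
      simp only
      rw [hLs]
      rcases hL' with h | h
      · rw [h, if_pos one_pos]; rfl
      · rw [h, if_neg (by norm_num)]; rfl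
    rw [this]
    exact hL
  refine ⟨F, hFm, ?_, ?_⟩
  · intro g hg ω
    rw [hF]
    simp only [hYn g hg]
  · intro S hroot hconn η h hh
    have hact : ∀ v, MeasurePreserving (act (h v) : Lab (W q) → Lab (W q)) (labP (W q)) (labP (W q)) :=
      fun v => act_measurePreserving (h v).toEquiv
    set A : Set (Lab (W q)) := {ω | ∀ v ∈ S, F (act (h v) ω) = η v} with hA
    have hAm : MeasurableSet A := by
      have : A = ⋂ v ∈ S, {ω | F (act (h v) ω) = η v} := by
        ext ω; simp [hA]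
      rw [this]
      apply Finset.measurableSet_biInter
      intro v _
      exact measurableSet_eq_fun (hFm.comp (hact v).measurable) measurable_const
    -- convergence of the products
    have hprod : ∀ᵐ ω ∂(labP (W q)), Tendsto (fun j => ∏ v ∈ S,
        ((1 + sgB (η v) * Y j (act (h v) ω)) / 2)) atTop (𝓝 (A.indicator 1 ω)) := by
      have h2 : ∀ᵐ ω ∂(labP (W q)), ∀ v ∈ S,
          Tendsto (fun j => Y j (act (h v) ω)) atTop (𝓝 (sgB (F (act (h v) ω)))) := by
        rw [eventually_all_finset]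
        intro v _
        exact (hact v).quasiMeasurePreserving.ae hFY
      filter_upwards [h2] with ω hω
      have h3 : A.indicator (1 : Lab (W q) → ℝ) ω =
          ∏ v ∈ S, ((1 + sgB (η v) * sgB (F (act (h v) ω))) / 2) := by
        by_cases hωA : ω ∈ A
        · rw [Set.indicator_of_mem hωA]
          symm
          apply Finset.prod_eq_one
          intro v hv
          rw [hωA v hv]
          exact sgB_self _
        · rw [Set.indicator_of_notMem hωA]
          have h4 : ∃ v ∈ S, F (act (h v) ω) ≠ η v := by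
            by_contra hcon
            push Not at hcon
            exact hωA hcon
          obtain ⟨v, hv, hne⟩ := h4
          symm
          exact Finset.prod_eq_zero hv (sgB_ne fun h' => hne h'.symm)
      rw [h3]
      apply tendsto_finsetProd
      intro v hv
      exact (((hω v hv).const_mul _).const_add 1).div_const 2
    have hint : Tendsto (fun j => ∫ ω, ∏ v ∈ S, ((1 + sgB (η v) * Y j (act (h v) ω)) / 2)
        ∂(labP (W q))) atTop (𝓝 (∫ ω, A.indicator 1 ω ∂(labP (W q)))) := by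
      apply tendsto_integral_of_dominated_convergence (fun _ => (1 : ℝ))
      · intro j
        apply Measurable.aestronglyMeasurable
        apply Finset.measurable_prod
        intro v _
        exact ((((hYm j).comp (hact v).measurable).const_mul _).const_add 1).div_const 2
      · exact integrable_const _
      · intro j
        apply ae_of_all
        intro ω
        rw [Real.norm_eq_abs, Finset.abs_prod]
        apply Finset.prod_le_one (fun v _ => abs_nonneg _)
        intro v _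
        have h2 : |sgB (η v) * Y j (act (h v) ω)| ≤ 1 := by
          rw [abs_mul, abs_sgB, one_mul]; exact hYb j _
        have h3 := abs_le.1 h2
        rw [abs_le]
        constructor <;> linarith
      · exact hprod
    have hint2 : Tendsto (fun j => ∫ ω, ∏ v ∈ S, ((1 + sgB (η v) * Y j (act (h v) ω)) / 2)
        ∂(labP (W q))) atTop (𝓝 (Crest.ProbabilityR.TreeIsing.isingWeight (WG q) θ S η)) := by
      have h2 : Tendsto (fun j => Crest.ProbabilityR.TreeIsing.isingWeight (WG q) (θs (k j)) S η)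
          atTop (𝓝 (Crest.ProbabilityR.TreeIsing.isingWeight (WG q) θ S η)) :=
        ((isingWeight_cont (WG q) S η).tendsto θ).comp (hlim.comp hktop)
      have h3 : Tendsto (fun j => (∫ ω, ∏ v ∈ S, ((1 + sgB (η v) * Y j (act (h v) ω)) / 2)
          ∂(labP (W q))) - Crest.ProbabilityR.TreeIsing.isingWeight (WG q) (θs (k j)) S η)
          atTop (𝓝 0) := by
        apply squeeze_zero_norm (a := fun j => (S.card : ℝ) * ρ ^ (j + 1))
        · intro j
          rw [Real.norm_eq_abs]
          exact (hfacts q hq (θs (k j)) (h0 _) (h1 _) j).2.2 S hroot hconn η h hh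
        · have h4 : Tendsto (fun j : ℕ => ρ ^ (j + 1)) atTop (𝓝 0) :=
            (tendsto_add_atTop_iff_nat 1).2 (tendsto_pow_atTop_nhds_zero_of_lt_one hρ0 hρ1)
          have := h4.const_mul (S.card : ℝ)
          rwa [mul_zero] at this
      have := h3.add h2
      simpa using this
    have hreal : (labP (W q)).real A = Crest.ProbabilityR.TreeIsing.isingWeight (WG q) θ S η := by
      have := tendsto_nhds_unique hint hint2
      rw [← this, integral_indicator_one hAm]
    rw [← hreal, ofReal_measureReal]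

end Crest.Agent.FreeIs
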