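import Crest.Agent.FreeIs.Defs

/-! S0241: one more definition, for the FINAL modules. -/

set_option autoImplicit false

namespace Crest.Agent.FreeIs

/-- value ±1 of a Boolean -/
def sgB (b : Bool) : ℝ := if b then 1 else -1

end Crest.Agent.FreeIs
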