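import Crest.Agent.FreeIs.Comb

/-!
S0241, module SITE: the single-site laws `obsLaw`, `siteS`, `siteL`.
-/

set_option autoImplicit false
set_option linter.unusedVariables false

open MeasureTheory Filter Topology

namespace Crest.Agent.FreeIs

namespace Site

/-- the observation as a function of the two uniform labels -/
noncomputable def obsF (r : ℝ) (p : unitInterval × unitInterval) : ℝ :=
  if 2 * (p.1 : ℝ) < r then eta (2 * (p.1 : ℝ)) * (2 * (p.2 : ℝ) - 1) else 0

theorem measurable_obsF (r : ℝ) : Measurable (obsF r) := by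
  unfold obsF eta
  refine Measurable.ite ?_ ?_ measurable_const
  · exact measurableSet_lt (by fun_prop) measurable_const
  · fun_prop

theorem obsLaw_eq (r : ℝ) :
    obsLaw r = ((volume : Measure unitInterval).prod (volume : Measure unitInterval)).map (obsF r) :=
  rfl

theorem obsF_le {r : ℝ} (h1 : r ≤ 1) (p : unitInterval × unitInterval) : |obsF r p| ≤ 1 / 2 := by
  unfold obsF
  split_ifs with h
  · have h0 : (0 : ℝ) ≤ 2 * (p.1 : ℝ) := by have := p.1.2.1; positivity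
    have hs : √(2 * (p.1 : ℝ)) ≤ 1 := by
      exact Real.sqrt_le_one.2 (by linarith)
    have hs0 := Real.sqrt_nonneg (2 * (p.1 : ℝ))
    have hb : |2 * (p.2 : ℝ) - 1| ≤ 1 := by
      have := p.2.2.1; have := p.2.2.2
      rw [abs_le]; constructor <;> linarith
    unfold eta
    rw [abs_mul, abs_of_nonneg (by positivity)]
    nlinarith [abs_nonneg (2 * (p.2 : ℝ) - 1)]
  · simp

theorem obsF_symm (r : ℝ) (p : unitInterval × unitInterval) :
    obsF r (p.1, unitInterval.symm p.2) = - obsF r p := by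
  unfold obsF
  simp only [unitInterval.coe_symm_eq]
  split_ifs <;> ring

theorem site_obs {r : ℝ} (h1 : r ≤ 1) : SiteLaw (obsLaw r) (1 / 2) := by
  refine ⟨?_, ?_, ?_, by norm_num, by norm_num⟩
  · rw [obsLaw_eq]
    exact Measure.isProbabilityMeasure_map (measurable_obsF r).aemeasurable
  · rw [obsLaw_eq, Measure.map_map measurable_neg (measurable_obsF r)]
    have hmp : MeasurePreserving (Prod.map (id : unitInterval → unitInterval) unitInterval.symm)
        ((volume : Measure unitInterval).prod (volume : Measure unitInterval))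
        ((volume : Measure unitInterval).prod (volume : Measure unitInterval)) :=
      (MeasurePreserving.id _).prod unitInterval.measurePreserving_symm
    have : (fun t : ℝ => -t) ∘ obsF r
        = obsF r ∘ (Prod.map (id : unitInterval → unitInterval) unitInterval.symm) := by
      funext p
      exact (obsF_symm r p).symm
    rw [this, ← Measure.map_map (measurable_obsF r) hmp.measurable, hmp.map_eq]
  · rw [obsLaw_eq, ae_map_iff (measurable_obsF r).aemeasurable
      (measurableSet_le (by fun_prop) measurable_const)]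
    exact ae_of_all _ fun p => obsF_le h1 p

theorem integral_unit (f : ℝ → ℝ) : ∫ x : unitInterval, f x = ∫ x in (0 : ℝ)..1, f x := by
  rw [intervalIntegral.integral_of_le zero_le_one, ← integral_Icc_eq_integral_Ioc]
  have := unitInterval.measurePreserving_coe.integral_comp unitInterval.measurableEmbedding_coe f
  exact this

theorem obs_mom {r : ℝ} (h0 : 0 ≤ r) (h1 : r ≤ 1) (p : ℕ) (hp : 1 ≤ p) :
    ∫ t, t ^ (2 * p) ∂(obsLaw r)
      = ((r / 2) ^ (p + 1) / (2 ^ p * (p + 1))) * (1 / (2 * p + 1)) := by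
  rw [obsLaw_eq, integral_map (measurable_obsF r).aemeasurable (by fun_prop)]
  have e : ∀ x : unitInterval × unitInterval, obsF r x ^ (2 * p)
      = ((Set.Iio (r / 2)).indicator (fun a : ℝ => (a / 2) ^ p) x.1)
        * (fun b : ℝ => (2 * b - 1) ^ (2 * p)) x.2 := by
    intro x
    unfold obsF Set.indicator eta
    have hx : (0 : ℝ) ≤ 2 * (x.1 : ℝ) := by have := x.1.2.1; positivity
    by_cases h : 2 * (x.1 : ℝ) < r
    · have h' : (x.1 : ℝ) ∈ Set.Iio (r / 2) := by rw [Set.mem_Iio]; linarith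
      rw [if_pos h, if_pos h', mul_pow]
      congr 1
      rw [pow_mul, div_pow, Real.sq_sqrt hx]
      congr 1; ring
    · have h' : (x.1 : ℝ) ∉ Set.Iio (r / 2) := by rw [Set.mem_Iio]; intro h'; apply h; linarith
      rw [if_neg h, if_neg h', zero_mul, zero_pow (by omega)]
  simp only [e]
  rw [integral_prod_mul (fun x : unitInterval => (Set.Iio (r / 2)).indicator (fun a : ℝ => (a / 2) ^ p) x)
    (fun x : unitInterval => (fun b : ℝ => (2 * b - 1) ^ (2 * p)) x)]
  rw [integral_unit, integral_unit (fun b : ℝ => (2 * b - 1) ^ (2 * p))]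
  congr 1
  · rw [intervalIntegral.integral_of_le zero_le_one, setIntegral_indicator measurableSet_Iio]
    have hs : Set.Ioc (0 : ℝ) 1 ∩ Set.Iio (r / 2) = Set.Ioo 0 (r / 2) := by
      ext x; simp only [Set.mem_inter_iff, Set.mem_Ioc, Set.mem_Iio, Set.mem_Ioo]
      constructor
      · rintro ⟨⟨a, b⟩, c⟩; exact ⟨a, c⟩
      · rintro ⟨a, c⟩; exact ⟨⟨a, by linarith⟩, c⟩
    rw [hs, ← integral_Ioc_eq_integral_Ioo, ← intervalIntegral.integral_of_le (by positivity)]
    simp only [div_pow]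
    rw [intervalIntegral.integral_div, integral_pow]
    rw [zero_pow (by omega), sub_zero]
    field_simp
    rw [← mul_pow]
    congr 1
    ring
  · rw [intervalIntegral.integral_comp_mul_sub (fun y : ℝ => y ^ (2 * p)) (two_ne_zero (α := ℝ)) 1,
      integral_pow, smul_eq_mul]
    have h1 : (2 : ℝ) * 1 - 1 = 1 := by norm_num
    have h2 : (2 : ℝ) * 0 - 1 = -1 := by norm_num
    rw [h1, h2, one_pow, Odd.neg_one_pow (by exact ⟨p, rfl⟩)]
    push_cast
    field_simp
    ring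

theorem site_dirac : SiteLaw (Measure.dirac (0 : ℝ)) 0 := by
  refine ⟨inferInstance, ?_, ?_, by norm_num, le_rfl⟩
  · rw [Measure.map_dirac' (by fun_prop), neg_zero]
  · rw [ae_dirac_iff (measurableSet_le (by fun_prop) measurable_const)]; simp

theorem siteS_law (j : ℕ) : ∃ τ : ℝ, SiteLaw (siteS j) τ := by
  induction j with
  | zero => exact ⟨0, site_dirac⟩
  | succ j ih =>
    obtain ⟨τ, hτ⟩ := ih
    exact ⟨_, hτ.comb (site_obs le_rfl)⟩

/-- the density is at most two and `comb` is normalised -/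
theorem integral_comb_dirac {ρ : Measure ℝ} {τ : ℝ} (hρ : SiteLaw ρ τ) {F : ℝ → ℝ}
    (hF : Measurable F) {K : ℝ} (hK : ∀ x, |x| < 1 → |F x| ≤ K) :
    ∫ t, F t ∂(comb (Measure.dirac 0) ρ) = ∫ t, F t ∂ρ := by
  rw [integral_comb_iter site_dirac hρ hF hK, integral_dirac]
  simp [ein]

theorem second_symm (x y : ℝ) (hx : |x| < 1) (hy : |y| < 1) :
    x ^ 2 ≤ ((1 + x * y) * ein x y ^ 2 + (1 + x * (-y)) * ein x (-y) ^ 2) / 2 := by
  have h1 := ein_den_pos le_rfl le_rfl hx hy.le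
  have h2 := ein_den_pos (x := x) (y := -y) le_rfl (abs_neg y).le hx hy.le
  have e1 : (1 + x * y) * ein x y ^ 2 = (x + y) ^ 2 / (1 + x * y) := by
    unfold ein; field_simp
  have e2 : (1 + x * (-y)) * ein x (-y) ^ 2 = (x - y) ^ 2 / (1 + x * (-y)) := by
    unfold ein; field_simp; ring
  rw [e1, e2, div_add_div _ _ h1.ne' h2.ne', div_div, le_div_iff₀ (by positivity)]
  have : 0 ≤ y ^ 2 * (1 - x ^ 2) ^ 2 := by positivity
  nlinarith

theorem comb_second_ge_left {π ρ : Measure ℝ} {τ τ' : ℝ} (hπ : SiteLaw π τ) (hρ : SiteLaw ρ τ') :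
    ∫ t, t ^ 2 ∂π ≤ ∫ t, t ^ 2 ∂(comb π ρ) := by
  have hp := hπ.prob
  have hp' := hρ.prob
  have hb : ∀ x : ℝ, |x| < 1 → |x ^ 2| ≤ 1 := by
    intro x hx
    rw [abs_pow]
    exact pow_le_one₀ (abs_nonneg x) hx.le
  rw [integral_comb_iter hπ hρ (by fun_prop) hb]
  have hm : Measurable fun p : ℝ × ℝ => (1 + p.1 * p.2) * ein p.1 p.2 ^ 2 :=
    (by fun_prop : Measurable fun p : ℝ × ℝ => (1 + p.1 * p.2)).mul (measurable_ein.pow_const 2)
  have hbd : ∀ x y : ℝ, |x| < 1 → |y| < 1 → |(1 + x * y) * ein x y ^ 2| ≤ 2 := by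
    intro x y hx hy
    have h1 := hb _ (ein_abs_lt hx hy)
    rw [abs_mul]
    have h2 : |1 + x * y| ≤ 2 := by
      have : |x * y| ≤ 1 := by
        rw [abs_mul]
        nlinarith [abs_nonneg x, abs_nonneg y]
      have := abs_le.1 this
      rw [abs_le]; constructor <;> linarith
    nlinarith [abs_nonneg (1 + x * y), abs_nonneg (ein x y ^ 2)]
  have hint : Integrable (fun x => ∫ y, (1 + x * y) * ein x y ^ 2 ∂ρ) π :=
    (hπ.integrable_prod hρ hm (K := 2) fun x y hx hy =>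
      hbd x y (hx.trans_lt hπ.lt) (hy.trans_lt hρ.lt)).integral_prod_left
  refine integral_mono_ae (hπ.integrable (by fun_prop) (K := 1) fun x hx =>
    hb x (hx.trans_lt hπ.lt)) hint ?_
  filter_upwards [hπ.supp] with x hx
  have hx1 := hx.trans_lt hπ.lt
  have i1 : Integrable (fun y => (1 + x * y) * ein x y ^ 2) ρ :=
    hρ.integrable (hm.comp (measurable_prodMk_left (x := x))) (K := 2) fun y hy =>
      hbd x y hx1 (hy.trans_lt hρ.lt)
  have i2 : Integrable (fun y => (1 + x * (-y)) * ein x (-y) ^ 2) ρ :=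
    hρ.integrable ((hm.comp (measurable_prodMk_left (x := x))).comp measurable_neg) (K := 2)
      fun y hy => hbd x (-y) hx1 (by rw [abs_neg]; exact hy.trans_lt hρ.lt)
  have e : ∫ y, (1 + x * y) * ein x y ^ 2 ∂ρ
      = ∫ y, ((1 + x * y) * ein x y ^ 2 + (1 + x * (-y)) * ein x (-y) ^ 2) / 2 ∂ρ := by
    rw [integral_div, integral_add i1 i2,
      hρ.integral_neg (fun y => (1 + x * y) * ein x y ^ 2)]
    ring
  have e2 : x ^ 2 = ∫ y, x ^ 2 ∂ρ := by simp
  rw [e, e2]
  refine integral_mono_ae (integrable_const _) ((i1.add i2).div_const 2) ?_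
  filter_upwards [hρ.supp] with y hy
  exact second_symm x y hx1 (hy.trans_lt hρ.lt)

theorem comb_comm_integral {π ρ : Measure ℝ} {τ τ' : ℝ} (hπ : SiteLaw π τ) (hρ : SiteLaw ρ τ')
    {F : ℝ → ℝ} (hF : Measurable F) : ∫ m, F m ∂(comb π ρ) = ∫ m, F m ∂(comb ρ π) := by
  have := hπ.prob
  have := hρ.prob
  rw [integral_comb hπ hρ hF, integral_comb hρ hπ hF, ← integral_prod_swap]
  simp only [Prod.fst_swap, Prod.snd_swap]
  refine integral_congr_ae (ae_of_all _ fun p => ?_)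
  simp only [ein_comm p.2 p.1, mul_comm p.2 p.1]

theorem comb_second_ge_right {π ρ : Measure ℝ} {τ τ' : ℝ} (hπ : SiteLaw π τ) (hρ : SiteLaw ρ τ') :
    ∫ t, t ^ 2 ∂ρ ≤ ∫ t, t ^ 2 ∂(comb π ρ) := by
  rw [comb_comm_integral hπ hρ (by fun_prop)]
  exact comb_second_ge_left hρ hπ

/-- `√(1 - t²)` is multiplicative under `comb` -/
theorem comb_sqrt {π ρ : Measure ℝ} {τ τ' : ℝ} (hπ : SiteLaw π τ) (hρ : SiteLaw ρ τ') :
    ∫ t, √(1 - t ^ 2) ∂(comb π ρ) = (∫ t, √(1 - t ^ 2) ∂π) * ∫ t, √(1 - t ^ 2) ∂ρ := by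
  have := hπ.prob
  have := hρ.prob
  rw [integral_comb hπ hρ (by fun_prop), ← integral_prod_mul]
  refine integral_congr_ae ?_
  filter_upwards [hπ.ae_prod hρ] with p hp
  have hx1 := hp.1.trans_lt hπ.lt
  have hy1 := hp.2.trans_lt hρ.lt
  have hd := ein_den_pos le_rfl le_rfl hx1 hy1.le
  have ha : 0 ≤ 1 - p.1 ^ 2 := by nlinarith [sq_abs p.1, abs_nonneg p.1]
  have hb : 0 ≤ 1 - p.2 ^ 2 := by nlinarith [sq_abs p.2, abs_nonneg p.2]
  have e : 1 - ein p.1 p.2 ^ 2 = (1 - p.1 ^ 2) * (1 - p.2 ^ 2) / (1 + p.1 * p.2) ^ 2 := by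
    unfold ein; field_simp; ring
  rw [e, Real.sqrt_div (mul_nonneg ha hb), Real.sqrt_sq hd.le, Real.sqrt_mul ha]
  field_simp

/-- the tilts at the beginning of round `j` are close to `±1` -/
theorem siteS_conv : ∃ ρ : ℝ, 0 ≤ ρ ∧ ρ < 1 ∧ ∀ j, 1 - ∫ t, t ^ 2 ∂(siteS j) ≤ ρ ^ j := by
  refine ⟨∫ t, √(1 - t ^ 2) ∂(obsLaw 1), integral_nonneg fun t => Real.sqrt_nonneg _, ?_, ?_⟩
  · have h := site_obs (le_refl (1 : ℝ))
    have hp := h.prob
    have h2 : ∫ t, √(1 - t ^ 2) ∂(obsLaw 1) ≤ ∫ t, (1 - t ^ 2 / 2) ∂(obsLaw 1) := by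
      refine integral_mono_ae (h.integrable (by fun_prop) (K := 1) fun x hx => ?_)
        (h.integrable (by fun_prop) (K := 1) fun x hx => ?_) ?_
      · rw [abs_of_nonneg (Real.sqrt_nonneg _)]
        exact Real.sqrt_le_one.2 (by nlinarith [sq_nonneg x])
      · have : x ^ 2 ≤ (1 / 2) ^ 2 := sq_le_sq' (abs_le.1 hx).1 (abs_le.1 hx).2
        rw [abs_le]; constructor <;> nlinarith [sq_nonneg x]
      · filter_upwards [h.supp] with t ht
        have : t ^ 2 ≤ (1 / 2) ^ 2 := sq_le_sq' (abs_le.1 ht).1 (abs_le.1 ht).2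
        rw [Real.sqrt_le_iff]
        constructor <;> nlinarith [sq_nonneg t, sq_nonneg (t ^ 2)]
    have h3 : ∫ t, (1 - t ^ 2 / 2) ∂(obsLaw 1) = 1 - (1 / 48) / 2 := by
      rw [integral_sub (integrable_const _) ((h.integrable (by fun_prop) (K := 1) fun x hx => ?_)),
        integral_div]
      · have := obs_mom zero_le_one le_rfl 1 le_rfl
        norm_num at this
        rw [this]
        simp
      · have : x ^ 2 ≤ (1 / 2) ^ 2 := sq_le_sq' (abs_le.1 hx).1 (abs_le.1 hx).2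
        rw [abs_le]; constructor <;> nlinarith [sq_nonneg x]
    linarith
  · have key : ∀ j, ∫ t, √(1 - t ^ 2) ∂(siteS j) = (∫ t, √(1 - t ^ 2) ∂(obsLaw 1)) ^ j := by
      intro j
      induction j with
      | zero => simp [siteS]
      | succ j ih =>
        obtain ⟨τ, hτ⟩ := siteS_law j
        rw [siteS, comb_sqrt hτ (site_obs le_rfl), ih, pow_succ]
    intro j
    rw [← key j]
    obtain ⟨τ, hτ⟩ := siteS_law j
    have hp := hτ.prob
    have i1 : Integrable (fun t : ℝ => t ^ 2) (siteS j) :=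
      hτ.integrable (by fun_prop) (K := 1) fun x hx => by
        rw [abs_pow]; exact pow_le_one₀ (abs_nonneg x) (hx.trans hτ.lt.le)
    have : 1 - ∫ t, t ^ 2 ∂(siteS j) = ∫ t, (1 - t ^ 2) ∂(siteS j) := by
      rw [integral_sub (integrable_const _) i1]; simp
    rw [this]
    refine integral_mono_ae ((integrable_const _).sub i1)
      (hτ.integrable (by fun_prop) (K := 1) fun x hx => ?_) ?_
    · rw [abs_of_nonneg (Real.sqrt_nonneg _)]
      exact Real.sqrt_le_one.2 (by nlinarith [sq_nonneg x])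
    · filter_upwards [hτ.supp] with t ht
      have h1 : |t| ≤ 1 := ht.trans hτ.lt.le
      have h2 : 0 ≤ 1 - t ^ 2 := by nlinarith [sq_abs t, abs_nonneg t]
      refine Real.le_sqrt_of_sq_le ?_
      nlinarith [sq_nonneg t]

end Site

open Site

theorem site_law (j : ℕ) : ∃ τ : ℝ, ∀ r, 0 ≤ r → r ≤ 1 → SiteLaw (siteL j r) τ := by
  obtain ⟨τ, hτ⟩ := siteS_law j
  exact ⟨_, fun r _ h1 => hτ.comb (site_obs h1)⟩

theorem site_second0 {r : ℝ} (h0 : 0 ≤ r) (h1 : r ≤ 1) :
    ∫ t, t ^ 2 ∂(siteL 0 r) = r ^ 2 / 48 := by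
  have hb : ∀ x : ℝ, |x| < 1 → |x ^ 2| ≤ 1 := by
    intro x hx
    rw [abs_pow]
    exact pow_le_one₀ (abs_nonneg x) hx.le
  have := obs_mom h0 h1 1 le_rfl
  rw [siteL, siteS, integral_comb_dirac (site_obs h1) (by fun_prop) hb]
  norm_num at this
  rw [this]
  ring

theorem site_mom0 {r : ℝ} (h0 : 0 ≤ r) (h1 : r ≤ 1) (p : ℕ) (hp : 1 ≤ p) :
    ∫ t, t ^ (2 * p) ∂(siteL 0 r) ≤ r ^ (p + 1) := by
  have hb : ∀ x : ℝ, |x| < 1 → |x ^ (2 * p)| ≤ 1 := by
    intro x hx
    rw [abs_pow]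
    exact pow_le_one₀ (abs_nonneg x) hx.le
  rw [siteL, siteS, integral_comb_dirac (site_obs h1) (by fun_prop) hb, obs_mom h0 h1 p hp]
  have h2 : (r / 2) ^ (p + 1) ≤ r ^ (p + 1) := pow_le_pow_left₀ (by positivity) (by linarith) _
  have h3 : (r / 2) ^ (p + 1) / (2 ^ p * (p + 1)) ≤ (r / 2) ^ (p + 1) := by
    refine div_le_self (by positivity) ?_
    have : (1 : ℝ) ≤ 2 ^ p := one_le_pow₀ (by norm_num)
    nlinarith [(Nat.cast_nonneg p : (0 : ℝ) ≤ p)]
  have h4 : (1 : ℝ) / (2 * p + 1) ≤ 1 := by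
    rw [div_le_one (by positivity)]
    nlinarith [(Nat.cast_nonneg p : (0 : ℝ) ≤ p)]
  have h5 : 0 ≤ (r / 2) ^ (p + 1) / (2 ^ p * ((p : ℝ) + 1)) := by positivity
  nlinarith

theorem site_second_succ (j : ℕ) {r : ℝ} (h0 : 0 ≤ r) (h1 : r ≤ 1) :
    1 / 48 ≤ ∫ t, t ^ 2 ∂(siteL (j + 1) r) := by
  obtain ⟨τ, hτ⟩ := siteS_law j
  have h := site_obs (le_refl (1 : ℝ))
  have e1 : ∫ t, t ^ 2 ∂(obsLaw 1) = 1 / 48 := by
    have := obs_mom zero_le_one le_rfl 1 le_rfl
    norm_num at this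
    rw [this]
  rw [← e1]
  refine (comb_second_ge_right hτ h).trans ?_
  exact comb_second_ge_left (hτ.comb h) (site_obs h1)

end Crest.Agent.FreeIs
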