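import Crest.Agent.FreeIs.Samp13
import Crest.Agent.FreeIs.Site
import Crest.Agent.FreeIs.Gibbs

/-!
S0241, sampler part 14: `law_fin`.
-/

set_option autoImplicit false
set_option linter.style.haveILetI false

open Set MeasureTheory Measure unitInterval

universe u

namespace Crest.Agent.FreeIs

section Zero

variable {q : ℕ}

open Classical in
theorem Zf_zero {θ : ℝ} (h0 : 0 ≤ θ) (h1 : θ < 1) (Λ : Finset (W q)) :
    Zf (WG q) θ Λ (fun _ => 0) = 1 := by
  induction hn : Λ.card using Nat.strong_induction_on generalizing Λ with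
  | _ n ih =>
    rcases Λ.eq_empty_or_nonempty with rfl | hne
    · unfold Zf gexp
      rw [Finset.powerset_empty, Finset.sum_singleton, Finset.card_empty]
      unfold wt
      simp
    · obtain ⟨w, hw, hmax⟩ := Finset.exists_max_image Λ (fun w => w.1.length) hne
      have hun : Λ = Λ.erase w ∪ {w} := by
        rw [Finset.union_comm, ← Finset.insert_eq, Finset.insert_erase hw]
      have hdisj : Disjoint (Λ.erase w) {w} := by
        rw [Finset.disjoint_singleton_right]
        exact Finset.notMem_erase w Λ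
      have hcard : (Λ.erase w).card < n := by
        rw [← hn]
        exact Finset.card_erase_lt_of_mem hw
      have hIH := ih _ hcard (Λ.erase w) rfl
      have hpar : ∀ a ∈ Λ.erase w, (WG q).Adj a w → ∃ x, w.1 = a.1 ++ [x] := by
        intro a ha hadj
        rcases hadj with h | ⟨x, h⟩
        · exact h
        · exfalso
          have h2 := hmax a (Finset.mem_of_mem_erase ha)
          rw [h] at h2
          simp at h2
      by_cases hex : ∃ a ∈ Λ.erase w, (WG q).Adj a w
      · obtain ⟨a, ha, hadj⟩ := hex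
        have hc : ∀ a' ∈ Λ.erase w, ∀ b ∈ ({w} : Finset (W q)), (WG q).Adj a' b → a' = a ∧ b = w := by
          intro a' ha' b hb hadj'
          rw [Finset.mem_singleton] at hb
          subst hb
          refine ⟨?_, rfl⟩
          obtain ⟨x, hx⟩ := hpar a ha hadj
          obtain ⟨x', hx'⟩ := hpar a' ha' hadj'
          rw [hx] at hx'
          exact Subtype.ext (List.append_inj' hx' rfl).1.symm
        have hcut := (cut_all (WG q) h0 h1 hdisj ha (Finset.mem_singleton_self w) hadj hc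
          (t := fun _ => 0) (fun v _ => by simp)).1
        rw [hun, hcut, hIH, (Zf_singleton θ (fun _ => 0) w).1, (Zf_singleton θ (fun _ => 0) w).2]
        simp
      · push Not at hex
        have hc : ∀ a' ∈ Λ.erase w, ∀ b ∈ ({w} : Finset (W q)), ¬ (WG q).Adj a' b := by
          intro a' ha' b hb
          rw [Finset.mem_singleton] at hb
          subst hb
          exact hex a' ha'
        have hcut := gexp_nocut (WG q) (θ := θ) hdisj hc (fun _ => 0) (fun _ => 1) (fun _ => 1)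
          (fun _ => rfl) (fun _ => rfl)
        have e1 : Zf (WG q) θ Λ (fun _ => 0) =
            gexp (WG q) θ (Λ.erase w ∪ {w}) (fun _ => 0) (fun P => (1 : ℝ) * 1) := by
          rw [← hun]
          simp only [mul_one]
          rfl
        rw [e1, hcut]
        have e2 : gexp (WG q) θ (Λ.erase w) (fun _ => 0) (fun _ => 1) = 1 := hIH
        have e3 : gexp (WG q) θ {w} (fun _ => 0) (fun _ => 1) = 1 :=
          (Zf_singleton θ (fun _ => 0) w).1
        rw [e2, e3, mul_one]

end Zero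

namespace Samp

variable {V : Type u} (G : SimpleGraph V)

theorem tlt_ob {Λ : Finset V} {t0 : V → ℝ} (ω : Lab V) (j : ℕ) (r : ℝ) {w : V} (hw : w ∈ Λ) :
    tlt Λ t0 (TT ω j) (fun w => 2 * UU ω j w - 1) r w =
      ein (t0 w) (ob r (TT ω j w) (UU ω j w)) := by
  unfold tlt ob
  by_cases h : TT ω j w < r
  · rw [if_pos ⟨hw, h⟩, if_pos h]
  · rw [if_neg (fun h' => h h'.2), if_neg h, ein_zero]

theorem ref_eq {Λ : Finset V} (ω : Lab V) (j : ℕ) {w : V} (hw : w ∈ Λ) :
    ref Λ ω j w = sref (fun c => ω (w, c)) j := by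
  induction j with
  | zero => rfl
  | succ j ih =>
    show tlt Λ (ref Λ ω j) (TT ω j) (fun w => 2 * UU ω j w - 1) 1 w = _
    rw [tlt_ob ω j 1 hw, ih]
    rfl

theorem refr_eq {Λ : Finset V} (ω : Lab V) (j : ℕ) (r : ℝ) {w : V} (hw : w ∈ Λ) :
    refr Λ ω j r w = srefr (fun c => ω (w, c)) j r := by
  unfold refr
  rw [tlt_ob ω j r hw, ref_eq ω j hw]
  rfl

theorem wg_eq {Λ : Finset V} (ω : Lab V) (j : ℕ) :
    wg Λ ω j = ∏ w ∈ Λ, sw (fun c => ω (w, c)) j := by
  induction j with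
  | zero => simp [wg, sw]
  | succ j ih =>
    show wg Λ ω j * ∏ w ∈ Λ, (1 + ref Λ ω j w * ob 1 (TT ω j w) (UU ω j w)) = _
    rw [ih, ← Finset.prod_mul_distrib]
    apply Finset.prod_congr rfl
    intro w hw
    rw [ref_eq ω j hw]
    rfl

theorem wgr_eq {Λ : Finset V} (ω : Lab V) (j : ℕ) (r : ℝ) :
    wgr Λ ω j r = ∏ w ∈ Λ, swr (fun c => ω (w, c)) j r := by
  unfold wgr
  rw [wg_eq, ← Finset.prod_mul_distrib]
  apply Finset.prod_congr rfl
  intro w hw
  rw [ref_eq ω j hw]
  rfl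

theorem lintegral_curry (Φ : (V → (ℕ × Bool → I)) → ENNReal) (hΦ : Measurable Φ) :
    ∫⁻ ω : Lab V, Φ (fun w c => ω (w, c)) ∂(labP V) =
      ∫⁻ x, Φ x ∂(infinitePi fun _ : V => infinitePi fun _ : ℕ × Bool => (volume : Measure I)) := by
  have h := infinitePi_map_curry (fun (_ : V) (_ : ℕ × Bool) => (volume : Measure I))
  rw [← h, lintegral_map hΦ (MeasurableEquiv.curry V (ℕ × Bool) I).measurable]
  rfl

theorem lintegral_law {θ : ℝ} (hθ : |θ| < 1) (Λ : Finset V)
    (hZ : Zf G θ Λ (fun _ => 0) = 1) (j : ℕ) {r : ℝ} (hr0 : 0 ≤ r) (hr : r ≤ 1)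
    (H : (V → ℝ) → ENNReal) (hH : Measurable H)
    (hHd : ∀ t t' : V → ℝ, (∀ v ∈ Λ, t v = t' v) → H t = H t') :
    ∫⁻ ω, H (st G θ Λ ω j r) ∂(labP V) =
      ∫⁻ t, H t * ENNReal.ofReal (Zf G θ Λ t) ∂(infinitePi (fun _ : V => siteL j r)) := by
  obtain ⟨τ, hτ⟩ := site_law j
  have := (hτ r hr0 hr).prob
  have hΨ : Measurable fun t : V → ℝ => H t * ENNReal.ofReal (Zf G θ Λ t) :=
    hH.mul (Zf_measurable G θ Λ).ennreal_ofReal
  have hΨd : ∀ t t' : V → ℝ, (∀ v ∈ Λ, t v = t' v) →
      H t * ENNReal.ofReal (Zf G θ Λ t) = H t' * ENNReal.ofReal (Zf G θ Λ t') := by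
    intro t t' h
    rw [hHd t t' h, Zf_congr G h]
  rw [lintegral_st G hθ Λ j hr H hH]
  rw [← lintegral_product (infinitePi fun _ : ℕ × Bool => (volume : Measure I)) (siteL j r)
    (fun x => srefr x j r) (srefr_meas j r) (fun x => ENNReal.ofReal (swr x j r))
    (swr_meas j r).ennreal_ofReal (fun ψ hψ => lintegral_siteL j hr ψ hψ) Λ
    (fun t => H t * ENNReal.ofReal (Zf G θ Λ t)) hΨ hΨd]
  rw [← lintegral_curry]
  · apply lintegral_congr
    intro ω
    have e1 : ∀ v ∈ Λ, refr Λ ω j r v = (fun w => srefr (fun c => ω (w, c)) j r) v :=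
      fun v hv => refr_eq ω j r hv
    rw [hHd _ _ e1, Zf_congr G e1, hZ, div_one, wgr_eq]
    have hpos : 0 ≤ ∏ w ∈ Λ, swr (fun c => ω (w, c)) j r :=
      Finset.prod_nonneg fun w _ => (swr_pos _ j hr).le
    rw [mul_comm (∏ w ∈ Λ, swr (fun c => ω (w, c)) j r),
      ENNReal.ofReal_mul' hpos, ENNReal.ofReal_prod_of_nonneg (fun w _ => (swr_pos _ j hr).le),
      ← mul_assoc]
  · have h1 : Measurable fun (x : V → (ℕ × Bool → I)) (w : V) => srefr (x w) j r := by
      rw [measurable_pi_iff]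
      intro w
      exact (srefr_meas j r).comp (measurable_pi_apply w)
    apply Measurable.mul
    · exact hΨ.comp h1
    · apply Finset.measurable_prod
      intro w _
      exact (swr_meas j r).ennreal_ofReal.comp (measurable_pi_apply w)

/-- an almost sure bound for the product law -/
theorem ae_infinitePi_lt {π : Measure ℝ} {τ : ℝ} (hπ : SiteLaw π τ) (Λ : Finset V) :
    ∀ᵐ t ∂(infinitePi (fun _ : V => π)), ∀ v ∈ Λ, |t v| < 1 := by
  have := hπ.prob
  rw [Filter.eventually_all_finset]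
  intro v _
  have h1 : ∀ᵐ x ∂π, |x| < 1 := by
    filter_upwards [hπ.supp] with x hx using hx.trans_lt hπ.lt
  exact (measurePreserving_eval_infinitePi (fun _ : V => π) v).quasiMeasurePreserving.ae h1

theorem law_gen {θ : ℝ} (h0 : 0 ≤ θ) (h1 : θ < 1) (Λ : Finset V)
    (hZ : Zf G θ Λ (fun _ => 0) = 1) (j : ℕ) {r : ℝ} (hr0 : 0 ≤ r) (hr : r ≤ 1)
    (F : (V → ℝ) → ℝ) (hF : Measurable F) (hFb : ∃ K, ∀ t, |F t| ≤ K)
    (hFd : ∀ t t' : V → ℝ, (∀ v ∈ Λ, t v = t' v) → F t = F t') :
    ∫ ω, F (st G θ Λ ω j r) ∂(labP V)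
      = ∫ t, F t * Zf G θ Λ t ∂(infinitePi (fun _ : V => siteL j r)) := by
  classical
  obtain ⟨K, hK⟩ := hFb
  obtain ⟨τ, hτ⟩ := site_law j
  have hsl := hτ r hr0 hr
  have := hsl.prob
  have hθ : |θ| < 1 := by rw [abs_of_nonneg h0]; exact h1
  have hstm := st_measurable G θ Λ j r
  have hpos : ∀ᵐ t ∂(infinitePi (fun _ : V => siteL j r)), 0 < Zf G θ Λ t := by
    filter_upwards [ae_infinitePi_lt hsl Λ] with t ht
    exact FreeIs.Zf_pos G h0 h1 ht
  -- nonnegative version
  have key : ∀ F' : (V → ℝ) → ℝ, Measurable F' → (∀ t, 0 ≤ F' t) →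
      (∀ t t' : V → ℝ, (∀ v ∈ Λ, t v = t' v) → F' t = F' t') →
      ∫ ω, F' (st G θ Λ ω j r) ∂(labP V) =
        ∫ t, F' t * Zf G θ Λ t ∂(infinitePi (fun _ : V => siteL j r)) := by
    intro F' hF' hF0 hFd'
    have hmm : Measurable fun t : V → ℝ => F' t * Zf G θ Λ t := hF'.mul (Zf_measurable G θ Λ)
    rw [integral_eq_lintegral_of_nonneg_ae (Filter.Eventually.of_forall fun ω => hF0 _)
      (hF'.comp hstm).aestronglyMeasurable,
      integral_eq_lintegral_of_nonneg_ae _ hmm.aestronglyMeasurable]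
    · congr 1
      rw [lintegral_law G hθ Λ hZ j hr0 hr (fun t => ENNReal.ofReal (F' t)) hF'.ennreal_ofReal
        (fun t t' h => by rw [hFd' t t' h])]
      apply lintegral_congr
      intro t
      rw [ENNReal.ofReal_mul (hF0 t)]
    · filter_upwards [hpos] with t ht
      exact mul_nonneg (hF0 t) ht.le
  have e1 := key (fun t => F t + K) (hF.add_const K)
    (fun t => by have := (abs_le.1 (hK t)).1; linarith) (fun t t' h => by rw [hFd t t' h])
  have e0 := key (fun _ => 1) measurable_const (fun _ => zero_le_one) (fun _ _ _ => rfl)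
  have hi1 : Integrable (fun ω => F (st G θ Λ ω j r)) (labP V) :=
    integrable_bdd (hF.comp hstm) (fun ω => hK _)
  have hZint : Integrable (fun t => Zf G θ Λ t) (infinitePi (fun _ : V => siteL j r)) := by
    by_contra hcon
    have h2 : ∫ t, (fun _ => (1 : ℝ)) t * Zf G θ Λ t ∂(infinitePi (fun _ : V => siteL j r)) = 0 := by
      apply integral_undef
      simpa using hcon
    rw [h2] at e0
    simp at e0
  have hFZ : Integrable (fun t => F t * Zf G θ Λ t) (infinitePi (fun _ : V => siteL j r)) :=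
    hZint.bdd_mul hF.aestronglyMeasurable (Filter.Eventually.of_forall fun t => hK t)
  rw [integral_add hi1 (integrable_const K)] at e1
  have e2 : ∫ t, (F t + K) * Zf G θ Λ t ∂(infinitePi (fun _ : V => siteL j r)) =
      (∫ t, F t * Zf G θ Λ t ∂(infinitePi (fun _ : V => siteL j r))) +
      K * ∫ t, Zf G θ Λ t ∂(infinitePi (fun _ : V => siteL j r)) := by
    rw [← integral_const_mul, ← integral_add hFZ (hZint.const_mul K)]
    apply integral_congr_ae
    filter_upwards with t
    ring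
  rw [e2] at e1
  have e3 : ∫ t, Zf G θ Λ t ∂(infinitePi (fun _ : V => siteL j r)) = 1 := by
    simp only [one_mul] at e0
    rw [← e0]
    simp
  rw [e3] at e1
  simp at e1
  linarith

end Samp

/-- exact law of the tilts (`Zf` needs normalisation: `Λ` induces a forest) -/
theorem law_fin {q : ℕ} {θ : ℝ} (h0 : 0 ≤ θ) (h1 : θ < 1) (Λ : Finset (W q)) (j : ℕ) {r : ℝ}
    (hr0 : 0 ≤ r) (hr : r ≤ 1) (F : (W q → ℝ) → ℝ) (hF : Measurable F) (hFb : ∃ K, ∀ t, |F t| ≤ K)
    (hFd : ∀ t t' : W q → ℝ, (∀ v ∈ Λ, t v = t' v) → F t = F t') :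
    ∫ ω, F (st (WG q) θ Λ ω j r) ∂(labP (W q))
      = ∫ t, F t * Zf (WG q) θ Λ t ∂(Measure.infinitePi (fun _ : W q => siteL j r)) :=
  Samp.law_gen (WG q) h0 h1 Λ (Zf_zero h0 h1 Λ) j hr0 hr F hF hFb hFd

end Crest.Agent.FreeIs
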