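import Crest.Agent.FreeIs.FinalDefs
import Crest.Agent.FreeIs.GibbsNat
import Crest.Agent.FreeIs.Decouple
import Crest.Agent.FreeIs.Samp14

/-! S0241, module F3: the averaged finite volume Gibbs measure is the free Ising measure. -/

set_option autoImplicit false
set_option linter.unusedVariables false
set_option linter.unusedSectionVars false

open MeasureTheory

universe u

namespace Crest.Agent.FreeIs

section GenA

variable {V : Type u} [DecidableEq V] (G : SimpleGraph V)

theorem sgB_cases (b : Bool) : sgB b = 1 ∨ sgB b = -1 := by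
  unfold sgB; cases b <;> simp

theorem sgB_sq (b : Bool) : sgB b * sgB b = 1 := by
  rcases sgB_cases b with h | h <;> rw [h] <;> norm_num

theorem gexp_abs_le {θ : ℝ} (h0 : 0 ≤ θ) (h1 : θ < 1) {Λ : Finset V} {t : V → ℝ}
    (ht : ∀ v ∈ Λ, |t v| < 1) (F : Finset V → ℝ) :
    |gexp G θ Λ t F| ≤ gexp G θ Λ t (fun P => |F P|) := by
  have h2 := gexp_mono G h0 h1 ht (F := F) (H := fun P => |F P|) (fun P => le_abs_self _)
  have h3 := gexp_mono G h0 h1 ht (F := fun P => (-1) * F P) (H := fun P => |F P|)
    (fun P => by have := neg_le_abs (F P); linarith)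
  rw [gexp_smul] at h3
  rw [abs_le]; constructor <;> linarith

/-- factor of the indicator of the spin pattern -/
noncomputable def gfac (η : V → Bool) (v : V) (P : Finset V) : ℝ := (1 + sgB (η v) * spin P v) / 2

theorem gfac_cases (η : V → Bool) (v : V) (P : Finset V) : gfac η v P = 0 ∨ gfac η v P = 1 := by
  unfold gfac
  rcases sgB_cases (η v) with h | h <;> rcases spin_cases P v with h' | h' <;> rw [h, h'] <;>
    norm_num

theorem gfac_nonneg (η : V → Bool) (v : V) (P : Finset V) : 0 ≤ gfac η v P := by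
  rcases gfac_cases η v P with h | h <;> rw [h]; norm_num

theorem gfac_le (η : V → Bool) (v : V) (P : Finset V) : gfac η v P ≤ 1 := by
  rcases gfac_cases η v P with h | h <;> rw [h]; norm_num

theorem prod_gfac_mem (η : V → Bool) (S : Finset V) (P : Finset V) :
    0 ≤ ∏ v ∈ S, gfac η v P ∧ ∏ v ∈ S, gfac η v P ≤ 1 :=
  ⟨Finset.prod_nonneg fun v _ => gfac_nonneg η v P,
    Finset.prod_le_one (fun v _ => gfac_nonneg η v P) fun v _ => gfac_le η v P⟩

/-- step (a): the pattern probability is nearly the product -/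
theorem approx_prod {θ : ℝ} (h0 : 0 ≤ θ) (h1 : θ < 1) {Λ : Finset V} {t : V → ℝ}
    (ht : ∀ v ∈ Λ, |t v| < 1) (η : V → Bool) (S : Finset V) (hS : S ⊆ Λ) :
    |gexp G θ Λ t (fun P => ∏ v ∈ S, gfac η v P) / Zf G θ Λ t
        - ∏ v ∈ S, ((1 + sgB (η v) * mag G θ Λ t v) / 2)|
      ≤ ∑ v ∈ S, (1 - mag G θ Λ t v ^ 2) / 2 := by
  have hZ := Zf_pos G h0 h1 ht
  induction S using Finset.induction_on with
  | empty =>
    simp only [Finset.prod_empty, Finset.sum_empty]
    have : gexp G θ Λ t (fun _ => (1 : ℝ)) = Zf G θ Λ t := rfl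
    rw [this, div_self hZ.ne', sub_self, abs_zero]
  | insert a S ha ih =>
    have haΛ : a ∈ Λ := hS (Finset.mem_insert_self a S)
    have ih' := ih (fun x hx => hS (Finset.mem_insert_of_mem hx))
    have hm := mag_lt G h0 h1 ht a
    have hml := abs_lt.1 hm
    set m := mag G θ Λ t a with hmdef
    set p := (1 + sgB (η a) * m) / 2 with hp
    have hp0 : 0 ≤ p ∧ p ≤ 1 := by
      rw [hp]
      rcases sgB_cases (η a) with h | h <;> rw [h] <;> constructor <;> linarith
    have e1 : gexp G θ Λ t (fun P => ∏ v ∈ insert a S, gfac η v P)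
        = gexp G θ Λ t (fun P => (gfac η a P - p) * ∏ v ∈ S, gfac η v P)
          + p * gexp G θ Λ t (fun P => ∏ v ∈ S, gfac η v P) := by
      rw [← gexp_smul, ← gexp_add]
      congr 1
      funext P
      rw [Finset.prod_insert ha]; ring
    rw [Finset.prod_insert ha, Finset.sum_insert ha, e1]
    have e2 : |gexp G θ Λ t (fun P => (gfac η a P - p) * ∏ v ∈ S, gfac η v P)| / Zf G θ Λ t
        ≤ (1 - m ^ 2) / 2 := by
      rw [div_le_iff₀ hZ]
      refine (gexp_abs_le G h0 h1 ht _).trans ?_
      have h3 : gexp G θ Λ t (fun P => |(gfac η a P - p) * ∏ v ∈ S, gfac η v P|)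
          ≤ gexp G θ Λ t (fun P => 1 / 2 * 1 - (m / 2) * spin P a) := by
        apply gexp_mono G h0 h1 ht
        intro P
        have hpr := prod_gfac_mem η S P
        rw [abs_mul, abs_of_nonneg hpr.1]
        have h4 : |gfac η a P - p| = (1 - spin P a * m) / 2 := by
          rw [hp]
          unfold gfac
          rcases sgB_cases (η a) with h | h <;> rcases spin_cases P a with h' | h' <;>
            rw [h, h'] <;>
            first
            | (rw [abs_of_nonneg (by linarith)]; ring)
            | (rw [abs_of_nonpos (by linarith)]; ring)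
        rw [h4]
        have h5 : 0 ≤ (1 - spin P a * m) / 2 := by
          rcases spin_cases P a with h' | h' <;> rw [h'] <;> linarith
        have h6 : (1 - spin P a * m) / 2 * ∏ v ∈ S, gfac η v P ≤ (1 - spin P a * m) / 2 * 1 :=
          mul_le_mul_of_nonneg_left hpr.2 h5
        linarith
      refine h3.trans (le_of_eq ?_)
      rw [gexp_sub, gexp_smul, gexp_smul]
      have h7 : gexp G θ Λ t (fun P => spin P a) = m * Zf G θ Λ t := by
        rw [hmdef, mag_of_mem G haΛ]; field_simp
      have h8 : gexp G θ Λ t (fun _ => (1 : ℝ)) = Zf G θ Λ t := rfl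
      rw [h7, h8]; ring
    have e3 : (gexp G θ Λ t (fun P => (gfac η a P - p) * ∏ v ∈ S, gfac η v P)
          + p * gexp G θ Λ t (fun P => ∏ v ∈ S, gfac η v P)) / Zf G θ Λ t
          - p * ∏ v ∈ S, ((1 + sgB (η v) * mag G θ Λ t v) / 2)
        = gexp G θ Λ t (fun P => (gfac η a P - p) * ∏ v ∈ S, gfac η v P) / Zf G θ Λ t
          + p * (gexp G θ Λ t (fun P => ∏ v ∈ S, gfac η v P) / Zf G θ Λ t
            - ∏ v ∈ S, ((1 + sgB (η v) * mag G θ Λ t v) / 2)) := by
      field_simp
      ring
    rw [e3]
    refine (abs_add_le _ _).trans ?_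
    rw [abs_div, abs_of_pos hZ, abs_mul, abs_of_nonneg hp0.1]
    have e4 : p * |gexp G θ Λ t (fun P => ∏ v ∈ S, gfac η v P) / Zf G θ Λ t
            - ∏ v ∈ S, ((1 + sgB (η v) * mag G θ Λ t v) / 2)|
        ≤ 1 * ∑ v ∈ S, (1 - mag G θ Λ t v ^ 2) / 2 :=
      mul_le_mul hp0.2 ih' (abs_nonneg _) (by norm_num)
    linarith

/-- averaging the linear statistics of independent centred tilts -/
theorem integral_prod_lin {π : Measure ℝ} {τ : ℝ} (hπ : SiteLaw π τ) (Λ : Finset V)
    (s : V → ℝ) (hs : ∀ v, |s v| = 1) :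
    ∫ t, ∏ v ∈ Λ, (1 + t v * s v) ∂(Measure.infinitePi fun _ : V => π) = 1 := by
  have := hπ.prob
  have hae : ∀ᵐ t ∂(Measure.infinitePi fun _ : V => π), ∀ v ∈ Λ, |t v| < 1 :=
    Samp.ae_infinitePi_lt hπ Λ
  have hpos : ∀ t : V → ℝ, (∀ v ∈ Λ, |t v| < 1) → ∀ v ∈ Λ, 0 ≤ 1 + t v * s v := by
    intro t ht v hv
    have h1 : |t v * s v| < 1 := by rw [abs_mul, hs, mul_one]; exact ht v hv
    linarith [(abs_lt.1 h1).1]
  have hm : Measurable fun t : V → ℝ => ∏ v ∈ Λ, (1 + t v * s v) := by
    refine Finset.measurable_fun_prod _ fun v _ => ?_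
    exact ((measurable_pi_apply v).mul_const _).const_add _
  rw [integral_eq_lintegral_of_nonneg_ae _ hm.aestronglyMeasurable]
  · have e1 : ∫⁻ t, ENNReal.ofReal (∏ v ∈ Λ, (1 + t v * s v)) ∂(Measure.infinitePi fun _ : V => π)
        = ∫⁻ t, ∏ v ∈ Λ, ENNReal.ofReal (1 + t v * s v) ∂(Measure.infinitePi fun _ : V => π) := by
      apply lintegral_congr_ae
      filter_upwards [hae] with t ht
      rw [ENNReal.ofReal_prod_of_nonneg (hpos t ht)]
    rw [e1, Samp.lintegral_prod_fun π Λ (fun v y => ENNReal.ofReal (1 + y * s v))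
      (fun v => ((measurable_id.mul_const _).const_add _).ennreal_ofReal)]
    have e2 : ∀ v, ∫⁻ y, ENNReal.ofReal (1 + y * s v) ∂π = 1 := by
      intro v
      have hi : Integrable (fun y : ℝ => 1 + y * s v) π := by
        apply hπ.integrable ((measurable_id.mul_const _).const_add _) (K := 2)
        intro y hy
        have h1 : |y * s v| ≤ 1 := by
          rw [abs_mul, hs, mul_one]; exact hy.trans hπ.lt.le
        have := abs_le.1 h1
        show |1 + y * s v| ≤ 2
        rw [abs_le]; constructor <;> linarith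
      rw [← ofReal_integral_eq_lintegral_ofReal hi]
      · rw [integral_add (integrable_const _), integral_mul_const, hπ.integral_id]
        · simp
        · apply hπ.integrable (measurable_id.mul_const _) (K := 1)
          intro y hy
          rw [abs_mul, hs, mul_one]; exact hy.trans hπ.lt.le
      · filter_upwards [hπ.supp] with y hy
        have h1 : |y * s v| ≤ 1 := by
          rw [abs_mul, hs, mul_one]; exact hy.trans hπ.lt.le
        show 0 ≤ 1 + y * s v
        linarith [(abs_le.1 h1).1]
    rw [Finset.prod_eq_one fun v _ => e2 v]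
    simp
  · filter_upwards [hae] with t ht
    exact Finset.prod_nonneg (hpos t ht)

theorem integral_gexp {π : Measure ℝ} {τ : ℝ} (hπ : SiteLaw π τ) (θ : ℝ) (Λ : Finset V)
    (F : Finset V → ℝ) :
    ∫ t, gexp G θ Λ t F ∂(Measure.infinitePi fun _ : V => π) = gexp G θ Λ (fun _ => 0) F := by
  have := hπ.prob
  have hi : ∀ P : Finset V, Integrable (fun t : V → ℝ => ∏ v ∈ Λ, (1 + t v * spin P v))
      (Measure.infinitePi fun _ : V => π) := by
    intro P
    have hm : Measurable fun t : V → ℝ => ∏ v ∈ Λ, (1 + t v * spin P v) := by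
      refine Finset.measurable_fun_prod _ fun v _ => ?_
      exact ((measurable_pi_apply v).mul_const _).const_add _
    refine Integrable.of_bound hm.aestronglyMeasurable (2 ^ Λ.card) ?_
    filter_upwards [Samp.ae_infinitePi_lt hπ Λ] with t ht
    rw [Real.norm_eq_abs, Finset.abs_prod, ← Finset.prod_const]
    refine Finset.prod_le_prod (fun _ _ => abs_nonneg _) fun v hv => ?_
    have h1 : |t v * spin P v| ≤ 1 := by rw [abs_mul, spin_abs, mul_one]; exact (ht v hv).le
    have := abs_le.1 h1
    rw [abs_le]; constructor <;> linarith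
  unfold gexp
  rw [integral_const_mul, integral_finsetSum]
  · congr 1
    apply Finset.sum_congr rfl
    intro P _
    rw [integral_const_mul]
    congr 1
    simp only [wt_eq]
    rw [integral_const_mul, integral_prod_lin hπ Λ (spin P) (spin_abs P)]
    simp
  · intro P _
    apply Integrable.const_mul
    simp only [wt_eq]
    exact (hi P).const_mul _

end GenA

section Tree

variable {q : ℕ}

open Crest.ProbabilityR.TreeIsing

theorem isingWeight_eq (θ : ℝ) (S : Finset (W q)) (η : W q → Bool) :
    isingWeight (WG q) θ S η = (1 / 2) * ∏ e ∈ Eg (WG q) S,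
      (if (Sym2.map η e).IsDiag then (1 + θ) / 2 else (1 - θ) / 2) := by
  unfold isingWeight Eg
  congr 1

/-- prefix closedness of connected sets containing the root -/
theorem parent_mem {S : Finset (W q)} (hr : wroot q ∈ S)
    (hc : ((WG q).induce (S : Set (W q))).Connected) {u w : W q} {a : Fin (q + 1)}
    (hw : w.1 = u.1 ++ [a]) (hwS : w ∈ S) : u ∈ S := by
  obtain ⟨p⟩ := hc.preconnected ⟨w, hwS⟩ ⟨wroot q, hr⟩
  have h1 : (⟨w, hwS⟩ : (S : Set (W q))) ∈ {x : (S : Set (W q)) | w.1 <+: x.1.1} := by
    simp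
  have h2 : (⟨wroot q, hr⟩ : (S : Set (W q))) ∉ {x : (S : Set (W q)) | w.1 <+: x.1.1} := by
    simp only [Set.mem_ofPred_eq]
    apply not_prefix_of_len
    rw [hw]
    simp [wroot]
  obtain ⟨d, _, hd1, hd2⟩ := p.exists_boundary_dart _ h1 h2
  have hadj : (WG q).Adj d.snd.1 d.fst.1 := by
    have := d.adj
    simp only [SimpleGraph.comap_adj, Function.Embedding.subtype_apply] at this
    exact this.symm
  have := cross_aux (v := u) hw hd2 hd1 hadj
  have h3 := d.snd.2
  rw [this.1] at h3
  exact h3

/-- recursion in `S` -/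
theorem gexp_self {θ : ℝ} (h0 : 0 ≤ θ) (h1 : θ < 1) (η : W q → Bool) (n : ℕ) :
    ∀ S : Finset (W q), S.card = n → wroot q ∈ S →
    (∀ (u w : W q) (a : Fin (q + 1)), w.1 = u.1 ++ [a] → w ∈ S → u ∈ S) →
    gexp (WG q) θ S (fun _ => 0) (fun P => ∏ v ∈ S, gfac η v P) = isingWeight (WG q) θ S η := by
  induction n with
  | zero =>
    intro S hS hr
    rw [Finset.card_eq_zero] at hS
    subst hS
    exact absurd hr (Finset.notMem_empty _)
  | succ n ih =>
    intro S hS hr hcl
    obtain ⟨w, hw, hmax⟩ := Finset.exists_max_image S (fun w => w.1.length) ⟨_, hr⟩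
    by_cases hroot : w = wroot q
    · -- only the root
      have hSr : S = {wroot q} := by
        ext x
        rw [Finset.mem_singleton]
        constructor
        · intro hx
          have := hmax x hx
          rw [hroot] at this
          exact root_of_len (Nat.le_zero.1 this)
        · rintro rfl; exact hr
      rw [hSr]
      have hE : Eg (WG q) {wroot q} = ∅ := by
        rw [Finset.eq_empty_iff_forall_notMem]
        intro e he
        induction e using Sym2.ind with
        | _ x y =>
          rw [mem_Eg, Finset.mem_singleton, Finset.mem_singleton] at he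
          obtain ⟨rfl, rfl, h⟩ := he
          exact (WG q).loopless.irrefl _ h
      rw [isingWeight_eq, hE]
      have hwt : ∀ P, wt (WG q) θ {wroot q} (fun _ => 0) P = 1 := by
        intro P
        rw [wt_eq, hE]
        simp
      have hp : ({wroot q} : Finset (W q)).powerset = {∅, {wroot q}} := by
        ext P
        rw [Finset.mem_powerset, Finset.subset_singleton_iff, Finset.mem_insert,
          Finset.mem_singleton]
      have hne : (∅ : Finset (W q)) ≠ {wroot q} := (Finset.singleton_ne_empty _).symm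
      unfold gexp
      rw [hp, Finset.sum_pair hne, hwt, hwt]
      simp only [Finset.prod_singleton, Finset.card_singleton, Finset.prod_empty]
      unfold gfac spin
      simp
      ring
    · obtain ⟨u, a, hwu⟩ := concat_of_ne_root hroot
      have huS : u ∈ S := hcl u w a hwu hw
      have huw : u ≠ w := by
        intro h
        have := len_of_concat hwu
        rw [h] at this
        omega
      set A := S.erase w with hA
      have huA : u ∈ A := Finset.mem_erase.2 ⟨huw, huS⟩
      have hrA : wroot q ∈ A := Finset.mem_erase.2 ⟨fun h => hroot h.symm, hr⟩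
      have hSA : S = A ∪ {w} := by
        rw [Finset.union_comm, ← Finset.insert_eq, hA, Finset.insert_erase hw]
      have hwA : w ∉ A := Finset.notMem_erase w S
      have hd : Disjoint A {w} := by rw [Finset.disjoint_singleton_right]; exact hwA
      have hcut : ∀ x ∈ A, ∀ y ∈ ({w} : Finset (W q)), (WG q).Adj x y → x = u ∧ y = w := by
        intro x hx y hy hxy
        rw [Finset.mem_singleton] at hy
        subst hy
        refine ⟨?_, rfl⟩
        rcases hxy with ⟨b, hb⟩ | ⟨b, hb⟩
        · rw [hwu] at hb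
          exact Subtype.ext (List.append_inj' hb rfl).1.symm
        · exfalso
          have h2 := hmax x (Finset.mem_of_mem_erase hx)
          rw [hb] at h2
          simp at h2
      have hclA : ∀ (u w' : W q) (a : Fin (q + 1)), w'.1 = u.1 ++ [a] → w' ∈ A → u ∈ A := by
        intro u' w' a' hw' hw'A
        refine Finset.mem_erase.2 ⟨?_, hcl u' w' a' hw' (Finset.mem_of_mem_erase hw'A)⟩
        intro h
        have h2 := hmax w' (Finset.mem_of_mem_erase hw'A)
        have h3 := len_of_concat hw'
        rw [h] at h3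
        omega
      have hcard : A.card = n := by
        rw [hA, Finset.card_erase_of_mem hw, hS]; rfl
      have hIH := ih A hcard hrA hclA
      have hF : ∀ P : Finset (W q), (fun P : Finset (W q) => ∏ v ∈ A, gfac η v P) P
          = (fun P : Finset (W q) => ∏ v ∈ A, gfac η v P) (P ∩ A) := by
        intro P
        apply Finset.prod_congr rfl
        intro v hv
        unfold gfac
        rw [spin_inter hv]
      have hH : ∀ P : Finset (W q), (fun P : Finset (W q) => gfac η w P) P
          = (fun P : Finset (W q) => gfac η w P) (P ∩ {w}) := by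
        intro P
        show gfac η w P = gfac η w (P ∩ {w})
        unfold gfac
        rw [spin_inter (Finset.mem_singleton_self w)]
      have key := gexp_cut (WG q) (θ := θ) hd huA (Finset.mem_singleton_self w) (adj_concat hwu)
        hcut (fun _ => 0) (fun P => ∏ v ∈ A, gfac η v P) (fun P => gfac η w P) hF hH
      have e0 : gexp (WG q) θ S (fun _ => 0) (fun P => ∏ v ∈ S, gfac η v P)
          = gexp (WG q) θ (A ∪ {w}) (fun _ => 0)
            (fun P => (∏ v ∈ A, gfac η v P) * gfac η w P) := by
        conv_lhs => rw [hSA]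
        congr 1
        funext P
        rw [Finset.prod_union hd, Finset.prod_singleton]
      rw [e0, key]
      have hZ1 := (Zf_singleton θ (fun _ => 0) w).1
      have hone : gexp (WG q) θ {w} (fun _ => 0) (fun _ => (1 : ℝ)) = 1 := hZ1
      have hspin : gexp (WG q) θ {w} (fun _ => 0) (fun P => spin P w) = 0 := by
        have h2 := (Zf_singleton θ (fun _ => 0) w).2
        rw [mag_of_mem (WG q) (Finset.mem_singleton_self w), hZ1, div_one] at h2
        exact h2
      have e1 : gexp (WG q) θ {w} (fun _ => 0) (fun P => gfac η w P) = 1 / 2 := by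
        have : (fun P : Finset (W q) => gfac η w P)
            = fun P => 1 / 2 * 1 + (sgB (η w) / 2) * spin P w := by
          funext P; unfold gfac; ring
        rw [this, gexp_add, gexp_smul, gexp_smul, hone, hspin]; ring
      have e2 : gexp (WG q) θ {w} (fun _ => 0) (fun P => gfac η w P * spin P w)
          = sgB (η w) / 2 := by
        have : (fun P : Finset (W q) => gfac η w P * spin P w)
            = fun P => (sgB (η w) / 2) * 1 + 1 / 2 * spin P w := by
          funext P; unfold gfac
          have := spin_sq P w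
          linear_combination (sgB (η w) / 2) * this
        rw [this, gexp_add, gexp_smul, gexp_smul, hone, hspin]; ring
      have e3 : gexp (WG q) θ A (fun _ => 0) (fun P => (∏ v ∈ A, gfac η v P) * spin P u)
          = sgB (η u) * gexp (WG q) θ A (fun _ => 0) (fun P => ∏ v ∈ A, gfac η v P) := by
        rw [← gexp_smul]
        congr 1
        funext P
        rw [← Finset.mul_prod_erase A (fun v => gfac η v P) huA]
        have h4 : gfac η u P * spin P u = sgB (η u) * gfac η u P := by
          unfold gfac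
          have h5 := spin_sq P u
          have h6 := sgB_sq (η u)
          linear_combination (sgB (η u) / 2) * h5 - (spin P u / 2) * h6
        linear_combination (∏ x ∈ A.erase u, gfac η x P) * h4
      rw [e1, e2, e3, hIH]
      rw [isingWeight_eq, isingWeight_eq]
      have hE : Eg (WG q) S = insert s(u, w) (Eg (WG q) A) := by
        have h5 := Eg_cut (WG q) hd huA (Finset.mem_singleton_self w) (adj_concat hwu) hcut
        have hEw : Eg (WG q) {w} = ∅ := by
          rw [Finset.eq_empty_iff_forall_notMem]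
          intro e he
          induction e using Sym2.ind with
          | _ x y =>
            rw [mem_Eg, Finset.mem_singleton, Finset.mem_singleton] at he
            obtain ⟨rfl, rfl, h⟩ := he
            exact (WG q).loopless.irrefl _ h
        rw [hEw, Finset.union_empty] at h5
        rw [← h5, ← hSA]
      have hnot : s(u, w) ∉ Eg (WG q) A := by
        rw [mem_Eg]
        rintro ⟨_, h, _⟩
        exact hwA h
      rw [hE, Finset.prod_insert hnot]
      have hfac : (if (Sym2.map η s(u, w)).IsDiag then (1 + θ) / 2 else (1 - θ) / 2)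
          = (1 + θ * (sgB (η u) * sgB (η w))) / 2 := by
        rw [Sym2.map_mk]
        simp only [Sym2.mk_isDiag_iff]
        unfold sgB
        by_cases h : η u = η w
        · rw [if_pos h, h]
          cases η w <;> simp
        · rw [if_neg h]
          have h2 : (if η u then (1:ℝ) else -1) * (if η w then 1 else -1) = -1 := by
            revert h
            cases η u <;> cases η w <;> simp
          rw [h2]; ring
      rw [hfac]
      ring

/-- removal of the vertices outside `S` -/
theorem gexp_outside {θ : ℝ} (h0 : 0 ≤ θ) (h1 : θ < 1) (η : W q → Bool) (S : Finset (W q))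
    (hcl : ∀ (u w : W q) (a : Fin (q + 1)), w.1 = u.1 ++ [a] → w ∈ S → u ∈ S) (n : ℕ) :
    ∀ Λ : Finset (W q), (Λ \ S).card = n → S ⊆ Λ →
    gexp (WG q) θ Λ (fun _ => 0) (fun P => ∏ v ∈ S, gfac η v P)
      = gexp (WG q) θ S (fun _ => 0) (fun P => ∏ v ∈ S, gfac η v P) := by
  induction n with
  | zero =>
    intro Λ hΛ hS
    rw [Finset.card_eq_zero, Finset.sdiff_eq_empty_iff_subset] at hΛ
    rw [Finset.Subset.antisymm hΛ hS]
  | succ n ih =>
    intro Λ hΛ hS
    have hne : (Λ \ S).Nonempty := by
      rw [← Finset.card_pos, hΛ]; omega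
    obtain ⟨w, hw, hmax⟩ := Finset.exists_max_image (Λ \ S) (fun w => w.1.length) hne
    obtain ⟨hwΛ, hwS⟩ := Finset.mem_sdiff.1 hw
    set A := Λ.erase w with hA
    have hΛA : Λ = A ∪ {w} := by
      rw [Finset.union_comm, ← Finset.insert_eq, hA, Finset.insert_erase hwΛ]
    have hwA : w ∉ A := Finset.notMem_erase w Λ
    have hd : Disjoint A {w} := by rw [Finset.disjoint_singleton_right]; exact hwA
    have hSA : S ⊆ A := by
      intro x hx
      exact Finset.mem_erase.2 ⟨fun h => hwS (h ▸ hx), hS hx⟩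
    have hcard : (A \ S).card = n := by
      have : A \ S = (Λ \ S).erase w := by
        ext x
        simp only [hA, Finset.mem_sdiff, Finset.mem_erase]
        tauto
      rw [this, Finset.card_erase_of_mem hw, hΛ]; rfl
    have hIH := ih A hcard hSA
    have hpar : ∀ x ∈ A, (WG q).Adj x w → ∃ b, w.1 = x.1 ++ [b] := by
      intro x hx hxw
      rcases hxw with h | ⟨b, hb⟩
      · exact h
      · exfalso
        have hxS : x ∉ S := fun h => hwS (hcl w x b hb h)
        have h2 := hmax x (Finset.mem_sdiff.2 ⟨Finset.mem_of_mem_erase hx, hxS⟩)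
        rw [hb] at h2
        simp at h2
    have hF : ∀ P : Finset (W q), (fun P : Finset (W q) => ∏ v ∈ S, gfac η v P) P
        = (fun P : Finset (W q) => ∏ v ∈ S, gfac η v P) (P ∩ A) := by
      intro P
      apply Finset.prod_congr rfl
      intro v hv
      unfold gfac
      rw [spin_inter (hSA hv)]
    have hZ1 := (Zf_singleton θ (fun _ => 0) w).1
    have hone : gexp (WG q) θ {w} (fun _ => 0) (fun _ => (1 : ℝ)) = 1 := hZ1
    have hspin : gexp (WG q) θ {w} (fun _ => 0) (fun P => spin P w) = 0 := by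
      have h2 := (Zf_singleton θ (fun _ => 0) w).2
      rw [mag_of_mem (WG q) (Finset.mem_singleton_self w), hZ1, div_one] at h2
      exact h2
    have e0 : gexp (WG q) θ Λ (fun _ => 0) (fun P => ∏ v ∈ S, gfac η v P)
        = gexp (WG q) θ (A ∪ {w}) (fun _ => 0)
          (fun P => (∏ v ∈ S, gfac η v P) * (fun _ => (1 : ℝ)) P) := by
      conv_lhs => rw [hΛA]
      congr 1
      funext P
      rw [mul_one]
    rw [e0, ← hIH]
    by_cases hex : ∃ u ∈ A, (WG q).Adj u w
    · obtain ⟨u, huA, hadj⟩ := hex
      obtain ⟨a, hwu⟩ := hpar u huA hadj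
      have hcut : ∀ x ∈ A, ∀ y ∈ ({w} : Finset (W q)), (WG q).Adj x y → x = u ∧ y = w := by
        intro x hx y hy hxy
        rw [Finset.mem_singleton] at hy
        subst hy
        refine ⟨?_, rfl⟩
        obtain ⟨b, hb⟩ := hpar x hx hxy
        rw [hwu] at hb
        exact Subtype.ext (List.append_inj' hb rfl).1.symm
      rw [gexp_cut (WG q) (θ := θ) hd huA (Finset.mem_singleton_self w) hadj
        hcut (fun _ => 0) (fun P => ∏ v ∈ S, gfac η v P) (fun _ => 1) hF (fun _ => rfl)]
      simp only [one_mul]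
      rw [hone, hspin]
      ring
    · push Not at hex
      rw [gexp_nocut (WG q) (θ := θ) hd (by
        intro x hx y hy
        rw [Finset.mem_singleton] at hy
        subst hy
        exact hex x hx) (fun _ => 0) (fun P => ∏ v ∈ S, gfac η v P) (fun _ => 1) hF
        (fun _ => rfl), hone, mul_one]

theorem gexp_ising {θ : ℝ} (h0 : 0 ≤ θ) (h1 : θ < 1) (Λ S : Finset (W q)) (hS : S ⊆ Λ)
    (hr : wroot q ∈ S) (hc : ((WG q).induce (S : Set (W q))).Connected) (η : W q → Bool) :
    gexp (WG q) θ Λ (fun _ => 0) (fun P => ∏ v ∈ S, gfac η v P) = isingWeight (WG q) θ S η := by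
  have hcl : ∀ (u w : W q) (a : Fin (q + 1)), w.1 = u.1 ++ [a] → w ∈ S → u ∈ S :=
    fun u w a hw hwS => parent_mem hr hc hw hwS
  rw [gexp_outside h0 h1 η S hcl _ Λ rfl hS, gexp_self h0 h1 η _ S rfl hr hcl]

open Classical in
theorem ising_fin {q : ℕ} {θ : ℝ} (h0 : 0 ≤ θ) (h1 : θ < 1) (Λ S : Finset (W q)) (hS : S ⊆ Λ)
    (hr : wroot q ∈ S) (hc : ((WG q).induce (S : Set (W q))).Connected) (η : W q → Bool) (j : ℕ) :
    |(∫ ω, ∏ v ∈ S, ((1 + sgB (η v) * Mf (WG q) θ Λ ω j 1 v) / 2) ∂(labP (W q)))
        - Crest.ProbabilityR.TreeIsing.isingWeight (WG q) θ S η|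
      ≤ ∑ v ∈ S, ∫ ω, (1 - (Mf (WG q) θ Λ ω j 1 v) ^ 2) ∂(labP (W q)) := by
  have hPr : IsProbabilityMeasure (labP (W q)) := Samp.labP_prob _
  have hθ : |θ| < 1 := by rw [abs_of_nonneg h0]; exact h1
  obtain ⟨τ, hτ⟩ := site_law j
  have hsl := hτ 1 zero_le_one le_rfl
  have := hsl.prob
  obtain ⟨τ', hτ0, hτ1, hst⟩ := st_bound j
  have hstc : ∀ ω : Lab (W q), ∀ v ∈ Λ, |st (WG q) θ Λ ω j 1 v| < 1 := fun ω v _ =>
    (hst (W q) (WG q) θ h0 h1 Λ ω 1 le_rfl v).trans_lt hτ1
  set X : Finset (W q) → ℝ := fun P => ∏ v ∈ S, gfac η v P with hX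
  -- the conditional probability of the pattern, truncated to the cube
  set C : Set (W q → ℝ) := {t | ∀ v ∈ Λ, |t v| < 1} with hC
  have hCm : MeasurableSet C := by
    have : C = ⋂ v ∈ Λ, {t : W q → ℝ | |t v| < 1} := by
      ext t; simp [hC]
    rw [this]
    refine Finset.measurableSet_biInter _ fun v _ => ?_
    exact measurableSet_lt ((measurable_pi_apply v).abs) measurable_const
  set F : (W q → ℝ) → ℝ := C.indicator
    (fun t => gexp (WG q) θ Λ t X / Zf (WG q) θ Λ t) with hF
  have hFm : Measurable F := ((measurable_gexp (WG q) θ Λ X).div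
    (measurable_Zf (WG q) θ Λ)).indicator hCm
  have hratio : ∀ t ∈ C, |gexp (WG q) θ Λ t X / Zf (WG q) θ Λ t| ≤ 1 := by
    intro t ht
    have hZ := Zf_pos (WG q) h0 h1 ht
    rw [abs_div, abs_of_pos hZ, div_le_one hZ]
    refine (gexp_abs_le (WG q) h0 h1 ht _).trans ?_
    apply gexp_mono (WG q) h0 h1 ht
    intro P
    have := prod_gfac_mem η S P
    rw [abs_of_nonneg this.1]
    exact this.2
  have hFb : ∀ t, |F t| ≤ 1 := by
    intro t
    by_cases ht : t ∈ C
    · rw [hF, Set.indicator_of_mem ht]; exact hratio t ht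
    · rw [hF, Set.indicator_of_notMem ht]; norm_num
  have hFd : ∀ t t' : W q → ℝ, (∀ v ∈ Λ, t v = t' v) → F t = F t' := by
    intro t t' h
    by_cases ht : t ∈ C
    · have ht' : t' ∈ C := fun v hv => by rw [← h v hv]; exact ht v hv
      rw [hF, Set.indicator_of_mem ht, Set.indicator_of_mem ht', gexp_congr _ θ h, Zf_congr _ θ h]
    · have ht' : t' ∉ C := fun h2 => ht fun v hv => by rw [h v hv]; exact h2 v hv
      rw [hF, Set.indicator_of_notMem ht, Set.indicator_of_notMem ht']
  have hlaw := law_fin h0 h1 Λ j zero_le_one (le_refl (1 : ℝ)) F hFm ⟨1, hFb⟩ hFd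
  have hlaw2 : ∫ t, F t * Zf (WG q) θ Λ t ∂(Measure.infinitePi (fun _ : W q => siteL j 1))
      = isingWeight (WG q) θ S η := by
    rw [← gexp_ising h0 h1 Λ S hS hr hc η, ← integral_gexp (WG q) hsl θ Λ X]
    apply integral_congr_ae
    filter_upwards [Samp.ae_infinitePi_lt hsl Λ] with t ht
    have hZ := Zf_pos (WG q) h0 h1 ht
    rw [hF, Set.indicator_of_mem (show t ∈ C from ht), div_mul_cancel₀ _ hZ.ne']
  rw [hlaw2] at hlaw
  have hFst : ∀ ω, F (st (WG q) θ Λ ω j 1) = gexp (WG q) θ Λ (st (WG q) θ Λ ω j 1) X /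
      Zf (WG q) θ Λ (st (WG q) θ Λ ω j 1) := by
    intro ω
    rw [hF, Set.indicator_of_mem (show st (WG q) θ Λ ω j 1 ∈ C from hstc ω)]
  have hMm : ∀ v, Measurable fun ω : Lab (W q) => Mf (WG q) θ Λ ω j 1 v := fun v =>
    Samp.Mf_measurable (WG q) θ Λ j 1 v
  have hMb : ∀ (ω : Lab (W q)) v, |Mf (WG q) θ Λ ω j 1 v| ≤ 1 := fun ω v =>
    Samp.abs_Mf_le (WG q) hθ Λ ω j le_rfl v
  have hstm : Measurable fun ω : Lab (W q) => st (WG q) θ Λ ω j 1 :=
    Samp.st_measurable (WG q) θ Λ j 1
  have hi1 : Integrable (fun ω => ∏ v ∈ S, ((1 + sgB (η v) * Mf (WG q) θ Λ ω j 1 v) / 2))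
      (labP (W q)) := by
    apply Samp.integrable_bdd (K := 1)
    · refine Finset.measurable_fun_prod _ fun v _ => ?_
      exact (((hMm v).const_mul _).const_add _).div_const _
    · intro ω
      rw [Finset.abs_prod]
      apply Finset.prod_le_one (fun _ _ => abs_nonneg _)
      intro v _
      have h2 := abs_le.1 (hMb ω v)
      rw [abs_le]
      rcases sgB_cases (η v) with h | h <;> rw [h] <;> constructor <;> linarith
  have hi2 : Integrable (fun ω => F (st (WG q) θ Λ ω j 1)) (labP (W q)) :=
    Samp.integrable_bdd (hFm.comp hstm) (fun ω => hFb _)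
  have hi3 : ∀ v ∈ S, Integrable (fun ω => 1 - (Mf (WG q) θ Λ ω j 1 v) ^ 2) (labP (W q)) := by
    intro v _
    apply Samp.integrable_bdd (K := 1)
    · exact ((hMm v).pow_const 2).const_sub _
    · intro ω
      have h2 := abs_le.1 (hMb ω v)
      rw [abs_le]; constructor <;> nlinarith
  rw [← hlaw, ← integral_sub hi1 hi2, ← integral_finsetSum _ hi3]
  refine (abs_integral_le_integral_abs).trans ?_
  apply integral_mono_of_nonneg (Filter.Eventually.of_forall fun ω => abs_nonneg _)
    (integrable_finsetSum _ hi3)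
  apply Filter.Eventually.of_forall
  intro ω
  show |_ - F (st (WG q) θ Λ ω j 1)| ≤ _
  rw [hFst, abs_sub_comm]
  have h5 := approx_prod (WG q) h0 h1 (hstc ω) η S hS
  refine h5.trans ?_
  apply Finset.sum_le_sum
  intro v hv
  have h2 := abs_le.1 (hMb ω v)
  show (1 - Mf (WG q) θ Λ ω j 1 v ^ 2) / 2 ≤ 1 - Mf (WG q) θ Λ ω j 1 v ^ 2
  nlinarith

end Tree

end Crest.Agent.FreeIs
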