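import Crest.Agent.FreeIs.FinalIsing

/-! S0241, module F2: the magnetisations are close to `±1` after many rounds. -/

set_option autoImplicit false
set_option linter.unusedVariables false
set_option linter.unusedSectionVars false

open MeasureTheory

universe u

namespace Crest.Agent.FreeIs

open Site

theorem rho_lt : ∫ t, √(1 - t ^ 2) ∂(obsLaw 1) < 1 := by
  have h := site_obs (le_refl (1 : ℝ))
  have hp := h.prob
  have h2 : ∫ t, √(1 - t ^ 2) ∂(obsLaw 1) ≤ ∫ t, (1 - t ^ 2 / 2) ∂(obsLaw 1) := by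
    refine integral_mono_ae (h.integrable (by fun_prop) (K := 1) fun x hx => ?_)
      (h.integrable (by fun_prop) (K := 1) fun x hx => ?_) ?_
    · rw [abs_of_nonneg (Real.sqrt_nonneg _)]
      exact Real.sqrt_le_one.2 (by nlinarith [sq_nonneg x])
    · have : x ^ 2 ≤ (1 / 2) ^ 2 := sq_le_sq' (abs_le.1 hx).1 (abs_le.1 hx).2
      rw [abs_le]; constructor <;> nlinarith [sq_nonneg x]
    · filter_upwards [h.supp] with t ht
      have : t ^ 2 ≤ (1 / 2) ^ 2 := sq_le_sq' (abs_le.1 ht).1 (abs_le.1 ht).2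
      rw [Real.sqrt_le_iff]
      constructor <;> nlinarith [sq_nonneg t, sq_nonneg (t ^ 2)]
  have h3 : ∫ t, (1 - t ^ 2 / 2) ∂(obsLaw 1) = 1 - (1 / 48) / 2 := by
    rw [integral_sub (integrable_const _) ((h.integrable (by fun_prop) (K := 1) fun x hx => ?_)),
      integral_div]
    · have := obs_mom zero_le_one le_rfl 1 le_rfl
      norm_num at this
      rw [this]
      simp
    · have : x ^ 2 ≤ (1 / 2) ^ 2 := sq_le_sq' (abs_le.1 hx).1 (abs_le.1 hx).2
      rw [abs_le]; constructor <;> nlinarith [sq_nonneg x]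
  linarith

theorem siteS_sqrt (j : ℕ) :
    ∫ t, √(1 - t ^ 2) ∂(siteS j) = (∫ t, √(1 - t ^ 2) ∂(obsLaw 1)) ^ j := by
  induction j with
  | zero => simp [siteS]
  | succ j ih =>
    obtain ⟨τ, hτ⟩ := siteS_law j
    rw [siteS, comb_sqrt hτ (site_obs le_rfl), ih, pow_succ]

section Gen

variable {V : Type u} [DecidableEq V] (G : SimpleGraph V)

theorem integral_gexp_update {π : Measure ℝ} {τ : ℝ} (hπ : SiteLaw π τ) (θ : ℝ) (Λ : Finset V)
    {v : V} (hv : v ∈ Λ) (F : Finset V → ℝ) :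
    Integrable (fun t : V → ℝ => gexp G θ Λ (Function.update t v 0) F)
      (Measure.infinitePi fun _ : V => π) ∧
    ∫ t, gexp G θ Λ (Function.update t v 0) F ∂(Measure.infinitePi fun _ : V => π)
      = gexp G θ Λ (fun _ => 0) F := by
  have := hπ.prob
  have hprod : ∀ (P : Finset V) (t : V → ℝ),
      ∏ w ∈ Λ, (1 + Function.update t v 0 w * spin P w) = ∏ w ∈ Λ.erase v, (1 + t w * spin P w) := by
    intro P t
    rw [← Finset.mul_prod_erase Λ _ hv, Function.update_self, zero_mul, add_zero, one_mul]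
    apply Finset.prod_congr rfl
    intro w hw
    rw [Function.update_of_ne (Finset.ne_of_mem_erase hw)]
  have hi : ∀ P : Finset V, Integrable (fun t : V → ℝ => ∏ w ∈ Λ.erase v, (1 + t w * spin P w))
      (Measure.infinitePi fun _ : V => π) := by
    intro P
    have hm : Measurable fun t : V → ℝ => ∏ w ∈ Λ.erase v, (1 + t w * spin P w) := by
      refine Finset.measurable_fun_prod _ fun w _ => ?_
      exact ((measurable_pi_apply w).mul_const _).const_add _
    refine Integrable.of_bound hm.aestronglyMeasurable (2 ^ (Λ.erase v).card) ?_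
    filter_upwards [Samp.ae_infinitePi_lt hπ Λ] with t ht
    rw [Real.norm_eq_abs, Finset.abs_prod, ← Finset.prod_const]
    refine Finset.prod_le_prod (fun _ _ => abs_nonneg _) fun w hw => ?_
    have h1 : |t w * spin P w| ≤ 1 := by
      rw [abs_mul, spin_abs, mul_one]; exact (ht w (Finset.mem_of_mem_erase hw)).le
    have := abs_le.1 h1
    rw [abs_le]; constructor <;> linarith
  have hterm : ∀ P : Finset V, Integrable (fun t : V → ℝ =>
      F P * wt G θ Λ (Function.update t v 0) P) (Measure.infinitePi fun _ : V => π) := by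
    intro P
    apply Integrable.const_mul
    simp only [wt_eq, hprod]
    exact (hi P).const_mul _
  unfold gexp
  refine ⟨(integrable_finsetSum _ fun P _ => hterm P).const_mul _, ?_⟩
  rw [integral_const_mul, integral_finsetSum _ fun P _ => hterm P]
  congr 1
  apply Finset.sum_congr rfl
  intro P _
  rw [integral_const_mul]
  congr 1
  simp only [wt_eq, hprod]
  rw [integral_const_mul, integral_prod_lin hπ (Λ.erase v) (spin P) (spin_abs P)]
  simp

theorem sqrt_ineq {m x : ℝ} (hm : |m| < 1) (hx : |x| < 1) :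
    (1 - m ^ 2) * (1 - x ^ 2) ≤ √(1 - x ^ 2) * (1 + m * x) := by
  have hx2 : 0 ≤ 1 - x ^ 2 := by nlinarith [sq_abs x, abs_nonneg x]
  have hm2 : 0 ≤ 1 - m ^ 2 := by nlinarith [sq_abs m, abs_nonneg m]
  have hD : 0 < 1 + m * x := by
    have h3 : |m * x| < 1 := by rw [abs_mul]; nlinarith [abs_nonneg m, abs_nonneg x]
    linarith [(abs_lt.1 h3).1]
  set s := √(1 - x ^ 2) with hs
  have hs0 : 0 ≤ s := Real.sqrt_nonneg _
  have hs2 : s ^ 2 = 1 - x ^ 2 := Real.sq_sqrt hx2
  have h1 : ((1 - m ^ 2) * s) ^ 2 ≤ (1 + m * x) ^ 2 := by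
    have e1 : ((1 - m ^ 2) * s) ^ 2 = (1 - m ^ 2) * ((1 - m ^ 2) * s ^ 2) := by ring
    have e2 : (1 - m ^ 2) * ((1 - m ^ 2) * s ^ 2) ≤ 1 * ((1 - m ^ 2) * s ^ 2) := by
      apply mul_le_mul_of_nonneg_right _ (mul_nonneg hm2 (sq_nonneg s))
      nlinarith [sq_nonneg m]
    rw [e1]
    refine e2.trans ?_
    rw [hs2]
    nlinarith [sq_nonneg (m + x)]
  have h2 : (1 - m ^ 2) * s ≤ 1 + m * x := by
    have := abs_le_of_sq_le_sq' h1 hD.le
    exact this.2
  calc (1 - m ^ 2) * (1 - x ^ 2) = s * ((1 - m ^ 2) * s) := by rw [← hs2]; ring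
    _ ≤ s * (1 + m * x) := mul_le_mul_of_nonneg_left h2 hs0

theorem one_sub_sq_le {θ : ℝ} (h0 : 0 ≤ θ) (h1 : θ < 1) {Λ : Finset V} {t : V → ℝ}
    (ht : ∀ v ∈ Λ, |t v| < 1) {v : V} (hv : v ∈ Λ) :
    (1 - mag G θ Λ t v ^ 2) * Zf G θ Λ t
      ≤ Zf G θ Λ (Function.update t v 0) * √(1 - t v ^ 2) := by
  set t0 := Function.update t v 0 with ht0
  have ht0' : ∀ w ∈ Λ, |t0 w| < 1 := by
    intro w hw
    rw [ht0]
    by_cases h : w = v
    · subst h; rw [Function.update_self]; norm_num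
    · rw [Function.update_of_ne h]; exact ht w hw
  have htv : t0 v = 0 := by rw [ht0, Function.update_self]
  have hein : ein (t0 v) (t v) = t v := by rw [htv]; unfold ein; simp
  have hback : Function.update t0 v (ein (t0 v) (t v)) = t := by
    rw [hein, ht0, Function.update_idem, Function.update_eq_self]
  have e1 := Zf_update G h0 h1 ht0' hv (ht v hv)
  have e2 := mag_update G h0 h1 ht0' hv (ht v hv) v
  rw [hback, cov_self G h0 h1 ht0' hv] at e2
  rw [hback, htv, zero_mul, add_zero, mul_one] at e1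
  have hm := mag_lt G h0 h1 ht0' v
  have hZ := Zf_pos G h0 h1 ht0'
  set m := mag G θ Λ t0 v with hmdef
  set x := t v with hx
  have hxl := ht v hv
  have hD : 0 < 1 + m * x := by
    have h3 : |m * x| < 1 := by rw [abs_mul]; nlinarith [abs_nonneg m, abs_nonneg x]
    linarith [(abs_lt.1 h3).1]
  have e3 : (1 - mag G θ Λ t v ^ 2) * (1 + m * x) ^ 2 = (1 - m ^ 2) * (1 - x ^ 2) := by
    rw [e2]
    field_simp
    ring
  have key := sqrt_ineq hm hxl
  rw [e1]
  have e4 : (1 - mag G θ Λ t v ^ 2) * (Zf G θ Λ t0 * (1 + m * x)) * (1 + m * x)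
      ≤ Zf G θ Λ t0 * √(1 - x ^ 2) * (1 + m * x) := by
    calc (1 - mag G θ Λ t v ^ 2) * (Zf G θ Λ t0 * (1 + m * x)) * (1 + m * x)
        = Zf G θ Λ t0 * ((1 - mag G θ Λ t v ^ 2) * (1 + m * x) ^ 2) := by ring
      _ = Zf G θ Λ t0 * ((1 - m ^ 2) * (1 - x ^ 2)) := by rw [e3]
      _ ≤ Zf G θ Λ t0 * (√(1 - x ^ 2) * (1 + m * x)) := mul_le_mul_of_nonneg_left key hZ.le
      _ = _ := by ring
  exact le_of_mul_le_mul_right e4 hD

end Gen

theorem one_sub_sq_fin : ∃ ρ : ℝ, 0 ≤ ρ ∧ ρ < 1 ∧ ∀ (q : ℕ) (θ : ℝ), 0 ≤ θ → θ < 1 →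
    ∀ (Λ : Finset (W q)) (v : W q), v ∈ Λ → ∀ j : ℕ,
    ∫ ω, (1 - (Mf (WG q) θ Λ ω j 1 v) ^ 2) ∂(labP (W q)) ≤ ρ ^ (j + 1) := by
  refine ⟨∫ t, √(1 - t ^ 2) ∂(obsLaw 1), integral_nonneg fun t => Real.sqrt_nonneg _, rho_lt, ?_⟩
  intro q θ h0 h1 Λ v hv j
  have hPr : IsProbabilityMeasure (labP (W q)) := Samp.labP_prob _
  obtain ⟨τ, hτ⟩ := site_law j
  have hsl := hτ 1 zero_le_one le_rfl
  have hprob := hsl.prob
  obtain ⟨τ', hτ0, hτ1, hst⟩ := st_bound j
  have hstc : ∀ ω : Lab (W q), ∀ v ∈ Λ, |st (WG q) θ Λ ω j 1 v| < 1 := fun ω v _ =>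
    (hst (W q) (WG q) θ h0 h1 Λ ω 1 le_rfl v).trans_lt hτ1
  set C : Set (W q → ℝ) := {t | ∀ v ∈ Λ, |t v| < 1} with hC
  have hCm : MeasurableSet C := by
    have : C = ⋂ v ∈ Λ, {t : W q → ℝ | |t v| < 1} := by
      ext t; simp [hC]
    rw [this]
    refine Finset.measurableSet_biInter _ fun v _ => ?_
    exact measurableSet_lt ((measurable_pi_apply v).abs) measurable_const
  set F : (W q → ℝ) → ℝ := C.indicator (fun t => 1 - mag (WG q) θ Λ t v ^ 2) with hF
  have hFm : Measurable F :=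
    (((measurable_mag (WG q) θ Λ v).pow_const 2).const_sub 1).indicator hCm
  have hFb : ∀ t, |F t| ≤ 1 := by
    intro t
    by_cases ht : t ∈ C
    · rw [hF, Set.indicator_of_mem ht]
      have := abs_lt.1 (mag_lt (WG q) h0 h1 ht v)
      rw [abs_le]; constructor <;> nlinarith
    · rw [hF, Set.indicator_of_notMem ht]; norm_num
  have hFd : ∀ t t' : W q → ℝ, (∀ v ∈ Λ, t v = t' v) → F t = F t' := by
    intro t t' h
    by_cases ht : t ∈ C
    · have ht' : t' ∈ C := fun v hv => by rw [← h v hv]; exact ht v hv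
      rw [hF, Set.indicator_of_mem ht, Set.indicator_of_mem ht', mag_congr _ θ h]
    · have ht' : t' ∉ C := fun h2 => ht fun v hv => by rw [h v hv]; exact h2 v hv
      rw [hF, Set.indicator_of_notMem ht, Set.indicator_of_notMem ht']
  have hlaw := law_fin h0 h1 Λ j zero_le_one (le_refl (1 : ℝ)) F hFm ⟨1, hFb⟩ hFd
  have e1 : ∫ ω, (1 - (Mf (WG q) θ Λ ω j 1 v) ^ 2) ∂(labP (W q))
      = ∫ ω, F (st (WG q) θ Λ ω j 1) ∂(labP (W q)) := by
    congr 1
    funext ω
    rw [hF, Set.indicator_of_mem (show st (WG q) θ Λ ω j 1 ∈ C from hstc ω)]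
    rfl
  rw [e1, hlaw]
  -- the comparison
  have hZi := integral_gexp_update (WG q) hsl θ Λ hv (fun _ => (1 : ℝ))
  have hHm : Measurable fun t : W q → ℝ => Zf (WG q) θ Λ (Function.update t v 0) * √(1 - t v ^ 2) := by
    apply Measurable.mul
    · have hup : Measurable fun t : W q → ℝ => Function.update t v 0 := by
        rw [measurable_pi_iff]
        intro w
        by_cases h : w = v
        · subst h; simp only [Function.update_self]; exact measurable_const
        · simp only [Function.update_of_ne h]; exact measurable_pi_apply w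
      exact (measurable_Zf (WG q) θ Λ).comp hup
    · exact (((measurable_pi_apply v).pow_const 2).const_sub 1).sqrt
  have hZint : Integrable (fun t : W q → ℝ => Zf (WG q) θ Λ (Function.update t v 0))
      (Measure.infinitePi fun _ : W q => siteL j 1) := hZi.1
  have hHi : Integrable (fun t : W q → ℝ =>
      Zf (WG q) θ Λ (Function.update t v 0) * √(1 - t v ^ 2))
      (Measure.infinitePi fun _ : W q => siteL j 1) := by
    apply hZint.mul_bdd (c := 1)
    · exact (((measurable_pi_apply v).pow_const 2).const_sub 1).sqrt.aestronglyMeasurable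
    · apply Filter.Eventually.of_forall
      intro t
      rw [Real.norm_eq_abs, abs_of_nonneg (Real.sqrt_nonneg _)]
      exact Real.sqrt_le_one.2 (by nlinarith [sq_nonneg (t v)])
  have hle : ∫ t, F t * Zf (WG q) θ Λ t ∂(Measure.infinitePi (fun _ : W q => siteL j 1))
      ≤ ∫ t, Zf (WG q) θ Λ (Function.update t v 0) * √(1 - t v ^ 2)
        ∂(Measure.infinitePi (fun _ : W q => siteL j 1)) := by
    apply integral_mono_of_nonneg _ hHi
    · filter_upwards [Samp.ae_infinitePi_lt hsl Λ] with t ht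
      rw [hF, Set.indicator_of_mem (show t ∈ C from ht)]
      exact one_sub_sq_le (WG q) h0 h1 ht hv
    · filter_upwards [Samp.ae_infinitePi_lt hsl Λ] with t ht
      have hZ := Zf_pos (WG q) h0 h1 ht
      rw [hF, Set.indicator_of_mem (show t ∈ C from ht)]
      have := abs_lt.1 (mag_lt (WG q) h0 h1 ht v)
      show 0 ≤ (1 - mag (WG q) θ Λ t v ^ 2) * Zf (WG q) θ Λ t
      exact mul_nonneg (by nlinarith) hZ.le
  refine hle.trans (le_of_eq ?_)
  rw [Samp.integral_resample (siteL j 1) v _ hHi]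
  have e2 : ∀ (t : W q → ℝ), ∫ y, Zf (WG q) θ Λ (Function.update (Function.update t v y) v 0) *
      √(1 - (Function.update t v y) v ^ 2) ∂(siteL j 1)
      = Zf (WG q) θ Λ (Function.update t v 0) * ∫ y, √(1 - y ^ 2) ∂(siteL j 1) := by
    intro t
    simp only [Function.update_idem, Function.update_self]
    rw [integral_const_mul]
  simp only [e2]
  rw [integral_mul_const]
  have e3 : ∫ t, Zf (WG q) θ Λ (Function.update t v 0)
      ∂(Measure.infinitePi (fun _ : W q => siteL j 1)) = 1 := by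
    have h2 := hZi.2
    have h3 : gexp (WG q) θ Λ (fun _ => 0) (fun _ => (1 : ℝ)) = 1 := Zf_zero h0 h1 Λ
    rw [h3] at h2
    exact h2
  rw [e3, one_mul]
  exact siteS_sqrt (j + 1)

end Crest.Agent.FreeIs
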