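import Crest.Agent.FreeIs.Defs

/-!
S0241, module M1: the tree of reduced words.
-/

set_option autoImplicit false
set_option linter.unusedVariables false

universe u

namespace Crest.Agent.FreeIs

variable {q : ℕ}

theorem tog_nil (i : Fin (q + 1)) (h : ([] : List (Fin (q + 1))).IsChain (· ≠ ·)) :
    (tog i ⟨[], h⟩).1 = [i] := rfl

theorem tog_cons_eq (i : Fin (q + 1)) (l : List (Fin (q + 1))) (h : (i :: l).IsChain (· ≠ ·)) :
    (tog i ⟨i :: l, h⟩).1 = l := by
  unfold tog
  simp

theorem tog_cons_ne (i a : Fin (q + 1)) (l : List (Fin (q + 1))) (h : (a :: l).IsChain (· ≠ ·))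
    (ha : a ≠ i) : (tog i ⟨a :: l, h⟩).1 = i :: a :: l := by
  unfold tog
  simp [ha]

theorem tog_tog (i : Fin (q + 1)) (w : W q) : tog i (tog i w) = w := by
  obtain ⟨l, h⟩ := w
  match l, h with
  | [], h =>
    apply Subtype.ext
    exact tog_cons_eq i [] _
  | a :: l, h =>
    apply Subtype.ext
    by_cases ha : a = i
    · subst ha
      match l, h with
      | [], h =>
        have : tog a ⟨[a], h⟩ = ⟨[], h.tail⟩ := Subtype.ext (tog_cons_eq a [] h)
        rw [this]
        rfl
      | b :: l, h =>
        have h1 : tog a ⟨a :: b :: l, h⟩ = ⟨b :: l, h.tail⟩ := Subtype.ext (tog_cons_eq a _ h)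
        rw [h1]
        have hb : b ≠ a := (List.isChain_cons_cons.1 h).1.symm
        exact tog_cons_ne a b l _ hb
    · have h1 : tog i ⟨a :: l, h⟩ = ⟨i :: a :: l, List.isChain_cons_cons.2 ⟨Ne.symm ha, h⟩⟩ :=
        Subtype.ext (tog_cons_ne i a l h ha)
      rw [h1]
      exact tog_cons_eq i _ _

theorem tog_adj_aux (i : Fin (q + 1)) (u v : W q) (a : Fin (q + 1)) (h : v.1 = u.1 ++ [a]) :
    (WG q).Adj (tog i u) (tog i v) := by
  obtain ⟨l, hl⟩ := u
  obtain ⟨l', hl'⟩ := v
  dsimp only at h
  subst h
  match l, hl, hl' with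
  | [], hl, hl' =>
    by_cases ha : a = i
    · subst ha
      refine Or.inr ⟨a, ?_⟩
      rw [tog_nil]
      have : (tog a ⟨[] ++ [a], hl'⟩).1 = [] := tog_cons_eq a [] hl'
      rw [this]
      rfl
    · refine Or.inl ⟨a, ?_⟩
      rw [tog_nil]
      exact tog_cons_ne i a [] hl' ha
  | b :: l, hl, hl' =>
    by_cases hb : b = i
    · subst hb
      refine Or.inl ⟨a, ?_⟩
      rw [tog_cons_eq]
      exact tog_cons_eq b (l ++ [a]) hl'
    · refine Or.inl ⟨a, ?_⟩
      rw [tog_cons_ne i b l hl hb]
      exact tog_cons_ne i b (l ++ [a]) hl' hb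

theorem tog_adj_of (i : Fin (q + 1)) (u v : W q) (h : (WG q).Adj u v) :
    (WG q).Adj (tog i u) (tog i v) := by
  rcases h with ⟨a, h⟩ | ⟨a, h⟩
  · exact tog_adj_aux i u v a h
  · exact (tog_adj_aux i v u a h).symm

theorem tog_adj (i : Fin (q + 1)) (u v : W q) :
    (WG q).Adj (tog i u) (tog i v) ↔ (WG q).Adj u v := by
  refine ⟨fun h => ?_, tog_adj_of i u v⟩
  have := tog_adj_of i _ _ h
  rwa [tog_tog, tog_tog] at this

theorem tr_root_aux (l : List (Fin (q + 1))) (h : l.IsChain (· ≠ ·)) :
    tr l (wroot q) = ⟨l, h⟩ := by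
  induction l with
  | nil => rfl
  | cons a l ih =>
    show tog a (tr l (wroot q)) = _
    rw [ih h.tail]
    apply Subtype.ext
    match l, h with
    | [], h => rfl
    | b :: l, h => exact tog_cons_ne a b l _ (List.isChain_cons_cons.1 h).1.symm

theorem tr_root (w : W q) : tr w.1 (wroot q) = w := tr_root_aux w.1 w.2

theorem tog_len (i : Fin (q + 1)) (w : W q) : (tog i w).1.length ≤ w.1.length + 1 := by
  obtain ⟨l, h⟩ := w
  match l, h with
  | [], h => simp [tog_nil]
  | a :: l, h =>
    by_cases ha : a = i
    · subst ha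
      rw [tog_cons_eq]
      simp
      omega
    · rw [tog_cons_ne i a l h ha]
      simp

theorem adj_len {u v : W q} (h : (WG q).Adj u v) : v.1.length ≤ u.1.length + 1 := by
  rcases h with ⟨a, h⟩ | ⟨a, h⟩
  · rw [h]; simp
  · rw [h]; simp; omega

theorem eq_root_of_len {w : W q} (h : w.1.length = 0) : w = wroot q :=
  Subtype.ext (List.length_eq_zero_iff.1 h)

/-- the parent of a nonroot word -/
theorem exists_parent {w : W q} (h : w ≠ wroot q) : ∃ (u : W q) (a : Fin (q + 1)),
    w.1 = u.1 ++ [a] := by
  have h1 : w.1 ≠ [] := fun h' => h (Subtype.ext h')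
  have h2 := List.dropLast_append_getLast h1
  refine ⟨⟨w.1.dropLast, ?_⟩, w.1.getLast h1, h2.symm⟩
  have := w.2
  rw [← h2] at this
  exact (List.isChain_append.1 this).1

theorem aut_len_le (n : ℕ) : ∀ (g : WG q ≃g WG q), g (wroot q) = wroot q → ∀ w : W q,
    w.1.length = n → (g w).1.length ≤ n := by
  induction n with
  | zero =>
    intro g hg w hw
    rw [eq_root_of_len hw, hg]
    simp [wroot]
  | succ n ih =>
    intro g hg w hw
    have hne : w ≠ wroot q := by
      intro h
      rw [h] at hw
      simp [wroot] at hw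
    obtain ⟨u, a, hu⟩ := exists_parent hne
    have hlu : u.1.length = n := by
      have := congrArg List.length hu
      simp at this
      omega
    have h1 := ih g hg u hlu
    have h2 : (WG q).Adj (g u) (g w) := g.map_rel_iff.2 (Or.inl ⟨a, hu⟩)
    have := adj_len h2
    omega

/-- root fixing automorphisms preserve the length -/
theorem aut_len (g : WG q ≃g WG q) (hg : g (wroot q) = wroot q) (w : W q) :
    (g w).1.length = w.1.length := by
  apply le_antisymm
  · exact aut_len_le _ g hg w rfl
  · have h1 : g.symm (wroot q) = wroot q := by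
      rw [← hg]
      exact (g.symm_apply_apply _).trans hg.symm
    have h2 := aut_len_le _ g.symm h1 (g w) rfl
    rwa [g.symm_apply_apply] at h2

theorem tr_append (l l' : List (Fin (q + 1))) (w : W q) : tr (l ++ l') w = tr l (tr l' w) := by
  induction l with
  | nil => rfl
  | cons a l ih =>
    show tog a (tr (l ++ l') w) = _
    rw [ih]
    rfl

theorem tr_reverse_aux (l : List (Fin (q + 1))) (h : l.IsChain (· ≠ ·)) :
    tr l.reverse ⟨l, h⟩ = wroot q := by
  induction l with
  | nil => rfl
  | cons a l ih =>
    rw [List.reverse_cons]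
    refine (tr_append l.reverse [a] ⟨a :: l, h⟩).trans ?_
    have h1 : tr [a] (⟨a :: l, h⟩ : W q) = ⟨l, h.tail⟩ := Subtype.ext (tog_cons_eq a l h)
    exact (congrArg _ h1).trans (ih h.tail)

/-- reversing a path: `tr` of the reversed word maps `w` to the root -/
theorem tr_reverse (w : W q) : tr w.1.reverse w = wroot q := tr_reverse_aux w.1 w.2

open Classical in
/-- reduced words of length `n + 1` as lists -/
noncomputable def sphL (q n : ℕ) : Finset (List (Fin (q + 1))) :=
  (List.finite_length_eq (Fin (q + 1)) (n + 1)).toFinset.filter (fun l => l.IsChain (· ≠ ·))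

theorem mem_sphL {n : ℕ} {l : List (Fin (q + 1))} :
    l ∈ sphL q n ↔ l.length = n + 1 ∧ l.IsChain (· ≠ ·) := by
  unfold sphL
  rw [Finset.mem_filter, Set.Finite.mem_toFinset]
  rfl

open Classical in
theorem card_sphL (n : ℕ) : (sphL q n).card = (q + 1) * q ^ n := by
  induction n with
  | zero =>
    rw [pow_zero, mul_one]
    have h1 : sphL q 0 = (Finset.univ : Finset (Fin (q + 1))).image (fun a => [a]) := by
      ext l
      rw [mem_sphL, Finset.mem_image]
      constructor
      · rintro ⟨h, _⟩
        obtain ⟨a, ha⟩ := List.length_eq_one_iff.1 h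
        exact ⟨a, Finset.mem_univ _, ha.symm⟩
      · rintro ⟨a, _, rfl⟩
        exact ⟨rfl, List.isChain_singleton a⟩
    rw [h1, Finset.card_image_of_injective]
    · simp
    · intro a b h
      simpa using h
  | succ n ih =>
    have h1 := Finset.card_eq_sum_card_fiberwise (s := sphL q (n + 1)) (t := sphL q n)
      (f := fun l => l.tail) (by
        intro l hl
        rw [Finset.mem_coe, mem_sphL] at hl ⊢
        refine ⟨?_, hl.2.tail⟩
        rw [List.length_tail, hl.1]
        rfl)
    rw [h1]
    have h2 : ∀ u ∈ sphL q n, ((sphL q (n + 1)).filter fun l => l.tail = u).card = q := by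
      intro u hu
      rw [mem_sphL] at hu
      match u, hu with
      | [], hu => simp at hu
      | b :: l, hu =>
        have h3 : ((sphL q (n + 1)).filter fun l' => l'.tail = b :: l) =
            ((Finset.univ : Finset (Fin (q + 1))).erase b).image (fun a => a :: b :: l) := by
          ext w
          rw [Finset.mem_filter, mem_sphL, Finset.mem_image]
          constructor
          · rintro ⟨⟨hw, hc⟩, hw2⟩
            match w, hw, hc, hw2 with
            | [], hw, hc, hw2 => simp at hw2
            | a :: l', hw, hc, hw2 =>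
              have hw4 : l' = b :: l := hw2
              subst hw4
              exact ⟨a, Finset.mem_erase.2 ⟨(List.isChain_cons_cons.1 hc).1, Finset.mem_univ _⟩, rfl⟩
          · rintro ⟨a, ha, rfl⟩
            refine ⟨⟨?_, List.isChain_cons_cons.2 ⟨Finset.ne_of_mem_erase ha, hu.2⟩⟩, rfl⟩
            rw [List.length_cons, hu.1]
        rw [h3, Finset.card_image_of_injective]
        · rw [Finset.card_erase_of_mem (Finset.mem_univ _), Finset.card_univ,
            Fintype.card_fin, Nat.add_sub_cancel]
        · intro a c h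
          simpa using h
    rw [Finset.sum_congr rfl h2, Finset.sum_const, ih, smul_eq_mul]
    ring

theorem card_sphere (n : ℕ) : {w : W q | w.1.length = n + 1}.ncard = (q + 1) * q ^ n := by
  rw [← card_sphL n, ← Set.ncard_coe_finset]
  have h1 : (fun w : W q => w.1) '' {w : W q | w.1.length = n + 1} = ↑(sphL q n) := by
    ext l
    constructor
    · rintro ⟨w, hw, rfl⟩
      exact mem_sphL.2 ⟨hw, w.2⟩
    · intro hl
      have := mem_sphL.1 hl
      exact ⟨⟨l, this.2⟩, this.1, rfl⟩
  rw [← h1]
  exact (Set.ncard_image_of_injective _ (fun a b h => Subtype.ext h)).symm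

theorem below_cross {u v w : W q} {a : Fin (q + 1)} (hw : w.1 = u.1 ++ [a]) {x y : W q}
    (hx : ¬ w.1 <+: x.1) (hy : w.1 <+: y.1) (h : (WG q).Adj x y) : x = u ∧ y = w := by
  rcases h with ⟨b, h⟩ | ⟨b, h⟩
  · rw [h] at hy
    have h1 : w.1 = x.1 ++ [b] := by
      rcases List.prefix_concat_iff.1 hy with h2 | h2
      · exact h2
      · exact absurd h2 hx
    refine ⟨?_, Subtype.ext (h.trans h1.symm)⟩
    rw [hw] at h1
    exact Subtype.ext (List.append_inj_left' h1 rfl).symm
  · refine absurd ?_ hx
    rw [h]
    exact hy.trans (List.prefix_append _ _)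

/-! ### Isomorphism with any regular tree -/

section Iso

variable {V : Type u} {G : SimpleGraph V}

/-- in a tree at most one neighbour of `x` is not farther from `v` than `x`. -/
theorem closer_unique (hT : G.IsTree) {v x y z : V} (hy : G.Adj x y) (hz : G.Adj x z)
    (dy : G.dist y v ≤ G.dist x v) (dz : G.dist z v ≤ G.dist x v) : y = z := by
  classical
  have key : ∀ y, G.Adj x y → G.dist y v ≤ G.dist x v → ∃ p : G.Walk y v, ∀ h : G.Adj x y,
      (SimpleGraph.Walk.cons h p).IsPath := by
    intro y hy dy
    obtain ⟨p, hp, hl⟩ := hT.1.exists_path_of_dist y v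
    refine ⟨p, fun h => ?_⟩
    rw [SimpleGraph.Walk.cons_isPath_iff]
    refine ⟨hp, fun hx => ?_⟩
    have h1 := SimpleGraph.dist_le (p.dropUntil x hx)
    have h2 := congrArg SimpleGraph.Walk.length (p.take_spec hx)
    rw [SimpleGraph.Walk.length_append] at h2
    have h3 : (p.takeUntil x hx).length ≠ 0 := fun h0 =>
      h.ne (SimpleGraph.Walk.eq_of_length_eq_zero h0).symm
    omega
  obtain ⟨p1, h1⟩ := key y hy dy
  obtain ⟨p2, h2⟩ := key z hz dz
  have h3 : (⟨_, h1 hy⟩ : G.Path x v) = ⟨_, h2 hz⟩ := (hT.2.subsingleton_path x v).elim _ _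
  have h4 := congrArg (fun p : G.Path x v => p.1.snd) h3
  simpa using h4

/-- a vertex together with an enumeration of its neighbours. -/
structure Sta (G : SimpleGraph V) (q : ℕ) where
  x : V
  β : Fin (q + 1) ≃ G.neighborSet x

theorem exists_step (e : ∀ x, Nonempty (Fin (q + 1) ≃ G.neighborSet x)) (s : Sta G q)
    (a : Fin (q + 1)) : ∃ s' : Sta G q, s'.x = (s.β a : V) ∧ (s'.β a : V) = s.x := by
  have hadj : G.Adj s.x (s.β a : V) := (s.β a).2
  obtain ⟨e0⟩ := e (s.β a : V)
  let e1 : Fin (q + 1) ≃ G.neighborSet (s.β a : V) :=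
    (Equiv.swap a (e0.symm ⟨s.x, hadj.symm⟩)).trans e0
  refine ⟨⟨s.β a, e1⟩, rfl, ?_⟩
  show ((e0 (Equiv.swap a (e0.symm ⟨s.x, hadj.symm⟩) a)) : V) = s.x
  rw [Equiv.swap_apply_left, Equiv.apply_symm_apply]

theorem iso_words (hq : 2 ≤ q) {V : Type u} (G : SimpleGraph V) [G.LocallyFinite] (hT : G.IsTree)
    (hreg : G.IsRegularOfDegree (q + 1)) (v : V) : ∃ φ : G ≃g WG q, φ v = wroot q := by
  classical
  have e : ∀ x, Nonempty (Fin (q + 1) ≃ G.neighborSet x) := by
    intro x
    have h := hreg x
    rw [← SimpleGraph.card_neighborSet_eq_degree] at h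
    exact ⟨(Fintype.equivFinOfCardEq h).symm⟩
  obtain ⟨e0⟩ := e v
  choose stp hx hβ using fun (s : Sta G q) (a : Fin (q + 1)) => exists_step e s a
  let S : List (Fin (q + 1)) → Sta G q := fun l => l.foldl stp ⟨v, e0⟩
  have S_snoc : ∀ l a, S (l ++ [a]) = stp (S l) a := fun l a => by
    show List.foldl stp _ (l ++ [a]) = _
    rw [List.foldl_append]
    rfl
  have Sx : ∀ l a, (S (l ++ [a])).x = ((S l).β a : V) := fun l a => by rw [S_snoc]; exact hx _ _
  have Sβ : ∀ l a, (((S (l ++ [a])).β a : G.neighborSet _) : V) = (S l).x := fun l a => by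
    rw [S_snoc]; exact hβ _ _
  have Sadj : ∀ l a, G.Adj (S l).x (S (l ++ [a])).x := fun l a => by
    rw [Sx]; exact ((S l).β a).2
  have hβinj : ∀ l a b, (((S l).β a : G.neighborSet _) : V) = (S l).β b → a = b :=
    fun l a b h => (S l).β.injective (Subtype.ext h)
  -- distances
  have hdist : ∀ n (w : W q), w.1.length = n → G.dist (S w.1).x v = n := by
    intro n
    induction n using Nat.strong_induction_on with
    | _ n ih =>
      intro w hw
      by_cases hne : w = wroot q
      · subst hne
        have : n = 0 := by rw [← hw]; rfl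
        rw [this]
        exact SimpleGraph.dist_self
      · obtain ⟨u, a, hu⟩ := exists_parent hne
        have hlu : u.1.length + 1 = n := by
          rw [← hw, hu]; simp
        have d1 := ih u.1.length (by omega) u rfl
        have hadj : G.Adj (S u.1).x (S w.1).x := by rw [hu]; exact Sadj _ _
        have d2 : G.dist (S w.1).x v ≤ u.1.length + 1 := by
          have := hT.1.dist_triangle (u := (S w.1).x) (v := (S u.1).x) (w := v)
          have h1 : G.dist (S w.1).x (S u.1).x = 1 := SimpleGraph.dist_eq_one_iff_adj.2 hadj.symm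
          omega
        have d3 : u.1.length < G.dist (S w.1).x v := by
          by_contra hcon
          push Not at hcon
          by_cases hune : u = wroot q
          · have h0 : u.1.length = 0 := by rw [hune]; rfl
            rw [h0] at hcon
            have h1 : (S w.1).x = v := by
              have := (hT.1.dist_eq_zero_iff (u := (S w.1).x) (v := v)).1 (by omega)
              exact this
            have h2 : (S u.1).x = v := by rw [hune]; rfl
            rw [h1, h2] at hadj
            exact hadj.ne rfl
          · obtain ⟨u', b, hu'⟩ := exists_parent hune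
            have hlu' : u'.1.length + 1 = u.1.length := by rw [hu']; simp
            have d4 := ih u'.1.length (by omega) u' rfl
            have hadj' : G.Adj (S u.1).x (S u'.1).x := by rw [hu']; exact (Sadj _ _).symm
            have h5 := closer_unique (v := v) hT hadj hadj' (by omega) (by omega)
            rw [hu, Sx] at h5
            have h6 : (((S u.1).β b : G.neighborSet _) : V) = (S u'.1).x := by
              rw [hu']; exact Sβ _ _
            rw [← h6] at h5
            have hab := hβinj _ _ _ h5
            have hc := w.2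
            rw [hu, hu', hab] at hc
            have h7 := List.isChain_append.1 hc
            have h8 := h7.2.2 b (by simp) b (by simp)
            exact h8 rfl
        omega
  have hpar : ∀ (u : W q) (y : V), G.Adj (S u.1).x y → ∃ w : W q, (S w.1).x = y ∧ (WG q).Adj u w := by
    intro u y hy
    obtain ⟨a, ha⟩ := (S u.1).β.surjective ⟨y, hy⟩
    have ha' : (((S u.1).β a : G.neighborSet _) : V) = y := congrArg Subtype.val ha
    by_cases hc : (u.1 ++ [a]).IsChain (· ≠ ·)
    · exact ⟨⟨u.1 ++ [a], hc⟩, (Sx _ _).trans ha', Or.inl ⟨a, rfl⟩⟩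
    · have hune : u ≠ wroot q := by
        intro h
        subst h
        exact hc (List.isChain_singleton a)
      obtain ⟨u', b, hu'⟩ := exists_parent hune
      have hab : b = a := by
        by_contra hab
        apply hc
        rw [hu', List.append_assoc]
        have h1 := u.2
        rw [hu'] at h1
        rw [List.isChain_append] at h1 ⊢
        refine ⟨h1.1, ?_, ?_⟩
        · exact List.isChain_cons_cons.2 ⟨hab, List.isChain_singleton a⟩
        · intro x hx y hy
          exact h1.2.2 x hx y (by simpa using hy)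
      refine ⟨u', ?_, Or.inr ⟨b, hu'⟩⟩
      rw [← ha', ← hab]
      have : (((S u.1).β b : G.neighborSet _) : V) = (S u'.1).x := by
        rw [hu']; exact Sβ _ _
      exact this.symm
  have hinj : ∀ n (w w' : W q), w.1.length = n → (S w.1).x = (S w'.1).x → w = w' := by
    intro n
    induction n with
    | zero =>
      intro w w' hw h
      have h1 := hdist _ w rfl
      have h2 := hdist _ w' rfl
      rw [h, h2] at h1
      rw [eq_root_of_len hw, eq_root_of_len (h1.trans hw)]
    | succ n ih =>
      intro w w' hw h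
      have h1 := hdist _ w rfl
      have h2 := hdist _ w' rfl
      have h3 : w'.1.length = n + 1 := by rw [← h2, ← h, h1, hw]
      have hne : w ≠ wroot q := by
        intro h'
        rw [h'] at hw
        simp [wroot] at hw
      have hne' : w' ≠ wroot q := by
        intro h'
        rw [h'] at h3
        simp [wroot] at h3
      obtain ⟨u, a, hu⟩ := exists_parent hne
      obtain ⟨u', a', hu'⟩ := exists_parent hne'
      have hlu : u.1.length = n := by
        have := congrArg List.length hu
        simp at this
        omega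
      have hlu' : u'.1.length = n := by
        have := congrArg List.length hu'
        simp at this
        omega
      have hadj : G.Adj (S w.1).x (S u.1).x := by rw [hu]; exact (Sadj _ _).symm
      have hadj' : G.Adj (S w.1).x (S u'.1).x := by rw [h, hu']; exact (Sadj _ _).symm
      have d1 := hdist _ u rfl
      have d2 := hdist _ u' rfl
      have h4 := closer_unique (v := v) hT hadj hadj' (by omega) (by omega)
      have h5 := ih u u' hlu h4
      subst h5
      have h6 : (((S u.1).β a : G.neighborSet _) : V) = (S u.1).β a' := by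
        rw [← Sx, ← Sx, ← hu, ← hu', h]
      have h7 := hβinj _ _ _ h6
      apply Subtype.ext
      rw [hu, hu', h7]
  have hsurj : ∀ y : V, ∃ w : W q, (S w.1).x = y := by
    intro y
    obtain ⟨p⟩ := hT.1.preconnected v y
    have : ∀ (x y : V) (p : G.Walk x y), (∃ w : W q, (S w.1).x = x) → ∃ w : W q, (S w.1).x = y := by
      intro x y p
      induction p with
      | nil => exact fun h => h
      | cons h p ih =>
        rintro ⟨w, hw⟩
        apply ih
        rw [← hw] at h
        obtain ⟨w', hw', _⟩ := hpar w _ h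
        exact ⟨w', hw'⟩
    exact this v y p ⟨wroot q, rfl⟩
  let ψ : W q ≃ V := Equiv.ofBijective (fun w => (S w.1).x)
    ⟨fun w w' h => hinj _ w w' rfl h, hsurj⟩
  have hψ : ∀ u w : W q, G.Adj (ψ u) (ψ w) ↔ (WG q).Adj u w := by
    intro u w
    constructor
    · intro h
      obtain ⟨w', hw', ha⟩ := hpar u (ψ w) h
      have : w' = w := ψ.injective hw'
      rwa [this] at ha
    · rintro (⟨a, h⟩ | ⟨a, h⟩)
      · show G.Adj (S u.1).x (S w.1).x
        rw [h]; exact Sadj _ _
      · show G.Adj (S u.1).x (S w.1).x
        rw [h]; exact (Sadj _ _).symm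
  let Ψ : WG q ≃g G := ⟨ψ, fun {a b} => hψ a b⟩
  refine ⟨Ψ.symm, ?_⟩
  have : Ψ (wroot q) = v := rfl
  rw [← this]
  exact Ψ.symm_apply_apply _

end Iso

end Crest.Agent.FreeIs
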