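import Crest.Agent.FreeIs.FinalMart
import Crest.Agent.FreeIs.FinalIsing
import Crest.Agent.FreeIs.FinalSite
import Crest.Agent.FreeIs.Words
import Crest.Agent.FreeIs.Limit

/-!
S0241, FINAL part F4: the facts on the infinite volume magnetisations needed for decoding.
-/

set_option autoImplicit false
open MeasureTheory Filter Topology
namespace Crest.Agent.FreeIs

namespace FInf

open Samp

variable {q : ℕ}

theorem sq_int_abs_le {Ω : Type*} [MeasurableSpace Ω] {P : Measure Ω} [IsProbabilityMeasure P]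
    {f : Ω → ℝ} (hf : Measurable f) {K : ℝ} (hK : ∀ ω, |f ω| ≤ K) :
    (∫ ω, |f ω| ∂P) ^ 2 ≤ ∫ ω, (f ω) ^ 2 ∂P := by
  have hfa : Measurable fun ω => |f ω| := continuous_abs.measurable.comp hf
  have i1 : Integrable (fun ω => |f ω|) P := integrable_bdd hfa (K := K) (fun ω => by
    rw [abs_abs]; exact hK ω)
  have i2 : Integrable (fun ω => (f ω) ^ 2) P := integrable_bdd (hf.pow_const 2) (K := K ^ 2)
    (fun ω => by rw [abs_pow]; exact pow_le_pow_left₀ (abs_nonneg _) (hK ω) 2)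
  set c := ∫ ω, |f ω| ∂P with hc
  have h1 : 0 ≤ ∫ ω, (|f ω| - c) ^ 2 ∂P := integral_nonneg fun ω => sq_nonneg _
  have h2 : ∫ ω, (|f ω| - c) ^ 2 ∂P = ∫ ω, ((f ω) ^ 2 - 2 * c * |f ω| + c ^ 2) ∂P := by
    apply integral_congr_ae
    filter_upwards with ω
    rw [← sq_abs (f ω)]
    ring
  have i3 : Integrable (fun ω => (f ω) ^ 2 - 2 * c * |f ω|) P := i2.sub (i1.const_mul _)
  rw [h2, integral_add i3 (integrable_const _), integral_sub i2 (i1.const_mul _),
    integral_const_mul, ← hc] at h1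
  simp only [integral_const, probReal_univ, one_smul] at h1
  nlinarith

theorem theta_lt {θ : ℝ} (hq : 2 ≤ q) (h0 : 0 ≤ θ) (h1 : q * θ ^ 2 < 1) : θ < 1 := by
  by_contra hcon
  push Not at hcon
  have : (2 : ℝ) ≤ q := by exact_mod_cast hq
  nlinarith [sq_nonneg θ, mul_self_nonneg (θ - 1)]

theorem len_le (g : WG q ≃g WG q) (w : W q) :
    (g w).1.length ≤ (g (wroot q)).1.length + w.1.length := by
  induction hn : w.1.length using Nat.strong_induction_on generalizing w with
  | _ n ih =>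
    by_cases hw : w = wroot q
    · rw [hw]; omega
    · obtain ⟨u, a, hua⟩ := exists_parent hw
      have hlen : w.1.length = u.1.length + 1 := by rw [hua]; simp
      have hadj : (WG q).Adj u w := Or.inl ⟨a, hua⟩
      have h1 := ih u.1.length (by omega) u rfl
      have h2 := adj_len (g.map_rel_iff.2 hadj)
      have h3 : (g w).1.length ≤ (g u).1.length + 1 := h2
      omega

theorem Mr_meas (θ : ℝ) (j : ℕ) (r : ℝ) : Measurable fun ω : Lab (W q) => Mr q θ j r ω := by
  have hp1 : Measurable fun ω : Lab (W q) => (ω, r) := measurable_id.prodMk measurable_const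
  have h3 := measurable_Mr (q := q) θ j
  generalize Mr q θ j = Q at h3 ⊢
  exact h3.comp hp1

theorem Mr_abs_le (hq : 2 ≤ q) {θ : ℝ} (h0 : 0 ≤ θ) (h1 : q * θ ^ 2 < 1) (j : ℕ) (ω : Lab (W q)) :
    |Mr q θ j 1 ω| ≤ 1 := by
  obtain ⟨μ, _, hμ1, hμ⟩ := Mr_bound (q := q) j hq
  exact (hμ θ h0 h1.le 1 zero_le_one le_rfl ω).trans hμ1.le

/-- `L¹` convergence of the finite volume magnetisations at a vertex -/
theorem tendsto_Mf (hq : 2 ≤ q) {θ : ℝ} (h0 : 0 ≤ θ) (h1 : q * θ ^ 2 < 1) (j : ℕ)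
    (g : WG q ≃g WG q) :
    Tendsto (fun K => ∫ ω, |Mf (WG q) θ (wball q K) ω j 1 (g (wroot q)) - Mr q θ j 1 (act g ω)|
      ∂(labP (W q))) atTop (𝓝 0) := by
  classical
  have hθ1 := theta_lt hq h0 h1
  have hθ : |θ| < 1 := by rw [abs_of_nonneg h0]; exact hθ1
  have hact : MeasurePreserving (act g : Lab (W q) → Lab (W q)) (labP (W q)) (labP (W q)) :=
    act_measurePreserving g.toEquiv
  obtain ⟨C, κ, hκ0, hκ1, hlim⟩ := fin_lim hq h0 h1 j
  have hm : ∀ K, Measurable fun ω : Lab (W q) =>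
      Mf (WG q) θ (wball q K) ω j 1 (g (wroot q)) - Mr q θ j 1 (act g ω) := fun K =>
    (Mf_measurable (WG q) θ (wball q K) j 1 _).sub ((Mr_meas θ j 1).comp hact.measurable)
  have hb : ∀ K (ω : Lab (W q)),
      |Mf (WG q) θ (wball q K) ω j 1 (g (wroot q)) - Mr q θ j 1 (act g ω)| ≤ 2 := by
    intro K ω
    have h2 := abs_Mf_le (WG q) hθ (wball q K) ω j (le_refl (1 : ℝ)) (g (wroot q))
    have h3 := Mr_abs_le hq h0 h1 j (act g ω)
    exact (abs_sub _ _).trans (by linarith)
  set d := (g (wroot q)).1.length with hd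
  -- the square integral
  have key : ∀ k, ∫ ω, (Mf (WG q) θ (wball q (k + d)) ω j 1 (g (wroot q)) -
      Mr q θ j 1 (act g ω)) ^ 2 ∂(labP (W q)) ≤ C * κ ^ k := by
    intro k
    set Λ' : Finset (W q) := (wball q (k + d)).map g.symm.toEquiv.toEmbedding with hΛ'
    have hmap : Λ'.map g.toEquiv.toEmbedding = wball q (k + d) := by
      rw [hΛ', Finset.map_map]
      have : g.symm.toEquiv.toEmbedding.trans g.toEquiv.toEmbedding = Function.Embedding.refl _ := by
        ext x
        exact g.apply_symm_apply x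
      rw [this, Finset.map_refl]
    have hsub : wball q k ⊆ Λ' := by
      intro w hw
      rw [mem_wball] at hw
      rw [hΛ', Finset.mem_map]
      refine ⟨g w, ?_, g.symm_apply_apply w⟩
      rw [mem_wball]
      have := len_le g w
      omega
    have hnat : ∀ ω, Mf (WG q) θ (wball q (k + d)) ω j 1 (g (wroot q)) =
        Mf (WG q) θ Λ' (act g ω) j 1 (wroot q) := by
      intro ω
      rw [Mf_natural (WG q) g θ Λ' ω j 1 (wroot q), hmap]
    simp_rw [hnat]
    have hm2 : Measurable fun ω : Lab (W q) =>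
        (Mf (WG q) θ Λ' ω j 1 (wroot q) - Mr q θ j 1 ω) ^ 2 :=
      ((Mf_measurable (WG q) θ Λ' j 1 _).sub (Mr_meas θ j 1)).pow_const 2
    have h2 := hlim k Λ' hsub 1 zero_le_one le_rfl
    have h3 : ∫ ω, (Mf (WG q) θ Λ' (act g ω) j 1 (wroot q) - Mr q θ j 1 (act g ω)) ^ 2
        ∂(labP (W q)) = ∫ ω, (Mf (WG q) θ Λ' ω j 1 (wroot q) - Mr q θ j 1 ω) ^ 2 ∂(labP (W q)) := by
      conv_rhs => rw [← hact.map_eq]
      rw [integral_map hact.measurable.aemeasurable hm2.aestronglyMeasurable]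
    rw [h3]
    exact h2
  have hto : Tendsto (fun k : ℕ => √(C * κ ^ k)) atTop (𝓝 0) := by
    have h2 := (tendsto_pow_atTop_nhds_zero_of_lt_one hκ0 hκ1).const_mul C
    rw [mul_zero] at h2
    have h3 := (Real.continuous_sqrt.tendsto 0).comp h2
    rw [Real.sqrt_zero] at h3
    exact h3
  rw [← tendsto_add_atTop_iff_nat d]
  apply squeeze_zero (fun k => integral_nonneg fun ω => abs_nonneg _) _ hto
  intro k
  apply Real.le_sqrt_of_sq_le
  exact (sq_int_abs_le (hm (k + d)) (hb (k + d))).trans (key k)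

/-- integrals of `L¹`-close functions -/
theorem tendsto_of_L1 {P : Measure (Lab (W q))} [IsProbabilityMeasure P]
    (f : ℕ → Lab (W q) → ℝ) (g : Lab (W q) → ℝ) (D : ℕ → ℝ) (hD : Tendsto D atTop (𝓝 0))
    (hf : ∀ K, Integrable (f K) P) (hg : Integrable g P)
    (h : ∀ K, ∫ ω, |f K ω - g ω| ∂P ≤ D K) :
    Tendsto (fun K => ∫ ω, f K ω ∂P) atTop (𝓝 (∫ ω, g ω ∂P)) := by
  rw [tendsto_iff_norm_sub_tendsto_zero]
  apply squeeze_zero (fun K => norm_nonneg _) _ hD
  intro K
  rw [← integral_sub (hf K) hg]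
  exact (norm_integral_le_integral_norm _).trans (h K)

theorem abs_prod_sub_prod_le {ι : Type*} (S : Finset ι) (a b : ι → ℝ) (ha : ∀ i ∈ S, |a i| ≤ 1)
    (hb : ∀ i ∈ S, |b i| ≤ 1) : |∏ i ∈ S, a i - ∏ i ∈ S, b i| ≤ ∑ i ∈ S, |a i - b i| := by
  classical
  induction S using Finset.induction_on with
  | empty => simp
  | insert x S hx ih =>
    rw [Finset.prod_insert hx, Finset.prod_insert hx, Finset.sum_insert hx]
    have e : a x * ∏ i ∈ S, a i - b x * ∏ i ∈ S, b i =
        (a x - b x) * ∏ i ∈ S, a i + b x * (∏ i ∈ S, a i - ∏ i ∈ S, b i) := by ring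
    rw [e]
    refine (abs_add_le _ _).trans ?_
    rw [abs_mul, abs_mul]
    have h1 : |∏ i ∈ S, a i| ≤ 1 := by
      rw [Finset.abs_prod]
      exact Finset.prod_le_one (fun i _ => abs_nonneg _)
        (fun i hi => ha i (Finset.mem_insert_of_mem hi))
    have h2 := ih (fun i hi => ha i (Finset.mem_insert_of_mem hi))
      (fun i hi => hb i (Finset.mem_insert_of_mem hi))
    have h3 := hb x (Finset.mem_insert_self x S)
    have k1 : |a x - b x| * |∏ i ∈ S, a i| ≤ |a x - b x| * 1 :=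
      mul_le_mul_of_nonneg_left h1 (abs_nonneg _)
    have k2 : |b x| * |∏ i ∈ S, a i - ∏ i ∈ S, b i| ≤ 1 * ∑ i ∈ S, |a i - b i| :=
      mul_le_mul h3 h2 (abs_nonneg _) zero_le_one
    linarith

theorem abs_sgB' (b : Bool) : |sgB b| = 1 := by
  unfold sgB; split_ifs <;> norm_num

theorem fac_abs_le (b : Bool) {x : ℝ} (hx : |x| ≤ 1) : |(1 + sgB b * x) / 2| ≤ 1 := by
  have h2 : |sgB b * x| ≤ 1 := by
    rw [abs_mul, abs_sgB', one_mul]; exact hx
  have h3 := abs_le.1 h2
  rw [abs_le]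
  constructor <;> linarith

end FInf

open FInf Samp

theorem inf_facts : ∃ ρ : ℝ, 0 ≤ ρ ∧ ρ < 1 ∧ ∀ (q : ℕ), 2 ≤ q → ∀ (θ : ℝ), 0 ≤ θ →
    q * θ ^ 2 < 1 → ∀ j : ℕ,
    (∫ ω, (Mr q θ (j + 1) 1 ω - Mr q θ j 1 ω) ^ 2 ∂(labP (W q)) ≤ ρ ^ (j + 1)) ∧
    (∫ ω, (1 - (Mr q θ j 1 ω) ^ 2) ∂(labP (W q)) ≤ ρ ^ (j + 1)) ∧
    ∀ (S : Finset (W q)), wroot q ∈ S → ((WG q).induce (S : Set (W q))).Connected →
      ∀ (η : W q → Bool) (h : W q → (WG q ≃g WG q)), (∀ v ∈ S, h v (wroot q) = v) →
      |(∫ ω, ∏ v ∈ S, ((1 + sgB (η v) * Mr q θ j 1 (act (h v) ω)) / 2) ∂(labP (W q)))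
          - Crest.ProbabilityR.TreeIsing.isingWeight (WG q) θ S η| ≤ S.card * ρ ^ (j + 1) := by
  obtain ⟨ρ, hρ0, hρ1, hfin⟩ := one_sub_sq_fin
  refine ⟨ρ, hρ0, hρ1, ?_⟩
  intro q hq θ h0 h1 j
  have hθ1 := theta_lt hq h0 h1
  have hθ : |θ| < 1 := by rw [abs_of_nonneg h0]; exact hθ1
  have hrootmem : ∀ K, wroot q ∈ wball q K := fun K => by rw [mem_wball]; simp [wroot]
  have hMm := fun (K i : ℕ) (v : W q) => Mf_measurable (WG q) θ (wball q K) i 1 v
  have hMb := fun (K i : ℕ) (v : W q) (ω : Lab (W q)) =>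
    abs_Mf_le (WG q) hθ (wball q K) ω i (le_refl (1 : ℝ)) v
  have hRm := fun i : ℕ => Mr_meas (q := q) θ i 1
  have hRb := fun (i : ℕ) (ω : Lab (W q)) => Mr_abs_le hq h0 h1 i ω
  have hlim : ∀ i, Tendsto (fun K => ∫ ω, |Mf (WG q) θ (wball q K) ω i 1 (wroot q) - Mr q θ i 1 ω|
      ∂(labP (W q))) atTop (𝓝 0) := fun i => tendsto_Mf hq h0 h1 i (RelIso.refl _)
  refine ⟨?_, ?_, ?_⟩
  · -- increments
    have hi1 : ∀ K, Integrable (fun ω => (Mf (WG q) θ (wball q K) ω (j + 1) 1 (wroot q) -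
        Mf (WG q) θ (wball q K) ω j 1 (wroot q)) ^ 2) (labP (W q)) := fun K =>
      integrable_bdd (((hMm K (j + 1) _).sub (hMm K j _)).pow_const 2) (K := 4) (fun ω => by
        rw [abs_pow]
        have : |Mf (WG q) θ (wball q K) ω (j + 1) 1 (wroot q) -
          Mf (WG q) θ (wball q K) ω j 1 (wroot q)| ≤ 2 :=
          (abs_sub _ _).trans (by linarith [hMb K (j + 1) (wroot q) ω, hMb K j (wroot q) ω])
        nlinarith [abs_nonneg (Mf (WG q) θ (wball q K) ω (j + 1) 1 (wroot q) -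
          Mf (WG q) θ (wball q K) ω j 1 (wroot q))])
    have hi2 : Integrable (fun ω => (Mr q θ (j + 1) 1 ω - Mr q θ j 1 ω) ^ 2) (labP (W q)) :=
      integrable_bdd (((hRm (j + 1)).sub (hRm j)).pow_const 2) (K := 4) (fun ω => by
        rw [abs_pow]
        have : |Mr q θ (j + 1) 1 ω - Mr q θ j 1 ω| ≤ 2 :=
          (abs_sub _ _).trans (by linarith [hRb (j + 1) ω, hRb j ω])
        nlinarith [abs_nonneg (Mr q θ (j + 1) 1 ω - Mr q θ j 1 ω)])
    have hia : ∀ K i, Integrable (fun ω => |Mf (WG q) θ (wball q K) ω i 1 (wroot q) - Mr q θ i 1 ω|)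
        (labP (W q)) := fun K i =>
      integrable_bdd (continuous_abs.measurable.comp ((hMm K i _).sub (hRm i))) (K := 2) (fun ω => by
        show |(|Mf (WG q) θ (wball q K) ω i 1 (wroot q) - Mr q θ i 1 ω|)| ≤ 2
        rw [abs_abs]
        exact (abs_sub _ _).trans (by linarith [hMb K i (wroot q) ω, hRb i ω]))
    have hD : Tendsto (fun K => 4 * ((∫ ω, |Mf (WG q) θ (wball q K) ω (j + 1) 1 (wroot q) -
        Mr q θ (j + 1) 1 ω| ∂(labP (W q))) + ∫ ω, |Mf (WG q) θ (wball q K) ω j 1 (wroot q) -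
        Mr q θ j 1 ω| ∂(labP (W q)))) atTop (𝓝 0) := by
      have := ((hlim (j + 1)).add (hlim j)).const_mul 4
      rwa [add_zero, mul_zero] at this
    have ht := tendsto_of_L1 _ _ _ hD hi1 hi2 (by
      intro K
      rw [← integral_add (hia K (j + 1)) (hia K j), ← integral_const_mul]
      apply integral_mono_of_nonneg (ae_of_all _ fun ω => abs_nonneg _)
        (((hia K (j + 1)).add (hia K j)).const_mul 4)
      apply ae_of_all
      intro ω
      show |(Mf (WG q) θ (wball q K) ω (j + 1) 1 (wroot q) -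
          Mf (WG q) θ (wball q K) ω j 1 (wroot q)) ^ 2 - (Mr q θ (j + 1) 1 ω - Mr q θ j 1 ω) ^ 2| ≤
        4 * (|Mf (WG q) θ (wball q K) ω (j + 1) 1 (wroot q) - Mr q θ (j + 1) 1 ω| +
          |Mf (WG q) θ (wball q K) ω j 1 (wroot q) - Mr q θ j 1 ω|)
      have a1 := hMb K (j + 1) (wroot q) ω
      have a2 := hMb K j (wroot q) ω
      have a3 := hRb (j + 1) ω
      have a4 := hRb j ω
      set x := Mf (WG q) θ (wball q K) ω (j + 1) 1 (wroot q)
      set y := Mf (WG q) θ (wball q K) ω j 1 (wroot q)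
      set m := Mr q θ (j + 1) 1 ω
      set n := Mr q θ j 1 ω
      have e : (x - y) ^ 2 - (m - n) ^ 2 = (x - y + (m - n)) * ((x - m) - (y - n)) := by ring
      rw [e, abs_mul]
      have b1 : |x - y + (m - n)| ≤ 4 := by
        refine (abs_add_le _ _).trans ?_
        have := abs_sub x y
        have := abs_sub m n
        linarith
      have b2 : |(x - m) - (y - n)| ≤ |x - m| + |y - n| := abs_sub _ _
      exact mul_le_mul b1 b2 (abs_nonneg _) (by norm_num))
    apply le_of_tendsto ht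
    apply Eventually.of_forall
    intro K
    have e1 := mart_fin (WG q) h0 hθ1 (wball q K) (wroot q) (j + 1)
    have e2 : ∀ ω : Lab (W q), Mf (WG q) θ (wball q K) ω (j + 1) 0 (wroot q) =
        Mf (WG q) θ (wball q K) ω j 1 (wroot q) := by
      intro ω
      unfold Mf
      rw [st_succ_zero]
    simp_rw [e2] at e1
    refine e1.trans ?_
    have e3 := hfin q θ h0 hθ1 (wball q K) (wroot q) (hrootmem K) j
    have hi3 : Integrable (fun ω => (Mf (WG q) θ (wball q K) ω j 1 (wroot q)) ^ 2) (labP (W q)) :=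
      integrable_bdd ((hMm K j _).pow_const 2) (K := 1) (fun ω => by
        rw [abs_pow]; exact pow_le_one₀ (abs_nonneg _) (hMb K j _ ω))
    rw [integral_sub (integrable_const _) hi3] at e3
    simpa using e3
  · -- second moments
    have hi1 : ∀ K, Integrable (fun ω => 1 - (Mf (WG q) θ (wball q K) ω j 1 (wroot q)) ^ 2)
        (labP (W q)) := fun K =>
      integrable_bdd (((hMm K j _).pow_const 2).const_sub 1) (K := 1) (fun ω => by
        have h2 : (Mf (WG q) θ (wball q K) ω j 1 (wroot q)) ^ 2 ≤ 1 := by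
          rw [← sq_abs]; exact pow_le_one₀ (abs_nonneg _) (hMb K j _ ω)
        rw [abs_of_nonneg (by linarith)]
        linarith [sq_nonneg (Mf (WG q) θ (wball q K) ω j 1 (wroot q))])
    have hi2 : Integrable (fun ω => 1 - (Mr q θ j 1 ω) ^ 2) (labP (W q)) :=
      integrable_bdd (((hRm j).pow_const 2).const_sub 1) (K := 1) (fun ω => by
        have h2 : (Mr q θ j 1 ω) ^ 2 ≤ 1 := by
          rw [← sq_abs]; exact pow_le_one₀ (abs_nonneg _) (hRb j ω)
        rw [abs_of_nonneg (by linarith)]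
        linarith [sq_nonneg (Mr q θ j 1 ω)])
    have hD : Tendsto (fun K => 2 * ∫ ω, |Mf (WG q) θ (wball q K) ω j 1 (wroot q) -
        Mr q θ j 1 ω| ∂(labP (W q))) atTop (𝓝 0) := by
      have := (hlim j).const_mul 2
      rwa [mul_zero] at this
    have hia : ∀ K, Integrable (fun ω => |Mf (WG q) θ (wball q K) ω j 1 (wroot q) - Mr q θ j 1 ω|)
        (labP (W q)) := fun K =>
      integrable_bdd (continuous_abs.measurable.comp ((hMm K j _).sub (hRm j))) (K := 2) (fun ω => by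
        show |(|Mf (WG q) θ (wball q K) ω j 1 (wroot q) - Mr q θ j 1 ω|)| ≤ 2
        rw [abs_abs]
        exact (abs_sub _ _).trans (by linarith [hMb K j (wroot q) ω, hRb j ω]))
    have ht := tendsto_of_L1 _ _ _ hD hi1 hi2 (by
      intro K
      rw [← integral_const_mul]
      apply integral_mono_of_nonneg (ae_of_all _ fun ω => abs_nonneg _) ((hia K).const_mul 2)
      apply ae_of_all
      intro ω
      show |(1 - (Mf (WG q) θ (wball q K) ω j 1 (wroot q)) ^ 2) - (1 - (Mr q θ j 1 ω) ^ 2)| ≤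
        2 * |Mf (WG q) θ (wball q K) ω j 1 (wroot q) - Mr q θ j 1 ω|
      have a2 := hMb K j (wroot q) ω
      have a4 := hRb j ω
      set y := Mf (WG q) θ (wball q K) ω j 1 (wroot q)
      set n := Mr q θ j 1 ω
      have e : (1 - y ^ 2) - (1 - n ^ 2) = -((y + n) * (y - n)) := by ring
      rw [e, abs_neg, abs_mul]
      exact mul_le_mul_of_nonneg_right ((abs_add_le _ _).trans (by linarith)) (abs_nonneg _))
    apply le_of_tendsto ht
    apply Eventually.of_forall
    intro K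
    exact hfin q θ h0 hθ1 (wball q K) (wroot q) (hrootmem K) j
  · -- the law
    intro S hroot hconn η h hh
    have hact : ∀ v, MeasurePreserving (act (h v) : Lab (W q) → Lab (W q)) (labP (W q)) (labP (W q)) :=
      fun v => act_measurePreserving (h v).toEquiv
    have hlimv : ∀ v ∈ S, Tendsto (fun K => ∫ ω, |Mf (WG q) θ (wball q K) ω j 1 v -
        Mr q θ j 1 (act (h v) ω)| ∂(labP (W q))) atTop (𝓝 0) := by
      intro v hv
      have := tendsto_Mf hq h0 h1 j (h v)
      rwa [hh v hv] at this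
    have hpm1 : ∀ K, Measurable fun ω : Lab (W q) =>
        ∏ v ∈ S, ((1 + sgB (η v) * Mf (WG q) θ (wball q K) ω j 1 v) / 2) := by
      intro K
      apply Finset.measurable_prod
      intro v _
      exact (((hMm K j v).const_mul _).const_add 1).div_const 2
    have hpm2 : Measurable fun ω : Lab (W q) =>
        ∏ v ∈ S, ((1 + sgB (η v) * Mr q θ j 1 (act (h v) ω)) / 2) := by
      apply Finset.measurable_prod
      intro v _
      exact ((((hRm j).comp (hact v).measurable).const_mul _).const_add 1).div_const 2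
    have hpb1 : ∀ K (ω : Lab (W q)),
        |∏ v ∈ S, ((1 + sgB (η v) * Mf (WG q) θ (wball q K) ω j 1 v) / 2)| ≤ 1 := by
      intro K ω
      rw [Finset.abs_prod]
      exact Finset.prod_le_one (fun v _ => abs_nonneg _) (fun v _ => fac_abs_le _ (hMb K j v ω))
    have hpb2 : ∀ (ω : Lab (W q)),
        |∏ v ∈ S, ((1 + sgB (η v) * Mr q θ j 1 (act (h v) ω)) / 2)| ≤ 1 := by
      intro ω
      rw [Finset.abs_prod]
      exact Finset.prod_le_one (fun v _ => abs_nonneg _) (fun v _ => fac_abs_le _ (hRb j _))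
    have hia : ∀ K, ∀ v ∈ S, Integrable (fun ω => |Mf (WG q) θ (wball q K) ω j 1 v -
        Mr q θ j 1 (act (h v) ω)|) (labP (W q)) := fun K v _ =>
      integrable_bdd (continuous_abs.measurable.comp ((hMm K j v).sub
        ((hRm j).comp (hact v).measurable))) (K := 2) (fun ω => by
        show |(|Mf (WG q) θ (wball q K) ω j 1 v - Mr q θ j 1 (act (h v) ω)|)| ≤ 2
        rw [abs_abs]
        exact (abs_sub _ _).trans (by linarith [hMb K j v ω, hRb j (act (h v) ω)]))
    have hD : Tendsto (fun K => ∑ v ∈ S, ∫ ω, |Mf (WG q) θ (wball q K) ω j 1 v -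
        Mr q θ j 1 (act (h v) ω)| ∂(labP (W q))) atTop (𝓝 0) := by
      have := tendsto_finsetSum S hlimv
      simpa using this
    have ht := tendsto_of_L1 _ _ _ hD (fun K => integrable_bdd (hpm1 K) (hpb1 K))
      (integrable_bdd hpm2 hpb2) (by
      intro K
      rw [← integral_finsetSum _ (hia K)]
      apply integral_mono_of_nonneg (ae_of_all _ fun ω => abs_nonneg _)
        (integrable_finsetSum _ (hia K))
      apply ae_of_all
      intro ω
      show |(∏ v ∈ S, ((1 + sgB (η v) * Mf (WG q) θ (wball q K) ω j 1 v) / 2)) -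
        ∏ v ∈ S, ((1 + sgB (η v) * Mr q θ j 1 (act (h v) ω)) / 2)| ≤
        ∑ v ∈ S, |Mf (WG q) θ (wball q K) ω j 1 v - Mr q θ j 1 (act (h v) ω)|
      refine (abs_prod_sub_prod_le S _ _ (fun v _ => fac_abs_le _ (hMb K j v ω))
        (fun v _ => fac_abs_le _ (hRb j _))).trans ?_
      apply Finset.sum_le_sum
      intro v _
      have e : (1 + sgB (η v) * Mf (WG q) θ (wball q K) ω j 1 v) / 2 -
          (1 + sgB (η v) * Mr q θ j 1 (act (h v) ω)) / 2 =
          sgB (η v) * (Mf (WG q) θ (wball q K) ω j 1 v - Mr q θ j 1 (act (h v) ω)) / 2 := by ring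
      rw [e, abs_div, abs_mul, abs_sgB', one_mul, abs_two]
      have := abs_nonneg (Mf (WG q) θ (wball q K) ω j 1 v - Mr q θ j 1 (act (h v) ω))
      linarith)
    have ht2 := (ht.sub_const (Crest.ProbabilityR.TreeIsing.isingWeight (WG q) θ S η)).abs
    apply le_of_tendsto ht2
    -- eventually `S ⊆ wball K`
    have hev : ∀ᶠ K in atTop, S ⊆ wball q K := by
      filter_upwards [eventually_ge_atTop (S.sup fun w => w.1.length)] with K hK
      intro w hw
      rw [mem_wball]
      exact (Finset.le_sup (f := fun w : W q => w.1.length) hw).trans hK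
    filter_upwards [hev] with K hK
    refine (ising_fin h0 hθ1 (wball q K) S hK hroot hconn η j).trans ?_
    have : ∑ v ∈ S, ∫ ω, (1 - (Mf (WG q) θ (wball q K) ω j 1 v) ^ 2) ∂(labP (W q)) ≤
        ∑ _v ∈ S, ρ ^ (j + 1) :=
      Finset.sum_le_sum fun v hv => hfin q θ h0 hθ1 (wball q K) v (hK hv) j
    refine this.trans (le_of_eq ?_)
    rw [Finset.sum_const, nsmul_eq_mul]

end Crest.Agent.FreeIs
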