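import Crest.Agent.FreeIs.Samp4

/-!
S0241, sampler part 5: naturality under isomorphisms, simple outputs.
-/

set_option autoImplicit false

open Set MeasureTheory Measure

universe u

namespace Crest.Agent.FreeIs

theorem act_measurePreserving {V V' : Type u} (g : V' ≃ V) :
    MeasurePreserving (act g : Lab V → Lab V') (labP V) (labP V') := by
  classical
  have hm : Measurable (act g : Lab V → Lab V') := by
    unfold act
    rw [measurable_pi_iff]
    intro e
    exact measurable_pi_apply _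
  refine ⟨hm, ?_⟩
  unfold labP Crest.ProbabilityR.Labels.labelMeasure
  apply eq_infinitePi
  intro s t ht
  rw [map_apply hm (MeasurableSet.pi s.countable_toSet (fun i _ => ht i))]
  obtain ⟨h, hh⟩ : ∃ h : V' × ℕ × Bool ≃ V × ℕ × Bool, ∀ e, h e = (g e.1, e.2) :=
    ⟨g.prodCongr (Equiv.refl _), fun e => rfl⟩
  have h1 : (act g : Lab V → Lab V') ⁻¹' (Set.pi s t) =
      Set.pi (s.map h.toEmbedding : Finset (V × ℕ × Bool)) (fun e => t (h.symm e)) := by
    ext ω
    simp only [mem_preimage, Set.mem_pi, Finset.mem_coe]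
    constructor
    · intro H i hi
      obtain ⟨a, ha, rfl⟩ := Finset.mem_map.1 hi
      have := H a ha
      rw [Equiv.coe_toEmbedding]
      rw [h.symm_apply_apply, hh]
      exact this
    · intro H a ha
      have := H (h a) (Finset.mem_map_of_mem h.toEmbedding ha)
      rw [h.symm_apply_apply, hh] at this
      exact this
  rw [h1, infinitePi_pi _ (fun i _ => ht _), Finset.prod_map]
  apply Finset.prod_congr rfl
  intro i _
  rw [Equiv.coe_toEmbedding, h.symm_apply_apply]

namespace Samp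

section Natural

variable {V V' : Type u} {G : SimpleGraph V} {G' : SimpleGraph V'} (g : G' ≃g G)

/-- image of a finite set -/
def im (Λ : Finset V') : Finset V := Λ.map g.toEquiv.toEmbedding

theorem mem_im {Λ : Finset V'} {v : V'} : g v ∈ im g Λ ↔ v ∈ Λ := by
  unfold im
  exact Finset.mem_map' g.toEquiv.toEmbedding

theorem spin_im (P : Finset V') (v : V') : spin (im g P) (g v) = spin P v := by
  unfold spin
  classical exact if_congr (mem_im g) rfl rfl

theorem spinE_im (P : Finset V') (e : Sym2 V') :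
    spinE (im g P) (Sym2.map g e) = spinE P e := by
  induction e with
  | h x y =>
    show spin (im g P) (g x) * spin (im g P) (g y) = spin P x * spin P y
    rw [spin_im, spin_im]

open Classical in
theorem wt_im (θ : ℝ) (Λ : Finset V') (t : V → ℝ) (P : Finset V') :
    wt G θ (im g Λ) t (im g P) = wt G' θ Λ (fun v => t (g v)) P := by
  unfold wt
  congr 1
  · have h1 : (im g Λ).sym2 = Λ.sym2.map (Function.Embedding.sym2Map g.toEquiv.toEmbedding) := by
      unfold im
      exact Finset.sym2_map _ _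
    rw [h1, Finset.filter_map, Finset.prod_map]
    apply Finset.prod_congr
    · ext e
      simp only [Finset.mem_filter, Function.comp_apply]
      apply and_congr_right
      intro _
      induction e with
      | h x y =>
        show G.Adj (g x) (g y) ↔ G'.Adj x y
        exact g.map_rel_iff
    · intro e _
      rw [← spinE_im g P e]
      rfl
  · unfold im
    rw [Finset.prod_map]
    apply Finset.prod_congr rfl
    intro v _
    rw [← spin_im g P v]
    rfl

theorem gexp_im (θ : ℝ) (Λ : Finset V') (t : V → ℝ) (F : Finset V → ℝ) :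
    gexp G θ (im g Λ) t F = gexp G' θ Λ (fun v => t (g v)) (fun P => F (im g P)) := by
  classical
  unfold gexp
  have hc : (im g Λ).card = Λ.card := Finset.card_map _
  rw [hc]
  congr 1
  have hp : (im g Λ).powerset = Λ.powerset.map (Finset.mapEmbedding g.toEquiv.toEmbedding).toEmbedding := by
    ext Q
    simp only [Finset.mem_powerset, Finset.mem_map]
    constructor
    · intro hQ
      refine ⟨Q.map g.symm.toEquiv.toEmbedding, ?_, ?_⟩
      · intro x hx
        obtain ⟨y, hy, rfl⟩ := Finset.mem_map.1 hx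
        obtain ⟨z, hz, rfl⟩ := Finset.mem_map.1 (hQ hy)
        have : g.symm.toEquiv.toEmbedding (g.toEquiv.toEmbedding z) = z := g.symm_apply_apply z
        rw [this]
        exact hz
      · show (Q.map g.symm.toEquiv.toEmbedding).map g.toEquiv.toEmbedding = Q
        rw [Finset.map_map]
        have : g.symm.toEquiv.toEmbedding.trans g.toEquiv.toEmbedding = Function.Embedding.refl _ := by
          ext x
          exact g.apply_symm_apply x
        rw [this, Finset.map_refl]
    · rintro ⟨P, hP, rfl⟩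
      exact Finset.map_subset_map.2 hP
  rw [hp, Finset.sum_map]
  apply Finset.sum_congr rfl
  intro P _
  have : (Finset.mapEmbedding g.toEquiv.toEmbedding).toEmbedding P = im g P := rfl
  rw [this, wt_im]

theorem Zf_im (θ : ℝ) (Λ : Finset V') (t : V → ℝ) :
    Zf G θ (im g Λ) t = Zf G' θ Λ (fun v => t (g v)) := gexp_im g θ Λ t _

theorem mag_im (θ : ℝ) (Λ : Finset V') (t : V → ℝ) (v : V') :
    mag G θ (im g Λ) t (g v) = mag G' θ Λ (fun v => t (g v)) v := by
  unfold mag
  rw [Zf_im, gexp_im]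
  simp only [spin_im]
  classical exact if_congr (mem_im g) rfl rfl

theorem cov_im (θ : ℝ) (Λ : Finset V') (t : V → ℝ) (v u : V') :
    cov G θ (im g Λ) t (g v) (g u) = cov G' θ Λ (fun v => t (g v)) v u := by
  unfold cov
  rw [Zf_im, gexp_im, mag_im, mag_im]
  simp only [spin_im]
  classical exact if_congr (and_congr (mem_im g) (mem_im g)) rfl rfl

theorem tlt_im (Λ : Finset V') (t0 T Y : V → ℝ) (r : ℝ) (w : V') :
    tlt (im g Λ) t0 T Y r (g w) =
      tlt Λ (fun v => t0 (g v)) (fun v => T (g v)) (fun v => Y (g v)) r w := by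
  unfold tlt
  classical exact if_congr (and_congr_left fun _ => mem_im g) rfl rfl

theorem stepY_im (θ : ℝ) (Λ : Finset V') (t0 T U Y : V → ℝ) (w : V') :
    stepY G θ (im g Λ) t0 T U Y (g w) =
      stepY G' θ Λ (fun v => t0 (g v)) (fun v => T (g v)) (fun v => U (g v))
        (fun v => Y (g v)) w := by
  unfold stepY
  rw [mag_im]
  simp only [tlt_im]

theorem Ysol_im (θ : ℝ) (Λ : Finset V') (t0 T U : V → ℝ) (w : V') :
    Ysol G θ (im g Λ) t0 T U (g w) =
      Ysol G' θ Λ (fun v => t0 (g v)) (fun v => T (g v)) (fun v => U (g v)) w := by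
  unfold Ysol
  have hc : (im g Λ).card = Λ.card := Finset.card_map _
  rw [hc]
  generalize Λ.card = n
  induction n generalizing w with
  | zero => rfl
  | succ n ih =>
    rw [Function.iterate_succ_apply', Function.iterate_succ_apply', stepY_im]
    simp only [ih]

theorem rnd_im (θ : ℝ) (Λ : Finset V') (t0 T U : V → ℝ) (r : ℝ) (w : V') :
    rnd G θ (im g Λ) t0 T U r (g w) =
      rnd G' θ Λ (fun v => t0 (g v)) (fun v => T (g v)) (fun v => U (g v)) r w := by
  unfold rnd
  rw [tlt_im]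
  simp only [Ysol_im]

theorem start_im (θ : ℝ) (Λ : Finset V') (ω : Lab V) (j : ℕ) :
    (fun w => start G θ (im g Λ) ω j (g w)) = start G' θ Λ (act g ω) j := by
  induction j with
  | zero => rfl
  | succ j ih =>
    funext w
    show rnd G θ (im g Λ) (start G θ (im g Λ) ω j) (TT ω j) (UU ω j) 1 (g w) =
      rnd G' θ Λ (start G' θ Λ (act g ω) j) (TT (act g ω) j) (UU (act g ω) j) 1 w
    rw [rnd_im, ih]
    rfl

theorem st_im (θ : ℝ) (Λ : Finset V') (ω : Lab V) (j : ℕ) (r : ℝ) :
    (fun w => st G θ (im g Λ) ω j r (g w)) = st G' θ Λ (act g ω) j r := by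
  funext w
  unfold st
  rw [rnd_im, start_im]
  rfl

end Natural

end Samp

open Samp

variable {V : Type u} (G : SimpleGraph V)

theorem Mf_natural {V' : Type u} {G' : SimpleGraph V'} (g : G' ≃g G) (θ : ℝ) (Λ : Finset V') (ω : Lab V)
    (j : ℕ) (r : ℝ) (v : V') :
    Mf G' θ Λ (act g ω) j r v = Mf G θ (Λ.map g.toEquiv.toEmbedding) ω j r (g v) := by
  unfold Mf
  rw [← st_im g]
  exact (mag_im g θ Λ _ v).symm

theorem Cf_natural {V' : Type u} {G' : SimpleGraph V'} (g : G' ≃g G) (θ : ℝ) (Λ : Finset V') (ω : Lab V)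
    (j : ℕ) (r : ℝ) (v u : V') :
    Cf G' θ Λ (act g ω) j r v u = Cf G θ (Λ.map g.toEquiv.toEmbedding) ω j r (g v) (g u) := by
  unfold Cf
  rw [← st_im g]
  exact (cov_im g θ Λ _ v u).symm

theorem st_local (θ : ℝ) (Λ : Finset V) (ω ω' : Lab V) (h : ∀ e, e.1 ∈ Λ → ω e = ω' e) (j : ℕ) (r : ℝ) :
    st G θ Λ ω j r = st G θ Λ ω' j r := by
  unfold st
  rw [start_congr G j (fun i _ v hv b => h (v, i, b) hv)]
  apply rnd_local
  intro w hw _
  unfold TT UU
  rw [h _ hw, h _ hw]
  exact ⟨rfl, rfl⟩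

theorem TT_nonneg (ω : Lab V) (j : ℕ) (v : V) : 0 ≤ TT ω j v := by
  unfold TT
  have := (ω (v, j, false)).2.1
  linarith

theorem st_zero_zero (θ : ℝ) (Λ : Finset V) (ω : Lab V) (v : V) : st G θ Λ ω 0 0 v = 0 := by
  unfold st
  rw [rnd_of_none G (fun a _ => not_lt.2 (TT_nonneg ω 0 a))]
  rfl

theorem st_succ_zero (θ : ℝ) (Λ : Finset V) (ω : Lab V) (j : ℕ) :
    st G θ Λ ω (j + 1) 0 = st G θ Λ ω j 1 := by
  unfold st
  rw [rnd_of_none G (fun a _ => not_lt.2 (TT_nonneg ω (j + 1) a))]
  rfl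

namespace Samp

theorem ein_abs_le {p q a b : ℝ} (hp : |p| ≤ a) (hq : |q| ≤ b) (ha : a < 1) (hb : b < 1) :
    |ein p q| ≤ ein a b := by
  obtain ⟨p1, p2⟩ := abs_le.1 hp
  obtain ⟨q1, q2⟩ := abs_le.1 hq
  have ha0 : 0 ≤ a := (abs_nonneg p).trans hp
  have hb0 : 0 ≤ b := (abs_nonneg q).trans hq
  have hd : 0 < 1 + p * q := one_add_mul_pos (hp.trans_lt ha) (hq.trans hb.le)
  have hd' : 0 < 1 + a * b := by positivity
  have hbq : |b * q| < 1 := by
    rw [abs_mul, abs_of_nonneg hb0]
    nlinarith [abs_nonneg q]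
  have hap : |a * p| < 1 := by
    rw [abs_mul, abs_of_nonneg ha0]
    nlinarith [abs_nonneg p]
  obtain ⟨b1, b2⟩ := abs_lt.1 hbq
  obtain ⟨a1, a2⟩ := abs_lt.1 hap
  unfold ein
  rw [abs_le]
  constructor
  · rw [← neg_div, div_le_div_iff₀ hd' hd]
    have k1 : 0 ≤ (a + p) * (1 + b * q) := mul_nonneg (by linarith) (by linarith)
    have k2 : 0 ≤ (b + q) * (1 + a * p) := mul_nonneg (by linarith) (by linarith)
    nlinarith
  · rw [div_le_div_iff₀ hd hd']
    have k1 : 0 ≤ (a - p) * (1 - b * q) := mul_nonneg (by linarith) (by linarith)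
    have k2 : 0 ≤ (b - q) * (1 - a * p) := mul_nonneg (by linarith) (by linarith)
    nlinarith

theorem rnd_abs_le {θ : ℝ} (hθ : |θ| < 1) {Λ : Finset V} {t0 T U : V → ℝ} {a : ℝ} (ha : a < 1)
    (h0 : ∀ w, |t0 w| ≤ a) (hU : ∀ w, U w ∈ Icc (0 : ℝ) 1) {r : ℝ} (hr : r ≤ 1) (w : V) :
    |rnd G θ Λ t0 T U r w| ≤ ein a (1 / 2) := by
  have ha0 : 0 ≤ a := (abs_nonneg _).trans (h0 w)
  unfold rnd tlt
  split_ifs with h
  · apply ein_abs_le (h0 w) _ ha (by norm_num)
    rw [abs_mul, abs_of_nonneg (eta_nonneg _)]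
    have h1 := eta_le (h.2.le.trans hr)
    have h2 := Ysol_mem G hθ (fun w => (h0 w).trans_lt ha) hU (h.2.le.trans hr) (Λ := Λ) (U := U)
      (T := T)
    have h3 := eta_nonneg (T w)
    nlinarith [abs_nonneg (Ysol G θ Λ t0 T U w)]
  · refine (h0 w).trans ?_
    unfold ein
    rw [le_div_iff₀ (by positivity)]
    nlinarith

/-- bound on tilts -/
noncomputable def tau : ℕ → ℝ
  | 0 => 0
  | j + 1 => ein (tau j) (1 / 2)

theorem tau_mem (j : ℕ) : 0 ≤ tau j ∧ tau j < 1 := by
  induction j with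
  | zero => simp [tau]
  | succ j ih =>
    have h := ein_abs_lt (p := tau j) (q := 1 / 2) (by rw [abs_of_nonneg ih.1]; exact ih.2)
      (by rw [abs_of_nonneg] <;> norm_num)
    constructor
    · unfold tau ein
      have := ih.1
      positivity
    · exact (abs_lt.1 h).2

theorem start_abs_le {θ : ℝ} (hθ : |θ| < 1) (Λ : Finset V) (ω : Lab V) (j : ℕ) (w : V) :
    |start G θ Λ ω j w| ≤ tau j := by
  induction j generalizing w with
  | zero => simp [start, tau]
  | succ j ih => exact rnd_abs_le G hθ (tau_mem j).2 ih (UU_mem ω j) le_rfl w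

end Samp

/-- bound on tilts -/
theorem st_bound (j : ℕ) : ∃ τ : ℝ, 0 ≤ τ ∧ τ < 1 ∧ ∀ (V : Type u) (G : SimpleGraph V) (θ : ℝ), 0 ≤ θ → θ < 1 →
    ∀ (Λ : Finset V) (ω : Lab V) (r : ℝ), r ≤ 1 → ∀ v, |st G θ Λ ω j r v| ≤ τ := by
  refine ⟨tau (j + 1), (tau_mem _).1, (tau_mem _).2, ?_⟩
  intro V G θ h0 h1 Λ ω r hr v
  have hθ : |θ| < 1 := by rw [abs_of_nonneg h0]; exact h1
  exact rnd_abs_le G hθ (tau_mem j).2 (start_abs_le G hθ Λ ω j) (UU_mem ω j) hr v

theorem measurable_st (θ : ℝ) (Λ : Finset V) (j : ℕ) (v : V) :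
    Measurable fun p : Lab V × ℝ => st G θ Λ p.1 j p.2 v :=
  (measurable_pi_apply v).comp (st_measurable_pair G θ Λ j)

end Crest.Agent.FreeIs
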