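import Crest.Agent.FreeIs.FinalDefs
import Crest.Agent.FreeIs.Words
import Crest.Agent.FreeIs.Samp5

/-!
S0241, FINAL part F6a: from a root decoder on word labels to an equivariant map on `V → I`.
-/

set_option autoImplicit false
set_option linter.style.haveILetI false

open Set MeasureTheory Measure unitInterval

universe u

namespace Crest.Agent.FreeIs

namespace FLab

theorem exists_psi : ∃ f : I → (ℕ × Bool → I), Measurable f ∧
    (volume : Measure I).map f = infinitePi (fun _ : ℕ × Bool => (volume : Measure I)) :=
  MeasureTheory.Measure.exists_measurable_map_eq (infinitePi (fun _ : ℕ × Bool => (volume : Measure I)))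

/-- one uniform label split into countably many independent uniform labels -/
noncomputable def psi : I → (ℕ × Bool → I) := Classical.choose exists_psi

theorem psi_measurable : Measurable psi := (Classical.choose_spec exists_psi).1

theorem psi_map : (volume : Measure I).map psi =
    infinitePi (fun _ : ℕ × Bool => (volume : Measure I)) := (Classical.choose_spec exists_psi).2

theorem map_reindex {A B : Type*} (g : B ≃ A) :
    (infinitePi (fun _ : A => (volume : Measure I))).map (fun x b => x (g b)) =
      infinitePi (fun _ : B => (volume : Measure I)) := by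
  classical
  have hm : Measurable (fun (x : A → I) (b : B) => x (g b)) := by
    rw [measurable_pi_iff]
    intro e
    exact measurable_pi_apply _
  apply eq_infinitePi
  intro s t ht
  rw [map_apply hm (MeasurableSet.pi s.countable_toSet (fun i _ => ht i))]
  have h1 : (fun (x : A → I) (b : B) => x (g b)) ⁻¹' (Set.pi s t) =
      Set.pi (s.map g.toEmbedding : Finset A) (fun e => t (g.symm e)) := by
    ext x
    simp only [mem_preimage, Set.mem_pi, Finset.mem_coe]
    constructor
    · intro H i hi
      obtain ⟨a, ha, rfl⟩ := Finset.mem_map.1 hi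
      have := H a ha
      rw [Equiv.coe_toEmbedding]
      rw [g.symm_apply_apply]
      exact this
    · intro H a ha
      have := H (g a) (Finset.mem_map_of_mem g.toEmbedding ha)
      rw [g.symm_apply_apply] at this
      exact this
  rw [h1, infinitePi_pi _ (fun i _ => ht _), Finset.prod_map]
  apply Finset.prod_congr rfl
  intro i _
  rw [Equiv.coe_toEmbedding, g.symm_apply_apply]

/-- the word labels read from the labels of `V` through the identification `φ` -/
noncomputable def wlab {V A : Type*} (g : A → V) (x : V → I) : A × ℕ × Bool → I :=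
  fun e => psi (x (g e.1)) e.2

theorem wlab_measurable {V A : Type*} (g : A → V) : Measurable (wlab g) := by
  rw [measurable_pi_iff]
  intro e
  exact (measurable_pi_apply e.2).comp (psi_measurable.comp (measurable_pi_apply (g e.1)))

theorem wlab_map {V A : Type*} (g : A ≃ V) :
    (infinitePi (fun _ : V => (volume : Measure I))).map (wlab g) =
      infinitePi (fun _ : A × ℕ × Bool => (volume : Measure I)) := by
  have hA : (infinitePi (fun _ : A => (volume : Measure I))).map (fun ξ i => psi (ξ i)) =
      infinitePi (fun _ : A => infinitePi (fun _ : ℕ × Bool => (volume : Measure I))) := by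
    rw [infinitePi_map_pi (fun _ : A => (volume : Measure I)) (f := fun _ => psi)
      (fun _ => psi_measurable)]
    simp only [psi_map]
  have hB := infinitePi_map_curry_symm (fun (_ : A) (_ : ℕ × Bool) => (volume : Measure I))
  have hψm : Measurable (fun (ξ : A → I) i => psi (ξ i)) := by
    rw [measurable_pi_iff]
    intro i
    exact psi_measurable.comp (measurable_pi_apply i)
  have hm : Measurable (fun (x : V → I) (b : A) => x (g b)) := by
    rw [measurable_pi_iff]
    intro e
    exact measurable_pi_apply _
  rw [← hB, ← hA, ← map_reindex g, map_map hψm hm,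
    map_map (MeasurableEquiv.measurable _) (hψm.comp hm)]
  rfl

end FLab

open FLab

/-- transport of the Ising weight -/
theorem isingWeight_map {V V' : Type*} {G : SimpleGraph V} {G' : SimpleGraph V'} (φ : G ≃g G')
    (θ : ℝ) (S : Finset V) (η : V → Bool) :
    Crest.ProbabilityR.TreeIsing.isingWeight G' θ (S.map φ.toEquiv.toEmbedding)
      (fun w => η (φ.symm w)) = Crest.ProbabilityR.TreeIsing.isingWeight G θ S η := by
  classical
  unfold Crest.ProbabilityR.TreeIsing.isingWeight
  congr 1
  rw [Finset.sym2_map, Finset.filter_map, Finset.prod_map]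
  apply Finset.prod_congr
  · ext e
    simp only [Finset.mem_filter, Function.comp_apply]
    apply and_congr_right
    intro _
    induction e with
    | h x y =>
      show G'.Adj (φ x) (φ y) ↔ G.Adj x y
      exact φ.map_rel_iff
  · intro e _
    induction e with
    | h x y =>
      show (if (s(η (φ.symm (φ x)), η (φ.symm (φ y))) : Sym2 Bool).IsDiag then (1 + θ) / 2
        else (1 - θ) / 2) = if (s(η x, η y) : Sym2 Bool).IsDiag then (1 + θ) / 2 else (1 - θ) / 2
      rw [φ.symm_apply_apply, φ.symm_apply_apply]

theorem induce_map_connected {V V' : Type*} {G : SimpleGraph V} {G' : SimpleGraph V'}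
    (φ : G ≃g G') (S : Finset V) (h : (G.induce (S : Set V)).Connected) :
    (G'.induce ((S.map φ.toEquiv.toEmbedding : Finset V') : Set V')).Connected := by
  let f : G.induce (S : Set V) →g
      G'.induce ((S.map φ.toEquiv.toEmbedding : Finset V') : Set V') :=
    { toFun := fun x => ⟨φ x.1, Finset.mem_coe.2 (Finset.mem_map_of_mem _ (Finset.mem_coe.1 x.2))⟩
      map_rel' := fun {a b} hab => by
        have h1 : G.Adj a.1 b.1 := hab
        show G'.Adj (φ a.1) (φ b.1)
        exact φ.map_rel_iff.2 h1 }
  apply h.map f
  rintro ⟨y, hy⟩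
  obtain ⟨x, hx, rfl⟩ := Finset.mem_map.1 (Finset.mem_coe.1 hy)
  exact ⟨⟨x, Finset.mem_coe.2 hx⟩, rfl⟩

/-- From a root decoder to an equivariant map. -/
theorem main_of_decode {q : ℕ} (hq : 2 ≤ q) (θ : ℝ) (F : Lab (W q) → Bool) (hF : Measurable F)
    (hFn : ∀ g : WG q ≃g WG q, g (wroot q) = wroot q → ∀ ω, F (act g ω) = F ω)
    (hFl : ∀ (S : Finset (W q)), wroot q ∈ S → ((WG q).induce (S : Set (W q))).Connected →
        ∀ (η : W q → Bool) (h : W q → (WG q ≃g WG q)), (∀ v ∈ S, h v (wroot q) = v) →
        (labP (W q)) {ω | ∀ v ∈ S, F (act (h v) ω) = η v} =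
          ENNReal.ofReal (Crest.ProbabilityR.TreeIsing.isingWeight (WG q) θ S η))
    (V : Type u) (G : SimpleGraph V) [G.LocallyFinite] (hT : G.IsTree)
    (hreg : G.IsRegularOfDegree (q + 1)) :
    ∃ Φ : (V → unitInterval) → (V → Bool),
      Measurable Φ ∧
      (∀ (g : G ≃g G) (x : V → unitInterval), Φ (x ∘ ⇑g) = Φ x ∘ ⇑g) ∧
      ∀ (S : Finset V) (η : V → Bool), (G.induce (S : Set V)).Connected →
        (Crest.ProbabilityR.Labels.labelMeasure V).map Φ {s | ∀ v ∈ S, s v = η v} =
          ENNReal.ofReal (Crest.ProbabilityR.TreeIsing.isingWeight G θ S η) := by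
  classical
  choose φ hφ using fun v => iso_words hq G hT hreg v
  set Φ : (V → I) → (V → Bool) := fun x v => F (wlab (φ v).symm x) with hΦ
  have hΦm : Measurable Φ := by
    rw [measurable_pi_iff]
    intro v
    exact hF.comp (wlab_measurable _)
  refine ⟨Φ, hΦm, ?_, ?_⟩
  · intro g x
    funext v
    show F (wlab (φ v).symm (x ∘ g)) = F (wlab (φ (g v)).symm x)
    have hroot : ((φ v).symm.trans (g.trans (φ (g v)))) (wroot q) = wroot q := by
      show φ (g v) (g ((φ v).symm (wroot q))) = wroot q
      have h1 : (φ v).symm (wroot q) = v := by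
        rw [← hφ v, (φ v).symm_apply_apply]
      rw [h1, hφ]
    rw [← hFn _ hroot (wlab (φ (g v)).symm x)]
    congr 1
    funext e
    show psi (x (g ((φ v).symm e.1))) e.2 =
      psi (x ((φ (g v)).symm (φ (g v) (g ((φ v).symm e.1))))) e.2
    rw [(φ (g v)).symm_apply_apply]
  · intro S η hS
    obtain ⟨v0, hv0⟩ : ∃ v0, v0 ∈ S := by
      obtain ⟨x⟩ := hS.nonempty
      exact ⟨x.1, Finset.mem_coe.1 x.2⟩
    set φ0 := φ v0 with hφ0
    set S' : Finset (W q) := S.map φ0.toEquiv.toEmbedding with hS'
    have hroot : wroot q ∈ S' := by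
      rw [hS', ← hφ v0]
      exact Finset.mem_map_of_mem _ hv0
    have hmem : ∀ v, v ∈ S → φ0 v ∈ S' := fun v hv => Finset.mem_map_of_mem _ hv
    have hconn := induce_map_connected φ0 S hS
    set h : W q → (WG q ≃g WG q) := fun u => (φ (φ0.symm u)).symm.trans φ0 with hh
    have hhr : ∀ v ∈ S', h v (wroot q) = v := by
      intro u _
      show φ0 ((φ (φ0.symm u)).symm (wroot q)) = u
      have h1 : (φ (φ0.symm u)).symm (wroot q) = φ0.symm u := by
        rw [← hφ (φ0.symm u), (φ (φ0.symm u)).symm_apply_apply]
      rw [h1, φ0.apply_symm_apply]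
    have key := hFl S' hroot hconn (fun w => η (φ0.symm w)) h hhr
    rw [isingWeight_map φ0 θ S η] at key
    rw [← key]
    have hset : MeasurableSet {s : V → Bool | ∀ v ∈ S, s v = η v} := by
      have : {s : V → Bool | ∀ v ∈ S, s v = η v} = ⋂ v ∈ S, {s | s v = η v} := by
        ext s; simp
      rw [this]
      apply Finset.measurableSet_biInter
      intro v _
      exact measurableSet_eq_fun (measurable_pi_apply v) measurable_const
    have hset' : MeasurableSet {ω : Lab (W q) | ∀ v ∈ S', F (act (h v) ω) = η (φ0.symm v)} := by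
      have : {ω : Lab (W q) | ∀ v ∈ S', F (act (h v) ω) = η (φ0.symm v)} =
          ⋂ v ∈ S', {ω | F (act (h v) ω) = η (φ0.symm v)} := by
        ext ω; simp
      rw [this]
      apply Finset.measurableSet_biInter
      intro v _
      have hact : Measurable (act (h v) : Lab (W q) → Lab (W q)) :=
        (act_measurePreserving (h v).toEquiv).measurable
      exact measurableSet_eq_fun (hF.comp hact) measurable_const
    have hlaw : (Crest.ProbabilityR.Labels.labelMeasure V).map (wlab φ0.symm) = labP (W q) :=
      wlab_map φ0.symm.toEquiv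
    rw [map_apply hΦm hset, ← hlaw, map_apply (wlab_measurable _) hset']
    congr 1
    ext x
    simp only [mem_preimage, mem_ofPred_eq]
    have hpt : ∀ v, Φ x v = F (act (h (φ0 v)) (wlab φ0.symm x)) := by
      intro v
      show F (wlab (φ v).symm x) = _
      congr 1
      funext e
      show psi (x ((φ v).symm e.1)) e.2 =
        psi (x (φ0.symm (φ0 ((φ (φ0.symm (φ0 v))).symm e.1)))) e.2
      rw [φ0.symm_apply_apply, φ0.symm_apply_apply]
    constructor
    · intro H u hu
      obtain ⟨v, hv, rfl⟩ := Finset.mem_map.1 hu
      have h1 := H v hv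
      rw [hpt] at h1
      show F (act (h (φ0 v)) (wlab φ0.symm x)) = η (φ0.symm (φ0 v))
      rw [φ0.symm_apply_apply]
      exact h1
    · intro H v hv
      have h1 := H (φ0 v) (hmem v hv)
      rw [φ0.symm_apply_apply] at h1
      rw [hpt]
      exact h1

end Crest.Agent.FreeIs
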