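import Crest.Agent.FreeIs.Bridge

/-!
S0241, module PASS: the root magnetisations form a Cauchy family as `θ` increases to the critical
point.
-/

set_option autoImplicit false
set_option linter.unusedVariables false

open MeasureTheory Filter Topology

namespace Crest.Agent.FreeIs

namespace Passage

open Crest.Agent.FreeIs.Rec

/-! ### real sequences -/

theorem bdd_above {u : ℕ → ℝ} {B : ℝ} (h : ∀ k, u k ≤ B) : IsBoundedUnder (· ≤ ·) atTop u :=
  isBoundedUnder_of ⟨B, h⟩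

theorem bdd_below {u : ℕ → ℝ} {B : ℝ} (h : ∀ k, B ≤ u k) : IsBoundedUnder (· ≥ ·) atTop u :=
  isBoundedUnder_of ⟨B, h⟩

theorem limsup_nonneg {u : ℕ → ℝ} {B : ℝ} (h0 : ∀ k, 0 ≤ u k) (h : ∀ k, u k ≤ B) :
    0 ≤ limsup u atTop :=
  le_limsup_of_frequently_le (Frequently.of_forall h0) (bdd_above h)

theorem limsup_le' {u : ℕ → ℝ} {B : ℝ} (h0 : ∀ k, 0 ≤ u k) (h : ∀ k, u k ≤ B) :
    limsup u atTop ≤ B :=
  limsup_le_of_le (bdd_below h0).isCoboundedUnder_le (Eventually.of_forall h)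

theorem limsup_le_G {u v H : ℕ → ℝ} {G : ℝ → ℝ} {h B : ℝ} (hG : Continuous G)
    (hGm : ∀ x y, 0 ≤ x → x ≤ y → G x ≤ G y) (hv0 : ∀ k, 0 ≤ v k) (hvB : ∀ k, v k ≤ B)
    (hu0 : ∀ k, 0 ≤ u k) (hH : Tendsto H atTop (𝓝 h)) (hle : ∀ k, u k ≤ G (v k) + H k) :
    limsup u atTop ≤ G (limsup v atTop) + h := by
  set f := limsup v atTop with hf
  have h1 : ∀ δ : ℝ, 0 < δ → limsup u atTop ≤ G (f + δ) + (h + δ) := by
    intro δ hδ
    have h2 : ∀ᶠ k in atTop, v k < f + δ :=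
      eventually_lt_of_limsup_lt (by linarith) (bdd_above hvB)
    have h3 : ∀ᶠ k in atTop, H k < h + δ := hH.eventually (gt_mem_nhds (by linarith))
    refine limsup_le_of_le (bdd_below hu0).isCoboundedUnder_le ?_
    filter_upwards [h2, h3] with k hk hk'
    have := hGm _ _ (hv0 k) hk.le
    linarith [hle k]
  have h4 : Tendsto (fun δ : ℝ => G (f + δ) + (h + δ)) (𝓝[>] 0) (𝓝 (G (f + 0) + (h + 0))) := by
    refine Tendsto.mono_left ?_ nhdsWithin_le_nhds
    have : Continuous fun δ : ℝ => G (f + δ) + (h + δ) := by fun_prop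
    exact this.tendsto 0
  rw [add_zero, add_zero] at h4
  refine ge_of_tendsto h4 ?_
  filter_upwards [self_mem_nhdsWithin] with δ hδ using h1 δ hδ

theorem limsup_add_le' {u v : ℕ → ℝ} {B : ℝ} (hu0 : ∀ k, 0 ≤ u k) (hu : ∀ k, u k ≤ B)
    (hv0 : ∀ k, 0 ≤ v k) (hv : ∀ k, v k ≤ B) :
    limsup (fun k => u k + v k) atTop ≤ limsup u atTop + limsup v atTop := by
  have h1 : ∀ δ : ℝ, 0 < δ → limsup (fun k => u k + v k) atTop
      ≤ (limsup u atTop + δ) + (limsup v atTop + δ) := by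
    intro δ hδ
    have h2 : ∀ᶠ k in atTop, v k < limsup v atTop + δ :=
      eventually_lt_of_limsup_lt (by linarith) (bdd_above hv)
    have h3 : ∀ᶠ k in atTop, u k < limsup u atTop + δ :=
      eventually_lt_of_limsup_lt (by linarith) (bdd_above hu)
    refine limsup_le_of_le (bdd_below (B := 0) fun k => add_nonneg (hu0 k)
      (hv0 k)).isCoboundedUnder_le ?_
    filter_upwards [h2, h3] with k hk hk'
    linarith
  refine le_of_forall_pos_le_add fun ε hε => ?_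
  have := h1 (ε / 2) (by linarith)
  linarith

/-- reverse Fatou for bounded functions on an interval -/
theorem limsup_integral_le {G : ℕ → ℝ → ℝ} {C0 : ℝ} (hG : ∀ k, Measurable (G k))
    (hG0 : ∀ k r, 0 ≤ G k r) (hGB : ∀ k r, G k r ≤ C0) {s0 s : ℝ} (hs : s0 ≤ s) :
    limsup (fun k => ∫ r in s0..s, G k r) atTop
      ≤ ∫ r in s0..s, limsup (fun k => G k r) atTop := by
  have hC0 : 0 ≤ C0 := (hG0 0 0).trans (hGB 0 0)
  simp only [intervalIntegral.integral_of_le hs]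
  have hint : ∀ k, Integrable (G k) (volume.restrict (Set.Ioc s0 s)) := fun k =>
    Integrable.of_bound (hG k).aestronglyMeasurable C0 (ae_of_all _ fun r => by
      rw [Real.norm_eq_abs, abs_of_nonneg (hG0 k r)]; exact hGB k r)
  have hL0 : ∀ r, 0 ≤ limsup (fun k => G k r) atTop := fun r =>
    limsup_nonneg (fun k => hG0 k r) fun k => hGB k r
  have hLB : ∀ r, limsup (fun k => G k r) atTop ≤ C0 := fun r =>
    limsup_le' (fun k => hG0 k r) fun k => hGB k r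
  have hLm : Measurable fun r => limsup (fun k => G k r) atTop := Measurable.limsup hG
  have e1 : ∀ k, ∫ r in Set.Ioc s0 s, G k r
      = (∫⁻ r in Set.Ioc s0 s, ENNReal.ofReal (G k r)).toReal := fun k =>
    integral_eq_lintegral_of_nonneg_ae (ae_of_all _ (hG0 k)) (hG k).aestronglyMeasurable
  have e2 : ∫ r in Set.Ioc s0 s, limsup (fun k => G k r) atTop
      = (∫⁻ r in Set.Ioc s0 s, ENNReal.ofReal (limsup (fun k => G k r) atTop)).toReal :=
    integral_eq_lintegral_of_nonneg_ae (ae_of_all _ hL0) hLm.aestronglyMeasurable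
  have hfin : ∫⁻ r in Set.Ioc s0 s, ENNReal.ofReal C0 ≠ ⊤ := by
    rw [lintegral_const]
    refine ENNReal.mul_ne_top ENNReal.ofReal_ne_top ?_
    simp
  have hb : ∀ k, ∫⁻ r in Set.Ioc s0 s, ENNReal.ofReal (G k r)
      ≤ ∫⁻ r in Set.Ioc s0 s, ENNReal.ofReal C0 := fun k =>
    lintegral_mono fun r => ENNReal.ofReal_le_ofReal (hGB k r)
  simp only [e1]
  rw [e2, ENNReal.limsup_toReal_eq hfin (Eventually.of_forall hb)]
  refine ENNReal.toReal_mono ?_ ?_
  · refine ne_top_of_le_ne_top hfin (lintegral_mono fun r => ENNReal.ofReal_le_ofReal (hLB r))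
  · refine (limsup_lintegral_le (fun _ => ENNReal.ofReal C0) (fun k => (hG k).ennreal_ofReal)
      (fun k => ae_of_all _ fun r => ENNReal.ofReal_le_ofReal (hGB k r)) hfin).trans ?_
    refine lintegral_mono fun r => ?_
    have h5 := ENNReal.limsup_toReal_eq (f := atTop) (u := fun k => ENNReal.ofReal (G k r))
      (b := ENNReal.ofReal C0) ENNReal.ofReal_ne_top
      (Eventually.of_forall fun k => ENNReal.ofReal_le_ofReal (hGB k r))
    simp only [ENNReal.toReal_ofReal (hG0 _ r)] at h5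
    simp only
    rw [h5, ENNReal.ofReal_toReal]
    refine ne_top_of_le_ne_top (ENNReal.ofReal_ne_top (r := C0)) ?_
    exact limsup_le_of_le (by isBoundedDefault)
      (Eventually.of_forall fun k => ENNReal.ofReal_le_ofReal (hGB k r))

theorem limsup_int {F G : ℕ → ℝ → ℝ} {B C0 : ℝ} (hF0 : ∀ k s, 0 ≤ F k s) (hFB : ∀ k s, F k s ≤ B)
    (hG : ∀ k, Measurable (G k)) (hG0 : ∀ k r, 0 ≤ G k r) (hGB : ∀ k r, G k r ≤ C0) {s0 s : ℝ}
    (hs : s0 ≤ s) (h : ∀ k, F k s ≤ F k s0 + ∫ r in s0..s, G k r) :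
    limsup (fun k => F k s) atTop
      ≤ limsup (fun k => F k s0) atTop + ∫ r in s0..s, limsup (fun k => G k r) atTop := by
  have hC0 : 0 ≤ C0 := (hG0 0 0).trans (hGB 0 0)
  have hI0 : ∀ k, 0 ≤ ∫ r in s0..s, G k r := fun k =>
    intervalIntegral.integral_nonneg hs fun r _ => hG0 k r
  have hIB : ∀ k, ∫ r in s0..s, G k r ≤ C0 * (s - s0) := by
    intro k
    have : ∫ r in s0..s, G k r ≤ ∫ r in s0..s, C0 := by
      refine intervalIntegral.integral_mono_on hs ?_ intervalIntegrable_const fun r _ => hGB k r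
      rw [intervalIntegrable_iff_integrableOn_Ioc_of_le hs]
      exact Integrable.of_bound (hG k).aestronglyMeasurable C0 (ae_of_all _ fun r => by
        rw [Real.norm_eq_abs, abs_of_nonneg (hG0 k r)]; exact hGB k r)
    refine this.trans ?_
    rw [intervalIntegral.integral_const, smul_eq_mul, mul_comm]
  set B' := max B (C0 * (s - s0)) with hB'
  calc limsup (fun k => F k s) atTop ≤ limsup (fun k => F k s0 + ∫ r in s0..s, G k r) atTop := by
        refine limsup_le_limsup (Eventually.of_forall h) (bdd_below fun k => hF0 k s).isCoboundedUnder_le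
          (bdd_above (B := B' + B') fun k => ?_)
        exact add_le_add ((hFB k s0).trans (le_max_left _ _)) ((hIB k).trans (le_max_right _ _))
    _ ≤ limsup (fun k => F k s0) atTop + limsup (fun k => ∫ r in s0..s, G k r) atTop :=
        limsup_add_le' (B := B') (fun k => hF0 k s0) (fun k => (hFB k s0).trans (le_max_left _ _))
          hI0 (fun k => (hIB k).trans (le_max_right _ _))
    _ ≤ _ := by
        have := limsup_integral_le hG hG0 hGB hs
        linarith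

/-! ### the model -/

variable {q : ℕ}

/-- squared distance of the two systems at time `s ∈ [0,1]` -/
noncomputable def FF (q : ℕ) (θ θ' : ℝ) (j : ℕ) : ℝ → ℝ :=
  (Set.Icc (0 : ℝ) 1).indicator fun s => nn (Mr q θ j s) (Mr q θ' j s)

/-- its rate of growth -/
noncomputable def GG (q : ℕ) (θ θ' : ℝ) (j : ℕ) (r : ℝ) : ℝ :=
  (r / 4) * (Set.Icc (0 : ℝ) 1).indicator (fun r => Rt θ θ' (Mr q θ j r) (Mr q θ' j r)) r

theorem nn_nonneg (M M' : Lab (W q) → ℝ) : 0 ≤ nn M M' := integral_nonneg fun ω => sq_nonneg _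

theorem Rt_nonneg (θ θ' : ℝ) (M M' : Lab (W q) → ℝ) : 0 ≤ Rt θ θ' M M' :=
  tsum_nonneg fun w => integral_nonneg fun ω => by positivity

theorem nn_le (hq : 2 ≤ q) {θ θ' : ℝ} (h0 : 0 ≤ θ) (h1 : q * θ ^ 2 ≤ 1) (h0' : 0 ≤ θ')
    (h1' : q * θ' ^ 2 ≤ 1) (j : ℕ) {r : ℝ} (hr0 : 0 ≤ r) (hr : r ≤ 1) :
    nn (Mr q θ j r) (Mr q θ' j r) ≤ 4 := by
  obtain ⟨μ, hμ0, hμ1, hμ⟩ := Mr_bound j hq
  unfold nn
  have hb : ∀ ω, (Mr q θ j r ω - Mr q θ' j r ω) ^ 2 ≤ 4 := by
    intro ω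
    have a1 := abs_le.1 (hμ θ h0 h1 r hr0 hr ω)
    have a2 := abs_le.1 (hμ θ' h0' h1' r hr0 hr ω)
    have : |Mr q θ j r ω - Mr q θ' j r ω| ≤ 2 := by
      rw [abs_le]; constructor <;> linarith
    rw [← sq_abs]
    nlinarith [abs_nonneg (Mr q θ j r ω - Mr q θ' j r ω)]
  have : ∫ ω, (Mr q θ j r ω - Mr q θ' j r ω) ^ 2 ∂(labP (W q)) ≤ ∫ ω, (4 : ℝ) ∂(labP (W q)) := by
    refine integral_mono_of_nonneg (ae_of_all _ fun ω => sq_nonneg _) (integrable_const _)
      (ae_of_all _ hb)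
  simpa using this

theorem FF_nonneg (θ θ' : ℝ) (j : ℕ) (s : ℝ) : 0 ≤ FF q θ θ' j s :=
  Set.indicator_nonneg (fun s _ => nn_nonneg _ _) s

theorem FF_le (hq : 2 ≤ q) {θ θ' : ℝ} (h0 : 0 ≤ θ) (h1 : q * θ ^ 2 ≤ 1) (h0' : 0 ≤ θ')
    (h1' : q * θ' ^ 2 ≤ 1) (j : ℕ) (s : ℝ) : FF q θ θ' j s ≤ 4 := by
  unfold FF
  by_cases hs : s ∈ Set.Icc (0 : ℝ) 1
  · rw [Set.indicator_of_mem hs]
    exact nn_le hq h0 h1 h0' h1' j hs.1 hs.2
  · rw [Set.indicator_of_notMem hs]; norm_num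

theorem FF_eq (θ θ' : ℝ) (j : ℕ) {s : ℝ} (h0 : 0 ≤ s) (h1 : s ≤ 1) :
    FF q θ θ' j s = nn (Mr q θ j s) (Mr q θ' j s) := by
  unfold FF
  rw [Set.indicator_of_mem (Set.mem_Icc.2 ⟨h0, h1⟩)]

theorem GG_eq (θ θ' : ℝ) (j : ℕ) {r : ℝ} (h0 : 0 ≤ r) (h1 : r ≤ 1) :
    GG q θ θ' j r = (r / 4) * Rt θ θ' (Mr q θ j r) (Mr q θ' j r) := by
  unfold GG
  rw [Set.indicator_of_mem (Set.mem_Icc.2 ⟨h0, h1⟩)]

theorem GG_out (θ θ' : ℝ) (j : ℕ) {r : ℝ} (h : r ∉ Set.Icc (0 : ℝ) 1) : GG q θ θ' j r = 0 := by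
  unfold GG
  rw [Set.indicator_of_notMem h, mul_zero]

theorem GG_nonneg (θ θ' : ℝ) (j : ℕ) (r : ℝ) : 0 ≤ GG q θ θ' j r := by
  by_cases h : r ∈ Set.Icc (0 : ℝ) 1
  · rw [GG_eq θ θ' j h.1 h.2]
    exact mul_nonneg (by linarith [h.1]) (Rt_nonneg _ _ _ _)
  · rw [GG_out θ θ' j h]

theorem measurable_FF (θ θ' : ℝ) (j : ℕ) : Measurable (FF q θ θ' j) := by
  unfold FF nn
  refine Measurable.indicator ?_ measurableSet_Icc
  have h1 := measurable_Mr (q := q) θ j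
  have h2 := measurable_Mr (q := q) θ' j
  have h3 : Measurable (Function.uncurry fun (ω : Lab (W q)) (s : ℝ) =>
      (Mr q θ j s ω - Mr q θ' j s ω) ^ 2) := (h1.sub h2).pow_const 2
  exact (h3.stronglyMeasurable.integral_prod_left (μ := labP (W q))).measurable

theorem measurable_GG (hq : 2 ≤ q) {θ θ' : ℝ} (h0 : 0 ≤ θ) (h1 : q * θ ^ 2 < 1) (h0' : 0 ≤ θ')
    (h1' : q * θ' ^ 2 < 1) (j : ℕ) : Measurable (GG q θ θ' j) :=
  (measurable_id.div_const 4).mul (measurable_Rt hq h0 h1 h0' h1' j)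

theorem FF_int (hq : 2 ≤ q) {θ θ' : ℝ} (h0 : 0 ≤ θ) (h1 : q * θ ^ 2 < 1) (h0' : 0 ≤ θ')
    (h1' : q * θ' ^ 2 < 1) (j : ℕ) {s0 s : ℝ} (hs0 : 0 ≤ s0) (hs : s0 ≤ s) (hs1 : s ≤ 1) :
    FF q θ θ' j s ≤ FF q θ θ' j s0 + ∫ r in s0..s, GG q θ θ' j r := by
  rw [FF_eq θ θ' j (hs0.trans hs) hs1, FF_eq θ θ' j hs0 (hs.trans hs1)]
  refine (pair_inf hq h0 h1 h0' h1' j hs0 hs hs1).trans ?_
  refine add_le_add le_rfl (le_of_eq ?_)
  refine intervalIntegral.integral_congr fun r hr => ?_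
  rw [Set.uIcc_of_le hs] at hr
  exact (GG_eq θ θ' j (hs0.trans hr.1) (hr.2.trans hs1)).symm

/-! ### sequences of parameters -/

theorem dist_tendsto {θs : ℕ → ℝ} (hc : CauchySeq θs) {a b : ℕ → ℕ} (ha : Tendsto a atTop atTop)
    (hb : Tendsto b atTop atTop) : Tendsto (fun k => θs (a k) - θs (b k)) atTop (𝓝 0) := by
  obtain ⟨l, hl⟩ := cauchySeq_tendsto_of_complete hc
  have := (hl.comp ha).sub (hl.comp hb)
  rw [sub_self] at this
  exact this

theorem theta_cauchy (hq : 2 ≤ q) {θs : ℕ → ℝ} (hmono : Monotone θs)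
    (h1 : ∀ n, q * (θs n) ^ 2 < 1) : CauchySeq θs :=
  (tendsto_atTop_ciSup hmono ⟨1, by
    rintro _ ⟨n, rfl⟩; exact (theta_lt_one hq (h1 n).le).le⟩).cauchySeq

/-- the bound coming from `coh`, any parameter `s` -/
theorem coh_limit (hq : 2 ≤ q) {θs : ℕ → ℝ} (hmono : Monotone θs) (h0 : ∀ n, 0 < θs n)
    (h1 : ∀ n, q * (θs n) ^ 2 < 1) {a b : ℕ → ℕ} (ha : Tendsto a atTop atTop)
    (hb : Tendsto b atTop atTop) (j : ℕ) {r s c C' : ℝ} (hr0 : 0 ≤ r) (hr : r ≤ 1) (hs0 : 0 < s)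
    (hC' : 0 ≤ C') (hc0 : 0 < c * s) (hc1 : c * s ≤ 1) {κ : ℝ} (hκ0 : 0 ≤ κ) (hκ : r / 4 ≤ κ)
    (hR : ∀ k' (L k : ℕ), Rt (θs (a k')) (θs (b k')) (Mr q (θs (a k')) j r) (Mr q (θs (b k')) j r)
      ≤ C' * ((1 / s + k) ^ 2 * (nn (Mr q (θs (a k')) j r) (Mr q (θs (b k')) j r)
        + |θs (a k') - θs (b k')| + Real.exp (-(2 : ℝ) ^ k))
        + L ^ 3 * |θs (a k') - θs (b k')| + (1 / s) * (1 - c * s) ^ L)) (k : ℕ) :
    limsup (fun k' => GG q (θs (a k')) (θs (b k')) j r) atTop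
      ≤ κ * C' * ((1 / s + k) ^ 2 *
        (limsup (fun k' => FF q (θs (a k')) (θs (b k')) j r) atTop + Real.exp (-(2 : ℝ) ^ k))) := by
  have hθ : Tendsto (fun k => |θs (a k) - θs (b k)|) atTop (𝓝 0) := by
    have := (dist_tendsto (theta_cauchy hq hmono h1) ha hb).abs
    rwa [abs_zero] at this
  have key : ∀ L : ℕ, limsup (fun k' => GG q (θs (a k')) (θs (b k')) j r) atTop
      ≤ κ * C' * ((1 / s + k) ^ 2 *
        (limsup (fun k' => FF q (θs (a k')) (θs (b k')) j r) atTop + Real.exp (-(2 : ℝ) ^ k)))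
        + κ * C' * ((1 / s) * (1 - c * s) ^ L) := by
    intro L
    refine limsup_le_G (v := fun k' => FF q (θs (a k')) (θs (b k')) j r)
      (H := fun k' => κ * C' * ((1 / s + k) ^ 2 * |θs (a k') - θs (b k')|
        + L ^ 3 * |θs (a k') - θs (b k')| + (1 / s) * (1 - c * s) ^ L))
      (G := fun x => κ * C' * ((1 / s + k) ^ 2 * (x + Real.exp (-(2 : ℝ) ^ k)))) (B := 4)
      (by fun_prop) ?_ (fun k' => FF_nonneg _ _ _ _)
      (fun k' => FF_le hq (h0 _).le (h1 _).le (h0 _).le (h1 _).le j r)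
      (fun k' => GG_nonneg _ _ _ _) ?_ ?_
    · intro x y _ hxy
      have : 0 ≤ κ * C' * (1 / s + k) ^ 2 := by positivity
      nlinarith
    · have h3 : Tendsto (fun k' => κ * C' * ((1 / s + k) ^ 2 * |θs (a k') - θs (b k')|
        + L ^ 3 * |θs (a k') - θs (b k')| + (1 / s) * (1 - c * s) ^ L)) atTop
        (𝓝 (κ * C' * ((1 / s + k) ^ 2 * 0 + L ^ 3 * 0 + (1 / s) * (1 - c * s) ^ L))) :=
        (((hθ.const_mul _).add (hθ.const_mul _)).add_const _).const_mul _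
      rw [mul_zero, mul_zero, zero_add, zero_add] at h3
      exact h3
    · intro k'
      rw [GG_eq _ _ j hr0 hr, FF_eq _ _ j hr0 hr]
      have h4 := hR k' L k
      have h5 := Rt_nonneg (θs (a k')) (θs (b k')) (Mr q (θs (a k')) j r) (Mr q (θs (b k')) j r)
      calc _ ≤ κ * Rt (θs (a k')) (θs (b k')) (Mr q (θs (a k')) j r) (Mr q (θs (b k')) j r) :=
            mul_le_mul_of_nonneg_right hκ h5
        _ ≤ κ * _ := mul_le_mul_of_nonneg_left h4 hκ0
        _ = _ := by ring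
  have h6 : Tendsto (fun L : ℕ => κ * C' * ((1 / s + k) ^ 2 *
        (limsup (fun k' => FF q (θs (a k')) (θs (b k')) j r) atTop + Real.exp (-(2 : ℝ) ^ k)))
        + κ * C' * ((1 / s) * (1 - c * s) ^ L)) atTop (𝓝 (κ * C' * ((1 / s + k) ^ 2 *
        (limsup (fun k' => FF q (θs (a k')) (θs (b k')) j r) atTop + Real.exp (-(2 : ℝ) ^ k)))
        + κ * C' * ((1 / s) * 0))) :=
    (((tendsto_pow_atTop_nhds_zero_of_lt_one (by linarith) (by linarith)).const_mul _).const_mul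
      _).const_add _
  rw [mul_zero, mul_zero, add_zero] at h6
  exact ge_of_tendsto' h6 key

/-! ### the incoherent bound -/

theorem exp_poly {c x : ℝ} (hc : 0 < c) (hx : 0 ≤ x) (n : ℕ) :
    Real.exp (-(c * x)) * x ^ n ≤ n.factorial / c ^ n := by
  have h1 : (c * x) ^ n / n.factorial ≤ Real.exp (c * x) :=
    Real.pow_div_factorial_le_exp _ (by positivity) n
  rw [div_le_iff₀ (by positivity)] at h1
  rw [Real.exp_neg, le_div_iff₀ (by positivity)]
  rw [mul_pow] at h1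
  have h2 := Real.exp_pos (c * x)
  calc (Real.exp (c * x))⁻¹ * x ^ n * c ^ n = (c ^ n * x ^ n) / Real.exp (c * x) := by
        field_simp
    _ ≤ n.factorial := by
        rw [div_le_iff₀ h2]
        linarith

theorem le_four_rpow {f e : ℝ} (hf0 : 0 ≤ f) (hf : f ≤ 4) (he0 : 0 ≤ e) (he : e ≤ 1) :
    f ≤ 4 * f ^ e := by
  have h0 : 0 ≤ f ^ e := Real.rpow_nonneg hf0 e
  rcases le_or_gt f 1 with h | h
  · rcases hf0.eq_or_lt with h' | h'
    · rw [← h'] at h0 ⊢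
      linarith
    · have := Real.rpow_le_rpow_of_exponent_ge h' h he
      rw [Real.rpow_one] at this
      linarith
  · have := Real.one_le_rpow h.le he0
    linarith

theorem inc_real {C c : ℝ} (hC : 0 ≤ C) (hc : 0 < c) (p : ℕ) : ∃ C' : ℝ, 0 ≤ C' ∧
    ∀ (r f e : ℝ), 0 < r → r ≤ 1 → c * r ≤ 1 → 0 ≤ f → f ≤ 4 → 0 ≤ e → e ≤ 1 →
    ∃ L : ℕ, 1 ≤ L ∧
      (r / 4) * C * (L * f + L ^ 2 * (r * f ^ e)) + (r / 4) * C * ((1 / r) * (1 - c * r) ^ L)
        ≤ C' * (r ^ (-(1 / 5 : ℝ)) * f ^ e + r ^ p) := by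
  set K : ℝ := (10 * p).factorial / c ^ (10 * p) with hK
  have hK0 : 0 ≤ K := by positivity
  refine ⟨C * (3 + K), by positivity, fun r f e hr0 hr hcr hf0 hf he0 he => ?_⟩
  set x : ℝ := r ^ (-(1 / 10 : ℝ)) with hx
  have hx0 : 0 < x := Real.rpow_pos_of_pos hr0 _
  have hx1 : 1 ≤ x := Real.one_le_rpow_of_pos_of_le_one_of_nonpos hr0 hr (by norm_num)
  have hxr : x ^ 10 * r = 1 := by
    rw [hx, ← Real.rpow_natCast, ← Real.rpow_mul hr0.le]
    norm_num
    rw [Real.rpow_neg_one]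
    field_simp
  have hx2 : r ^ (-(1 / 5 : ℝ)) = x ^ 2 := by
    rw [hx, ← Real.rpow_natCast, ← Real.rpow_mul hr0.le]
    norm_num
  set L : ℕ := ⌈x ^ 11⌉₊ with hL
  have hLx : x ^ 11 ≤ L := Nat.le_ceil _
  have hL1 : (L : ℝ) < x ^ 11 + 1 := Nat.ceil_lt_add_one (by positivity)
  have hx11 : (1 : ℝ) ≤ x ^ 11 := one_le_pow₀ hx1
  have hL2 : (L : ℝ) ≤ 2 * x ^ 11 := by linarith
  have hLpos : 1 ≤ L := by
    have : (1 : ℝ) ≤ L := hx11.trans hLx
    exact_mod_cast this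
  refine ⟨L, hLpos, ?_⟩
  have hfe : 0 ≤ f ^ e := Real.rpow_nonneg hf0 e
  have hf4 := le_four_rpow hf0 hf he0 he
  have hL0 : (0 : ℝ) ≤ L := Nat.cast_nonneg _
  -- first term
  have t1 : r * (L * f) ≤ 8 * (x ^ 2 * f ^ e) := by
    have a1 : L * f ≤ (2 * x ^ 11) * (4 * f ^ e) := mul_le_mul hL2 hf4 hf0 (by positivity)
    have a2 : r * (L * f) ≤ r * ((2 * x ^ 11) * (4 * f ^ e)) := mul_le_mul_of_nonneg_left a1 hr0.le
    have a3 : r * ((2 * x ^ 11) * (4 * f ^ e)) = 8 * ((x ^ 10 * r) * x * f ^ e) := by ring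
    rw [a3, hxr, one_mul] at a2
    refine a2.trans ?_
    have : x ≤ x ^ 2 := by nlinarith
    nlinarith
  have t2 : r * (L ^ 2 * (r * f ^ e)) ≤ 4 * (x ^ 2 * f ^ e) := by
    have a1 : (L : ℝ) ^ 2 ≤ (2 * x ^ 11) ^ 2 := pow_le_pow_left₀ hL0 hL2 2
    have a2 : r * (L ^ 2 * (r * f ^ e)) ≤ r * ((2 * x ^ 11) ^ 2 * (r * f ^ e)) := by
      refine mul_le_mul_of_nonneg_left (mul_le_mul_of_nonneg_right a1 (by positivity)) hr0.le
    have a3 : r * ((2 * x ^ 11) ^ 2 * (r * f ^ e)) = 4 * ((x ^ 10 * r) ^ 2 * x ^ 2 * f ^ e) := by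
      ring
    rw [a3, hxr, one_pow, one_mul] at a2
    exact a2
  have t3 : (1 - c * r) ^ L ≤ K * r ^ p := by
    have a1 : (1 - c * r) ^ L ≤ Real.exp (-(c * x)) := by
      have b1 : 1 - c * r ≤ Real.exp (-(c * r)) := by
        have := Real.add_one_le_exp (-(c * r)); linarith
      have b2 : (1 - c * r) ^ L ≤ (Real.exp (-(c * r))) ^ L :=
        pow_le_pow_left₀ (by linarith) b1 L
      refine b2.trans ?_
      rw [← Real.exp_nat_mul]
      refine Real.exp_le_exp.2 ?_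
      have b3 : x ≤ L * r := by
        have : x = x ^ 11 * r := by
          calc x = (x ^ 10 * r) * x := by rw [hxr, one_mul]
            _ = x ^ 11 * r := by ring
        calc x = x ^ 11 * r := this
          _ ≤ L * r := mul_le_mul_of_nonneg_right hLx hr0.le
      nlinarith
    have a2 := exp_poly hc hx0.le (10 * p)
    have a3 : (x ^ (10 * p)) * r ^ p = 1 := by
      rw [pow_mul, ← mul_pow, hxr, one_pow]
    calc (1 - c * r) ^ L ≤ Real.exp (-(c * x)) := a1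
      _ = (Real.exp (-(c * x)) * x ^ (10 * p)) * r ^ p := by
          rw [mul_assoc, a3, mul_one]
      _ ≤ K * r ^ p := mul_le_mul_of_nonneg_right a2 (by positivity)
  have e1 : (r / 4) * C * (L * f + L ^ 2 * (r * f ^ e)) + (r / 4) * C * ((1 / r) * (1 - c * r) ^ L)
      = (C / 4) * (r * (L * f) + r * (L ^ 2 * (r * f ^ e)) + (1 - c * r) ^ L) := by
    field_simp
  rw [e1, hx2]
  have hrp : 0 ≤ r ^ p := by positivity
  have hxf : 0 ≤ x ^ 2 * f ^ e := by positivity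
  calc (C / 4) * (r * (L * f) + r * (L ^ 2 * (r * f ^ e)) + (1 - c * r) ^ L)
      ≤ (C / 4) * (8 * (x ^ 2 * f ^ e) + 4 * (x ^ 2 * f ^ e) + K * r ^ p) :=
        mul_le_mul_of_nonneg_left (by linarith) (by positivity)
    _ ≤ C * (3 + K) * (x ^ 2 * f ^ e + r ^ p) := by
        have : 0 ≤ C * (K * (x ^ 2 * f ^ e)) := by positivity
        have : 0 ≤ C * r ^ p := by positivity
        have : 0 ≤ C * (K * r ^ p) := by positivity
        nlinarith

theorem round0 (hq : 2 ≤ q) {θs : ℕ → ℝ} (hmono : Monotone θs) (h0 : ∀ n, 0 < θs n)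
    (h1 : ∀ n, q * (θs n) ^ 2 < 1) {a b : ℕ → ℕ} (ha : Tendsto a atTop atTop)
    (hb : Tendsto b atTop atTop) :
    Tendsto (fun k => nn (Mr q (θs (a k)) 0 1) (Mr q (θs (b k)) 0 1)) atTop (𝓝 0) := by
  obtain ⟨c, C, hc, hC, hF⟩ := facts0 hq
  obtain ⟨C', hC', hcoh⟩ := coh hq hc hC
  obtain ⟨D, hD⟩ := Rt_le hq hc hC
  have hθ : Tendsto (fun k => |θs (a k) - θs (b k)|) atTop (𝓝 0) := by
    have := (dist_tendsto (theta_cauchy hq hmono h1) ha hb).abs
    rwa [abs_zero] at this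
  have hfacts : ∀ n r, 0 < r → r ≤ 1 → Facts q (θs n) r c C (Mr q (θs n) 0 r) := fun n r hr0 hr =>
    hF (θs n) (h0 n) (h1 n) r hr0 hr
  have hD0 : 0 ≤ D := by
    have h3 := hD (θs 0) (θs 0) 1 (Mr q (θs 0) 0 1) (Mr q (θs 0) 0 1) (h0 0).le (h1 0) (h0 0).le
      (h1 0) one_pos le_rfl (hfacts 0 1 one_pos le_rfl) (hfacts 0 1 one_pos le_rfl)
    have h4 := Rt_nonneg (θs 0) (θs 0) (Mr q (θs 0) 0 1) (Mr q (θs 0) 0 1)
    rw [div_one] at h3
    linarith
  have hGB : ∀ k r, GG q (θs (a k)) (θs (b k)) 0 r ≤ D := by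
    intro k r
    by_cases hr : r ∈ Set.Icc (0 : ℝ) 1
    · rw [GG_eq _ _ 0 hr.1 hr.2]
      rcases hr.1.eq_or_lt with h | h
      · rw [← h]; simpa using hD0
      · have := hD (θs (a k)) (θs (b k)) r (Mr q (θs (a k)) 0 r) (Mr q (θs (b k)) 0 r) (h0 _).le
          (h1 _) (h0 _).le (h1 _) h hr.2 (hfacts _ r h hr.2) (hfacts _ r h hr.2)
        calc (r / 4) * _ ≤ (r / 4) * (D / r) := mul_le_mul_of_nonneg_left this (by positivity)
          _ = D / 4 := by field_simp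
          _ ≤ D := by linarith
    · rw [GG_out _ _ 0 hr]; exact hD0
  set F : ℕ → ℝ → ℝ := fun k => FF q (θs (a k)) (θs (b k)) 0 with hFdef
  set G : ℕ → ℝ → ℝ := fun k => GG q (θs (a k)) (θs (b k)) 0 with hGdef
  have hFB : ∀ k s, F k s ≤ 4 := fun k s =>
    FF_le hq (h0 _).le (h1 _).le (h0 _).le (h1 _).le 0 s
  have hF0 : ∀ k s, 0 ≤ F k s := fun k s => FF_nonneg _ _ _ _
  have hG0 : ∀ k s, 0 ≤ G k s := fun k s => GG_nonneg _ _ _ _
  have hGm : ∀ k, Measurable (G k) := fun k => measurable_GG hq (h0 _).le (h1 _) (h0 _).le (h1 _) 0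
  have hFm : ∀ k, Measurable (F k) := fun k => measurable_FF _ _ 0
  have hres := ode0 (fun s => limsup (fun k => F k s) atTop) (fun r => limsup (fun k => G k r) atTop)
    (Measurable.limsup hFm) (Measurable.limsup hGm) D
    (fun s => limsup_nonneg (fun k => hF0 k s) fun k => hFB k s)
    (fun s => limsup_le' (fun k => hF0 k s) fun k => hFB k s)
    (fun s => limsup_nonneg (fun k => hG0 k s) fun k => hGB k s)
    (fun r _ _ => limsup_le' (fun k => hG0 k r) fun k => hGB k r)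
    (fun s0 s hs0 hs hs1 => limsup_int hF0 hFB hGm hG0 hGB hs fun k =>
      FF_int hq (h0 _).le (h1 _) (h0 _).le (h1 _) 0 hs0 hs hs1)
    ?_ ?_ ?_ 1 zero_le_one le_rfl
  · -- conclusion
    have e : ∀ k, F k 1 = nn (Mr q (θs (a k)) 0 1) (Mr q (θs (b k)) 0 1) := fun k =>
      FF_eq _ _ 0 zero_le_one le_rfl
    refine tendsto_order.2 ⟨fun x hx => Eventually.of_forall fun k => hx.trans_le (nn_nonneg _ _),
      fun x hx => ?_⟩
    have := eventually_lt_of_limsup_lt (hres.trans_lt hx) (bdd_above (fun k => hFB k 1))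
    filter_upwards [this] with k hk
    rw [← e k]; exact hk
  · -- incoherent bound
    intro p hp
    obtain ⟨Cp, hCp⟩ := mom0 hq p (by omega)
    obtain ⟨μ1, hμ10, hμ11, hμ1⟩ := Mr_bound 0 hq
    obtain ⟨μ2, hμ20, hμ21, hμ2⟩ := msg_bound 0 hq
    obtain ⟨E, hE0, hE⟩ := inc hq (θ0 := θs 0) (μ := max μ1 μ2) (c := c) (Cp := max Cp 0) (h0 0)
      (hμ10.trans (le_max_left _ _)) (max_lt hμ11 hμ21) hc (le_max_right _ _) p (by omega)
    obtain ⟨E', hE'0, hE'⟩ := inc_real hE0 hc p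
    refine ⟨E', fun r hr0 hr => ?_⟩
    have hcr : c * r ≤ 1 := (hfacts 0 r hr0 hr).cle
    have he0 : 0 ≤ 1 - 1 / (p : ℝ) := by
      have : (2 : ℝ) ≤ p := by exact_mod_cast hp
      rw [sub_nonneg, div_le_one (by linarith)]; linarith
    have he1 : 1 - 1 / (p : ℝ) ≤ 1 := by
      have : 0 ≤ 1 / (p : ℝ) := by positivity
      linarith
    obtain ⟨L, hL, hreal⟩ := hE' r (limsup (fun k => F k r) atTop) (1 - 1 / (p : ℝ)) hr0 hr hcr
      (limsup_nonneg (fun k => hF0 k r) fun k => hFB k r)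
      (limsup_le' (fun k => hF0 k r) fun k => hFB k r) he0 he1
    refine le_trans ?_ hreal
    have hmlg : Tendsto (fun k => ∑ i, (mlg (θs (a k)) (Mr q (θs (a k)) 0 r) i
        - mlg (θs (b k)) (Mr q (θs (b k)) 0 r) i) ^ 2) atTop (𝓝 0) := by
      have h5 : ∀ i : Fin (q + 1), Tendsto (fun k => (mlg (θs (a k)) (Mr q (θs (a k)) 0 r) i
        - mlg (θs (b k)) (Mr q (θs (b k)) 0 r) i) ^ 2) atTop (𝓝 0) := by
        intro i
        have := (dist_tendsto (mlg_cauchy hq θs hmono h0 h1 hr0.le hr i) ha hb).pow 2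
        rwa [zero_pow two_ne_zero] at this
      have := tendsto_finsetSum Finset.univ fun i _ => h5 i
      simpa using this
    refine limsup_le_G (v := fun k' => F k' r)
      (H := fun k' => (r / 4) * E * (L ^ 2 * |θs (a k') - θs (b k')|
        + L ^ 3 * (∑ i, (mlg (θs (a k')) (Mr q (θs (a k')) 0 r) i
          - mlg (θs (b k')) (Mr q (θs (b k')) 0 r) i) ^ 2 + |θs (a k') - θs (b k')|)
        + (1 / r) * (1 - c * r) ^ L))
      (G := fun x => (r / 4) * E * (L * x + L ^ 2 * (r * x ^ (1 - 1 / (p : ℝ))))) (B := 4)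
      ?_ ?_ (fun k' => hF0 k' r) (fun k' => hFB k' r) (fun k' => hG0 k' r) ?_ ?_
    · have := Real.continuous_rpow_const he0
      fun_prop
    · intro x y hx hxy
      have h6 : x ^ (1 - 1 / (p : ℝ)) ≤ y ^ (1 - 1 / (p : ℝ)) := Real.rpow_le_rpow hx hxy he0
      have h7 : 0 ≤ (r / 4) * E := by positivity
      refine mul_le_mul_of_nonneg_left ?_ h7
      gcongr
    · have h8 : Tendsto (fun k' => (r / 4) * E * (L ^ 2 * |θs (a k') - θs (b k')|
        + L ^ 3 * (∑ i, (mlg (θs (a k')) (Mr q (θs (a k')) 0 r) i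
          - mlg (θs (b k')) (Mr q (θs (b k')) 0 r) i) ^ 2 + |θs (a k') - θs (b k')|)
        + (1 / r) * (1 - c * r) ^ L)) atTop (𝓝 ((r / 4) * E * (L ^ 2 * 0
          + L ^ 3 * (0 + 0) + (1 / r) * (1 - c * r) ^ L))) :=
        (((hθ.const_mul _).add ((hmlg.add hθ).const_mul _)).add_const _).const_mul _
      have e9 : (r / 4) * E * (L ^ 2 * 0 + L ^ 3 * (0 + 0) + (1 / r) * (1 - c * r) ^ L)
          = (r / 4) * E * ((1 / r) * (1 - c * r) ^ L) := by ring
      rw [e9] at h8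
      exact h8
    · intro k'
      simp only [hFdef, hGdef]
      rw [GG_eq _ _ 0 hr0.le hr, FF_eq _ _ 0 hr0.le hr]
      have h9 := hE (θs (a k')) (θs (b k')) r C C (Mr q (θs (a k')) 0 r) (Mr q (θs (b k')) 0 r)
        (hmono (Nat.zero_le _)) (h1 _) (hmono (Nat.zero_le _)) (h1 _) hr0 hr
        (hfacts _ r hr0 hr) (hfacts _ r hr0 hr)
        (fun ω => (hμ1 _ (h0 _).le (h1 _).le r hr0.le hr ω).trans (le_max_left _ _))
        (fun ω => (hμ1 _ (h0 _).le (h1 _).le r hr0.le hr ω).trans (le_max_left _ _))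
        (fun i => by
          filter_upwards [hμ2 _ (h0 (a k')).le (h1 (a k')) r hr0.le hr i] with ω hω using
            hω.trans (le_max_right _ _))
        (fun i => by
          filter_upwards [hμ2 _ (h0 (b k')).le (h1 (b k')) r hr0.le hr i] with ω hω using
            hω.trans (le_max_right _ _))
        (fun i => (hCp _ (h0 _) (h1 _) r hr0 hr i).trans
          (mul_le_mul_of_nonneg_right (le_max_left _ _) (by positivity)))
        (fun i => (hCp _ (h0 _) (h1 _) r hr0 hr i).trans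
          (mul_le_mul_of_nonneg_right (le_max_left _ _) (by positivity))) L hL
      calc _ ≤ (r / 4) * _ := mul_le_mul_of_nonneg_left h9 (by positivity)
        _ = _ := by ring
  · -- coherent bound
    refine ⟨C' / 4, fun r hr0 hr k => ?_⟩
    have hfr := hfacts 0 r hr0 hr
    have := coh_limit hq hmono h0 h1 ha hb 0 (r := r) (s := r) (c := c) (C' := C') hr0.le hr hr0 hC'
      hfr.cpos hfr.cle (κ := r / 4) (by positivity) le_rfl
      (fun k' L k => hcoh _ _ r _ _ (h0 _).le (h1 _) (h0 _).le (h1 _) hr0 hr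
        (hfacts _ r hr0 hr) (hfacts _ r hr0 hr) L k) k
    refine this.trans (le_of_eq ?_)
    ring
  · -- start
    have e : ∀ k, F k 0 = 0 := fun k => by
      simp only [hFdef]
      rw [FF_eq _ _ 0 le_rfl zero_le_one]
      unfold nn
      simp [Mr_zero]
    simp only [e]
    exact limsup_const 0

theorem round1 (hq : 2 ≤ q) {θs : ℕ → ℝ} (hmono : Monotone θs) (h0 : ∀ n, 0 < θs n)
    (h1 : ∀ n, q * (θs n) ^ 2 < 1) {a b : ℕ → ℕ} (ha : Tendsto a atTop atTop)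
    (hb : Tendsto b atTop atTop) (j : ℕ)
    (hstart : Tendsto (fun k => nn (Mr q (θs (a k)) j 1) (Mr q (θs (b k)) j 1)) atTop (𝓝 0)) :
    Tendsto (fun k => nn (Mr q (θs (a k)) (j + 1) 1) (Mr q (θs (b k)) (j + 1) 1)) atTop (𝓝 0) := by
  obtain ⟨c, C, hc, hC, hF⟩ := facts1 hq j
  obtain ⟨C', hC', hcoh⟩ := coh hq hc hC
  obtain ⟨D, hD⟩ := Rt_le hq hc hC
  have hfacts : ∀ n r, 0 ≤ r → r ≤ 1 → Facts q (θs n) 1 c C (Mr q (θs n) (j + 1) r) :=
    fun n r hr0 hr => hF (θs n) (h0 n) (h1 n) r hr0 hr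
  have hGB0 : ∀ k r, 0 ≤ r → r ≤ 1 →
      Rt (θs (a k)) (θs (b k)) (Mr q (θs (a k)) (j + 1) r) (Mr q (θs (b k)) (j + 1) r) ≤ D := by
    intro k r hr0 hr
    have := hD (θs (a k)) (θs (b k)) 1 (Mr q (θs (a k)) (j + 1) r) (Mr q (θs (b k)) (j + 1) r)
      (h0 _).le (h1 _) (h0 _).le (h1 _) one_pos le_rfl (hfacts _ r hr0 hr) (hfacts _ r hr0 hr)
    rwa [div_one] at this
  have hD0 : 0 ≤ D := (Rt_nonneg _ _ _ _).trans (hGB0 0 0 le_rfl zero_le_one)
  have hGB : ∀ k r, GG q (θs (a k)) (θs (b k)) (j + 1) r ≤ D := by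
    intro k r
    by_cases hr : r ∈ Set.Icc (0 : ℝ) 1
    · rw [GG_eq _ _ (j + 1) hr.1 hr.2]
      have h3 := hGB0 k r hr.1 hr.2
      have h4 := Rt_nonneg (θs (a k)) (θs (b k)) (Mr q (θs (a k)) (j + 1) r)
        (Mr q (θs (b k)) (j + 1) r)
      have h5 : r / 4 ≤ 1 := by linarith [hr.2]
      have h6 : 0 ≤ r / 4 := by linarith [hr.1]
      nlinarith
    · rw [GG_out _ _ (j + 1) hr]; exact hD0
  set F : ℕ → ℝ → ℝ := fun k => FF q (θs (a k)) (θs (b k)) (j + 1) with hFdef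
  set G : ℕ → ℝ → ℝ := fun k => GG q (θs (a k)) (θs (b k)) (j + 1) with hGdef
  have hFB : ∀ k s, F k s ≤ 4 := fun k s =>
    FF_le hq (h0 _).le (h1 _).le (h0 _).le (h1 _).le (j + 1) s
  have hF0 : ∀ k s, 0 ≤ F k s := fun k s => FF_nonneg _ _ _ _
  have hG0 : ∀ k s, 0 ≤ G k s := fun k s => GG_nonneg _ _ _ _
  have hGm : ∀ k, Measurable (G k) := fun k =>
    measurable_GG hq (h0 _).le (h1 _) (h0 _).le (h1 _) (j + 1)
  have hFm : ∀ k, Measurable (F k) := fun k => measurable_FF _ _ (j + 1)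
  have hres := ode1 (fun s => limsup (fun k => F k s) atTop) (fun r => limsup (fun k => G k r) atTop)
    (Measurable.limsup hFm) (Measurable.limsup hGm) D
    (fun s => limsup_nonneg (fun k => hF0 k s) fun k => hFB k s)
    (fun s => limsup_le' (fun k => hF0 k s) fun k => hFB k s)
    (fun s => limsup_nonneg (fun k => hG0 k s) fun k => hGB k s)
    (fun r _ _ => limsup_le' (fun k => hG0 k r) fun k => hGB k r)
    (fun s0 s hs0 hs hs1 => limsup_int hF0 hFB hGm hG0 hGB hs fun k =>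
      FF_int hq (h0 _).le (h1 _) (h0 _).le (h1 _) (j + 1) hs0 hs hs1)
    ?_ ?_ 1 zero_le_one le_rfl
  · have e : ∀ k, F k 1 = nn (Mr q (θs (a k)) (j + 1) 1) (Mr q (θs (b k)) (j + 1) 1) := fun k =>
      FF_eq _ _ (j + 1) zero_le_one le_rfl
    refine tendsto_order.2 ⟨fun x hx => Eventually.of_forall fun k => hx.trans_le (nn_nonneg _ _),
      fun x hx => ?_⟩
    have := eventually_lt_of_limsup_lt (hres.trans_lt hx) (bdd_above (fun k => hFB k 1))
    filter_upwards [this] with k hk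
    rw [← e k]; exact hk
  · refine ⟨C' / 4, fun r hr0 hr k => ?_⟩
    have hfr := hfacts 0 r hr0 hr
    have := coh_limit hq hmono h0 h1 ha hb (j + 1) (r := r) (s := 1) (c := c) (C' := C') hr0 hr
      one_pos hC' hfr.cpos hfr.cle (κ := 1 / 4) (by positivity) (by linarith)
      (fun k' L k => hcoh _ _ 1 _ _ (h0 _).le (h1 _) (h0 _).le (h1 _) one_pos le_rfl
        (hfacts _ r hr0 hr) (hfacts _ r hr0 hr) L k) k
    refine this.trans (le_of_eq ?_)
    ring
  · have e : ∀ k, F k 0 = nn (Mr q (θs (a k)) j 1) (Mr q (θs (b k)) j 1) := fun k => by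
      simp only [hFdef]
      rw [FF_eq _ _ (j + 1) le_rfl zero_le_one]
      unfold nn
      simp only [Mr_succ_zero]
    simp only [e]
    exact hstart.limsup_eq

end Passage

open Passage

variable {q : ℕ}

theorem passage (hq : 2 ≤ q) (θs : ℕ → ℝ) (hmono : Monotone θs) (h0 : ∀ n, 0 < θs n)
    (h1 : ∀ n, q * (θs n) ^ 2 < 1) (j : ℕ) :
    Tendsto (fun p : ℕ × ℕ => nn (Mr q (θs p.1) j 1) (Mr q (θs p.2) j 1)) (atTop ×ˢ atTop) (𝓝 0) := by
  refine tendsto_of_seq_tendsto fun x hx => ?_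
  have ha : Tendsto (fun k => (x k).1) atTop atTop := tendsto_fst.comp hx
  have hb : Tendsto (fun k => (x k).2) atTop atTop := tendsto_snd.comp hx
  change Tendsto (fun k => nn (Mr q (θs (x k).1) j 1) (Mr q (θs (x k).2) j 1)) atTop (𝓝 0)
  induction j with
  | zero => exact round0 hq hmono h0 h1 ha hb
  | succ j ih => exact round1 hq hmono h0 h1 ha hb j ih

end Crest.Agent.FreeIs
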