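import Crest.Agent.FreeIs.FinalLab
import Crest.Agent.FreeIs.FinalDec
import Crest.Agent.FreeIs.Passage

/-!
S0241, FINAL part F6b: assembly.
-/

set_option autoImplicit false
open MeasureTheory Filter Topology
universe u
namespace Crest.Agent.FreeIs

theorem exists_seq {q : ℕ} (hq : 2 ≤ q) {θ : ℝ} (h0 : 0 ≤ θ) (h1 : q * θ ^ 2 ≤ 1) :
    ∃ θs : ℕ → ℝ, (∀ n, 0 ≤ θs n) ∧ (∀ n, q * (θs n) ^ 2 < 1) ∧ Tendsto θs atTop (𝓝 θ) ∧
      ∀ j, Tendsto (fun p : ℕ × ℕ => nn (Mr q (θs p.1) j 1) (Mr q (θs p.2) j 1))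
        (atTop ×ˢ atTop) (𝓝 0) := by
  rcases h1.lt_or_eq with h | h
  · refine ⟨fun _ => θ, fun _ => h0, fun _ => h, tendsto_const_nhds, fun j => ?_⟩
    have : (fun p : ℕ × ℕ => nn (Mr q θ j 1) (Mr q θ j 1)) = fun _ => 0 := by
      funext p
      simp [nn]
    rw [this]
    exact tendsto_const_nhds
  · have hθ : 0 < θ := by
      rcases h0.lt_or_eq with h' | h'
      · exact h'
      · rw [← h'] at h; norm_num at h
    set θs : ℕ → ℝ := fun n => θ * (((n : ℝ) + 1) / ((n : ℝ) + 1 + 1)) with hθs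
    have hf0 : ∀ n : ℕ, 0 < ((n : ℝ) + 1) / ((n : ℝ) + 1 + 1) := fun n => by positivity
    have hf1 : ∀ n : ℕ, ((n : ℝ) + 1) / ((n : ℝ) + 1 + 1) < 1 := fun n => by
      rw [div_lt_one (by positivity)]; linarith
    have hmono : Monotone θs := by
      intro m n hmn
      apply mul_le_mul_of_nonneg_left _ hθ.le
      have : (m : ℝ) ≤ n := by exact_mod_cast hmn
      rw [div_le_div_iff₀ (by positivity) (by positivity)]
      nlinarith
    have hpos : ∀ n, 0 < θs n := fun n => mul_pos hθ (hf0 n)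
    have hlt : ∀ n, (q : ℝ) * (θs n) ^ 2 < 1 := by
      intro n
      have e : (q : ℝ) * (θs n) ^ 2 = (q * θ ^ 2) * (((n : ℝ) + 1) / ((n : ℝ) + 1 + 1)) ^ 2 := by
        rw [hθs]; ring
      rw [e, h, one_mul]
      exact pow_lt_one₀ (hf0 n).le (hf1 n) (by norm_num)
    have hlim : Tendsto θs atTop (𝓝 θ) := by
      have h2 : Tendsto (fun n : ℕ => ((n : ℝ) + 1) / ((n : ℝ) + 1 + 1)) atTop (𝓝 1) := by
        have h3 : Tendsto (fun n : ℕ => 1 - 1 / (((n + 1 : ℕ) : ℝ) + 1)) atTop (𝓝 (1 - 0)) := by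
          apply Tendsto.sub tendsto_const_nhds
          exact (tendsto_add_atTop_iff_nat 1).2 tendsto_one_div_add_atTop_nhds_zero_nat
        rw [sub_zero] at h3
        apply h3.congr
        intro n
        push_cast
        field_simp
        ring
      have := h2.const_mul θ
      rwa [mul_one] at this
    exact ⟨θs, fun n => (hpos n).le, hlt, hlim, fun j => passage hq θs hmono hpos hlt j⟩

theorem tree_fiid (d : ℕ) (hd : 3 ≤ d) (β : ℝ)
    (hβ : 0 ≤ β) (hθ : Real.tanh β ≤ ((d : ℝ) - 1) ^ (-(1 / 2 : ℝ))) (V : Type u)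
    (G : SimpleGraph V) [G.LocallyFinite] (hT : G.IsTree) (hreg : G.IsRegularOfDegree d) :
    ∃ Φ : (V → unitInterval) → (V → Bool),
      Measurable Φ ∧
      (∀ (g : G ≃g G) (x : V → unitInterval), Φ (x ∘ ⇑g) = Φ x ∘ ⇑g) ∧
      ∀ (S : Finset V) (η : V → Bool), (G.induce (S : Set V)).Connected →
        (Crest.ProbabilityR.Labels.labelMeasure V).map Φ {σ | ∀ v ∈ S, σ v = η v} =
          ENNReal.ofReal (Crest.ProbabilityR.TreeIsing.isingWeight G (Real.tanh β) S η) := by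
  obtain ⟨q, rfl⟩ : ∃ q, d = q + 1 := ⟨d - 1, by omega⟩
  have hq : 2 ≤ q := by omega
  have h0 : 0 ≤ Real.tanh β := by
    rw [Real.tanh_eq_sinh_div_cosh]
    exact div_nonneg (Real.sinh_nonneg_iff.2 hβ) (Real.cosh_pos β).le
  have hqR : (0 : ℝ) < q := by
    have : (2 : ℝ) ≤ q := by exact_mod_cast hq
    linarith
  have h1 : (q : ℝ) * Real.tanh β ^ 2 ≤ 1 := by
    have e : (((q + 1 : ℕ) : ℝ) - 1) = q := by push_cast; ring
    rw [e] at hθ
    have h2 : Real.tanh β ^ 2 ≤ ((q : ℝ) ^ (-(1 / 2 : ℝ))) ^ 2 := pow_le_pow_left₀ h0 hθ 2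
    have h3 : ((q : ℝ) ^ (-(1 / 2 : ℝ))) ^ 2 = (q : ℝ)⁻¹ := by
      rw [← Real.rpow_natCast, ← Real.rpow_mul hqR.le]
      norm_num
      rw [Real.rpow_neg_one]
    rw [h3] at h2
    calc (q : ℝ) * Real.tanh β ^ 2 ≤ q * (q : ℝ)⁻¹ := mul_le_mul_of_nonneg_left h2 hqR.le
      _ = 1 := mul_inv_cancel₀ hqR.ne'
  obtain ⟨θs, a1, a2, a3, a4⟩ := exists_seq hq h0 h1
  obtain ⟨F, b1, b2, b3⟩ := decode hq θs a1 a2 a3 a4
  exact main_of_decode hq (Real.tanh β) F b1 b2 b3 V G hT hreg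

end Crest.Agent.FreeIs
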