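import Crest.Agent.FreeIs.Samp9

/-!
S0241, FINAL part F1: the finite volume magnetisation is a martingale between two rounds.
-/

set_option autoImplicit false
set_option linter.style.haveILetI false

open Set MeasureTheory Measure unitInterval

universe u

namespace Crest.Agent.FreeIs

namespace Samp

variable {V : Type u} (G : SimpleGraph V)

/-- increment of one system -/
noncomputable def Inc1 (θ : ℝ) (Λ : Finset V) (v : V) (j : ℕ) (a : V) (ω : Lab V) : ℝ :=
  if 0 ≤ TT ω j a ∧ TT ω j a < 1 then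
    Cf G θ Λ ω j (TT ω j a) v a * jmp (eta (TT ω j a)) (Mf G θ Λ ω j (TT ω j a) a) (UU ω j a)
  else 0

theorem mart_pointwise {θ : ℝ} (hθ : |θ| < 1) (Λ : Finset V) (v : V) (j : ℕ) (ω : Lab V)
    (hinj : Set.InjOn (TT ω j) (Λ : Finset V)) :
    Mf G θ Λ ω j 1 v = Mf G θ Λ ω j 0 v + ∑ a ∈ Λ, Inc1 G θ Λ v j a ω := by
  have h := telescope2 Λ (TT ω j) hinj (fun r => Mf G θ Λ ω j r v)
    (fun a => Mf G θ Λ ω j (TT ω j a) v + Cf G θ Λ ω j (TT ω j a) v a *
      jmp (eta (TT ω j a)) (Mf G θ Λ ω j (TT ω j a) a) (UU ω j a))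
    (mag G θ Λ (start G θ Λ ω j) v) 1 ?_ ?_ (fun x => x) zero_le_one le_rfl
  · rw [h]
    congr 1
    apply Finset.sum_congr rfl
    intro a _
    unfold Inc1
    congr 1
    ring
  · intro r hr hnone
    show mag G θ Λ (rnd G θ Λ (start G θ Λ ω j) (TT ω j) (UU ω j) r) v = _
    rw [rnd_of_none G hnone]
  · intro r hr a ha har hmax
    have e1 := mag_rnd_step G hθ (start_abs_lt G hθ Λ ω j) (UU_mem ω j)
      (Finset.Subset.refl Λ) hinj hr ha har hmax v
    show mag G θ Λ (rnd G θ Λ (start G θ Λ ω j) (TT ω j) (UU ω j) r) v = _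
    rw [e1]
    rfl

theorem Inc1_meas (θ : ℝ) (Λ : Finset V) (v : V) (j : ℕ) (a : V) :
    Measurable (Inc1 G θ Λ v j a) := by
  unfold Inc1
  have hT := TT_measurable (V := V) j a
  have hU := UU_measurable (V := V) j a
  have hp : Measurable fun ω : Lab V => (ω, TT ω j a) := measurable_id.prodMk hT
  have h1 := (Cf_measurable_pair G θ Λ j v a).comp hp
  have h3 := (Mf_measurable_pair G θ Λ j a).comp hp
  have he := eta_measurable.comp hT
  apply Measurable.ite _ _ measurable_const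
  · exact (measurableSet_le measurable_const hT).inter (measurableSet_lt hT measurable_const)
  · exact h1.mul (jmp_measurable.comp (he.prodMk (h3.prodMk hU)))

theorem abs_Inc1_le {θ : ℝ} (hθ : |θ| < 1) (Λ : Finset V) (v : V) (j : ℕ) (a : V) (ω : Lab V) :
    |Inc1 G θ Λ v j a ω| ≤ 2 := by
  unfold Inc1
  split_ifs with h
  · have hr : TT ω j a ≤ 1 := h.2.le
    have h1 := abs_Cf_le G hθ Λ ω j hr v a
    have h3 := abs_Mf_le G hθ Λ ω j hr a
    have k1 := jmp_abs_le (eta_nonneg _) (abs_eta_mul_le hr h3) (UU_mem ω j a)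
    have ke := eta_le hr
    rw [abs_mul]
    have m1 := mul_le_mul h1 (k1.trans (by linarith : _ ≤ (1 : ℝ))) (abs_nonneg _) (by norm_num)
    linarith
  · norm_num

theorem integral_mul_Inc1 {θ : ℝ} (hθ : |θ| < 1) (Λ : Finset V) (v : V) (j : ℕ) (a : V) :
    ∫ ω, Mf G θ Λ ω j 0 v * Inc1 G θ Λ v j a ω ∂(labP V) = 0 := by
  classical
  have hm : Measurable fun ω : Lab V => Mf G θ Λ ω j 0 v * Inc1 G θ Λ v j a ω :=
    (Mf_measurable G θ Λ j 0 v).mul (Inc1_meas G θ Λ v j a)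
  have hi : Integrable (fun ω : Lab V => Mf G θ Λ ω j 0 v * Inc1 G θ Λ v j a ω) (labP V) := by
    apply integrable_bdd hm (K := 2)
    intro ω
    rw [abs_mul]
    have h1 := abs_Mf_le G hθ Λ ω j zero_le_one v
    have h2 := abs_Inc1_le G hθ Λ v j a ω
    nlinarith [abs_nonneg (Mf G θ Λ ω j 0 v), abs_nonneg (Inc1 G θ Λ v j a ω)]
  have e1 : ∫ ω, Mf G θ Λ ω j 0 v * Inc1 G θ Λ v j a ω ∂(labP V) =
      ∫ ω, (∫ t : I, Mf G θ Λ (Function.update ω (a, j, true) t) j 0 v *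
        Inc1 G θ Λ v j a (Function.update ω (a, j, true) t)) ∂(labP V) :=
    integral_resample (volume : Measure I) (a, j, true) _ hi
  rw [e1]
  have e2 : ∀ ω : Lab V, ∫ t : I, Mf G θ Λ (Function.update ω (a, j, true) t) j 0 v *
        Inc1 G θ Λ v j a (Function.update ω (a, j, true) t) = 0 := by
    intro ω
    have hT : ∀ t : I, TT (Function.update ω (a, j, true) t) j a = TT ω j a := by
      intro t
      unfold TT
      rw [Function.update_of_ne]
      intro h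
      have := congrArg (fun p : V × ℕ × Bool => p.2.2) h
      simp at this
    have hU : ∀ t : I, UU (Function.update ω (a, j, true) t) j a = (t : ℝ) := by
      intro t
      unfold UU
      rw [Function.update_self]
    by_cases hw : 0 ≤ TT ω j a ∧ TT ω j a < 1
    · have hT1 : TT ω j a ≤ 1 := hw.2.le
      have hst : ∀ t : I, st G θ Λ (Function.update ω (a, j, true) t) j (TT ω j a) =
          st G θ Λ ω j (TT ω j a) := fun t => st_update_true G ω j a t le_rfl
      have hst0 : ∀ t : I, st G θ Λ (Function.update ω (a, j, true) t) j 0 =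
          st G θ Λ ω j 0 := fun t => st_update_true G ω j a t hw.1
      have hX : ∀ t : I, Mf G θ Λ (Function.update ω (a, j, true) t) j 0 v *
          Inc1 G θ Λ v j a (Function.update ω (a, j, true) t) =
          (Mf G θ Λ ω j 0 v * Cf G θ Λ ω j (TT ω j a) v a) *
            jmp (eta (TT ω j a)) (Mf G θ Λ ω j (TT ω j a) a) t := by
        intro t
        unfold Inc1 Mf Cf
        rw [hT, hU, if_pos hw, hst, hst0]
        ring
      simp_rw [hX]
      rw [integral_const_mul, integral_jmp, mul_zero]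
      exact abs_eta_mul_le hT1 (abs_Mf_le G hθ Λ ω j hT1 a)
    · have hX : ∀ t : I, Mf G θ Λ (Function.update ω (a, j, true) t) j 0 v *
          Inc1 G θ Λ v j a (Function.update ω (a, j, true) t) = 0 := by
        intro t
        unfold Inc1
        rw [hT, if_neg hw, mul_zero]
      simp_rw [hX]
      exact integral_zero _ _
  simp_rw [e2]
  exact integral_zero _ _

end Samp

open Samp

theorem mart_fin {V : Type u} (G : SimpleGraph V) {θ : ℝ} (h0 : 0 ≤ θ) (h1 : θ < 1) (Λ : Finset V)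
    (v : V) (j : ℕ) :
    ∫ ω, (Mf G θ Λ ω j 1 v - Mf G θ Λ ω j 0 v) ^ 2 ∂(labP V)
      ≤ 1 - ∫ ω, (Mf G θ Λ ω j 0 v) ^ 2 ∂(labP V) := by
  have hθ : |θ| < 1 := by rw [abs_of_nonneg h0]; exact h1
  have hM1 := Mf_measurable G θ Λ j 1 v
  have hM0 := Mf_measurable G θ Λ j 0 v
  have b1 := fun ω : Lab V => abs_Mf_le G hθ Λ ω j (le_refl (1 : ℝ)) v
  have b0 := fun ω : Lab V => abs_Mf_le G hθ Λ ω j zero_le_one v
  have i1 : Integrable (fun ω : Lab V => (Mf G θ Λ ω j 1 v) ^ 2) (labP V) :=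
    integrable_bdd (hM1.pow_const 2) (K := 1) (fun ω => by
      rw [abs_pow]; exact pow_le_one₀ (abs_nonneg _) (b1 ω))
  have i0 : Integrable (fun ω : Lab V => (Mf G θ Λ ω j 0 v) ^ 2) (labP V) :=
    integrable_bdd (hM0.pow_const 2) (K := 1) (fun ω => by
      rw [abs_pow]; exact pow_le_one₀ (abs_nonneg _) (b0 ω))
  have hcross : ∫ ω, Mf G θ Λ ω j 0 v * (Mf G θ Λ ω j 1 v - Mf G θ Λ ω j 0 v) ∂(labP V) = 0 := by
    have e1 : ∫ ω, Mf G θ Λ ω j 0 v * (Mf G θ Λ ω j 1 v - Mf G θ Λ ω j 0 v) ∂(labP V) =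
        ∫ ω, ∑ a ∈ Λ, Mf G θ Λ ω j 0 v * Inc1 G θ Λ v j a ω ∂(labP V) := by
      apply integral_congr_ae
      filter_upwards [ae_TT_injOn j Λ] with ω hω
      rw [mart_pointwise G hθ Λ v j ω hω, ← Finset.mul_sum]
      ring
    rw [e1, integral_finsetSum]
    · exact Finset.sum_eq_zero fun a _ => integral_mul_Inc1 G hθ Λ v j a
    · intro a _
      apply integrable_bdd (hM0.mul (Inc1_meas G θ Λ v j a)) (K := 2)
      intro ω
      show |Mf G θ Λ ω j 0 v * Inc1 G θ Λ v j a ω| ≤ 2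
      rw [abs_mul]
      have h1 := b0 ω
      have h2 := abs_Inc1_le G hθ Λ v j a ω
      nlinarith [abs_nonneg (Mf G θ Λ ω j 0 v), abs_nonneg (Inc1 G θ Λ v j a ω)]
  have ic : Integrable (fun ω : Lab V => Mf G θ Λ ω j 0 v *
      (Mf G θ Λ ω j 1 v - Mf G θ Λ ω j 0 v)) (labP V) := by
    apply integrable_bdd (hM0.mul (hM1.sub hM0)) (K := 2)
    intro ω
    show |Mf G θ Λ ω j 0 v * (Mf G θ Λ ω j 1 v - Mf G θ Λ ω j 0 v)| ≤ 2
    rw [abs_mul]
    have h1 := b0 ω
    have h2 : |Mf G θ Λ ω j 1 v - Mf G θ Λ ω j 0 v| ≤ 2 :=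
      (abs_sub _ _).trans (by linarith [b1 ω, b0 ω])
    nlinarith [abs_nonneg (Mf G θ Λ ω j 0 v), abs_nonneg (Mf G θ Λ ω j 1 v - Mf G θ Λ ω j 0 v)]
  have e3 : ∀ ω : Lab V, (Mf G θ Λ ω j 1 v - Mf G θ Λ ω j 0 v) ^ 2 =
      ((Mf G θ Λ ω j 1 v) ^ 2 - (Mf G θ Λ ω j 0 v) ^ 2) -
        2 * (Mf G θ Λ ω j 0 v * (Mf G θ Λ ω j 1 v - Mf G θ Λ ω j 0 v)) := by
    intro ω; ring
  simp_rw [e3]
  have i10 : Integrable (fun ω : Lab V => (Mf G θ Λ ω j 1 v) ^ 2 - (Mf G θ Λ ω j 0 v) ^ 2)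
    (labP V) := i1.sub i0
  rw [integral_sub i10 (ic.const_mul 2), integral_sub i1 i0, integral_const_mul, hcross]
  have e4 : ∫ ω, (Mf G θ Λ ω j 1 v) ^ 2 ∂(labP V) ≤ 1 := by
    have := integral_mono i1 (integrable_const (1 : ℝ)) (fun ω => by
      show (Mf G θ Λ ω j 1 v) ^ 2 ≤ 1
      rw [← sq_abs]
      exact pow_le_one₀ (abs_nonneg _) (b1 ω))
    simpa using this
  linarith

end Crest.Agent.FreeIs
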