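import Crest.Agent.FreeIs.Defs

/-! M3 (part A): words, independence, the operator `S f = ∑ i, f ∘ sh i`. -/

set_option autoImplicit false
open MeasureTheory ProbabilityTheory

universe u

namespace Crest.Agent.FreeIs.Gap

open Crest.Agent.FreeIs

instance instProb (V : Type u) : IsProbabilityMeasure (labP V) := by
  unfold labP Crest.ProbabilityR.Labels.labelMeasure; infer_instance

theorem act_mp {V V' : Type u} (g : V' ≃ V) :
    MeasurePreserving (act g : Lab V → Lab V') (labP V) (labP V') := by
  constructor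
  · unfold act; fun_prop
  · unfold labP Crest.ProbabilityR.Labels.labelMeasure
    have hinj : Function.Injective (fun e : V' × ℕ × Bool => ((g e.1, e.2) : V × ℕ × Bool)) := by
      rintro ⟨a, b⟩ ⟨c, d⟩ h
      simp only [Prod.mk.injEq, EmbeddingLike.apply_eq_iff_eq] at h
      rw [h.1, h.2]
    exact Measure.map_infinitePi_infinitePi_of_inj
      (P := fun _ : V × ℕ × Bool => (volume : Measure unitInterval)) hinj

theorem integral_mul_of_disjoint {V : Type u} {A B : Set (V × ℕ × Bool)} (hAB : Disjoint A B)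
    {f g : Lab V → ℝ} (hf : Measurable f) (hg : Measurable g)
    (hfA : ∀ ω ω' : Lab V, (∀ e ∈ A, ω e = ω' e) → f ω = f ω')
    (hgB : ∀ ω ω' : Lab V, (∀ e ∈ B, ω e = ω' e) → g ω = g ω') :
    ∫ ω, f ω * g ω ∂(labP V) = (∫ ω, f ω ∂(labP V)) * ∫ ω, g ω ∂(labP V) := by
  classical
  set m : V × ℕ × Bool → MeasurableSpace (Lab V) :=
    fun e => MeasurableSpace.comap (fun ω : Lab V => ω e) inferInstance with hm
  have hle : ∀ e, m e ≤ MeasurableSpace.pi := fun e => (measurable_pi_apply e).comap_le
  have hind : iIndep m (labP V) := by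
    have := iIndepFun_infinitePi (P := fun _ : V × ℕ × Bool => (volume : Measure unitInterval))
      (X := fun _ x => x) (fun _ => measurable_id)
    rw [iIndepFun_iff_iIndep] at this
    exact this
  have h1 := indep_iSup_of_disjoint hle hind hAB
  have key : ∀ (C : Set (V × ℕ × Bool)) (f : Lab V → ℝ), Measurable f →
      (∀ ω ω' : Lab V, (∀ e ∈ C, ω e = ω' e) → f ω = f ω') →
      MeasurableSpace.comap f inferInstance ≤ ⨆ e ∈ C, m e := by
    intro C f hf hfC
    have hres : Measurable[⨆ e ∈ C, m e] (fun ω : Lab V => (fun e => if e ∈ C then ω e else 0 : Lab V)) := by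
      refine @measurable_pi_lambda _ _ _ (⨆ e ∈ C, m e) _ _ fun e => ?_
      by_cases he : e ∈ C
      · simp only [he, if_true]
        have : m e ≤ ⨆ e ∈ C, m e := le_iSup₂_of_le e he le_rfl
        intro s hs
        exact this _ ⟨s, hs, rfl⟩
      · simp only [he, if_false]
        exact @measurable_const _ _ _ (⨆ e ∈ C, m e) _
    have : f = f ∘ (fun ω : Lab V => (fun e => if e ∈ C then ω e else 0 : Lab V)) := by
      funext ω
      refine hfC _ _ fun e he => ?_
      simp [he]
    rw [this]
    exact (hf.comp hres).comap_le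
  have hI : IndepFun f g (labP V) := by
    rw [IndepFun_iff_Indep]
    exact indep_of_indep_of_le_left (indep_of_indep_of_le_right h1 (key B g hg hgB)) (key A f hf hfA)
  exact hI.integral_fun_mul_eq_mul_integral hf.aestronglyMeasurable hg.aestronglyMeasurable

/-! ### words -/

variable {q : ℕ}

theorem tog_inv (i : Fin (q + 1)) (w : W q) : tog i (tog i w) = w := by
  rcases w with ⟨l, hl⟩
  cases l with
  | nil => simp [tog]
  | cons a l =>
    by_cases ha : a = i
    · subst ha
      cases l with
      | nil => simp [tog]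
      | cons b l =>
        have hb : b ≠ a := fun h => by
          subst h
          exact (List.isChain_cons_cons.1 hl).1 rfl
        simp [tog, hb]
    · simp [tog, ha]

/-- toggle as an equivalence. -/
def togE (i : Fin (q + 1)) : W q ≃ W q := ⟨tog i, tog i, tog_inv i, tog_inv i⟩

theorem len_tog (i : Fin (q + 1)) (w : W q) :
    (w.1.head? = some i ∧ (tog i w).1.length + 1 = w.1.length) ∨
    (w.1.head? ≠ some i ∧ (tog i w).1.length = w.1.length + 1) := by
  rcases w with ⟨l, hl⟩
  cases l with
  | nil => right; simp [tog]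
  | cons a l =>
    by_cases ha : a = i
    · left; subst ha; simp [tog]
    · right; simp [tog, ha]

/-- one-sided adjacency is preserved by toggles. -/
theorem tog_adj' (i : Fin (q + 1)) {u v : W q} (h : ∃ a, v.1 = u.1 ++ [a]) :
    (∃ a, (tog i v).1 = (tog i u).1 ++ [a]) ∨ ∃ a, (tog i u).1 = (tog i v).1 ++ [a] := by
  obtain ⟨a, ha⟩ := h
  rcases u with ⟨l, hl⟩
  rcases v with ⟨l', hl'⟩
  simp only at ha
  subst ha
  cases l with
  | nil =>
    by_cases hai : a = i
    · subst hai
      right
      exact ⟨a, by simp [tog]⟩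
    · left
      exact ⟨a, by simp [tog, hai]⟩
  | cons b l =>
    left
    by_cases hbi : b = i
    · subst hbi
      exact ⟨a, by simp [tog]⟩
    · exact ⟨a, by simp [tog, hbi]⟩

/-- maps that are `1`-Lipschitz along edges -/
def Good (g : W q → W q) : Prop :=
  Function.Injective g ∧ ∀ u v : W q, (∃ a, v.1 = u.1 ++ [a]) →
    (∃ a, (g v).1 = (g u).1 ++ [a]) ∨ ∃ a, (g u).1 = (g v).1 ++ [a]

theorem good_id : Good (id : W q → W q) := ⟨Function.injective_id, fun _ _ h => Or.inl h⟩

theorem Good.tog {g : W q → W q} (hg : Good g) (i : Fin (q + 1)) : Good (tog i ∘ g) := by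
  refine ⟨(togE i).injective.comp hg.1, fun u v h => ?_⟩
  rcases hg.2 u v h with h1 | h1
  · exact tog_adj' i h1
  · exact (tog_adj' i h1).symm

theorem Good.len {g : W q → W q} (hg : Good g) : ∀ (n : ℕ) (w : W q), w.1.length = n →
    (g (wroot q)).1.length ≤ (g w).1.length + n := by
  intro n
  induction n with
  | zero =>
    intro w hw
    have : w = wroot q := by
      apply Subtype.ext
      simpa [wroot] using hw
    rw [this]; simp
  | succ n ih =>
    intro w hw
    rcases List.eq_nil_or_concat w.1 with h0 | ⟨l, a, hla⟩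
    · rw [h0] at hw; simp at hw
    · rw [List.concat_eq_append] at hla
      have hl : l.IsChain (· ≠ ·) := by
        have := w.2
        rw [hla] at this
        exact this.left_of_append
      have hlen : l.length = n := by
        rw [hla] at hw; simpa using hw
      have h1 := ih ⟨l, hl⟩ hlen
      have h2 := hg.2 ⟨l, hl⟩ w ⟨a, hla⟩
      have h3 : (g ⟨l, hl⟩).1.length ≤ (g w).1.length + 1 := by
        rcases h2 with ⟨b, hb⟩ | ⟨b, hb⟩
        · rw [hb]; simp; omega
        · rw [hb]; simp
      omega

/-- weight `q^{-|x|/2}` -/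
noncomputable def hw (w : W q) : ℝ := ((Real.sqrt q)⁻¹) ^ w.1.length

theorem hw_root : hw (wroot q) = 1 := by simp [hw, wroot]

theorem hw_pos (hq : 2 ≤ q) (w : W q) : 0 < hw w := by
  unfold hw
  have : (0:ℝ) < Real.sqrt q := Real.sqrt_pos.mpr (by exact_mod_cast (by omega : 0 < q))
  positivity

theorem hw_sum (hq : 2 ≤ q) (w : W q) : ∑ i, hw (tog i w) ≤ 2 * Real.sqrt q * hw w := by
  have hq0 : (0:ℝ) < q := by exact_mod_cast (by omega : 0 < q)
  have hs : (0:ℝ) < Real.sqrt q := Real.sqrt_pos.mpr hq0
  have hsq : Real.sqrt q * Real.sqrt q = q := Real.mul_self_sqrt hq0.le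
  set c := Real.sqrt q with hc
  rcases w with ⟨l, hl⟩
  cases l with
  | nil =>
    have h1 : ∀ i : Fin (q + 1), hw (tog i ⟨[], hl⟩) = c⁻¹ := by
      intro i; simp [hw, tog, hc]
    simp_rw [h1]
    simp only [Finset.sum_const, Finset.card_univ, Fintype.card_fin, nsmul_eq_mul]
    have h2 : hw (⟨[], hl⟩ : W q) = 1 := by simp [hw]
    rw [h2, mul_one, ← div_eq_mul_inv, div_le_iff₀ hs]
    push_cast
    have : (2:ℝ) ≤ q := by exact_mod_cast hq
    nlinarith
  | cons a l =>
    have h1 : hw (tog a ⟨a :: l, hl⟩) = c * hw (⟨a :: l, hl⟩ : W q) := by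
      simp only [hw, tog, dite_true, List.length_cons, ← hc]
      rw [pow_succ]
      field_simp
    have h2 : ∀ i ∈ Finset.univ.erase a, hw (tog i ⟨a :: l, hl⟩) = c⁻¹ * hw (⟨a :: l, hl⟩ : W q) := by
      intro i hi
      have hai : a ≠ i := fun h => by simp [h] at hi
      simp only [hw, tog, hai, dite_false, List.length_cons, ← hc]
      rw [pow_succ]
      ring
    rw [← Finset.add_sum_erase _ _ (Finset.mem_univ a), h1, Finset.sum_congr rfl h2]
    simp only [Finset.sum_const, Finset.card_erase_of_mem (Finset.mem_univ a), Finset.card_univ,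
      Fintype.card_fin, nsmul_eq_mul, Nat.add_sub_cancel]
    have h3 : (q:ℝ) * (c⁻¹ * hw (⟨a :: l, hl⟩ : W q)) = c * hw (⟨a :: l, hl⟩ : W q) := by
      rw [← hsq]; field_simp
    rw [h3]
    linarith

end Crest.Agent.FreeIs.Gap
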