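import Crest.Agent.FreeIs.GapA

/-! M3 (part B): the norm of `Sop f = ∑ i, f ∘ sh i` on mean zero functions is at most `2 √q`. -/

set_option autoImplicit false
open MeasureTheory ProbabilityTheory

universe u

namespace Crest.Agent.FreeIs.Gap

open Crest.Agent.FreeIs

variable {q : ℕ}

theorem sh_mp (i : Fin (q + 1)) : MeasurePreserving (sh i : Lab (W q) → Lab (W q))
    (labP (W q)) (labP (W q)) := act_mp (togE i)

theorem sh_sh (i : Fin (q + 1)) (ω : Lab (W q)) : sh i (sh i ω) = ω := by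
  funext e
  simp only [sh, act, tog_inv]

/-- bounded measurable functions -/
def BM (f : Lab (W q) → ℝ) : Prop := Measurable f ∧ ∃ K, ∀ ω, |f ω| ≤ K

theorem BM.integrable {f : Lab (W q) → ℝ} (hf : BM f) : Integrable f (labP (W q)) := by
  obtain ⟨h1, K, hK⟩ := hf
  exact Integrable.of_bound h1.aestronglyMeasurable K (Filter.Eventually.of_forall hK)

theorem BM.mul {f g : Lab (W q) → ℝ} (hf : BM f) (hg : BM g) : BM (fun ω => f ω * g ω) := by
  obtain ⟨h1, K, hK⟩ := hf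
  obtain ⟨h2, L, hL⟩ := hg
  refine ⟨h1.mul h2, K * L, fun ω => ?_⟩
  rw [abs_mul]
  exact mul_le_mul (hK ω) (hL ω) (abs_nonneg _) ((abs_nonneg _).trans (hK ω))

theorem BM.add {f g : Lab (W q) → ℝ} (hf : BM f) (hg : BM g) : BM (fun ω => f ω + g ω) := by
  obtain ⟨h1, K, hK⟩ := hf
  obtain ⟨h2, L, hL⟩ := hg
  exact ⟨h1.add h2, K + L, fun ω => (abs_add_le _ _).trans (add_le_add (hK ω) (hL ω))⟩

theorem BM.const (c : ℝ) : BM (fun _ : Lab (W q) => c) := ⟨measurable_const, |c|, fun _ => le_rfl⟩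

theorem BM.smul {f : Lab (W q) → ℝ} (hf : BM f) (c : ℝ) : BM (fun ω => c * f ω) :=
  (BM.const c).mul hf

theorem BM.sub {f g : Lab (W q) → ℝ} (hf : BM f) (hg : BM g) : BM (fun ω => f ω - g ω) := by
  have := hf.add (hg.smul (-1))
  simpa [sub_eq_add_neg] using this

theorem BM.sq {f : Lab (W q) → ℝ} (hf : BM f) : BM (fun ω => f ω ^ 2) := by
  simpa [pow_two] using hf.mul hf

theorem BM.sum {ι : Type*} (s : Finset ι) {f : ι → Lab (W q) → ℝ} (hf : ∀ i, BM (f i)) :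
    BM (fun ω => ∑ i ∈ s, f i ω) := by
  classical
  induction s using Finset.induction_on with
  | empty => simpa using BM.const 0
  | insert a s ha ih =>
    simp only [Finset.sum_insert ha]
    exact (hf a).add ih

theorem BM.comp {f : Lab (W q) → ℝ} (hf : BM f) {g : Lab (W q) → Lab (W q)} (hg : Measurable g) :
    BM (fun ω => f (g ω)) := by
  obtain ⟨h1, K, hK⟩ := hf
  exact ⟨h1.comp hg, K, fun ω => hK _⟩

theorem BM.sh {f : Lab (W q) → ℝ} (hf : BM f) (i : Fin (q + 1)) : BM (fun ω => f (sh i ω)) :=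
  hf.comp (sh_mp i).measurable

/-- unnormalised Markov operator -/
def Sop (f : Lab (W q) → ℝ) (ω : Lab (W q)) : ℝ := ∑ i, f (sh i ω)

theorem BM.S {f : Lab (W q) → ℝ} (hf : BM f) : BM (Sop f) :=
  BM.sum _ fun i => hf.sh i

theorem BM.Sit {f : Lab (W q) → ℝ} (hf : BM f) (n : ℕ) : BM (Sop^[n] f) := by
  induction n generalizing f with
  | zero => exact hf
  | succ n ih => exact ih hf.S

theorem integral_sh (f : Lab (W q) → ℝ) (i : Fin (q + 1)) :
    ∫ ω, f (sh i ω) ∂(labP (W q)) = ∫ ω, f ω ∂(labP (W q)) := by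
  have hemb : MeasurableEmbedding (sh i : Lab (W q) → Lab (W q)) := by
    refine MeasurableEquiv.measurableEmbedding
      ⟨⟨sh i, sh i, sh_sh i, sh_sh i⟩, (sh_mp i).measurable, (sh_mp i).measurable⟩
  exact (sh_mp i).integral_comp hemb f

theorem S_sa {f g : Lab (W q) → ℝ} (hf : BM f) (hg : BM g) :
    ∫ ω, f ω * Sop g ω ∂(labP (W q)) = ∫ ω, Sop f ω * g ω ∂(labP (W q)) := by
  unfold Sop
  simp_rw [Finset.mul_sum, Finset.sum_mul]
  rw [integral_finsetSum _ fun i _ => (hf.mul (hg.sh i)).integrable,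
    integral_finsetSum _ fun i _ => ((hf.sh i).mul hg).integrable]
  refine Finset.sum_congr rfl fun i _ => ?_
  rw [← integral_sh (fun ω => f ω * g (sh i ω)) i]
  simp_rw [sh_sh]

theorem Sit_sa {f g : Lab (W q) → ℝ} (hf : BM f) (hg : BM g) (n : ℕ) :
    ∫ ω, f ω * Sop^[n] g ω ∂(labP (W q)) = ∫ ω, Sop^[n] f ω * g ω ∂(labP (W q)) := by
  induction n generalizing f g with
  | zero => rfl
  | succ n ih =>
    rw [Function.iterate_succ_apply, ih hf hg.S, Function.iterate_succ_apply', S_sa (hf.Sit n) hg]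

theorem S_sum {ι : Type*} (s : Finset ι) (f : ι → Lab (W q) → ℝ) :
    Sop (fun ω => ∑ i ∈ s, f i ω) = fun ω => ∑ i ∈ s, Sop (f i) ω := by
  funext ω
  unfold Sop
  rw [Finset.sum_comm]

theorem Sit_sum {ι : Type*} (s : Finset ι) (f : ι → Lab (W q) → ℝ) (n : ℕ) :
    Sop^[n] (fun ω => ∑ i ∈ s, f i ω) = fun ω => ∑ i ∈ s, Sop^[n] (f i) ω := by
  induction n generalizing f with
  | zero => rfl
  | succ n ih =>
    rw [Function.iterate_succ_apply, S_sum, ih]
    rfl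

/-- Cauchy–Schwarz. -/
theorem cs {f g : Lab (W q) → ℝ} (hf : BM f) (hg : BM g) :
    (∫ ω, f ω * g ω ∂(labP (W q))) ^ 2 ≤
      (∫ ω, f ω ^ 2 ∂(labP (W q))) * ∫ ω, g ω ^ 2 ∂(labP (W q)) := by
  set A := ∫ ω, f ω ^ 2 ∂(labP (W q)) with hA
  set B := ∫ ω, f ω * g ω ∂(labP (W q)) with hB
  set C := ∫ ω, g ω ^ 2 ∂(labP (W q)) with hC
  have key : ∀ t : ℝ, 0 ≤ A * (t * t) + (2 * B) * t + C := by
    intro t
    have h1 : A * (t * t) + (2 * B) * t + C = ∫ ω, (t * f ω + g ω) ^ 2 ∂(labP (W q)) := by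
      have e : ∀ ω, (t * f ω + g ω) ^ 2 = (t * t) * f ω ^ 2 + (2 * t) * (f ω * g ω) + g ω ^ 2 := by
        intro ω; ring
      simp_rw [e]
      rw [integral_add ((hf.sq.smul _).add ((hf.mul hg).smul _)).integrable hg.sq.integrable,
        integral_add (hf.sq.smul _).integrable ((hf.mul hg).smul _).integrable,
        integral_const_mul, integral_const_mul]
      ring
    rw [h1]
    exact integral_nonneg fun ω => sq_nonneg _
  have := discrim_le_zero key
  unfold discrim at this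
  nlinarith

/-- local functions -/
def IsLoc (n : ℕ) (f : Lab (W q) → ℝ) : Prop :=
  ∀ ω ω' : Lab (W q), (∀ e, e.1 ∈ wball q n → ω e = ω' e) → f ω = f ω'

theorem corr_bound (hq : 2 ≤ q) {f : Lab (W q) → ℝ} (hf : BM f) {R : ℕ} (hR : IsLoc R f)
    (h0 : ∫ ω, f ω ∂(labP (W q)) = 0) :
    ∀ (N : ℕ) (g : W q ≃ W q), Good g →
      |∫ ω, f ω * Sop^[N] (fun ω => f (act g ω)) ω ∂(labP (W q))| ≤
        (Real.sqrt q) ^ (2 * R) * (2 * Real.sqrt q) ^ N * hw (g (wroot q)) *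
          ∫ ω, f ω ^ 2 ∂(labP (W q)) := by
  have hq0 : (0:ℝ) < q := by exact_mod_cast (by omega : 0 < q)
  have hs : (0:ℝ) < Real.sqrt q := Real.sqrt_pos.mpr hq0
  have hs1 : (1:ℝ) ≤ Real.sqrt q := by
    rw [Real.one_le_sqrt]; exact_mod_cast (by omega : 1 ≤ q)
  have hD : 0 ≤ ∫ ω, f ω ^ 2 ∂(labP (W q)) := integral_nonneg fun ω => sq_nonneg _
  intro N
  induction N with
  | zero =>
    intro g hg
    simp only [Function.iterate_zero, id, pow_zero, mul_one]
    have hfg : BM (fun ω => f (act g ω)) := hf.comp (act_mp g).measurable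
    have hmp : ∀ F : Lab (W q) → ℝ, ∫ ω, F (act g ω) ∂(labP (W q)) = ∫ ω, F ω ∂(labP (W q)) := by
      intro F
      have hemb : MeasurableEmbedding (act g : Lab (W q) → Lab (W q)) := by
        refine MeasurableEquiv.measurableEmbedding
          ⟨⟨act g, act g.symm, ?_, ?_⟩, (act_mp g).measurable, (act_mp g.symm).measurable⟩
        · intro ω; funext e; simp [act]
        · intro ω; funext e; simp [act]
      exact (act_mp g).integral_comp hemb F
    by_cases hlen : (g (wroot q)).1.length ≤ 2 * R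
    · -- trivial bound
      have h1 := cs hf hfg
      have h2 : ∫ ω, (f (act g ω)) ^ 2 ∂(labP (W q)) = ∫ ω, f ω ^ 2 ∂(labP (W q)) :=
        hmp (fun ω => f ω ^ 2)
      rw [h2, ← pow_two] at h1
      have h3 := abs_le_of_sq_le_sq' h1 hD
      have h4 : |∫ ω, f ω * f (act g ω) ∂(labP (W q))| ≤ ∫ ω, f ω ^ 2 ∂(labP (W q)) :=
        abs_le.mpr h3
      refine h4.trans ?_
      have h5 : 1 ≤ (Real.sqrt q) ^ (2 * R) * hw (g (wroot q)) := by
        unfold hw
        obtain ⟨k, hk⟩ := Nat.exists_eq_add_of_le hlen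
        rw [hk, pow_add, mul_right_comm, ← mul_pow, mul_inv_cancel₀ hs.ne', one_pow, one_mul]
        exact one_le_pow₀ hs1
      calc ∫ ω, f ω ^ 2 ∂(labP (W q)) = 1 * ∫ ω, f ω ^ 2 ∂(labP (W q)) := (one_mul _).symm
        _ ≤ _ := mul_le_mul_of_nonneg_right h5 hD
    · -- independence
      push Not at hlen
      have hdis : Disjoint {e : W q × ℕ × Bool | e.1 ∈ wball q R}
          {e : W q × ℕ × Bool | ∃ v ∈ wball q R, e.1 = g v} := by
        rw [Set.disjoint_left]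
        rintro e he ⟨v, hv, hev⟩
        simp only [Set.mem_ofPred_eq, mem_wball] at he hv
        have := hg.len v.1.length v rfl
        rw [hev] at he
        omega
      have h1 := integral_mul_of_disjoint hdis hf.1 hfg.1
        (fun ω ω' h => hR ω ω' fun e he => h e he)
        (fun ω ω' h => hR _ _ fun e he => h (g e.1, e.2) ⟨e.1, he, rfl⟩)
      rw [h1, h0, zero_mul, abs_zero]
      have := hw_pos hq (g (wroot q))
      positivity
  | succ N ih =>
    intro g hg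
    have e1 : Sop (fun ω => f (act g ω)) = fun ω => ∑ i, f (act (g.trans (togE i)) ω) := by
      funext ω
      rfl
    have hbm : ∀ i : Fin (q + 1), BM (fun ω => f (act (g.trans (togE i)) ω)) := fun i =>
      hf.comp (act_mp _).measurable
    rw [Function.iterate_succ_apply, e1, Sit_sum]
    simp_rw [Finset.mul_sum]
    rw [integral_finsetSum _ fun i _ => (hf.mul ((hbm i).Sit N)).integrable]
    refine (Finset.abs_sum_le_sum_abs _ _).trans ?_
    have h2 : ∀ i ∈ Finset.univ, |∫ ω, f ω * Sop^[N] (fun ω => f (act (g.trans (togE i)) ω)) ω ∂(labP (W q))|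
        ≤ (Real.sqrt q) ^ (2 * R) * (2 * Real.sqrt q) ^ N * hw (tog i (g (wroot q))) *
          ∫ ω, f ω ^ 2 ∂(labP (W q)) := fun i _ => ih (g.trans (togE i)) (hg.tog i)
    refine (Finset.sum_le_sum h2).trans ?_
    rw [← Finset.sum_mul, ← Finset.mul_sum]
    have h3 := hw_sum hq (g (wroot q))
    refine mul_le_mul_of_nonneg_right ?_ hD
    rw [pow_succ, ← mul_assoc, mul_assoc ((Real.sqrt q) ^ (2 * R) * (2 * Real.sqrt q) ^ N)]
    exact mul_le_mul_of_nonneg_left h3 (by positivity)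

theorem gap_local (hq : 2 ≤ q) {f : Lab (W q) → ℝ} (hf : BM f) {R : ℕ} (hR : IsLoc R f)
    (h0 : ∫ ω, f ω ∂(labP (W q)) = 0) :
    ∫ ω, (Sop f ω) ^ 2 ∂(labP (W q)) ≤ 4 * q * ∫ ω, f ω ^ 2 ∂(labP (W q)) := by
  have hq0 : (0:ℝ) < q := by exact_mod_cast (by omega : 0 < q)
  have hs : (0:ℝ) < Real.sqrt q := Real.sqrt_pos.mpr hq0
  have hsq : Real.sqrt q ^ 2 = q := Real.sq_sqrt hq0.le
  set D := ∫ ω, f ω ^ 2 ∂(labP (W q)) with hD
  have hD0 : 0 ≤ D := integral_nonneg fun ω => sq_nonneg _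
  -- x n = ∫ f * Sop^[2 n] f = ∫ (Sop^[n] f)^2
  have hx : ∀ n : ℕ, ∫ ω, f ω * Sop^[2 * n] f ω ∂(labP (W q)) = ∫ ω, (Sop^[n] f ω) ^ 2 ∂(labP (W q)) := by
    intro n
    rw [two_mul, Function.iterate_add_apply, Sit_sa hf (hf.Sit n)]
    simp_rw [pow_two]
  have hcs : ∀ n : ℕ, (∫ ω, (Sop^[n] f ω) ^ 2 ∂(labP (W q))) ^ 2 ≤
      D * ∫ ω, (Sop^[2 * n] f ω) ^ 2 ∂(labP (W q)) := by
    intro n
    rw [← hx n]
    exact cs hf (hf.Sit (2 * n))
  have hup : ∀ n : ℕ, ∫ ω, (Sop^[n] f ω) ^ 2 ∂(labP (W q)) ≤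
      (Real.sqrt q) ^ (2 * R) * (4 * q) ^ n * D := by
    intro n
    rw [← hx n]
    have h1 := corr_bound hq hf hR h0 (2 * n) (Equiv.refl _) good_id
    have h2 : (fun ω => f (act (Equiv.refl (W q)) ω)) = f := rfl
    rw [h2] at h1
    have h3 : hw ((Equiv.refl (W q)) (wroot q)) = 1 := hw_root
    have h4 : (2 * Real.sqrt q) ^ (2 * n) = (4 * q) ^ n := by
      rw [pow_mul, mul_pow, hsq]; norm_num
    rw [h3, mul_one, h4] at h1
    exact (le_abs_self _).trans h1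
  by_cases hDz : D = 0
  · have h1 := hup 1
    rw [hDz] at h1 ⊢
    simpa using h1
  have hDp : 0 < D := lt_of_le_of_ne hD0 (Ne.symm hDz)
  -- power trick
  have hpow : ∀ k : ℕ, ((∫ ω, (Sop f ω) ^ 2 ∂(labP (W q))) / D) ^ (2 ^ k) ≤
      (∫ ω, (Sop^[2 ^ k] f ω) ^ 2 ∂(labP (W q))) / D := by
    intro k
    induction k with
    | zero => simp
    | succ k ih =>
      have h1 := hcs (2 ^ k)
      rw [pow_succ, pow_mul]
      have h0 : 0 ≤ ((∫ ω, (Sop f ω) ^ 2 ∂(labP (W q))) / D) ^ (2 ^ k) := by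
        have : 0 ≤ ∫ ω, (Sop f ω) ^ 2 ∂(labP (W q)) := integral_nonneg fun ω => sq_nonneg _
        positivity
      calc (((∫ ω, (Sop f ω) ^ 2 ∂(labP (W q))) / D) ^ (2 ^ k)) ^ 2
          ≤ ((∫ ω, (Sop^[2 ^ k] f ω) ^ 2 ∂(labP (W q))) / D) ^ 2 := pow_le_pow_left₀ h0 ih 2
        _ = (∫ ω, (Sop^[2 ^ k] f ω) ^ 2 ∂(labP (W q))) ^ 2 / D ^ 2 := div_pow _ _ _
        _ ≤ (D * ∫ ω, (Sop^[2 * 2 ^ k] f ω) ^ 2 ∂(labP (W q))) / D ^ 2 :=
            div_le_div_of_nonneg_right h1 (by positivity)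
        _ = (∫ ω, (Sop^[2 ^ k * 2] f ω) ^ 2 ∂(labP (W q))) / D := by
            rw [mul_comm (2 ^ k) 2]; field_simp
  by_contra hcon
  push Not at hcon
  set r := (∫ ω, (Sop f ω) ^ 2 ∂(labP (W q))) / D with hr
  have hr1 : 1 < r / (4 * q) := by
    rw [lt_div_iff₀ (by positivity), one_mul, hr, lt_div_iff₀ hDp]
    exact hcon
  have hbd : ∀ k : ℕ, (r / (4 * q)) ^ (2 ^ k) ≤ (Real.sqrt q) ^ (2 * R) := by
    intro k
    rw [div_pow, div_le_iff₀ (by positivity)]
    refine (hpow k).trans ?_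
    rw [div_le_iff₀ hDp]
    exact hup (2 ^ k)
  have htend : Filter.Tendsto (fun k : ℕ => (r / (4 * q)) ^ (2 ^ k)) Filter.atTop Filter.atTop :=
    (tendsto_pow_atTop_atTop_of_one_lt hr1).comp (tendsto_pow_atTop_atTop_of_one_lt (by norm_num))
  obtain ⟨k, hk⟩ := (htend.eventually (Filter.eventually_gt_atTop ((Real.sqrt q) ^ (2 * R)))).exists
  exact absurd (hbd k) (not_le.mpr hk)

end Crest.Agent.FreeIs.Gap
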