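import Crest.Agent.FreeIs.Defs

set_option autoImplicit false
set_option linter.unusedVariables false
set_option linter.unusedSectionVars false

open MeasureTheory

universe u

namespace Crest.Agent.FreeIs

section Gen

variable {V : Type u}

theorem spin_sq (P : Finset V) (v : V) : spin P v * spin P v = 1 := by
  unfold spin; split_ifs <;> norm_num

theorem spin_abs (P : Finset V) (v : V) : |spin P v| = 1 := by
  unfold spin; split_ifs <;> norm_num

theorem spin_cases (P : Finset V) (v : V) : spin P v = 1 ∨ spin P v = -1 := by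
  unfold spin; split_ifs <;> simp

theorem spinE_mk (P : Finset V) (x y : V) : spinE P s(x, y) = spin P x * spin P y := rfl

theorem spinE_abs (P : Finset V) (e : Sym2 V) : |spinE P e| = 1 := by
  induction e using Sym2.ind with
  | _ x y => rw [spinE_mk, abs_mul, spin_abs, spin_abs, one_mul]

variable [DecidableEq V] (G : SimpleGraph V)

open Classical in
/-- edges inside `Λ` -/
noncomputable def Eg (Λ : Finset V) : Finset (Sym2 V) := Λ.sym2.filter (· ∈ G.edgeSet)

theorem mem_Eg {Λ : Finset V} {x y : V} : s(x, y) ∈ Eg G Λ ↔ x ∈ Λ ∧ y ∈ Λ ∧ G.Adj x y := by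
  unfold Eg
  simp only [Finset.mem_filter, Finset.mk_mem_sym2_iff, SimpleGraph.mem_edgeSet]
  tauto

theorem wt_eq (θ : ℝ) (Λ : Finset V) (t : V → ℝ) (P : Finset V) :
    wt G θ Λ t P = (∏ e ∈ Eg G Λ, (1 + θ * spinE P e)) * ∏ v ∈ Λ, (1 + t v * spin P v) := by
  unfold wt Eg
  rfl

theorem spin_inter {Λ P : Finset V} {v : V} (hv : v ∈ Λ) : spin (P ∩ Λ) v = spin P v := by
  unfold spin
  simp [Finset.mem_inter, hv]

theorem wt_inter (θ : ℝ) (Λ : Finset V) (t : V → ℝ) (P : Finset V) :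
    wt G θ Λ t (P ∩ Λ) = wt G θ Λ t P := by
  rw [wt_eq, wt_eq]
  congr 1
  · apply Finset.prod_congr rfl
    intro e he
    induction e using Sym2.ind with
    | _ x y =>
      rw [mem_Eg] at he
      rw [spinE_mk, spinE_mk, spin_inter he.1, spin_inter he.2.1]
  · apply Finset.prod_congr rfl
    intro v hv
    rw [spin_inter hv]

theorem sum_powerset_union {A B : Finset V} (hAB : Disjoint A B) (f g : Finset V → ℝ) :
    ∑ P ∈ (A ∪ B).powerset, f (P ∩ A) * g (P ∩ B)
      = (∑ P ∈ A.powerset, f P) * ∑ P ∈ B.powerset, g P := by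
  rw [Finset.sum_mul_sum, ← Finset.sum_product']
  refine Finset.sum_nbij' (fun P => (P ∩ A, P ∩ B)) (fun p => p.1 ∪ p.2) ?_ ?_ ?_ ?_ ?_
  · intro P hP
    simp only [Finset.mem_product, Finset.mem_powerset]
    exact ⟨Finset.inter_subset_right, Finset.inter_subset_right⟩
  · intro p hp
    simp only [Finset.mem_product, Finset.mem_powerset] at hp ⊢
    exact Finset.union_subset_union hp.1 hp.2
  · intro P hP
    simp only [Finset.mem_powerset] at hP
    ext v
    simp only [Finset.mem_union, Finset.mem_inter]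
    constructor
    · rintro (h | h) <;> exact h.1
    · intro h
      rcases Finset.mem_union.1 (hP h) with h1 | h1
      · exact Or.inl ⟨h, h1⟩
      · exact Or.inr ⟨h, h1⟩
  · rintro ⟨X, Y⟩ hp
    simp only [Finset.mem_product, Finset.mem_powerset] at hp
    have hd := Finset.disjoint_left.1 hAB
    simp only [Prod.mk.injEq]
    constructor
    · ext v
      simp only [Finset.mem_inter, Finset.mem_union]
      constructor
      · rintro ⟨h | h, h2⟩
        · exact h
        · exact absurd (hp.2 h) (hd h2)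
      · intro h
        exact ⟨Or.inl h, hp.1 h⟩
    · ext v
      simp only [Finset.mem_inter, Finset.mem_union]
      constructor
      · rintro ⟨h | h, h2⟩
        · exact absurd h2 (hd (hp.1 h))
        · exact h
      · intro h
        exact ⟨Or.inr h, hp.2 h⟩
  · intro P _
    rfl

theorem Eg_cut {A B : Finset V} (hAB : Disjoint A B) {x y : V} (hx : x ∈ A) (hy : y ∈ B)
    (hxy : G.Adj x y) (hc : ∀ a ∈ A, ∀ b ∈ B, G.Adj a b → a = x ∧ b = y) :
    Eg G (A ∪ B) = insert s(x, y) (Eg G A ∪ Eg G B) := by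
  ext e
  induction e using Sym2.ind with
  | _ a b =>
    simp only [mem_Eg, Finset.mem_insert, Finset.mem_union, Sym2.eq_iff]
    constructor
    · rintro ⟨ha | ha, hb | hb, hadj⟩
      · exact Or.inr (Or.inl ⟨ha, hb, hadj⟩)
      · exact Or.inl (Or.inl (hc a ha b hb hadj))
      · have := hc b hb a ha hadj.symm
        exact Or.inl (Or.inr ⟨this.2, this.1⟩)
      · exact Or.inr (Or.inr ⟨ha, hb, hadj⟩)
    · rintro ((⟨rfl, rfl⟩ | ⟨rfl, rfl⟩) | ⟨ha, hb, hadj⟩ | ⟨ha, hb, hadj⟩)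
      · exact ⟨Or.inl hx, Or.inr hy, hxy⟩
      · exact ⟨Or.inr hy, Or.inl hx, hxy.symm⟩
      · exact ⟨Or.inl ha, Or.inl hb, hadj⟩
      · exact ⟨Or.inr ha, Or.inr hb, hadj⟩

theorem Eg_disj {A B : Finset V} (hAB : Disjoint A B) : Disjoint (Eg G A) (Eg G B) := by
  rw [Finset.disjoint_left]
  intro e he he'
  induction e using Sym2.ind with
  | _ a b =>
    rw [mem_Eg] at he he'
    exact Finset.disjoint_left.1 hAB he.1 he'.1

theorem Eg_nocut {A B : Finset V} (hc : ∀ a ∈ A, ∀ b ∈ B, ¬ G.Adj a b) :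
    Eg G (A ∪ B) = Eg G A ∪ Eg G B := by
  ext e
  induction e using Sym2.ind with
  | _ a b =>
    simp only [mem_Eg, Finset.mem_union]
    constructor
    · rintro ⟨ha | ha, hb | hb, hadj⟩
      · exact (Or.inl ⟨ha, hb, hadj⟩)
      · exact absurd hadj (hc a ha b hb)
      · exact absurd hadj.symm (hc b hb a ha)
      · exact (Or.inr ⟨ha, hb, hadj⟩)
    · rintro (⟨ha, hb, hadj⟩ | ⟨ha, hb, hadj⟩)
      · exact ⟨Or.inl ha, Or.inl hb, hadj⟩
      · exact ⟨Or.inr ha, Or.inr hb, hadj⟩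

theorem wt_cut {θ : ℝ} {A B : Finset V} (hAB : Disjoint A B) {x y : V} (hx : x ∈ A) (hy : y ∈ B)
    (hxy : G.Adj x y) (hc : ∀ a ∈ A, ∀ b ∈ B, G.Adj a b → a = x ∧ b = y) (t : V → ℝ)
    (P : Finset V) : wt G θ (A ∪ B) t P
      = (1 + θ * (spin P x * spin P y)) * (wt G θ A t P * wt G θ B t P) := by
  rw [wt_eq, wt_eq, wt_eq, Eg_cut G hAB hx hy hxy hc, Finset.prod_insert, Finset.prod_union
    (Eg_disj G hAB), Finset.prod_union hAB, spinE_mk]
  · ring
  · simp only [Finset.mem_union, mem_Eg, not_or, not_and]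
    constructor
    · intro _ h
      exact absurd hy (Finset.disjoint_left.1 hAB h)
    · intro h
      exact absurd h (Finset.disjoint_left.1 hAB hx)

theorem wt_nocut {θ : ℝ} {A B : Finset V} (hAB : Disjoint A B)
    (hc : ∀ a ∈ A, ∀ b ∈ B, ¬ G.Adj a b) (t : V → ℝ)
    (P : Finset V) : wt G θ (A ∪ B) t P = wt G θ A t P * wt G θ B t P := by
  rw [wt_eq, wt_eq, wt_eq, Eg_nocut G hc, Finset.prod_union
    (Eg_disj G hAB), Finset.prod_union hAB]
  ring

theorem gexp_cut {θ : ℝ} {A B : Finset V} (hAB : Disjoint A B) {x y : V} (hx : x ∈ A) (hy : y ∈ B)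
    (hxy : G.Adj x y) (hc : ∀ a ∈ A, ∀ b ∈ B, G.Adj a b → a = x ∧ b = y) (t : V → ℝ)
    (F H : Finset V → ℝ) (hF : ∀ P, F P = F (P ∩ A)) (hH : ∀ P, H P = H (P ∩ B)) :
    gexp G θ (A ∪ B) t (fun P => F P * H P) = gexp G θ A t F * gexp G θ B t H
      + θ * gexp G θ A t (fun P => F P * spin P x) * gexp G θ B t (fun P => H P * spin P y) := by
  have key : ∀ P : Finset V, F P * H P * wt G θ (A ∪ B) t P
      = (F (P ∩ A) * wt G θ A t (P ∩ A)) * (H (P ∩ B) * wt G θ B t (P ∩ B))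
      + θ * ((F (P ∩ A) * spin (P ∩ A) x * wt G θ A t (P ∩ A)) *
        (H (P ∩ B) * spin (P ∩ B) y * wt G θ B t (P ∩ B))) := by
    intro P
    rw [wt_cut G hAB hx hy hxy hc, wt_inter, wt_inter, ← hF, ← hH, spin_inter hx, spin_inter hy]
    ring
  unfold gexp
  simp only [key]
  rw [Finset.sum_add_distrib, ← Finset.mul_sum,
    sum_powerset_union hAB (fun P => F P * wt G θ A t P) (fun P => H P * wt G θ B t P),
    sum_powerset_union hAB (fun P => F P * spin P x * wt G θ A t P)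
      (fun P => H P * spin P y * wt G θ B t P), Finset.card_union_of_disjoint hAB, pow_add]
  ring

theorem gexp_nocut {θ : ℝ} {A B : Finset V} (hAB : Disjoint A B)
    (hc : ∀ a ∈ A, ∀ b ∈ B, ¬ G.Adj a b) (t : V → ℝ)
    (F H : Finset V → ℝ) (hF : ∀ P, F P = F (P ∩ A)) (hH : ∀ P, H P = H (P ∩ B)) :
    gexp G θ (A ∪ B) t (fun P => F P * H P) = gexp G θ A t F * gexp G θ B t H := by
  have key : ∀ P : Finset V, F P * H P * wt G θ (A ∪ B) t P
      = (F (P ∩ A) * wt G θ A t (P ∩ A)) * (H (P ∩ B) * wt G θ B t (P ∩ B)) := by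
    intro P
    rw [wt_nocut G hAB hc, wt_inter, wt_inter, ← hF, ← hH]
    ring
  unfold gexp
  simp only [key]
  rw [sum_powerset_union hAB (fun P => F P * wt G θ A t P) (fun P => H P * wt G θ B t P),
    Finset.card_union_of_disjoint hAB, pow_add]
  ring

theorem wt_pos {θ : ℝ} (h0 : 0 ≤ θ) (h1 : θ < 1) {Λ : Finset V} {t : V → ℝ}
    (ht : ∀ v ∈ Λ, |t v| < 1) (P : Finset V) : 0 < wt G θ Λ t P := by
  rw [wt_eq]
  apply mul_pos
  · apply Finset.prod_pos
    intro e _
    have h2 := abs_le.1 (spinE_abs P e).le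
    nlinarith [h2.1, h2.2]
  · apply Finset.prod_pos
    intro v hv
    have h2 := abs_lt.1 (ht v hv)
    rcases spin_cases P v with h | h <;> rw [h] <;> linarith [h2.1, h2.2]

theorem gexp_mono {θ : ℝ} (h0 : 0 ≤ θ) (h1 : θ < 1) {Λ : Finset V} {t : V → ℝ}
    (ht : ∀ v ∈ Λ, |t v| < 1) {F H : Finset V → ℝ} (hFH : ∀ P, F P ≤ H P) :
    gexp G θ Λ t F ≤ gexp G θ Λ t H := by
  unfold gexp
  apply mul_le_mul_of_nonneg_left _ (by positivity)
  apply Finset.sum_le_sum
  intro P _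
  exact mul_le_mul_of_nonneg_right (hFH P) (wt_pos G h0 h1 ht P).le

theorem gexp_add (θ : ℝ) (Λ : Finset V) (t : V → ℝ) (F H : Finset V → ℝ) :
    gexp G θ Λ t (fun P => F P + H P) = gexp G θ Λ t F + gexp G θ Λ t H := by
  unfold gexp
  rw [← mul_add, ← Finset.sum_add_distrib]
  congr 1
  apply Finset.sum_congr rfl
  intro P _; ring

theorem gexp_smul (θ : ℝ) (Λ : Finset V) (t : V → ℝ) (c : ℝ) (F : Finset V → ℝ) :
    gexp G θ Λ t (fun P => c * F P) = c * gexp G θ Λ t F := by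
  unfold gexp
  rw [mul_left_comm, Finset.mul_sum (s := Λ.powerset) (a := c)]
  congr 1
  apply Finset.sum_congr rfl
  intro P _; ring

theorem gexp_sub (θ : ℝ) (Λ : Finset V) (t : V → ℝ) (F H : Finset V → ℝ) :
    gexp G θ Λ t (fun P => F P - H P) = gexp G θ Λ t F - gexp G θ Λ t H := by
  unfold gexp
  rw [← mul_sub, ← Finset.sum_sub_distrib]
  congr 1
  apply Finset.sum_congr rfl
  intro P _; ring

theorem Zf_pos {θ : ℝ} (h0 : 0 ≤ θ) (h1 : θ < 1) {Λ : Finset V} {t : V → ℝ}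
    (ht : ∀ v ∈ Λ, |t v| < 1) : 0 < Zf G θ Λ t := by
  unfold Zf gexp
  apply mul_pos (by positivity)
  apply Finset.sum_pos
  · intro P _
    rw [one_mul]
    exact wt_pos G h0 h1 ht P
  · exact ⟨∅, Finset.empty_mem_powerset Λ⟩

theorem mag_of_mem {θ : ℝ} {Λ : Finset V} {t : V → ℝ} {v : V} (hv : v ∈ Λ) :
    mag G θ Λ t v = gexp G θ Λ t (fun P => spin P v) / Zf G θ Λ t := by
  unfold mag; rw [if_pos hv]

theorem mag_of_notMem {θ : ℝ} {Λ : Finset V} {t : V → ℝ} {v : V} (hv : v ∉ Λ) :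
    mag G θ Λ t v = 0 := by
  unfold mag; rw [if_neg hv]

theorem cov_of_mem {θ : ℝ} {Λ : Finset V} {t : V → ℝ} {v u : V} (hv : v ∈ Λ) (hu : u ∈ Λ) :
    cov G θ Λ t v u = gexp G θ Λ t (fun P => spin P v * spin P u) / Zf G θ Λ t
      - mag G θ Λ t v * mag G θ Λ t u := by
  unfold cov; rw [if_pos ⟨hv, hu⟩]

/-- strict positivity of `gexp` of a nonnegative function which is positive somewhere -/
theorem gexp_pos {θ : ℝ} (h0 : 0 ≤ θ) (h1 : θ < 1) {Λ : Finset V} {t : V → ℝ}
    (ht : ∀ v ∈ Λ, |t v| < 1) {F : Finset V → ℝ} (hF : ∀ P, 0 ≤ F P) {P0 : Finset V}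
    (hP0 : P0 ⊆ Λ) (hF0 : 0 < F P0) : 0 < gexp G θ Λ t F := by
  unfold gexp
  apply mul_pos (by positivity)
  apply Finset.sum_pos'
  · intro P _
    exact mul_nonneg (hF P) (wt_pos G h0 h1 ht P).le
  · exact ⟨P0, Finset.mem_powerset.2 hP0, mul_pos hF0 (wt_pos G h0 h1 ht P0)⟩

theorem mag_lt {θ : ℝ} (h0 : 0 ≤ θ) (h1 : θ < 1) {Λ : Finset V} {t : V → ℝ}
    (ht : ∀ v ∈ Λ, |t v| < 1) (v : V) : |mag G θ Λ t v| < 1 := by
  by_cases hv : v ∈ Λ
  · rw [mag_of_mem G hv]
    have hZ := Zf_pos G h0 h1 ht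
    rw [abs_div, abs_of_pos hZ, div_lt_one hZ, abs_lt]
    constructor
    · have h2 : 0 < gexp G θ Λ t (fun P => 1 + spin P v) := by
        apply gexp_pos G h0 h1 ht (P0 := Λ) _ (le_refl _)
        · unfold spin; rw [if_pos hv]; norm_num
        · intro P
          rcases spin_cases P v with h | h <;> rw [h] <;> norm_num
      rw [gexp_add] at h2
      unfold Zf
      linarith
    · have h2 : 0 < gexp G θ Λ t (fun P => 1 - spin P v) := by
        apply gexp_pos G h0 h1 ht (P0 := ∅) _ (Finset.empty_subset _)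
        · unfold spin; rw [if_neg (Finset.notMem_empty v)]; norm_num
        · intro P
          rcases spin_cases P v with h | h <;> rw [h] <;> norm_num
      rw [gexp_sub] at h2
      unfold Zf
      linarith
  · rw [mag_of_notMem G hv]; norm_num

theorem cov_symm (θ : ℝ) (Λ : Finset V) (t : V → ℝ) (v u : V) :
    cov G θ Λ t v u = cov G θ Λ t u v := by
  unfold cov
  by_cases h : v ∈ Λ ∧ u ∈ Λ
  · rw [if_pos h, if_pos h.symm]
    simp only [mul_comm]
  · rw [if_neg h, if_neg (fun h' => h h'.symm)]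

theorem cov_self {θ : ℝ} (h0 : 0 ≤ θ) (h1 : θ < 1) {Λ : Finset V} {t : V → ℝ}
    (ht : ∀ v ∈ Λ, |t v| < 1) {v : V} (hv : v ∈ Λ) :
    cov G θ Λ t v v = 1 - mag G θ Λ t v ^ 2 := by
  rw [cov_of_mem G hv hv]
  have h2 : gexp G θ Λ t (fun P => spin P v * spin P v) = Zf G θ Λ t := by
    unfold Zf
    congr 1
    funext P
    exact spin_sq P v
  rw [h2, div_self (Zf_pos G h0 h1 ht).ne']
  ring

/-- Cauchy–Schwarz for the finite Gibbs measure. -/
theorem cov_sq_le {θ : ℝ} (h0 : 0 ≤ θ) (h1 : θ < 1) {Λ : Finset V} {t : V → ℝ}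
    (ht : ∀ v ∈ Λ, |t v| < 1) {v u : V} (hv : v ∈ Λ) (hu : u ∈ Λ) :
    |cov G θ Λ t v u| ≤ 1 := by
  have hZ := Zf_pos G h0 h1 ht
  set a := mag G θ Λ t v with ha
  set b := mag G θ Λ t u with hb
  have hav : gexp G θ Λ t (fun P => spin P v) = a * Zf G θ Λ t := by
    rw [ha, mag_of_mem G hv]; field_simp
  have hbu : gexp G θ Λ t (fun P => spin P u) = b * Zf G θ Λ t := by
    rw [hb, mag_of_mem G hu]; field_simp
  have hvv : gexp G θ Λ t (fun P => spin P v * spin P v) = Zf G θ Λ t := by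
    unfold Zf; congr 1; funext P; exact spin_sq P v
  have huu : gexp G θ Λ t (fun P => spin P u * spin P u) = Zf G θ Λ t := by
    unfold Zf; congr 1; funext P; exact spin_sq P u
  have hone : gexp G θ Λ t (fun _ => 1) = Zf G θ Λ t := rfl
  set c := gexp G θ Λ t (fun P => spin P v * spin P u) with hc
  have hcov : cov G θ Λ t v u = c / Zf G θ Λ t - a * b := by rw [cov_of_mem G hv hu]
  have ex : ∀ σ : ℝ, gexp G θ Λ t (fun P => ((spin P v - a) + σ * (spin P u - b)) ^ 2)
      = (1 - a ^ 2) * Zf G θ Λ t + 2 * σ * (c - a * b * Zf G θ Λ t)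
        + σ ^ 2 * ((1 - b ^ 2) * Zf G θ Λ t) := by
    intro σ
    have e1 : (fun P : Finset V => ((spin P v - a) + σ * (spin P u - b)) ^ 2) = fun P =>
        (((1 * (spin P v * spin P v) + (2 * σ) * (spin P v * spin P u))
          + σ ^ 2 * (spin P u * spin P u)) + (-2 * (a + σ * b)) * spin P v)
          + ((-2 * σ * (a + σ * b)) * spin P u + (a + σ * b) ^ 2 * 1) := by
      funext P; ring
    rw [e1, gexp_add, gexp_add, gexp_add, gexp_add, gexp_add, gexp_smul, gexp_smul, gexp_smul,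
      gexp_smul, gexp_smul, gexp_smul, hvv, huu, hav, hbu, hone, ← hc]
    ring
  have nonneg : ∀ σ : ℝ, 0 ≤ gexp G θ Λ t (fun P => ((spin P v - a) + σ * (spin P u - b)) ^ 2) := by
    intro σ
    have := gexp_mono G h0 h1 ht (F := fun _ => 0)
      (H := fun P => ((spin P v - a) + σ * (spin P u - b)) ^ 2) (fun P => sq_nonneg _)
    refine le_trans ?_ this
    unfold gexp; simp
  have h3 := nonneg 1
  have h4 := nonneg (-1)
  rw [ex] at h3 h4
  rw [hcov, abs_le]
  have ha2 : a ^ 2 ≥ 0 := sq_nonneg a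
  have hb2 : b ^ 2 ≥ 0 := sq_nonneg b
  constructor
  · rw [neg_le_sub_iff_le_add, ← sub_nonneg]
    have : c / Zf G θ Λ t + 1 - a * b = (c + Zf G θ Λ t - a * b * Zf G θ Λ t) / Zf G θ Λ t := by
      field_simp
    rw [this]
    apply div_nonneg _ hZ.le
    nlinarith
  · have : c / Zf G θ Λ t - a * b = (c - a * b * Zf G θ Λ t) / Zf G θ Λ t := by
      field_simp
    rw [this, div_le_one hZ]
    nlinarith

theorem cov_abs_le {θ : ℝ} (h0 : 0 ≤ θ) (h1 : θ < 1) {Λ : Finset V} {t : V → ℝ}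
    (ht : ∀ v ∈ Λ, |t v| < 1) (v u : V) : |cov G θ Λ t v u| ≤ 1 := by
  by_cases h : v ∈ Λ ∧ u ∈ Λ
  · exact cov_sq_le G h0 h1 ht h.1 h.2
  · unfold cov
    rw [if_neg h]; norm_num

theorem wt_update {θ : ℝ} {Λ : Finset V} {t : V → ℝ} {u : V} (hu : u ∈ Λ)
    (htu : |t u| < 1) {r : ℝ} (hr : |r| < 1) (P : Finset V) :
    wt G θ Λ (Function.update t u (ein (t u) r)) P * (1 + t u * r)
      = wt G θ Λ t P * (1 + r * spin P u) := by
  rw [wt_eq, wt_eq]
  rw [← Finset.mul_prod_erase Λ (fun v => 1 + Function.update t u (ein (t u) r) v * spin P v) hu,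
    ← Finset.mul_prod_erase Λ (fun v => 1 + t v * spin P v) hu]
  have h2 : ∏ x ∈ Λ.erase u, (1 + Function.update t u (ein (t u) r) x * spin P x)
      = ∏ x ∈ Λ.erase u, (1 + t x * spin P x) := by
    apply Finset.prod_congr rfl
    intro x hx
    rw [Function.update_of_ne (Finset.ne_of_mem_erase hx)]
  rw [h2, Function.update_self]
  have hpos : 0 < 1 + t u * r := by
    have h3 : |t u * r| < 1 := by
      rw [abs_mul]; nlinarith [abs_nonneg (t u), abs_nonneg r]
    linarith [(abs_lt.1 h3).1]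
  have key : (1 + ein (t u) r * spin P u) * (1 + t u * r) = (1 + t u * spin P u) *
      (1 + r * spin P u) := by
    unfold ein
    have h4 := spin_sq P u
    field_simp
    linear_combination (-(t u * r)) * h4
  linear_combination (∏ e ∈ Eg G Λ, (1 + θ * spinE P e)) *
    (∏ x ∈ Λ.erase u, (1 + t x * spin P x)) * key

theorem gexp_update {θ : ℝ} {Λ : Finset V} {t : V → ℝ} {u : V} (hu : u ∈ Λ)
    (htu : |t u| < 1) {r : ℝ} (hr : |r| < 1) (F : Finset V → ℝ) :
    gexp G θ Λ (Function.update t u (ein (t u) r)) F * (1 + t u * r)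
      = gexp G θ Λ t F + r * gexp G θ Λ t (fun P => F P * spin P u) := by
  rw [← gexp_smul, ← gexp_add]
  unfold gexp
  rw [mul_assoc, Finset.sum_mul]
  congr 1
  apply Finset.sum_congr rfl
  intro P _
  rw [mul_assoc, wt_update G hu htu hr]
  ring

theorem Zf_update {θ : ℝ} (h0 : 0 ≤ θ) (h1 : θ < 1) {Λ : Finset V} {t : V → ℝ}
    (ht : ∀ v ∈ Λ, |t v| < 1) {u : V} (hu : u ∈ Λ) {r : ℝ} (hr : |r| < 1) :
    Zf G θ Λ (Function.update t u (ein (t u) r)) * (1 + t u * r)
      = Zf G θ Λ t * (1 + mag G θ Λ t u * r) := by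
  have h := gexp_update G (θ := θ) hu (ht u hu) hr (fun _ => 1)
  have hZ := Zf_pos G h0 h1 ht
  have h2 : Zf G θ Λ (Function.update t u (ein (t u) r)) = gexp G θ Λ
    (Function.update t u (ein (t u) r)) (fun _ => 1) := rfl
  rw [h2, h, mag_of_mem G hu]
  simp only [one_mul]
  have h3 : gexp G θ Λ t (fun _ => 1) = Zf G θ Λ t := rfl
  rw [h3]
  field_simp

theorem mag_update {θ : ℝ} (h0 : 0 ≤ θ) (h1 : θ < 1) {Λ : Finset V} {t : V → ℝ}
    (ht : ∀ v ∈ Λ, |t v| < 1) {u : V} (hu : u ∈ Λ) {r : ℝ} (hr : |r| < 1) (v : V) :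
    mag G θ Λ (Function.update t u (ein (t u) r)) v
      = mag G θ Λ t v + cov G θ Λ t v u * (r / (1 + mag G θ Λ t u * r)) := by
  by_cases hv : v ∈ Λ
  · have hZ := Zf_pos G h0 h1 ht
    have hm := mag_lt G h0 h1 ht u
    have hpos : 0 < 1 + mag G θ Λ t u * r := by
      have h3 : |mag G θ Λ t u * r| < 1 := by
        rw [abs_mul]; nlinarith [abs_nonneg (mag G θ Λ t u), abs_nonneg r]
      linarith [(abs_lt.1 h3).1]
    have hpos2 : 0 < 1 + t u * r := by
      have h3 : |t u * r| < 1 := by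
        rw [abs_mul]; nlinarith [abs_nonneg (t u), abs_nonneg r, ht u hu]
      linarith [(abs_lt.1 h3).1]
    have e1 := Zf_update G h0 h1 ht hu hr
    have e2 := gexp_update G (θ := θ) hu (ht u hu) hr (fun P => spin P v)
    have hv' : gexp G θ Λ t (fun P => spin P v) = mag G θ Λ t v * Zf G θ Λ t := by
      rw [mag_of_mem G hv]; field_simp
    have hc : gexp G θ Λ t (fun P => spin P v * spin P u)
        = (cov G θ Λ t v u + mag G θ Λ t v * mag G θ Λ t u) * Zf G θ Λ t := by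
      rw [cov_of_mem G hv hu]; field_simp; ring
    rw [hv', hc] at e2
    have hZ' : Zf G θ Λ (Function.update t u (ein (t u) r)) =
        Zf G θ Λ t * (1 + mag G θ Λ t u * r) / (1 + t u * r) := by
      rw [eq_div_iff hpos2.ne']; exact e1
    have hG' : gexp G θ Λ (Function.update t u (ein (t u) r)) (fun P => spin P v) =
        (mag G θ Λ t v * Zf G θ Λ t + r * ((cov G θ Λ t v u + mag G θ Λ t v * mag G θ Λ t u)
          * Zf G θ Λ t)) / (1 + t u * r) := by
      rw [eq_div_iff hpos2.ne']; exact e2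
    rw [mag_of_mem G hv, hZ', hG']
    generalize mag G θ Λ t v = a at *
    generalize mag G θ Λ t u = b at *
    generalize cov G θ Λ t v u = c at *
    generalize Zf G θ Λ t = Z at *
    generalize t u = s at *
    have hb := hpos.ne'
    have hs := hpos2.ne'
    have hZn := hZ.ne'
    rw [div_div_div_cancel_right₀ hs, div_eq_iff (mul_ne_zero hZn hb)]
    have e3 : r / (1 + b * r) * (1 + b * r) = r := div_mul_cancel₀ _ hb
    linear_combination (-c * Z) * e3
  · rw [mag_of_notMem G hv, mag_of_notMem G hv]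
    unfold cov
    rw [if_neg (fun h => hv h.1)]
    ring

end Gen

end Crest.Agent.FreeIs
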