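import Crest.Agent.FreeIs.Far

/-!
M7, first half: sums of dart functions along paths.
-/

set_option autoImplicit false
set_option linter.unusedVariables false

open MeasureTheory Filter Topology

namespace Crest.Agent.FreeIs.IncA

open Crest.Agent.FreeIs Crest.Agent.FreeIs.Rec

variable {q : ℕ}

/-- Sum of a dart function along a path. -/
noncomputable def LS (ξ : Fin (q + 1) → Lab (W q) → ℝ) : List (Fin (q + 1)) → Lab (W q) → ℝ
  | [] => fun _ => 0
  | a :: l => fun ω => ξ a ω + LS ξ l (sh a ω)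

theorem LS_BM {ξ : Fin (q + 1) → Lab (W q) → ℝ} (h : ∀ a, BM (ξ a)) (l : List (Fin (q + 1))) :
    BM (LS ξ l) := by
  induction l with
  | nil => exact BM.const 0
  | cons a l ih => exact (h a).add (ih.comp_sh a)

theorem LS_sub (ξ ζ : Fin (q + 1) → Lab (W q) → ℝ) (l : List (Fin (q + 1))) (ω : Lab (W q)) :
    LS (fun a ω => ξ a ω - ζ a ω) l ω = LS ξ l ω - LS ζ l ω := by
  induction l generalizing ω with
  | nil => simp [LS]
  | cons a l ih => simp only [LS, ih]; ring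

theorem LS_congr {ξ ζ : Fin (q + 1) → Lab (W q) → ℝ} (l : List (Fin (q + 1))) (ω : Lab (W q))
    (h : ∀ l a, ξ a (shl l ω) = ζ a (shl l ω)) : LS ξ l ω = LS ζ l ω := by
  induction l generalizing ω with
  | nil => rfl
  | cons a l ih =>
    simp only [LS]
    rw [ih (sh a ω) fun l b => h (a :: l) b]
    have := h [] a
    simp only [shl_nil] at this
    rw [this]

theorem LS_const_abs {c : Fin (q + 1) → ℝ} {B : ℝ} (h : ∀ a, |c a| ≤ B)
    (l : List (Fin (q + 1))) (ω : Lab (W q)) :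
    |LS (fun a _ => c a) l ω| ≤ l.length * B := by
  induction l generalizing ω with
  | nil => simp [LS]
  | cons a l ih =>
    simp only [LS, List.length_cons]
    have := abs_add_le (c a) (LS (fun a _ => c a) l (sh a ω))
    push_cast
    linarith [ih (sh a ω), h a]

theorem Bop_BM {ξ : Fin (q + 1) → Lab (W q) → ℝ} (h : ∀ a, BM (ξ a)) (a : Fin (q + 1)) :
    BM (Bop ξ a) := by
  unfold Bop
  exact (BM.sum _ fun k _ => (h k).comp_sh a).const_mul _

theorem Bop_iter_BM {ξ : Fin (q + 1) → Lab (W q) → ℝ} (h : ∀ a, BM (ξ a)) (n : ℕ)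
    (a : Fin (q + 1)) : BM (Bop^[n] ξ a) := by
  induction n generalizing a with
  | zero => exact h a
  | succ n ih =>
    rw [Function.iterate_succ_apply']
    exact Bop_BM ih a

/-- Forward averages of the path sums. -/
noncomputable def Vn (ξ : Fin (q + 1) → Lab (W q) → ℝ) : ℕ → Fin (q + 1) → Lab (W q) → ℝ
  | 0 => ξ
  | n + 1 => fun a ω => ξ a ω + Bop (Vn ξ n) a ω

theorem sum_Bop_integral {f : Fin (q + 1) → Lab (W q) → ℝ} (hq : 2 ≤ q) (h : ∀ a, BM (f a)) :
    ∑ a, ∫ ω, Bop f a ω ∂(labP (W q)) = ∑ a, ∫ ω, f a ω ∂(labP (W q)) := by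
  have hq0 : (q : ℝ) ≠ 0 := by positivity
  have h1 : ∀ a, ∫ ω, Bop f a ω ∂(labP (W q))
      = (q : ℝ)⁻¹ * ∑ k ∈ Finset.univ.erase a, ∫ ω, f k ω ∂(labP (W q)) := by
    intro a
    unfold Bop
    rw [integral_const_mul, integral_finsetSum]
    · congr 1
      exact Finset.sum_congr rfl fun k _ => integral_sh a (f k)
    · intro k _
      exact ((h k).comp_sh a).integrable
  simp only [h1]
  rw [← Finset.mul_sum]
  have h2 : ∀ a : Fin (q + 1), ∑ k ∈ Finset.univ.erase a, ∫ ω, f k ω ∂(labP (W q))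
      = (∑ k, ∫ ω, f k ω ∂(labP (W q))) - ∫ ω, f a ω ∂(labP (W q)) := by
    intro a
    rw [← Finset.sum_erase_add _ _ (Finset.mem_univ a)]
    ring
  simp only [h2]
  rw [Finset.sum_sub_distrib]
  simp only [Finset.sum_const, Finset.card_univ, Fintype.card_fin, nsmul_eq_mul]
  push_cast
  field_simp
  ring

theorem Vn_eq (hq : 2 ≤ q) (ξ : Fin (q + 1) → Lab (W q) → ℝ) (k : ℕ) (a : Fin (q + 1))
    (ω : Lab (W q)) : (q : ℝ)⁻¹ ^ k * ws a k (fun l => LS ξ (a :: l) ω) = Vn ξ k a ω := by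
  have hq0 : (q : ℝ) ≠ 0 := by positivity
  induction k generalizing a ω with
  | zero => simp [ws, LS, Vn]
  | succ k ih =>
    simp only [ws, Vn, Bop]
    have e : ∀ b ∈ (Finset.univ : Finset (Fin (q + 1))).erase a,
        ws b k (fun l => LS ξ (a :: b :: l) ω)
        = (q : ℝ) ^ k * (ξ a ω + Vn ξ k b (sh a ω)) := by
      intro b _
      have e1 : (fun l => LS ξ (a :: b :: l) ω)
          = fun l => ξ a ω + LS ξ (b :: l) (sh a ω) := by
        funext l
        rfl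
      rw [e1, ws_add, ws_const, ← ih b (sh a ω)]
      rw [mul_add, ← mul_assoc, ← mul_pow, mul_inv_cancel₀ hq0, one_pow, one_mul]
    rw [Finset.sum_congr rfl e, ← Finset.mul_sum, Finset.sum_add_distrib]
    simp only [Finset.sum_const, Finset.card_erase_of_mem (Finset.mem_univ a),
        Finset.card_univ, Fintype.card_fin, nsmul_eq_mul, Nat.add_sub_cancel]
    have h2 : (q : ℝ)⁻¹ ^ (k + 1) * (q : ℝ) ^ k = (q : ℝ)⁻¹ := by
      rw [pow_succ, mul_right_comm, ← mul_pow, inv_mul_cancel₀ hq0, one_pow, one_mul]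
    rw [← mul_assoc, h2, mul_add, ← mul_assoc, inv_mul_cancel₀ hq0, one_mul]

theorem Bop_sum {ι : Type*} (s : Finset ι) (F : ι → Fin (q + 1) → Lab (W q) → ℝ)
    (a : Fin (q + 1)) (ω : Lab (W q)) :
    Bop (fun a ω => ∑ j ∈ s, F j a ω) a ω = ∑ j ∈ s, Bop (F j) a ω := by
  unfold Bop
  rw [Finset.sum_comm, Finset.mul_sum]

theorem Vn_sum (ξ : Fin (q + 1) → Lab (W q) → ℝ) (k : ℕ) :
    Vn ξ k = fun a ω => ∑ j ∈ Finset.range (k + 1), Bop^[j] ξ a ω := by
  induction k with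
  | zero => funext a ω; simp [Vn]
  | succ k ih =>
    funext a ω
    rw [Finset.sum_range_succ']
    simp only [Vn]
    rw [ih, Bop_sum, add_comm]
    simp only [Function.iterate_succ_apply', Function.iterate_zero, id_eq]

theorem Un_succ (hq : 2 ≤ q) (ξ : Fin (q + 1) → Lab (W q) → ℝ) (k : ℕ) (a : Fin (q + 1))
    (ω : Lab (W q)) : (q : ℝ)⁻¹ ^ (k + 1) * ws a (k + 1) (fun l => LS ξ (a :: l) ω ^ 2)
      = ξ a ω ^ 2 + 2 * (ξ a ω * Bop (Vn ξ k) a ω)
        + Bop (fun a ω => (q : ℝ)⁻¹ ^ k * ws a k (fun l => LS ξ (a :: l) ω ^ 2)) a ω := by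
  have hq0 : (q : ℝ) ≠ 0 := by positivity
  simp only [ws, Bop]
  have e : ∀ b ∈ (Finset.univ : Finset (Fin (q + 1))).erase a,
      ws b k (fun l => LS ξ (a :: b :: l) ω ^ 2)
      = (q : ℝ) ^ k * (ξ a ω ^ 2 + 2 * ξ a ω * Vn ξ k b (sh a ω)
        + (q : ℝ)⁻¹ ^ k * ws b k (fun l => LS ξ (b :: l) (sh a ω) ^ 2)) := by
    intro b _
    have e1 : (fun l => LS ξ (a :: b :: l) ω ^ 2)
        = fun l => (ξ a ω ^ 2 + 2 * ξ a ω * LS ξ (b :: l) (sh a ω))
          + LS ξ (b :: l) (sh a ω) ^ 2 := by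
      funext l
      simp only [LS]
      ring
    rw [e1, ws_add, ws_add, ws_const, ws_mul, ← Vn_eq hq ξ k b (sh a ω)]
    have h2 : (q : ℝ) ^ k * (q : ℝ)⁻¹ ^ k = 1 := by
      rw [← mul_pow, mul_inv_cancel₀ hq0, one_pow]
    generalize ws b k (fun l => LS ξ (b :: l) (sh a ω)) = x
    generalize ws b k (fun l => LS ξ (b :: l) (sh a ω) ^ 2) = y
    linear_combination (-(2 * ξ a ω * x) - y) * h2
  rw [Finset.sum_congr rfl e, ← Finset.mul_sum, Finset.sum_add_distrib, Finset.sum_add_distrib]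
  simp only [Finset.sum_const, Finset.card_erase_of_mem (Finset.mem_univ a),
      Finset.card_univ, Fintype.card_fin, nsmul_eq_mul, Nat.add_sub_cancel]
  have h2 : (q : ℝ)⁻¹ ^ (k + 1) * (q : ℝ) ^ k = (q : ℝ)⁻¹ := by
    rw [pow_succ, mul_right_comm, ← mul_pow, inv_mul_cancel₀ hq0, one_pow, one_mul]
  rw [← mul_assoc, h2, mul_add, mul_add, ← mul_assoc, inv_mul_cancel₀ hq0, one_mul,
    ← Finset.mul_sum]
  ring

theorem two_mul_integral_le {f g : Lab (W q) → ℝ} (hf : BM f) (hg : BM g) {t : ℝ} (ht : 0 < t) :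
    2 * ∫ ω, f ω * g ω ∂(labP (W q)) ≤ t * ∫ ω, f ω ^ 2 ∂(labP (W q))
      + t⁻¹ * ∫ ω, g ω ^ 2 ∂(labP (W q)) := by
  rw [← integral_const_mul, ← integral_const_mul, ← integral_const_mul,
    ← integral_add ((hf.pow 2).const_mul _).integrable ((hg.pow 2).const_mul _).integrable]
  refine integral_mono ((hf.mul hg).const_mul _).integrable
    (((hf.pow 2).const_mul _).add ((hg.pow 2).const_mul _)).integrable fun ω => ?_
  have h1 : 0 ≤ t⁻¹ * (t * f ω - g ω) ^ 2 := by positivity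
  have h2 : t⁻¹ * (t * f ω - g ω) ^ 2 = t * f ω ^ 2 - 2 * (f ω * g ω) + t⁻¹ * g ω ^ 2 := by
    field_simp
    ring
  simp only
  linarith

/-- The second moment of the path sums of a centred dart function grows linearly. -/
theorem path_sq (hq : 2 ≤ q) {C γ : ℝ} (hC : 0 ≤ C) (hγ0 : 0 ≤ γ) (hγ1 : γ < 1) :
    ∃ K : ℝ, 0 ≤ K ∧ ∀ ξ : Fin (q + 1) → Lab (W q) → ℝ, (∀ a, BM (ξ a)) →
      (∀ k : ℕ, ∑ i, ∫ ω, (Bop^[k] ξ i ω) ^ 2 ∂(labP (W q))
        ≤ C * γ ^ k * ∑ i, ∫ ω, (ξ i ω) ^ 2 ∂(labP (W q))) → ∀ k : ℕ,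
      wsum q (k + 1) (fun l => ∫ ω, LS ξ l ω ^ 2 ∂(labP (W q)))
        ≤ (q : ℝ) ^ k * ((k + 1) * (K * ∑ i, ∫ ω, (ξ i ω) ^ 2 ∂(labP (W q)))) := by
  have hq0 : (q : ℝ) ≠ 0 := by positivity
  set γ' : ℝ := (1 + γ) / 2 with hγ'
  have g1 : 0 < γ' := by rw [hγ']; linarith
  have g2 : γ' < 1 := by rw [hγ']; linarith
  have g3 : γ ≤ γ' := by rw [hγ']; linarith
  set ρ : ℝ := √γ' with hρ
  have r0 : 0 < ρ := Real.sqrt_pos.2 g1
  have r1 : ρ < 1 := by
    rw [hρ, Real.sqrt_lt' one_pos]; simpa using g2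
  have r2 : ρ ^ 2 = γ' := Real.sq_sqrt g1.le
  set D : ℝ := C + 1 with hD
  have D0 : 0 < D := by rw [hD]; linarith
  have D1 : C ≤ D ^ 2 := by rw [hD]; nlinarith
  refine ⟨1 + 2 * D / (1 - ρ), by
    have : 0 ≤ 2 * D / (1 - ρ) := div_nonneg (by linarith) (by linarith)
    linarith, fun ξ hξ hdec k => ?_⟩
  set X : ℝ := ∑ i, ∫ ω, (ξ i ω) ^ 2 ∂(labP (W q)) with hX
  have X0 : 0 ≤ X := Finset.sum_nonneg fun i _ => integral_nonneg fun ω => sq_nonneg _
  set u : ℕ → ℝ := fun k => ∑ a, ∫ ω, (q : ℝ)⁻¹ ^ k * ws a k (fun l => LS ξ (a :: l) ω ^ 2)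
    ∂(labP (W q)) with hu
  have hLS := LS_BM hξ
  have hU : ∀ k a, BM (fun ω => (q : ℝ)⁻¹ ^ k * ws a k (fun l => LS ξ (a :: l) ω ^ 2)) :=
    fun k a => (BM.ws (fun l => (hLS (a :: l)).pow 2)).const_mul _
  have hVn : ∀ k a, BM (Vn ξ k a) := by
    intro k a
    rw [Vn_sum]
    exact BM.sum _ fun j _ => Bop_iter_BM hξ j a
  -- cross terms
  have hcross : ∀ k, 2 * ∑ a, ∫ ω, ξ a ω * Bop (Vn ξ k) a ω ∂(labP (W q))
      ≤ 2 * D / (1 - ρ) * X := by
    intro k
    have e1 : ∀ a, ∫ ω, ξ a ω * Bop (Vn ξ k) a ω ∂(labP (W q))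
        = ∑ j ∈ Finset.range (k + 1), ∫ ω, ξ a ω * Bop^[j + 1] ξ a ω ∂(labP (W q)) := by
      intro a
      rw [← integral_finsetSum]
      · refine integral_congr_ae (Eventually.of_forall fun ω => ?_)
        simp only
        rw [Vn_sum, Bop_sum, Finset.mul_sum]
        simp only [Function.iterate_succ_apply']
      · intro j _
        exact ((hξ a).mul (Bop_iter_BM hξ (j + 1) a)).integrable
    simp only [e1]
    rw [Finset.sum_comm, Finset.mul_sum]
    have e2 : ∀ j ∈ Finset.range (k + 1),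
        2 * ∑ a, ∫ ω, ξ a ω * Bop^[j + 1] ξ a ω ∂(labP (W q)) ≤ 2 * D * X * ρ ^ j := by
      intro j _
      have ht : 0 < D * ρ ^ (j + 1) := by positivity
      rw [Finset.mul_sum]
      have e3 := Finset.sum_le_sum fun (a : Fin (q + 1)) (_ : a ∈ Finset.univ) =>
        two_mul_integral_le (hξ a) (Bop_iter_BM hξ (j + 1) a) ht
      refine e3.trans ?_
      rw [Finset.sum_add_distrib, ← Finset.mul_sum, ← Finset.mul_sum]
      have e4 := hdec (j + 1)
      have e5 : C * γ ^ (j + 1) ≤ D ^ 2 * (ρ ^ (j + 1)) ^ 2 := by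
        have : (ρ ^ (j + 1)) ^ 2 = γ' ^ (j + 1) := by rw [← r2]; ring
        rw [this]
        exact mul_le_mul D1 (pow_le_pow_left₀ hγ0 g3 _) (pow_nonneg hγ0 _) (by positivity)
      have e6 : (D * ρ ^ (j + 1))⁻¹ * ∑ i, ∫ ω, (Bop^[j + 1] ξ i ω) ^ 2 ∂(labP (W q))
          ≤ D * ρ ^ (j + 1) * X := by
        rw [inv_mul_le_iff₀ ht]
        refine e4.trans ?_
        have := mul_le_mul_of_nonneg_right e5 X0
        calc _ ≤ _ := this
          _ = _ := by ring
      have e7 : D * ρ ^ (j + 1) * X ≤ D * X * ρ ^ j := by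
        have : ρ ^ (j + 1) ≤ ρ ^ j := pow_le_pow_of_le_one r0.le r1.le (Nat.le_succ j)
        nlinarith [mul_nonneg D0.le X0]
      linarith
    refine (Finset.sum_le_sum e2).trans ?_
    rw [← Finset.mul_sum]
    have e8 : ∑ j ∈ Finset.range (k + 1), ρ ^ j ≤ 1 / (1 - ρ) := by
      have := geom_tail r0.le r1 0 (k + 1)
      simpa using this
    calc 2 * D * X * _ ≤ 2 * D * X * (1 / (1 - ρ)) :=
          mul_le_mul_of_nonneg_left e8 (by positivity)
      _ = _ := by ring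
  have hu0 : u 0 = X := by
    simp [hu, hX, ws, LS]
  have hus : ∀ k, u (k + 1) ≤ u k + (1 + 2 * D / (1 - ρ)) * X := by
    intro k
    have e1 : u (k + 1) = X + 2 * (∑ a, ∫ ω, ξ a ω * Bop (Vn ξ k) a ω ∂(labP (W q))) + u k := by
      simp only [hu]
      have e2 : ∀ a, ∫ ω, (q : ℝ)⁻¹ ^ (k + 1) * ws a (k + 1) (fun l => LS ξ (a :: l) ω ^ 2)
            ∂(labP (W q))
          = ∫ ω, ξ a ω ^ 2 ∂(labP (W q)) + 2 * (∫ ω, ξ a ω * Bop (Vn ξ k) a ω ∂(labP (W q)))
            + ∫ ω, Bop (fun a ω => (q : ℝ)⁻¹ ^ k * ws a k (fun l => LS ξ (a :: l) ω ^ 2)) a ω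
              ∂(labP (W q)) := by
        intro a
        rw [← integral_const_mul, ← integral_add, ← integral_add]
        · refine integral_congr_ae (Eventually.of_forall fun ω => ?_)
          exact Un_succ hq ξ k a ω
        · exact (((hξ a).pow 2).add (((hξ a).mul (Bop_BM (hVn k) a)).const_mul 2)).integrable
        · exact (Bop_BM (hU k) a).integrable
        · exact ((hξ a).pow 2).integrable
        · exact (((hξ a).mul (Bop_BM (hVn k) a)).const_mul 2).integrable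
      simp only [e2]
      rw [Finset.sum_add_distrib, Finset.sum_add_distrib, ← Finset.mul_sum,
        sum_Bop_integral hq (hU k)]
    rw [e1]
    have := hcross k
    linarith
  have huk : ∀ k : ℕ, u k ≤ (k + 1) * ((1 + 2 * D / (1 - ρ)) * X) := by
    intro k
    induction k with
    | zero =>
      rw [hu0]
      have : 0 ≤ 2 * D / (1 - ρ) := div_nonneg (by linarith) (by linarith)
      push_cast
      nlinarith
    | succ k ih =>
      have := hus k
      push_cast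
      linarith
  have e : wsum q (k + 1) (fun l => ∫ ω, LS ξ l ω ^ 2 ∂(labP (W q))) = (q : ℝ) ^ k * u k := by
    simp only [wsum, hu]
    rw [Finset.mul_sum]
    refine Finset.sum_congr rfl fun a _ => ?_
    rw [integral_const_mul, ← mul_assoc, ← mul_pow, mul_inv_cancel₀ hq0, one_pow, one_mul,
      integral_ws fun l => ((hLS (a :: l)).pow 2).integrable]
  rw [e]
  exact mul_le_mul_of_nonneg_left (huk k) (by positivity)

end Crest.Agent.FreeIs.IncA
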