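import Crest.Agent.FreeIs.IncA
import Crest.Agent.FreeIs.Gap
import Crest.Agent.FreeIs.Real

/-!
M7, second part: `Loc` is stable under continuous functions, symmetric exponential form of `covr`.
-/

set_option autoImplicit false
set_option linter.unusedVariables false

open MeasureTheory Filter Topology

namespace Crest.Agent.FreeIs.IncA

open Crest.Agent.FreeIs Crest.Agent.FreeIs.Rec

variable {q : ℕ}

theorem loc_bm {f : Lab (W q) → ℝ} (h : Loc f) : BM f := ⟨h.meas, h.bd⟩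

/-- truncation -/
noncomputable def clamp (K x : ℝ) : ℝ := max (-K) (min K x)

theorem clamp_abs {K : ℝ} (x : ℝ) (hK : 0 ≤ K) : |clamp K x| ≤ K := by
  unfold clamp
  rw [abs_le]
  exact ⟨le_max_left _ _, max_le (by linarith) (min_le_left _ _)⟩

theorem clamp_eq {K x : ℝ} (h : |x| ≤ K) : clamp K x = x := by
  unfold clamp
  rw [abs_le] at h
  rw [min_eq_right h.2, max_eq_right h.1]

theorem clamp_lip (K x y : ℝ) : |clamp K x - clamp K y| ≤ |x - y| := by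
  unfold clamp
  refine (abs_max_sub_max_le_max _ _ _ _).trans ?_
  rw [sub_self, abs_zero, max_eq_right (abs_nonneg _)]
  refine (abs_min_sub_min_le_max _ _ _ _).trans ?_
  rw [sub_self, abs_zero, max_eq_right (abs_nonneg _)]

theorem continuous_clamp (K : ℝ) : Continuous (clamp K) := by
  unfold clamp
  fun_prop

theorem loc_comp2 {F : ℝ × ℝ → ℝ} (hF : Continuous F) {f g : Lab (W q) → ℝ} (hf : Loc f)
    (hg : Loc g) : Loc (fun ω => F (f ω, g ω)) := by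
  obtain ⟨K1, hK1⟩ := hf.bd
  obtain ⟨K2, hK2⟩ := hg.bd
  set K : ℝ := max 0 (max K1 K2) with hK
  have K0 : 0 ≤ K := le_max_left _ _
  have hfK : ∀ ω, |f ω| ≤ K := fun ω =>
    (hK1 ω).trans ((le_max_left _ _).trans (le_max_right _ _))
  have hgK : ∀ ω, |g ω| ≤ K := fun ω =>
    (hK2 ω).trans ((le_max_right _ _).trans (le_max_right _ _))
  set S : Set (ℝ × ℝ) := Set.Icc (-K) K ×ˢ Set.Icc (-K) K with hS
  have hSc : IsCompact S := isCompact_Icc.prod isCompact_Icc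
  obtain ⟨B, hB⟩ : ∃ B, ∀ x ∈ S, |F x| ≤ B := by
    obtain ⟨B, hB⟩ := hSc.exists_bound_of_continuousOn hF.continuousOn
    exact ⟨B, fun x hx => by simpa [Real.norm_eq_abs] using hB x hx⟩
  have hmem : ∀ x y : ℝ, |x| ≤ K → |y| ≤ K → (x, y) ∈ S := by
    intro x y hx hy
    exact ⟨Set.mem_Icc.2 (abs_le.1 hx), Set.mem_Icc.2 (abs_le.1 hy)⟩
  have hfgm : Measurable fun ω => F (f ω, g ω) := hF.measurable.comp (hf.meas.prodMk hg.meas)
  refine ⟨hfgm, ⟨B, fun ω => hB _ (hmem _ _ (hfK ω) (hgK ω))⟩, fun ε hε => ?_⟩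
  have hB0 : 0 ≤ B := (abs_nonneg _).trans (hB _ (hmem 0 0 (by simpa) (by simpa)))
  have hunif := hSc.uniformContinuousOn_of_continuous hF.continuousOn
  rw [Metric.uniformContinuousOn_iff_le] at hunif
  obtain ⟨δ, hδ, hFδ⟩ := hunif (√(ε / 2)) (Real.sqrt_pos.2 (by linarith))
  set ε1 : ℝ := ε * δ ^ 2 / (16 * B ^ 2 + 1) with hε1
  have e1p : 0 < ε1 := by rw [hε1]; positivity
  obtain ⟨n1, f1, f1m, f1b, f1l, f1a⟩ := hf.approx ε1 e1p
  obtain ⟨n2, g1, g1m, g1b, g1l, g1a⟩ := hg.approx ε1 e1p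
  have hcm : Measurable (clamp K) := (continuous_clamp K).measurable
  have hAm : Measurable fun ω => F (clamp K (f1 ω), clamp K (g1 ω)) :=
    hF.measurable.comp ((hcm.comp f1m).prodMk (hcm.comp g1m))
  have hAb : ∀ ω, |F (clamp K (f1 ω), clamp K (g1 ω))| ≤ B := fun ω =>
    hB _ (hmem _ _ (clamp_abs _ K0) (clamp_abs _ K0))
  refine ⟨max n1 n2, fun ω => F (clamp K (f1 ω), clamp K (g1 ω)), hAm, ⟨B, hAb⟩, ?_, ?_⟩
  · intro ω ω' h
    simp only
    rw [f1l ω ω' fun e he => h e (mem_wball.2 ((mem_wball.1 he).trans (le_max_left _ _))),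
      g1l ω ω' fun e he => h e (mem_wball.2 ((mem_wball.1 he).trans (le_max_right _ _)))]
  · have b1 : BM f := loc_bm hf
    have b2 : BM g := loc_bm hg
    have b3 : BM f1 := ⟨f1m, f1b⟩
    have b4 : BM g1 := ⟨g1m, g1b⟩
    have hpt : ∀ ω, (F (f ω, g ω) - F (clamp K (f1 ω), clamp K (g1 ω))) ^ 2
        ≤ ε / 2 + 4 * B ^ 2 / δ ^ 2 * ((f ω - f1 ω) ^ 2 + (g ω - g1 ω) ^ 2) := by
      intro ω
      have c1 : |f ω - clamp K (f1 ω)| ≤ |f ω - f1 ω| := by
        have := clamp_lip K (f ω) (f1 ω)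
        rwa [clamp_eq (hfK ω)] at this
      have c2 : |g ω - clamp K (g1 ω)| ≤ |g ω - g1 ω| := by
        have := clamp_lip K (g ω) (g1 ω)
        rwa [clamp_eq (hgK ω)] at this
      have hm1 := hmem _ _ (hfK ω) (hgK ω)
      have hm2 := hmem _ _ (clamp_abs (f1 ω) K0) (clamp_abs (g1 ω) K0)
      by_cases hd : |f ω - f1 ω| ≤ δ ∧ |g ω - g1 ω| ≤ δ
      · have := hFδ _ hm1 _ hm2 (by
          rw [Prod.dist_eq]
          simp only [Real.dist_eq]
          exact max_le (c1.trans hd.1) (c2.trans hd.2))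
        rw [Real.dist_eq] at this
        have h1 : (F (f ω, g ω) - F (clamp K (f1 ω), clamp K (g1 ω))) ^ 2 ≤ ε / 2 := by
          rw [← sq_abs]
          calc _ ≤ (√(ε / 2)) ^ 2 := pow_le_pow_left₀ (abs_nonneg _) this 2
            _ = _ := Real.sq_sqrt (by linarith)
        have h2 : 0 ≤ 4 * B ^ 2 / δ ^ 2 * ((f ω - f1 ω) ^ 2 + (g ω - g1 ω) ^ 2) := by positivity
        linarith
      · have h1 : δ ^ 2 ≤ (f ω - f1 ω) ^ 2 + (g ω - g1 ω) ^ 2 := by
          rw [not_and_or, not_le, not_le] at hd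
          rcases hd with hd | hd
          · have : δ ^ 2 ≤ (f ω - f1 ω) ^ 2 := by
              rw [← sq_abs (f ω - f1 ω)]
              exact pow_le_pow_left₀ hδ.le hd.le 2
            nlinarith [sq_nonneg (g ω - g1 ω)]
          · have : δ ^ 2 ≤ (g ω - g1 ω) ^ 2 := by
              rw [← sq_abs (g ω - g1 ω)]
              exact pow_le_pow_left₀ hδ.le hd.le 2
            nlinarith [sq_nonneg (f ω - f1 ω)]
        have h2 : (F (f ω, g ω) - F (clamp K (f1 ω), clamp K (g1 ω))) ^ 2 ≤ 4 * B ^ 2 := by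
          have : |F (f ω, g ω) - F (clamp K (f1 ω), clamp K (g1 ω))| ≤ 2 * B :=
            (abs_sub _ _).trans (by linarith [hB _ hm1, hB _ hm2])
          rw [← sq_abs]
          nlinarith [abs_nonneg (F (f ω, g ω) - F (clamp K (f1 ω), clamp K (g1 ω)))]
        have h3 : 4 * B ^ 2 ≤ 4 * B ^ 2 / δ ^ 2 * ((f ω - f1 ω) ^ 2 + (g ω - g1 ω) ^ 2) := by
          rw [div_mul_eq_mul_div, le_div_iff₀ (by positivity)]
          exact mul_le_mul_of_nonneg_left h1 (by positivity)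
        linarith
    have hI : Integrable (fun ω => ε / 2 + 4 * B ^ 2 / δ ^ 2 *
        ((f ω - f1 ω) ^ 2 + (g ω - g1 ω) ^ 2)) (labP (W q)) :=
      ((BM.const (ε / 2)).add ((((b1.sub b3).pow 2).add ((b2.sub b4).pow 2)).const_mul _)).integrable
    calc _ ≤ ∫ ω, (ε / 2 + 4 * B ^ 2 / δ ^ 2 * ((f ω - f1 ω) ^ 2 + (g ω - g1 ω) ^ 2))
          ∂(labP (W q)) := integral_mono_of_nonneg (Eventually.of_forall fun ω => sq_nonneg _) hI
            (Eventually.of_forall hpt)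
      _ = ε / 2 + 4 * B ^ 2 / δ ^ 2 * ((∫ ω, (f ω - f1 ω) ^ 2 ∂(labP (W q)))
          + ∫ ω, (g ω - g1 ω) ^ 2 ∂(labP (W q))) := by
        rw [integral_add (BM.const (ε / 2)).integrable
          ((((b1.sub b3).pow 2).add ((b2.sub b4).pow 2)).const_mul _).integrable,
          integral_const_mul, integral_add ((b1.sub b3).pow 2).integrable
          ((b2.sub b4).pow 2).integrable]
        simp
      _ ≤ ε / 2 + 4 * B ^ 2 / δ ^ 2 * (ε1 + ε1) := by
        have : (0:ℝ) ≤ 4 * B ^ 2 / δ ^ 2 := by positivity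
        nlinarith
      _ ≤ ε := by
        have : 4 * B ^ 2 / δ ^ 2 * (ε1 + ε1) = ε / 2 * (16 * B ^ 2 / (16 * B ^ 2 + 1)) := by
          rw [hε1]
          field_simp
          ring
        rw [this]
        have h5 : 16 * B ^ 2 / (16 * B ^ 2 + 1) ≤ 1 := by
          rw [div_le_one (by positivity)]; linarith
        nlinarith

theorem sys_loc {θ : ℝ} {M : Lab (W q) → ℝ} (h : Sys q θ M) : Loc M where
  meas := h.meas
  bd := ⟨1, h.bd⟩
  approx := fun ε hε => by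
    obtain ⟨n, f, h1, h2, h3, h4⟩ := h.approx ε hε
    exact ⟨n, f, h1, ⟨1, h2⟩, h3, h4⟩

/-! ### truncated logarithms -/

/-- `log g` with truncated argument -/
noncomputable def lgT (μ θ m : ℝ) : ℝ := Real.log (gg θ (clamp μ m))

theorem lgT_eq {μ θ m : ℝ} (h : |m| ≤ μ) : lgT μ θ m = Real.log (gg θ m) := by
  unfold lgT; rw [clamp_eq h]

theorem continuous_lgT {μ θ : ℝ} (h0 : 0 ≤ θ) (h1 : θ < 1) (hμ0 : 0 ≤ μ) (hμ : μ < 1) :
    Continuous (lgT μ θ) := by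
  have hc := continuous_clamp μ
  have hsq : ∀ m, clamp μ m ^ 2 < 1 := by
    intro m
    have := clamp_abs m hμ0
    rw [← sq_abs]
    nlinarith [abs_nonneg (clamp μ m)]
  have hden : ∀ m, 1 - θ ^ 2 * clamp μ m ^ 2 ≠ 0 := by
    intro m
    have := hsq m
    have h3 : θ ^ 2 ≤ 1 := by nlinarith
    nlinarith [sq_nonneg (clamp μ m), sq_nonneg θ]
  unfold lgT
  refine Continuous.log ?_ ?_
  · unfold gg
    exact Continuous.div (by fun_prop) (by fun_prop) hden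
  · intro m
    have h4 := gg_pos_of_le h0 h1 hμ (clamp_abs m hμ0)
    have h5 : 0 < 1 - μ ^ 2 := by nlinarith
    exact (lt_of_lt_of_le h5 h4).ne'

/-- truncated logarithm of the symmetrised edge factor -/
noncomputable def lamT (μ θ : ℝ) (M : Lab (W q) → ℝ) (a : Fin (q + 1)) (ω : Lab (W q)) : ℝ :=
  Real.log θ + (lgT μ θ (msg θ M a ω) + lgT μ θ (msg θ M a (sh a ω))) / 2

theorem loc_lgT {μ θ : ℝ} (h0 : 0 ≤ θ) (h1 : θ < 1) (hμ0 : 0 ≤ μ) (hμ : μ < 1)
    {M : Lab (W q) → ℝ} (hM : Loc M) (a : Fin (q + 1)) : Loc (fun ω => lgT μ θ (msg θ M a ω)) := by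
  have hc := (continuous_lgT h0 h1 hμ0 hμ).comp (continuous_cav θ)
  exact loc_comp2 (F := fun p => lgT μ θ (cav θ p.1 p.2)) hc hM (Gap.loc_sh hM a)

theorem loc_lamT {μ θ : ℝ} (h0 : 0 ≤ θ) (h1 : θ < 1) (hμ0 : 0 ≤ μ) (hμ : μ < 1)
    {M : Lab (W q) → ℝ} (hM : Loc M) (a : Fin (q + 1)) : Loc (lamT μ θ M a) := by
  have h2 := loc_lgT h0 h1 hμ0 hμ hM a
  have h3 := Gap.loc_sh h2 a
  exact loc_comp2 (F := fun p => Real.log θ + (p.1 + p.2) / 2) (by fun_prop) h2 h3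

/-! ### exponential form of `covr` -/

/-- exponent of `covr` -/
noncomputable def Ex (μ θ : ℝ) (M : Lab (W q) → ℝ) (l : List (Fin (q + 1))) (ω : Lab (W q)) : ℝ :=
  (Real.log (1 - M ω ^ 2) + Real.log (1 - M (shl l ω) ^ 2)) / 2 + LS (lamT μ θ M) l ω

theorem covr_exp {μ θ : ℝ} (h0 : 0 < θ) (h1 : θ < 1) (hμ0 : 0 ≤ μ) (hμ : μ < 1)
    {M : Lab (W q) → ℝ} (hM : ∀ ω, |M ω| ≤ μ) (l : List (Fin (q + 1))) (ω : Lab (W q))
    (hg : GoodA θ M ω) (hm : ∀ (l : List (Fin (q + 1))) i, |msg θ M i (shl l ω)| ≤ μ) :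
    covr θ M l ω = Real.exp (Ex μ θ M l ω) := by
  have hV : ∀ ω, 0 < 1 - M ω ^ 2 := by
    intro ω
    have := hM ω
    have : M ω ^ 2 < 1 := by rw [← sq_abs]; nlinarith [abs_nonneg (M ω)]
    linarith
  induction l generalizing ω with
  | nil =>
    simp only [covr, regr, Ex, LS, shl_nil, mul_one, add_zero, add_self_div_two]
    rw [Real.exp_log (hV ω)]
  | cons a l ih =>
    have ih' := ih (sh a ω) (hg.sh a) fun l i => hm (a :: l) i
    have m1 : |msg θ M a ω| ≤ μ := hm [] a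
    have m2 : |msg θ M a (sh a ω)| ≤ μ := hm [a] a
    have p0 : 0 < 1 - μ ^ 2 := by nlinarith
    have g1 : 0 < gg θ (msg θ M a ω) := lt_of_lt_of_le p0 (gg_pos_of_le h0.le h1 hμ m1)
    have g2 : 0 < gg θ (msg θ M a (sh a ω)) := lt_of_lt_of_le p0 (gg_pos_of_le h0.le h1 hμ m2)
    have hs := hg.good1.symm h0.le h1 a
    have hs' : Real.log (1 - M ω ^ 2) + Real.log (gg θ (msg θ M a ω))
        = Real.log (1 - M (sh a ω) ^ 2) + Real.log (gg θ (msg θ M a (sh a ω))) := by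
      rw [← Real.log_mul (hV ω).ne' g1.ne', ← Real.log_mul (hV _).ne' g2.ne', hs]
    have e1 : covr θ M (a :: l) ω
        = (1 - M ω ^ 2) * θ * gg θ (msg θ M a ω) / (1 - M (sh a ω) ^ 2) * covr θ M l (sh a ω) := by
      simp only [covr, regr]
      have := (hV (sh a ω)).ne'
      field_simp
    rw [e1, ih']
    have e2 : (1 - M ω ^ 2) * θ * gg θ (msg θ M a ω) / (1 - M (sh a ω) ^ 2)
        = Real.exp (Real.log (1 - M ω ^ 2) + Real.log θ + Real.log (gg θ (msg θ M a ω))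
          - Real.log (1 - M (sh a ω) ^ 2)) := by
      rw [Real.exp_sub, Real.exp_add, Real.exp_add, Real.exp_log (hV ω), Real.exp_log h0,
        Real.exp_log g1, Real.exp_log (hV _)]
    rw [e2, ← Real.exp_add]
    congr 1
    simp only [Ex, LS, shl_cons, lamT]
    rw [lgT_eq m1, lgT_eq m2]
    linarith

theorem exp_sub_sq {x y B : ℝ} (hx : Real.exp x ^ 2 ≤ B) (hy : Real.exp y ^ 2 ≤ B) :
    (Real.exp x - Real.exp y) ^ 2 ≤ B * (x - y) ^ 2 := by
  have key : ∀ x y : ℝ, y ≤ x → Real.exp x ^ 2 ≤ B →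
      (Real.exp x - Real.exp y) ^ 2 ≤ B * (x - y) ^ 2 := by
    intro x y hyx hx
    have h1 : Real.exp y ≤ Real.exp x := Real.exp_le_exp.2 hyx
    have h2 : y - x + 1 ≤ Real.exp (y - x) := Real.add_one_le_exp _
    have h3 : Real.exp y = Real.exp x * Real.exp (y - x) := by rw [← Real.exp_add]; ring_nf
    have h4 : Real.exp x - Real.exp y ≤ Real.exp x * (x - y) := by
      rw [h3]; nlinarith [Real.exp_pos x]
    calc (Real.exp x - Real.exp y) ^ 2 ≤ (Real.exp x * (x - y)) ^ 2 :=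
          pow_le_pow_left₀ (by linarith) h4 2
      _ = Real.exp x ^ 2 * (x - y) ^ 2 := by ring
      _ ≤ B * (x - y) ^ 2 := mul_le_mul_of_nonneg_right hx (sq_nonneg _)
  rcases le_total y x with h | h
  · exact key x y h hx
  · have := key y x h hy
    calc _ = (Real.exp y - Real.exp x) ^ 2 := by ring
      _ ≤ _ := this
      _ = _ := by ring

theorem log_sub_sq {x y δ : ℝ} (hδ : 0 < δ) (hx : δ ≤ x) (hy : δ ≤ y) :
    (Real.log x - Real.log y) ^ 2 ≤ (x - y) ^ 2 / δ ^ 2 := by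
  have key : ∀ x y : ℝ, y ≤ x → δ ≤ y → (Real.log x - Real.log y) ^ 2 ≤ (x - y) ^ 2 / δ ^ 2 := by
    intro x y hyx hy
    have hy0 : 0 < y := lt_of_lt_of_le hδ hy
    have hx0 : 0 < x := lt_of_lt_of_le hy0 hyx
    have h1 : Real.log y ≤ Real.log x := Real.log_le_log hy0 hyx
    have h2 : Real.log x - Real.log y ≤ (x - y) / δ := by
      rw [← Real.log_div hx0.ne' hy0.ne']
      have := Real.log_le_sub_one_of_pos (div_pos hx0 hy0)
      have h3 : x / y - 1 = (x - y) / y := by field_simp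
      rw [h3] at this
      exact this.trans (div_le_div_of_nonneg_left (by linarith) hδ hy)
    calc _ ≤ ((x - y) / δ) ^ 2 := pow_le_pow_left₀ (by linarith) h2 2
      _ = _ := by rw [div_pow]
  rcases le_total y x with h | h
  · exact key x y h hy
  · have := key y x h hx
    calc _ = (Real.log y - Real.log x) ^ 2 := by ring
      _ ≤ _ := this
      _ = _ := by congr 1; ring

theorem covr_sub_sq {μ θ θ' : ℝ} (hq : 2 ≤ q) (h0 : 0 < θ) (h1 : q * θ ^ 2 ≤ 1) (h0' : 0 < θ')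
    (h1' : q * θ' ^ 2 ≤ 1) (hμ0 : 0 ≤ μ) (hμ : μ < 1)
    {M M' : Lab (W q) → ℝ} (hM : ∀ ω, |M ω| ≤ μ) (hM' : ∀ ω, |M' ω| ≤ μ)
    (l : List (Fin (q + 1))) (ω : Lab (W q))
    (hg : GoodA θ M ω) (hm : ∀ (l : List (Fin (q + 1))) i, |msg θ M i (shl l ω)| ≤ μ)
    (hg' : GoodA θ' M' ω) (hm' : ∀ (l : List (Fin (q + 1))) i, |msg θ' M' i (shl l ω)| ≤ μ) :
    (covr θ M l ω - covr θ' M' l ω) ^ 2 ≤ (q : ℝ)⁻¹ ^ l.length *
      (4 / (1 - μ ^ 2) ^ 2 * ((M ω - M' ω) ^ 2 + (M (shl l ω) - M' (shl l ω)) ^ 2)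
        + 3 * LS (fun a ω => lamT μ θ M a ω - lamT μ θ' M' a ω) l ω ^ 2) := by
  have ht := theta_lt_one hq h1
  have ht' := theta_lt_one hq h1'
  have p0 : 0 < 1 - μ ^ 2 := by nlinarith
  have hM1 : ∀ ω, |M ω| ≤ 1 := fun ω => (hM ω).trans hμ.le
  have hM1' : ∀ ω, |M' ω| ≤ 1 := fun ω => (hM' ω).trans hμ.le
  have hb : ∀ (θ : ℝ) (M : Lab (W q) → ℝ), 0 < θ → q * θ ^ 2 ≤ 1 → (∀ ω, |M ω| ≤ 1) →
      GoodA θ M ω → covr θ M l ω ^ 2 ≤ (q : ℝ)⁻¹ ^ l.length := by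
    intro θ M h0 h1 hM hg
    have ht := theta_lt_one hq h1
    obtain ⟨c0, c1⟩ := covr_mem h0.le ht (hM ω) hg l
    obtain ⟨r0, r1⟩ := regr_mem h0.le ht hg l
    calc covr θ M l ω ^ 2 ≤ (θ ^ l.length) ^ 2 := pow_le_pow_left₀ c0 (c1.trans r1) 2
      _ = (θ ^ 2) ^ l.length := by ring
      _ ≤ _ := pow_le_pow_left₀ (sq_nonneg _) (theta_sq_le hq h1) _
  have b1 := hb θ M h0 h1 hM1 hg
  have b2 := hb θ' M' h0' h1' hM1' hg'
  rw [covr_exp h0 ht hμ0 hμ hM l ω hg hm] at b1 ⊢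
  rw [covr_exp h0' ht' hμ0 hμ hM' l ω hg' hm'] at b2 ⊢
  refine (exp_sub_sq b1 b2).trans (mul_le_mul_of_nonneg_left ?_ (by positivity))
  have hl : ∀ ω, (Real.log (1 - M ω ^ 2) - Real.log (1 - M' ω ^ 2)) ^ 2
      ≤ 4 / (1 - μ ^ 2) ^ 2 * (M ω - M' ω) ^ 2 := by
    intro ω
    have s1 : M ω ^ 2 ≤ μ ^ 2 := by
      rw [← sq_abs]; exact pow_le_pow_left₀ (abs_nonneg _) (hM ω) 2
    have s2 : M' ω ^ 2 ≤ μ ^ 2 := by
      rw [← sq_abs]; exact pow_le_pow_left₀ (abs_nonneg _) (hM' ω) 2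
    refine (log_sub_sq p0 (by linarith) (by linarith)).trans ?_
    rw [div_mul_eq_mul_div]
    refine div_le_div_of_nonneg_right ?_ (by positivity)
    have e : (1 - M ω ^ 2 - (1 - M' ω ^ 2)) ^ 2 = (M ω + M' ω) ^ 2 * (M ω - M' ω) ^ 2 := by ring
    rw [e]
    have h5 : |M ω + M' ω| ≤ 2 := (abs_add_le _ _).trans (by linarith [hM1 ω, hM1' ω])
    have h6 : (M ω + M' ω) ^ 2 ≤ 4 := by
      rw [← sq_abs]; nlinarith [abs_nonneg (M ω + M' ω)]
    exact mul_le_mul_of_nonneg_right h6 (sq_nonneg _)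
  have l1 := hl ω
  have l2 := hl (shl l ω)
  have e : Ex μ θ M l ω - Ex μ θ' M' l ω
      = (Real.log (1 - M ω ^ 2) - Real.log (1 - M' ω ^ 2)) / 2
        + (Real.log (1 - M (shl l ω) ^ 2) - Real.log (1 - M' (shl l ω) ^ 2)) / 2
        + LS (fun a ω => lamT μ θ M a ω - lamT μ θ' M' a ω) l ω := by
    rw [LS_sub]
    simp only [Ex]
    ring
  rw [e]
  generalize Real.log (1 - M ω ^ 2) - Real.log (1 - M' ω ^ 2) = A at *
  generalize Real.log (1 - M (shl l ω) ^ 2) - Real.log (1 - M' (shl l ω) ^ 2) = B at *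
  generalize LS (fun a ω => lamT μ θ M a ω - lamT μ θ' M' a ω) l ω = S at *
  have h7 : (A / 2 + B / 2 + S) ^ 2 ≤ A ^ 2 + B ^ 2 + 3 * S ^ 2 := by
    nlinarith [sq_nonneg (A / 2 - B / 2), sq_nonneg (A / 2 - S), sq_nonneg (B / 2 - S),
      sq_nonneg A, sq_nonneg B]
  rw [mul_add]
  linarith

end Crest.Agent.FreeIs.IncA
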