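import Crest.Agent.FreeIs.Edge
import Crest.Agent.FreeIs.Gibbs
import Crest.Agent.FreeIs.Samp5

/-!
M6, part A: translations of the tree, recentring of the finite volume magnetisations,
the product formula for `covr`, Lipschitz bounds of the finite volume covariances.
-/

set_option autoImplicit false
set_option linter.unusedVariables false

open MeasureTheory Filter Topology

namespace Crest.Agent.FreeIs.Lim

open Crest.Agent.FreeIs Crest.Agent.FreeIs.Rec

variable {q : ℕ}

/-! ### translations -/

theorem tog_adj_aux (i : Fin (q + 1)) {u v : W q} {a : Fin (q + 1)} (h : v.1 = u.1 ++ [a]) :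
    (WG q).Adj (tog i u) (tog i v) := by
  obtain ⟨l, hl⟩ := u
  obtain ⟨m, hm⟩ := v
  simp only at h
  subst h
  cases l with
  | nil =>
    by_cases ha : a = i
    · subst ha
      right
      refine ⟨a, ?_⟩
      simp [tog]
    · left
      refine ⟨a, ?_⟩
      simp [tog, ha]
  | cons b l =>
    by_cases hb : b = i
    · subst hb
      left
      refine ⟨a, ?_⟩
      simp [tog]
    · left
      refine ⟨a, ?_⟩
      simp [tog, hb]

theorem tog_adj' (i : Fin (q + 1)) {u v : W q} (h : (WG q).Adj u v) :
    (WG q).Adj (tog i u) (tog i v) := by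
  rcases h with ⟨a, h⟩ | ⟨a, h⟩
  · exact tog_adj_aux i h
  · exact (tog_adj_aux i h).symm

/-- the toggle as an automorphism -/
def togI (i : Fin (q + 1)) : WG q ≃g WG q where
  toEquiv := togE i
  map_rel_iff' := by
    intro a b
    constructor
    · intro h
      have := tog_adj' i h
      change (WG q).Adj (tog i (tog i a)) (tog i (tog i b)) at this
      rwa [tog_tog, tog_tog] at this
    · exact tog_adj' i

/-- the translation as an automorphism -/
def trI : List (Fin (q + 1)) → (WG q ≃g WG q)
  | [] => SimpleGraph.Iso.refl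
  | a :: l => (trI l).trans (togI a)

theorem trI_apply (l : List (Fin (q + 1))) (w : W q) : trI l w = tr l w := by
  induction l generalizing w with
  | nil => rfl
  | cons a l ih =>
    change togI a (trI l w) = tog a (tr l w)
    rw [ih]
    rfl

theorem shl_eq_act (l : List (Fin (q + 1))) (ω : Lab (W q)) : shl l ω = act (trI l) ω := by
  induction l generalizing ω with
  | nil => rfl
  | cons a l ih =>
    rw [shl_cons, ih]
    rfl

theorem tr_nil_root {l : List (Fin (q + 1))} (h : l.IsChain (· ≠ ·)) :
    tr l (wroot q) = ⟨l, h⟩ := by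
  induction l with
  | nil => rfl
  | cons a l ih =>
    change tog a (tr l (wroot q)) = _
    rw [ih h.tail]
    cases l with
    | nil => rfl
    | cons b l =>
      have hb : b ≠ a := by
        rw [List.isChain_cons_cons] at h
        exact h.1.symm
      simp [tog, hb]

theorem trI_root (w : W q) : trI w.1 (wroot q) = w := by
  rw [trI_apply, tr_nil_root w.2]
  rfl

theorem tog_len' (i : Fin (q + 1)) (w : W q) : (tog i w).1.length ≤ w.1.length + 1 := by
  obtain ⟨l, hl⟩ := w
  cases l with
  | nil => simp [tog]
  | cons b l =>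
    by_cases hb : b = i
    · subst hb
      simp [tog]
      omega
    · simp [tog, hb]

theorem tr_len (l : List (Fin (q + 1))) (w : W q) : (tr l w).1.length ≤ w.1.length + l.length := by
  induction l generalizing w with
  | nil => simp [tr]
  | cons a l ih =>
    change (tog a (tr l w)).1.length ≤ _
    have h1 := tog_len' a (tr l w)
    have h2 := ih w
    simp only [List.length_cons]
    omega

theorem Mf_shl (θ : ℝ) (Λ : Finset (W q)) (ω : Lab (W q)) (j : ℕ) (r : ℝ) (w : W q) :
    Mf (WG q) θ Λ (shl w.1 ω) j r (wroot q)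
      = Mf (WG q) θ (Λ.map (trI w.1).toEquiv.toEmbedding) ω j r w := by
  rw [shl_eq_act, Mf_natural (WG q) (trI w.1), trI_root]

/-- the translate of `Λ` that puts `w` at the root -/
noncomputable def rec0 (Λ : Finset (W q)) (w : W q) : Finset (W q) :=
  Λ.map (trI w.1).symm.toEquiv.toEmbedding

theorem rec0_map (Λ : Finset (W q)) (w : W q) :
    (rec0 Λ w).map (trI w.1).toEquiv.toEmbedding = Λ := by
  unfold rec0
  rw [Finset.map_map]
  have : (trI w.1).symm.toEquiv.toEmbedding.trans (trI w.1).toEquiv.toEmbedding
      = Function.Embedding.refl _ := by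
    ext x
    simp
  rw [this, Finset.map_refl]

theorem Mf_rec0 (θ : ℝ) (Λ : Finset (W q)) (ω : Lab (W q)) (j : ℕ) (r : ℝ) (w : W q) :
    Mf (WG q) θ Λ ω j r w = Mf (WG q) θ (rec0 Λ w) (shl w.1 ω) j r (wroot q) := by
  rw [Mf_shl, rec0_map]

theorem wball_rec0 {Λ : Finset (W q)} {w : W q} {k : ℕ} (h : wball q k ⊆ Λ) :
    wball q (k - w.1.length) ⊆ rec0 Λ w ∨ k < w.1.length := by
  by_cases hk : k < w.1.length
  · exact Or.inr hk
  left
  intro x hx
  unfold rec0
  rw [Finset.mem_map]
  refine ⟨trI w.1 x, h ?_, ?_⟩
  · rw [mem_wball] at hx ⊢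
    rw [trI_apply]
    have := tr_len w.1 x
    omega
  · simp

theorem wball_rec0' {Λ : Finset (W q)} {w : W q} {k : ℕ} (h : wball q k ⊆ Λ)
    (hw : w.1.length ≤ k) : wball q (k - w.1.length) ⊆ rec0 Λ w := by
  rcases wball_rec0 (w := w) h with h | h
  · exact h
  · omega

/-! ### automorphisms fixing the root preserve the length -/

theorem adj_len {u v : W q} (h : (WG q).Adj u v) :
    v.1.length = u.1.length + 1 ∨ u.1.length = v.1.length + 1 := by
  rcases h with ⟨a, h⟩ | ⟨a, h⟩
  · left; rw [h]; simp
  · right; rw [h]; simp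

theorem aut_len_le (g : WG q ≃g WG q) (hg : g (wroot q) = wroot q) (n : ℕ) (w : W q)
    (hn : w.1.length ≤ n) : (g w).1.length ≤ w.1.length := by
  induction n generalizing w with
  | zero =>
    have : w = wroot q := root_of_len (by omega)
    rw [this, hg]
  | succ n ih =>
    by_cases hw : w = wroot q
    · rw [hw, hg]
    · obtain ⟨u, a, ha⟩ := concat_of_ne_root hw
      have hl := len_of_concat ha
      have h1 := ih u (by omega)
      have h2 : (WG q).Adj (g u) (g w) := g.map_rel_iff.2 (adj_concat ha)
      have := adj_len h2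
      omega

theorem aut_len' (g : WG q ≃g WG q) (hg : g (wroot q) = wroot q) (w : W q) :
    (g w).1.length = w.1.length := by
  apply le_antisymm (aut_len_le g hg _ w le_rfl)
  have hg' : g.symm (wroot q) = wroot q := by
    have := g.symm_apply_apply (wroot q)
    rwa [hg] at this
  have := aut_len_le g.symm hg' _ (g w) le_rfl
  simpa using this

theorem map_wball (g : WG q ≃g WG q) (hg : g (wroot q) = wroot q) (n : ℕ) :
    (wball q n).map g.toEquiv.toEmbedding = wball q n := by
  ext x
  rw [Finset.mem_map]
  constructor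
  · rintro ⟨y, hy, rfl⟩
    rw [mem_wball] at hy ⊢
    change (g y).1.length ≤ n
    rw [aut_len' g hg]
    exact hy
  · intro hx
    refine ⟨g.symm x, ?_, by simp⟩
    rw [mem_wball] at hx ⊢
    have := aut_len' g hg (g.symm x)
    simp only [RelIso.apply_symm_apply] at this
    omega

end Crest.Agent.FreeIs.Lim
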