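import Crest.Agent.FreeIs.Edge

/-!
M6: real analysis: Lipschitz bounds for `cav`, `gg` at a fixed `θ`, continuity.
-/

set_option autoImplicit false
set_option linter.unusedVariables false

open MeasureTheory Filter Topology

namespace Crest.Agent.FreeIs.Lim

open Crest.Agent.FreeIs Crest.Agent.FreeIs.Rec

theorem continuous_cav' (θ : ℝ) : Continuous fun p : ℝ × ℝ => cav θ p.1 p.2 := by
  unfold cav
  refine Continuous.div₀ (by fun_prop) (by fun_prop) fun p => ?_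
  have := Real.sqrt_nonneg (1 - 4 * θ * ((p.2 - θ * p.1) / (1 - θ ^ 2)) * ((p.1 - θ * p.2) / (1 - θ ^ 2)))
  positivity

/-- the quantities `a = m/D`, `c = m'/D`, `ρ` -/
structure Aux (θ m m' a c ρ P Q : ℝ) : Prop where
  hm : m = 2 * a / (1 + ρ)
  ha : a = (Q - θ * P) / (1 - θ ^ 2)
  hc : c = (P - θ * Q) / (1 - θ ^ 2)
  hρ : ρ ^ 2 = 1 - 4 * θ * a * c
  hρ1 : (1 - θ) / 2 ≤ ρ
  ba : |a| ≤ 1 / (1 - θ)
  bc : |c| ≤ 1 / (1 - θ)

theorem aux_of {θ m m' : ℝ} (h0 : 0 ≤ θ) (h1 : θ < 1) (hm : |m| ≤ 1) (hm' : |m'| ≤ 1) :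
    ∃ a c ρ, Aux θ m m' a c ρ (ein m' (θ * m)) (ein m (θ * m')) := by
  have hmm : |m * m'| ≤ 1 := by rw [abs_mul]; nlinarith [abs_nonneg m, abs_nonneg m']
  have hmm2 := abs_le.1 hmm
  have hD : 1 - θ ≤ 1 + θ * m * m' := by nlinarith [hmm2.1]
  have hE : 1 - θ ≤ 1 - θ * m * m' := by nlinarith [hmm2.2]
  have hD2 : 1 + θ * m * m' ≤ 2 := by nlinarith [hmm2.2]
  have hθ : (1 - θ ^ 2) ≠ 0 := by nlinarith
  obtain ⟨D, hDe⟩ : ∃ D, D = 1 + θ * m * m' := ⟨_, rfl⟩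
  rw [← hDe] at hD hD2
  have hDp : 0 < D := by linarith
  have hD0 := hDp.ne'
  have e1 : ein m' (θ * m) = (m' + θ * m) / D := by
    unfold ein; congr 1; rw [hDe]; ring
  have e2 : ein m (θ * m') = (m + θ * m') / D := by
    unfold ein; congr 1; rw [hDe]; ring
  have hab : ∀ x : ℝ, |x| ≤ 1 → |x / D| ≤ 1 / (1 - θ) := by
    intro x hx
    rw [abs_div, abs_of_pos hDp]
    exact div_le_div₀ zero_le_one hx (by linarith) hD
  refine ⟨m / D, m' / D, (1 - θ * m * m') / D, ?_, ?_, ?_, ?_, ?_, hab m hm, hab m' hm'⟩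
  · have e6 : 1 + (1 - θ * m * m') / D = 2 / D := by
      rw [eq_div_iff hD0]
      have : (1 + (1 - θ * m * m') / D) * D = D + (1 - θ * m * m') := by
        field_simp
      rw [this, hDe]
      ring
    rw [e6]
    field_simp
  · rw [e1, e2, eq_div_iff hθ]
    field_simp
    ring
  · rw [e1, e2, eq_div_iff hθ]
    field_simp
    ring
  · rw [div_pow, div_eq_iff (by positivity)]
    have : (1 - 4 * θ * (m / D) * (m' / D)) * D ^ 2 = D ^ 2 - 4 * θ * m * m' := by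
      field_simp
    rw [this, hDe]
    ring
  · rw [div_le_div_iff₀ (by norm_num) hDp]
    nlinarith

theorem cav_lip1 {θ : ℝ} (h0 : 0 ≤ θ) (h1 : θ < 1) : ∃ K : ℝ, 0 ≤ K ∧ ∀ m m' n n' : ℝ,
    |m| ≤ 1 → |m'| ≤ 1 → |n| ≤ 1 → |n'| ≤ 1 →
    |m - n| ≤ K * (|ein m' (θ * m) - ein n' (θ * n)| + |ein m (θ * m') - ein n (θ * n')|) := by
  have hθ : 0 < 1 - θ := by linarith
  have hθ2 : 0 < 1 - θ ^ 2 := by nlinarith
  refine ⟨(2 + 16 / (1 - θ) ^ 3) / (1 - θ ^ 2), by positivity, ?_⟩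
  intro m m' n n' hm hm' hn hn'
  obtain ⟨a, c, ρ, A⟩ := aux_of h0 h1 hm hm'
  obtain ⟨a', c', ρ', B⟩ := aux_of h0 h1 hn hn'
  generalize ein m' (θ * m) = P at *
  generalize ein m (θ * m') = Q at *
  generalize ein n' (θ * n) = P' at *
  generalize ein n (θ * n') = Q' at *
  obtain ⟨δ, hδ⟩ : ∃ δ, δ = (|P - P'| + |Q - Q'|) / (1 - θ ^ 2) := ⟨_, rfl⟩
  have hδ0 : 0 ≤ δ := by rw [hδ]; positivity
  have da : |a - a'| ≤ δ := by
    rw [A.ha, B.ha, hδ, ← sub_div, abs_div, abs_of_pos hθ2]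
    refine div_le_div_of_nonneg_right ?_ hθ2.le
    have : Q - θ * P - (Q' - θ * P') = (Q - Q') - θ * (P - P') := by ring
    rw [this]
    refine (abs_sub _ _).trans ?_
    rw [abs_mul, abs_of_nonneg h0]
    nlinarith [abs_nonneg (P - P')]
  have dc : |c - c'| ≤ δ := by
    rw [A.hc, B.hc, hδ, ← sub_div, abs_div, abs_of_pos hθ2]
    refine div_le_div_of_nonneg_right ?_ hθ2.le
    have : P - θ * Q - (P' - θ * Q') = (P - P') - θ * (Q - Q') := by ring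
    rw [this]
    refine (abs_sub _ _).trans ?_
    rw [abs_mul, abs_of_nonneg h0]
    nlinarith [abs_nonneg (Q - Q')]
  obtain ⟨s, hs⟩ : ∃ s, s = 1 / (1 - θ) := ⟨_, rfl⟩
  have hs0 : 0 < s := by rw [hs]; positivity
  have hsθ : s * (1 - θ) = 1 := by rw [hs]; field_simp
  have ba := A.ba; have bc := A.bc; have ba' := B.ba; have bc' := B.bc
  rw [← hs] at ba bc ba' bc'
  have dac : |a' * c' - a * c| ≤ 2 * s * δ := by
    have : a' * c' - a * c = -(a' * (c - c') + c * (a - a')) := by ring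
    rw [this, abs_neg]
    refine (abs_add_le _ _).trans ?_
    rw [abs_mul, abs_mul]
    nlinarith [mul_le_mul ba' dc (abs_nonneg _) hs0.le, mul_le_mul bc da (abs_nonneg _) hs0.le]
  have hρ := A.hρ1
  have hρ' := B.hρ1
  have hρp : 0 < ρ := lt_of_lt_of_le (by positivity) hρ
  have hρp' : 0 < ρ' := lt_of_lt_of_le (by positivity) hρ'
  have dρ : |ρ - ρ'| ≤ 8 * s ^ 2 * δ := by
    have e : |ρ - ρ'| * (ρ + ρ') = |4 * θ * (a' * c' - a * c)| := by
      rw [← abs_of_pos (by linarith : 0 < ρ + ρ'), ← abs_mul]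
      congr 1
      have h1 := A.hρ
      have h2 := B.hρ
      nlinarith
    have e2 : |4 * θ * (a' * c' - a * c)| ≤ 8 * s * δ := by
      rw [abs_mul, abs_mul, abs_of_nonneg h0, abs_of_nonneg (by norm_num : (0:ℝ) ≤ 4)]
      nlinarith [abs_nonneg (a' * c' - a * c), mul_nonneg hs0.le hδ0]
    have e3 : |ρ - ρ'| * (1 - θ) ≤ 8 * s * δ := by
      refine le_trans ?_ (e.le.trans e2)
      exact mul_le_mul_of_nonneg_left (by linarith) (abs_nonneg _)
    calc |ρ - ρ'| = (|ρ - ρ'| * (1 - θ)) * s := by rw [mul_assoc, mul_comm (1 - θ) s, hsθ, mul_one]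
      _ ≤ (8 * s * δ) * s := mul_le_mul_of_nonneg_right e3 hs0.le
      _ = _ := by ring
  have hmn : m - n = (2 * (a - a') * (1 + ρ') + 2 * a' * (ρ' - ρ)) / ((1 + ρ) * (1 + ρ')) := by
    rw [A.hm, B.hm, eq_div_iff (by positivity)]
    field_simp
    ring
  have h5 : |m - n| ≤ 2 * |a - a'| + 2 * |a'| * |ρ - ρ'| := by
    rw [hmn, abs_div, abs_of_pos (by positivity : 0 < (1 + ρ) * (1 + ρ')),
      div_le_iff₀ (by positivity)]
    refine (abs_add_le _ _).trans ?_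
    rw [abs_mul, abs_mul, abs_mul, abs_mul, abs_of_pos (by linarith : 0 < 1 + ρ'),
      abs_of_pos (by norm_num : (0:ℝ) < 2), abs_sub_comm ρ' ρ]
    have k1 : 0 ≤ |a - a'| := abs_nonneg _
    have k2 : 0 ≤ |a'| * |ρ - ρ'| := by positivity
    nlinarith [mul_nonneg k1 hρp.le, mul_nonneg (mul_nonneg k1 hρp.le) hρp'.le,
      mul_nonneg k2 hρp.le, mul_nonneg k2 hρp'.le, mul_nonneg (mul_nonneg k2 hρp.le) hρp'.le]
  have h6 : |m - n| ≤ (2 + 16 * s ^ 3) * δ := by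
    refine h5.trans ?_
    have : |a'| * |ρ - ρ'| ≤ s * (8 * s ^ 2 * δ) := mul_le_mul ba' dρ (abs_nonneg _) hs0.le
    nlinarith
  refine h6.trans (le_of_eq ?_)
  rw [hδ, hs]
  field_simp

theorem gg_lip1 {θ : ℝ} (h0 : 0 ≤ θ) (h1 : θ < 1) : ∃ K : ℝ, 0 ≤ K ∧ ∀ m n : ℝ,
    |m| ≤ 1 → |n| ≤ 1 → |gg θ m - gg θ n| ≤ K * |m - n| := by
  have hθ2 : 0 < 1 - θ ^ 2 := by nlinarith
  refine ⟨2 / (1 - θ ^ 2), by positivity, ?_⟩
  intro m n hm hn
  have h2 : m ^ 2 ≤ 1 := by rw [← sq_abs]; nlinarith [abs_nonneg m]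
  have h2' : n ^ 2 ≤ 1 := by rw [← sq_abs]; nlinarith [abs_nonneg n]
  have h3 : 1 - θ ^ 2 ≤ 1 - θ ^ 2 * m ^ 2 := by nlinarith [sq_nonneg θ]
  have h3' : 1 - θ ^ 2 ≤ 1 - θ ^ 2 * n ^ 2 := by nlinarith [sq_nonneg θ]
  have p3 : 0 < 1 - θ ^ 2 * m ^ 2 := by linarith
  have p3' : 0 < 1 - θ ^ 2 * n ^ 2 := by linarith
  have e : gg θ m - gg θ n = (n - m) * (n + m) * (1 - θ ^ 2) /
      ((1 - θ ^ 2 * m ^ 2) * (1 - θ ^ 2 * n ^ 2)) := by
    unfold gg
    rw [div_sub_div _ _ p3.ne' p3'.ne']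
    congr 1
    ring
  rw [e, abs_div, abs_of_pos (by positivity : 0 < (1 - θ ^ 2 * m ^ 2) * (1 - θ ^ 2 * n ^ 2)),
    div_le_iff₀ (by positivity), abs_mul, abs_mul, abs_of_pos hθ2, abs_sub_comm n m]
  have h4 : |n + m| ≤ 2 := (abs_add_le _ _).trans (by linarith)
  have h5 : (1 - θ ^ 2) * (1 - θ ^ 2) ≤ (1 - θ ^ 2 * m ^ 2) * (1 - θ ^ 2 * n ^ 2) :=
    mul_le_mul h3 h3' hθ2.le p3.le
  calc |m - n| * |n + m| * (1 - θ ^ 2) ≤ |m - n| * 2 * (1 - θ ^ 2) :=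
        mul_le_mul_of_nonneg_right (mul_le_mul_of_nonneg_left h4 (abs_nonneg _)) hθ2.le
    _ = 2 / (1 - θ ^ 2) * |m - n| * ((1 - θ ^ 2) * (1 - θ ^ 2)) := by field_simp
    _ ≤ _ := mul_le_mul_of_nonneg_left h5 (by positivity)

theorem continuousAt_gg {θ m : ℝ} (h0 : 0 ≤ θ) (h1 : θ < 1) (hm : |m| ≤ 1) :
    ContinuousAt (gg θ) m := by
  have h2 : m ^ 2 ≤ 1 := by rw [← sq_abs]; nlinarith [abs_nonneg m]
  have h3 : 1 - θ ^ 2 * m ^ 2 ≠ 0 := by nlinarith [sq_nonneg θ]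
  unfold gg
  exact ContinuousAt.div (by fun_prop) (by fun_prop) h3

/-- product of numbers in `[0, θ]`: Lipschitz -/
theorem prod_lip {θ : ℝ} (h0 : 0 ≤ θ) (n : ℕ) (f g : ℕ → ℝ)
    (hf0 : ∀ i < n, 0 ≤ f i) (hf1 : ∀ i < n, f i ≤ 1) (hg0 : ∀ i < n, 0 ≤ g i)
    (hg1 : ∀ i < n, g i ≤ 1) :
    |∏ i ∈ Finset.range n, (θ * f i) - ∏ i ∈ Finset.range n, (θ * g i)|
      ≤ θ ^ n * ∑ i ∈ Finset.range n, |f i - g i| := by
  induction n with
  | zero => simp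
  | succ n ih =>
    have ih := ih (fun i hi => hf0 i (by omega)) (fun i hi => hf1 i (by omega))
      (fun i hi => hg0 i (by omega)) (fun i hi => hg1 i (by omega))
    rw [Finset.prod_range_succ, Finset.prod_range_succ, Finset.sum_range_succ]
    have hF : 0 ≤ ∏ i ∈ Finset.range n, (θ * g i) :=
      Finset.prod_nonneg fun i hi => mul_nonneg h0 (hg0 i (by simp at hi; omega))
    have hF1 : ∏ i ∈ Finset.range n, (θ * g i) ≤ θ ^ n := by
      rw [← Finset.card_range n, ← Finset.prod_const, Finset.card_range]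
      refine Finset.prod_le_prod (fun i hi => mul_nonneg h0 (hg0 i (by simp at hi; omega)))
        fun i hi => ?_
      have := hg1 i (by simp at hi; omega)
      nlinarith
    generalize ∏ i ∈ Finset.range n, (θ * f i) = A at *
    generalize ∏ i ∈ Finset.range n, (θ * g i) = B at *
    have e : A * (θ * f n) - B * (θ * g n) = (A - B) * (θ * f n) + B * (θ * (f n - g n)) := by ring
    rw [e]
    refine (abs_add_le _ _).trans ?_
    rw [abs_mul, abs_mul, abs_mul, abs_mul, abs_of_nonneg h0, abs_of_nonneg hF,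
      abs_of_nonneg (hf0 n (by omega))]
    have h1 := hf1 n (by omega)
    have h2 := hf0 n (by omega)
    have a1 : |A - B| * (θ * f n) ≤ (θ ^ n * ∑ i ∈ Finset.range n, |f i - g i|) * θ := by
      refine mul_le_mul ih (by nlinarith) (by positivity) ?_
      exact mul_nonneg (pow_nonneg h0 n) (Finset.sum_nonneg fun _ _ => abs_nonneg _)
    have a2 : B * (θ * |f n - g n|) ≤ θ ^ n * (θ * |f n - g n|) :=
      mul_le_mul_of_nonneg_right hF1 (by positivity)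
    rw [pow_succ]
    nlinarith

end Crest.Agent.FreeIs.Lim
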