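import Crest.Agent.FreeIs.LimA
import Crest.Agent.FreeIs.LimReal

/-!
M6, part B: Lipschitz bound of the finite volume covariances, product formula for `covr`.
-/

set_option autoImplicit false
set_option linter.unusedVariables false

open MeasureTheory Filter Topology

namespace Crest.Agent.FreeIs.Lim

open Crest.Agent.FreeIs Crest.Agent.FreeIs.Rec

variable {q : ℕ}

/-- the `n`-th vertex of the path from the root to `w` -/
noncomputable def pre (w : W q) (n : ℕ) : W q := toW (w.1.take n)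

theorem pre_val (w : W q) (n : ℕ) : (pre w n).1 = w.1.take n := toW_val (isChain_take w.2 n)

theorem pre_zero (w : W q) : pre w 0 = wroot q := by
  apply Subtype.ext
  rw [pre_val]
  rfl

theorem pre_len_self (w : W q) : pre w w.1.length = w := by
  apply Subtype.ext
  rw [pre_val, List.take_length]

theorem pre_len (w : W q) {n : ℕ} (hn : n ≤ w.1.length) : (pre w n).1.length = n := by
  rw [pre_val, List.length_take]; omega

theorem pre_succ (w : W q) {n : ℕ} (hn : n < w.1.length) :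
    (pre w (n + 1)).1 = (pre w n).1 ++ [w.1[n]] := by
  rw [pre_val, pre_val, List.take_succ_eq_append_getElem hn]

/-- the messages along an edge in finite volume -/
theorem fin_edge {θ : ℝ} (h0 : 0 ≤ θ) (h1 : θ < 1) {Λ : Finset (W q)} {t : W q → ℝ}
    (ht : ∀ v, |t v| < 1) {u w : W q} {a : Fin (q + 1)} (hw : w.1 = u.1 ++ [a])
    (hu : u ∈ Λ) (hwΛ : w ∈ Λ) : ∃ m m' : ℝ, |m| ≤ 1 ∧ |m'| ≤ 1 ∧
    m = mag (WG q) θ (below Λ w) t w ∧ m' = mag (WG q) θ (Λ \ below Λ w) t u ∧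
    mag (WG q) θ Λ t u = ein m' (θ * m) ∧ mag (WG q) θ Λ t w = ein m (θ * m') := by
  have e := mag_edge h0 h1 (fun v _ => ht v) hw hu hwΛ
  exact ⟨_, _, (mag_lt _ h0 h1 (fun v _ => ht v) _).le, (mag_lt _ h0 h1 (fun v _ => ht v) _).le,
    rfl, rfl, e.1, e.2⟩

theorem fin_cav {θ : ℝ} (h0 : 0 ≤ θ) (h1 : θ < 1) {Λ : Finset (W q)} {t : W q → ℝ}
    (ht : ∀ v, |t v| < 1) {u w : W q} {a : Fin (q + 1)} (hw : w.1 = u.1 ++ [a])
    (hu : u ∈ Λ) (hwΛ : w ∈ Λ) :
    cav θ (mag (WG q) θ Λ t u) (mag (WG q) θ Λ t w) = mag (WG q) θ (below Λ w) t w ∧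
    cav θ (mag (WG q) θ Λ t w) (mag (WG q) θ Λ t u) = mag (WG q) θ (Λ \ below Λ w) t u := by
  obtain ⟨m, m', hm, hm', e1, e2, e3, e4⟩ := fin_edge h0 h1 ht hw hu hwΛ
  rw [← e1, ← e2, e3, e4]
  exact ⟨cav_ein h0 h1 hm hm', cav_ein h0 h1 hm' hm⟩

theorem cov_diff {θ : ℝ} (h0 : 0 ≤ θ) (h1 : θ < 1) : ∃ K : ℝ, 0 ≤ K ∧
    ∀ (Λ Λ' : Finset (W q)) (t t' : W q → ℝ), (∀ v, |t v| < 1) → (∀ v, |t' v| < 1) →
    ∀ w : W q, (∀ n ≤ w.1.length, pre w n ∈ Λ) → (∀ n ≤ w.1.length, pre w n ∈ Λ') →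
    |cov (WG q) θ Λ t (wroot q) w - cov (WG q) θ Λ' t' (wroot q) w|
      ≤ K * θ ^ w.1.length * ∑ n ∈ Finset.range (w.1.length + 1),
        |mag (WG q) θ Λ t (pre w n) - mag (WG q) θ Λ' t' (pre w n)| := by
  obtain ⟨K1, hK1, H1⟩ := cav_lip1 h0 h1
  obtain ⟨K2, hK2, H2⟩ := gg_lip1 h0 h1
  refine ⟨2 + 2 * (K2 * K1), by positivity, ?_⟩
  intro Λ Λ' t t' ht ht' w hw hw'
  rw [cov_root_prod h0 h1 (fun v _ => ht v) w hw, cov_root_prod h0 h1 (fun v _ => ht' v) w hw']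
  obtain ⟨l, hl⟩ : ∃ l, l = w.1.length := ⟨_, rfl⟩
  rw [← hl] at hw hw' ⊢
  obtain ⟨D, hD⟩ : ∃ D : ℕ → ℝ, D = fun n =>
    |mag (WG q) θ Λ t (pre w n) - mag (WG q) θ Λ' t' (pre w n)| := ⟨_, rfl⟩
  have hD' : ∀ n, |mag (WG q) θ Λ t (pre w n) - mag (WG q) θ Λ' t' (pre w n)| = D n := by
    intro n; rw [hD]
  have hDn : ∀ n, 0 ≤ D n := by intro n; rw [hD]; exact abs_nonneg _
  obtain ⟨f, hf⟩ : ∃ f : ℕ → ℝ, f = fun n => gg θ (cav θ (mag (WG q) θ Λ t (toW (w.1.take n)))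
          (mag (WG q) θ Λ t (toW (w.1.take (n + 1))))) := ⟨_, rfl⟩
  obtain ⟨g, hg⟩ : ∃ g : ℕ → ℝ, g = fun n => gg θ (cav θ (mag (WG q) θ Λ' t' (toW (w.1.take n)))
          (mag (WG q) θ Λ' t' (toW (w.1.take (n + 1))))) := ⟨_, rfl⟩
  have key : ∀ n < l, 0 ≤ f n ∧ f n ≤ 1 ∧ 0 ≤ g n ∧ g n ≤ 1 ∧
      |f n - g n| ≤ K2 * K1 * (D n + D (n + 1)) := by
    intro n hn
    have hs := pre_succ w (by omega : n < w.1.length)
    obtain ⟨m, m', hm, hm', e1, e2, e3, e4⟩ :=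
      fin_edge h0 h1 ht hs (hw n (by omega)) (hw (n + 1) (by omega))
    obtain ⟨p, p', hp, hp', d1, d2, d3, d4⟩ :=
      fin_edge h0 h1 ht' hs (hw' n (by omega)) (hw' (n + 1) (by omega))
    have ef : f n = gg θ m := by
      rw [hf]
      change gg θ (cav θ (mag (WG q) θ Λ t (pre w n)) (mag (WG q) θ Λ t (pre w (n + 1)))) = _
      rw [e3, e4, cav_ein h0 h1 hm hm']
    have eg : g n = gg θ p := by
      rw [hg]
      change gg θ (cav θ (mag (WG q) θ Λ' t' (pre w n)) (mag (WG q) θ Λ' t' (pre w (n + 1)))) = _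
      rw [d3, d4, cav_ein h0 h1 hp hp']
    rw [ef, eg]
    refine ⟨gg_nonneg' h0 h1 hm, gg_le_one' h0 h1 hm, gg_nonneg' h0 h1 hp, gg_le_one' h0 h1 hp, ?_⟩
    have h3 := H1 m m' p p' hm hm' hp hp'
    rw [← e3, ← e4, ← d3, ← d4, hD', hD'] at h3
    have h4 := H2 m p hm hp
    calc _ ≤ K2 * |m - p| := h4
      _ ≤ K2 * (K1 * (D n + D (n + 1))) := mul_le_mul_of_nonneg_left h3 hK2
      _ = _ := by ring
  have hprod := prod_lip h0 l f g (fun i hi => (key i hi).1) (fun i hi => (key i hi).2.1)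
    (fun i hi => (key i hi).2.2.1) (fun i hi => (key i hi).2.2.2.1)
  have hsum : ∑ n ∈ Finset.range l, |f n - g n| ≤ K2 * K1 * (2 * ∑ n ∈ Finset.range (l + 1), D n) := by
    calc _ ≤ ∑ n ∈ Finset.range l, K2 * K1 * (D n + D (n + 1)) :=
          Finset.sum_le_sum fun n hn => (key n (Finset.mem_range.1 hn)).2.2.2.2
      _ = K2 * K1 * (∑ n ∈ Finset.range l, D n + ∑ n ∈ Finset.range l, D (n + 1)) := by
          rw [← Finset.mul_sum, Finset.sum_add_distrib]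
      _ ≤ _ := by
          refine mul_le_mul_of_nonneg_left ?_ (by positivity)
          have e1 := Finset.sum_range_succ D l
          have e2 := Finset.sum_range_succ' D l
          have := hDn l
          have := hDn 0
          linarith
  have hF0 : 0 ≤ ∏ n ∈ Finset.range l, (θ * f n) :=
    Finset.prod_nonneg fun i hi => mul_nonneg h0 (key i (Finset.mem_range.1 hi)).1
  have hF1 : ∏ n ∈ Finset.range l, (θ * f n) ≤ θ ^ l := by
    calc _ ≤ ∏ n ∈ Finset.range l, θ := by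
          refine Finset.prod_le_prod (fun i hi => mul_nonneg h0 (key i (Finset.mem_range.1 hi)).1)
            fun i hi => ?_
          have := (key i (Finset.mem_range.1 hi)).2.1
          nlinarith
      _ = _ := by simp
  change |_ * ∏ n ∈ Finset.range l, (θ * gg θ (cav θ (mag (WG q) θ Λ t (toW (w.1.take n)))
          (mag (WG q) θ Λ t (toW (w.1.take (n + 1))))))
      - _ * ∏ n ∈ Finset.range l, (θ * gg θ (cav θ (mag (WG q) θ Λ' t' (toW (w.1.take n)))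
          (mag (WG q) θ Λ' t' (toW (w.1.take (n + 1))))))| ≤ _
  have ef : ∀ n, gg θ (cav θ (mag (WG q) θ Λ t (toW (w.1.take n)))
          (mag (WG q) θ Λ t (toW (w.1.take (n + 1))))) = f n := by intro n; rw [hf]
  have eg : ∀ n, gg θ (cav θ (mag (WG q) θ Λ' t' (toW (w.1.take n)))
          (mag (WG q) θ Λ' t' (toW (w.1.take (n + 1))))) = g n := by intro n; rw [hg]
  simp only [ef, eg, hD']
  have hr1 := (mag_lt (WG q) h0 h1 (Λ := Λ) (fun v _ => ht v) (wroot q)).le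
  have hr2 := (mag_lt (WG q) h0 h1 (Λ := Λ') (fun v _ => ht' v) (wroot q)).le
  have hD0 : |mag (WG q) θ Λ t (wroot q) - mag (WG q) θ Λ' t' (wroot q)| = D 0 := by
    rw [← hD', pre_zero]
  generalize mag (WG q) θ Λ t (wroot q) = x at *
  generalize mag (WG q) θ Λ' t' (wroot q) = y at *
  generalize ∏ n ∈ Finset.range l, (θ * f n) = A at *
  generalize ∏ n ∈ Finset.range l, (θ * g n) = B at *
  have hS : D 0 ≤ ∑ n ∈ Finset.range (l + 1), D n :=
    Finset.single_le_sum (f := D) (fun n _ => hDn n) (by simp)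
  generalize ∑ n ∈ Finset.range (l + 1), D n = S at *
  generalize ∑ n ∈ Finset.range l, |f n - g n| = S' at *
  have e : (1 - x ^ 2) * A - (1 - y ^ 2) * B = (y - x) * (y + x) * A + (1 - y ^ 2) * (A - B) := by
    ring
  rw [e]
  refine (abs_add_le _ _).trans ?_
  rw [abs_mul, abs_mul, abs_mul, abs_of_nonneg hF0]
  have hy2 : y ^ 2 ≤ 1 := by rw [← sq_abs]; nlinarith [abs_nonneg y]
  have b1 : |1 - y ^ 2| ≤ 1 := by
    rw [abs_of_nonneg (by linarith)]
    nlinarith [sq_nonneg y]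
  have b2 : |y + x| ≤ 2 := (abs_add_le _ _).trans (by linarith)
  have b3 : |y - x| ≤ S := by rw [abs_sub_comm, hD0]; exact hS
  have hθl : 0 ≤ θ ^ l := pow_nonneg h0 l
  have hS0 : 0 ≤ S := (abs_nonneg _).trans b3
  have c1 : |y - x| * |y + x| * A ≤ S * 2 * θ ^ l :=
    mul_le_mul (mul_le_mul b3 b2 (abs_nonneg _) hS0) hF1 hF0 (by positivity)
  have c2 : |1 - y ^ 2| * |A - B| ≤ 1 * (θ ^ l * (K2 * K1 * (2 * S))) :=
    mul_le_mul b1 (hprod.trans (mul_le_mul_of_nonneg_left hsum hθl)) (abs_nonneg _) zero_le_one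
  nlinarith

/-- square version -/
theorem cov_diff_sq {θ : ℝ} (h0 : 0 ≤ θ) (h1 : θ < 1) : ∃ K : ℝ, 0 ≤ K ∧
    ∀ (Λ Λ' : Finset (W q)) (t t' : W q → ℝ), (∀ v, |t v| < 1) → (∀ v, |t' v| < 1) →
    ∀ w : W q, (∀ n ≤ w.1.length, pre w n ∈ Λ) → (∀ n ≤ w.1.length, pre w n ∈ Λ') →
    (cov (WG q) θ Λ t (wroot q) w - cov (WG q) θ Λ' t' (wroot q) w) ^ 2
      ≤ K * (θ ^ 2) ^ w.1.length * ((w.1.length + 1 : ℕ) * ∑ n ∈ Finset.range (w.1.length + 1),
        (mag (WG q) θ Λ t (pre w n) - mag (WG q) θ Λ' t' (pre w n)) ^ 2) := by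
  obtain ⟨K, hK, H⟩ := cov_diff (q := q) h0 h1
  refine ⟨K ^ 2, by positivity, ?_⟩
  intro Λ Λ' t t' ht ht' w hw hw'
  have h2 := H Λ Λ' t t' ht ht' w hw hw'
  have h3 := sq_sum_le_card_mul_sum_sq (s := Finset.range (w.1.length + 1))
    (f := fun n => |mag (WG q) θ Λ t (pre w n) - mag (WG q) θ Λ' t' (pre w n)|)
  simp only [sq_abs, Finset.card_range] at h3
  rw [← sq_abs]
  calc _ ≤ (K * θ ^ w.1.length * ∑ n ∈ Finset.range (w.1.length + 1),
        |mag (WG q) θ Λ t (pre w n) - mag (WG q) θ Λ' t' (pre w n)|) ^ 2 :=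
        pow_le_pow_left₀ (abs_nonneg _) h2 2
    _ = K ^ 2 * (θ ^ 2) ^ w.1.length * (∑ n ∈ Finset.range (w.1.length + 1),
        |mag (WG q) θ Λ t (pre w n) - mag (WG q) θ Λ' t' (pre w n)|) ^ 2 := by
        rw [mul_pow, mul_pow, ← pow_mul, ← pow_mul, mul_comm 2 w.1.length]
    _ ≤ _ := mul_le_mul_of_nonneg_left h3 (by positivity)

/-! ### product formula for `regr` -/

theorem regr_eq (θ : ℝ) (M : Lab (W q) → ℝ) (l : List (Fin (q + 1))) (ω : Lab (W q)) :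
    regr θ M l ω = ∏ n ∈ Finset.range l.length,
      (θ * gg θ (cav θ (atW M (l.take n) ω) (atW M (l.take (n + 1)) ω))) := by
  induction l generalizing ω with
  | nil => simp [regr]
  | cons a l ih =>
    simp only [regr, List.length_cons]
    rw [Finset.prod_range_succ', ih]
    simp only [List.take_succ_cons, List.take_zero, atW]
    rw [mul_comm]
    rfl

end Crest.Agent.FreeIs.Lim
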