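import Crest.Agent.FreeIs.LimB

/-!
M6, part C: the finite volume magnetisations are Cauchy (from the finite volume martingale
inequality `PairFin`).
-/

set_option autoImplicit false
set_option linter.unusedVariables false

open MeasureTheory Filter Topology

namespace Crest.Agent.FreeIs.Lim

open Crest.Agent.FreeIs Crest.Agent.FreeIs.Rec

/-- The finite volume martingale inequality (theorem `pair_fin`) on the tree. -/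
def PairFin (q : ℕ) : Prop := ∀ (θ θ' : ℝ), 0 ≤ θ → θ < 1 → 0 ≤ θ' → θ' < 1 →
    ∀ (Λ Λ' : Finset (W q)) (v : W q) (j : ℕ) (s0 s : ℝ), 0 ≤ s0 → s0 ≤ s → s ≤ 1 →
    ∫ ω, (Mf (WG q) θ Λ ω j s v - Mf (WG q) θ' Λ' ω j s v) ^ 2 ∂(labP (W q))
      ≤ (∫ ω, (Mf (WG q) θ Λ ω j s0 v - Mf (WG q) θ' Λ' ω j s0 v) ^ 2 ∂(labP (W q)))
      + ∫ r in s0..s, (r / 4) * ∑ u ∈ Λ ∪ Λ', ∫ ω,
          (2 * (Cf (WG q) θ Λ ω j r v u - Cf (WG q) θ' Λ' ω j r v u) ^ 2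
          + 32 * (Cf (WG q) θ' Λ' ω j r v u) ^ 2 *
            (Mf (WG q) θ Λ ω j r u - Mf (WG q) θ' Λ' ω j r u) ^ 2) ∂(labP (W q))

variable {q : ℕ}

theorem st_lt {θ : ℝ} (h0 : 0 ≤ θ) (h1 : θ < 1) (Λ : Finset (W q)) (ω : Lab (W q)) (j : ℕ)
    {r : ℝ} (hr : r ≤ 1) (v : W q) : |st (WG q) θ Λ ω j r v| < 1 :=
  Samp.st_abs_lt (WG q) (by rwa [abs_of_nonneg h0]) Λ ω j hr v

theorem Mf_le {θ : ℝ} (h0 : 0 ≤ θ) (h1 : θ < 1) (Λ : Finset (W q)) (ω : Lab (W q)) (j : ℕ)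
    {r : ℝ} (hr : r ≤ 1) (v : W q) : |Mf (WG q) θ Λ ω j r v| ≤ 1 :=
  Samp.abs_Mf_le (WG q) (by rwa [abs_of_nonneg h0]) Λ ω j hr v

theorem Cf_le {θ : ℝ} (h0 : 0 ≤ θ) (h1 : θ < 1) (Λ : Finset (W q)) (ω : Lab (W q)) (j : ℕ)
    {r : ℝ} (hr : r ≤ 1) (v u : W q) : |Cf (WG q) θ Λ ω j r v u| ≤ 1 :=
  cov_abs_le (WG q) h0 h1 (fun v _ => st_lt h0 h1 Λ ω j hr v) v u

theorem Cf_root_le {θ : ℝ} (h0 : 0 ≤ θ) (h1 : θ < 1) (Λ : Finset (W q)) (ω : Lab (W q)) (j : ℕ)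
    {r : ℝ} (hr : r ≤ 1) (u : W q) : |Cf (WG q) θ Λ ω j r (wroot q) u| ≤ θ ^ u.1.length :=
  cov_root_le h0 h1 (fun v _ => st_lt h0 h1 Λ ω j hr v) u

theorem BM_Mf {θ : ℝ} (h0 : 0 ≤ θ) (h1 : θ < 1) (Λ : Finset (W q)) (j : ℕ)
    {r : ℝ} (hr : r ≤ 1) (v : W q) : BM (fun ω => Mf (WG q) θ Λ ω j r v) :=
  ⟨Samp.Mf_measurable (WG q) θ Λ j r v, 1, fun ω => Mf_le h0 h1 Λ ω j hr v⟩

theorem BM_Cf {θ : ℝ} (h0 : 0 ≤ θ) (h1 : θ < 1) (Λ : Finset (W q)) (j : ℕ)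
    {r : ℝ} (hr : r ≤ 1) (v u : W q) : BM (fun ω => Cf (WG q) θ Λ ω j r v u) :=
  ⟨Samp.Cf_measurable (WG q) θ Λ j r v u, 1, fun ω => Cf_le h0 h1 Λ ω j hr v u⟩

/-- squared distance of the magnetisations at the root -/
noncomputable def dd (θ : ℝ) (j : ℕ) (Λ Λ' : Finset (W q)) (r : ℝ) : ℝ :=
  ∫ ω, (Mf (WG q) θ Λ ω j r (wroot q) - Mf (WG q) θ Λ' ω j r (wroot q)) ^ 2 ∂(labP (W q))

theorem dd_at (θ : ℝ) (j : ℕ) (Λ Λ' : Finset (W q)) (r : ℝ) (w : W q) :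
    ∫ ω, (Mf (WG q) θ Λ ω j r w - Mf (WG q) θ Λ' ω j r w) ^ 2 ∂(labP (W q))
      = dd θ j (rec0 Λ w) (rec0 Λ' w) r := by
  unfold dd
  simp only [Mf_rec0 θ Λ _ j r w, Mf_rec0 θ Λ' _ j r w]
  exact integral_shl w.1 (fun ω => (Mf (WG q) θ (rec0 Λ w) ω j r (wroot q)
    - Mf (WG q) θ (rec0 Λ' w) ω j r (wroot q)) ^ 2)

theorem sq_sub_le_four {x y : ℝ} (hx : |x| ≤ 1) (hy : |y| ≤ 1) : (x - y) ^ 2 ≤ 4 := by
  have h := (abs_sub x y).trans (add_le_add hx hy)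
  rw [← sq_abs]
  nlinarith [abs_nonneg (x - y)]

theorem dd_le_four {θ : ℝ} (h0 : 0 ≤ θ) (h1 : θ < 1) (j : ℕ) (Λ Λ' : Finset (W q)) {r : ℝ}
    (hr : r ≤ 1) : dd θ j Λ Λ' r ≤ 4 := by
  unfold dd
  have : ∫ ω : Lab (W q), (4 : ℝ) ∂(labP (W q)) = 4 := by simp
  rw [← this]
  refine integral_mono_of_nonneg (Eventually.of_forall fun ω => sq_nonneg _) (integrable_const _)
    (Eventually.of_forall fun ω => ?_)
  exact sq_sub_le_four (Mf_le h0 h1 Λ ω j hr _) (Mf_le h0 h1 Λ' ω j hr _)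

theorem pre_mem {Λ : Finset (W q)} {k : ℕ} (h : wball q k ⊆ Λ) {w : W q} (hw : w.1.length ≤ k)
    (n : ℕ) (hn : n ≤ w.1.length) : pre w n ∈ Λ := by
  apply h
  rw [mem_wball, pre_len w hn]
  omega

/-- The integrand of `PairFin`. -/
noncomputable def pfI (θ θ' : ℝ) (j : ℕ) (Λ Λ' : Finset (W q)) (r : ℝ) (u : W q)
    (ω : Lab (W q)) : ℝ :=
  2 * (Cf (WG q) θ Λ ω j r (wroot q) u - Cf (WG q) θ' Λ' ω j r (wroot q) u) ^ 2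
    + 32 * (Cf (WG q) θ' Λ' ω j r (wroot q) u) ^ 2 *
      (Mf (WG q) θ Λ ω j r u - Mf (WG q) θ' Λ' ω j r u) ^ 2

theorem pfI_nonneg (θ θ' : ℝ) (j : ℕ) (Λ Λ' : Finset (W q)) (r : ℝ) (u : W q)
    (ω : Lab (W q)) : 0 ≤ pfI θ θ' j Λ Λ' r u ω := by
  unfold pfI; positivity

theorem pfI_le {θ θ' θm : ℝ} (h0 : 0 ≤ θ) (h1 : θ < 1) (h0' : 0 ≤ θ') (h1' : θ' < 1)
    (hm : θ ≤ θm) (hm' : θ' ≤ θm)
    (j : ℕ) (Λ Λ' : Finset (W q)) {r : ℝ} (hr : r ≤ 1) (u : W q) (ω : Lab (W q)) :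
    pfI θ θ' j Λ Λ' r u ω ≤ 136 * (θm ^ 2) ^ u.1.length := by
  have c1 := (Cf_root_le h0 h1 Λ ω j hr u).trans (pow_le_pow_left₀ h0 hm _)
  have c2 := (Cf_root_le h0' h1' Λ' ω j hr u).trans (pow_le_pow_left₀ h0' hm' _)
  have c3 := sq_sub_le_four (Mf_le h0 h1 Λ ω j hr u) (Mf_le h0' h1' Λ' ω j hr u)
  have hx : 0 ≤ θm ^ u.1.length := pow_nonneg (h0.trans hm) _
  unfold pfI
  rw [← pow_mul, mul_comm 2 u.1.length, pow_mul]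
  generalize θm ^ u.1.length = x at *
  generalize Cf (WG q) θ Λ ω j r (wroot q) u = C at *
  generalize Cf (WG q) θ' Λ' ω j r (wroot q) u = C' at *
  generalize (Mf (WG q) θ Λ ω j r u - Mf (WG q) θ' Λ' ω j r u) ^ 2 = m at *
  have d1 : (C - C') ^ 2 ≤ 4 * x ^ 2 := by
    have h := (abs_sub C C').trans (add_le_add c1 c2)
    rw [← sq_abs]
    nlinarith [abs_nonneg (C - C')]
  have d2 : C' ^ 2 ≤ x ^ 2 := by
    rw [← sq_abs]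
    exact pow_le_pow_left₀ (abs_nonneg _) c2 2
  have d3 : C' ^ 2 * m ≤ x ^ 2 * 4 := by
    by_cases hmn : 0 ≤ m
    · exact mul_le_mul d2 c3 hmn (by positivity)
    · nlinarith [sq_nonneg C', sq_nonneg x]
  nlinarith

theorem BM_pfI {θ θ' : ℝ} (h0 : 0 ≤ θ) (h1 : θ < 1) (h0' : 0 ≤ θ') (h1' : θ' < 1)
    (j : ℕ) (Λ Λ' : Finset (W q)) {r : ℝ} (hr : r ≤ 1) (u : W q) :
    BM (pfI θ θ' j Λ Λ' r u) := by
  have a := BM_Cf h0 h1 Λ j hr (wroot q) u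
  have b := BM_Cf h0' h1' Λ' j hr (wroot q) u
  have c := BM_Mf h0 h1 Λ j hr u
  have d := BM_Mf h0' h1' Λ' j hr u
  exact (((a.sub b).pow 2).const_mul 2).add (((b.pow 2).const_mul 32).mul ((c.sub d).pow 2))

theorem int_pfI_le {θ θ' θm : ℝ} (h0 : 0 ≤ θ) (h1 : θ < 1) (h0' : 0 ≤ θ') (h1' : θ' < 1)
    (hm : θ ≤ θm) (hm' : θ' ≤ θm)
    (j : ℕ) (Λ Λ' : Finset (W q)) {r : ℝ} (hr : r ≤ 1) (u : W q) :
    ∫ ω, pfI θ θ' j Λ Λ' r u ω ∂(labP (W q)) ≤ 136 * (θm ^ 2) ^ u.1.length := by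
  have : ∫ ω : Lab (W q), (136 * (θm ^ 2) ^ u.1.length : ℝ) ∂(labP (W q))
      = 136 * (θm ^ 2) ^ u.1.length := by simp
  rw [← this]
  refine integral_mono_of_nonneg (Eventually.of_forall fun ω => pfI_nonneg _ _ _ _ _ _ _ _)
    (integrable_const _) (Eventually.of_forall fun ω => ?_)
  exact pfI_le h0 h1 h0' h1' hm hm' j Λ Λ' hr u ω

/-- near vertices -/
theorem near_le {θ : ℝ} (h0 : 0 ≤ θ) (h1 : θ < 1) : ∃ K : ℝ, 0 ≤ K ∧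
    ∀ (j : ℕ) (r : ℝ), r ≤ 1 → ∀ (k : ℕ) (a κ : ℝ), 0 ≤ a → 0 < κ → κ ≤ 1 →
    (∀ m ≤ k, ∀ Λ Λ' : Finset (W q), wball q m ⊆ Λ → wball q m ⊆ Λ' → dd θ j Λ Λ' r ≤ a * κ ^ m) →
    ∀ Λ Λ' : Finset (W q), wball q k ⊆ Λ → wball q k ⊆ Λ' → ∀ w : W q, w.1.length ≤ k →
    ∫ ω, pfI θ θ j Λ Λ' r w ω ∂(labP (W q))
      ≤ (θ ^ 2) ^ w.1.length * (K * ((w.1.length + 1 : ℕ) : ℝ) ^ 2 * (a * κ ^ (k - w.1.length))) := by
  obtain ⟨K, hK, H⟩ := cov_diff_sq (q := q) h0 h1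
  refine ⟨2 * K + 32, by positivity, ?_⟩
  intro j r hr k a κ ha hκ hκ1 Ha Λ Λ' hΛ hΛ' w hw
  obtain ⟨l, hl⟩ : ∃ l, l = w.1.length := ⟨_, rfl⟩
  rw [← hl] at hw ⊢
  have hpoint : ∀ ω, pfI θ θ j Λ Λ' r w ω ≤
      2 * (K * (θ ^ 2) ^ l * ((l + 1 : ℕ) : ℝ)) * (∑ n ∈ Finset.range (l + 1),
        (Mf (WG q) θ Λ ω j r (pre w n) - Mf (WG q) θ Λ' ω j r (pre w n)) ^ 2)
      + 32 * (θ ^ 2) ^ l * (Mf (WG q) θ Λ ω j r w - Mf (WG q) θ Λ' ω j r w) ^ 2 := by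
    intro ω
    have h2 := H Λ Λ' (st (WG q) θ Λ ω j r) (st (WG q) θ Λ' ω j r)
      (fun v => st_lt h0 h1 Λ ω j hr v) (fun v => st_lt h0 h1 Λ' ω j hr v) w
      (fun n hn => pre_mem hΛ (hl ▸ hw) n hn) (fun n hn => pre_mem hΛ' (hl ▸ hw) n hn)
    rw [← hl] at h2
    have h3 := Cf_root_le h0 h1 Λ' ω j hr w
    rw [← hl] at h3
    have h4 : (Cf (WG q) θ Λ' ω j r (wroot q) w) ^ 2 ≤ (θ ^ 2) ^ l := by
      rw [← sq_abs, ← pow_mul, mul_comm 2 l, pow_mul]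
      exact pow_le_pow_left₀ (abs_nonneg _) h3 2
    have h5 := mul_le_mul_of_nonneg_right h4
      (sq_nonneg (Mf (WG q) θ Λ ω j r w - Mf (WG q) θ Λ' ω j r w))
    unfold pfI
    change (Cf (WG q) θ Λ ω j r (wroot q) w - Cf (WG q) θ Λ' ω j r (wroot q) w) ^ 2
      ≤ K * (θ ^ 2) ^ l * ((l + 1 : ℕ) * ∑ n ∈ Finset.range (l + 1),
        (Mf (WG q) θ Λ ω j r (pre w n) - Mf (WG q) θ Λ' ω j r (pre w n)) ^ 2) at h2
    nlinarith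
  have hB : ∀ v : W q, BM (fun ω => (Mf (WG q) θ Λ ω j r v - Mf (WG q) θ Λ' ω j r v) ^ 2) :=
    fun v => ((BM_Mf h0 h1 Λ j hr v).sub (BM_Mf h0 h1 Λ' j hr v)).pow 2
  have hBs : BM (fun ω => ∑ n ∈ Finset.range (l + 1),
        (Mf (WG q) θ Λ ω j r (pre w n) - Mf (WG q) θ Λ' ω j r (pre w n)) ^ 2) :=
    BM.sum _ fun n _ => hB _
  have hmono := integral_mono_of_nonneg (μ := labP (W q))
    (Eventually.of_forall fun ω => pfI_nonneg θ θ j Λ Λ' r w ω)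
    ((hBs.const_mul (2 * (K * (θ ^ 2) ^ l * ((l + 1 : ℕ) : ℝ)))).add
      ((hB w).const_mul (32 * (θ ^ 2) ^ l))).integrable (Eventually.of_forall hpoint)
  refine hmono.trans ?_
  rw [integral_add (hBs.const_mul _).integrable ((hB w).const_mul _).integrable,
    integral_const_mul, integral_const_mul, integral_finsetSum _ fun n _ => (hB _).integrable]
  have hat : ∀ v : W q, v.1.length ≤ l →
      ∫ ω, (Mf (WG q) θ Λ ω j r v - Mf (WG q) θ Λ' ω j r v) ^ 2 ∂(labP (W q))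
        ≤ a * κ ^ (k - l) := by
    intro v hv
    rw [dd_at]
    refine (Ha (k - v.1.length) (by omega) _ _ (wball_rec0' hΛ (by omega))
      (wball_rec0' hΛ' (by omega))).trans ?_
    refine mul_le_mul_of_nonneg_left ?_ ha
    exact pow_le_pow_of_le_one hκ.le hκ1 (by omega)
  have h6 : ∑ n ∈ Finset.range (l + 1),
      ∫ ω, (Mf (WG q) θ Λ ω j r (pre w n) - Mf (WG q) θ Λ' ω j r (pre w n)) ^ 2 ∂(labP (W q))
      ≤ ((l + 1 : ℕ) : ℝ) * (a * κ ^ (k - l)) := by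
    have := Finset.sum_le_sum (s := Finset.range (l + 1)) (f := fun n =>
      ∫ ω, (Mf (WG q) θ Λ ω j r (pre w n) - Mf (WG q) θ Λ' ω j r (pre w n)) ^ 2 ∂(labP (W q)))
      (g := fun _ => a * κ ^ (k - l)) fun n hn => by
        have hn' := Finset.mem_range.1 hn
        exact hat _ (by rw [pre_len w (by omega)]; omega)
    simpa using this
  have h7 := hat w (by omega)
  have hθl : 0 ≤ (θ ^ 2) ^ l := by positivity
  have hL : (1 : ℝ) ≤ ((l + 1 : ℕ) : ℝ) := by push_cast; linarith [Nat.cast_nonneg (α := ℝ) l]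
  have hA : 0 ≤ a * κ ^ (k - l) := by positivity
  generalize a * κ ^ (k - l) = y at *
  generalize ((l + 1 : ℕ) : ℝ) = L at *
  generalize (θ ^ 2) ^ l = z at *
  have h8 : 2 * (K * z * L) * ∑ n ∈ Finset.range (l + 1),
      ∫ ω, (Mf (WG q) θ Λ ω j r (pre w n) - Mf (WG q) θ Λ' ω j r (pre w n)) ^ 2 ∂(labP (W q))
      ≤ 2 * (K * z * L) * (L * y) := mul_le_mul_of_nonneg_left h6 (by positivity)
  have h9 : 32 * z * ∫ ω, (Mf (WG q) θ Λ ω j r w - Mf (WG q) θ Λ' ω j r w) ^ 2 ∂(labP (W q))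
      ≤ 32 * z * y := mul_le_mul_of_nonneg_left h7 (by positivity)
  have h10 : 32 * z * y ≤ 32 * z * y * L ^ 2 := by
    refine le_mul_of_one_le_right (by positivity) ?_
    nlinarith
  calc _ ≤ 2 * (K * z * L) * (L * y) + 32 * z * y := add_le_add h8 h9
    _ ≤ 2 * (K * z * L) * (L * y) + 32 * z * y * L ^ 2 := by linarith
    _ = _ := by ring

theorem wsum_const_le (n : ℕ) {c : ℝ} (hc : 0 ≤ c) (hq : 1 ≤ q) :
    wsum q n (fun _ => c) ≤ 2 * (q : ℝ) ^ n * c := by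
  cases n with
  | zero => simp [wsum]; linarith
  | succ n =>
    rw [wsum_const_succ, pow_succ]
    have h1 : (1 : ℝ) ≤ q := by exact_mod_cast hq
    have h2 : (0 : ℝ) ≤ (q : ℝ) ^ n * c := by positivity
    nlinarith

/-- sum over the vertices -/
theorem sum_pfI_le (hq : 2 ≤ q) {θ : ℝ} (h0 : 0 ≤ θ) (h1 : q * θ ^ 2 < 1) {κ : ℝ}
    (hκ : q * θ ^ 2 < κ) (hκ1 : κ < 1) : ∃ L B : ℝ, 0 ≤ L ∧ 0 ≤ B ∧
    ∀ (j : ℕ) (r : ℝ), r ≤ 1 → ∀ (k : ℕ) (a : ℝ), 0 ≤ a →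
    (∀ m ≤ k, ∀ Λ Λ' : Finset (W q), wball q m ⊆ Λ → wball q m ⊆ Λ' → dd θ j Λ Λ' r ≤ a * κ ^ m) →
    ∀ Λ Λ' : Finset (W q), wball q k ⊆ Λ → wball q k ⊆ Λ' →
    ∑ u ∈ Λ ∪ Λ', ∫ ω, pfI θ θ j Λ Λ' r u ω ∂(labP (W q)) ≤ (L * a + B) * κ ^ k := by
  have hθ1 := theta_lt_one hq h1.le
  have hq0 : (0 : ℝ) < q := by positivity
  obtain ⟨K, hK, H⟩ := near_le (q := q) h0 hθ1
  obtain ⟨ρ, hρ⟩ : ∃ ρ, ρ = q * θ ^ 2 := ⟨_, rfl⟩
  rw [← hρ] at hκ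
  have hρ0 : 0 ≤ ρ := by rw [hρ]; positivity
  have hρ1 : ρ < 1 := by rw [hρ]; exact h1
  have hκ0 : 0 < κ := lt_of_le_of_lt hρ0 hκ
  have hx0 : 0 ≤ ρ / κ := by positivity
  have hx1 : ρ / κ < 1 := (div_lt_one hκ0).2 hκ
  have hS : Summable fun l : ℕ => ((l + 1 : ℕ) : ℝ) ^ 2 * (ρ / κ) ^ l := by
    have h2 : Summable fun l : ℕ => (l : ℝ) ^ 2 * (ρ / κ) ^ l :=
      summable_pow_mul_geometric_of_norm_lt_one 2 (by rwa [Real.norm_eq_abs, abs_of_nonneg hx0])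
    have h3 : Summable fun l : ℕ => (l : ℝ) ^ 1 * (ρ / κ) ^ l :=
      summable_pow_mul_geometric_of_norm_lt_one 1 (by rwa [Real.norm_eq_abs, abs_of_nonneg hx0])
    have h4 : Summable fun l : ℕ => (l : ℝ) ^ 0 * (ρ / κ) ^ l :=
      summable_pow_mul_geometric_of_norm_lt_one 0 (by rwa [Real.norm_eq_abs, abs_of_nonneg hx0])
    refine (h2.add ((h3.mul_left 2).add h4)).congr fun l => ?_
    push_cast
    ring
  refine ⟨2 * K * ∑' l : ℕ, ((l + 1 : ℕ) : ℝ) ^ 2 * (ρ / κ) ^ l,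
    272 * ∑' l : ℕ, ((l + 1 : ℕ) : ℝ) ^ 2 * (ρ / κ) ^ l,
    by positivity, by positivity, ?_⟩
  intro j r hr k a ha Ha Λ Λ' hΛ hΛ'
  have hnear := H j r hr k a κ ha hκ0 hκ1.le Ha Λ Λ' hΛ hΛ'
  obtain ⟨φ, hφ⟩ : ∃ φ : ℕ → ℝ, φ = fun l => (θ ^ 2) ^ l *
    (if l ≤ k then K * ((l + 1 : ℕ) : ℝ) ^ 2 * (a * κ ^ (k - l)) else 136) := ⟨_, rfl⟩
  have hφ0 : ∀ l, 0 ≤ φ l := by
    intro l
    rw [hφ]
    simp only
    split_ifs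
    · positivity
    · positivity
  have hpt : ∀ u : W q, ∫ ω, pfI θ θ j Λ Λ' r u ω ∂(labP (W q)) ≤ φ u.1.length := by
    intro u
    rw [hφ]
    simp only
    split_ifs with hu
    · exact hnear u hu
    · have := int_pfI_le h0 hθ1 h0 hθ1 le_rfl le_rfl j Λ Λ' hr u
      linarith
  obtain ⟨N, hN⟩ : ∃ N, Λ ∪ Λ' ⊆ wball q N := by
    refine ⟨(Λ ∪ Λ').sup fun w => w.1.length, fun w hw => ?_⟩
    rw [mem_wball]
    exact Finset.le_sup (f := fun w : W q => w.1.length) hw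
  have hterm : ∀ l, wsum q l (fun l' => φ l'.length)
      ≤ (2 * K * a + 272) * κ ^ k * (((l + 1 : ℕ) : ℝ) ^ 2 * (ρ / κ) ^ l) := by
    intro l
    have e1 : wsum q l (fun l' => φ l'.length) = wsum q l (fun _ => φ l) :=
      wsum_congr fun l' hl' _ => by rw [hl']
    rw [e1]
    refine (wsum_const_le l (hφ0 l) (by omega)).trans ?_
    have e2 : 2 * (q : ℝ) ^ l * φ l = 2 * ρ ^ l *
        (if l ≤ k then K * ((l + 1 : ℕ) : ℝ) ^ 2 * (a * κ ^ (k - l)) else 136) := by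
      rw [hφ, hρ, mul_pow]
      ring
    rw [e2]
    have hz : 0 ≤ κ ^ k * (((l + 1 : ℕ) : ℝ) ^ 2 * (ρ / κ) ^ l) := by positivity
    split_ifs with hl
    · have e3 : ρ ^ l * κ ^ (k - l) = κ ^ k * (ρ / κ) ^ l := by
        rw [div_pow]
        have : κ ^ k = κ ^ (k - l) * κ ^ l := by rw [← pow_add]; congr 1; omega
        rw [this]
        have : κ ^ l ≠ 0 := pow_ne_zero _ hκ0.ne'
        field_simp
      have e4 : 2 * ρ ^ l * (K * ((l + 1 : ℕ) : ℝ) ^ 2 * (a * κ ^ (k - l)))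
          = 2 * K * a * ((l + 1 : ℕ) : ℝ) ^ 2 * (ρ ^ l * κ ^ (k - l)) := by ring
      rw [e4, e3]
      nlinarith
    · have e5 : ρ ^ l ≤ κ ^ k * (ρ / κ) ^ l := by
        rw [div_pow, mul_div_assoc', le_div_iff₀ (by positivity), mul_comm]
        exact mul_le_mul_of_nonneg_right (pow_le_pow_of_le_one hκ0.le hκ1.le (by omega))
          (by positivity)
      have e6 : (1 : ℝ) ≤ ((l + 1 : ℕ) : ℝ) ^ 2 := by
        have : (1 : ℝ) ≤ ((l + 1 : ℕ) : ℝ) := by push_cast; linarith [Nat.cast_nonneg (α := ℝ) l]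
        nlinarith
      have e7 : κ ^ k * (ρ / κ) ^ l ≤ κ ^ k * (((l + 1 : ℕ) : ℝ) ^ 2 * (ρ / κ) ^ l) :=
        mul_le_mul_of_nonneg_left (le_mul_of_one_le_left (by positivity) e6) (by positivity)
      have : 0 ≤ 2 * K * a * (κ ^ k * (((l + 1 : ℕ) : ℝ) ^ 2 * (ρ / κ) ^ l)) := by positivity
      nlinarith
  calc ∑ u ∈ Λ ∪ Λ', ∫ ω, pfI θ θ j Λ Λ' r u ω ∂(labP (W q))
      ≤ ∑ u ∈ Λ ∪ Λ', φ u.1.length := Finset.sum_le_sum fun u _ => hpt u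
    _ ≤ ∑ u ∈ wball q N, φ u.1.length :=
        Finset.sum_le_sum_of_subset_of_nonneg hN fun u _ _ => hφ0 _
    _ = ∑ l ∈ Finset.range (N + 1), wsum q l (fun l' => φ l'.length) :=
        sum_wball (fun l' => φ l'.length) N
    _ ≤ ∑ l ∈ Finset.range (N + 1),
        (2 * K * a + 272) * κ ^ k * (((l + 1 : ℕ) : ℝ) ^ 2 * (ρ / κ) ^ l) :=
        Finset.sum_le_sum fun l _ => hterm l
    _ = (2 * K * a + 272) * κ ^ k * ∑ l ∈ Finset.range (N + 1),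
          (((l + 1 : ℕ) : ℝ) ^ 2 * (ρ / κ) ^ l) := by rw [← Finset.mul_sum]
    _ ≤ (2 * K * a + 272) * κ ^ k * ∑' l : ℕ, (((l + 1 : ℕ) : ℝ) ^ 2 * (ρ / κ) ^ l) := by
        refine mul_le_mul_of_nonneg_left ?_ (by positivity)
        exact hS.sum_le_tsum _ fun l _ => by positivity
    _ = _ := by ring

end Crest.Agent.FreeIs.Lim
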