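import Crest.Agent.FreeIs.LimC
import Crest.Agent.FreeIs.GibbsNat

/-!
M6, part D: Gronwall argument, `fin_cauchy`.
-/

set_option autoImplicit false
set_option linter.unusedVariables false

open MeasureTheory Filter Topology

namespace Crest.Agent.FreeIs.Lim

open Crest.Agent.FreeIs Crest.Agent.FreeIs.Rec

variable {q : ℕ}

theorem gron_step {θ κ L B : ℝ} (HP : PairFin q) (h0 : 0 ≤ θ) (h1 : θ < 1) (hκ0 : 0 < κ)
    (hL : 0 ≤ L) (hB : 0 ≤ B) (j : ℕ)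
    (Hs : ∀ (r : ℝ), r ≤ 1 → ∀ (k : ℕ) (a : ℝ), 0 ≤ a →
      (∀ m ≤ k, ∀ Λ Λ' : Finset (W q), wball q m ⊆ Λ → wball q m ⊆ Λ' →
        dd θ j Λ Λ' r ≤ a * κ ^ m) →
      ∀ Λ Λ' : Finset (W q), wball q k ⊆ Λ → wball q k ⊆ Λ' →
      ∑ u ∈ Λ ∪ Λ', ∫ ω, pfI θ θ j Λ Λ' r u ω ∂(labP (W q)) ≤ (L * a + B) * κ ^ k)
    (b : ℝ) (hb : 0 ≤ b)
    (Hb : ∀ (m : ℕ) (Λ Λ' : Finset (W q)), wball q m ⊆ Λ → wball q m ⊆ Λ' →
      dd θ j Λ Λ' 0 ≤ b * κ ^ m)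
    (A : ℝ) (hA : 0 ≤ A) (K : ℕ)
    (HA : ∀ m ≤ K, ∀ Λ Λ' : Finset (W q), wball q m ⊆ Λ → wball q m ⊆ Λ' → ∀ s, 0 ≤ s → s ≤ 1 →
      dd θ j Λ Λ' s ≤ A * Real.exp ((L + 1) * s) * κ ^ m) :
    ∀ m ≤ K, ∀ Λ Λ' : Finset (W q), wball q m ⊆ Λ → wball q m ⊆ Λ' → ∀ s, 0 ≤ s → s ≤ 1 →
      dd θ j Λ Λ' s ≤ (b + B + A / 2) * Real.exp ((L + 1) * s) * κ ^ m := by
  intro m hm Λ Λ' hΛ hΛ' s hs hs1
  have hpair := HP θ θ h0 h1 h0 h1 Λ Λ' (wroot q) j 0 s le_rfl hs hs1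
  change dd θ j Λ Λ' s ≤ dd θ j Λ Λ' 0 +
    ∫ r in (0:ℝ)..s, (r / 4) * ∑ u ∈ Λ ∪ Λ', ∫ ω, pfI θ θ j Λ Λ' r u ω ∂(labP (W q)) at hpair
  have hbase := Hb m Λ Λ' hΛ hΛ'
  obtain ⟨g, hg⟩ : ∃ g : ℝ → ℝ, g = fun r =>
    κ ^ m * (A / 2 * (Real.exp ((L + 1) * r) * (L + 1)) + B) := ⟨_, rfl⟩
  have hint : ∫ r in (0:ℝ)..s, g r
      = κ ^ m * (A / 2 * Real.exp ((L + 1) * s) + B * s) -
        κ ^ m * (A / 2 * Real.exp ((L + 1) * 0) + B * 0) := by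
    refine intervalIntegral.integral_eq_sub_of_hasDerivAt
      (f := fun r => κ ^ m * (A / 2 * Real.exp ((L + 1) * r) + B * r)) (fun r _ => ?_) ?_
    · rw [hg]
      have d1 : HasDerivAt (fun r : ℝ => (L + 1) * r) (L + 1) r := by
        simpa using (hasDerivAt_id r).const_mul (L + 1)
      have d2 := (d1.exp.const_mul (A / 2)).add ((hasDerivAt_id r).const_mul B)
      have d3 := d2.const_mul (κ ^ m)
      refine d3.congr_deriv ?_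
      simp
    · rw [hg]
      exact (Continuous.intervalIntegrable (by fun_prop) _ _)
  have hle : ∫ r in (0:ℝ)..s, (r / 4) * ∑ u ∈ Λ ∪ Λ', ∫ ω, pfI θ θ j Λ Λ' r u ω ∂(labP (W q))
      ≤ ∫ r in (0:ℝ)..s, g r := by
    rw [intervalIntegral.integral_of_le hs, intervalIntegral.integral_of_le hs]
    refine integral_mono_of_nonneg ?_ ?_ ?_
    · refine (ae_restrict_iff' measurableSet_Ioc).2 (Eventually.of_forall fun r hr => ?_)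
      exact mul_nonneg (by linarith [hr.1]) (Finset.sum_nonneg fun u _ =>
        integral_nonneg fun ω => pfI_nonneg _ _ _ _ _ _ _ _)
    · rw [hg]
      exact (Continuous.integrableOn_Ioc (by fun_prop))
    · refine (ae_restrict_iff' measurableSet_Ioc).2 (Eventually.of_forall fun r hr => ?_)
      have hr1 : r ≤ 1 := hr.2.trans hs1
      have hE : 0 < Real.exp ((L + 1) * r) := Real.exp_pos _
      have h2 := Hs r hr1 m (A * Real.exp ((L + 1) * r)) (by positivity)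
        (fun m' hm' Λ₁ Λ₂ h1 h2 => HA m' (hm'.trans hm) Λ₁ Λ₂ h1 h2 r hr.1.le hr1) Λ Λ' hΛ hΛ'
      rw [hg]
      have hκm : 0 < κ ^ m := pow_pos hκ0 m
      have h3 : 0 ≤ ∑ u ∈ Λ ∪ Λ', ∫ ω, pfI θ θ j Λ Λ' r u ω ∂(labP (W q)) :=
        Finset.sum_nonneg fun u _ => integral_nonneg fun ω => pfI_nonneg _ _ _ _ _ _ _ _
      change r / 4 * ∑ u ∈ Λ ∪ Λ', ∫ ω, pfI θ θ j Λ Λ' r u ω ∂(labP (W q)) ≤
        κ ^ m * (A / 2 * (Real.exp ((L + 1) * r) * (L + 1)) + B)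
      generalize ∑ u ∈ Λ ∪ Λ', ∫ ω, pfI θ θ j Λ Λ' r u ω ∂(labP (W q)) = S at *
      generalize Real.exp ((L + 1) * r) = E at *
      have h4 : r / 4 * S ≤ 1 / 4 * S := mul_le_mul_of_nonneg_right (by linarith) h3
      have h5 : 1 / 4 * S ≤ 1 / 4 * ((L * (A * E) + B) * κ ^ m) := by linarith
      refine (h4.trans h5).trans ?_
      have h6 : 0 ≤ κ ^ m * (A * E) := by positivity
      have h7 : 0 ≤ κ ^ m * B := by positivity
      have h8 : 0 ≤ κ ^ m * (A * E) * L := by positivity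
      nlinarith
  rw [hint] at hle
  have hE1 : 1 ≤ Real.exp ((L + 1) * s) := by
    rw [← Real.exp_zero]
    exact Real.exp_le_exp.2 (by positivity)
  have hκm : 0 < κ ^ m := pow_pos hκ0 m
  refine hpair.trans ?_
  generalize Real.exp ((L + 1) * s) = E at *
  have h9 := add_le_add hbase hle
  refine h9.trans ?_
  simp only [mul_zero, Real.exp_zero, mul_one, add_zero]
  have a1 : b * κ ^ m ≤ b * κ ^ m * E := le_mul_of_one_le_right (by positivity) hE1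
  have a2 : B * s * κ ^ m ≤ B * κ ^ m * E := by
    have : B * s * κ ^ m ≤ B * κ ^ m := by
      have : 0 ≤ B * κ ^ m := by positivity
      nlinarith
    exact this.trans (le_mul_of_one_le_right (by positivity) hE1)
  have a3 : 0 ≤ κ ^ m * A := by positivity
  nlinarith

/-- removing the dependence on `K` -/
theorem gron {θ κ L B : ℝ} (HP : PairFin q) (h0 : 0 ≤ θ) (h1 : θ < 1) (hκ0 : 0 < κ) (hκ1 : κ < 1)
    (hL : 0 ≤ L) (hB : 0 ≤ B) (j : ℕ)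
    (Hs : ∀ (r : ℝ), r ≤ 1 → ∀ (k : ℕ) (a : ℝ), 0 ≤ a →
      (∀ m ≤ k, ∀ Λ Λ' : Finset (W q), wball q m ⊆ Λ → wball q m ⊆ Λ' →
        dd θ j Λ Λ' r ≤ a * κ ^ m) →
      ∀ Λ Λ' : Finset (W q), wball q k ⊆ Λ → wball q k ⊆ Λ' →
      ∑ u ∈ Λ ∪ Λ', ∫ ω, pfI θ θ j Λ Λ' r u ω ∂(labP (W q)) ≤ (L * a + B) * κ ^ k)
    (b : ℝ) (hb : 0 ≤ b)
    (Hb : ∀ (m : ℕ) (Λ Λ' : Finset (W q)), wball q m ⊆ Λ → wball q m ⊆ Λ' →
      dd θ j Λ Λ' 0 ≤ b * κ ^ m) :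
    ∀ m, ∀ Λ Λ' : Finset (W q), wball q m ⊆ Λ → wball q m ⊆ Λ' → ∀ s, 0 ≤ s → s ≤ 1 →
      dd θ j Λ Λ' s ≤ (2 * (b + B)) * Real.exp (L + 1) * κ ^ m := by
  intro m Λ Λ' hΛ hΛ' s hs hs1
  have hκK : (0 : ℝ) < κ ^ m := pow_pos hκ0 m
  have key : ∀ n : ℕ, ∀ m' ≤ m, ∀ Λ Λ' : Finset (W q), wball q m' ⊆ Λ → wball q m' ⊆ Λ' →
      ∀ s, 0 ≤ s → s ≤ 1 →
      dd θ j Λ Λ' s ≤ (2 * (b + B) + (1 / 2) ^ n * (4 / κ ^ m)) * Real.exp ((L + 1) * s)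
        * κ ^ m' := by
    intro n
    induction n with
    | zero =>
      intro m' hm' Λ Λ' hΛ hΛ' s hs hs1
      refine (dd_le_four h0 h1 j Λ Λ' hs1).trans ?_
      have hE1 : 1 ≤ Real.exp ((L + 1) * s) := by
        rw [← Real.exp_zero]
        exact Real.exp_le_exp.2 (by positivity)
      have h2 : κ ^ m ≤ κ ^ m' := pow_le_pow_of_le_one hκ0.le hκ1.le hm'
      have h3 : 4 ≤ 4 / κ ^ m * κ ^ m' := by
        rw [div_mul_eq_mul_div, le_div_iff₀ hκK]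
        linarith
      have h4 : 0 ≤ 4 / κ ^ m * κ ^ m' := by positivity
      have h5 : 0 ≤ 2 * (b + B) * κ ^ m' := by positivity
      rw [pow_zero, one_mul]
      have h6 : 4 / κ ^ m * κ ^ m' ≤ 4 / κ ^ m * κ ^ m' * Real.exp ((L + 1) * s) :=
        le_mul_of_one_le_right h4 hE1
      have h7 : 0 ≤ 2 * (b + B) * κ ^ m' * Real.exp ((L + 1) * s) := by positivity
      nlinarith
    | succ n ih =>
      have := gron_step HP h0 h1 hκ0 hL hB j Hs b hb Hb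
        (2 * (b + B) + (1 / 2) ^ n * (4 / κ ^ m)) (by positivity) m ih
      intro m' hm' Λ Λ' hΛ hΛ' s hs hs1
      refine (this m' hm' Λ Λ' hΛ hΛ' s hs hs1).trans (le_of_eq ?_)
      rw [pow_succ]
      ring
  have hlim : Tendsto (fun n : ℕ => (2 * (b + B) + (1 / 2) ^ n * (4 / κ ^ m)) *
      Real.exp ((L + 1) * s) * κ ^ m) atTop
      (𝓝 ((2 * (b + B) + 0 * (4 / κ ^ m)) * Real.exp ((L + 1) * s) * κ ^ m)) := by
    have h2 : Tendsto (fun n : ℕ => ((1 : ℝ) / 2) ^ n) atTop (𝓝 0) :=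
      tendsto_pow_atTop_nhds_zero_of_lt_one (by norm_num) (by norm_num)
    exact (((tendsto_const_nhds.add (h2.mul_const _)).mul_const _).mul_const _)
  have h3 := ge_of_tendsto hlim (Eventually.of_forall fun n => key n m le_rfl Λ Λ' hΛ hΛ' s hs hs1)
  refine h3.trans ?_
  rw [zero_mul, add_zero]
  have h4 : Real.exp ((L + 1) * s) ≤ Real.exp (L + 1) := by
    apply Real.exp_le_exp.2
    nlinarith
  have h5 : 0 ≤ 2 * (b + B) := by positivity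
  exact mul_le_mul_of_nonneg_right (mul_le_mul_of_nonneg_left h4 h5) hκK.le

theorem mag_zero (θ : ℝ) (Λ : Finset (W q)) (v : W q) :
    mag (WG q) θ Λ (fun _ => 0) v = 0 := by
  have h := mag_neg (WG q) θ Λ (fun _ => 0) v
  simp only [neg_zero] at h
  linarith

theorem Mf_zero_zero (θ : ℝ) (Λ : Finset (W q)) (ω : Lab (W q)) (v : W q) :
    Mf (WG q) θ Λ ω 0 0 v = 0 := by
  unfold Mf
  have : st (WG q) θ Λ ω 0 0 = fun _ => 0 := funext fun v => st_zero_zero (WG q) θ Λ ω v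
  rw [this, mag_zero]

theorem Mf_succ_zero (θ : ℝ) (Λ : Finset (W q)) (ω : Lab (W q)) (j : ℕ) (v : W q) :
    Mf (WG q) θ Λ ω (j + 1) 0 v = Mf (WG q) θ Λ ω j 1 v := by
  unfold Mf
  rw [st_succ_zero]

/-- `fin_cauchy` with `κ` independent of `j` -/
theorem fin_cauchy_aux (HP : PairFin q) (hq : 2 ≤ q) {θ : ℝ} (h0 : 0 ≤ θ) (h1 : q * θ ^ 2 < 1) :
    ∃ κ : ℝ, 0 < κ ∧ κ < 1 ∧ ∀ j : ℕ, ∃ C : ℝ, 0 ≤ C ∧
    ∀ (k : ℕ) (Λ Λ' : Finset (W q)), wball q k ⊆ Λ → wball q k ⊆ Λ' →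
      ∀ r, 0 ≤ r → r ≤ 1 → dd θ j Λ Λ' r ≤ C * κ ^ k := by
  have hθ1 := theta_lt_one hq h1.le
  obtain ⟨κ, hκ, hκ1⟩ := exists_between h1
  have hκ0 : 0 < κ := lt_of_le_of_lt (by positivity) hκ
  obtain ⟨L, B, hL, hB, H⟩ := sum_pfI_le hq h0 h1 hκ hκ1
  refine ⟨κ, hκ0, hκ1, fun j => ?_⟩
  induction j with
  | zero =>
    have h2 := gron HP h0 hθ1 hκ0 hκ1 hL hB 0 (H 0) 0 le_rfl (fun m Λ Λ' _ _ => by
      unfold dd
      simp [Mf_zero_zero])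
    exact ⟨_, by positivity, fun k Λ Λ' hΛ hΛ' r hr hr1 => h2 k Λ Λ' hΛ hΛ' r hr hr1⟩
  | succ j ih =>
    obtain ⟨C, hC, hc⟩ := ih
    have h2 := gron HP h0 hθ1 hκ0 hκ1 hL hB (j + 1) (H (j + 1)) C hC (fun m Λ Λ' hΛ hΛ' => by
      have := hc m Λ Λ' hΛ hΛ' 1 zero_le_one le_rfl
      unfold dd at this ⊢
      simp only [Mf_succ_zero]
      exact this)
    exact ⟨_, by positivity, fun k Λ Λ' hΛ hΛ' r hr hr1 => h2 k Λ Λ' hΛ hΛ' r hr hr1⟩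

end Crest.Agent.FreeIs.Lim
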