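import Crest.Agent.FreeIs.LimD

/-!
M6, part E: the infinite volume magnetisation `Mr` is the almost sure and `L²` limit of the
finite volume ones.
-/

set_option autoImplicit false
set_option linter.unusedVariables false

open MeasureTheory Filter Topology

namespace Crest.Agent.FreeIs.Lim

open Crest.Agent.FreeIs Crest.Agent.FreeIs.Rec

variable {q : ℕ}

theorem ae_tendsto_zero {X : ℕ → Lab (W q) → ℝ} (hX : ∀ n, BM (X n)) {C κ : ℝ} (h0 : 0 ≤ κ)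
    (h1 : κ < 1) (h : ∀ n, ∫ ω, X n ω ^ 2 ∂(labP (W q)) ≤ C * κ ^ n) :
    ∀ᵐ ω ∂(labP (W q)), Tendsto (fun n => X n ω) atTop (𝓝 0) := by
  have hm : ∀ n, Measurable fun ω => ENNReal.ofReal (X n ω ^ 2) := fun n =>
    ((hX n).meas.pow_const 2).ennreal_ofReal
  have e1 : ∫⁻ ω, ∑' n, ENNReal.ofReal (X n ω ^ 2) ∂(labP (W q))
      = ∑' n, ENNReal.ofReal (∫ ω, X n ω ^ 2 ∂(labP (W q))) := by
    rw [lintegral_tsum fun n => (hm n).aemeasurable]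
    refine tsum_congr fun n => ?_
    rw [ofReal_integral_eq_lintegral_ofReal ((hX n).pow 2).integrable
      (Eventually.of_forall fun ω => sq_nonneg _)]
  have hC : 0 ≤ C := by
    have := h 0
    rw [pow_zero, mul_one] at this
    exact (integral_nonneg fun ω => sq_nonneg _).trans this
  have hs : Summable fun n : ℕ => C * κ ^ n := (summable_geometric_of_lt_one h0 h1).mul_left C
  have e2 : ∑' n, ENNReal.ofReal (∫ ω, X n ω ^ 2 ∂(labP (W q))) ≠ ⊤ := by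
    refine ne_top_of_le_ne_top ?_ (ENNReal.tsum_le_tsum fun n => ENNReal.ofReal_le_ofReal (h n))
    rw [← ENNReal.ofReal_tsum_of_nonneg (fun n => by positivity) hs]
    exact ENNReal.ofReal_ne_top
  rw [← e1] at e2
  have h3 := ae_lt_top' (AEMeasurable.tsum fun n => (hm n).aemeasurable) e2
  filter_upwards [h3] with ω hω
  have h4 := ENNReal.tendsto_atTop_zero_of_tsum_ne_top hω.ne
  have h5 := (ENNReal.tendsto_toReal ENNReal.zero_ne_top).comp h4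
  have h6 : Tendsto (fun n => X n ω ^ 2) atTop (𝓝 0) := by
    refine h5.congr fun n => ?_
    simp only [Function.comp_apply]
    rw [ENNReal.toReal_ofReal (sq_nonneg _)]
  have h7 := (Real.continuous_sqrt.tendsto 0).comp h6
  rw [Real.sqrt_zero] at h7
  rw [tendsto_zero_iff_abs_tendsto_zero]
  refine h7.congr fun n => ?_
  simp only [Function.comp_apply]
  rw [Real.sqrt_sq_eq_abs]

theorem ae_tendsto_of_sq {X : ℕ → Lab (W q) → ℝ} {Y : Lab (W q) → ℝ} (hX : ∀ n, BM (X n))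
    (hY : BM Y) {C κ : ℝ} (h0 : 0 ≤ κ)
    (h1 : κ < 1) (h : ∀ n, ∫ ω, (X n ω - Y ω) ^ 2 ∂(labP (W q)) ≤ C * κ ^ n) :
    ∀ᵐ ω ∂(labP (W q)), Tendsto (fun n => X n ω) atTop (𝓝 (Y ω)) := by
  filter_upwards [ae_tendsto_zero (fun n => (hX n).sub hY) h0 h1 h] with ω hω
  have := hω.add_const (Y ω)
  simpa using this

theorem ae_cauchy {X : ℕ → Lab (W q) → ℝ} (hX : ∀ n, BM (X n)) {C κ : ℝ} (h0 : 0 < κ)
    (h1 : κ < 1) (h : ∀ n, ∫ ω, (X n ω - X (n + 1) ω) ^ 2 ∂(labP (W q)) ≤ C * κ ^ n) :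
    ∀ᵐ ω ∂(labP (W q)), ∃ L, Tendsto (fun n => X n ω) atTop (𝓝 L) := by
  obtain ⟨s, hs⟩ : ∃ s, s = √((κ + 1) / 2) := ⟨_, rfl⟩
  have hs2 : s ^ 2 = (κ + 1) / 2 := by rw [hs]; exact Real.sq_sqrt (by linarith)
  have hs0 : 0 < s := by rw [hs]; exact Real.sqrt_pos.2 (by linarith)
  have hs1 : s < 1 := by nlinarith
  have hx1 : κ / s ^ 2 < 1 := by
    rw [div_lt_one (by positivity), hs2]; linarith
  have key := ae_tendsto_zero (X := fun n ω => (s ^ n)⁻¹ * (X n ω - X (n + 1) ω))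
    (fun n => ((hX n).sub (hX (n + 1))).const_mul _) (C := C) (κ := κ / s ^ 2) (by positivity) hx1
    (fun n => by
      have e : ∀ ω, ((s ^ n)⁻¹ * (X n ω - X (n + 1) ω)) ^ 2
          = ((s ^ n)⁻¹) ^ 2 * (X n ω - X (n + 1) ω) ^ 2 := fun ω => by ring
      simp only [e]
      rw [integral_const_mul]
      have h2 := mul_le_mul_of_nonneg_left (h n) (sq_nonneg ((s ^ n)⁻¹))
      refine h2.trans (le_of_eq ?_)
      rw [div_pow, ← pow_mul, mul_comm 2 n, pow_mul]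
      field_simp)
  filter_upwards [key] with ω hω
  apply cauchySeq_tendsto_of_complete
  refine cauchySeq_of_summable_dist ?_
  have h3 : ∀ᶠ n in atTop, ‖dist (X n ω) (X (n + 1) ω)‖ ≤ s ^ n := by
    have h4 := hω.abs
    rw [abs_zero] at h4
    filter_upwards [h4.eventually_lt_const zero_lt_one] with n hn
    rw [abs_mul, abs_of_pos (by positivity : 0 < (s ^ n)⁻¹), inv_mul_lt_iff₀ (by positivity),
      mul_one] at hn
    rw [Real.dist_eq, Real.norm_eq_abs, abs_abs]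
    exact hn.le
  exact Summable.of_norm_bounded_eventually_nat (summable_geometric_of_lt_one hs0.le hs1) h3

theorem measurable_Mr' (θ : ℝ) (j : ℕ) :
    Measurable fun p : Lab (W q) × ℝ => Mr q θ j p.2 p.1 := by
  unfold Mr
  exact Measurable.limsup fun n => Samp.Mf_measurable_pair (WG q) θ (wball q n) j (wroot q)

theorem limsup_abs_le {x : ℕ → ℝ} {μ : ℝ} (h : ∀ n, |x n| ≤ μ) : |limsup x atTop| ≤ μ := by
  have h1 : ∀ n, -μ ≤ x n := fun n => (abs_le.1 (h n)).1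
  have h2 : ∀ n, x n ≤ μ := fun n => (abs_le.1 (h n)).2
  have b1 : IsBoundedUnder (· ≤ ·) atTop x := ⟨μ, by simp [h2]⟩
  have b2 : IsBoundedUnder (· ≥ ·) atTop x := ⟨-μ, by simp [h1]⟩
  rw [abs_le]
  constructor
  · exact le_limsup_of_frequently_le (Frequently.of_forall h1) b1
  · exact limsup_le_of_le b2.isCoboundedUnder_le (Eventually.of_forall h2)

theorem theta_le_sqrt (hq : 2 ≤ q) {θ : ℝ} (h0 : 0 ≤ θ) (h1 : q * θ ^ 2 ≤ 1) : θ ≤ √(1 / 2) := by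
  apply Real.le_sqrt_of_sq_le
  have : (2 : ℝ) ≤ q := by exact_mod_cast hq
  nlinarith [mul_nonneg (sub_nonneg.2 this) (sq_nonneg θ)]

theorem sqrt_half_lt : √(1 / 2 : ℝ) < 1 := by
  rw [show (1 : ℝ) = √1 by simp]
  apply Real.sqrt_lt_sqrt (by norm_num)
  norm_num

/-- uniform bound for all finite volumes and all vertices; all sub-volumes too -/
theorem fin_unif (j : ℕ) (hq : 2 ≤ q) : ∃ μ : ℝ, 0 ≤ μ ∧ μ < 1 ∧ ∀ θ : ℝ, 0 ≤ θ → q * θ ^ 2 ≤ 1 →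
    ∀ r, r ≤ 1 → ∀ (Λ Λ' : Finset (W q)) (ω : Lab (W q)) (v : W q),
      |mag (WG q) θ Λ' (st (WG q) θ Λ ω j r) v| ≤ μ := by
  obtain ⟨τ, hτ0, hτ1, H⟩ := st_bound j
  obtain ⟨μ, hμ0, hμ1, H2⟩ := mag_unif q (Real.sqrt_nonneg (1 / 2)) sqrt_half_lt hτ0 hτ1
  refine ⟨μ, hμ0, hμ1, ?_⟩
  intro θ h0 h1 r hr Λ Λ' ω v
  have hθ1 := theta_lt_one hq h1
  exact H2 θ h0 (theta_le_sqrt hq h0 h1) Λ' _ (fun v _ => H (W q) (WG q) θ h0 hθ1 Λ ω r hr v) v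

theorem Mr_bound' (j : ℕ) (hq : 2 ≤ q) : ∃ μ : ℝ, 0 ≤ μ ∧ μ < 1 ∧ ∀ θ : ℝ, 0 ≤ θ → q * θ ^ 2 ≤ 1 →
    ∀ r, 0 ≤ r → r ≤ 1 → ∀ ω, |Mr q θ j r ω| ≤ μ := by
  obtain ⟨μ, hμ0, hμ1, H⟩ := fin_unif (q := q) j hq
  refine ⟨μ, hμ0, hμ1, ?_⟩
  intro θ h0 h1 r _ hr ω
  exact limsup_abs_le fun n => H θ h0 h1 r hr _ _ ω _

theorem Mr_natural' (θ : ℝ) (j : ℕ) (r : ℝ) (g : WG q ≃g WG q) (hg : g (wroot q) = wroot q)
    (ω : Lab (W q)) : Mr q θ j r (act g ω) = Mr q θ j r ω := by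
  unfold Mr
  congr 1
  funext n
  rw [Mf_natural (WG q) g, map_wball g hg, hg]

theorem Mr_zero' (θ : ℝ) (ω : Lab (W q)) : Mr q θ 0 0 ω = 0 := by
  unfold Mr
  simp only [Mf_zero_zero]
  exact limsup_const 0

theorem Mr_succ_zero' (θ : ℝ) (j : ℕ) (ω : Lab (W q)) : Mr q θ (j + 1) 0 ω = Mr q θ j 1 ω := by
  unfold Mr
  simp only [Mf_succ_zero]

theorem measurable_Mr1_aux (θ : ℝ) (j : ℕ) (r : ℝ) :
    Measurable ((fun p : Lab (W q) × ℝ => Mr q θ j p.2 p.1) ∘ (fun ω : Lab (W q) => (ω, r))) :=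
  (measurable_Mr' θ j).comp (measurable_id.prodMk measurable_const)

theorem measurable_Mr1 (θ : ℝ) (j : ℕ) (r : ℝ) : Measurable (Mr q θ j r) := by
  have := measurable_Mr1_aux (q := q) θ j r
  simp only [Function.comp_def] at this
  exact this

theorem BM_Mr (hq : 2 ≤ q) {θ : ℝ} (h0 : 0 ≤ θ) (h1 : q * θ ^ 2 ≤ 1) (j : ℕ) {r : ℝ}
    (hr0 : 0 ≤ r) (hr : r ≤ 1) : BM (Mr q θ j r) := by
  obtain ⟨μ, _, _, H⟩ := Mr_bound' (q := q) j hq
  constructor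
  · exact measurable_Mr1 θ j r
  · exact ⟨μ, fun ω => H θ h0 h1 r hr0 hr ω⟩

theorem Mf_root_ae (HP : PairFin q) (hq : 2 ≤ q) {θ : ℝ} (h0 : 0 ≤ θ) (h1 : q * θ ^ 2 < 1)
    (j : ℕ) {r : ℝ} (hr0 : 0 ≤ r) (hr : r ≤ 1) :
    ∀ᵐ ω ∂(labP (W q)), Tendsto (fun n => Mf (WG q) θ (wball q n) ω j r (wroot q)) atTop
      (𝓝 (Mr q θ j r ω)) := by
  have hθ1 := theta_lt_one hq h1.le
  obtain ⟨κ, hκ0, hκ1, H⟩ := fin_cauchy_aux HP hq h0 h1
  obtain ⟨C, hC, Hc⟩ := H j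
  have key := ae_cauchy (X := fun n ω => Mf (WG q) θ (wball q n) ω j r (wroot q))
    (fun n => BM_Mf h0 hθ1 _ j hr _) (C := C) hκ0 hκ1 (fun n => by
      refine Hc n (wball q n) (wball q (n + 1)) (Finset.Subset.refl _) ?_ r hr0 hr
      intro x hx
      rw [mem_wball] at hx ⊢
      omega)
  filter_upwards [key] with ω hω
  obtain ⟨L, hL⟩ := hω
  have : Mr q θ j r ω = L := hL.limsup_eq
  rw [this]
  exact hL

theorem fin_lim_aux (HP : PairFin q) (hq : 2 ≤ q) {θ : ℝ} (h0 : 0 ≤ θ) (h1 : q * θ ^ 2 < 1) :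
    ∃ κ : ℝ, 0 < κ ∧ κ < 1 ∧ ∀ j : ℕ, ∃ C : ℝ, 0 ≤ C ∧
    ∀ (k : ℕ) (Λ : Finset (W q)), wball q k ⊆ Λ → ∀ r, 0 ≤ r → r ≤ 1 →
      ∫ ω, (Mf (WG q) θ Λ ω j r (wroot q) - Mr q θ j r ω) ^ 2 ∂(labP (W q)) ≤ C * κ ^ k := by
  have hθ1 := theta_lt_one hq h1.le
  obtain ⟨κ, hκ0, hκ1, H⟩ := fin_cauchy_aux HP hq h0 h1
  refine ⟨κ, hκ0, hκ1, fun j => ?_⟩
  obtain ⟨C, hC, Hc⟩ := H j
  refine ⟨C, hC, ?_⟩
  intro k Λ hΛ r hr0 hr
  have hlim : Tendsto (fun n => ∫ ω, (Mf (WG q) θ Λ ω j r (wroot q)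
      - Mf (WG q) θ (wball q n) ω j r (wroot q)) ^ 2 ∂(labP (W q))) atTop
      (𝓝 (∫ ω, (Mf (WG q) θ Λ ω j r (wroot q) - Mr q θ j r ω) ^ 2 ∂(labP (W q)))) := by
    refine tendsto_integral_of_dominated_convergence (fun _ => 4) (fun n => ?_)
      (integrable_const _) (fun n => Eventually.of_forall fun ω => ?_) ?_
    · exact (((BM_Mf h0 hθ1 Λ j hr _).sub (BM_Mf h0 hθ1 _ j hr _)).pow 2).meas.aestronglyMeasurable
    · rw [Real.norm_eq_abs, abs_of_nonneg (sq_nonneg _)]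
      exact sq_sub_le_four (Mf_le h0 hθ1 _ ω j hr _) (Mf_le h0 hθ1 _ ω j hr _)
    · filter_upwards [Mf_root_ae HP hq h0 h1 j hr0 hr] with ω hω
      exact (hω.const_sub _).pow 2
  refine le_of_tendsto hlim ?_
  filter_upwards [eventually_ge_atTop k] with n hn
  refine Hc k Λ (wball q n) hΛ ?_ r hr0 hr
  intro x hx
  rw [mem_wball] at hx ⊢
  omega

/-- convergence of the magnetisation at a vertex -/
theorem Mf_at_ae (HP : PairFin q) (hq : 2 ≤ q) {θ : ℝ} (h0 : 0 ≤ θ) (h1 : q * θ ^ 2 < 1)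
    (j : ℕ) {r : ℝ} (hr0 : 0 ≤ r) (hr : r ≤ 1) (w : W q) :
    ∀ᵐ ω ∂(labP (W q)), Tendsto (fun n => Mf (WG q) θ (wball q n) ω j r w) atTop
      (𝓝 (atW (Mr q θ j r) w.1 ω)) := by
  have hθ1 := theta_lt_one hq h1.le
  obtain ⟨κ, hκ0, hκ1, H⟩ := fin_lim_aux HP hq h0 h1
  obtain ⟨C, hC, Hc⟩ := H j
  have h2 := ae_tendsto_of_sq
    (X := fun n ω => Mf (WG q) θ (rec0 (wball q (n + w.1.length)) w) ω j r (wroot q))
    (fun n => BM_Mf h0 hθ1 _ j hr _) (BM_Mr hq h0 h1.le j hr0 hr) hκ0.le hκ1 (fun n => by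
      refine Hc n _ ?_ r hr0 hr
      have := wball_rec0' (w := w) (Finset.Subset.refl (wball q (n + w.1.length))) (by omega)
      simpa using this)
  have h3 := (shl_mp w.1).quasiMeasurePreserving.ae h2
  filter_upwards [h3] with ω hω
  rw [atW_eq]
  rw [← tendsto_add_atTop_iff_nat w.1.length]
  refine hω.congr fun n => ?_
  rw [Mf_rec0 θ _ ω]

theorem Mf_all_ae (HP : PairFin q) (hq : 2 ≤ q) {θ : ℝ} (h0 : 0 ≤ θ) (h1 : q * θ ^ 2 < 1)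
    (j : ℕ) {r : ℝ} (hr0 : 0 ≤ r) (hr : r ≤ 1) :
    ∀ᵐ ω ∂(labP (W q)), ∀ w : W q, Tendsto (fun n => Mf (WG q) θ (wball q n) ω j r w) atTop
      (𝓝 (atW (Mr q θ j r) w.1 ω)) := by
  rw [ae_all_iff]
  exact fun w => Mf_at_ae HP hq h0 h1 j hr0 hr w

end Crest.Agent.FreeIs.Lim
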