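import Crest.Agent.FreeIs.LimE

/-!
M6, part F: messages and covariances in infinite volume as limits; `Sys`.
-/

set_option autoImplicit false
set_option linter.unusedVariables false

open MeasureTheory Filter Topology

namespace Crest.Agent.FreeIs.Lim

open Crest.Agent.FreeIs Crest.Agent.FreeIs.Rec

variable {q : ℕ}

/-- convergence at all vertices -/
def Cv (θ : ℝ) (j : ℕ) (r : ℝ) (ω : Lab (W q)) : Prop :=
  ∀ w : W q, Tendsto (fun n => Mf (WG q) θ (wball q n) ω j r w) atTop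
      (𝓝 (atW (Mr q θ j r) w.1 ω))

theorem edge_lim {θ : ℝ} (h0 : 0 ≤ θ) (h1 : θ < 1) {j : ℕ} {r : ℝ} (hr : r ≤ 1) {ω : Lab (W q)}
    (hω : Cv θ j r ω) {u w : W q} {a : Fin (q + 1)} (hw : w.1 = u.1 ++ [a]) :
    Tendsto (fun n => mag (WG q) θ (below (wball q n) w) (st (WG q) θ (wball q n) ω j r) w) atTop
      (𝓝 (cav θ (atW (Mr q θ j r) u.1 ω) (atW (Mr q θ j r) w.1 ω))) ∧
    Tendsto (fun n => mag (WG q) θ (wball q n \ below (wball q n) w)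
      (st (WG q) θ (wball q n) ω j r) u) atTop
      (𝓝 (cav θ (atW (Mr q θ j r) w.1 ω) (atW (Mr q θ j r) u.1 ω))) := by
  have hl := len_of_concat hw
  have hc := continuous_cav' θ
  have t1 := (hc.tendsto (atW (Mr q θ j r) u.1 ω, atW (Mr q θ j r) w.1 ω)).comp
    ((hω u).prodMk_nhds (hω w))
  have t2 := (hc.tendsto (atW (Mr q θ j r) w.1 ω, atW (Mr q θ j r) u.1 ω)).comp
    ((hω w).prodMk_nhds (hω u))
  have key : ∀ n, w.1.length ≤ n →
      cav θ (Mf (WG q) θ (wball q n) ω j r u) (Mf (WG q) θ (wball q n) ω j r w)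
        = mag (WG q) θ (below (wball q n) w) (st (WG q) θ (wball q n) ω j r) w ∧
      cav θ (Mf (WG q) θ (wball q n) ω j r w) (Mf (WG q) θ (wball q n) ω j r u)
        = mag (WG q) θ (wball q n \ below (wball q n) w) (st (WG q) θ (wball q n) ω j r) u :=
    fun n hn => fin_cav h0 h1 (fun v => st_lt h0 h1 (wball q n) ω j hr v) hw
      (mem_wball.2 (by omega)) (mem_wball.2 hn)
  constructor
  · refine t1.congr' ?_
    filter_upwards [eventually_ge_atTop w.1.length] with n hn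
    exact (key n hn).1
  · refine t2.congr' ?_
    filter_upwards [eventually_ge_atTop w.1.length] with n hn
    exact (key n hn).2

/-- bound of the infinite volume messages -/
theorem cav_bound (j : ℕ) (hq : 2 ≤ q) : ∃ μ : ℝ, 0 ≤ μ ∧ μ < 1 ∧ ∀ θ : ℝ, 0 ≤ θ →
    q * θ ^ 2 ≤ 1 → ∀ r, r ≤ 1 → ∀ ω : Lab (W q), Cv θ j r ω →
    ∀ (u w : W q) (a : Fin (q + 1)), w.1 = u.1 ++ [a] →
      |cav θ (atW (Mr q θ j r) u.1 ω) (atW (Mr q θ j r) w.1 ω)| ≤ μ ∧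
      |cav θ (atW (Mr q θ j r) w.1 ω) (atW (Mr q θ j r) u.1 ω)| ≤ μ := by
  obtain ⟨μ, hμ0, hμ1, H⟩ := fin_unif (q := q) j hq
  refine ⟨μ, hμ0, hμ1, ?_⟩
  intro θ h0 h1 r hr ω hω u w a hw
  have hθ1 := theta_lt_one hq h1
  obtain ⟨t1, t2⟩ := edge_lim h0 hθ1 hr hω hw
  exact ⟨le_of_tendsto t1.abs (Eventually.of_forall fun n => H θ h0 h1 r hr _ _ ω _),
    le_of_tendsto t2.abs (Eventually.of_forall fun n => H θ h0 h1 r hr _ _ ω _)⟩

/-- the vertex `[i]` -/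
def v1 (i : Fin (q + 1)) : W q := ⟨[i], List.isChain_singleton i⟩

theorem v1_val (i : Fin (q + 1)) : (v1 i).1 = (wroot q).1 ++ [i] := rfl

theorem msg_eq (θ : ℝ) (M : Lab (W q) → ℝ) (i : Fin (q + 1)) (ω : Lab (W q)) :
    msg θ M i ω = cav θ (atW M (wroot q).1 ω) (atW M (v1 i).1 ω) := rfl

theorem msg_bound' (HP : PairFin q) (j : ℕ) (hq : 2 ≤ q) : ∃ μ : ℝ, 0 ≤ μ ∧ μ < 1 ∧
    ∀ θ : ℝ, 0 ≤ θ → q * θ ^ 2 < 1 →
    ∀ r, 0 ≤ r → r ≤ 1 → ∀ i, ∀ᵐ ω ∂(labP (W q)), |msg θ (Mr q θ j r) i ω| ≤ μ := by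
  obtain ⟨μ, hμ0, hμ1, H⟩ := cav_bound (q := q) j hq
  refine ⟨μ, hμ0, hμ1, ?_⟩
  intro θ h0 h1 r hr0 hr i
  filter_upwards [Mf_all_ae HP hq h0 h1 j hr0 hr] with ω hω
  rw [msg_eq]
  exact (H θ h0 h1.le r hr ω hω _ _ i (v1_val i)).1

theorem continuousAt_ein {x y : ℝ} (h : 1 + x * y ≠ 0) :
    ContinuousAt (fun p : ℝ × ℝ => ein p.1 p.2) (x, y) := by
  unfold ein
  exact ContinuousAt.div (by fun_prop) (by fun_prop) h

theorem one_add_ne {θ m m' : ℝ} (h0 : 0 ≤ θ) (h1 : θ < 1) (hm : |m| ≤ 1) (hm' : |m'| ≤ 1) :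
    1 + m' * (θ * m) ≠ 0 := by
  have hmm : |m * m'| ≤ 1 := by rw [abs_mul]; nlinarith [abs_nonneg m, abs_nonneg m']
  have h2 := abs_le.1 hmm
  nlinarith [h2.1]

theorem cav_edge {θ : ℝ} (hq : 2 ≤ q) (h0 : 0 ≤ θ) (h1 : q * θ ^ 2 ≤ 1) {j : ℕ} {r : ℝ}
    (hr : r ≤ 1) {ω : Lab (W q)} (hω : Cv θ j r ω) {u w : W q} {a : Fin (q + 1)}
    (hw : w.1 = u.1 ++ [a]) :
    atW (Mr q θ j r) u.1 ω
      = ein (cav θ (atW (Mr q θ j r) w.1 ω) (atW (Mr q θ j r) u.1 ω))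
        (θ * cav θ (atW (Mr q θ j r) u.1 ω) (atW (Mr q θ j r) w.1 ω)) ∧
    atW (Mr q θ j r) w.1 ω
      = ein (cav θ (atW (Mr q θ j r) u.1 ω) (atW (Mr q θ j r) w.1 ω))
        (θ * cav θ (atW (Mr q θ j r) w.1 ω) (atW (Mr q θ j r) u.1 ω)) := by
  have hθ1 := theta_lt_one hq h1
  have hl := len_of_concat hw
  obtain ⟨t1, t2⟩ := edge_lim h0 hθ1 hr hω hw
  obtain ⟨μ, hμ0, hμ1, H⟩ := cav_bound (q := q) j hq
  obtain ⟨b1, b2⟩ := H θ h0 h1 r hr ω hω u w a hw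
  have b1' := b1.trans hμ1.le
  have b2' := b2.trans hμ1.le
  have e := fun n (hn : w.1.length ≤ n) =>
    mag_edge h0 hθ1 (Λ := wball q n) (t := st (WG q) θ (wball q n) ω j r)
      (fun v _ => st_lt h0 hθ1 (wball q n) ω j hr v) hw (mem_wball.2 (by omega)) (mem_wball.2 hn)
  constructor
  · refine tendsto_nhds_unique (hω u) ?_
    have t3 := (continuousAt_ein (one_add_ne h0 hθ1 b1' b2')).tendsto.comp
      (t2.prodMk_nhds (t1.const_mul θ))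
    refine t3.congr' ?_
    filter_upwards [eventually_ge_atTop w.1.length] with n hn
    exact (e n hn).1.symm
  · refine tendsto_nhds_unique (hω w) ?_
    have t3 := (continuousAt_ein (one_add_ne h0 hθ1 b2' b1')).tendsto.comp
      (t1.prodMk_nhds (t2.const_mul θ))
    refine t3.congr' ?_
    filter_upwards [eventually_ge_atTop w.1.length] with n hn
    exact (e n hn).2.symm

theorem Mr_abs_le (hq : 2 ≤ q) {θ : ℝ} (h0 : 0 ≤ θ) (h1 : q * θ ^ 2 ≤ 1) (j : ℕ) {r : ℝ}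
    (hr0 : 0 ≤ r) (hr : r ≤ 1) (ω : Lab (W q)) : |Mr q θ j r ω| ≤ 1 := by
  obtain ⟨μ, _, hμ1, H⟩ := Mr_bound' (q := q) j hq
  exact (H θ h0 h1 r hr0 hr ω).trans hμ1.le

theorem Mf_local (θ : ℝ) (Λ : Finset (W q)) (j : ℕ) (r : ℝ) (v : W q) (ω ω' : Lab (W q))
    (h : ∀ e, e.1 ∈ Λ → ω e = ω' e) : Mf (WG q) θ Λ ω j r v = Mf (WG q) θ Λ ω' j r v := by
  unfold Mf
  rw [st_local (WG q) θ Λ ω ω' h]

theorem sys_Mr' (HP : PairFin q) (hq : 2 ≤ q) {θ : ℝ} (h0 : 0 ≤ θ) (h1 : q * θ ^ 2 < 1) (j : ℕ)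
    {r : ℝ} (hr0 : 0 ≤ r) (hr : r ≤ 1) : Sys q θ (Mr q θ j r) := by
  have hθ1 := theta_lt_one hq h1.le
  refine ⟨measurable_Mr1 θ j r, Mr_abs_le hq h0 h1.le j hr0 hr, fun i => ?_, fun ε hε => ?_⟩
  · obtain ⟨μ, hμ0, hμ1, H⟩ := cav_bound (q := q) j hq
    filter_upwards [Mf_all_ae HP hq h0 h1 j hr0 hr] with ω hω
    obtain ⟨b1, b2⟩ := H θ h0 h1.le r hr ω hω _ _ i (v1_val i)
    obtain ⟨e1, e2⟩ := cav_edge hq h0 h1.le hr hω (v1_val i)
    exact ⟨_, _, b1.trans hμ1.le, b2.trans hμ1.le, e1, e2⟩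
  · obtain ⟨κ, hκ0, hκ1, H⟩ := fin_lim_aux HP hq h0 h1
    obtain ⟨C, hC, Hc⟩ := H j
    have hlim : Tendsto (fun n : ℕ => C * κ ^ n) atTop (𝓝 (C * 0)) :=
      (tendsto_pow_atTop_nhds_zero_of_lt_one hκ0.le hκ1).const_mul C
    rw [mul_zero] at hlim
    obtain ⟨n, hn⟩ := (hlim.eventually_le_const hε).exists
    refine ⟨n, fun ω => Mf (WG q) θ (wball q n) ω j r (wroot q),
      Samp.Mf_measurable (WG q) θ _ j r _, fun ω => Mf_le h0 hθ1 _ ω j hr _,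
      fun ω ω' h => Mf_local θ _ j r _ ω ω' h, ?_⟩
    refine le_trans ?_ hn
    have := Hc n (wball q n) (Finset.Subset.refl _) r hr0 hr
    refine le_trans (le_of_eq ?_) this
    refine integral_congr_ae (Eventually.of_forall fun ω => ?_)
    ring

/-! ### covariances -/

theorem covr_lim {θ : ℝ} (hq : 2 ≤ q) (h0 : 0 ≤ θ) (h1 : q * θ ^ 2 ≤ 1) {j : ℕ} {r : ℝ}
    (hr : r ≤ 1) {ω : Lab (W q)} (hω : Cv θ j r ω) (w : W q) :
    Tendsto (fun n => Cf (WG q) θ (wball q n) ω j r (wroot q) w) atTop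
      (𝓝 (covr θ (Mr q θ j r) w.1 ω)) := by
  have hθ1 := theta_lt_one hq h1
  obtain ⟨μ, hμ0, hμ1, H⟩ := cav_bound (q := q) j hq
  have e1 : covr θ (Mr q θ j r) w.1 ω = (1 - atW (Mr q θ j r) (wroot q).1 ω ^ 2) *
      ∏ n ∈ Finset.range w.1.length, (θ * gg θ (cav θ (atW (Mr q θ j r) (pre w n).1 ω)
        (atW (Mr q θ j r) (pre w (n + 1)).1 ω))) := by
    unfold covr
    rw [regr_eq]
    congr 1
    refine Finset.prod_congr rfl fun n hn => ?_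
    rw [pre_val, pre_val]
  rw [e1]
  have t : Tendsto (fun n => (1 - Mf (WG q) θ (wball q n) ω j r (wroot q) ^ 2) *
      ∏ k ∈ Finset.range w.1.length, (θ * gg θ (cav θ (Mf (WG q) θ (wball q n) ω j r (pre w k))
        (Mf (WG q) θ (wball q n) ω j r (pre w (k + 1)))))) atTop
      (𝓝 ((1 - atW (Mr q θ j r) (wroot q).1 ω ^ 2) *
      ∏ n ∈ Finset.range w.1.length, (θ * gg θ (cav θ (atW (Mr q θ j r) (pre w n).1 ω)
        (atW (Mr q θ j r) (pre w (n + 1)).1 ω))))) := by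
    refine Tendsto.mul (((hω (wroot q)).pow 2).const_sub 1) (tendsto_finsetProd _ fun k hk => ?_)
    have hk' := Finset.mem_range.1 hk
    refine Tendsto.const_mul θ ?_
    have b := (H θ h0 h1 r hr ω hω _ _ _ (pre_succ w hk')).1
    have hc := (continuous_cav' θ).tendsto (atW (Mr q θ j r) (pre w k).1 ω,
      atW (Mr q θ j r) (pre w (k + 1)).1 ω)
    have hc2 := hc.comp ((hω (pre w k)).prodMk_nhds (hω (pre w (k + 1))))
    exact (continuousAt_gg h0 hθ1 (b.trans hμ1.le)).tendsto.comp hc2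
  refine t.congr' ?_
  filter_upwards [eventually_ge_atTop w.1.length] with n hn
  symm
  exact cov_root_prod h0 hθ1 (fun v _ => st_lt h0 hθ1 (wball q n) ω j hr v) w
    (fun k hk => pre_mem (Finset.Subset.refl _) hn k hk)

end Crest.Agent.FreeIs.Lim
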