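import Crest.Agent.FreeIs.LimF
import Crest.Agent.FreeIs.Far

/-!
M6, part G: the martingale inequality in infinite volume, measurability of `Rt`.
-/

set_option autoImplicit false
set_option linter.unusedVariables false

open MeasureTheory Filter Topology

namespace Crest.Agent.FreeIs.Lim

open Crest.Agent.FreeIs Crest.Agent.FreeIs.Rec

variable {q : ℕ}

/-- summability of a geometric function of the length -/
theorem summable_len (hq : 1 ≤ q) {x c : ℝ} (hx : 0 ≤ x) (hc : 0 ≤ c) (h1 : q * x < 1) :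
    Summable fun w : W q => c * x ^ w.1.length := by
  have hq0 : (0 : ℝ) ≤ q := by positivity
  have hg : Summable fun n : ℕ => (q * x) ^ n := summable_geometric_of_lt_one (by positivity) h1
  refine summable_of_sum_le (c := 2 * c * ∑' n : ℕ, (q * x) ^ n) (fun w => by positivity)
    fun s => ?_
  obtain ⟨N, hN⟩ : ∃ N, s ⊆ wball q N := by
    refine ⟨s.sup fun w => w.1.length, fun w hw => ?_⟩
    rw [mem_wball]
    exact Finset.le_sup (f := fun w : W q => w.1.length) hw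
  calc ∑ w ∈ s, c * x ^ w.1.length ≤ ∑ w ∈ wball q N, c * x ^ w.1.length :=
        Finset.sum_le_sum_of_subset_of_nonneg hN fun w _ _ => by positivity
    _ = ∑ k ∈ Finset.range (N + 1), wsum q k (fun l => c * x ^ l.length) :=
        sum_wball (fun l => c * x ^ l.length) N
    _ ≤ ∑ k ∈ Finset.range (N + 1), 2 * c * (q * x) ^ k := by
        refine Finset.sum_le_sum fun k _ => ?_
        have e1 : wsum q k (fun l => c * x ^ l.length) = wsum q k (fun _ => c * x ^ k) :=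
          wsum_congr fun l hl _ => by rw [hl]
        rw [e1]
        refine (wsum_const_le k (by positivity) hq).trans (le_of_eq ?_)
        rw [mul_pow]
        ring
    _ = 2 * c * ∑ k ∈ Finset.range (N + 1), (q * x) ^ k := by rw [← Finset.mul_sum]
    _ ≤ _ := by
        refine mul_le_mul_of_nonneg_left ?_ (by positivity)
        exact hg.sum_le_tsum _ fun l _ => by positivity

theorem theta_max {θ θ' : ℝ} (h0 : 0 ≤ θ) (h1 : q * θ ^ 2 < 1) (h0' : 0 ≤ θ')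
    (h1' : q * θ' ^ 2 < 1) : q * (max θ θ' ^ 2) < 1 := by
  rcases le_total θ θ' with h | h
  · rw [max_eq_right h]; exact h1'
  · rw [max_eq_left h]; exact h1

/-- the finite volume sum in `PairFin` -/
noncomputable def hN (θ θ' : ℝ) (j n : ℕ) (r : ℝ) : ℝ :=
  ∑ u ∈ wball q n, ∫ ω, pfI θ θ' j (wball q n) (wball q n) r u ω ∂(labP (W q))

theorem pfI_lim (hq : 2 ≤ q) {θ θ' : ℝ} (h0 : 0 ≤ θ) (h1 : q * θ ^ 2 ≤ 1) (h0' : 0 ≤ θ')
    (h1' : q * θ' ^ 2 ≤ 1) {j : ℕ} {r : ℝ} (hr : r ≤ 1) {ω : Lab (W q)}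
    (hω : Cv θ j r ω) (hω' : Cv θ' j r ω) (w : W q) :
    Tendsto (fun n => pfI θ θ' j (wball q n) (wball q n) r w ω) atTop
      (𝓝 (2 * (covr θ (Mr q θ j r) w.1 ω - covr θ' (Mr q θ' j r) w.1 ω) ^ 2
        + 32 * (covr θ' (Mr q θ' j r) w.1 ω) ^ 2 *
          (atW (Mr q θ j r) w.1 ω - atW (Mr q θ' j r) w.1 ω) ^ 2)) := by
  have c := covr_lim hq h0 h1 hr hω w
  have c' := covr_lim hq h0' h1' hr hω' w
  have m := hω w
  have m' := hω' w
  exact (((c.sub c').pow 2).const_mul 2).add (((c'.pow 2).const_mul 32).mul ((m.sub m').pow 2))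

theorem int_pfI_lim (HP : PairFin q) (hq : 2 ≤ q) {θ θ' : ℝ} (h0 : 0 ≤ θ) (h1 : q * θ ^ 2 < 1)
    (h0' : 0 ≤ θ') (h1' : q * θ' ^ 2 < 1) (j : ℕ) {r : ℝ} (hr0 : 0 ≤ r) (hr : r ≤ 1) (w : W q) :
    Tendsto (fun n => ∫ ω, pfI θ θ' j (wball q n) (wball q n) r w ω ∂(labP (W q))) atTop
      (𝓝 (∫ ω, (2 * (covr θ (Mr q θ j r) w.1 ω - covr θ' (Mr q θ' j r) w.1 ω) ^ 2
        + 32 * (covr θ' (Mr q θ' j r) w.1 ω) ^ 2 *
          (atW (Mr q θ j r) w.1 ω - atW (Mr q θ' j r) w.1 ω) ^ 2) ∂(labP (W q)))) := by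
  have hθ1 := theta_lt_one hq h1.le
  have hθ1' := theta_lt_one hq h1'.le
  refine tendsto_integral_of_dominated_convergence
    (fun _ => 136 * (max θ θ' ^ 2) ^ w.1.length) (fun n => ?_)
      (integrable_const _) (fun n => Eventually.of_forall fun ω => ?_) ?_
  · exact (BM_pfI h0 hθ1 h0' hθ1' j _ _ hr w).meas.aestronglyMeasurable
  · rw [Real.norm_eq_abs, abs_of_nonneg (pfI_nonneg _ _ _ _ _ _ _ _)]
    exact pfI_le h0 hθ1 h0' hθ1' (le_max_left _ _) (le_max_right _ _) j _ _ hr w ω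
  · filter_upwards [Mf_all_ae HP hq h0 h1 j hr0 hr, Mf_all_ae HP hq h0' h1' j hr0 hr] with ω hω hω'
    exact pfI_lim hq h0 h1.le h0' h1'.le hr hω hω' w

theorem int_pfI_nonneg (θ θ' : ℝ) (j : ℕ) (Λ Λ' : Finset (W q)) (r : ℝ) (u : W q) :
    0 ≤ ∫ ω, pfI θ θ' j Λ Λ' r u ω ∂(labP (W q)) :=
  integral_nonneg fun ω => pfI_nonneg _ _ _ _ _ _ _ _

theorem hN_lim (HP : PairFin q) (hq : 2 ≤ q) {θ θ' : ℝ} (h0 : 0 ≤ θ) (h1 : q * θ ^ 2 < 1)
    (h0' : 0 ≤ θ') (h1' : q * θ' ^ 2 < 1) (j : ℕ) {r : ℝ} (hr0 : 0 ≤ r) (hr : r ≤ 1) :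
    Tendsto (fun n => hN (q := q) θ θ' j n r) atTop
      (𝓝 (Rt θ θ' (Mr q θ j r) (Mr q θ' j r))) := by
  have hθ1 := theta_lt_one hq h1.le
  have hθ1' := theta_lt_one hq h1'.le
  have e : ∀ n, hN (q := q) θ θ' j n r = ∑' u : W q, (if u.1.length ≤ n then
      ∫ ω, pfI θ θ' j (wball q n) (wball q n) r u ω ∂(labP (W q)) else 0) := by
    intro n
    unfold hN
    rw [tsum_eq_sum (s := wball q n)]
    · refine Finset.sum_congr rfl fun u hu => ?_
      rw [if_pos (mem_wball.1 hu)]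
    · intro u hu
      rw [if_neg]
      rwa [mem_wball] at hu
  simp only [e]
  unfold Rt
  refine tendsto_tsum_of_dominated_convergence
    (summable_len (c := 136) (x := max θ θ' ^ 2) (by omega) (sq_nonneg _) (by norm_num)
      (theta_max h0 h1 h0' h1')) (fun u => ?_) (Eventually.of_forall fun n u => ?_)
  · refine (int_pfI_lim HP hq h0 h1 h0' h1' j hr0 hr u).congr' ?_
    filter_upwards [eventually_ge_atTop u.1.length] with n hn
    rw [if_pos hn]
  · have h3 := int_pfI_nonneg θ θ' j (wball q n) (wball q n) r u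
    have h4 := int_pfI_le h0 hθ1 h0' hθ1' (le_max_left _ _) (le_max_right _ _) j
      (wball q n) (wball q n) hr u
    split_ifs
    · rw [Real.norm_eq_abs, abs_of_nonneg h3]
      exact h4
    · rw [norm_zero]
      exact h3.trans h4

theorem measurable_int_pfI (θ θ' : ℝ) (j : ℕ) (Λ Λ' : Finset (W q)) (u : W q) :
    Measurable fun r : ℝ => ∫ ω, pfI θ θ' j Λ Λ' r u ω ∂(labP (W q)) := by
  have hm : Measurable (Function.uncurry fun (ω : Lab (W q)) (r : ℝ) => pfI θ θ' j Λ Λ' r u ω) := by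
    have c := Samp.Cf_measurable_pair (WG q) θ Λ j (wroot q) u
    have c' := Samp.Cf_measurable_pair (WG q) θ' Λ' j (wroot q) u
    have m := Samp.Mf_measurable_pair (WG q) θ Λ j u
    have m' := Samp.Mf_measurable_pair (WG q) θ' Λ' j u
    exact (((c.sub c').pow_const 2).const_mul 2).add
      (((c'.pow_const 2).const_mul 32).mul ((m.sub m').pow_const 2))
  exact (hm.stronglyMeasurable.integral_prod_left (μ := labP (W q))).measurable

theorem measurable_hN (θ θ' : ℝ) (j n : ℕ) : Measurable fun r => hN (q := q) θ θ' j n r := by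
  unfold hN
  exact Finset.measurable_fun_sum _ fun u _ => measurable_int_pfI θ θ' j _ _ u

theorem measurable_Rt' (HP : PairFin q) (hq : 2 ≤ q) {θ θ' : ℝ} (h0 : 0 ≤ θ)
    (h1 : q * θ ^ 2 < 1) (h0' : 0 ≤ θ') (h1' : q * θ' ^ 2 < 1) (j : ℕ) :
    Measurable ((Set.Icc (0 : ℝ) 1).indicator fun r => Rt θ θ' (Mr q θ j r) (Mr q θ' j r)) := by
  refine measurable_of_tendsto_metrizable (f := fun n => (Set.Icc (0 : ℝ) 1).indicator
    fun r => hN (q := q) θ θ' j n r) (fun n => (measurable_hN θ θ' j n).indicator measurableSet_Icc)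
    ?_
  rw [tendsto_pi_nhds]
  intro r
  by_cases hr : r ∈ Set.Icc (0 : ℝ) 1
  · simp only [Set.indicator_of_mem hr]
    exact hN_lim HP hq h0 h1 h0' h1' j hr.1 hr.2
  · simp only [Set.indicator_of_notMem hr]
    exact tendsto_const_nhds

theorem nn_lim (HP : PairFin q) (hq : 2 ≤ q) {θ θ' : ℝ} (h0 : 0 ≤ θ) (h1 : q * θ ^ 2 < 1)
    (h0' : 0 ≤ θ') (h1' : q * θ' ^ 2 < 1) (j : ℕ) {r : ℝ} (hr0 : 0 ≤ r) (hr : r ≤ 1) :
    Tendsto (fun n => ∫ ω, (Mf (WG q) θ (wball q n) ω j r (wroot q)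
      - Mf (WG q) θ' (wball q n) ω j r (wroot q)) ^ 2 ∂(labP (W q))) atTop
      (𝓝 (nn (Mr q θ j r) (Mr q θ' j r))) := by
  have hθ1 := theta_lt_one hq h1.le
  have hθ1' := theta_lt_one hq h1'.le
  unfold nn
  refine tendsto_integral_of_dominated_convergence (fun _ => 4) (fun n => ?_)
      (integrable_const _) (fun n => Eventually.of_forall fun ω => ?_) ?_
  · exact (((BM_Mf h0 hθ1 _ j hr _).sub (BM_Mf h0' hθ1' _ j hr _)).pow 2).meas.aestronglyMeasurable
  · rw [Real.norm_eq_abs, abs_of_nonneg (sq_nonneg _)]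
    exact sq_sub_le_four (Mf_le h0 hθ1 _ ω j hr _) (Mf_le h0' hθ1' _ ω j hr _)
  · filter_upwards [Mf_root_ae HP hq h0 h1 j hr0 hr, Mf_root_ae HP hq h0' h1' j hr0 hr] with ω a b
    exact (a.sub b).pow 2

theorem hN_bound (hq : 2 ≤ q) {θ θ' : ℝ} (h0 : 0 ≤ θ) (h1 : q * θ ^ 2 < 1)
    (h0' : 0 ≤ θ') (h1' : q * θ' ^ 2 < 1) (j : ℕ) : ∃ B : ℝ, ∀ n r, r ≤ 1 →
    0 ≤ hN (q := q) θ θ' j n r ∧ hN (q := q) θ θ' j n r ≤ B := by
  have hθ1 := theta_lt_one hq h1.le
  have hθ1' := theta_lt_one hq h1'.le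
  have hs := summable_len (q := q) (c := 136) (x := max θ θ' ^ 2) (by omega) (sq_nonneg _)
    (by norm_num) (theta_max h0 h1 h0' h1')
  refine ⟨∑' w : W q, 136 * (max θ θ' ^ 2) ^ w.1.length, fun n r hr => ⟨?_, ?_⟩⟩
  · exact Finset.sum_nonneg fun u _ => int_pfI_nonneg _ _ _ _ _ _ _
  · refine (Finset.sum_le_sum fun u _ => int_pfI_le h0 hθ1 h0' hθ1' (le_max_left _ _)
      (le_max_right _ _) j (wball q n) (wball q n) hr u).trans ?_
    exact hs.sum_le_tsum _ fun w _ => by positivity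

theorem pair_inf' (HP : PairFin q) (hq : 2 ≤ q) {θ θ' : ℝ} (h0 : 0 ≤ θ) (h1 : q * θ ^ 2 < 1)
    (h0' : 0 ≤ θ') (h1' : q * θ' ^ 2 < 1) (j : ℕ) {s0 s : ℝ} (hs0 : 0 ≤ s0) (hs : s0 ≤ s)
    (hs1 : s ≤ 1) :
    nn (Mr q θ j s) (Mr q θ' j s) ≤ nn (Mr q θ j s0) (Mr q θ' j s0)
      + ∫ r in s0..s, (r / 4) * Rt θ θ' (Mr q θ j r) (Mr q θ' j r) := by
  have hθ1 := theta_lt_one hq h1.le
  have hθ1' := theta_lt_one hq h1'.le
  obtain ⟨B, hB⟩ := hN_bound hq h0 h1 h0' h1' j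
  have t1 := nn_lim HP hq h0 h1 h0' h1' j (hs0.trans hs) hs1
  have t2 := nn_lim HP hq h0 h1 h0' h1' j hs0 (hs.trans hs1)
  have t3 : Tendsto (fun n => ∫ r in s0..s, (r / 4) * hN (q := q) θ θ' j n r) atTop
      (𝓝 (∫ r in s0..s, (r / 4) * Rt θ θ' (Mr q θ j r) (Mr q θ' j r))) := by
    refine intervalIntegral.tendsto_integral_filter_of_dominated_convergence (fun _ => B)
      (Eventually.of_forall fun n => ?_) (Eventually.of_forall fun n => ?_)
      intervalIntegrable_const ?_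
    · exact ((measurable_id.div_const 4).mul (measurable_hN θ θ' j n)).aestronglyMeasurable
    · refine Eventually.of_forall fun r hr => ?_
      rw [Set.uIoc_of_le hs] at hr
      have hr1 : r ≤ 1 := hr.2.trans hs1
      have hr0 : 0 < r := lt_of_le_of_lt hs0 hr.1
      obtain ⟨b0, b1⟩ := hB n r hr1
      rw [Real.norm_eq_abs, abs_of_nonneg (mul_nonneg (by linarith) b0)]
      nlinarith
    · refine Eventually.of_forall fun r hr => ?_
      rw [Set.uIoc_of_le hs] at hr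
      exact (hN_lim HP hq h0 h1 h0' h1' j (lt_of_le_of_lt hs0 hr.1).le (hr.2.trans hs1)).const_mul _
  refine le_of_tendsto_of_tendsto' t1 (t2.add t3) fun n => ?_
  have := HP θ θ' h0 hθ1 h0' hθ1' (wball q n) (wball q n) (wroot q) j s0 s hs0 hs hs1
  rw [Finset.union_self] at this
  exact this

end Crest.Agent.FreeIs.Lim
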