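import Crest.Agent.FreeIs.LimG
import Crest.Agent.FreeIs.Samp14
import Crest.Agent.FreeIs.Site
import Crest.Agent.FreeIs.ConeWords

/-!
M6, part H: the law of the messages in a cone.
-/

set_option autoImplicit false
set_option linter.unusedVariables false

open MeasureTheory Filter Topology

namespace Crest.Agent.FreeIs.Lim

open Crest.Agent.FreeIs Crest.Agent.FreeIs.Rec

variable {q : ℕ}

/-! ### integrating out everything outside the cone -/

/-- independence of functions of disjoint blocks -/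
theorem indep_mul {π : Measure ℝ} {τ : ℝ} (hπ : SiteLaw π τ) (A : Set (W q))
    {f g : (W q → ℝ) → ℝ} (hf : Measurable f) (hg : Measurable g)
    (hfA : ∀ t t' : W q → ℝ, (∀ w ∈ A, t w = t' w) → f t = f t')
    (hgB : ∀ t t' : W q → ℝ, (∀ w, w ∉ A → t w = t' w) → g t = g t')
    {K L : ℝ} (hfK : ∀ t, (∀ w, |t w| < 1) → |f t| ≤ K) (hgL : ∀ t, (∀ w, |t w| < 1) → |g t| ≤ L) :
    ∫ t, f t * g t ∂(Measure.infinitePi (fun _ : W q => π))
      = (∫ t, f t ∂(Measure.infinitePi (fun _ : W q => π)))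
        * ∫ t, g t ∂(Measure.infinitePi (fun _ : W q => π)) := by
  have := hπ.prob
  have hm : Measurable (Function.uncurry fun (t s : W q → ℝ) => f t * g s) :=
    (hf.comp measurable_fst).mul (hg.comp measurable_snd)
  have h := decouple (π := π) A (H := fun t s => f t * g s) hm
    (fun t t' s h => by simp only [hfA t t' h]) (fun t s s' h => by simp only [hgB s s' h])
    (hπ.integrable_cube2 hm (K := K * L) (fun t s ht hs => by
      rw [abs_mul]
      exact mul_le_mul (hfK t ht) (hgL s hs) (abs_nonneg _) ((abs_nonneg _).trans (hfK t ht))))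
  rw [h]
  simp only [integral_const_mul]
  rw [integral_mul_const]

/-- the ball minus the cone -/
noncomputable def outC (i : Fin (q + 1)) (N : ℕ) : Finset (W q) :=
  wball q (1 + N) \ wcone (toW [i]) N

theorem val1 (i : Fin (q + 1)) : (toW [i]).1 = [i] := toW_val (List.isChain_singleton i)

theorem wcone_eq (i : Fin (q + 1)) (N : ℕ) :
    wcone (toW [i]) N = below (wball q (1 + N)) (toW [i]) := by
  unfold wcone
  rw [val1]
  rfl

theorem out_union (i : Fin (q + 1)) (N : ℕ) :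
    outC i N ∪ wcone (toW [i]) N = wball q (1 + N) := by
  unfold outC
  rw [wcone_eq]
  exact sdiff_union_below _ _

theorem Zf_split (θ : ℝ) (i : Fin (q + 1)) (N : ℕ) (t : W q → ℝ) :
    Zf (WG q) θ (wball q (1 + N)) t
      = Zf (WG q) θ (outC i N) t * Zf (WG q) θ (wcone (toW [i]) N) t
        + gexp (WG q) θ (outC i N) t (fun P => spin P (wroot q))
          * (θ * gexp (WG q) θ (wcone (toW [i]) N) t (fun P => spin P (toW [i]))) := by
  have hw : (toW [i]).1 = (wroot q).1 ++ [i] := val1 i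
  have hx : wroot q ∈ outC i N := by
    unfold outC
    rw [Finset.mem_sdiff, mem_wball]
    refine ⟨by simp [wroot], ?_⟩
    rw [wcone_eq, mem_below, val1]
    rintro ⟨_, h⟩
    have := h.length_le
    simp [wroot] at this
  have hy : toW [i] ∈ wcone (toW [i]) N := by
    rw [wcone_eq, mem_below, mem_wball, val1]
    exact ⟨by simp, List.prefix_refl _⟩
  have hc : ∀ a ∈ outC i N, ∀ b ∈ wcone (toW [i]) N, (WG q).Adj a b → a = wroot q ∧ b = toW [i] := by
    intro a ha b hb hab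
    refine cross_aux (v := a) hw ?_ ?_ hab
    · unfold outC at ha
      rw [Finset.mem_sdiff, wcone_eq, mem_below] at ha
      intro h
      exact ha.2 ⟨ha.1, h⟩
    · rw [wcone_eq, mem_below] at hb
      exact hb.2
  have h := gexp_cut (WG q) (θ := θ) (A := outC i N) (B := wcone (toW [i]) N)
    Finset.sdiff_disjoint hx hy (adj_concat hw) hc t (fun _ => 1) (fun _ => 1)
    (fun _ => rfl) (fun _ => rfl)
  rw [out_union] at h
  simp only [one_mul] at h
  unfold Zf
  rw [h]
  ring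

theorem gexp_spin_le {θ : ℝ} (h0 : 0 ≤ θ) (h1 : θ < 1) (Λ : Finset (W q)) {t : W q → ℝ}
    (ht : ∀ v, |t v| < 1) (v : W q) :
    |gexp (WG q) θ Λ t (fun P => spin P v)| ≤ Zf (WG q) θ Λ t :=
  Samp.abs_gexp_le (WG q) (by rwa [abs_of_nonneg h0]) Λ ht (fun P => (Samp.abs_spin P v).le)

theorem int_spin_zero {π : Measure ℝ} {τ : ℝ} (hπ : SiteLaw π τ) (θ : ℝ) (Λ : Finset (W q))
    {v : W q} (hv : v ∈ Λ) :
    ∫ t, gexp (WG q) θ Λ t (fun P => spin P v) ∂(Measure.infinitePi (fun _ : W q => π)) = 0 := by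
  have h := hπ.integral_flip (ι := W q) (fun t => gexp (WG q) θ Λ t (fun P => spin P v))
  have e : ∀ t : W q → ℝ, gexp (WG q) θ Λ (fun v => - t v) (fun P => spin P v)
      = - gexp (WG q) θ Λ t (fun P => spin P v) := by
    intro t
    rw [gexp_neg]
    simp only [spin_sdiff hv]
    have := gexp_smul (WG q) θ Λ t (-1) (fun P => spin P v)
    simp only [neg_mul, one_mul] at this
    exact this
  simp only [e] at h
  rw [integral_neg] at h
  linarith

theorem int_Zf_one {θ : ℝ} (h0 : 0 ≤ θ) (h1 : θ < 1) (Λ : Finset (W q)) (j : ℕ) {r : ℝ}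
    (hr0 : 0 ≤ r) (hr : r ≤ 1) :
    ∫ t, Zf (WG q) θ Λ t ∂(Measure.infinitePi (fun _ : W q => siteL j r)) = 1 := by
  have h := law_fin h0 h1 Λ j hr0 hr (fun _ => 1) measurable_const ⟨1, fun _ => by simp⟩
    (fun _ _ _ => rfl)
  simp only [one_mul] at h
  rw [← h]
  simp

theorem marg {θ : ℝ} (h0 : 0 ≤ θ) (h1 : θ < 1) (j : ℕ) {r : ℝ} (hr0 : 0 ≤ r) (hr : r ≤ 1)
    (i : Fin (q + 1)) (N : ℕ) {Φ : (W q → ℝ) → ℝ} (hΦ : Measurable Φ) {K : ℝ}
    (hK : ∀ t, |Φ t| ≤ K)
    (hd : ∀ t t' : W q → ℝ, (∀ v ∈ wcone (toW [i]) N, t v = t' v) → Φ t = Φ t') :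
    ∫ t, Φ t * Zf (WG q) θ (wball q (1 + N)) t ∂(Measure.infinitePi (fun _ : W q => siteL j r))
      = ∫ t, Φ t * Zf (WG q) θ (wcone (toW [i]) N) t
          ∂(Measure.infinitePi (fun _ : W q => siteL j r)) := by
  obtain ⟨τ, hτ⟩ := site_law j
  have hπ := hτ r hr0 hr
  have := hπ.prob
  generalize hπe : siteL j r = π at *
  have hK0 : 0 ≤ K := (abs_nonneg _).trans (hK fun _ => 0)
  obtain ⟨ZA, hZA⟩ := Zf_bdd (WG q) h0 h1.le (outC i N)
  obtain ⟨ZB, hZB⟩ := Zf_bdd (WG q) h0 h1.le (wcone (toW [i]) N)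
  obtain ⟨A, hA⟩ : ∃ A : Set (W q), A = (outC i N : Set (W q)) := ⟨_, rfl⟩
  have hAc : ∀ v ∈ wcone (toW [i]) N, v ∉ A := by
    intro v hv hvA
    rw [hA] at hvA
    exact (Finset.mem_sdiff.1 (Finset.mem_coe.1 hvA)).2 hv
  have bB : ∀ t : W q → ℝ, (∀ w, |t w| < 1) → |Zf (WG q) θ (wcone (toW [i]) N) t| ≤ ZB :=
    fun t ht => hZB t fun v _ => (ht v).le
  have bA : ∀ t : W q → ℝ, (∀ w, |t w| < 1) → |Zf (WG q) θ (outC i N) t| ≤ ZA :=
    fun t ht => hZA t fun v _ => (ht v).le
  have e1 := indep_mul hπ A (f := fun t => Zf (WG q) θ (outC i N) t)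
    (g := fun t => Φ t * Zf (WG q) θ (wcone (toW [i]) N) t)
    (measurable_Zf (WG q) θ _) (hΦ.mul (measurable_Zf (WG q) θ _))
    (fun t t' h => Zf_congr (WG q) θ (fun v hv => h v (by rw [hA]; exact hv)))
    (fun t t' h => by
      have h2 : ∀ v ∈ wcone (toW [i]) N, t v = t' v := fun v hv => h v (hAc v hv)
      simp only [hd t t' h2, Zf_congr (WG q) θ h2])
    (K := ZA) (L := K * ZB) bA
    (fun t ht => by
      rw [abs_mul]
      exact mul_le_mul (hK t) (bB t ht) (abs_nonneg _) hK0)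
  have e2 := indep_mul hπ A (f := fun t => gexp (WG q) θ (outC i N) t (fun P => spin P (wroot q)))
    (g := fun t => Φ t * (θ * gexp (WG q) θ (wcone (toW [i]) N) t (fun P => spin P (toW [i]))))
    (measurable_gexp (WG q) θ _ _) (hΦ.mul ((measurable_gexp (WG q) θ _ _).const_mul θ))
    (fun t t' h => gexp_congr (WG q) θ (fun v hv => h v (by rw [hA]; exact hv)) _)
    (fun t t' h => by
      have h2 : ∀ v ∈ wcone (toW [i]) N, t v = t' v := fun v hv => h v (hAc v hv)
      simp only [hd t t' h2, gexp_congr (WG q) θ h2])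
    (K := ZA) (L := K * (θ * ZB))
    (fun t ht => (gexp_spin_le h0 h1 _ ht _).trans ((le_abs_self _).trans (bA t ht)))
    (fun t ht => by
      rw [abs_mul, abs_mul, abs_of_nonneg h0]
      refine mul_le_mul (hK t) (mul_le_mul_of_nonneg_left ?_ h0) (by positivity) hK0
      exact (gexp_spin_le h0 h1 _ ht _).trans ((le_abs_self _).trans (bB t ht)))
  have hroot : wroot q ∈ outC i N := by
    unfold outC
    rw [Finset.mem_sdiff, mem_wball]
    refine ⟨by simp [wroot], ?_⟩
    rw [wcone_eq, mem_below, val1]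
    rintro ⟨_, h⟩
    have := h.length_le
    simp [wroot] at this
  rw [int_spin_zero hπ θ _ hroot, zero_mul] at e2
  have e3 : ∫ t, Zf (WG q) θ (outC i N) t ∂(Measure.infinitePi (fun _ : W q => π)) = 1 := by
    rw [← hπe]
    exact int_Zf_one h0 h1 _ j hr0 hr
  rw [e3, one_mul] at e1
  rw [← e1]
  have hi1 : Integrable (fun t => Zf (WG q) θ (outC i N) t
      * (Φ t * Zf (WG q) θ (wcone (toW [i]) N) t)) (Measure.infinitePi (fun _ : W q => π)) := by
    refine hπ.integrable_cube ((measurable_Zf (WG q) θ _).mul (hΦ.mul (measurable_Zf (WG q) θ _)))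
      (K := ZA * (K * ZB)) fun t ht => ?_
    rw [abs_mul, abs_mul]
    exact mul_le_mul (bA t ht) (mul_le_mul (hK t) (bB t ht) (abs_nonneg _) hK0) (by positivity)
      ((abs_nonneg _).trans (bA t ht))
  have hi2 : Integrable (fun t => gexp (WG q) θ (outC i N) t (fun P => spin P (wroot q))
      * (Φ t * (θ * gexp (WG q) θ (wcone (toW [i]) N) t (fun P => spin P (toW [i])))))
      (Measure.infinitePi (fun _ : W q => π)) := by
    refine hπ.integrable_cube ((measurable_gexp (WG q) θ _ _).mul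
      (hΦ.mul ((measurable_gexp (WG q) θ _ _).const_mul θ)))
      (K := ZA * (K * (θ * ZB))) fun t ht => ?_
    rw [abs_mul, abs_mul, abs_mul, abs_of_nonneg h0]
    have b1 := (gexp_spin_le h0 h1 (outC i N) ht (wroot q)).trans
      ((le_abs_self _).trans (bA t ht))
    have b2 := (gexp_spin_le h0 h1 (wcone (toW [i]) N) ht (toW [i])).trans
      ((le_abs_self _).trans (bB t ht))
    exact mul_le_mul b1 (mul_le_mul (hK t) (mul_le_mul_of_nonneg_left b2 h0) (by positivity) hK0)
      (by positivity) ((abs_nonneg _).trans b1)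
  have e4 : ∫ t, Φ t * Zf (WG q) θ (wball q (1 + N)) t ∂(Measure.infinitePi (fun _ : W q => π))
      = ∫ t, (Zf (WG q) θ (outC i N) t * (Φ t * Zf (WG q) θ (wcone (toW [i]) N) t)
        + gexp (WG q) θ (outC i N) t (fun P => spin P (wroot q))
      * (Φ t * (θ * gexp (WG q) θ (wcone (toW [i]) N) t (fun P => spin P (toW [i])))))
        ∂(Measure.infinitePi (fun _ : W q => π)) := by
    refine integral_congr_ae (Eventually.of_forall fun t => ?_)
    simp only
    rw [Zf_split θ i N t]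
    ring
  rw [e4, integral_add hi1 hi2, e2, add_zero]

/-! ### convergence of the messages -/

theorem msgW_concat (θ : ℝ) (M : Lab (W q) → ℝ) (l : List (Fin (q + 1))) (a : Fin (q + 1))
    (ω : Lab (W q)) : msgW θ M (l ++ [a]) ω = cav θ (atW M l ω) (atW M (l ++ [a]) ω) := by
  induction l generalizing ω with
  | nil => rfl
  | cons b l ih =>
    obtain ⟨c, l', hl'⟩ : ∃ c l', l ++ [a] = c :: l' := by
      cases l with
      | nil => exact ⟨a, [], rfl⟩
      | cons c l => exact ⟨c, l ++ [a], rfl⟩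
    have e : msgW θ M (b :: l ++ [a]) ω = msgW θ M (l ++ [a]) (sh b ω) := by
      rw [List.cons_append, hl']
      rfl
    rw [e, ih]
    rfl

theorem below_cone {i : Fin (q + 1)} {N : ℕ} {w : W q} (hw : [i] <+: w.1) :
    below (wcone (toW [i]) N) w = below (wball q (1 + N)) w := by
  ext x
  rw [mem_below, mem_below, wcone_eq, mem_below, val1]
  constructor
  · rintro ⟨⟨h1, _⟩, h3⟩
    exact ⟨h1, h3⟩
  · rintro ⟨h1, h3⟩
    exact ⟨⟨h1, hw.trans h3⟩, h3⟩

theorem cmsg_lim {θ : ℝ} (h0 : 0 ≤ θ) (h1 : θ < 1) {j : ℕ} {r : ℝ} (hr : r ≤ 1)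
    {ω : Lab (W q)} (hω : Cv θ j r ω) {i : Fin (q + 1)} {w : W q} (hw : [i] <+: w.1) :
    Tendsto (fun N => cmsg θ i N (st (WG q) θ (wball q (1 + N)) ω j r) w) atTop
      (𝓝 (msgW θ (Mr q θ j r) w.1 ω)) := by
  have hne : w ≠ wroot q := by
    intro h
    rw [h] at hw
    have := hw.length_le
    simp [wroot] at this
  obtain ⟨u, a, hu⟩ := concat_of_ne_root hne
  have t1 := (edge_lim h0 h1 hr hω hu).1
  have e1 : msgW θ (Mr q θ j r) w.1 ω
      = cav θ (atW (Mr q θ j r) u.1 ω) (atW (Mr q θ j r) w.1 ω) := by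
    rw [hu, msgW_concat]
  rw [e1]
  have t2 := t1.comp (tendsto_add_atTop_nat 1)
  refine t2.congr fun N => ?_
  simp only [Function.comp_apply]
  unfold cmsg
  rw [below_cone hw, add_comm N 1]

theorem cone_law' (HP : PairFin q) (hq : 2 ≤ q) {θ : ℝ} (h0 : 0 ≤ θ) (h1 : q * θ ^ 2 < 1)
    (j : ℕ) {r : ℝ} (hr0 : 0 ≤ r) (hr : r ≤ 1) (i : Fin (q + 1)) (K : ℕ) (F : (W q → ℝ) → ℝ)
    (hF : Continuous F) (hFb : ∃ B, ∀ x, |F x| ≤ B)
    (hFd : ∀ x y : W q → ℝ, (∀ w ∈ wcone (toW [i]) K, x w = y w) → F x = F y) :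
    Tendsto (fun N => coneE θ (siteL j r) i N fun t => F (cmsg θ i N t)) atTop
      (𝓝 (∫ ω, F (fun w => msgW θ (Mr q θ j r) w.1 ω) ∂(labP (W q)))) := by
  classical
  have hθ1 := theta_lt_one hq h1.le
  obtain ⟨B, hB⟩ := hFb
  have hmc : ∀ N, Measurable fun t : W q → ℝ => F (cmsg θ i N t) := fun N =>
    hF.measurable.comp (measurable_pi_lambda _ fun w => measurable_cmsg i N w)
  have hcc : ∀ N (t t' : W q → ℝ), (∀ v ∈ wcone (toW [i]) N, t v = t' v) →
      F (cmsg θ i N t) = F (cmsg θ i N t') := by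
    intro N t t' h
    congr 1
    funext w
    exact cmsg_congr θ i N h w
  have hsub : ∀ N, wcone (toW [i]) N ⊆ wball q (1 + N) := by
    intro N
    rw [wcone_eq]
    exact below_subset _ _
  have e1 : ∀ N, (coneE θ (siteL j r) i N fun t => F (cmsg θ i N t))
      = ∫ ω, F (cmsg θ i N (st (WG q) θ (wball q (1 + N)) ω j r)) ∂(labP (W q)) := by
    intro N
    unfold coneE
    rw [← marg h0 hθ1 j hr0 hr i N (hmc N) (fun t => hB _) (hcc N)]
    exact (law_fin h0 hθ1 (wball q (1 + N)) j hr0 hr (fun t => F (cmsg θ i N t)) (hmc N)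
      ⟨B, fun t => hB _⟩ (fun t t' h => hcc N t t' fun v hv => h v (hsub N hv))).symm
  simp only [e1]
  refine tendsto_integral_of_dominated_convergence (fun _ => B) (fun N => ?_)
    (integrable_const _) (fun N => Eventually.of_forall fun ω => ?_) ?_
  · exact ((hmc N).comp (Samp.st_measurable (WG q) θ _ j r)).aestronglyMeasurable
  · rw [Real.norm_eq_abs]
    exact hB _
  · filter_upwards [Mf_all_ae HP hq h0 h1 j hr0 hr] with ω hω
    obtain ⟨tr, htr⟩ : ∃ tr : (W q → ℝ) → W q → ℝ, tr = fun x w =>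
      if w ∈ wcone (toW [i]) K then x w else 0 := ⟨_, rfl⟩
    have hFt : ∀ x, F x = F (tr x) := by
      intro x
      refine hFd _ _ fun w hw => ?_
      rw [htr]
      simp only [if_pos hw]
    rw [hFt]
    have e2 : ∀ N, F (cmsg θ i N (st (WG q) θ (wball q (1 + N)) ω j r))
        = F (tr (cmsg θ i N (st (WG q) θ (wball q (1 + N)) ω j r))) := fun N => hFt _
    simp only [e2]
    refine (hF.tendsto _).comp ?_
    rw [tendsto_pi_nhds]
    intro w
    rw [htr]
    by_cases hw : w ∈ wcone (toW [i]) K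
    · simp only [if_pos hw]
      rw [wcone_eq, mem_below, val1] at hw
      exact cmsg_lim h0 hθ1 hr hω hw.2
    · simp only [if_neg hw]
      exact tendsto_const_nhds

end Crest.Agent.FreeIs.Lim
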