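import Crest.Agent.FreeIs.Comb

/-! # Module M4 of S0241: the recursion `msgLaw` of measures on `ℝ` -/

set_option autoImplicit false
set_option linter.unusedVariables false

open MeasureTheory Filter Topology Set

namespace Crest.Agent.FreeIs

namespace Mom

/-! ### Elementary facts -/

lemma one_add_mul_pos {p q : ℝ} (hp : |p| < 1) (hq : |q| < 1) : 0 < 1 + p * q :=
  ein_den_pos (τ := |p|) (τ' := 1) le_rfl hq.le hp le_rfl

lemma theta_le {q : ℕ} (hq : 2 ≤ q) {θ : ℝ} (h0 : 0 ≤ θ) (h1 : q * θ ^ 2 ≤ 1) : θ ≤ 3 / 4 := by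
  by_contra h
  push Not at h
  have hq' : (2:ℝ) ≤ q := by exact_mod_cast hq
  have h2 : (3/4:ℝ) ^ 2 ≤ θ ^ 2 := pow_le_pow_left₀ (by norm_num) h.le 2
  nlinarith [mul_le_mul hq' h2 (by positivity) (by positivity)]

/-- Measurable functions bounded on `[-τ, τ]` for all `τ < 1`. -/
structure Nice (F : ℝ → ℝ) : Prop where
  meas : Measurable F
  bd : ∀ τ < 1, ∃ K, ∀ x, |x| ≤ τ → |F x| ≤ K

lemma Nice.integrable {F : ℝ → ℝ} (hF : Nice F) {π : Measure ℝ} {τ : ℝ} (h : SiteLaw π τ) :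
    Integrable F π := by
  obtain ⟨K, hK⟩ := hF.bd τ h.lt
  exact h.integrable hF.meas hK

lemma nice_of_continuous {F : ℝ → ℝ} (hF : Continuous F) : Nice F where
  meas := hF.measurable
  bd := by
    intro τ hτ
    obtain ⟨K, hK⟩ := (isCompact_Icc (a := -(1:ℝ)) (b := 1)).exists_bound_of_continuousOn
      hF.continuousOn
    refine ⟨K, fun x hx => ?_⟩
    have := abs_le.1 hx
    exact hK x ⟨by linarith, by linarith⟩

lemma integrable_prod_cont {π ρ : Measure ℝ} {a b : ℝ} (hπ : SiteLaw π a)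
    (hρ : SiteLaw ρ b) {G : ℝ × ℝ → ℝ} (hG : Continuous G) :
    Integrable G (π.prod ρ) := by
  obtain ⟨K, hK⟩ := ((isCompact_Icc (a := -(1:ℝ)) (b := 1)).prod
    (isCompact_Icc (a := -(1:ℝ)) (b := 1))).exists_bound_of_continuousOn hG.continuousOn
  refine hπ.integrable_prod hρ hG.measurable (K := K) fun x y h1 h2 => ?_
  have h1' := abs_le.1 h1
  have h2' := abs_le.1 h2
  have := hπ.lt
  have := hρ.lt
  exact hK (x, y) ⟨⟨by linarith, by linarith⟩, ⟨by linarith, by linarith⟩⟩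

/-- Symmetrised integrand. -/
noncomputable def sym (F : ℝ → ℝ) (p r : ℝ) : ℝ :=
  ((1 + p * r) * F (ein p r) + (1 - p * r) * F (ein p (-r))) / 2

lemma measurable_sym {F : ℝ → ℝ} (hF : Measurable F) :
    Measurable fun z : ℝ × ℝ => sym F z.1 z.2 := by
  unfold sym
  have h1 : Measurable fun z : ℝ × ℝ => F (ein z.1 z.2) := hF.comp measurable_ein
  have h2 : Measurable fun z : ℝ × ℝ => F (ein z.1 (-z.2)) := by
    have h3 : Measurable fun z : ℝ × ℝ => ein z.1 (-z.2) := by unfold ein; fun_prop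
    exact hF.comp h3
  exact (((by fun_prop : Measurable fun z : ℝ × ℝ => 1 + z.1 * z.2).mul h1).add
    ((by fun_prop : Measurable fun z : ℝ × ℝ => 1 - z.1 * z.2).mul h2)).div_const 2

lemma sym_bound {F : ℝ → ℝ} (hF : Nice F) {a b : ℝ} (ha0 : 0 ≤ a) (hb0 : 0 ≤ b)
    (ha : a < 1) (hb : b < 1) : ∃ K, ∀ x y : ℝ, |x| ≤ a → |y| ≤ b → |sym F x y| ≤ K := by
  obtain ⟨K, hK⟩ := hF.bd _ (ein_tau_lt ha0 ha hb0 hb)
  refine ⟨2 * K, fun x y hx hy => ?_⟩
  have h1 := hK _ (ein_abs_le hx hy ha hb)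
  have h2 := hK _ (ein_abs_le hx (by rwa [abs_neg] : |(-y)| ≤ b) ha hb)
  have h3 : |x * y| ≤ 1 := by
    rw [abs_mul]
    exact mul_le_one₀ (hx.trans ha.le) (abs_nonneg _) (hy.trans hb.le)
  have h4 := abs_le.1 h3
  have h5 : |1 + x * y| ≤ 2 := by rw [abs_le]; constructor <;> linarith
  have h6 : |1 - x * y| ≤ 2 := by rw [abs_le]; constructor <;> linarith
  have h7 : |(1 + x * y) * F (ein x y)| ≤ 2 * K := by
    rw [abs_mul]; exact mul_le_mul h5 h1 (abs_nonneg _) (by norm_num)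
  have h8 : |(1 - x * y) * F (ein x (-y))| ≤ 2 * K := by
    rw [abs_mul]; exact mul_le_mul h6 h2 (abs_nonneg _) (by norm_num)
  have h9 := abs_le.1 h7
  have h10 := abs_le.1 h8
  unfold sym
  rw [abs_le]
  constructor <;> linarith

lemma integrable_sym {π ρ : Measure ℝ} {a b : ℝ} (hπ : SiteLaw π a) (hρ : SiteLaw ρ b)
    {F : ℝ → ℝ} (hF : Nice F) : Integrable (fun z : ℝ × ℝ => sym F z.1 z.2) (π.prod ρ) := by
  obtain ⟨K, hK⟩ := sym_bound hF hπ.nonneg hρ.nonneg hπ.lt hρ.lt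
  exact hπ.integrable_prod hρ (measurable_sym hF.meas) (K := K) hK

lemma map_prod_neg_snd {π ρ : Measure ℝ} {a b : ℝ} (hπ : SiteLaw π a) (hρ : SiteLaw ρ b) :
    (π.prod ρ).map (fun z : ℝ × ℝ => (z.1, -z.2)) = π.prod ρ := by
  have := hπ.prob
  have := hρ.prob
  have h2 := Measure.map_prod_map π ρ (measurable_id (α := ℝ)) (measurable_neg (G := ℝ))
  have h4 : ρ.map (Neg.neg : ℝ → ℝ) = ρ := hρ.symm
  rw [h4, Measure.map_id] at h2
  exact h2.symm

/-- The symmetrised formula: no cancellation left. -/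
lemma comb_symm {π ρ : Measure ℝ} {a b : ℝ} (hπ : SiteLaw π a) (hρ : SiteLaw ρ b)
    {F : ℝ → ℝ} (hF : Nice F) :
    ∫ x, F x ∂(comb π ρ) = ∫ z, sym F z.1 z.2 ∂(π.prod ρ) := by
  have hm : Measurable fun z : ℝ × ℝ => (1 + z.1 * z.2) * F (ein z.1 z.2) :=
    (by fun_prop : Measurable fun z : ℝ × ℝ => 1 + z.1 * z.2).mul (hF.meas.comp measurable_ein)
  have hi : Integrable (fun z : ℝ × ℝ => (1 + z.1 * z.2) * F (ein z.1 z.2)) (π.prod ρ) := by
    obtain ⟨K, hK⟩ := hF.bd _ (ein_tau_lt hπ.nonneg hπ.lt hρ.nonneg hρ.lt)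
    refine hπ.integrable_prod hρ hm (K := 2 * K) fun x y hx hy => ?_
    have h1 := hK _ (ein_abs_le hx hy hπ.lt hρ.lt)
    have h3 : |x * y| ≤ 1 := by
      rw [abs_mul]
      exact mul_le_one₀ (hx.trans hπ.lt.le) (abs_nonneg _) (hy.trans hρ.lt.le)
    have h4 := abs_le.1 h3
    have h5 : |1 + x * y| ≤ 2 := by rw [abs_le]; constructor <;> linarith
    rw [abs_mul]; exact mul_le_mul h5 h1 (abs_nonneg _) (by norm_num)
  have h1 : ∫ z : ℝ × ℝ, (1 - z.1 * z.2) * F (ein z.1 (-z.2)) ∂(π.prod ρ) =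
      ∫ z : ℝ × ℝ, (1 + z.1 * z.2) * F (ein z.1 z.2) ∂(π.prod ρ) := by
    conv_rhs => rw [← map_prod_neg_snd hπ hρ]
    rw [integral_map (by fun_prop) hm.aestronglyMeasurable]
    refine integral_congr_ae (Eventually.of_forall fun z => ?_)
    simp only
    ring_nf
  have hi2 : Integrable (fun z : ℝ × ℝ => (1 - z.1 * z.2) * F (ein z.1 (-z.2))) (π.prod ρ) := by
    have h3 : Integrable (fun z : ℝ × ℝ => (1 + z.1 * z.2) * F (ein z.1 z.2))
        ((π.prod ρ).map (fun z : ℝ × ℝ => (z.1, -z.2))) := by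
      rw [map_prod_neg_snd hπ hρ]; exact hi
    have h4 := (integrable_map_measure hm.aestronglyMeasurable (by fun_prop)).1 h3
    refine h4.congr (Eventually.of_forall fun z => ?_)
    simp only [Function.comp]
    ring_nf
  rw [integral_comb hπ hρ hF.meas]
  unfold sym
  rw [integral_div, integral_add hi hi2, h1]
  ring

/-- comparison principle -/
lemma comb_le_of {π ρ : Measure ℝ} {a b : ℝ} (hπ : SiteLaw π a) (hρ : SiteLaw ρ b)
    {F : ℝ → ℝ} (hF : Nice F) {G : ℝ × ℝ → ℝ} (hG : Integrable G (π.prod ρ))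
    (h : ∀ p r : ℝ, |p| ≤ a → |r| ≤ b → sym F p r ≤ G (p, r)) :
    ∫ x, F x ∂(comb π ρ) ≤ ∫ z, G z ∂(π.prod ρ) := by
  rw [comb_symm hπ hρ hF]
  refine integral_mono_ae (integrable_sym hπ hρ hF) hG ?_
  filter_upwards [hπ.ae_prod hρ] with z hz
  exact h z.1 z.2 hz.1 hz.2

lemma le_comb_of {π ρ : Measure ℝ} {a b : ℝ} (hπ : SiteLaw π a) (hρ : SiteLaw ρ b)
    {F : ℝ → ℝ} (hF : Nice F) {G : ℝ × ℝ → ℝ} (hG : Integrable G (π.prod ρ))
    (h : ∀ p r : ℝ, |p| ≤ a → |r| ≤ b → G (p, r) ≤ sym F p r) :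
    ∫ z, G z ∂(π.prod ρ) ≤ ∫ x, F x ∂(comb π ρ) := by
  rw [comb_symm hπ hρ hF]
  refine integral_mono_ae hG (integrable_sym hπ hρ hF) ?_
  filter_upwards [hπ.ae_prod hρ] with z hz
  exact h z.1 z.2 hz.1 hz.2

/-! ### Uniform bounds of the supports -/

lemma scale_site {μ : Measure ℝ} {σ θ : ℝ} (hμ : SiteLaw μ σ) (h0 : 0 ≤ θ) (h1 : θ ≤ 3 / 4) :
    SiteLaw (μ.map (fun m => θ * m)) (3 / 4) := by
  refine (hμ.scale h0 (h1.trans (by norm_num))).mono ?_ (by norm_num)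
  calc θ * σ ≤ θ * 1 := mul_le_mul_of_nonneg_left hμ.lt.le h0
    _ ≤ 3 / 4 := by rw [mul_one]; exact h1

lemma iter_site {π ρ : Measure ℝ} {τ : ℝ} (hπ : SiteLaw π τ) (hρ : SiteLaw ρ (3 / 4)) (k : ℕ) :
    SiteLaw ((fun μ => comb μ ρ)^[k] π) ((fun x : ℝ => (x + 3 / 4) / (1 + x * (3 / 4)))^[k] τ) := by
  induction k with
  | zero => exact hπ
  | succ k ih =>
    rw [Function.iterate_succ_apply', Function.iterate_succ_apply']
    exact ih.comb hρ

lemma bb_mono {τ : ℝ} (h0 : 0 ≤ τ) (h1 : τ < 1) (k l : ℕ) (hkl : k ≤ l) :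
    (fun x : ℝ => (x + 3 / 4) / (1 + x * (3 / 4)))^[k] τ ≤
      (fun x : ℝ => (x + 3 / 4) / (1 + x * (3 / 4)))^[l] τ := by
  have hb : ∀ k : ℕ, 0 ≤ (fun x : ℝ => (x + 3 / 4) / (1 + x * (3 / 4)))^[k] τ ∧
      (fun x : ℝ => (x + 3 / 4) / (1 + x * (3 / 4)))^[k] τ < 1 := by
    intro k
    induction k with
    | zero => exact ⟨h0, h1⟩
    | succ k ih =>
      rw [Function.iterate_succ_apply']
      exact ⟨by have := ih.1; positivity, ein_tau_lt ih.1 ih.2 (by norm_num) (by norm_num)⟩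
  have hstep : ∀ k : ℕ, (fun x : ℝ => (x + 3 / 4) / (1 + x * (3 / 4)))^[k] τ ≤
      (fun x : ℝ => (x + 3 / 4) / (1 + x * (3 / 4)))^[k + 1] τ := by
    intro k
    rw [Function.iterate_succ_apply']
    obtain ⟨h2, h3⟩ := hb k
    set y := (fun x : ℝ => (x + 3 / 4) / (1 + x * (3 / 4)))^[k] τ
    show y ≤ (y + 3 / 4) / (1 + y * (3 / 4))
    rw [le_div_iff₀ (by positivity)]
    nlinarith
  exact monotone_nat_of_le_succ hstep hkl

end Mom

open Mom

theorem msg_site {q : ℕ} (hq : 2 ≤ q) {π : Measure ℝ} {τ : ℝ} (hπ : SiteLaw π τ) :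
    ∃ τ' : ℝ, ∀ θ : ℝ, 0 ≤ θ → q * θ ^ 2 ≤ 1 → ∀ N, SiteLaw (msgLaw q θ π N) τ' ∧ SiteLaw (muLaw q θ π N) τ' := by
  refine ⟨(fun x : ℝ => (x + 3 / 4) / (1 + x * (3 / 4)))^[q] τ, fun θ h0 h1 N => ?_⟩
  have hθ := theta_le hq h0 h1
  have hθ1 : θ ≤ 1 := hθ.trans (by norm_num)
  -- the case of any number of children
  have hgen : ∀ (N k : ℕ), k ≤ q →
      SiteLaw ((fun μ => comb μ ((msgLaw q θ π N).map (fun m => θ * m)))^[k] π)
        ((fun x : ℝ => (x + 3 / 4) / (1 + x * (3 / 4)))^[q] τ) := by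
    intro N k hk
    obtain ⟨σ, hσ⟩ := msgLaw_site q h0 hθ1 hπ N
    have hρ := scale_site hσ h0 hθ
    have hq1 := iter_site hπ hρ q
    exact (iter_site hπ hρ k).mono (bb_mono hπ.nonneg hπ.lt k q hk) hq1.lt
  refine ⟨?_, hgen N (q - 1) (by omega)⟩
  cases N with
  | zero => exact hgen 0 0 (by omega)
  | succ N => exact hgen N q le_rfl

namespace Mom

/-! ### Convex order -/

/-- Test functions. -/
structure Cx (F : ℝ → ℝ) : Prop where
  cx : ConvexOn ℝ (Set.Ioo (-1) 1) F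
  even : ∀ x, F (-x) = F x
  meas : Measurable F

lemma Cx.nice {F : ℝ → ℝ} (hF : Cx F) : Nice F where
  meas := hF.meas
  bd := by
    intro τ hτ
    have hc : ContinuousOn F (Icc (-τ) τ) :=
      (hF.cx.continuousOn isOpen_Ioo).mono fun x hx => ⟨by linarith [hx.1], by linarith [hx.2]⟩
    obtain ⟨K, hK⟩ := isCompact_Icc.exists_bound_of_continuousOn hc
    refine ⟨K, fun x hx => ?_⟩
    have := abs_le.1 hx
    exact hK x ⟨by linarith, by linarith⟩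

lemma cvx {F : ℝ → ℝ} (hF : ConvexOn ℝ (Set.Ioo (-1) 1) F) {x y a b : ℝ}
    (hx : x ∈ Ioo (-1:ℝ) 1) (hy : y ∈ Ioo (-1:ℝ) 1) (ha : 0 ≤ a) (hb : 0 ≤ b) (hab : a + b = 1) :
    F (a * x + b * y) ≤ a * F x + b * F y := hF.2 hx hy ha hb hab

/-- Jensen: one more observation increases convex functions. -/
lemma le_sym {F : ℝ → ℝ} (hF : Cx F) {p r : ℝ} (hp : |p| < 1) (hr : |r| < 1) : F p ≤ sym F p r := by
  have h1 : 0 < 1 + p * r := one_add_mul_pos hp hr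
  have hr' : |(-r)| < 1 := by rwa [abs_neg]
  have h2 : 0 < 1 + p * (-r) := one_add_mul_pos hp hr'
  have e1 := abs_lt.1 (ein_abs_lt hp hr)
  have e2 := abs_lt.1 (ein_abs_lt hp hr')
  have h3 := cvx hF.cx (x := ein p r) (y := ein p (-r)) (a := (1 + p * r) / 2)
    (b := (1 + p * (-r)) / 2) ⟨e1.1, e1.2⟩ ⟨e2.1, e2.2⟩ (by linarith) (by linarith) (by ring)
  have h4 : ((1 + p * r) / 2) * ein p r + ((1 + p * (-r)) / 2) * ein p (-r) = p := by
    unfold ein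
    have e3 : ∀ X Y : ℝ, 0 < X → X / 2 * (Y / X) = Y / 2 := by
      intro X Y hX
      field_simp
    rw [e3 _ _ h1, e3 _ _ h2]
    ring
  rw [h4] at h3
  unfold sym
  linarith

lemma sym_even {F : ℝ → ℝ} (hF : Cx F) (p r : ℝ) : sym F (-p) r = sym F p r := by
  unfold sym
  have h1 : ein (-p) r = - ein p (-r) := by rw [← ein_neg, neg_neg]
  have h2 : ein (-p) (-r) = - ein p r := ein_neg p r
  rw [h1, h2, hF.even, hF.even]
  ring

lemma sym_comm {F : ℝ → ℝ} (hF : Cx F) (p r : ℝ) : sym F p r = sym F r p := by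
  unfold sym
  have h1 : ein p (-r) = - ein r (-p) := by rw [← ein_neg, neg_neg, ein_comm]
  rw [h1, hF.even, ein_comm p r]
  ring

lemma persp {F : ℝ → ℝ} (hF : ConvexOn ℝ (Set.Ioo (-1) 1) F) {r : ℝ} (hr : |r| < 1) :
    ConvexOn ℝ (Set.Ioo (-1) 1) (fun p => (1 + p * r) * F (ein p r)) := by
  refine ⟨convex_Ioo _ _, fun x hx y hy a b ha hb hab => ?_⟩
  have hx' : |x| < 1 := abs_lt.2 hx
  have hy' : |y| < 1 := abs_lt.2 hy
  have hX : 0 < 1 + x * r := one_add_mul_pos hx' hr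
  have hY : 0 < 1 + y * r := one_add_mul_pos hy' hr
  have hW : 0 < a * (1 + x * r) + b * (1 + y * r) := by
    rcases ha.eq_or_lt with h | h
    · have : b = 1 := by linarith
      rw [← h, this]; linarith
    · have := mul_pos h hX
      have := mul_nonneg hb hY.le
      linarith
  have hWe : 1 + (a • x + b • y) * r = a * (1 + x * r) + b * (1 + y * r) := by
    rw [smul_eq_mul, smul_eq_mul]
    have : (1:ℝ) = a + b := hab.symm
    linear_combination (1:ℝ) * this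
  have e1 := abs_lt.1 (ein_abs_lt hx' hr)
  have e2 := abs_lt.1 (ein_abs_lt hy' hr)
  set W := a * (1 + x * r) + b * (1 + y * r) with hWdef
  have h3 := cvx hF (x := ein x r) (y := ein y r)
    (a := a * (1 + x * r) / W) (b := b * (1 + y * r) / W) ⟨e1.1, e1.2⟩ ⟨e2.1, e2.2⟩
    (div_nonneg (mul_nonneg ha hX.le) hW.le) (div_nonneg (mul_nonneg hb hY.le) hW.le)
    (by rw [← add_div]; exact div_self hW.ne')
  have h4 : (a * (1 + x * r) / W) * ein x r + (b * (1 + y * r) / W) * ein y r =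
      ein (a • x + b • y) r := by
    have h5 : ein (a • x + b • y) r = (a * (x + r) + b * (y + r)) / W := by
      unfold ein
      rw [hWe]
      congr 1
      rw [smul_eq_mul, smul_eq_mul]
      linear_combination (-r) * hab
    rw [h5]
    unfold ein
    have e3 : a * (1 + x * r) / W * ((x + r) / (1 + x * r)) = a * (x + r) / W := by
      field_simp
    have e4 : b * (1 + y * r) / W * ((y + r) / (1 + y * r)) = b * (y + r) / W := by
      field_simp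
    rw [e3, e4, ← add_div]
  rw [h4] at h3
  show (1 + (a • x + b • y) * r) * F (ein (a • x + b • y) r) ≤
    a • ((1 + x * r) * F (ein x r)) + b • ((1 + y * r) * F (ein y r))
  rw [hWe, smul_eq_mul, smul_eq_mul]
  calc W * F (ein (a • x + b • y) r) ≤ W * (a * (1 + x * r) / W * F (ein x r) +
        b * (1 + y * r) / W * F (ein y r)) := mul_le_mul_of_nonneg_left h3 hW.le
    _ = (W / W) * (a * ((1 + x * r) * F (ein x r)) + b * ((1 + y * r) * F (ein y r))) := by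
        ring
    _ = a * ((1 + x * r) * F (ein x r)) + b * ((1 + y * r) * F (ein y r)) := by
        rw [div_self hW.ne', one_mul]

lemma sym_convex {F : ℝ → ℝ} (hF : Cx F) {r : ℝ} (hr : |r| < 1) :
    ConvexOn ℝ (Set.Ioo (-1) 1) (fun p => sym F p r) := by
  have h1 := persp hF.cx hr
  have h2 := persp hF.cx (r := -r) (by rwa [abs_neg])
  have h3 := (h1.add h2).smul (c := (1/2 : ℝ)) (by norm_num)
  refine h3.congr fun p _ => ?_
  simp only [Pi.add_apply, smul_eq_mul]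
  unfold sym
  ring

/-- the averaged test function -/
lemma avg_cx {F : ℝ → ℝ} (hF : Cx F) {ρ : Measure ℝ} {b : ℝ} (hρ : SiteLaw ρ b) :
    Cx (fun p => ∫ r, sym F p r ∂ρ) where
  cx := by
    have := hρ.prob
    have hint : ∀ p : ℝ, |p| < 1 → Integrable (fun r => sym F p r) ρ := by
      intro p hp
      obtain ⟨K, hK⟩ := sym_bound hF.nice (abs_nonneg p) hρ.nonneg hp hρ.lt
      have hm : Measurable fun r => sym F p r :=
        (measurable_sym hF.meas).comp (measurable_const.prodMk measurable_id)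
      exact hρ.integrable hm fun x hx => hK p x le_rfl hx
    refine ⟨convex_Ioo _ _, fun x hx y hy a b' ha hb hab => ?_⟩
    have hx' : |x| < 1 := abs_lt.2 hx
    have hy' : |y| < 1 := abs_lt.2 hy
    have hz := (convex_Ioo (-1:ℝ) 1) hx hy ha hb hab
    have hz' : |a • x + b' • y| < 1 := abs_lt.2 hz
    simp only [smul_eq_mul]
    rw [← integral_const_mul, ← integral_const_mul, ← integral_add ((hint x hx').const_mul a)
      ((hint y hy').const_mul b')]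
    refine integral_mono_ae (hint _ hz') (((hint x hx').const_mul a).add
      ((hint y hy').const_mul b')) ?_
    filter_upwards [hρ.supp] with r hr
    exact (sym_convex hF (hr.trans_lt hρ.lt)).2 hx hy ha hb hab
  even := by
    intro x
    simp only [sym_even hF]
  meas := by
    have := hρ.prob
    exact ((measurable_sym hF.meas).stronglyMeasurable.integral_prod_right (ν := ρ)).measurable

lemma comb_avg {F : ℝ → ℝ} (hF : Cx F) {π ρ : Measure ℝ} {a b : ℝ} (hπ : SiteLaw π a)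
    (hρ : SiteLaw ρ b) : ∫ x, F x ∂(comb π ρ) = ∫ p, (∫ r, sym F p r ∂ρ) ∂π := by
  have := hπ.prob
  have := hρ.prob
  rw [comb_symm hπ hρ hF.nice, integral_prod _ (integrable_sym hπ hρ hF.nice)]

/-- `comb` is symmetric (on test functions) -/
lemma comb_swap {F : ℝ → ℝ} (hF : Cx F) {π ρ : Measure ℝ} {a b : ℝ} (hπ : SiteLaw π a)
    (hρ : SiteLaw ρ b) : ∫ x, F x ∂(comb π ρ) = ∫ x, F x ∂(comb ρ π) := by
  have := hπ.prob
  have := hρ.prob
  rw [comb_symm hπ hρ hF.nice, comb_symm hρ hπ hF.nice, ← integral_prod_swap]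
  refine integral_congr_ae (Eventually.of_forall fun z => ?_)
  simp only [Prod.fst_swap, Prod.snd_swap]
  exact sym_comm hF _ _

def LE (μ ν : Measure ℝ) : Prop := ∀ F : ℝ → ℝ, Cx F → ∫ x, F x ∂μ ≤ ∫ x, F x ∂ν

lemma LE.refl (μ : Measure ℝ) : LE μ μ := fun F _ => le_rfl

lemma LE.trans {μ ν κ : Measure ℝ} (h1 : LE μ ν) (h2 : LE ν κ) : LE μ κ :=
  fun F hF => (h1 F hF).trans (h2 F hF)

lemma comb_mono_left {π π' ρ : Measure ℝ} {a a' b : ℝ} (hπ : SiteLaw π a) (hπ' : SiteLaw π' a')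
    (hρ : SiteLaw ρ b) (h : LE π π') : LE (comb π ρ) (comb π' ρ) := by
  intro F hF
  rw [comb_avg hF hπ hρ, comb_avg hF hπ' hρ]
  exact h _ (avg_cx hF hρ)

lemma comb_mono_right {π ρ ρ' : Measure ℝ} {a b b' : ℝ} (hπ : SiteLaw π a) (hρ : SiteLaw ρ b)
    (hρ' : SiteLaw ρ' b') (h : LE ρ ρ') : LE (comb π ρ) (comb π ρ') := by
  intro F hF
  rw [comb_swap hF hπ hρ, comb_swap hF hπ hρ']
  exact comb_mono_left hρ hρ' hπ h F hF

lemma le_comb_left {π ρ : Measure ℝ} {a b : ℝ} (hπ : SiteLaw π a) (hρ : SiteLaw ρ b) :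
    LE π (comb π ρ) := by
  intro F hF
  have := hπ.prob
  have := hρ.prob
  have h1 : ∫ x, F x ∂π = ∫ z : ℝ × ℝ, F z.1 ∂(π.prod ρ) := by
    rw [integral_fun_fst (f := F)]
    simp
  rw [h1]
  refine le_comb_of hπ hρ hF.nice (G := fun z => F z.1) ?_ ?_
  · exact (hF.nice.integrable hπ).comp_fst ρ
  · intro p r hp hr
    exact le_sym hF (hp.trans_lt hπ.lt) (hr.trans_lt hρ.lt)

lemma le_comb_right {π ρ : Measure ℝ} {a b : ℝ} (hπ : SiteLaw π a) (hρ : SiteLaw ρ b) :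
    LE ρ (comb π ρ) := by
  intro F hF
  rw [comb_swap hF hπ hρ]
  exact le_comb_left hρ hπ F hF

lemma scale_cx {F : ℝ → ℝ} (hF : Cx F) {θ : ℝ} (h0 : 0 ≤ θ) (h1 : θ ≤ 1) : Cx (fun x => F (θ * x)) where
  cx := by
    refine ⟨convex_Ioo _ _, fun x hx y hy a b ha hb hab => ?_⟩
    have hmem : ∀ z ∈ Ioo (-1:ℝ) 1, θ * z ∈ Ioo (-1:ℝ) 1 := by
      intro z hz
      have hz' : |z| < 1 := abs_lt.2 hz
      have : |θ * z| < 1 := by
        rw [abs_mul, abs_of_nonneg h0]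
        calc θ * |z| ≤ 1 * |z| := mul_le_mul_of_nonneg_right h1 (abs_nonneg _)
          _ = |z| := one_mul _
          _ < 1 := hz'
      exact abs_lt.1 this
    have h2 := hF.cx.2 (hmem x hx) (hmem y hy) ha hb hab
    have h3 : θ * (a • x + b • y) = a • (θ * x) + b • (θ * y) := by
      simp only [smul_eq_mul]; ring
    show F (θ * (a • x + b • y)) ≤ _
    rw [h3]
    exact h2
  even := by
    intro x
    rw [mul_neg]
    exact hF.even _
  meas := hF.meas.comp (measurable_const_mul θ)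

lemma scale_mono {μ ν : Measure ℝ} {θ : ℝ} (h0 : 0 ≤ θ) (h1 : θ ≤ 1) (h : LE μ ν) :
    LE (μ.map (fun m => θ * m)) (ν.map (fun m => θ * m)) := by
  intro F hF
  rw [SiteLaw.integral_scale μ θ hF.meas, SiteLaw.integral_scale ν θ hF.meas]
  exact h _ (scale_cx hF h0 h1)

/-- an even convex function is monotone along rays -/
lemma cx_ray {F : ℝ → ℝ} (hF : Cx F) {x y : ℝ} (hxy : |x| ≤ |y|) (hy : |y| < 1) : F x ≤ F y := by
  rcases eq_or_ne y 0 with h | h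
  · rw [h, abs_zero] at hxy
    rw [h, abs_nonpos_iff.1 hxy]
  -- x = (1+t)/2 y + (1-t)/2 (-y), t = x/y
  have hy0 : 0 < |y| := abs_pos.2 h
  set t := x / y with ht
  have ht1 : |t| ≤ 1 := by
    rw [ht, abs_div, div_le_one hy0]; exact hxy
  have ht2 := abs_le.1 ht1
  have hyI : y ∈ Ioo (-1:ℝ) 1 := abs_lt.1 hy
  have hyI' : -y ∈ Ioo (-1:ℝ) 1 := by
    have := abs_lt.1 (by rwa [abs_neg] : |(-y)| < 1)
    exact this
  have h2 := cvx hF.cx hyI hyI' (a := (1 + t) / 2) (b := (1 - t) / 2) (by linarith) (by linarith)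
    (by ring)
  have h3 : ((1 + t) / 2) * y + ((1 - t) / 2) * (-y) = x := by
    have : t * y = x := by rw [ht]; field_simp
    linear_combination this
  rw [h3, hF.even] at h2
  linarith

lemma scale_mono_theta {μ : Measure ℝ} {σ θ θ' : ℝ} (hμ : SiteLaw μ σ) (h0 : 0 ≤ θ) (h1 : θ ≤ θ')
    (h2 : θ' ≤ 1) : LE (μ.map (fun m => θ * m)) (μ.map (fun m => θ' * m)) := by
  intro F hF
  rw [SiteLaw.integral_scale μ θ hF.meas, SiteLaw.integral_scale μ θ' hF.meas]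
  have h0' : 0 ≤ θ' := h0.trans h1
  refine integral_mono_ae ((scale_cx hF h0 (h1.trans h2)).nice.integrable hμ)
    ((scale_cx hF h0' h2).nice.integrable hμ) ?_
  filter_upwards [hμ.supp] with x hx
  have hx1 : |x| < 1 := hx.trans_lt hμ.lt
  refine cx_ray hF ?_ ?_
  · rw [abs_mul, abs_mul, abs_of_nonneg h0, abs_of_nonneg h0']
    exact mul_le_mul_of_nonneg_right h1 (abs_nonneg _)
  · rw [abs_mul, abs_of_nonneg h0']
    calc θ' * |x| ≤ 1 * |x| := mul_le_mul_of_nonneg_right h2 (abs_nonneg _)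
      _ = |x| := one_mul _
      _ < 1 := hx1

/-- monotonicity of the iterated combination -/
lemma iter_mono {π ρ ρ' : Measure ℝ} {a b b' : ℝ} (hπ : SiteLaw π a) (hρ : SiteLaw ρ b)
    (hρ' : SiteLaw ρ' b') (h : LE ρ ρ') (k : ℕ) :
    LE ((fun μ => comb μ ρ)^[k] π) ((fun μ => comb μ ρ')^[k] π) := by
  induction k with
  | zero =>
    rw [Function.iterate_zero, Function.iterate_zero]
    exact LE.refl π
  | succ k ih =>
    rw [Function.iterate_succ_apply', Function.iterate_succ_apply']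
    obtain ⟨σ, hσ⟩ := hπ.iter hρ k
    obtain ⟨σ', hσ'⟩ := hπ.iter hρ' k
    have h1 := comb_mono_left hσ hσ' hρ ih
    have h2 := comb_mono_right hσ' hρ hρ' h
    exact LE.trans h1 h2

lemma iter_incr {π ρ : Measure ℝ} {a b : ℝ} (hπ : SiteLaw π a) (hρ : SiteLaw ρ b) {k l : ℕ}
    (hkl : k ≤ l) : LE ((fun μ => comb μ ρ)^[k] π) ((fun μ => comb μ ρ)^[l] π) := by
  induction l, hkl using Nat.le_induction with
  | base => exact LE.refl _
  | succ l _ ih =>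
    obtain ⟨σ, hσ⟩ := hπ.iter hρ l
    refine ih.trans ?_
    rw [Function.iterate_succ_apply' _ l]
    exact le_comb_left hσ hρ

lemma msg_LE (q : ℕ) {θ θ' : ℝ} (h0 : 0 ≤ θ) (h1 : θ ≤ θ') (h2 : θ' ≤ 1) {π : Measure ℝ}
    {τ : ℝ} (hπ : SiteLaw π τ) (N N' : ℕ) (hN : N ≤ N') :
    LE (msgLaw q θ π N) (msgLaw q θ' π N') := by
  induction N generalizing N' with
  | zero =>
    cases N' with
    | zero => exact LE.refl π
    | succ N' =>
      obtain ⟨σ, hσ⟩ := msgLaw_site q (h0.trans h1) h2 hπ N'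
      rw [msgLaw_succ]
      have h3 := iter_incr hπ (hσ.scale (h0.trans h1) h2) (Nat.zero_le q)
      exact h3
  | succ N ih =>
    obtain ⟨K, rfl⟩ : ∃ K, N' = K + 1 := ⟨N' - 1, by omega⟩
    have h3 := ih K (by omega)
    obtain ⟨σ, hσ⟩ := msgLaw_site q h0 (h1.trans h2) hπ N
    obtain ⟨σ', hσ'⟩ := msgLaw_site q (h0.trans h1) h2 hπ K
    have h4 : LE ((msgLaw q θ π N).map (fun m => θ * m)) ((msgLaw q θ' π K).map (fun m => θ' * m)) :=
      (scale_mono_theta hσ h0 h1 h2).trans (scale_mono (h0.trans h1) h2 h3)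
    rw [msgLaw_succ, msgLaw_succ]
    exact iter_mono hπ (hσ.scale h0 (h1.trans h2)) (hσ'.scale (h0.trans h1) h2) h4 q

lemma cx_pow (n : ℕ) : Cx (fun x : ℝ => x ^ (2 * n)) where
  cx := ((even_two_mul n).convexOn_pow).subset (subset_univ _) (convex_Ioo _ _)
  even := fun x => (even_two_mul n).neg_pow x
  meas := by fun_prop

end Mom

open Mom

theorem msg_mono {q : ℕ} (hq : 2 ≤ q) {θ θ' : ℝ} (h0 : 0 ≤ θ) (h1 : θ ≤ θ') (h2 : θ' < 1) {π : Measure ℝ}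
    {τ : ℝ} (hπ : SiteLaw π τ) (F : ℝ → ℝ) (hF : ConvexOn ℝ (Set.Ioo (-1) 1) F)
    (hFe : ∀ x, F (-x) = F x) (hFm : Measurable F) {N N' : ℕ} (hN : N ≤ N') :
    ∫ m, F m ∂(msgLaw q θ π N) ≤ ∫ m, F m ∂(msgLaw q θ' π N') :=
  msg_LE q h0 h1 h2.le hπ N N' hN F ⟨hF, hFe, hFm⟩

namespace Mom

/-! ### Second moments -/

lemma sym_sq {p r : ℝ} (hp : |p| < 1) (hr : |r| < 1) :
    sym (fun x => x ^ 2) p r * (1 - p ^ 2 * r ^ 2) = p ^ 2 + r ^ 2 - 2 * (p ^ 2 * r ^ 2) := by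
  have h1 : 0 < 1 + p * r := one_add_mul_pos hp hr
  have h2 : 0 < 1 - p * r := by
    have := one_add_mul_pos hp (by rwa [abs_neg] : |(-r)| < 1)
    linarith
  unfold sym ein
  have e1 : (1 + p * r) * ((p + r) / (1 + p * r)) ^ 2 = (p + r) ^ 2 / (1 + p * r) := by
    field_simp
  have e2 : (1 - p * r) * ((p + -r) / (1 + p * -r)) ^ 2 = (p - r) ^ 2 / (1 - p * r) := by
    have : 1 + p * -r = 1 - p * r := by ring
    rw [this]
    field_simp
    ring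
  rw [e1, e2]
  have e3 : ((p + r) ^ 2 / (1 + p * r) + (p - r) ^ 2 / (1 - p * r)) / 2 * (1 - p ^ 2 * r ^ 2) =
      ((p + r) ^ 2 * (1 - p * r) + (p - r) ^ 2 * (1 + p * r)) / 2 := by
    have e4 : (1 - p ^ 2 * r ^ 2) = (1 + p * r) * (1 - p * r) := by ring
    rw [e4]
    field_simp
  rw [e3]
  ring

lemma sq_lt {p : ℝ} (hp : |p| < 1) : p ^ 2 < 1 := by
  rw [← sq_abs]; exact pow_lt_one₀ (abs_nonneg p) hp (by norm_num)

lemma sym_sq_le {p r : ℝ} (hp : |p| < 1) (hr : |r| < 1) :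
    sym (fun x => x ^ 2) p r ≤ p ^ 2 + r ^ 2 - p ^ 2 * r ^ 2 := by
  have h := sym_sq hp hr
  have hP := sq_lt hp
  have hR := sq_lt hr
  have hP0 := sq_nonneg p
  have hR0 := sq_nonneg r
  set P := p ^ 2
  set R := r ^ 2
  have hD : 0 < 1 - P * R := by nlinarith
  have h2 : sym (fun x => x ^ 2) p r * (1 - P * R) ≤ (P + R - P * R) * (1 - P * R) := by
    rw [h]
    have h3 : 0 ≤ P * R * ((1 - P) * (1 - R)) :=
      mul_nonneg (mul_nonneg hP0 hR0) (mul_nonneg (by linarith) (by linarith))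
    nlinarith
  exact le_of_mul_le_mul_right h2 hD

lemma le_sym_sq {p r : ℝ} (hp : |p| < 1) (hr : |r| < 1) :
    p ^ 2 + r ^ 2 - 2 * (p ^ 2 * r ^ 2) ≤ sym (fun x => x ^ 2) p r := by
  have h := sym_sq hp hr
  have hP := sq_lt hp
  have hR := sq_lt hr
  have hP0 := sq_nonneg p
  have hR0 := sq_nonneg r
  set P := p ^ 2
  set R := r ^ 2
  have hD : 0 < 1 - P * R := by nlinarith
  have hN : 0 ≤ P + R - 2 * (P * R) := by nlinarith
  have h2 : (P + R - 2 * (P * R)) * (1 - P * R) ≤ sym (fun x => x ^ 2) p r * (1 - P * R) := by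
    rw [h]
    have : 0 ≤ (P + R - 2 * (P * R)) * (P * R) := mul_nonneg hN (mul_nonneg hP0 hR0)
    linarith
  exact le_of_mul_le_mul_right h2 hD

lemma nice_sq : Nice (fun x : ℝ => x ^ 2) := nice_of_continuous (by fun_prop)

lemma nice_pow (n : ℕ) : Nice (fun x : ℝ => x ^ n) := nice_of_continuous (by fun_prop)

lemma prod_pow {π ρ : Measure ℝ} {a b : ℝ} (hπ : SiteLaw π a) (hρ : SiteLaw ρ b) (k l : ℕ) :
    ∫ z : ℝ × ℝ, z.1 ^ k * z.2 ^ l ∂(π.prod ρ) = (∫ x, x ^ k ∂π) * ∫ x, x ^ l ∂ρ := by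
  have := hπ.prob
  have := hρ.prob
  exact integral_prod_mul (fun x : ℝ => x ^ k) (fun x : ℝ => x ^ l)

lemma prod_fst {π ρ : Measure ℝ} {a b : ℝ} (hπ : SiteLaw π a) (hρ : SiteLaw ρ b) (k : ℕ) :
    ∫ z : ℝ × ℝ, z.1 ^ k ∂(π.prod ρ) = ∫ x, x ^ k ∂π := by
  have := hρ.prob
  have h := prod_pow hπ hρ k 0
  simpa using h

lemma prod_snd {π ρ : Measure ℝ} {a b : ℝ} (hπ : SiteLaw π a) (hρ : SiteLaw ρ b) (k : ℕ) :
    ∫ z : ℝ × ℝ, z.2 ^ k ∂(π.prod ρ) = ∫ x, x ^ k ∂ρ := by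
  have := hπ.prob
  have h := prod_pow hπ hρ 0 k
  simpa using h

lemma comb_second_le {π ρ : Measure ℝ} {a b : ℝ} (hπ : SiteLaw π a) (hρ : SiteLaw ρ b) :
    ∫ x, x ^ 2 ∂(comb π ρ) ≤ ∫ x, x ^ 2 ∂π + ∫ x, x ^ 2 ∂ρ - (∫ x, x ^ 2 ∂π) * ∫ x, x ^ 2 ∂ρ := by
  have h1 : Integrable (fun z : ℝ × ℝ => z.1 ^ 2) (π.prod ρ) := integrable_prod_cont hπ hρ (by fun_prop)
  have h2 : Integrable (fun z : ℝ × ℝ => z.2 ^ 2) (π.prod ρ) := integrable_prod_cont hπ hρ (by fun_prop)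
  have h3 : Integrable (fun z : ℝ × ℝ => z.1 ^ 2 * z.2 ^ 2) (π.prod ρ) :=
    integrable_prod_cont hπ hρ (by fun_prop)
  have h12 : Integrable (fun z : ℝ × ℝ => z.1 ^ 2 + z.2 ^ 2) (π.prod ρ) :=
    integrable_prod_cont hπ hρ (by fun_prop)
  have h4 := comb_le_of hπ hρ nice_sq (G := fun z => z.1 ^ 2 + z.2 ^ 2 - z.1 ^ 2 * z.2 ^ 2)
    (h12.sub h3) (fun p r hp hr => sym_sq_le (hp.trans_lt hπ.lt) (hr.trans_lt hρ.lt))
  have h5 : ∫ z : ℝ × ℝ, (z.1 ^ 2 + z.2 ^ 2 - z.1 ^ 2 * z.2 ^ 2) ∂(π.prod ρ) =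
      ∫ x, x ^ 2 ∂π + ∫ x, x ^ 2 ∂ρ - (∫ x, x ^ 2 ∂π) * ∫ x, x ^ 2 ∂ρ := by
    rw [integral_sub h12 h3, integral_add h1 h2, prod_fst hπ hρ, prod_snd hπ hρ,
      prod_pow hπ hρ]
  rw [← h5]
  exact h4

lemma le_comb_second {π ρ : Measure ℝ} {a b : ℝ} (hπ : SiteLaw π a) (hρ : SiteLaw ρ b) :
    ∫ x, x ^ 2 ∂π + ∫ x, x ^ 2 ∂ρ - 2 * ((∫ x, x ^ 2 ∂π) * ∫ x, x ^ 2 ∂ρ) ≤
      ∫ x, x ^ 2 ∂(comb π ρ) := by
  have h1 : Integrable (fun z : ℝ × ℝ => z.1 ^ 2) (π.prod ρ) := integrable_prod_cont hπ hρ (by fun_prop)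
  have h2 : Integrable (fun z : ℝ × ℝ => z.2 ^ 2) (π.prod ρ) := integrable_prod_cont hπ hρ (by fun_prop)
  have h3 : Integrable (fun z : ℝ × ℝ => 2 * (z.1 ^ 2 * z.2 ^ 2)) (π.prod ρ) :=
    integrable_prod_cont hπ hρ (by fun_prop)
  have h12 : Integrable (fun z : ℝ × ℝ => z.1 ^ 2 + z.2 ^ 2) (π.prod ρ) :=
    integrable_prod_cont hπ hρ (by fun_prop)
  have h4 := le_comb_of hπ hρ nice_sq (G := fun z => z.1 ^ 2 + z.2 ^ 2 - 2 * (z.1 ^ 2 * z.2 ^ 2))
    (h12.sub h3) (fun p r hp hr => le_sym_sq (hp.trans_lt hπ.lt) (hr.trans_lt hρ.lt))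
  have h5 : ∫ z : ℝ × ℝ, (z.1 ^ 2 + z.2 ^ 2 - 2 * (z.1 ^ 2 * z.2 ^ 2)) ∂(π.prod ρ) =
      ∫ x, x ^ 2 ∂π + ∫ x, x ^ 2 ∂ρ - 2 * ((∫ x, x ^ 2 ∂π) * ∫ x, x ^ 2 ∂ρ) := by
    rw [integral_sub h12 h3, integral_add h1 h2, prod_fst hπ hρ, prod_snd hπ hρ,
      integral_const_mul, prod_pow hπ hρ]
  rw [← h5]
  exact h4

lemma even_moment_nonneg (μ : Measure ℝ) (n : ℕ) : 0 ≤ ∫ x, x ^ (2 * n) ∂μ :=
  integral_nonneg fun x => (even_two_mul n).pow_nonneg x

lemma second_nonneg (μ : Measure ℝ) : 0 ≤ ∫ x, x ^ 2 ∂μ := integral_nonneg fun x => sq_nonneg x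

lemma second_le_one {μ : Measure ℝ} {σ : ℝ} (hμ : SiteLaw μ σ) : ∫ x, x ^ 2 ∂μ ≤ 1 := by
  have := hμ.prob
  have h1 : ∫ x, x ^ 2 ∂μ ≤ ∫ _x, (1:ℝ) ∂μ := by
    refine integral_mono_ae (nice_sq.integrable hμ) (integrable_const _) ?_
    filter_upwards [hμ.supp] with x hx
    exact (sq_lt (hx.trans_lt hμ.lt)).le
  simpa using h1

lemma scale_second (μ : Measure ℝ) (θ : ℝ) :
    ∫ x, x ^ 2 ∂(μ.map (fun m => θ * m)) = θ ^ 2 * ∫ x, x ^ 2 ∂μ := by
  rw [SiteLaw.integral_scale μ θ (by fun_prop), ← integral_const_mul]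
  refine integral_congr_ae (Eventually.of_forall fun x => ?_)
  simp only [mul_pow]

lemma scale_moment (μ : Measure ℝ) (θ : ℝ) (n : ℕ) :
    ∫ x, x ^ n ∂(μ.map (fun m => θ * m)) = θ ^ n * ∫ x, x ^ n ∂μ := by
  rw [SiteLaw.integral_scale μ θ (by fun_prop), ← integral_const_mul]
  refine integral_congr_ae (Eventually.of_forall fun x => ?_)
  simp only [mul_pow]

/-- product bound for the second moment of an iterated combination -/
lemma iter_second {π ρ : Measure ℝ} {a b : ℝ} (hπ : SiteLaw π a) (hρ : SiteLaw ρ b) (k : ℕ) :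
    (1 - ∫ x, x ^ 2 ∂π) * (1 - ∫ x, x ^ 2 ∂ρ) ^ k ≤
      1 - ∫ x, x ^ 2 ∂((fun μ => comb μ ρ)^[k] π) := by
  induction k with
  | zero =>
    rw [Function.iterate_zero, pow_zero, mul_one]
    rfl
  | succ k ih =>
    rw [Function.iterate_succ_apply']
    obtain ⟨σ, hσ⟩ := hπ.iter hρ k
    have h1 := comb_second_le hσ hρ
    have h2 : 0 ≤ 1 - ∫ x, x ^ 2 ∂ρ := by linarith [second_le_one hρ]
    rw [pow_succ]
    nlinarith [mul_le_mul_of_nonneg_right ih h2]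

lemma iter_second_up {π ρ : Measure ℝ} {a b : ℝ} (hπ : SiteLaw π a) (hρ : SiteLaw ρ b) (k : ℕ) :
    ∫ x, x ^ 2 ∂((fun μ => comb μ ρ)^[k] π) ≤ ∫ x, x ^ 2 ∂π + k * ∫ x, x ^ 2 ∂ρ := by
  induction k with
  | zero =>
    rw [Function.iterate_zero]
    simp
  | succ k ih =>
    rw [Function.iterate_succ_apply']
    obtain ⟨σ, hσ⟩ := hπ.iter hρ k
    have h1 := comb_second_le hσ hρ
    have h2 := mul_nonneg (second_nonneg ((fun μ => comb μ ρ)^[k] π)) (second_nonneg ρ)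
    push_cast
    linarith

lemma iter_second_low {π ρ : Measure ℝ} {a b : ℝ} (hπ : SiteLaw π a) (hρ : SiteLaw ρ b) (k : ℕ) :
    (∫ x, x ^ 2 ∂π + k * ∫ x, x ^ 2 ∂ρ) - (∫ x, x ^ 2 ∂π + k * ∫ x, x ^ 2 ∂ρ) ^ 2 ≤
    ∫ x, x ^ 2 ∂((fun μ => comb μ ρ)^[k] π) := by
  induction k with
  | zero =>
    rw [Function.iterate_zero]
    simp only [Nat.cast_zero, zero_mul, add_zero, id]
    nlinarith [sq_nonneg (∫ x, x ^ 2 ∂π)]
  | succ k ih =>
    have hup := iter_second_up hπ hρ k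
    rw [Function.iterate_succ_apply']
    obtain ⟨σ, hσ⟩ := hπ.iter hρ k
    have h1 := le_comb_second hσ hρ
    have h2 := second_nonneg ρ
    have h3 := mul_le_mul_of_nonneg_right hup h2
    push_cast
    nlinarith

end Mom

theorem msg_second_le {q : ℕ} (hq : 2 ≤ q) {θ : ℝ} (h0 : 0 ≤ θ) (h1 : q * θ ^ 2 ≤ 1) {π : Measure ℝ} {τ : ℝ}
    (hπ : SiteLaw π τ) (N : ℕ) : (∫ m, m ^ 2 ∂(msgLaw q θ π N)) ^ 2 ≤ 6 * ∫ t, t ^ 2 ∂π := by
  have hθ := theta_le hq h0 h1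
  have hθ1 : θ ≤ 1 := hθ.trans (by norm_num)
  set o := ∫ t, t ^ 2 ∂π with ho
  have ho0 : 0 ≤ o := second_nonneg π
  have ho1 : o ≤ 1 := second_le_one hπ
  set s := √o with hs
  have hs0 : 0 ≤ s := Real.sqrt_nonneg o
  have hs2 : s ^ 2 = o := Real.sq_sqrt ho0
  have hs1 : s ≤ 1 := by
    rw [hs]; exact Real.sqrt_le_one.mpr ho1
  have hq2 : (2:ℝ) ≤ q := by exact_mod_cast hq
  have key : ∀ N : ℕ, ∫ m, m ^ 2 ∂(msgLaw q θ π N) ≤ 2 * s := by
    intro N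
    induction N with
    | zero =>
      show ∫ m, m ^ 2 ∂π ≤ 2 * s
      rw [← ho]
      nlinarith
    | succ N ih =>
      obtain ⟨σ, hσ⟩ := msgLaw_site q h0 hθ1 hπ N
      have hx1 := second_le_one hσ
      have hx0 := second_nonneg (msgLaw q θ π N)
      set x := ∫ m, m ^ 2 ∂(msgLaw q θ π N) with hx
      have h2 := iter_second hπ (hσ.scale h0 hθ1) q
      rw [scale_second, ← hx, ← ho, ← msgLaw_succ] at h2
      set z := θ ^ 2 * x with hz
      have hz0 : 0 ≤ z := by positivity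
      set y := (q:ℝ) * z with hy
      have hyx : y ≤ x := by
        rw [hy, hz, ← mul_assoc]
        calc q * θ ^ 2 * x ≤ 1 * x := mul_le_mul_of_nonneg_right h1 hx0
          _ = x := one_mul x
      have hy0 : 0 ≤ y := by positivity
      have hz1 : z ≤ 1 := by
        have : 2 * z ≤ y := by rw [hy]; exact mul_le_mul_of_nonneg_right hq2 hz0
        linarith
      have h3 : (1 - y / 2) ^ 2 ≤ (1 - z) ^ q := by
        have h4 := one_add_mul_self_le_rpow_one_add (s := -z) (by linarith)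
          (p := (q:ℝ) / 2) (by linarith)
        have h5 : (1 + -z) ^ ((q:ℝ) / 2) = (1 - z) ^ ((q:ℝ) / 2) := by rw [← sub_eq_add_neg]
        rw [h5] at h4
        have h6 : ((1 - z) ^ ((q:ℝ) / 2)) ^ 2 = (1 - z) ^ q := by
          rw [← Real.rpow_natCast ((1 - z) ^ ((q:ℝ) / 2)) 2, ← Real.rpow_mul (by linarith),
            ← Real.rpow_natCast (1 - z) q]
          congr 1
          push_cast
          ring
        rw [← h6]
        apply pow_le_pow_left₀ (by linarith)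
        calc 1 - y / 2 = 1 + (q:ℝ) / 2 * -z := by rw [hy]; ring
          _ ≤ _ := h4
      have h7 : (1 - o) * (1 - y / 2) ^ 2 ≤ (1 - o) * (1 - z) ^ q :=
        mul_le_mul_of_nonneg_left h3 (by linarith)
      have h8 : (1 - y / 2) ^ 2 ≤ 1 := by
        apply pow_le_one₀ <;> linarith
      have h9 : o * (1 - y / 2) ^ 2 ≤ o := mul_le_of_le_one_right ho0 h8
      have h10 : y - y ^ 2 / 4 ≤ 2 * s - s ^ 2 := by
        nlinarith [mul_nonneg (by linarith : 0 ≤ 2 * s - y) (by linarith : 0 ≤ 4 - 2 * s - y)]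
      nlinarith
  have hx0 := second_nonneg (msgLaw q θ π N)
  calc (∫ m, m ^ 2 ∂(msgLaw q θ π N)) ^ 2 ≤ (2 * s) ^ 2 := pow_le_pow_left₀ hx0 (key N) 2
    _ = 4 * o := by rw [mul_pow, hs2]; ring
    _ ≤ 6 * o := by linarith

theorem msg_second_ge {q : ℕ} (hq : 2 ≤ q) : ∃ c : ℝ, 0 < c ∧ ∀ (θ : ℝ), 0 ≤ θ → q * θ ^ 2 ≤ 1 →
    ∀ (π : Measure ℝ) (τ : ℝ), SiteLaw π τ → 0 < ∫ t, t ^ 2 ∂π →
    ∃ N0 : ℕ, ∀ N, N0 ≤ N →
      c * √(∫ t, t ^ 2 ∂π) ≤ (1 - q * θ ^ 2) + ∫ m, m ^ 2 ∂(msgLaw q θ π N) := by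
  refine ⟨1 / 3, by norm_num, fun θ h0 h1 π τ hπ hpos => ?_⟩
  have hθ := theta_le hq h0 h1
  have hθ1 : θ ≤ 1 := hθ.trans (by norm_num)
  set o := ∫ t, t ^ 2 ∂π with ho
  set δ : ℝ := 1 - q * θ ^ 2 with hδ
  have hδ0 : 0 ≤ δ := by rw [hδ]; linarith
  set x : ℕ → ℝ := fun N => ∫ m, m ^ 2 ∂(msgLaw q θ π N) with hx
  have hmono : Monotone x := by
    intro N N' hN
    have h2 := msg_LE q h0 le_rfl hθ1 hπ N N' hN _ (cx_pow 1)
    simpa using h2
  have hbd : ∀ N, x N ≤ 1 := by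
    intro N
    obtain ⟨σ, hσ⟩ := msgLaw_site q h0 hθ1 hπ N
    exact second_le_one hσ
  have hlim := tendsto_atTop_ciSup hmono ⟨1, by rintro _ ⟨N, rfl⟩; exact hbd N⟩
  set l := ⨆ N, x N with hl
  have hrec : ∀ N, (o + (1 - δ) * x N) - (o + (1 - δ) * x N) ^ 2 ≤ x (N + 1) := by
    intro N
    obtain ⟨σ, hσ⟩ := msgLaw_site q h0 hθ1 hπ N
    have h2 := iter_second_low hπ (hσ.scale h0 hθ1) q
    rw [scale_second, ← ho, ← msgLaw_succ] at h2
    have h3 : (q:ℝ) * (θ ^ 2 * ∫ x, x ^ 2 ∂(msgLaw q θ π N)) = (1 - δ) * x N := by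
      rw [hδ, hx]; ring
    rw [h3] at h2
    exact h2
  have hlim1 : Tendsto (fun N => x (N + 1)) atTop (𝓝 l) := (tendsto_add_atTop_iff_nat 1).2 hlim
  have hlim2 : Tendsto (fun N => (o + (1 - δ) * x N) - (o + (1 - δ) * x N) ^ 2) atTop
      (𝓝 ((o + (1 - δ) * l) - (o + (1 - δ) * l) ^ 2)) := by
    have h3 : Tendsto (fun N => o + (1 - δ) * x N) atTop (𝓝 (o + (1 - δ) * l)) :=
      tendsto_const_nhds.add (tendsto_const_nhds.mul hlim)
    exact h3.sub (h3.pow 2)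
  have hle := le_of_tendsto_of_tendsto' hlim2 hlim1 hrec
  have hol : o ≤ l := by
    have h2 : x 0 ≤ l := hmono.ge_of_tendsto hlim 0
    exact h2
  have hl0 : 0 ≤ l := hpos.le.trans hol
  have hS : (o + (1 - δ) * l) ^ 2 ≤ (o + l) ^ 2 := by
    have hδ1 : δ ≤ 1 := by
      rw [hδ]
      have : (0:ℝ) ≤ q * θ ^ 2 := by positivity
      linarith
    apply pow_le_pow_left₀
    · have := mul_nonneg (sub_nonneg.2 hδ1) hl0
      linarith
    · nlinarith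
  have hw : o ≤ 5 * (δ + l) ^ 2 := by
    have h2 : (o + l) ^ 2 ≤ (2 * l) ^ 2 := pow_le_pow_left₀ (by linarith) (by linarith) 2
    nlinarith [mul_nonneg hδ0 hl0, sq_nonneg δ]
  have hfin : 1 / 3 * √o < δ + l := by
    have h2 : 0 ≤ δ + l := by linarith
    by_contra hcon
    push Not at hcon
    have h3 : (δ + l) ^ 2 ≤ (1 / 3 * √o) ^ 2 := pow_le_pow_left₀ h2 hcon 2
    rw [mul_pow, Real.sq_sqrt hpos.le] at h3
    nlinarith
  have hlim3 : Tendsto (fun N => δ + x N) atTop (𝓝 (δ + l)) := tendsto_const_nhds.add hlim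
  obtain ⟨N0, hN0⟩ := eventually_atTop.1 (hlim3.eventually (lt_mem_nhds hfin))
  exact ⟨N0, fun N hN => (hN0 N hN).le⟩

theorem mu_second_ge {q : ℕ} (hq : 2 ≤ q) {θ : ℝ} (h0 : 0 ≤ θ) (h1 : q * θ ^ 2 ≤ 1) {π : Measure ℝ} {τ : ℝ}
    (hπ : SiteLaw π τ) (N : ℕ) :
    θ ^ 2 * ∫ m, m ^ 2 ∂(msgLaw q θ π N) ≤ ∫ m, m ^ 2 ∂(muLaw q θ π N) := by
  have hθ1 : θ ≤ 1 := (theta_le hq h0 h1).trans (by norm_num)
  obtain ⟨σ, hσ⟩ := msgLaw_site q h0 hθ1 hπ N
  have hρ := hσ.scale h0 hθ1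
  unfold muLaw
  obtain ⟨k, hk⟩ : ∃ k, q - 1 = k + 1 := ⟨q - 2, by omega⟩
  rw [hk, Function.iterate_succ_apply']
  obtain ⟨σ', hσ'⟩ := hπ.iter hρ k
  have h2 := le_comb_right hσ' hρ _ (cx_pow 1)
  rw [← scale_second]
  simpa using h2

namespace Mom

/-! ### Higher moments -/

lemma eo_pos (m : ℕ) : ∃ C : ℝ, 0 ≤ C ∧ ∀ t : ℝ, 0 ≤ t → t ≤ 1 →
    ((1 + t) ^ m + (1 - t) ^ m) / 2 ≤ 1 + C * t ^ 2 ∧
    ((1 + t) ^ m - (1 - t) ^ m) / 2 ≤ C * t := by
  induction m with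
  | zero => exact ⟨0, le_rfl, fun t _ _ => by norm_num⟩
  | succ m ih =>
    obtain ⟨C, hC0, hC⟩ := ih
    refine ⟨2 * C + 1, by positivity, fun t ht0 ht1 => ?_⟩
    obtain ⟨h1, h2⟩ := hC t ht0 ht1
    have h3 : ((1 + t) ^ (m + 1) + (1 - t) ^ (m + 1)) / 2 =
        ((1 + t) ^ m + (1 - t) ^ m) / 2 + t * (((1 + t) ^ m - (1 - t) ^ m) / 2) := by ring
    have h4 : ((1 + t) ^ (m + 1) - (1 - t) ^ (m + 1)) / 2 =
        ((1 + t) ^ m - (1 - t) ^ m) / 2 + t * (((1 + t) ^ m + (1 - t) ^ m) / 2) := by ring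
    rw [h3, h4]
    set e := ((1 + t) ^ m + (1 - t) ^ m) / 2
    set o := ((1 + t) ^ m - (1 - t) ^ m) / 2
    have h5 := mul_le_mul_of_nonneg_left h2 ht0
    have h6 := mul_le_mul_of_nonneg_left h1 ht0
    have h7 : t * (C * t ^ 2) ≤ t * C := by
      have : t ^ 2 ≤ 1 := pow_le_one₀ ht0 ht1
      have h8 : C * t ^ 2 ≤ C := mul_le_of_le_one_right hC0 this
      exact mul_le_mul_of_nonneg_left h8 ht0
    constructor <;> nlinarith [sq_nonneg t]

lemma eo_neg (k : ℕ) : ∃ C : ℝ, 0 ≤ C ∧ ∀ t : ℝ, 0 ≤ t → t ≤ 3 / 4 →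
    (((1 - t)⁻¹) ^ k + ((1 + t)⁻¹) ^ k) / 2 ≤ 1 + C * t ^ 2 ∧
    (((1 - t)⁻¹) ^ k - ((1 + t)⁻¹) ^ k) / 2 ≤ C * t := by
  induction k with
  | zero => exact ⟨0, le_rfl, fun t _ _ => by norm_num⟩
  | succ m ih =>
    obtain ⟨C, hC0, hC⟩ := ih
    refine ⟨8 * C + 4, by positivity, fun t ht0 ht1 => ?_⟩
    obtain ⟨h1, h2⟩ := hC t ht0 ht1
    have hm : 0 < 1 - t := by linarith
    have hp : 0 < 1 + t := by linarith
    have hc : 0 < 1 - t ^ 2 := by nlinarith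
    set c := (1 - t ^ 2)⁻¹ with hcdef
    have hc0 : 0 < c := inv_pos.2 hc
    have e1 : (1 - t)⁻¹ = c * (1 + t) := by
      rw [hcdef]
      have : (1 - t ^ 2) = (1 - t) * (1 + t) := by ring
      rw [this]
      field_simp
    have e2 : (1 + t)⁻¹ = c * (1 - t) := by
      rw [hcdef]
      have : (1 - t ^ 2) = (1 - t) * (1 + t) := by ring
      rw [this]
      field_simp
    have hcle : c ≤ 1 + 3 * t ^ 2 := by
      rw [hcdef, inv_le_comm₀ hc (by positivity), inv_le_iff_one_le_mul₀ (by positivity)]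
      have h8 : t ^ 2 ≤ 9 / 16 := by nlinarith
      nlinarith [sq_nonneg t, mul_nonneg (sq_nonneg t) (by linarith : 0 ≤ 9/16 - t ^ 2)]
    have hc4 : c ≤ 4 := by nlinarith
    set e := (((1 - t)⁻¹) ^ m + ((1 + t)⁻¹) ^ m) / 2 with he
    set o := (((1 - t)⁻¹) ^ m - ((1 + t)⁻¹) ^ m) / 2 with ho
    have h3 : (((1 - t)⁻¹) ^ (m + 1) + ((1 + t)⁻¹) ^ (m + 1)) / 2 = c * (e + t * o) := by
      rw [pow_succ, pow_succ, he, ho]
      have hgen : ∀ X Y a b : ℝ, a = c * (1 + t) → b = c * (1 - t) →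
          (X * a + Y * b) / 2 = c * ((X + Y) / 2 + t * ((X - Y) / 2)) := by
        intro X Y a b ha hb
        rw [ha, hb]; ring
      exact hgen _ _ _ _ e1 e2
    have h4 : (((1 - t)⁻¹) ^ (m + 1) - ((1 + t)⁻¹) ^ (m + 1)) / 2 = c * (o + t * e) := by
      rw [pow_succ, pow_succ, he, ho]
      have hgen : ∀ X Y a b : ℝ, a = c * (1 + t) → b = c * (1 - t) →
          (X * a - Y * b) / 2 = c * ((X - Y) / 2 + t * ((X + Y) / 2)) := by
        intro X Y a b ha hb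
        rw [ha, hb]; ring
      exact hgen _ _ _ _ e1 e2
    rw [h3, h4]
    have h5 : e + t * o ≤ 1 + 2 * C * t ^ 2 := by
      have := mul_le_mul_of_nonneg_left h2 ht0
      nlinarith
    have h6 : o + t * e ≤ (2 * C + 1) * t := by
      have h7 := mul_le_mul_of_nonneg_left h1 ht0
      have h8 : t * (C * t ^ 2) ≤ t * C := by
        have : t ^ 2 ≤ 1 := by nlinarith
        have h8 : C * t ^ 2 ≤ C := mul_le_of_le_one_right hC0 this
        exact mul_le_mul_of_nonneg_left h8 ht0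
      nlinarith
    constructor
    · calc c * (e + t * o) ≤ c * (1 + 2 * C * t ^ 2) := mul_le_mul_of_nonneg_left h5 hc0.le
        _ ≤ (1 + 3 * t ^ 2) * (1 + 2 * C * t ^ 2) :=
            mul_le_mul_of_nonneg_right hcle (by positivity)
        _ ≤ 1 + (8 * C + 4) * t ^ 2 := by
            have h8 : t ^ 2 ≤ 1 := by nlinarith
            have h9 : 0 ≤ C * t ^ 2 * (1 - t ^ 2) := by positivity
            nlinarith [sq_nonneg t]
    · calc c * (o + t * e) ≤ c * ((2 * C + 1) * t) := mul_le_mul_of_nonneg_left h6 hc0.le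
        _ ≤ 4 * ((2 * C + 1) * t) := mul_le_mul_of_nonneg_right hc4 (by positivity)
        _ = (8 * C + 4) * t := by ring

/-- even part of the binomial expansion -/
lemma even_part (m : ℕ) : ∃ C : ℝ, 0 ≤ C ∧ ∀ p r : ℝ,
    ((p + r) ^ (2 * m + 2) + (p - r) ^ (2 * m + 2)) / 2 ≤
      p ^ (2 * m + 2) + r ^ (2 * m + 2) + C * (p ^ (2 * m) * r ^ 2 + p ^ 2 * r ^ (2 * m)) := by
  obtain ⟨C, hC0, hC⟩ := eo_pos (2 * m + 2)
  refine ⟨C, hC0, ?_⟩
  have hev : Even (2 * m + 2) := ⟨m + 1, by ring⟩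
  have hev2 : Even (2 * m) := ⟨m, by ring⟩
  -- ordered nonnegative case
  have key : ∀ a b : ℝ, 0 ≤ b → b ≤ a → ((a + b) ^ (2 * m + 2) + (a - b) ^ (2 * m + 2)) / 2 ≤
      a ^ (2 * m + 2) + b ^ (2 * m + 2) + C * (a ^ (2 * m) * b ^ 2 + a ^ 2 * b ^ (2 * m)) := by
    intro a b hb hba
    rcases eq_or_lt_of_le (hb.trans hba) with ha | ha
    · have hb0 : b = 0 := le_antisymm (by rw [ha]; exact hba) hb
      rw [← ha, hb0]
      simp
    · have h1 := (hC (b / a) (div_nonneg hb ha.le) ((div_le_one ha).2 hba)).1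
      have e1 : (a + b) ^ (2 * m + 2) = a ^ (2 * m + 2) * (1 + b / a) ^ (2 * m + 2) := by
        rw [← mul_pow]; congr 1; field_simp
      have e2 : (a - b) ^ (2 * m + 2) = a ^ (2 * m + 2) * (1 - b / a) ^ (2 * m + 2) := by
        rw [← mul_pow]; congr 1; field_simp
      have e3 : a ^ (2 * m + 2) * (1 + C * (b / a) ^ 2) =
          a ^ (2 * m + 2) + C * (a ^ (2 * m) * b ^ 2) := by
        rw [div_pow, pow_add a (2 * m) 2]
        field_simp
      have h2 : a ^ (2 * m + 2) * (((1 + b / a) ^ (2 * m + 2) + (1 - b / a) ^ (2 * m + 2)) / 2) ≤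
          a ^ (2 * m + 2) * (1 + C * (b / a) ^ 2) := mul_le_mul_of_nonneg_left h1 (by positivity)
      rw [e3] at h2
      rw [e1, e2]
      have h3 : 0 ≤ b ^ (2 * m + 2) := by positivity
      have h4 : 0 ≤ C * (a ^ 2 * b ^ (2 * m)) := by positivity
      calc (a ^ (2 * m + 2) * (1 + b / a) ^ (2 * m + 2) + a ^ (2 * m + 2) * (1 - b / a) ^ (2 * m + 2)) / 2
          = a ^ (2 * m + 2) * (((1 + b / a) ^ (2 * m + 2) + (1 - b / a) ^ (2 * m + 2)) / 2) := by ring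
        _ ≤ a ^ (2 * m + 2) + C * (a ^ (2 * m) * b ^ 2) := h2
        _ ≤ _ := by linarith
  have key2 : ∀ a b : ℝ, 0 ≤ a → 0 ≤ b → ((a + b) ^ (2 * m + 2) + (a - b) ^ (2 * m + 2)) / 2 ≤
      a ^ (2 * m + 2) + b ^ (2 * m + 2) + C * (a ^ (2 * m) * b ^ 2 + a ^ 2 * b ^ (2 * m)) := by
    intro a b ha hb
    rcases le_total b a with h | h
    · exact key a b hb h
    · have h1 := key b a ha h
      have e1 : (b - a) ^ (2 * m + 2) = (a - b) ^ (2 * m + 2) := by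
        rw [← hev.neg_pow (b - a)]; congr 1; ring
      rw [e1, add_comm b a] at h1
      linarith
  intro p r
  have h1 := key2 |p| |r| (abs_nonneg p) (abs_nonneg r)
  have e1 : (|p| + |r|) ^ (2 * m + 2) + (|p| - |r|) ^ (2 * m + 2) =
      (p + r) ^ (2 * m + 2) + (p - r) ^ (2 * m + 2) := by
    have n1 : (-p + r) ^ (2 * m + 2) = (p - r) ^ (2 * m + 2) := by
      rw [← hev.neg_pow (-p + r)]; congr 1; ring
    have n2 : (-p - r) ^ (2 * m + 2) = (p + r) ^ (2 * m + 2) := by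
      rw [← hev.neg_pow (-p - r)]; congr 1; ring
    rcases abs_choice p with hp | hp <;> rcases abs_choice r with hr | hr <;> rw [hp, hr]
    · rw [sub_neg_eq_add, ← sub_eq_add_neg, add_comm]
    · rw [n1, n2, add_comm]
    · rw [← sub_eq_add_neg, n2, sub_neg_eq_add, n1]
  rw [e1, hev.pow_abs, hev.pow_abs, hev2.pow_abs, hev2.pow_abs, sq_abs, sq_abs] at h1
  exact h1

lemma sym_pow_le (m : ℕ) : ∃ K : ℝ, 0 ≤ K ∧ ∀ p r : ℝ, |p| < 1 → |r| ≤ 3 / 4 →
    sym (fun x => x ^ (2 * (m + 1))) p r ≤ p ^ (2 * (m + 1)) + r ^ (2 * (m + 1)) +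
      K * (p ^ (2 * m) * r ^ 2 + p ^ 2 * r ^ (2 * m)) := by
  obtain ⟨C1, hC10, hC1⟩ := even_part m
  obtain ⟨C2, hC20, hC2⟩ := eo_neg (2 * m + 1)
  refine ⟨C1 + C2 + C1 * C2, by positivity, fun p r hp hr => ?_⟩
  have hr1 : |r| < 1 := hr.trans_lt (by norm_num)
  have hu : 0 < 1 + p * r := one_add_mul_pos hp hr1
  have hv : 0 < 1 - p * r := by
    have := one_add_mul_pos hp (by rwa [abs_neg] : |(-r)| < 1)
    linarith
  have hev : Even (2 * m + 2) := ⟨m + 1, by ring⟩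
  have hev2 : Even (2 * m) := ⟨m, by ring⟩
  set Ap := (p + r) ^ (2 * m + 2) with hAp
  set Am := (p - r) ^ (2 * m + 2) with hAm
  have hAp0 : 0 ≤ Ap := hev.pow_nonneg _
  have hAm0 : 0 ≤ Am := hev.pow_nonneg _
  set iu := ((1 + p * r)⁻¹) ^ (2 * m + 1) with hiu
  set iv := ((1 - p * r)⁻¹) ^ (2 * m + 1) with hiv
  have hiu0 : 0 < iu := pow_pos (inv_pos.2 hu) _
  have hiv0 : 0 < iv := pow_pos (inv_pos.2 hv) _
  have hsym : sym (fun x => x ^ (2 * (m + 1))) p r = (Ap * iu + Am * iv) / 2 := by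
    unfold sym ein
    have e0 : 2 * (m + 1) = 2 * m + 2 := by ring
    have e1 : (1 + p * r) * ((p + r) / (1 + p * r)) ^ (2 * (m + 1)) = Ap * iu := by
      rw [e0, div_pow, hAp, hiu, inv_pow, pow_succ (1 + p * r) (2 * m + 1)]
      field_simp
    have e2 : (1 - p * r) * ((p + -r) / (1 + p * -r)) ^ (2 * (m + 1)) = Am * iv := by
      have e3 : 1 + p * -r = 1 - p * r := by ring
      have e4 : p + -r = p - r := by ring
      rw [e3, e4, e0, div_pow, hAm, hiv, inv_pow, pow_succ (1 - p * r) (2 * m + 1)]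
      field_simp
    simp only [e1, e2]
  -- Chebyshev
  have hcheb : (Ap * iu + Am * iv) / 2 ≤ ((Ap + Am) / 2) * ((iv + iu) / 2) := by
    have h1 : (Ap - Am) * (iu - iv) ≤ 0 := by
      have hsq : (p + r) ^ 2 - (p - r) ^ 2 = 4 * (p * r) := by ring
      have eAp : Ap = ((p + r) ^ 2) ^ (m + 1) := by rw [hAp, ← pow_mul]; congr 1
      have eAm : Am = ((p - r) ^ 2) ^ (m + 1) := by rw [hAm, ← pow_mul]; congr 1
      rcases le_total 0 (p * r) with h | h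
      · apply mul_nonpos_of_nonneg_of_nonpos
        · rw [eAp, eAm, sub_nonneg]
          exact pow_le_pow_left₀ (sq_nonneg _) (by linarith) _
        · rw [hiu, hiv, sub_nonpos]
          exact pow_le_pow_left₀ (inv_pos.2 hu).le (inv_anti₀ hv (by linarith)) _
      · apply mul_nonpos_of_nonpos_of_nonneg
        · rw [eAp, eAm, sub_nonpos]
          exact pow_le_pow_left₀ (sq_nonneg _) (by linarith) _
        · rw [hiu, hiv, sub_nonneg]
          exact pow_le_pow_left₀ (inv_pos.2 hv).le (inv_anti₀ hu (by linarith)) _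
    nlinarith
  have hE : (iv + iu) / 2 ≤ 1 + C2 * (p ^ 2 * r ^ 2) := by
    have ht1 : |p * r| ≤ 3 / 4 := by
      rw [abs_mul]
      calc |p| * |r| ≤ 1 * (3 / 4) := mul_le_mul hp.le hr (abs_nonneg _) (by norm_num)
        _ = 3 / 4 := one_mul _
    have h1 := (hC2 |p * r| (abs_nonneg _) ht1).1
    rw [sq_abs, mul_pow] at h1
    refine le_trans (le_of_eq ?_) h1
    rcases abs_choice (p * r) with h | h
    · rw [h]
    · rw [h, sub_neg_eq_add, ← sub_eq_add_neg, add_comm]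
  have hA := hC1 p r
  rw [← hAp, ← hAm] at hA
  have hp2 : p ^ 2 ≤ 1 := (sq_lt hp).le
  have hr2 : r ^ 2 ≤ 1 := (sq_lt hr1).le
  have hp20 := sq_nonneg p
  have hr20 := sq_nonneg r
  have hpm : 0 ≤ p ^ (2 * m) := hev2.pow_nonneg _
  have hrm : 0 ≤ r ^ (2 * m) := hev2.pow_nonneg _
  have e5 : p ^ (2 * (m + 1)) = p ^ (2 * m) * p ^ 2 := by rw [mul_add, pow_add]
  have e6 : r ^ (2 * (m + 1)) = r ^ (2 * m) * r ^ 2 := by rw [mul_add, pow_add]
  have e5' : p ^ (2 * m + 2) = p ^ (2 * m) * p ^ 2 := by rw [pow_add]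
  have e6' : r ^ (2 * m + 2) = r ^ (2 * m) * r ^ 2 := by rw [pow_add]
  rw [hsym, e5, e6]
  rw [e5', e6'] at hA
  set Pm := p ^ (2 * m)
  set Rm := r ^ (2 * m)
  set P := p ^ 2
  set R := r ^ 2
  have hX0 : 0 ≤ Pm * R + P * Rm := by positivity
  have h2 : (P * R) * (Pm * P + Rm * R) ≤ Pm * R + P * Rm := by
    have h3 : P * R * (Pm * P) ≤ Pm * R := by
      have : P * P ≤ 1 := by nlinarith
      calc P * R * (Pm * P) = (Pm * R) * (P * P) := by ring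
        _ ≤ (Pm * R) * 1 := mul_le_mul_of_nonneg_left this (by positivity)
        _ = Pm * R := mul_one _
    have h4 : P * R * (Rm * R) ≤ P * Rm := by
      have : R * R ≤ 1 := by nlinarith
      calc P * R * (Rm * R) = (P * Rm) * (R * R) := by ring
        _ ≤ (P * Rm) * 1 := mul_le_mul_of_nonneg_left this (by positivity)
        _ = P * Rm := mul_one _
    rw [mul_add]
    linarith
  have h5 : (P * R) * (Pm * R + P * Rm) ≤ Pm * R + P * Rm := by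
    have : P * R ≤ 1 := by nlinarith
    calc (P * R) * (Pm * R + P * Rm) ≤ 1 * (Pm * R + P * Rm) :=
          mul_le_mul_of_nonneg_right this hX0
      _ = _ := one_mul _
  have hE0 : 0 ≤ 1 + C2 * (P * R) := by positivity
  calc (Ap * iu + Am * iv) / 2 ≤ ((Ap + Am) / 2) * ((iv + iu) / 2) := hcheb
    _ ≤ ((Ap + Am) / 2) * (1 + C2 * (P * R)) := mul_le_mul_of_nonneg_left hE (by positivity)
    _ ≤ (Pm * P + Rm * R + C1 * (Pm * R + P * Rm)) * (1 + C2 * (P * R)) :=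
        mul_le_mul_of_nonneg_right hA hE0
    _ = Pm * P + Rm * R + C1 * (Pm * R + P * Rm) + C2 * ((P * R) * (Pm * P + Rm * R)) +
        C1 * C2 * ((P * R) * (Pm * R + P * Rm)) := by ring
    _ ≤ Pm * P + Rm * R + C1 * (Pm * R + P * Rm) + C2 * (Pm * R + P * Rm) +
        C1 * C2 * (Pm * R + P * Rm) := by
        have h6 := mul_le_mul_of_nonneg_left h2 hC20
        have h7 := mul_le_mul_of_nonneg_left h5 (mul_nonneg hC10 hC20)
        linarith
    _ = _ := by ring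

lemma comb_moment_le (m : ℕ) : ∃ K : ℝ, 0 ≤ K ∧ ∀ (π ρ : Measure ℝ) (a : ℝ), SiteLaw π a →
    SiteLaw ρ (3 / 4) →
    ∫ x, x ^ (2 * (m + 1)) ∂(comb π ρ) ≤ ∫ x, x ^ (2 * (m + 1)) ∂π + ∫ x, x ^ (2 * (m + 1)) ∂ρ +
      K * ((∫ x, x ^ (2 * m) ∂π) * (∫ x, x ^ 2 ∂ρ) + (∫ x, x ^ 2 ∂π) * (∫ x, x ^ (2 * m) ∂ρ)) := by
  obtain ⟨K, hK0, hK⟩ := sym_pow_le m
  refine ⟨K, hK0, fun π ρ a hπ hρ => ?_⟩
  have h1 : Integrable (fun z : ℝ × ℝ => z.1 ^ (2 * (m + 1))) (π.prod ρ) :=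
    integrable_prod_cont hπ hρ (by fun_prop)
  have h2 : Integrable (fun z : ℝ × ℝ => z.2 ^ (2 * (m + 1))) (π.prod ρ) :=
    integrable_prod_cont hπ hρ (by fun_prop)
  have h12 : Integrable (fun z : ℝ × ℝ => z.1 ^ (2 * (m + 1)) + z.2 ^ (2 * (m + 1))) (π.prod ρ) :=
    integrable_prod_cont hπ hρ (by fun_prop)
  have h3 : Integrable (fun z : ℝ × ℝ => z.1 ^ (2 * m) * z.2 ^ 2) (π.prod ρ) :=
    integrable_prod_cont hπ hρ (by fun_prop)
  have h4 : Integrable (fun z : ℝ × ℝ => z.1 ^ 2 * z.2 ^ (2 * m)) (π.prod ρ) :=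
    integrable_prod_cont hπ hρ (by fun_prop)
  have h34 : Integrable (fun z : ℝ × ℝ => K * (z.1 ^ (2 * m) * z.2 ^ 2 + z.1 ^ 2 * z.2 ^ (2 * m)))
      (π.prod ρ) := integrable_prod_cont hπ hρ (by fun_prop)
  have h5 := comb_le_of hπ hρ (nice_pow (2 * (m + 1)))
    (G := fun z => z.1 ^ (2 * (m + 1)) + z.2 ^ (2 * (m + 1)) +
      K * (z.1 ^ (2 * m) * z.2 ^ 2 + z.1 ^ 2 * z.2 ^ (2 * m)))
    (h12.add h34) (fun p r hp hr => hK p r (hp.trans_lt hπ.lt) hr)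
  have h6 : ∫ z : ℝ × ℝ, (z.1 ^ (2 * (m + 1)) + z.2 ^ (2 * (m + 1)) +
      K * (z.1 ^ (2 * m) * z.2 ^ 2 + z.1 ^ 2 * z.2 ^ (2 * m))) ∂(π.prod ρ) =
      ∫ x, x ^ (2 * (m + 1)) ∂π + ∫ x, x ^ (2 * (m + 1)) ∂ρ +
      K * ((∫ x, x ^ (2 * m) ∂π) * (∫ x, x ^ 2 ∂ρ) + (∫ x, x ^ 2 ∂π) * (∫ x, x ^ (2 * m) ∂ρ)) := by
    rw [integral_add h12 h34, integral_add h1 h2, integral_const_mul, integral_add h3 h4,
      prod_fst hπ hρ, prod_snd hπ hρ, prod_pow hπ hρ, prod_pow hπ hρ]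
  rw [← h6]
  exact h5

end Mom

theorem msg_moments {q : ℕ} (hq : 2 ≤ q) (p : ℕ) (hp : 1 ≤ p) (B : ℝ) : ∃ Cp : ℝ, 0 ≤ Cp ∧ ∀ (θ : ℝ), 0 ≤ θ →
    q * θ ^ 2 ≤ 1 → ∀ (π : Measure ℝ) (τ s : ℝ), SiteLaw π τ → 0 < s → s ≤ 1 →
    (∫ t, t ^ 2 ∂π ≤ B * s ^ 2) → (∀ l : ℕ, 1 ≤ l → l ≤ p → ∫ t, t ^ (2 * l) ∂π ≤ B * s ^ l) →
    ∀ N : ℕ, ∫ m, m ^ (2 * p) ∂(msgLaw q θ π N) ≤ Cp * s ^ p := by
  -- second moments
  have hbase : ∃ Cp : ℝ, 0 ≤ Cp ∧ ∀ (θ : ℝ), 0 ≤ θ →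
    q * θ ^ 2 ≤ 1 → ∀ (π : Measure ℝ) (τ s : ℝ), SiteLaw π τ → 0 < s → s ≤ 1 →
    (∫ t, t ^ 2 ∂π ≤ B * s ^ 2) →
    ∀ N : ℕ, ∫ m, m ^ 2 ∂(msgLaw q θ π N) ≤ Cp * s := by
    refine ⟨√(6 * |B|), Real.sqrt_nonneg _, fun θ h0 h1 π τ s hπ hs0 hs1 hB N => ?_⟩
    have h2 := msg_second_le hq h0 h1 hπ N
    have h3 : (∫ m, m ^ 2 ∂(msgLaw q θ π N)) ^ 2 ≤ (√(6 * |B|) * s) ^ 2 := by
      rw [mul_pow, Real.sq_sqrt (by positivity)]
      have h4 : B * s ^ 2 ≤ |B| * s ^ 2 := mul_le_mul_of_nonneg_right (le_abs_self B) (by positivity)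
      linarith
    exact (abs_le_of_sq_le_sq' h3 (by positivity)).2
  induction p, hp using Nat.le_induction with
  | base =>
    obtain ⟨C, hC0, hC⟩ := hbase
    refine ⟨C, hC0, fun θ h0 h1 π τ s hπ hs0 hs1 hB _ N => ?_⟩
    rw [pow_one, mul_one]
    exact hC θ h0 h1 π τ s hπ hs0 hs1 hB N
  | succ p hp ih =>
    obtain ⟨C1, hC10, hC1⟩ := hbase
    obtain ⟨Cp, hCp0, hCp⟩ := ih
    obtain ⟨K, hK0, hK⟩ := comb_moment_le p
    set D : ℝ := |B| + q * (2 * K * (C1 * Cp)) with hD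
    have hD0 : 0 ≤ D := by positivity
    refine ⟨2 * D, by positivity, fun θ h0 h1 π τ s hπ hs0 hs1 hB hBl N => ?_⟩
    have hθ := theta_le hq h0 h1
    have hθ1 : θ ≤ 1 := hθ.trans (by norm_num)
    have hq2 : (2:ℝ) ≤ q := by exact_mod_cast hq
    have hθ2 : θ ^ 2 ≤ 1 / 2 := by nlinarith [sq_nonneg θ]
    have hqθ : (q:ℝ) * θ ^ (2 * (p + 1)) ≤ 1 / 2 := by
      have e1 : (q:ℝ) * θ ^ (2 * (p + 1)) = (q * θ ^ 2) * (θ ^ 2) ^ p := by
        rw [← pow_mul, mul_add, pow_add]; ring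
      rw [e1]
      have h2 : (θ ^ 2) ^ p ≤ θ ^ 2 := by
        calc (θ ^ 2) ^ p ≤ (θ ^ 2) ^ 1 :=
              pow_le_pow_of_le_one (sq_nonneg θ) (by linarith) hp
          _ = θ ^ 2 := pow_one _
      calc (q * θ ^ 2) * (θ ^ 2) ^ p ≤ 1 * θ ^ 2 :=
            mul_le_mul h1 h2 (by positivity) (by norm_num)
        _ ≤ 1 / 2 := by linarith
    have hmom1 := hC1 θ h0 h1 π τ s hπ hs0 hs1 hB
    have hmomp := hCp θ h0 h1 π τ s hπ hs0 hs1 hB (fun l h2 h3 => hBl l h2 (by omega))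
    induction N with
    | zero =>
      have h2 := hBl (p + 1) (by omega) le_rfl
      show ∫ m, m ^ (2 * (p + 1)) ∂π ≤ 2 * D * s ^ (p + 1)
      have h3 : B * s ^ (p + 1) ≤ |B| * s ^ (p + 1) :=
        mul_le_mul_of_nonneg_right (le_abs_self B) (by positivity)
      have h4 : |B| * s ^ (p + 1) ≤ (2 * D) * s ^ (p + 1) := by
        apply mul_le_mul_of_nonneg_right _ (by positivity)
        have : 0 ≤ (q:ℝ) * (2 * K * (C1 * Cp)) := by positivity
        have := abs_nonneg B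
        rw [hD]; linarith
      linarith
    | succ N ihN =>
      obtain ⟨σ, hσ⟩ := msgLaw_site q h0 hθ1 hπ N
      have hρ := scale_site hσ h0 hθ
      set ρ := (msgLaw q θ π N).map (fun m => θ * m) with hρdef
      have hρ1 : ∫ x, x ^ 2 ∂ρ ≤ C1 * s := by
        rw [hρdef, scale_second]
        calc θ ^ 2 * ∫ x, x ^ 2 ∂(msgLaw q θ π N) ≤ 1 * ∫ x, x ^ 2 ∂(msgLaw q θ π N) :=
              mul_le_mul_of_nonneg_right (by linarith) (second_nonneg _)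
          _ ≤ C1 * s := by rw [one_mul]; exact hmom1 N
      have hρp : ∫ x, x ^ (2 * p) ∂ρ ≤ Cp * s ^ p := by
        rw [hρdef, scale_moment]
        calc θ ^ (2 * p) * ∫ x, x ^ (2 * p) ∂(msgLaw q θ π N) ≤
              1 * ∫ x, x ^ (2 * p) ∂(msgLaw q θ π N) :=
              mul_le_mul_of_nonneg_right (pow_le_one₀ h0 hθ1) (even_moment_nonneg _ _)
          _ ≤ Cp * s ^ p := by rw [one_mul]; exact hmomp N
      have hj : ∀ j : ℕ, j ≤ q → ∫ x, x ^ (2 * (p + 1)) ∂((fun μ => comb μ ρ)^[j] π) ≤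
          ∫ x, x ^ (2 * (p + 1)) ∂π +
            j * (∫ x, x ^ (2 * (p + 1)) ∂ρ + 2 * K * (C1 * Cp) * s ^ (p + 1)) := by
        intro j
        induction j with
        | zero =>
          intro _
          rw [Function.iterate_zero]
          simp
        | succ j ihj =>
          intro hjq
          have h2 := ihj (by omega)
          obtain ⟨σj, hσj⟩ := hπ.iter hρ j
          have hinc := iter_incr hπ hρ (show j ≤ q by omega)
          rw [hρdef, ← msgLaw_succ] at hinc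
          have hm1 : ∫ x, x ^ 2 ∂((fun μ => comb μ ρ)^[j] π) ≤ C1 * s := by
            have h3 := hinc _ (cx_pow 1)
            simp only [mul_one] at h3
            exact h3.trans (hmom1 (N + 1))
          have hmp : ∫ x, x ^ (2 * p) ∂((fun μ => comb μ ρ)^[j] π) ≤ Cp * s ^ p := by
            have h3 := hinc _ (cx_pow p)
            exact h3.trans (hmomp (N + 1))
          rw [Function.iterate_succ_apply']
          have h3 := hK ((fun μ => comb μ ρ)^[j] π) ρ σj hσj hρ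
          have h4 : (∫ x, x ^ (2 * p) ∂((fun μ => comb μ ρ)^[j] π)) * (∫ x, x ^ 2 ∂ρ) ≤
              (Cp * s ^ p) * (C1 * s) :=
            mul_le_mul hmp hρ1 (second_nonneg _) (by positivity)
          have h5 : (∫ x, x ^ 2 ∂((fun μ => comb μ ρ)^[j] π)) * (∫ x, x ^ (2 * p) ∂ρ) ≤
              (C1 * s) * (Cp * s ^ p) :=
            mul_le_mul hm1 hρp (even_moment_nonneg _ _) (by positivity)
          have h6 : K * ((∫ x, x ^ (2 * p) ∂((fun μ => comb μ ρ)^[j] π)) * (∫ x, x ^ 2 ∂ρ) +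
              (∫ x, x ^ 2 ∂((fun μ => comb μ ρ)^[j] π)) * (∫ x, x ^ (2 * p) ∂ρ)) ≤
              2 * K * (C1 * Cp) * s ^ (p + 1) := by
            calc _ ≤ K * ((Cp * s ^ p) * (C1 * s) + (C1 * s) * (Cp * s ^ p)) :=
                  mul_le_mul_of_nonneg_left (add_le_add h4 h5) hK0
              _ = 2 * K * (C1 * Cp) * s ^ (p + 1) := by rw [pow_succ]; ring
          push_cast
          linarith
      have h2 := hj q le_rfl
      rw [hρdef, scale_moment, ← msgLaw_succ] at h2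
      have h3 := hBl (p + 1) (by omega) le_rfl
      have h4 : B * s ^ (p + 1) ≤ |B| * s ^ (p + 1) :=
        mul_le_mul_of_nonneg_right (le_abs_self B) (by positivity)
      have hy0 := even_moment_nonneg (msgLaw q θ π N) (p + 1)
      have h5 : (q:ℝ) * (θ ^ (2 * (p + 1)) * ∫ m, m ^ (2 * (p + 1)) ∂(msgLaw q θ π N)) ≤
          1 / 2 * (2 * D * s ^ (p + 1)) := by
        rw [← mul_assoc]
        exact mul_le_mul hqθ ihN hy0 (by norm_num)
      have h6 : (q:ℝ) * (2 * K * (C1 * Cp) * s ^ (p + 1)) = D * s ^ (p + 1) - |B| * s ^ (p + 1) := by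
        rw [hD]; ring
      rw [mul_add (q:ℝ), h6] at h2
      linarith

end Crest.Agent.FreeIs
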