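import Crest.Agent.FreeIs.Defs

/-!
S0241, sampler part 1: the one-dimensional channel.
-/

set_option autoImplicit false

open MeasureTheory Set unitInterval

namespace Crest.Agent.FreeIs.Samp

/-- distribution function of the density `(1 + κ y) / 2` on `[-1,1]` -/
noncomputable def Fy (κ y : ℝ) : ℝ := (1 + y) / 2 + κ * (y ^ 2 - 1) / 4

theorem Fy_sub (κ y y' : ℝ) : Fy κ y - Fy κ y' = (y - y') * (2 + κ * (y + y')) / 4 := by
  unfold Fy; ring

theorem qy_disc_pos {κ w : ℝ} (hκ : |κ| ≤ 1 / 2) (hw : w ∈ Icc (0 : ℝ) 1) :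
    0 < (1 - κ) ^ 2 + 4 * κ * w := by
  obtain ⟨h1, h2⟩ := abs_le.1 hκ
  obtain ⟨hw0, hw1⟩ := hw
  by_cases h : 0 ≤ κ
  · have : 0 ≤ 4 * κ * w := by positivity
    nlinarith
  · push Not at h
    nlinarith

theorem Fy_qy {κ w : ℝ} (hκ : |κ| ≤ 1 / 2) (hw : w ∈ Icc (0 : ℝ) 1) : Fy κ (qy κ w) = w := by
  have hD := qy_disc_pos hκ hw
  have hsq := Real.sq_sqrt hD.le
  have hs := Real.sqrt_nonneg ((1 - κ) ^ 2 + 4 * κ * w)
  unfold Fy qy
  set D := √((1 - κ) ^ 2 + 4 * κ * w) with hDdef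
  have h1 : (1 : ℝ) + D ≠ 0 := by positivity
  field_simp
  have e : D ^ 2 = (1 - κ) ^ 2 + 4 * κ * w := hsq
  linear_combination (-2 * (κ + 4 * w - 2)) * e

theorem qy_mem {κ w : ℝ} (hκ : |κ| ≤ 1 / 2) (hw : w ∈ Icc (0 : ℝ) 1) :
    qy κ w ∈ Icc (-1 : ℝ) 1 := by
  obtain ⟨h1, h2⟩ := abs_le.1 hκ
  have hD := qy_disc_pos hκ hw
  have hsq := Real.sq_sqrt hD.le
  have hs := Real.sqrt_nonneg ((1 - κ) ^ 2 + 4 * κ * w)
  obtain ⟨hw0, hw1⟩ := hw
  have hp : (0 : ℝ) < 1 + √((1 - κ) ^ 2 + 4 * κ * w) := by linarith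
  unfold qy
  constructor
  · rw [le_div_iff₀ hp]
    have : 1 - κ - 4 * w ≤ √((1 - κ) ^ 2 + 4 * κ * w) := by
      rcases le_or_gt (1 - κ - 4 * w) 0 with h | h
      · linarith
      · apply Real.le_sqrt_of_sq_le
        nlinarith [mul_nonneg hw0 (show (0 : ℝ) ≤ 2 - κ - 4 * w by linarith)]
    linarith
  · rw [div_le_one hp]
    have : 4 * w - 3 + κ ≤ √((1 - κ) ^ 2 + 4 * κ * w) := by
      rcases le_or_gt (4 * w - 3 + κ) 0 with h | h
      · linarith
      · apply Real.le_sqrt_of_sq_le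
        nlinarith [mul_nonneg (sub_nonneg.2 hw1) (show (0 : ℝ) ≤ 4 * w - 2 + κ by linarith)]
    linarith

theorem Fy_mem {κ y : ℝ} (hκ : |κ| ≤ 1 / 2) (hy : y ∈ Icc (-1 : ℝ) 1) :
    Fy κ y ∈ Icc (0 : ℝ) 1 := by
  obtain ⟨h1, h2⟩ := abs_le.1 hκ
  obtain ⟨hy0, hy1⟩ := hy
  have e1 : Fy κ y = (1 + y) * (2 - κ * (1 - y)) / 4 := by unfold Fy; ring
  have e2 : 1 - Fy κ y = (1 - y) * (2 + κ * (1 + y)) / 4 := by unfold Fy; ring
  constructor
  · rw [e1]
    have : 0 ≤ 2 - κ * (1 - y) := by nlinarith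
    have : 0 ≤ (1 + y) * (2 - κ * (1 - y)) := mul_nonneg (by linarith) this
    linarith
  · have : 0 ≤ 2 + κ * (1 + y) := by nlinarith
    have : 0 ≤ (1 - y) * (2 + κ * (1 + y)) := mul_nonneg (by linarith) this
    linarith

theorem Fy_le_iff {κ y y' : ℝ} (hκ : |κ| ≤ 1 / 2) (hy : y ∈ Icc (-1 : ℝ) 1)
    (hy' : y' ∈ Icc (-1 : ℝ) 1) : Fy κ y ≤ Fy κ y' ↔ y ≤ y' := by
  obtain ⟨h1, h2⟩ := abs_le.1 hκ
  have h := Fy_sub κ y' y
  have s : 0 < 2 + κ * (y' + y) := by nlinarith [hy.1, hy.2, hy'.1, hy'.2]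
  constructor
  · intro h3
    by_contra h4
    push Not at h4
    have : (y' - y) * (2 + κ * (y' + y)) < 0 := mul_neg_of_neg_of_pos (by linarith) s
    linarith
  · intro h3
    have : 0 ≤ (y' - y) * (2 + κ * (y' + y)) := mul_nonneg (by linarith) s.le
    linarith

theorem qy_le_iff {κ w y : ℝ} (hκ : |κ| ≤ 1 / 2) (hw : w ∈ Icc (0 : ℝ) 1)
    (hy : y ∈ Icc (-1 : ℝ) 1) : qy κ w ≤ y ↔ w ≤ Fy κ y := by
  rw [← Fy_le_iff hκ (qy_mem hκ hw) hy, Fy_qy hκ hw]

theorem qy_sub_le {κ κ' w : ℝ} (hκ : |κ| ≤ 1 / 2) (hκ' : |κ'| ≤ 1 / 2) (hw : w ∈ Icc (0 : ℝ) 1) :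
    |qy κ w - qy κ' w| ≤ |κ - κ'| := by
  have h1 := qy_mem hκ hw
  have h2 := qy_mem hκ' hw
  have e1 := Fy_qy hκ hw
  have e2 := Fy_qy hκ' hw
  obtain ⟨k1, k2⟩ := abs_le.1 hκ
  set y := qy κ w
  set y' := qy κ' w
  have h3 := Fy_sub κ y y'
  have h4 : Fy κ y - Fy κ y' = (κ - κ') * (1 - y' ^ 2) / 4 := by
    rw [e1]
    conv_lhs => rw [← e2]
    unfold Fy; ring
  rw [h3] at h4
  have s : 1 ≤ 2 + κ * (y + y') := by nlinarith [h1.1, h1.2, h2.1, h2.2]
  have hyy : 0 ≤ 1 - y' ^ 2 := by nlinarith [h2.1, h2.2]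
  have h5 : |y - y'| * (2 + κ * (y + y')) = |κ - κ'| * (1 - y' ^ 2) := by
    have h6 : (y - y') * (2 + κ * (y + y')) = (κ - κ') * (1 - y' ^ 2) := by linarith
    have := congrArg abs h6
    rwa [abs_mul, abs_mul, abs_of_pos (by linarith : 0 < 2 + κ * (y + y')), abs_of_nonneg hyy]
      at this
  have h6 : |κ - κ'| * (1 - y' ^ 2) ≤ |κ - κ'| * 1 :=
    mul_le_mul_of_nonneg_left (by nlinarith [sq_nonneg y']) (abs_nonneg _)
  have h7 : |y - y'| * 1 ≤ |y - y'| * (2 + κ * (y + y')) :=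
    mul_le_mul_of_nonneg_left s (abs_nonneg _)
  linarith

theorem qy_measurable : Measurable (fun p : ℝ × ℝ => qy p.1 p.2) := by
  unfold qy; fun_prop

theorem eta_measurable : Measurable eta := by unfold eta; fun_prop

theorem eta_nonneg (r : ℝ) : 0 ≤ eta r := by unfold eta; positivity

theorem eta_le {r : ℝ} (hr : r ≤ 1) : eta r ≤ 1 / 2 := by
  unfold eta
  have : √r ≤ 1 := by
    rw [show (1 : ℝ) = √1 by simp]
    exact Real.sqrt_le_sqrt hr
  linarith

theorem abs_eta_mul_le {r M : ℝ} (hr : r ≤ 1) (hM : |M| ≤ 1) : |eta r * M| ≤ 1 / 2 := by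
  rw [abs_mul, abs_of_nonneg (eta_nonneg r)]
  calc eta r * |M| ≤ 1 / 2 * 1 :=
        mul_le_mul (eta_le hr) hM (abs_nonneg _) (by norm_num)
    _ = 1 / 2 := by norm_num

theorem volume_le_real {b : ℝ} (hb : b ∈ Icc (0 : ℝ) 1) :
    (volume : Measure I) {t : I | (t : ℝ) ≤ b} = ENNReal.ofReal b := by
  have : {t : I | (t : ℝ) ≤ b} = Set.Iic (⟨b, hb⟩ : I) := by
    ext t; simp [← Subtype.coe_le_coe]
  rw [this, unitInterval.volume_Iic]

theorem integral_dens (κ b : ℝ) :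
    ∫ t in (0 : ℝ)..b, (1 + κ * (2 * t - 1)) = Fy κ (2 * b - 1) := by
  have h : ∀ t ∈ Set.uIcc 0 b, HasDerivAt (fun t => t + κ * (t ^ 2 - t)) (1 + κ * (2 * t - 1)) t := by
    intro t _
    have h1 : HasDerivAt (fun y : ℝ => y + κ * (y ^ 2 - y))
        (1 + κ * ((2 : ℕ) * t ^ (2 - 1) - 1)) t :=
      (hasDerivAt_id t).add (((hasDerivAt_pow 2 t).sub (hasDerivAt_id t)).const_mul _)
    convert h1 using 1
    simp
  rw [intervalIntegral.integral_eq_sub_of_hasDerivAt h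
    ((by fun_prop : Continuous fun t : ℝ => 1 + κ * (2 * t - 1)).intervalIntegrable _ _)]
  unfold Fy; ring

theorem lint_dens {κ b : ℝ} (hκ : |κ| ≤ 1 / 2) (hb : b ∈ Icc (0 : ℝ) 1) :
    ∫⁻ t in {t : I | (t : ℝ) ≤ b}, ENNReal.ofReal (1 + κ * (2 * (t : ℝ) - 1)) =
      ENNReal.ofReal (Fy κ (2 * b - 1)) := by
  obtain ⟨k1, k2⟩ := abs_le.1 hκ
  have hd : Measurable (fun y : ℝ => ENNReal.ofReal (1 + κ * (2 * y - 1))) := by fun_prop
  have h1 : ∫⁻ t in {t : I | (t : ℝ) ≤ b}, ENNReal.ofReal (1 + κ * (2 * (t : ℝ) - 1)) =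
      ∫⁻ y in Iic b, ENNReal.ofReal (1 + κ * (2 * y - 1))
        ∂((volume : Measure I).map (fun t : I => (t : ℝ))) := by
    rw [setLIntegral_map measurableSet_Iic hd measurable_subtype_coe]
    rfl
  rw [h1, unitInterval.measurePreserving_coe.map_eq,
    Measure.restrict_restrict measurableSet_Iic]
  have h2 : Iic b ∩ (I : Set ℝ) = Icc 0 b := by
    ext t
    simp only [mem_inter_iff, mem_Iic, mem_Icc]
    constructor
    · rintro ⟨h3, h4⟩; exact ⟨h4.1, h3⟩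
    · rintro ⟨h3, h4⟩; exact ⟨h4, h3, h4.trans hb.2⟩
  rw [h2, ← integral_dens κ b, intervalIntegral.integral_of_le hb.1,
    ← integral_Icc_eq_integral_Ioc, ofReal_integral_eq_lintegral_ofReal]
  · exact (by fun_prop : Continuous fun t : ℝ => 1 + κ * (2 * t - 1)).continuousOn.integrableOn_Icc
  · rw [Filter.EventuallyLE, ae_restrict_iff' measurableSet_Icc]
    filter_upwards with t ht
    have h3 : t ≤ 1 := ht.2.trans hb.2
    have h4 : 0 ≤ t := ht.1
    simp only [Pi.zero_apply]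
    nlinarith

/-- law of `qy κ w` for uniform `w` -/
theorem map_qy {κ : ℝ} (hκ : |κ| ≤ 1 / 2) :
    (volume : Measure I).map (fun t : I => qy κ t) =
      ((volume : Measure I).map (fun t : I => 2 * (t : ℝ) - 1)).withDensity
        (fun y => ENNReal.ofReal (1 + κ * y)) := by
  have hQ : Measurable (fun t : I => qy κ t) :=
    qy_measurable.comp (measurable_const.prodMk measurable_subtype_coe)
  have hL : Measurable (fun t : I => 2 * (t : ℝ) - 1) := by fun_prop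
  have hd : Measurable (fun y : ℝ => ENNReal.ofReal (1 + κ * y)) := by fun_prop
  have : IsProbabilityMeasure ((volume : Measure I).map (fun t : I => qy κ t)) :=
    Measure.isProbabilityMeasure_map hQ.aemeasurable
  apply Measure.ext_of_Iic
  intro a
  rw [Measure.map_apply hQ measurableSet_Iic, withDensity_apply _ measurableSet_Iic,
    setLIntegral_map measurableSet_Iic hd hL]
  have hpre : (fun t : I => 2 * (t : ℝ) - 1) ⁻¹' Iic a = {t : I | (t : ℝ) ≤ (a + 1) / 2} := by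
    ext t
    simp only [mem_preimage, mem_Iic, mem_ofPred_eq]
    constructor <;> intro h <;> linarith
  rw [hpre]
  rcases lt_or_ge a (-1) with ha | ha
  · have h1 : (fun t : I => qy κ t) ⁻¹' Iic a = ∅ := by
      ext t
      simp only [mem_preimage, mem_Iic, mem_empty_iff_false, iff_false, not_le]
      have := (qy_mem hκ t.2).1
      linarith
    have h2 : {t : I | (t : ℝ) ≤ (a + 1) / 2} = ∅ := by
      ext t
      simp only [mem_ofPred_eq, mem_empty_iff_false, iff_false, not_le]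
      have := t.2.1
      linarith
    rw [h1, h2]
    simp
  · set a' := min a 1 with ha'
    have ha'm : a' ∈ Icc (-1 : ℝ) 1 := ⟨le_min ha (by norm_num), min_le_right _ _⟩
    have h1 : (fun t : I => qy κ t) ⁻¹' Iic a = {t : I | (t : ℝ) ≤ Fy κ a'} := by
      ext t
      simp only [mem_preimage, mem_Iic, mem_ofPred_eq]
      rw [← qy_le_iff hκ t.2 ha'm, ha', le_min_iff]
      have := (qy_mem hκ t.2).2
      tauto
    have h2 : {t : I | (t : ℝ) ≤ (a + 1) / 2} = {t : I | (t : ℝ) ≤ (a' + 1) / 2} := by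
      ext t
      simp only [mem_ofPred_eq, ha']
      have := t.2.2
      rcases le_total a 1 with h | h
      · rw [min_eq_left h]
      · rw [min_eq_right h]
        constructor <;> intro _ <;> linarith
    rw [h1, h2, volume_le_real (Fy_mem hκ ha'm),
      lint_dens hκ ⟨by linarith [ha'm.1], by linarith [ha'm.2]⟩]
    congr 1
    congr 1
    ring

theorem lintegral_qy {κ : ℝ} (hκ : |κ| ≤ 1 / 2) {ψ : ℝ → ENNReal} (hψ : Measurable ψ) :
    ∫⁻ t : I, ψ (qy κ t) =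
      ∫⁻ t : I, ψ (2 * (t : ℝ) - 1) * ENNReal.ofReal (1 + κ * (2 * (t : ℝ) - 1)) := by
  have hQ : Measurable (fun t : I => qy κ t) :=
    qy_measurable.comp (measurable_const.prodMk measurable_subtype_coe)
  have hL : Measurable (fun t : I => 2 * (t : ℝ) - 1) := by fun_prop
  have hd : Measurable (fun y : ℝ => ENNReal.ofReal (1 + κ * y)) := by fun_prop
  rw [← lintegral_map hψ hQ, map_qy hκ, lintegral_withDensity_eq_lintegral_mul _ hd hψ,
    lintegral_map (hd.mul hψ) hL]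
  apply lintegral_congr
  intro t
  simp only [Pi.mul_apply]
  ring

theorem integral_qy {κ : ℝ} (hκ : |κ| ≤ 1 / 2) {ψ : ℝ → ℝ} (hψ : Measurable ψ) :
    ∫ t : I, ψ (qy κ t) = ∫ t : I, ψ (2 * (t : ℝ) - 1) * (1 + κ * (2 * (t : ℝ) - 1)) := by
  obtain ⟨k1, k2⟩ := abs_le.1 hκ
  have hQ : Measurable (fun t : I => qy κ t) :=
    qy_measurable.comp (measurable_const.prodMk measurable_subtype_coe)
  have hL : Measurable (fun t : I => 2 * (t : ℝ) - 1) := by fun_prop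
  have hd : Measurable (fun y : ℝ => Real.toNNReal (1 + κ * y)) := by fun_prop
  rw [← integral_map hQ.aemeasurable hψ.aestronglyMeasurable, map_qy hκ]
  have : (fun y : ℝ => ENNReal.ofReal (1 + κ * y)) = fun y => ((Real.toNNReal (1 + κ * y) : NNReal) :
      ENNReal) := rfl
  rw [this, integral_withDensity_eq_integral_smul hd, integral_map hL.aemeasurable]
  · apply integral_congr_ae
    filter_upwards with t
    have ht0 := t.2.1
    have ht1 := t.2.2
    have : 0 ≤ 1 + κ * (2 * (t : ℝ) - 1) := by nlinarith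
    rw [NNReal.smul_def, Real.coe_toNNReal _ this, smul_eq_mul]
    ring
  · exact (hd.smul hψ).aestronglyMeasurable

theorem integral_centered : ∫ t : I, (2 * (t : ℝ) - 1) = 0 := by
  have h := integral_qy (κ := 0) (by norm_num) (ψ := fun _ => (1 : ℝ)) measurable_const
  have h1 : ∫ t : I, (2 * (t : ℝ) - 1) = ∫ y in Icc (0 : ℝ) 1, (2 * y - 1) := by
    have hm : Measurable fun y : ℝ => 2 * y - 1 := by fun_prop
    rw [← integral_map (μ := (volume : Measure I)) (φ := fun t : I => (t : ℝ)) (f := fun y => 2 * y - 1)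
      measurable_subtype_coe.aemeasurable hm.aestronglyMeasurable,
      unitInterval.measurePreserving_coe.map_eq]
  rw [h1, integral_Icc_eq_integral_Ioc, ← intervalIntegral.integral_of_le zero_le_one]
  have h2 : ∀ t ∈ Set.uIcc (0 : ℝ) 1, HasDerivAt (fun t => t ^ 2 - t) (2 * t - 1) t := by
    intro t _
    have h3 : HasDerivAt (fun t : ℝ => t ^ 2 - t) ((2 : ℕ) * t ^ (2 - 1) - 1) t :=
      (hasDerivAt_pow 2 t).sub (hasDerivAt_id t)
    convert h3 using 1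
    norm_num
  rw [intervalIntegral.integral_eq_sub_of_hasDerivAt h2
    ((by fun_prop : Continuous fun t : ℝ => 2 * t - 1).intervalIntegrable _ _)]
  norm_num

/-! ### The jump function -/

theorem jmp_den_pos {h M w : ℝ} (hh : |h * M| ≤ 1 / 2) (hw : w ∈ Icc (0 : ℝ) 1) :
    1 / 2 ≤ 1 + h * M * qy (h * M) w := by
  have h1 := qy_mem hh hw
  have : |h * M * qy (h * M) w| ≤ 1 / 2 * 1 := by
    rw [abs_mul]
    exact mul_le_mul hh (abs_le.2 ⟨h1.1, h1.2⟩) (abs_nonneg _) (by norm_num)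
  have := (abs_le.1 this).1
  linarith

theorem jmp_measurable : Measurable (fun p : ℝ × ℝ × ℝ => jmp p.1 p.2.1 p.2.2) := by
  unfold jmp qy; fun_prop

theorem jmp_abs_le {h M w : ℝ} (h0 : 0 ≤ h) (hh : |h * M| ≤ 1 / 2) (hw : w ∈ Icc (0 : ℝ) 1) :
    |jmp h M w| ≤ 2 * h := by
  have h1 := qy_mem hh hw
  have h2 := jmp_den_pos hh hw
  unfold jmp
  rw [abs_div, abs_of_pos (by linarith : 0 < 1 + h * M * qy (h * M) w),
    div_le_iff₀ (by linarith), abs_mul, abs_of_nonneg h0]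
  have h3 : |qy (h * M) w| ≤ 1 := abs_le.2 ⟨h1.1, h1.2⟩
  nlinarith

theorem integral_jmp {h M : ℝ} (hh : |h * M| ≤ 1 / 2) : ∫ t : I, jmp h M t = 0 := by
  obtain ⟨k1, k2⟩ := abs_le.1 hh
  have hm : Measurable (fun y : ℝ => h * y / (1 + h * M * y)) := by fun_prop
  have := integral_qy hh hm
  have e1 : ∫ t : I, jmp h M t = ∫ t : I, (fun y : ℝ => h * y / (1 + h * M * y)) (qy (h * M) t) :=
    rfl
  rw [e1, this]
  have e2 : ∀ t : I, (fun y : ℝ => h * y / (1 + h * M * y)) (2 * (t : ℝ) - 1) *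
      (1 + h * M * (2 * (t : ℝ) - 1)) = h * (2 * (t : ℝ) - 1) := by
    intro t
    have ht0 := t.2.1
    have ht1 := t.2.2
    have : 0 < 1 + h * M * (2 * (t : ℝ) - 1) := by nlinarith
    exact div_mul_cancel₀ _ this.ne'
  simp_rw [e2]
  rw [integral_const_mul, integral_centered, mul_zero]

theorem jmp_sub_le {h M M' w : ℝ} (h0 : 0 ≤ h) (h1 : h ≤ 1 / 2) (hM : |M| ≤ 1) (hM' : |M'| ≤ 1)
    (hw : w ∈ Icc (0 : ℝ) 1) : |jmp h M w - jmp h M' w| ≤ 4 * h * |M - M'| := by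
  have hh : |h * M| ≤ 1 / 2 := by
    rw [abs_mul, abs_of_nonneg h0]; nlinarith [abs_nonneg M]
  have hh' : |h * M'| ≤ 1 / 2 := by
    rw [abs_mul, abs_of_nonneg h0]; nlinarith [abs_nonneg M']
  have a1 := qy_mem hh hw
  have a2 := qy_mem hh' hw
  have d1 := jmp_den_pos hh hw
  have d2 := jmp_den_pos hh' hw
  have hl := qy_sub_le hh hh' hw
  unfold jmp
  set y := qy (h * M) w
  set y' := qy (h * M') w
  have e : h * y / (1 + h * M * y) - h * y' / (1 + h * M' * y') =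
      h * ((y - y') - h * (M - M') * (y * y')) / ((1 + h * M * y) * (1 + h * M' * y')) := by
    have n1 : (1 + h * M * y) ≠ 0 := by linarith
    have n2 : (1 + h * M' * y') ≠ 0 := by linarith
    rw [div_sub_div _ _ n1 n2]
    congr 1
    ring
  have hp : 0 < (1 + h * M * y) * (1 + h * M' * y') := mul_pos (by linarith) (by linarith)
  have hp' : 1 / 4 ≤ (1 + h * M * y) * (1 + h * M' * y') := by nlinarith
  rw [e, abs_div, abs_of_pos hp, div_le_iff₀ hp, abs_mul, abs_of_nonneg h0]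
  have hyy : |y * y'| ≤ 1 := by
    rw [abs_mul]
    have := abs_le.2 ⟨a1.1, a1.2⟩
    have := abs_le.2 ⟨a2.1, a2.2⟩
    calc |y| * |y'| ≤ 1 * 1 := mul_le_mul (by assumption) (by assumption) (abs_nonneg _) (by norm_num)
      _ = 1 := by norm_num
  have b1 : |y - y'| ≤ h * |M - M'| := by
    refine hl.trans ?_
    rw [← mul_sub, abs_mul, abs_of_nonneg h0]
  have b2 : |h * (M - M') * (y * y')| ≤ h * |M - M'| := by
    rw [abs_mul, abs_mul, abs_of_nonneg h0]
    have : 0 ≤ h * |M - M'| := by positivity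
    nlinarith
  have b3 : |(y - y') - h * (M - M') * (y * y')| ≤ 2 * (h * |M - M'|) := by
    refine (abs_sub _ _).trans ?_
    linarith
  have b4 : h * |(y - y') - h * (M - M') * (y * y')| ≤ h * |M - M'| := by
    have := mul_le_mul_of_nonneg_left b3 h0
    have h5 : h * (2 * (h * |M - M'|)) ≤ 1 * (h * |M - M'|) := by
      have : 0 ≤ h * |M - M'| := by positivity
      nlinarith
    linarith
  have b5 : 0 ≤ h * |M - M'| := by positivity
  nlinarith

/-- The bound on the squared increment. -/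
theorem jump_sq_le {h M M' C C' w : ℝ} (h0 : 0 ≤ h) (h1 : h ≤ 1 / 2) (hM : |M| ≤ 1)
    (hM' : |M'| ≤ 1) (hw : w ∈ Icc (0 : ℝ) 1) :
    (C * jmp h M w - C' * jmp h M' w) ^ 2 ≤
      h ^ 2 * (8 * (C - C') ^ 2 + 32 * C' ^ 2 * (M - M') ^ 2) := by
  have hh : |h * M| ≤ 1 / 2 := by
    rw [abs_mul, abs_of_nonneg h0]; nlinarith [abs_nonneg M]
  have a1 := jmp_abs_le h0 hh hw
  have a2 := jmp_sub_le h0 h1 hM hM' hw
  have e : C * jmp h M w - C' * jmp h M' w =
      (C - C') * jmp h M w + C' * (jmp h M w - jmp h M' w) := by ring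
  rw [e]
  have b1 : (jmp h M w) ^ 2 ≤ (2 * h) ^ 2 := by
    rw [← sq_abs]; exact pow_le_pow_left₀ (abs_nonneg _) a1 2
  have b2 : (jmp h M w - jmp h M' w) ^ 2 ≤ (4 * h * |M - M'|) ^ 2 := by
    rw [← sq_abs]; exact pow_le_pow_left₀ (abs_nonneg _) a2 2
  have b3 : (4 * h * |M - M'|) ^ 2 = 16 * h ^ 2 * (M - M') ^ 2 := by
    rw [mul_pow, sq_abs]; ring
  rw [b3] at b2
  have c1 : ((C - C') * jmp h M w + C' * (jmp h M w - jmp h M' w)) ^ 2 ≤
      2 * ((C - C') ^ 2 * (jmp h M w) ^ 2) + 2 * (C' ^ 2 * (jmp h M w - jmp h M' w) ^ 2) := by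
    nlinarith [sq_nonneg ((C - C') * jmp h M w - C' * (jmp h M w - jmp h M' w))]
  have c2 : (C - C') ^ 2 * (jmp h M w) ^ 2 ≤ (C - C') ^ 2 * (2 * h) ^ 2 :=
    mul_le_mul_of_nonneg_left b1 (sq_nonneg _)
  have c3 : C' ^ 2 * (jmp h M w - jmp h M' w) ^ 2 ≤ C' ^ 2 * (16 * h ^ 2 * (M - M') ^ 2) :=
    mul_le_mul_of_nonneg_left b2 (sq_nonneg _)
  nlinarith

end Crest.Agent.FreeIs.Samp
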