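import Crest.Agent.FreeIs.Samp9

/-!
S0241, sampler part 10: change of variables in one round.
-/

set_option autoImplicit false
set_option linter.style.haveILetI false

open Set MeasureTheory Measure unitInterval

universe u

namespace Crest.Agent.FreeIs.Samp

variable {V : Type u} (G : SimpleGraph V)

open Classical in
/-- observing the sites of the list one after the other -/
noncomputable def run (θ : ℝ) (Λ : Finset V) (T U : V → ℝ) : List V → (V → ℝ) → V → ℝ
  | [], t => t
  | w :: l, t => run θ Λ T U l (Function.update t w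
      (ein (t w) (eta (T w) * qy (eta (T w) * mag G θ Λ t w) (U w))))

open Classical in
/-- independent reference observations -/
noncomputable def lin (T U : V → ℝ) : List V → (V → ℝ) → V → ℝ
  | [], t => t
  | w :: l, t => lin T U l (Function.update t w (ein (t w) (eta (T w) * (2 * U w - 1))))

/-- site weights -/
noncomputable def lw (T U : V → ℝ) : List V → (V → ℝ) → ℝ
  | [], _ => 1
  | w :: l, t => (1 + t w * (eta (T w) * (2 * U w - 1))) * lw T U l t

/-- density -/
noncomputable def dns (θ : ℝ) (Λ : Finset V) (T U : V → ℝ) (l : List V) (t : V → ℝ) : ℝ :=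
  lw T U l t * Zf G θ Λ (lin T U l t) / Zf G θ Λ t

theorem run_congr {θ : ℝ} {Λ : Finset V} {T U U' : V → ℝ} (l : List V) (h : ∀ w ∈ l, U w = U' w)
    (t : V → ℝ) : run G θ Λ T U l t = run G θ Λ T U' l t := by
  induction l generalizing t with
  | nil => rfl
  | cons w l ih =>
    unfold run
    rw [ih (fun x hx => h x (List.mem_cons_of_mem _ hx)), h w List.mem_cons_self]

theorem lin_congr {T U U' : V → ℝ} (l : List V) (h : ∀ w ∈ l, U w = U' w)
    (t : V → ℝ) : lin T U l t = lin T U' l t := by
  induction l generalizing t with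
  | nil => rfl
  | cons w l ih =>
    unfold lin
    rw [ih (fun x hx => h x (List.mem_cons_of_mem _ hx)), h w List.mem_cons_self]

theorem lw_congr {T U U' : V → ℝ} (l : List V) {t t' : V → ℝ} (h : ∀ w ∈ l, U w = U' w)
    (h' : ∀ w ∈ l, t w = t' w) : lw T U l t = lw T U' l t' := by
  induction l with
  | nil => rfl
  | cons w l ih =>
    unfold lw
    rw [ih (fun x hx => h x (List.mem_cons_of_mem _ hx))
      (fun x hx => h' x (List.mem_cons_of_mem _ hx)), h w List.mem_cons_self,
      h' w List.mem_cons_self]

section Meas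

variable {P : Type*} [MeasurableSpace P]

open Classical in
theorem upd_measurable {t : P → V → ℝ} {f : P → ℝ} (ht : Measurable t) (hf : Measurable f) (w : V) :
    Measurable fun p => Function.update (t p) w (f p) := by
  rw [measurable_pi_iff]
  intro x
  by_cases h : x = w
  · subst h; simpa using hf
  · simp only [Function.update_of_ne h]
    exact (measurable_pi_apply x).comp ht

theorem run_measurable (θ : ℝ) (Λ : Finset V) (T : V → ℝ) (l : List V) {U t : P → V → ℝ}
    (hU : ∀ w, Measurable fun p => U p w) (ht : Measurable t) :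
    Measurable fun p => run G θ Λ T (U p) l (t p) := by
  induction l generalizing t with
  | nil => exact ht
  | cons w l ih =>
    have htw : Measurable fun p => t p w := (measurable_pi_apply w).comp ht
    have hm : Measurable fun p => mag G θ Λ (t p) w := (mag_measurable G θ Λ w).comp ht
    have h1 : Measurable fun p => eta (T w) * mag G θ Λ (t p) w := hm.const_mul _
    have h2 : Measurable fun p => qy (eta (T w) * mag G θ Λ (t p) w) (U p w) :=
      qy_measurable.comp (h1.prodMk (hU w))
    have h3 : Measurable fun p => ein (t p w)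
        (eta (T w) * qy (eta (T w) * mag G θ Λ (t p) w) (U p w)) :=
      ein_measurable.comp (htw.prodMk (h2.const_mul _))
    exact ih (upd_measurable ht h3 w)

theorem lin_measurable (T : V → ℝ) (l : List V) {U t : P → V → ℝ}
    (hU : ∀ w, Measurable fun p => U p w) (ht : Measurable t) :
    Measurable fun p => lin T (U p) l (t p) := by
  induction l generalizing t with
  | nil => exact ht
  | cons w l ih =>
    have htw : Measurable fun p => t p w := (measurable_pi_apply w).comp ht
    have h3 : Measurable fun p => ein (t p w) (eta (T w) * (2 * U p w - 1)) :=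
      ein_measurable.comp (htw.prodMk ((((hU w).const_mul 2).sub_const 1).const_mul _))
    exact ih (upd_measurable ht h3 w)

theorem lw_measurable (T : V → ℝ) (l : List V) {U t : P → V → ℝ}
    (hU : ∀ w, Measurable fun p => U p w) (ht : Measurable t) :
    Measurable fun p => lw T (U p) l (t p) := by
  induction l with
  | nil => exact measurable_const
  | cons w l ih =>
    have htw : Measurable fun p => t p w := (measurable_pi_apply w).comp ht
    have h3 : Measurable fun p => 1 + t p w * (eta (T w) * (2 * U p w - 1)) :=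
      (htw.mul ((((hU w).const_mul 2).sub_const 1).const_mul _)).const_add _
    exact h3.mul ih

theorem dns_measurable (θ : ℝ) (Λ : Finset V) (T : V → ℝ) (l : List V) {U t : P → V → ℝ}
    (hU : ∀ w, Measurable fun p => U p w) (ht : Measurable t) :
    Measurable fun p => dns G θ Λ T (U p) l (t p) :=
  ((lw_measurable T l hU ht).mul ((Zf_measurable G θ Λ).comp (lin_measurable T l hU ht))).div
    ((Zf_measurable G θ Λ).comp ht)

end Meas

theorem abs_upd_lt {t : V → ℝ} (ht : ∀ w, |t w| < 1) [DecidableEq V] (w : V) {r y : ℝ} (hr : r ≤ 1)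
    (hy : |y| ≤ 1) (x : V) : |Function.update t w (ein (t w) (eta r * y)) x| < 1 := by
  by_cases h : x = w
  · subst h
    rw [Function.update_self]
    apply ein_abs_lt (ht x)
    rw [abs_mul, abs_of_nonneg (eta_nonneg _)]
    have h1 := eta_le hr
    have h3 := eta_nonneg r
    nlinarith [abs_nonneg y]
  · rw [Function.update_of_ne h]; exact ht x

open Classical in
theorem UU_update (ω : Lab V) (j : ℕ) (w : V) (s : I) (x : V) :
    UU (Function.update ω (w, j, true) s) j x = if x = w then (s : ℝ) else UU ω j x := by
  unfold UU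
  by_cases h : x = w
  · subst h; rw [if_pos rfl, Function.update_self]
  · rw [if_neg h, Function.update_of_ne]
    intro h'
    exact h (congrArg Prod.fst h')

theorem lintegral_run {θ : ℝ} (hθ : |θ| < 1) (Λ : Finset V) (T : V → ℝ) (l : List V)
    (hl : l.Nodup) (hlΛ : ∀ w ∈ l, w ∈ Λ) (hT : ∀ w ∈ l, T w ≤ 1) (j : ℕ)
    (Φ : (V → ℝ) → ENNReal) (hΦ : Measurable Φ) (t : V → ℝ) (ht : ∀ w, |t w| < 1) :
    ∫⁻ ω, Φ (run G θ Λ T (UU ω j) l t) ∂(labP V) =
      ∫⁻ ω, Φ (lin T (UU ω j) l t) * ENNReal.ofReal (dns G θ Λ T (UU ω j) l t) ∂(labP V) := by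
  classical
  induction l generalizing t with
  | nil =>
    have hZ := (Zf_pos G hθ Λ ht).ne'
    simp only [run, lin, dns, lw, one_mul, div_self hZ, ENNReal.ofReal_one, mul_one]
  | cons w l ih =>
    obtain ⟨hwl, hl'⟩ := List.nodup_cons.1 hl
    have hTw : T w ≤ 1 := hT w List.mem_cons_self
    have hne : ∀ x ∈ l, x ≠ w := fun x hx h => hwl (h ▸ hx)
    set κ : ℝ := eta (T w) * mag G θ Λ t w with hκdef
    have hκ : |κ| ≤ 1 / 2 := abs_eta_mul_le hTw (abs_mag_le G hθ Λ ht w)
    set upd : ℝ → V → ℝ := fun y => Function.update t w (ein (t w) (eta (T w) * y)) with hupd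
    have hupdm : Measurable upd := by
      have h3 : Measurable fun y : ℝ => ein (t w) (eta (T w) * y) :=
        ein_measurable.comp (measurable_const.prodMk (measurable_id.const_mul _))
      exact upd_measurable (t := fun _ : ℝ => t) measurable_const h3 w
    have hΦrun : Measurable fun ω : Lab V => Φ (run G θ Λ T (UU ω j) (w :: l) t) :=
      hΦ.comp (run_measurable G θ Λ T (w :: l) (UU_measurable j) measurable_const)
    -- the function after integrating the other labels
    set f : ℝ → Lab V → ENNReal := fun y ω =>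
      Φ (lin T (UU ω j) l (upd y)) * ENNReal.ofReal (dns G θ Λ T (UU ω j) l (upd y)) with hf
    have hfm : Measurable fun p : ℝ × Lab V => f p.1 p.2 := by
      have hU : ∀ x, Measurable fun p : ℝ × Lab V => UU p.2 j x :=
        fun x => (UU_measurable j x).comp measurable_snd
      have ht' : Measurable fun p : ℝ × Lab V => upd p.1 := hupdm.comp measurable_fst
      exact (hΦ.comp (lin_measurable T l hU ht')).mul
        (dns_measurable G θ Λ T l hU ht').ennreal_ofReal
    have hΞm : Measurable fun y : ℝ => ∫⁻ ω, f y ω ∂(labP V) := hfm.lintegral_prod_right'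
    have e1 : ∫⁻ ω, Φ (run G θ Λ T (UU ω j) (w :: l) t) ∂(labP V) =
        ∫⁻ ω, (∫⁻ s : I, Φ (run G θ Λ T (UU ω j) l (upd (qy κ s)))) ∂(labP V) := by
      rw [labP_eq, lintegral_resample (volume : Measure I) (w, j, true) _ hΦrun]
      apply lintegral_congr
      intro ω
      apply lintegral_congr
      intro s
      show Φ (run G θ Λ T (UU (Function.update ω (w, j, true) s) j) l (Function.update t w
        (ein (t w) (eta (T w) * qy (eta (T w) * mag G θ Λ t w)
          (UU (Function.update ω (w, j, true) s) j w))))) = _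
      rw [UU_update ω j w s w, if_pos rfl, run_congr G l (U' := UU ω j)]
      intro x hx
      rw [UU_update, if_neg (hne x hx)]
    have hm1 : Measurable fun p : Lab V × I => Φ (run G θ Λ T (UU p.1 j) l (upd (qy κ p.2))) := by
      have hq : Measurable fun p : Lab V × I => qy κ p.2 :=
        qy_measurable.comp (measurable_const.prodMk (measurable_subtype_coe.comp measurable_snd))
      exact hΦ.comp (run_measurable G θ Λ T l (fun x => (UU_measurable j x).comp measurable_fst)
        (hupdm.comp hq))
    have e2 : ∫⁻ ω, (∫⁻ s : I, Φ (run G θ Λ T (UU ω j) l (upd (qy κ s)))) ∂(labP V) =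
        ∫⁻ s : I, ∫⁻ ω, Φ (run G θ Λ T (UU ω j) l (upd (qy κ s))) ∂(labP V) :=
      lintegral_lintegral_swap hm1.aemeasurable
    have e3 : ∀ s : I, ∫⁻ ω, Φ (run G θ Λ T (UU ω j) l (upd (qy κ s))) ∂(labP V) =
        ∫⁻ ω, f (qy κ s) ω ∂(labP V) := by
      intro s
      apply ih hl' (fun x hx => hlΛ x (List.mem_cons_of_mem _ hx))
        (fun x hx => hT x (List.mem_cons_of_mem _ hx))
      have := qy_mem hκ s.2
      exact abs_upd_lt ht w hTw (abs_le.2 ⟨this.1, this.2⟩)
    have e4 : ∫⁻ s : I, ∫⁻ ω, f (qy κ s) ω ∂(labP V) =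
        ∫⁻ s : I, (∫⁻ ω, f (2 * (s : ℝ) - 1) ω ∂(labP V)) *
          ENNReal.ofReal (1 + κ * (2 * (s : ℝ) - 1)) := lintegral_qy hκ hΞm
    have e5 : ∀ s : I, (∫⁻ ω, f (2 * (s : ℝ) - 1) ω ∂(labP V)) *
          ENNReal.ofReal (1 + κ * (2 * (s : ℝ) - 1)) =
        ∫⁻ ω, f (2 * (s : ℝ) - 1) ω * ENNReal.ofReal (1 + κ * (2 * (s : ℝ) - 1)) ∂(labP V) := by
      intro s
      rw [lintegral_mul_const]
      have h1 : Measurable fun ω : Lab V => ((2 * (s : ℝ) - 1 : ℝ), ω) :=
        measurable_const.prodMk measurable_id
      exact hfm.comp h1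
    have hm2 : Measurable fun p : I × Lab V => f (2 * (p.1 : ℝ) - 1) p.2 *
        ENNReal.ofReal (1 + κ * (2 * (p.1 : ℝ) - 1)) := by
      have h0 : Measurable fun p : I × Lab V => 2 * (p.1 : ℝ) - 1 :=
        ((measurable_subtype_coe.comp measurable_fst).const_mul 2).sub_const 1
      have h1 : Measurable fun p : I × Lab V => ((2 * (p.1 : ℝ) - 1 : ℝ), p.2) :=
        h0.prodMk measurable_snd
      exact (hfm.comp h1).mul ((h0.const_mul κ).const_add 1).ennreal_ofReal
    have e6 : ∫⁻ s : I, ∫⁻ ω, f (2 * (s : ℝ) - 1) ω *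
          ENNReal.ofReal (1 + κ * (2 * (s : ℝ) - 1)) ∂(labP V) =
        ∫⁻ ω, (∫⁻ s : I, f (2 * (s : ℝ) - 1) ω *
          ENNReal.ofReal (1 + κ * (2 * (s : ℝ) - 1))) ∂(labP V) :=
      lintegral_lintegral_swap hm2.aemeasurable
    have hm3 : Measurable fun ω : Lab V => Φ (lin T (UU ω j) (w :: l) t) *
        ENNReal.ofReal (dns G θ Λ T (UU ω j) (w :: l) t) :=
      (hΦ.comp (lin_measurable T (w :: l) (UU_measurable j) measurable_const)).mul
        (dns_measurable G θ Λ T (w :: l) (UU_measurable j) measurable_const).ennreal_ofReal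
    have e7 : ∫⁻ ω, Φ (lin T (UU ω j) (w :: l) t) *
          ENNReal.ofReal (dns G θ Λ T (UU ω j) (w :: l) t) ∂(labP V) =
        ∫⁻ ω, (∫⁻ s : I, f (2 * (s : ℝ) - 1) ω *
          ENNReal.ofReal (1 + κ * (2 * (s : ℝ) - 1))) ∂(labP V) := by
      rw [labP_eq, lintegral_resample (volume : Measure I) (w, j, true) _ hm3]
      apply lintegral_congr
      intro ω
      apply lintegral_congr
      intro s
      set y : ℝ := 2 * (s : ℝ) - 1 with hy
      have hs0 := s.2.1
      have hs1 := s.2.2
      have hy1 : |y| ≤ 1 := abs_le.2 ⟨by linarith, by linarith⟩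
      have k1 : lin T (UU (Function.update ω (w, j, true) s) j) (w :: l) t =
          lin T (UU ω j) l (upd y) := by
        show lin T (UU (Function.update ω (w, j, true) s) j) l (Function.update t w
          (ein (t w) (eta (T w) * (2 * UU (Function.update ω (w, j, true) s) j w - 1)))) = _
        rw [UU_update ω j w s w, if_pos rfl]
        apply lin_congr
        intro x hx
        rw [UU_update, if_neg (hne x hx)]
      have k2 : dns G θ Λ T (UU (Function.update ω (w, j, true) s) j) (w :: l) t =
          dns G θ Λ T (UU ω j) l (upd y) * (1 + κ * y) := by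
        unfold dns
        rw [k1]
        have k3 : lw T (UU (Function.update ω (w, j, true) s) j) (w :: l) t =
            (1 + t w * (eta (T w) * y)) * lw T (UU ω j) l (upd y) := by
          show (1 + t w * (eta (T w) * (2 * UU (Function.update ω (w, j, true) s) j w - 1))) *
            lw T (UU (Function.update ω (w, j, true) s) j) l t = _
          rw [UU_update ω j w s w, if_pos rfl]
          congr 1
          apply lw_congr
          · intro x hx
            rw [UU_update, if_neg (hne x hx)]
          · intro x hx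
            rw [hupd]
            simp only
            rw [Function.update_of_ne (hne x hx)]
        rw [k3]
        have hb : |eta (T w) * y| < 1 := by
          rw [abs_mul, abs_of_nonneg (eta_nonneg _)]
          have h1 := eta_le hTw
          have h3 := eta_nonneg (T w)
          nlinarith [abs_nonneg y]
        have hZu := Zf_update G hθ ht (hlΛ w List.mem_cons_self) hb
        have hZ1 := (Zf_pos G hθ Λ ht).ne'
        have hZ2 := (Zf_pos G hθ Λ (abs_upd_lt ht w hTw hy1)).ne'
        have hZu' : (1 + t w * (eta (T w) * y)) * Zf G θ Λ (upd y) = Zf G θ Λ t * (1 + κ * y) := by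
          rw [hupd]
          simp only
          rw [hZu, hκdef]
          ring
        have hZ2' : Zf G θ Λ (upd y) ≠ 0 := hZ2
        rw [div_eq_iff hZ1, div_mul_eq_mul_div, div_mul_eq_mul_div, eq_div_iff hZ2']
        linear_combination (lw T (UU ω j) l (upd y)) * Zf G θ Λ (lin T (UU ω j) l (upd y)) * hZu'
      rw [k1, k2]
      have hpos : 0 ≤ 1 + κ * y := by
        have h1 : |κ * y| ≤ 1 / 2 * 1 := by
          rw [abs_mul]
          exact mul_le_mul hκ hy1 (abs_nonneg _) (by norm_num)
        have := (abs_le.1 h1).1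
        linarith
      rw [ENNReal.ofReal_mul' hpos, ← mul_assoc]
    rw [e1, e2, lintegral_congr e3, e4, lintegral_congr e5, e6, e7]

end Crest.Agent.FreeIs.Samp
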