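import Crest.Agent.FreeIs.Samp10

/-!
S0241, sampler part 11: law of one round.
-/

set_option autoImplicit false
set_option linter.style.haveILetI false

open Set MeasureTheory Measure unitInterval

universe u

namespace Crest.Agent.FreeIs.Samp

variable {V : Type u} (G : SimpleGraph V)

open Classical in
theorem run_append {θ : ℝ} {Λ : Finset V} {T U : V → ℝ} (l : List V) (a : V) (t : V → ℝ) :
    run G θ Λ T U (l ++ [a]) t = Function.update (run G θ Λ T U l t) a
      (ein (run G θ Λ T U l t a) (eta (T a) * qy (eta (T a) * mag G θ Λ (run G θ Λ T U l t) a)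
        (U a))) := by
  induction l generalizing t with
  | nil => rfl
  | cons w l ih => exact ih _

open Classical in
theorem lin_append {T U : V → ℝ} (l : List V) (a : V) (t : V → ℝ) :
    lin T U (l ++ [a]) t = Function.update (lin T U l t) a
      (ein (lin T U l t a) (eta (T a) * (2 * U a - 1))) := by
  induction l generalizing t with
  | nil => rfl
  | cons w l ih => exact ih _

open Classical in
theorem tlt_step {Λ : Finset V} {t0 T Y : V → ℝ} (hinj : Set.InjOn T Λ) {r : ℝ} {a : V}
    (ha : a ∈ Λ) (har : T a < r) (hmax : ∀ b ∈ Λ, T b < r → T b ≤ T a) :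
    tlt Λ t0 T Y r = Function.update (tlt Λ t0 T Y (T a)) a
      (ein (tlt Λ t0 T Y (T a) a) (eta (T a) * Y a)) := by
  funext w
  by_cases hw : w = a
  · subst hw
    rw [Function.update_self]
    unfold tlt
    rw [if_pos ⟨ha, har⟩, if_neg (fun h => lt_irrefl _ h.2)]
  · rw [Function.update_of_ne hw]
    unfold tlt
    by_cases hwΛ : w ∈ Λ
    · by_cases h : T w < r
      · have h2 : T w < T a := by
          rcases (hmax w hwΛ h).lt_or_eq with h' | h'
          · exact h'
          · exact absurd (hinj hwΛ ha h') hw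
        rw [if_pos ⟨hwΛ, h⟩, if_pos ⟨hwΛ, h2⟩]
      · rw [if_neg (fun h' => h h'.2), if_neg (fun h' => h (h'.2.trans har))]
    · rw [if_neg (fun h' => hwΛ h'.1), if_neg (fun h' => hwΛ h'.1)]

theorem tlt_of_none {Λ : Finset V} {t0 T Y : V → ℝ} {r : ℝ} (h : ∀ a ∈ Λ, ¬ T a < r) :
    tlt Λ t0 T Y r = t0 := by
  funext w
  unfold tlt
  rw [if_neg (fun h' => h w h'.1 h'.2)]

theorem exists_list (θ : ℝ) (Λ : Finset V) (T : V → ℝ) (hinj : Set.InjOn T Λ) (r : ℝ) :
    ∃ l : List V, l.Nodup ∧ (∀ a, a ∈ l ↔ a ∈ Λ ∧ T a < r) ∧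
      (∀ U t0 : V → ℝ, rnd G θ Λ t0 T U r = run G θ Λ T U l t0) ∧
      (∀ U t0 : V → ℝ, tlt Λ t0 T (fun w => 2 * U w - 1) r = lin T U l t0) := by
  classical
  induction hn : (before Λ T r).card using Nat.strong_induction_on generalizing r with
  | _ n ih =>
    rcases (before Λ T r).eq_empty_or_nonempty with he | hne
    · have hnone : ∀ a ∈ Λ, ¬ T a < r := by
        intro a ha hlt
        have : a ∈ before Λ T r := mem_before.2 ⟨ha, hlt⟩
        rw [he] at this
        simp at this
      refine ⟨[], List.nodup_nil, ?_, ?_, ?_⟩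
      · intro a
        simp only [List.not_mem_nil, false_iff]
        exact fun h => hnone a h.1 h.2
      · intro U t0
        exact rnd_of_none G hnone
      · intro U t0
        exact tlt_of_none hnone
    · obtain ⟨a, ha, hmax⟩ := Finset.exists_max_image (before Λ T r) T hne
      obtain ⟨haΛ, har⟩ := mem_before.1 ha
      have hmax' : ∀ b ∈ Λ, T b < r → T b ≤ T a :=
        fun b hb hlt => hmax b (mem_before.2 ⟨hb, hlt⟩)
      have hins : before Λ T r = insert a (before Λ T (T a)) := by
        ext b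
        rw [Finset.mem_insert, mem_before, mem_before]
        constructor
        · rintro ⟨hb, hlt⟩
          rcases (hmax' b hb hlt).lt_or_eq with h | h
          · exact Or.inr ⟨hb, h⟩
          · exact Or.inl (hinj hb haΛ h)
        · rintro (rfl | ⟨hb, hlt⟩)
          · exact ⟨haΛ, har⟩
          · exact ⟨hb, hlt.trans har⟩
      have hnot : a ∉ before Λ T (T a) := fun h => lt_irrefl _ (mem_before.1 h).2
      have hcard : (before Λ T (T a)).card < n := by
        rw [← hn, hins, Finset.card_insert_of_notMem hnot]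
        exact Nat.lt_succ_self _
      obtain ⟨l, h1, h2, h3, h4⟩ := ih _ hcard (T a) rfl
      refine ⟨l ++ [a], ?_, ?_, ?_, ?_⟩
      · rw [List.nodup_append]
        refine ⟨h1, List.nodup_singleton a, ?_⟩
        intro x hx y hy
        rw [List.mem_singleton] at hy
        subst hy
        rintro rfl
        exact lt_irrefl _ ((h2 x).1 hx).2
      · intro b
        rw [List.mem_append, List.mem_singleton, h2, ← mem_before, ← mem_before, hins,
          Finset.mem_insert, or_comm]
      · intro U t0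
        rw [run_append, ← h3, rnd_step G (Finset.Subset.refl Λ) hinj haΛ har hmax', if_pos haΛ,
          Ysol_eq_rnd G haΛ]
      · intro U t0
        rw [lin_append, ← h4]
        exact tlt_step hinj haΛ har hmax'

/-- the reference observation -/
noncomputable def ob (r x y : ℝ) : ℝ := if x < r then eta x * (2 * y - 1) else 0

theorem lw_eq {Λ : Finset V} {T U t : V → ℝ} {r : ℝ} (l : List V) (h1 : l.Nodup)
    (h2 : ∀ a, a ∈ l ↔ a ∈ Λ ∧ T a < r) :
    lw T U l t = ∏ w ∈ Λ, (1 + t w * ob r (T w) (U w)) := by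
  classical
  have h3 : lw T U l t = ∏ w ∈ l.toFinset, (1 + t w * (eta (T w) * (2 * U w - 1))) := by
    clear h2
    induction l with
    | nil => rfl
    | cons w l ih =>
      obtain ⟨hw, hl⟩ := List.nodup_cons.1 h1
      rw [List.toFinset_cons, Finset.prod_insert (by rwa [List.mem_toFinset]), ← ih hl]
      rfl
  have h4 : l.toFinset = Λ.filter (fun w => T w < r) := by
    ext w
    rw [List.mem_toFinset, Finset.mem_filter, h2]
  rw [h3, h4, Finset.prod_filter]
  apply Finset.prod_congr rfl
  intro w _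
  unfold ob
  split_ifs <;> simp

/-- density of one round -/
noncomputable def dn (θ : ℝ) (Λ : Finset V) (r : ℝ) (t0 T U : V → ℝ) : ℝ :=
  (∏ w ∈ Λ, (1 + t0 w * ob r (T w) (U w))) * Zf G θ Λ (tlt Λ t0 T (fun w => 2 * U w - 1) r) /
    Zf G θ Λ t0

theorem lintegral_rnd {θ : ℝ} (hθ : |θ| < 1) (Λ : Finset V) (T : V → ℝ) (hinj : Set.InjOn T Λ)
    {r : ℝ} (hr : r ≤ 1) (j : ℕ) (Φ : (V → ℝ) → ENNReal) (hΦ : Measurable Φ) (t : V → ℝ)
    (ht : ∀ w, |t w| < 1) :
    ∫⁻ ω, Φ (rnd G θ Λ t T (UU ω j) r) ∂(labP V) =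
      ∫⁻ ω, Φ (tlt Λ t T (fun w => 2 * UU ω j w - 1) r) *
        ENNReal.ofReal (dn G θ Λ r t T (UU ω j)) ∂(labP V) := by
  obtain ⟨l, h1, h2, h3, h4⟩ := exists_list G θ Λ T hinj r
  have := lintegral_run G hθ Λ T l h1 (fun w hw => ((h2 w).1 hw).1)
    (fun w hw => (((h2 w).1 hw).2.le.trans hr)) j Φ hΦ t ht
  simp only [h3, h4]
  rw [this]
  apply lintegral_congr
  intro ω
  unfold dns dn
  rw [lw_eq l h1 h2, h4]

end Crest.Agent.FreeIs.Samp
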