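import Crest.Agent.FreeIs.Samp11

/-!
S0241, sampler part 12: law of several rounds, on the label space.
-/

set_option autoImplicit false
set_option linter.style.haveILetI false

open Set MeasureTheory Measure unitInterval

universe u

namespace Crest.Agent.FreeIs.Samp

theorem block_measurable {ι X : Type*} [MeasurableSpace X] (S : Set ι) [DecidablePred (· ∈ S)] :
    Measurable (fun p : (ι → X) × (ι → X) => fun i => if i ∈ S then p.2 i else p.1 i) := by
  rw [measurable_pi_iff]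
  intro i
  by_cases h : i ∈ S
  · simp only [h, if_true]; exact (measurable_pi_apply i).comp measurable_snd
  · simp only [h, if_false]; exact (measurable_pi_apply i).comp measurable_fst

theorem lintegral_block {ι X : Type*} [MeasurableSpace X] (μ : Measure X) [IsProbabilityMeasure μ]
    (S : Set ι) [DecidablePred (· ∈ S)] (Ψ : (ι → X) → ENNReal) (hΨ : Measurable Ψ) :
    ∫⁻ ω, Ψ ω ∂(infinitePi (fun _ : ι => μ)) =
      ∫⁻ ω, ∫⁻ ω', Ψ (fun i => if i ∈ S then ω' i else ω i) ∂(infinitePi (fun _ : ι => μ))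
        ∂(infinitePi (fun _ : ι => μ)) := by
  conv_lhs => rw [← resample_block μ S]
  rw [lintegral_map hΨ (block_measurable S), lintegral_prod]
  exact (hΨ.comp (block_measurable S)).aemeasurable

variable {V : Type u} (G : SimpleGraph V)

/-- the labels of the observations of round `j` -/
def obsSet (V : Type u) (j : ℕ) : Set (V × ℕ × Bool) := {c | c.2 = (j, true)}

open Classical in
/-- replace the observation labels of round `j` -/
noncomputable def mix (j : ℕ) (ω ω' : Lab V) : Lab V := fun c => if c ∈ obsSet V j then ω' c else ω c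

theorem mix_TT (j : ℕ) (ω ω' : Lab V) (i : ℕ) : TT (mix j ω ω') i = TT ω i := by
  funext w
  unfold TT mix
  rw [if_neg]
  intro h
  have h' : ((i, false) : ℕ × Bool) = (j, true) := h
  simp at h'

theorem mix_UU_self (j : ℕ) (ω ω' : Lab V) : UU (mix j ω ω') j = UU ω' j := by
  funext w
  unfold UU mix
  rw [if_pos]
  rfl

theorem mix_of_ne (j : ℕ) (ω ω' : Lab V) {c : V × ℕ × Bool} (h : c.2.1 ≠ j) :
    mix j ω ω' c = ω c := by
  unfold mix
  rw [if_neg]
  intro h'
  have h2 : c.2 = (j, true) := h'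
  exact h (by rw [h2])

theorem mix_start {θ : ℝ} {Λ : Finset V} (j : ℕ) (ω ω' : Lab V) :
    start G θ Λ (mix j ω ω') j = start G θ Λ ω j := by
  apply start_congr
  intro i hi w _ b
  exact mix_of_ne j ω ω' (by simp only [ne_eq]; omega)

section Meas

variable {P : Type*} [MeasurableSpace P]

theorem ob_measurable (r : ℝ) : Measurable fun p : ℝ × ℝ => ob r p.1 p.2 := by
  unfold ob
  apply Measurable.ite
  · exact measurableSet_lt measurable_fst measurable_const
  · exact (eta_measurable.comp measurable_fst).mul ((measurable_snd.const_mul 2).sub_const 1)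
  · exact measurable_const

theorem ref_step_measurable (Λ : Finset V) (r : ℝ) {t0 T U : P → V → ℝ}
    (h0 : ∀ w, Measurable fun p => t0 p w) (hT : ∀ w, Measurable fun p => T p w)
    (hU : ∀ w, Measurable fun p => U p w) :
    Measurable fun p => tlt Λ (t0 p) (T p) (fun w => 2 * U p w - 1) r :=
  tlt_measurable Λ h0 hT (fun w => ((hU w).const_mul 2).sub_const 1) measurable_const

theorem dn_measurable (θ : ℝ) (Λ : Finset V) (r : ℝ) {t0 T U : P → V → ℝ}
    (h0 : ∀ w, Measurable fun p => t0 p w) (hT : ∀ w, Measurable fun p => T p w)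
    (hU : ∀ w, Measurable fun p => U p w) :
    Measurable fun p => dn G θ Λ r (t0 p) (T p) (U p) := by
  unfold dn
  have h1 : Measurable fun p => ∏ w ∈ Λ, (1 + t0 p w * ob r (T p w) (U p w)) := by
    apply Finset.measurable_prod
    intro w _
    exact ((h0 w).mul ((ob_measurable r).comp ((hT w).prodMk (hU w)))).const_add 1
  have h2 : Measurable fun p => t0 p := measurable_pi_iff.2 h0
  exact (h1.mul ((Zf_measurable G θ Λ).comp (ref_step_measurable Λ r h0 hT hU))).div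
    ((Zf_measurable G θ Λ).comp h2)

end Meas

theorem lintegral_round {θ : ℝ} (hθ : |θ| < 1) (Λ : Finset V) {r : ℝ} (hr : r ≤ 1) (j : ℕ)
    (Φ : (V → ℝ) → Lab V → ENNReal) (hΦ : Measurable fun p : (V → ℝ) × Lab V => Φ p.1 p.2)
    (hΦd : ∀ t ω ω', Φ t (mix j ω ω') = Φ t ω) :
    ∫⁻ ω, Φ (st G θ Λ ω j r) ω ∂(labP V) =
      ∫⁻ ω, Φ (tlt Λ (start G θ Λ ω j) (TT ω j) (fun w => 2 * UU ω j w - 1) r) ω *
        ENNReal.ofReal (dn G θ Λ r (start G θ Λ ω j) (TT ω j) (UU ω j)) ∂(labP V) := by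
  classical
  have hs : ∀ w, Measurable fun ω : Lab V => start G θ Λ ω j w :=
    fun w => (measurable_pi_apply w).comp (start_measurable G θ Λ j)
  have hm1 : Measurable fun ω : Lab V => Φ (st G θ Λ ω j r) ω :=
    hΦ.comp ((st_measurable G θ Λ j r).prodMk measurable_id)
  have hm2 : Measurable fun ω : Lab V =>
      Φ (tlt Λ (start G θ Λ ω j) (TT ω j) (fun w => 2 * UU ω j w - 1) r) ω *
        ENNReal.ofReal (dn G θ Λ r (start G θ Λ ω j) (TT ω j) (UU ω j)) :=
    (hΦ.comp ((ref_step_measurable Λ r hs (TT_measurable j) (UU_measurable j)).prodMk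
      measurable_id)).mul
      (dn_measurable G θ Λ r hs (TT_measurable j) (UU_measurable j)).ennreal_ofReal
  have e1 : ∫⁻ ω, Φ (st G θ Λ ω j r) ω ∂(labP V) =
      ∫⁻ ω, (∫⁻ ω', Φ (st G θ Λ (mix j ω ω') j r) (mix j ω ω') ∂(labP V)) ∂(labP V) :=
    lintegral_block (volume : Measure I) (obsSet V j) _ hm1
  have e2 : ∫⁻ ω, Φ (tlt Λ (start G θ Λ ω j) (TT ω j) (fun w => 2 * UU ω j w - 1) r) ω *
        ENNReal.ofReal (dn G θ Λ r (start G θ Λ ω j) (TT ω j) (UU ω j)) ∂(labP V) =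
      ∫⁻ ω, (∫⁻ ω', (fun ω : Lab V =>
        Φ (tlt Λ (start G θ Λ ω j) (TT ω j) (fun w => 2 * UU ω j w - 1) r) ω *
        ENNReal.ofReal (dn G θ Λ r (start G θ Λ ω j) (TT ω j) (UU ω j))) (mix j ω ω') ∂(labP V))
        ∂(labP V) :=
    lintegral_block (volume : Measure I) (obsSet V j) _ hm2
  rw [e1, e2]
  apply lintegral_congr_ae
  filter_upwards [ae_TT_injOn j Λ] with ω hω
  have h1 : ∀ ω', Φ (st G θ Λ (mix j ω ω') j r) (mix j ω ω') =
      Φ (rnd G θ Λ (start G θ Λ ω j) (TT ω j) (UU ω' j) r) ω := by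
    intro ω'
    unfold st
    rw [hΦd, mix_start, mix_TT, mix_UU_self]
  simp_rw [h1]
  have hm3 : Measurable fun t : V → ℝ => Φ t ω := hΦ.comp (measurable_id.prodMk measurable_const)
  rw [lintegral_rnd G hθ Λ (TT ω j) hω hr j (fun t => Φ t ω) hm3 (start G θ Λ ω j)
    (start_abs_lt G hθ Λ ω j)]
  apply lintegral_congr
  intro ω'
  rw [hΦd, mix_start, mix_TT, mix_UU_self]

/-- reference tilts -/
noncomputable def ref (Λ : Finset V) (ω : Lab V) : ℕ → V → ℝ
  | 0 => fun _ => 0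
  | j + 1 => tlt Λ (ref Λ ω j) (TT ω j) (fun w => 2 * UU ω j w - 1) 1

/-- reference weight -/
noncomputable def wg (Λ : Finset V) (ω : Lab V) : ℕ → ℝ
  | 0 => 1
  | j + 1 => wg Λ ω j * ∏ w ∈ Λ, (1 + ref Λ ω j w * ob 1 (TT ω j w) (UU ω j w))

theorem ob_abs_le {r x y : ℝ} (hr : r ≤ 1) (hy : y ∈ Icc (0 : ℝ) 1) : |ob r x y| ≤ 1 / 2 := by
  unfold ob
  split_ifs with h
  · rw [abs_mul, abs_of_nonneg (eta_nonneg _)]
    have h1 := eta_le (h.le.trans hr)
    have h2 : |2 * y - 1| ≤ 1 := abs_le.2 ⟨by linarith [hy.1], by linarith [hy.2]⟩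
    have h3 := eta_nonneg x
    nlinarith [abs_nonneg (2 * y - 1)]
  · norm_num

theorem abs_lin_le {y : ℝ} (hy : y ∈ Icc (0 : ℝ) 1) : |2 * y - 1| ≤ 1 :=
  abs_le.2 ⟨by linarith [hy.1], by linarith [hy.2]⟩

theorem ref_abs_lt (Λ : Finset V) (ω : Lab V) (j : ℕ) (w : V) : |ref Λ ω j w| < 1 := by
  induction j generalizing w with
  | zero => simp [ref]
  | succ j ih => exact tlt_abs_lt le_rfl ih (fun x _ _ => abs_lin_le (UU_mem ω j x)) w

theorem fac_pos {Λ : Finset V} {t : V → ℝ} (ht : ∀ w, |t w| < 1) (ω : Lab V) (j : ℕ) {r : ℝ}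
    (hr : r ≤ 1) : 0 < ∏ w ∈ Λ, (1 + t w * ob r (TT ω j w) (UU ω j w)) := by
  apply Finset.prod_pos
  intro w _
  exact one_add_mul_pos (ht w) ((ob_abs_le hr (UU_mem ω j w)).trans (by norm_num))

theorem wg_pos (Λ : Finset V) (ω : Lab V) (j : ℕ) : 0 < wg Λ ω j := by
  induction j with
  | zero => exact one_pos
  | succ j ih => exact mul_pos ih (fac_pos (ref_abs_lt Λ ω j) ω j le_rfl)

theorem ref_measurable (Λ : Finset V) (j : ℕ) : Measurable fun ω : Lab V => ref Λ ω j := by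
  induction j with
  | zero => exact measurable_const
  | succ j ih =>
    exact ref_step_measurable Λ 1 (fun w => (measurable_pi_apply w).comp ih) (TT_measurable j)
      (UU_measurable j)

theorem fac_measurable (Λ : Finset V) (j : ℕ) (r : ℝ) : Measurable fun ω : Lab V =>
    ∏ w ∈ Λ, (1 + ref Λ ω j w * ob r (TT ω j w) (UU ω j w)) := by
  apply Finset.measurable_prod
  intro w _
  exact (((measurable_pi_apply w).comp (ref_measurable Λ j)).mul
    ((ob_measurable r).comp ((TT_measurable j w).prodMk (UU_measurable j w)))).const_add 1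

theorem wg_measurable (Λ : Finset V) (j : ℕ) : Measurable fun ω : Lab V => wg Λ ω j := by
  induction j with
  | zero => exact measurable_const
  | succ j ih => exact ih.mul (fac_measurable Λ j 1)

/-- two labellings agree in the rounds `≥ j` -/
def Agr (j : ℕ) (ω ω' : Lab V) : Prop := ∀ w i b, j ≤ i → ω (w, i, b) = ω' (w, i, b)

theorem Agr.TT {j : ℕ} {ω ω' : Lab V} (h : Agr j ω ω') : TT ω j = TT ω' j := by
  funext w; unfold FreeIs.TT; rw [h w j false le_rfl]

theorem Agr.UU {j : ℕ} {ω ω' : Lab V} (h : Agr j ω ω') : UU ω j = UU ω' j := by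
  funext w; unfold FreeIs.UU; rw [h w j true le_rfl]

theorem agr_mix (j : ℕ) (ω ω' : Lab V) : Agr (j + 1) (mix j ω ω') ω := by
  intro w i b hi
  apply mix_of_ne
  simp only [ne_eq]
  omega

theorem lintegral_start {θ : ℝ} (hθ : |θ| < 1) (Λ : Finset V) (j : ℕ)
    (H : (V → ℝ) → Lab V → ENNReal) (hH : Measurable fun p : (V → ℝ) × Lab V => H p.1 p.2)
    (hHd : ∀ t ω ω', Agr j ω ω' → H t ω = H t ω') :
    ∫⁻ ω, H (start G θ Λ ω j) ω ∂(labP V) =
      ∫⁻ ω, H (ref Λ ω j) ω * ENNReal.ofReal (wg Λ ω j * Zf G θ Λ (ref Λ ω j) /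
        Zf G θ Λ (fun _ => 0)) ∂(labP V) := by
  induction j generalizing H with
  | zero =>
    have h0 : Zf G θ Λ (fun _ => 0) ≠ 0 := (Zf_pos G hθ Λ (fun _ => by simp)).ne'
    simp only [start, ref, wg, one_mul, div_self h0, ENNReal.ofReal_one, mul_one]
  | succ j ih =>
    have e1 : ∫⁻ ω, H (start G θ Λ ω (j + 1)) ω ∂(labP V) =
        ∫⁻ ω, H (tlt Λ (start G θ Λ ω j) (TT ω j) (fun w => 2 * UU ω j w - 1) 1) ω *
          ENNReal.ofReal (dn G θ Λ 1 (start G θ Λ ω j) (TT ω j) (UU ω j)) ∂(labP V) :=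
      lintegral_round G hθ Λ le_rfl j H hH (fun t ω ω' => hHd t _ _ (agr_mix j ω ω'))
    have hU : ∀ w, Measurable fun p : (V → ℝ) × Lab V => UU p.2 j w :=
      fun w => (UU_measurable j w).comp measurable_snd
    have hT : ∀ w, Measurable fun p : (V → ℝ) × Lab V => TT p.2 j w :=
      fun w => (TT_measurable j w).comp measurable_snd
    have ht : ∀ w, Measurable fun p : (V → ℝ) × Lab V => p.1 w :=
      fun w => (measurable_pi_apply w).comp measurable_fst
    have e2 := ih (fun t ω => H (tlt Λ t (TT ω j) (fun w => 2 * UU ω j w - 1) 1) ω *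
          ENNReal.ofReal (dn G θ Λ 1 t (TT ω j) (UU ω j))) ?_ ?_
    · rw [e1, e2]
      apply lintegral_congr
      intro ω
      have hr1 := ref_abs_lt Λ ω j
      have hZ1 := Zf_pos G hθ Λ hr1
      have hZ2 := Zf_pos G hθ Λ (ref_abs_lt Λ ω (j + 1))
      have hZ0 : 0 < Zf G θ Λ (fun _ => 0) := Zf_pos G hθ Λ (fun _ => by simp)
      have hw := wg_pos Λ ω j
      show H (ref Λ ω (j + 1)) ω * ENNReal.ofReal (dn G θ Λ 1 (ref Λ ω j) (TT ω j) (UU ω j)) *
        ENNReal.ofReal (wg Λ ω j * Zf G θ Λ (ref Λ ω j) / Zf G θ Λ (fun _ => 0)) = _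
      rw [mul_assoc, ← ENNReal.ofReal_mul' (by positivity)]
      congr 2
      have e3 : dn G θ Λ 1 (ref Λ ω j) (TT ω j) (UU ω j) =
          (∏ w ∈ Λ, (1 + ref Λ ω j w * ob 1 (TT ω j w) (UU ω j w))) *
            Zf G θ Λ (ref Λ ω (j + 1)) / Zf G θ Λ (ref Λ ω j) := rfl
      have e4 : wg Λ ω (j + 1) = wg Λ ω j *
        ∏ w ∈ Λ, (1 + ref Λ ω j w * ob 1 (TT ω j w) (UU ω j w)) := rfl
      rw [e3, e4]
      have h1 := hZ1.ne'
      have h0 := hZ0.ne'
      field_simp
    · exact (hH.comp ((ref_step_measurable Λ 1 ht hT hU).prodMk measurable_snd)).mul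
        (dn_measurable G θ Λ 1 ht hT hU).ennreal_ofReal
    · intro t ω ω' h
      rw [h.TT, h.UU, hHd _ ω ω' (fun w i b hi => h w i b (by omega))]

/-- reference tilts at time `r` of round `j` -/
noncomputable def refr (Λ : Finset V) (ω : Lab V) (j : ℕ) (r : ℝ) : V → ℝ :=
  tlt Λ (ref Λ ω j) (TT ω j) (fun w => 2 * UU ω j w - 1) r

/-- reference weight at time `r` of round `j` -/
noncomputable def wgr (Λ : Finset V) (ω : Lab V) (j : ℕ) (r : ℝ) : ℝ :=
  wg Λ ω j * ∏ w ∈ Λ, (1 + ref Λ ω j w * ob r (TT ω j w) (UU ω j w))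

theorem lintegral_st {θ : ℝ} (hθ : |θ| < 1) (Λ : Finset V) (j : ℕ) {r : ℝ} (hr : r ≤ 1)
    (H : (V → ℝ) → ENNReal) (hH : Measurable H) :
    ∫⁻ ω, H (st G θ Λ ω j r) ∂(labP V) =
      ∫⁻ ω, H (refr Λ ω j r) * ENNReal.ofReal (wgr Λ ω j r * Zf G θ Λ (refr Λ ω j r) /
        Zf G θ Λ (fun _ => 0)) ∂(labP V) := by
  have e1 : ∫⁻ ω, H (st G θ Λ ω j r) ∂(labP V) =
      ∫⁻ ω, H (tlt Λ (start G θ Λ ω j) (TT ω j) (fun w => 2 * UU ω j w - 1) r) *
        ENNReal.ofReal (dn G θ Λ r (start G θ Λ ω j) (TT ω j) (UU ω j)) ∂(labP V) :=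
    lintegral_round G hθ Λ hr j (fun t _ => H t) (hH.comp measurable_fst) (fun t ω ω' => rfl)
  have hU : ∀ w, Measurable fun p : (V → ℝ) × Lab V => UU p.2 j w :=
    fun w => (UU_measurable j w).comp measurable_snd
  have hT : ∀ w, Measurable fun p : (V → ℝ) × Lab V => TT p.2 j w :=
    fun w => (TT_measurable j w).comp measurable_snd
  have ht : ∀ w, Measurable fun p : (V → ℝ) × Lab V => p.1 w :=
    fun w => (measurable_pi_apply w).comp measurable_fst
  have e2 := lintegral_start G hθ Λ j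
    (fun t ω => H (tlt Λ t (TT ω j) (fun w => 2 * UU ω j w - 1) r) *
        ENNReal.ofReal (dn G θ Λ r t (TT ω j) (UU ω j))) ?_ ?_
  · rw [e1, e2]
    apply lintegral_congr
    intro ω
    have hr1 := ref_abs_lt Λ ω j
    have hZ1 := Zf_pos G hθ Λ hr1
    have hZ0 : 0 < Zf G θ Λ (fun _ => 0) := Zf_pos G hθ Λ (fun _ => by simp)
    have hw := wg_pos Λ ω j
    show H (refr Λ ω j r) * ENNReal.ofReal (dn G θ Λ r (ref Λ ω j) (TT ω j) (UU ω j)) *
      ENNReal.ofReal (wg Λ ω j * Zf G θ Λ (ref Λ ω j) / Zf G θ Λ (fun _ => 0)) = _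
    rw [mul_assoc, ← ENNReal.ofReal_mul' (by positivity)]
    congr 2
    have e3 : dn G θ Λ r (ref Λ ω j) (TT ω j) (UU ω j) =
        (∏ w ∈ Λ, (1 + ref Λ ω j w * ob r (TT ω j w) (UU ω j w))) *
          Zf G θ Λ (refr Λ ω j r) / Zf G θ Λ (ref Λ ω j) := rfl
    have e4 : wgr Λ ω j r = wg Λ ω j *
      ∏ w ∈ Λ, (1 + ref Λ ω j w * ob r (TT ω j w) (UU ω j w)) := rfl
    rw [e3, e4]
    have h1 := hZ1.ne'
    have h0 := hZ0.ne'
    field_simp
  · exact (hH.comp (ref_step_measurable Λ r ht hT hU)).mul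
      (dn_measurable G θ Λ r ht hT hU).ennreal_ofReal
  · intro t ω ω' h
    rw [h.TT, h.UU]

end Crest.Agent.FreeIs.Samp
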