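import Crest.Agent.FreeIs.Samp12

/-!
S0241, sampler part 13: products of densities.
-/

set_option autoImplicit false
set_option linter.style.haveILetI false

open Set MeasureTheory Measure unitInterval

universe u

namespace Crest.Agent.FreeIs.Samp

theorem lintegral_prod_fun {V X : Type*} [MeasurableSpace X] (μ : Measure X)
    [IsProbabilityMeasure μ] (A : Finset V) (h : V → X → ENNReal) (hh : ∀ w, Measurable (h w)) :
    ∫⁻ x, ∏ w ∈ A, h w (x w) ∂(infinitePi (fun _ : V => μ)) = ∏ w ∈ A, ∫⁻ y, h w y ∂μ := by
  classical
  induction A using Finset.induction_on with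
  | empty => simp
  | insert a A ha ih =>
    have hm : Measurable fun x : V → X => ∏ w ∈ insert a A, h w (x w) := by
      apply Finset.measurable_prod
      intro w _
      exact (hh w).comp (measurable_pi_apply w)
    have hm' : Measurable fun x : V → X => ∏ w ∈ A, h w (x w) := by
      apply Finset.measurable_prod
      intro w _
      exact (hh w).comp (measurable_pi_apply w)
    rw [lintegral_resample μ a _ hm, Finset.prod_insert ha, ← ih, mul_comm,
      ← lintegral_mul_const _ hm']
    apply lintegral_congr
    intro x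
    rw [← lintegral_const_mul _ (hh a)]
    apply lintegral_congr
    intro y
    rw [Finset.prod_insert ha, Function.update_self, mul_comm]
    congr 1
    apply Finset.prod_congr rfl
    intro w hw
    rw [Function.update_of_ne]
    rintro rfl
    exact ha hw

/-- product of densities -/
theorem lintegral_product {V X : Type*} [MeasurableSpace X] (μ : Measure X)
    [IsProbabilityMeasure μ] (ν : Measure ℝ) [IsProbabilityMeasure ν] (f : X → ℝ)
    (hf : Measurable f) (D : X → ENNReal) (hD : Measurable D)
    (hν : ∀ ψ : ℝ → ENNReal, Measurable ψ → ∫⁻ x, ψ (f x) * D x ∂μ = ∫⁻ y, ψ y ∂ν)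
    (Λ : Finset V) (Ψ : (V → ℝ) → ENNReal) (hΨ : Measurable Ψ)
    (hΨd : ∀ t t' : V → ℝ, (∀ v ∈ Λ, t v = t' v) → Ψ t = Ψ t') :
    ∫⁻ x, Ψ (fun w => f (x w)) * ∏ w ∈ Λ, D (x w) ∂(infinitePi (fun _ : V => μ)) =
      ∫⁻ t, Ψ t ∂(infinitePi (fun _ : V => ν)) := by
  classical
  set N : V → Measure ℝ := fun w => if w ∈ Λ then ν else dirac 0 with hN
  have hNp : ∀ w, IsProbabilityMeasure (N w) := by
    intro w
    rw [hN]
    by_cases h : w ∈ Λ
    · simp only [h, if_true]; infer_instance
    · simp only [h, if_false]; infer_instance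
  have hDm : Measurable fun x : V → X => ∏ w ∈ Λ, D (x w) := by
    apply Finset.measurable_prod
    intro w _
    exact hD.comp (measurable_pi_apply w)
  set g : (V → X) → (V → ℝ) := fun x w => if w ∈ Λ then f (x w) else 0 with hg
  have hgm : Measurable g := by
    rw [measurable_pi_iff]
    intro w
    by_cases h : w ∈ Λ
    · simp only [hg, h, if_true]; exact hf.comp (measurable_pi_apply w)
    · simp only [hg, h, if_false]; exact measurable_const
  -- first description
  have h1 : ((infinitePi (fun _ : V => μ)).withDensity (fun x => ∏ w ∈ Λ, D (x w))).map g =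
      infinitePi N := by
    apply eq_infinitePi
    intro s t ht
    have hms : MeasurableSet (Set.pi (s : Set V) t) :=
      MeasurableSet.pi s.countable_toSet (fun i _ => ht i)
    rw [map_apply hgm hms, withDensity_apply _ (hgm hms),
      ← lintegral_indicator (hgm hms)]
    set h : V → X → ENNReal := fun w y => (if w ∈ Λ then D y else 1) *
      (if w ∈ s then (t w).indicator 1 (if w ∈ Λ then f y else 0) else 1) with hh
    have hhm : ∀ w, Measurable (h w) := by
      intro w
      have i1 : Measurable fun y : X => (if w ∈ Λ then D y else 1 : ENNReal) := by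
        by_cases h : w ∈ Λ
        · simp only [h, if_true]; exact hD
        · simp only [h, if_false]; exact measurable_const
      have i2 : Measurable fun y : X => (if w ∈ Λ then f y else 0 : ℝ) := by
        by_cases h : w ∈ Λ
        · simp only [h, if_true]; exact hf
        · simp only [h, if_false]; exact measurable_const
      have i3 : Measurable fun y : X => (if w ∈ s then
          (t w).indicator (1 : ℝ → ENNReal) (if w ∈ Λ then f y else 0) else 1 : ENNReal) := by
        by_cases h : w ∈ s
        · simp only [h, if_true]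
          exact (measurable_one.indicator (ht w)).comp i2
        · simp only [h, if_false]; exact measurable_const
      exact i1.mul i3
    have e1 : ∀ x : V → X, (g ⁻¹' (Set.pi (s : Set V) t)).indicator
        (fun x => ∏ w ∈ Λ, D (x w)) x = ∏ w ∈ Λ ∪ s, h w (x w) := by
      intro x
      have e2 : ∏ w ∈ Λ ∪ s, h w (x w) = (∏ w ∈ Λ, D (x w)) *
          ∏ w ∈ s, (t w).indicator (1 : ℝ → ENNReal) (g x w) := by
        rw [hh]
        simp only
        rw [Finset.prod_mul_distrib]
        congr 1
        · rw [← Finset.prod_filter]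
          congr 1
          ext w
          simp only [Finset.mem_filter, Finset.mem_union]
          tauto
        · rw [← Finset.prod_filter]
          congr 1
          ext w
          simp only [Finset.mem_filter, Finset.mem_union]
          tauto
      rw [e2]
      by_cases hx : x ∈ g ⁻¹' (Set.pi (s : Set V) t)
      · rw [indicator_of_mem hx]
        have : ∏ w ∈ s, (t w).indicator (1 : ℝ → ENNReal) (g x w) = 1 := by
          apply Finset.prod_eq_one
          intro w hw
          rw [indicator_of_mem (hx w hw)]
          rfl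
        rw [this, mul_one]
      · rw [indicator_of_notMem hx]
        have h3 : ∃ w ∈ s, g x w ∉ t w := by
          by_contra hcon
          push Not at hcon
          exact hx (fun w hw => hcon w hw)
        obtain ⟨w, hw, hwt⟩ := h3
        rw [Finset.prod_eq_zero hw (indicator_of_notMem hwt _), mul_zero]
    rw [lintegral_congr e1, lintegral_prod_fun μ _ h hhm]
    have e3 : ∀ w, ∫⁻ y, h w y ∂μ = if w ∈ s then N w (t w) else 1 := by
      intro w
      rw [hh]
      simp only
      by_cases hwΛ : w ∈ Λ
      · simp only [hwΛ, if_true, hN]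
        by_cases hws : w ∈ s
        · simp only [hws, if_true]
          have := hν ((t w).indicator 1) (measurable_one.indicator (ht w))
          rw [lintegral_indicator_one (ht w)] at this
          rw [← this]
          apply lintegral_congr
          intro y
          rw [mul_comm]
        · simp only [hws, if_false, mul_one]
          have := hν (fun _ => 1) measurable_const
          simpa using this
      · simp only [hwΛ, if_false, hN, one_mul]
        by_cases hws : w ∈ s
        · simp only [hws, if_true, lintegral_const, measure_univ, mul_one]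
          rw [dirac_apply' _ (ht w)]
        · simp only [hws, if_false, lintegral_const, measure_univ, mul_one]
    rw [Finset.prod_congr rfl fun w _ => e3 w, ← Finset.prod_filter]
    apply Finset.prod_congr
    · ext w
      simp only [Finset.mem_filter, Finset.mem_union]
      tauto
    · intro w _; rfl
  -- second description
  have h2 : (infinitePi (fun _ : V => ν)).map (fun t w => if w ∈ Λ then t w else 0) =
      infinitePi N := by
    set φ : V → ℝ → ℝ := fun w y => if w ∈ Λ then y else 0 with hφ
    have hφm : ∀ w, Measurable (φ w) := by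
      intro w
      by_cases h : w ∈ Λ
      · simp only [hφ, h, if_true]; exact measurable_id
      · simp only [hφ, h, if_false]; exact measurable_const
    have := infinitePi_map_pi (fun _ : V => ν) hφm
    rw [this]
    congr 1
    funext w
    by_cases h : w ∈ Λ
    · simp only [hφ, hN, h, if_true]
      exact Measure.map_id
    · simp only [hφ, hN, h, if_false]
      rw [Measure.map_const]
      simp
  have hcut : Measurable fun (t : V → ℝ) (w : V) => if w ∈ Λ then t w else 0 := by
    rw [measurable_pi_iff]
    intro w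
    by_cases h : w ∈ Λ
    · simp only [h, if_true]; exact measurable_pi_apply w
    · simp only [h, if_false]; exact measurable_const
  have e4 : ∫⁻ t, Ψ t ∂(infinitePi (fun _ : V => ν)) = ∫⁻ t, Ψ t ∂(infinitePi N) := by
    rw [← h2, lintegral_map hΨ hcut]
    apply lintegral_congr
    intro t
    apply hΨd
    intro v hv
    rw [if_pos hv]
  have hΨg : Measurable fun x : V → X => Ψ (g x) := hΨ.comp hgm
  rw [e4, ← h1, lintegral_map hΨ hgm, lintegral_withDensity_eq_lintegral_mul _ hDm hΨg]
  apply lintegral_congr
  intro x
  simp only [Pi.mul_apply]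
  rw [mul_comm]
  congr 1
  apply hΨd
  intro v hv
  rw [hg]
  simp only
  rw [if_pos hv]

/-! ### one site -/

/-- reference tilt of one site -/
noncomputable def sref (x : ℕ × Bool → I) : ℕ → ℝ
  | 0 => 0
  | j + 1 => ein (sref x j) (ob 1 (2 * (x (j, false) : ℝ)) (x (j, true) : ℝ))

/-- reference weight of one site -/
noncomputable def sw (x : ℕ × Bool → I) : ℕ → ℝ
  | 0 => 1
  | j + 1 => sw x j * (1 + sref x j * ob 1 (2 * (x (j, false) : ℝ)) (x (j, true) : ℝ))

/-- reference tilt of one site, at time `r` -/
noncomputable def srefr (x : ℕ × Bool → I) (j : ℕ) (r : ℝ) : ℝ :=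
  ein (sref x j) (ob r (2 * (x (j, false) : ℝ)) (x (j, true) : ℝ))

/-- reference weight of one site, at time `r` -/
noncomputable def swr (x : ℕ × Bool → I) (j : ℕ) (r : ℝ) : ℝ :=
  sw x j * (1 + sref x j * ob r (2 * (x (j, false) : ℝ)) (x (j, true) : ℝ))

theorem sref_congr {x x' : ℕ × Bool → I} (j : ℕ) (h : ∀ i < j, ∀ b, x (i, b) = x' (i, b)) :
    sref x j = sref x' j := by
  induction j with
  | zero => rfl
  | succ j ih =>
    unfold sref
    rw [ih (fun i hi => h i (by omega)), h j (by omega), h j (by omega)]

theorem sw_congr {x x' : ℕ × Bool → I} (j : ℕ) (h : ∀ i < j, ∀ b, x (i, b) = x' (i, b)) :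
    sw x j = sw x' j := by
  induction j with
  | zero => rfl
  | succ j ih =>
    unfold sw
    rw [ih (fun i hi => h i (by omega)), sref_congr j (fun i hi => h i (by omega)),
      h j (by omega), h j (by omega)]

theorem sref_abs_lt (x : ℕ × Bool → I) (j : ℕ) : |sref x j| < 1 := by
  induction j with
  | zero => simp [sref]
  | succ j ih =>
    exact ein_abs_lt ih ((ob_abs_le le_rfl (x (j, true)).2).trans_lt (by norm_num))

theorem srefr_abs_lt (x : ℕ × Bool → I) (j : ℕ) {r : ℝ} (hr : r ≤ 1) : |srefr x j r| < 1 :=
  ein_abs_lt (sref_abs_lt x j) ((ob_abs_le hr (x (j, true)).2).trans_lt (by norm_num))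

theorem sfac_pos (x : ℕ × Bool → I) (j : ℕ) {r : ℝ} (hr : r ≤ 1) (a : ℝ) {y : ℝ}
    (hy : y ∈ Icc (0 : ℝ) 1) : 0 < 1 + sref x j * ob r a y :=
  one_add_mul_pos (sref_abs_lt x j) ((ob_abs_le hr hy).trans (by norm_num))

theorem sw_pos (x : ℕ × Bool → I) (j : ℕ) : 0 < sw x j := by
  induction j with
  | zero => exact one_pos
  | succ j ih => exact mul_pos ih (sfac_pos x j le_rfl _ (x (j, true)).2)

theorem swr_pos (x : ℕ × Bool → I) (j : ℕ) {r : ℝ} (hr : r ≤ 1) : 0 < swr x j r :=
  mul_pos (sw_pos x j) (sfac_pos x j hr _ (x (j, true)).2)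

theorem coord_meas (c : ℕ × Bool) : Measurable fun x : ℕ × Bool → I => (x c : ℝ) :=
  measurable_subtype_coe.comp (measurable_pi_apply c)

theorem sob_meas (j : ℕ) (r : ℝ) : Measurable fun x : ℕ × Bool → I =>
    ob r (2 * (x (j, false) : ℝ)) (x (j, true) : ℝ) :=
  (ob_measurable r).comp (((coord_meas (j, false)).const_mul 2).prodMk (coord_meas (j, true)))

theorem sref_meas (j : ℕ) : Measurable fun x : ℕ × Bool → I => sref x j := by
  induction j with
  | zero => exact measurable_const
  | succ j ih => exact ein_measurable.comp (ih.prodMk (sob_meas j 1))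

theorem sw_meas (j : ℕ) : Measurable fun x : ℕ × Bool → I => sw x j := by
  induction j with
  | zero => exact measurable_const
  | succ j ih => exact ih.mul (((sref_meas j).mul (sob_meas j 1)).const_add 1)

theorem srefr_meas (j : ℕ) (r : ℝ) : Measurable fun x : ℕ × Bool → I => srefr x j r :=
  ein_measurable.comp ((sref_meas j).prodMk (sob_meas j r))

theorem swr_meas (j : ℕ) (r : ℝ) : Measurable fun x : ℕ × Bool → I => swr x j r :=
  (sw_meas j).mul (((sref_meas j).mul (sob_meas j r)).const_add 1)

theorem lintegral_comb {π ρ : Measure ℝ} [SFinite ρ] {ψ : ℝ → ENNReal} (hψ : Measurable ψ) :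
    ∫⁻ t, ψ t ∂(comb π ρ) =
      ∫⁻ p, ∫⁻ q, ψ (ein p q) * ENNReal.ofReal (1 + p * q) ∂ρ ∂π := by
  unfold comb
  have hd : Measurable fun p : ℝ × ℝ => ENNReal.ofReal (1 + p.1 * p.2) := by fun_prop
  have hE : Measurable fun p : ℝ × ℝ => ψ (ein p.1 p.2) := hψ.comp ein_measurable
  rw [lintegral_map hψ ein_measurable, lintegral_withDensity_eq_lintegral_mul _ hd hE,
    lintegral_prod]
  · apply lintegral_congr
    intro p
    apply lintegral_congr
    intro q
    simp only [Pi.mul_apply]
    rw [mul_comm]
  · exact (hd.mul hE).aemeasurable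

theorem lintegral_obs (r : ℝ) {ψ : ℝ → ENNReal} (hψ : Measurable ψ) :
    ∫⁻ t, ψ t ∂(obsLaw r) = ∫⁻ u : I, ∫⁻ v : I, ψ (ob r (2 * (u : ℝ)) (v : ℝ)) := by
  unfold obsLaw
  have hm : Measurable fun p : I × I => ob r (2 * (p.1 : ℝ)) (p.2 : ℝ) :=
    (ob_measurable r).comp (((measurable_subtype_coe.comp measurable_fst).const_mul 2).prodMk
      (measurable_subtype_coe.comp measurable_snd))
  have h1 : (fun p : I × I => if 2 * (p.1 : ℝ) < r then eta (2 * (p.1 : ℝ)) * (2 * (p.2 : ℝ) - 1)
      else 0) = fun p : I × I => ob r (2 * (p.1 : ℝ)) (p.2 : ℝ) := rfl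
  rw [h1, lintegral_map hψ hm, lintegral_prod]
  exact (hψ.comp hm).aemeasurable

instance obsLaw_finite (r : ℝ) : IsFiniteMeasure (obsLaw r) := by
  unfold obsLaw
  infer_instance

theorem lintegral_siteL_of (j : ℕ) {r : ℝ} (hr : r ≤ 1)
    (hS : ∀ ψ : ℝ → ENNReal, Measurable ψ →
      ∫⁻ x, ψ (sref x j) * ENNReal.ofReal (sw x j) ∂(infinitePi (fun _ : ℕ × Bool => (volume : Measure I)))
        = ∫⁻ y, ψ y ∂(siteS j))
    (ψ : ℝ → ENNReal) (hψ : Measurable ψ) :
    ∫⁻ x, ψ (srefr x j r) * ENNReal.ofReal (swr x j r)
      ∂(infinitePi (fun _ : ℕ × Bool => (volume : Measure I))) = ∫⁻ y, ψ y ∂(siteL j r) := by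
  unfold siteL
  rw [lintegral_comb hψ]
  have hk : Measurable fun p : ℝ × ℝ => ψ (ein p.1 p.2) * ENNReal.ofReal (1 + p.1 * p.2) :=
    (hψ.comp ein_measurable).mul (by fun_prop)
  have hk' : Measurable fun p : ℝ => ∫⁻ q, ψ (ein p q) * ENNReal.ofReal (1 + p * q) ∂(obsLaw r) :=
    hk.lintegral_prod_right'
  rw [← hS _ hk']
  have hΦ : Measurable fun x : ℕ × Bool → I => ψ (srefr x j r) * ENNReal.ofReal (swr x j r) :=
    (hψ.comp (srefr_meas j r)).mul (swr_meas j r).ennreal_ofReal
  rw [lintegral_resample (volume : Measure I) (j, false) _ hΦ]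
  have hΦ2 : ∀ u : I, Measurable fun x : ℕ × Bool → I =>
      ψ (srefr (Function.update x (j, false) u) j r) *
        ENNReal.ofReal (swr (Function.update x (j, false) u) j r) := by
    intro u
    have h1 : Measurable fun x : ℕ × Bool → I => Function.update x (j, false) u :=
      (update_measurable (X := I) (j, false)).comp (measurable_id.prodMk measurable_const)
    exact hΦ.comp h1
  have hΦ3 : Measurable fun x : ℕ × Bool → I => ∫⁻ u : I,
      ψ (srefr (Function.update x (j, false) u) j r) *
        ENNReal.ofReal (swr (Function.update x (j, false) u) j r) := by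
    have h1 : Measurable fun p : (ℕ × Bool → I) × I =>
        ψ (srefr (Function.update p.1 (j, false) p.2) j r) *
        ENNReal.ofReal (swr (Function.update p.1 (j, false) p.2) j r) :=
      hΦ.comp (update_measurable (X := I) (j, false))
    exact h1.lintegral_prod_right'
  rw [lintegral_resample (volume : Measure I) (j, true) _ hΦ3]
  apply lintegral_congr
  intro x
  have e1 : ∫⁻ q, ψ (ein (sref x j) q) * ENNReal.ofReal (1 + sref x j * q) ∂(obsLaw r) =
      ∫⁻ u : I, ∫⁻ v : I, ψ (ein (sref x j) (ob r (2 * (u : ℝ)) (v : ℝ))) *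
        ENNReal.ofReal (1 + sref x j * ob r (2 * (u : ℝ)) (v : ℝ)) := by
    apply lintegral_obs r (ψ := fun q => ψ (ein (sref x j) q) * ENNReal.ofReal (1 + sref x j * q))
    exact hk.comp (measurable_const.prodMk measurable_id)
  rw [e1]
  have hk3 : Measurable fun p : I × I => ψ (ein (sref x j) (ob r (2 * (p.1 : ℝ)) (p.2 : ℝ))) *
        ENNReal.ofReal (1 + sref x j * ob r (2 * (p.1 : ℝ)) (p.2 : ℝ)) := by
    have hm : Measurable fun p : I × I => ob r (2 * (p.1 : ℝ)) (p.2 : ℝ) :=
      (ob_measurable r).comp (((measurable_subtype_coe.comp measurable_fst).const_mul 2).prodMk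
        (measurable_subtype_coe.comp measurable_snd))
    have hm2 : Measurable fun p : I × I => (sref x j, ob r (2 * (p.1 : ℝ)) (p.2 : ℝ)) :=
      measurable_const.prodMk hm
    exact hk.comp hm2
  rw [← lintegral_mul_const _ hk3.lintegral_prod_right', lintegral_lintegral_swap]
  · apply lintegral_congr
    intro u
    have hk4 : Measurable fun v : I => ψ (ein (sref x j) (ob r (2 * (u : ℝ)) (v : ℝ))) *
        ENNReal.ofReal (1 + sref x j * ob r (2 * (u : ℝ)) (v : ℝ)) :=
      hk3.comp (measurable_const.prodMk measurable_id)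
    rw [← lintegral_mul_const _ hk4]
    apply lintegral_congr
    intro v
    have hne : ((j, true) : ℕ × Bool) ≠ (j, false) := by simp
    have a1 : Function.update (Function.update x (j, true) v) (j, false) u (j, false) = u :=
      Function.update_self _ _ _
    have a2 : Function.update (Function.update x (j, true) v) (j, false) u (j, true) = v := by
      rw [Function.update_of_ne hne, Function.update_self]
    have a3 : ∀ i < j, ∀ b, Function.update (Function.update x (j, true) v) (j, false) u (i, b) =
        x (i, b) := by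
      intro i hi b
      rw [Function.update_of_ne, Function.update_of_ne]
      · intro h
        have := congrArg Prod.fst h
        simp only at this
        omega
      · intro h
        have := congrArg Prod.fst h
        simp only at this
        omega
    unfold srefr swr
    rw [sref_congr j a3, sw_congr j a3, a1, a2, mul_assoc,
      ENNReal.ofReal_mul (sw_pos x j).le, mul_comm (ENNReal.ofReal (sw x j))]
  · have h1 : Measurable fun p : I × I =>
        Function.update (Function.update x (j, true) p.1) (j, false) p.2 := by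
      have h2 : Measurable fun p : I × I => Function.update x (j, true) p.1 :=
        (update_measurable (X := I) (j, true)).comp (measurable_const.prodMk measurable_fst)
      exact (update_measurable (X := I) (j, false)).comp (h2.prodMk measurable_snd)
    exact (hΦ.comp h1).aemeasurable

theorem lintegral_siteS (j : ℕ) (ψ : ℝ → ENNReal) (hψ : Measurable ψ) :
    ∫⁻ x, ψ (sref x j) * ENNReal.ofReal (sw x j)
      ∂(infinitePi (fun _ : ℕ × Bool => (volume : Measure I))) = ∫⁻ y, ψ y ∂(siteS j) := by
  induction j generalizing ψ with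
  | zero =>
    show ∫⁻ x, ψ 0 * ENNReal.ofReal 1 ∂(infinitePi (fun _ : ℕ × Bool => (volume : Measure I))) =
      ∫⁻ y, ψ y ∂(dirac 0)
    rw [lintegral_dirac' _ hψ]
    simp
  | succ j ih => exact lintegral_siteL_of j le_rfl ih ψ hψ

theorem lintegral_siteL (j : ℕ) {r : ℝ} (hr : r ≤ 1) (ψ : ℝ → ENNReal) (hψ : Measurable ψ) :
    ∫⁻ x, ψ (srefr x j r) * ENNReal.ofReal (swr x j r)
      ∂(infinitePi (fun _ : ℕ × Bool => (volume : Measure I))) = ∫⁻ y, ψ y ∂(siteL j r) :=
  lintegral_siteL_of j hr (lintegral_siteS j) ψ hψ

end Crest.Agent.FreeIs.Samp
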