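import Crest.Agent.FreeIs.Samp1

/-!
S0241, sampler part 2: algebra of the finite Gibbs sums (update of one tilt).
-/

set_option autoImplicit false

open Set

universe u

namespace Crest.Agent.FreeIs.Samp

theorem ein_abs_lt {p q : ℝ} (hp : |p| < 1) (hq : |q| < 1) : |ein p q| < 1 := by
  obtain ⟨p1, p2⟩ := abs_lt.1 hp
  obtain ⟨q1, q2⟩ := abs_lt.1 hq
  have hd : 0 < 1 + p * q := by
    have : |p * q| < 1 := by
      rw [abs_mul]
      calc |p| * |q| ≤ |p| * 1 := mul_le_mul_of_nonneg_left hq.le (abs_nonneg _)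
        _ < 1 := by linarith
    have := (abs_lt.1 this).1
    linarith
  unfold ein
  rw [abs_lt]
  constructor
  · rw [lt_div_iff₀ hd]
    nlinarith
  · rw [div_lt_one hd]
    nlinarith

theorem ein_zero (p : ℝ) : ein p 0 = p := by unfold ein; simp

theorem zero_ein (p : ℝ) : ein 0 p = p := by unfold ein; simp

theorem one_add_mul_pos {p q : ℝ} (hp : |p| < 1) (hq : |q| ≤ 1) : 0 < 1 + p * q := by
  have : |p * q| < 1 := by
    rw [abs_mul]
    calc |p| * |q| ≤ |p| * 1 := mul_le_mul_of_nonneg_left hq (abs_nonneg _)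
      _ < 1 := by linarith
  have := (abs_lt.1 this).1
  linarith

variable {V : Type u} (G : SimpleGraph V)

theorem spin_sq (P : Finset V) (v : V) : spin P v * spin P v = 1 := by
  unfold spin; split_ifs <;> norm_num

theorem abs_spin (P : Finset V) (v : V) : |spin P v| = 1 := by
  unfold spin; split_ifs <;> norm_num

theorem abs_spinE (P : Finset V) (e : Sym2 V) : |spinE P e| = 1 := by
  induction e with
  | h x y => simp [spinE, abs_mul, abs_spin]

theorem wt_pos {θ : ℝ} (hθ : |θ| < 1) (Λ : Finset V) {t : V → ℝ} (ht : ∀ v, |t v| < 1)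
    (P : Finset V) : 0 < wt G θ Λ t P := by
  unfold wt
  apply mul_pos
  · exact Finset.prod_pos fun e _ => one_add_mul_pos hθ (abs_spinE P e).le
  · exact Finset.prod_pos fun v _ => one_add_mul_pos (ht v) (abs_spin P v).le

theorem gexp_pos {θ : ℝ} (hθ : |θ| < 1) (Λ : Finset V) {t : V → ℝ} (ht : ∀ v, |t v| < 1)
    {F : Finset V → ℝ} (hF : ∀ P, 0 < F P) : 0 < gexp G θ Λ t F := by
  unfold gexp
  apply mul_pos (by positivity)
  apply Finset.sum_pos
  · intro P _
    exact mul_pos (hF P) (wt_pos G hθ Λ ht P)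
  · exact ⟨∅, Finset.empty_mem_powerset _⟩

theorem Zf_pos {θ : ℝ} (hθ : |θ| < 1) (Λ : Finset V) {t : V → ℝ} (ht : ∀ v, |t v| < 1) :
    0 < Zf G θ Λ t := gexp_pos G hθ Λ ht (fun _ => one_pos)

theorem gexp_add (θ : ℝ) (Λ : Finset V) (t : V → ℝ) (F F' : Finset V → ℝ) :
    gexp G θ Λ t (fun P => F P + F' P) = gexp G θ Λ t F + gexp G θ Λ t F' := by
  unfold gexp
  rw [← mul_add, ← Finset.sum_add_distrib]
  congr 1
  apply Finset.sum_congr rfl
  intro P _; ring

theorem gexp_smul (θ : ℝ) (Λ : Finset V) (t : V → ℝ) (c : ℝ) (F : Finset V → ℝ) :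
    gexp G θ Λ t (fun P => c * F P) = c * gexp G θ Λ t F := by
  unfold gexp
  rw [Finset.mul_sum, Finset.mul_sum, Finset.mul_sum]
  apply Finset.sum_congr rfl
  intro P _; ring

theorem gexp_mono {θ : ℝ} (hθ : |θ| < 1) (Λ : Finset V) {t : V → ℝ} (ht : ∀ v, |t v| < 1)
    {F F' : Finset V → ℝ} (h : ∀ P, F P ≤ F' P) : gexp G θ Λ t F ≤ gexp G θ Λ t F' := by
  unfold gexp
  apply mul_le_mul_of_nonneg_left _ (by positivity)
  apply Finset.sum_le_sum
  intro P _
  exact mul_le_mul_of_nonneg_right (h P) (wt_pos G hθ Λ ht P).le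

theorem abs_gexp_le {θ : ℝ} (hθ : |θ| < 1) (Λ : Finset V) {t : V → ℝ} (ht : ∀ v, |t v| < 1)
    {F : Finset V → ℝ} (h : ∀ P, |F P| ≤ 1) : |gexp G θ Λ t F| ≤ Zf G θ Λ t := by
  rw [abs_le]
  constructor
  · have := gexp_mono G hθ Λ ht (F := fun P => (-1) * 1) (F' := F) (fun P => by
      have := (abs_le.1 (h P)).1; linarith)
    rw [gexp_smul] at this
    unfold Zf
    linarith
  · exact gexp_mono G hθ Λ ht (fun P => (abs_le.1 (h P)).2)

theorem abs_mag_le {θ : ℝ} (hθ : |θ| < 1) (Λ : Finset V) {t : V → ℝ} (ht : ∀ v, |t v| < 1)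
    (v : V) : |mag G θ Λ t v| ≤ 1 := by
  unfold mag
  split_ifs
  · rw [abs_div, abs_of_pos (Zf_pos G hθ Λ ht), div_le_one (Zf_pos G hθ Λ ht)]
    exact abs_gexp_le G hθ Λ ht (fun P => (abs_spin P v).le)
  · simp

open Classical in
theorem wt_update {θ : ℝ} {Λ : Finset V} {t : V → ℝ} {u : V} (hu : u ∈ Λ) {a : ℝ}
    (ha : 1 + t u * a ≠ 0) (P : Finset V) :
    (1 + t u * a) * wt G θ Λ (Function.update t u (ein (t u) a)) P =
      (1 + a * spin P u) * wt G θ Λ t P := by
  unfold wt
  rw [← Finset.mul_prod_erase Λ (fun v => 1 + Function.update t u (ein (t u) a) v * spin P v) hu,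
    ← Finset.mul_prod_erase Λ (fun v => 1 + t v * spin P v) hu]
  have h1 : ∏ x ∈ Λ.erase u, (1 + Function.update t u (ein (t u) a) x * spin P x) =
      ∏ x ∈ Λ.erase u, (1 + t x * spin P x) := by
    apply Finset.prod_congr rfl
    intro x hx
    rw [Function.update_of_ne (Finset.ne_of_mem_erase hx)]
  rw [h1, Function.update_self]
  have h2 : (1 + t u * a) * (1 + ein (t u) a * spin P u) =
      (1 + a * spin P u) * (1 + t u * spin P u) := by
    unfold ein
    have h3 := spin_sq P u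
    have e : (1 + t u * a) * (1 + (t u + a) / (1 + t u * a) * spin P u) =
        (1 + t u * a) + (t u + a) * spin P u := by
      field_simp
    rw [e]
    linear_combination (-(t u * a)) * h3
  linear_combination (∏ e ∈ Λ.sym2 with e ∈ G.edgeSet, (1 + θ * spinE P e)) *
    (∏ x ∈ Λ.erase u, (1 + t x * spin P x)) * h2

open Classical in
theorem gexp_update {θ : ℝ} {Λ : Finset V} {t : V → ℝ} {u : V} (hu : u ∈ Λ) {a : ℝ}
    (ha : 1 + t u * a ≠ 0) (F : Finset V → ℝ) :
    (1 + t u * a) * gexp G θ Λ (Function.update t u (ein (t u) a)) F =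
      gexp G θ Λ t (fun P => F P * (1 + a * spin P u)) := by
  unfold gexp
  rw [Finset.mul_sum, Finset.mul_sum, Finset.mul_sum]
  apply Finset.sum_congr rfl
  intro P _
  have := wt_update G hu ha P (θ := θ)
  linear_combination (2 : ℝ)⁻¹ ^ Λ.card * F P * this

open Classical in
theorem Zf_update {θ : ℝ} (hθ : |θ| < 1) {Λ : Finset V} {t : V → ℝ} (ht : ∀ v, |t v| < 1)
    {u : V} (hu : u ∈ Λ) {a : ℝ} (ha : |a| < 1) :
    (1 + t u * a) * Zf G θ Λ (Function.update t u (ein (t u) a)) =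
      Zf G θ Λ t * (1 + a * mag G θ Λ t u) := by
  have hd : 1 + t u * a ≠ 0 := (one_add_mul_pos (ht u) ha.le).ne'
  have h := gexp_update G (θ := θ) hu hd (fun _ => 1)
  unfold Zf
  rw [h]
  have e : (fun P : Finset V => (1 : ℝ) * (1 + a * spin P u)) =
      fun P => (1 : ℝ) + a * spin P u := by funext P; ring
  rw [e, gexp_add G θ Λ t (fun _ => 1) (fun P => a * spin P u), gexp_smul]
  unfold mag
  rw [if_pos hu]
  have hZ := (Zf_pos G hθ Λ ht).ne'
  unfold Zf at hZ ⊢
  field_simp

open Classical in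
theorem mag_update {θ : ℝ} (hθ : |θ| < 1) {Λ : Finset V} {t : V → ℝ} (ht : ∀ v, |t v| < 1)
    {u : V} (hu : u ∈ Λ) {a : ℝ} (ha : |a| < 1) (v : V) :
    mag G θ Λ (Function.update t u (ein (t u) a)) v =
      mag G θ Λ t v + cov G θ Λ t v u * (a / (1 + a * mag G θ Λ t u)) := by
  by_cases hv : v ∈ Λ
  · have hd : 1 + t u * a ≠ 0 := (one_add_mul_pos (ht u) ha.le).ne'
    have h := gexp_update G (θ := θ) hu hd (fun P => spin P v)
    have hZ := Zf_update G hθ ht hu ha
    have hM : 0 < 1 + a * mag G θ Λ t u := one_add_mul_pos ha (abs_mag_le G hθ Λ ht u)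
    have hZp := Zf_pos G hθ Λ ht
    have ht' : ∀ w, |Function.update t u (ein (t u) a) w| < 1 := by
      intro w
      by_cases hw : w = u
      · subst hw; rw [Function.update_self]; exact ein_abs_lt (ht w) ha
      · rw [Function.update_of_ne hw]; exact ht w
    have hZp' := Zf_pos G hθ Λ ht'
    have e : (fun P : Finset V => spin P v * (1 + a * spin P u)) =
        fun P => spin P v + a * (spin P v * spin P u) := by funext P; ring
    rw [e, gexp_add G θ Λ t (fun P => spin P v) (fun P => a * (spin P v * spin P u)),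
      gexp_smul] at h
    have e1 : mag G θ Λ (Function.update t u (ein (t u) a)) v =
        gexp G θ Λ (Function.update t u (ein (t u) a)) (fun P => spin P v) /
          Zf G θ Λ (Function.update t u (ein (t u) a)) := by
      unfold mag; rw [if_pos hv]
    have e2 : mag G θ Λ t v = gexp G θ Λ t (fun P => spin P v) / Zf G θ Λ t := by
      unfold mag; rw [if_pos hv]
    have e3 : cov G θ Λ t v u = gexp G θ Λ t (fun P => spin P v * spin P u) / Zf G θ Λ t -
        mag G θ Λ t v * mag G θ Λ t u := by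
      unfold cov; rw [if_pos ⟨hv, hu⟩]
    rw [e1, e3]
    have k1 : gexp G θ Λ (Function.update t u (ein (t u) a)) (fun P => spin P v) /
        Zf G θ Λ (Function.update t u (ein (t u) a)) =
        (gexp G θ Λ t (fun P => spin P v) + a * gexp G θ Λ t (fun P => spin P v * spin P u)) /
          (Zf G θ Λ t * (1 + a * mag G θ Λ t u)) := by
      rw [← h, ← hZ]
      rw [mul_div_mul_left _ _ hd]
    rw [k1]
    rw [div_eq_iff (mul_pos hZp hM).ne']
    have e4 : gexp G θ Λ t (fun P => spin P v) = mag G θ Λ t v * Zf G θ Λ t := by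
      rw [e2]; field_simp
    rw [e4]
    set g2 := gexp G θ Λ t (fun P => spin P v * spin P u)
    set m := mag G θ Λ t v
    set n := mag G θ Λ t u
    have hM' := hM.ne'
    have hZ' := hZp.ne'
    field_simp
    ring
  · unfold mag cov
    rw [if_neg hv, if_neg hv, if_neg (fun h => hv h.1)]
    ring

theorem cov_eq_zero_of_notMem {θ : ℝ} {Λ : Finset V} {t : V → ℝ} {v u : V} (hu : u ∉ Λ) :
    cov G θ Λ t v u = 0 := by
  unfold cov; rw [if_neg (fun h => hu h.2)]

theorem mag_eq_zero_of_notMem {θ : ℝ} {Λ : Finset V} {t : V → ℝ} {u : V} (hu : u ∉ Λ) :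
    mag G θ Λ t u = 0 := by
  unfold mag; rw [if_neg hu]

theorem wt_congr {θ : ℝ} {Λ : Finset V} {t t' : V → ℝ} (h : ∀ v ∈ Λ, t v = t' v)
    (P : Finset V) : wt G θ Λ t P = wt G θ Λ t' P := by
  unfold wt
  congr 1
  apply Finset.prod_congr rfl
  intro v hv
  rw [h v hv]

theorem gexp_congr {θ : ℝ} {Λ : Finset V} {t t' : V → ℝ} (h : ∀ v ∈ Λ, t v = t' v)
    (F : Finset V → ℝ) : gexp G θ Λ t F = gexp G θ Λ t' F := by
  unfold gexp
  congr 1
  apply Finset.sum_congr rfl
  intro P _
  rw [wt_congr G h]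

theorem mag_congr {θ : ℝ} {Λ : Finset V} {t t' : V → ℝ} (h : ∀ v ∈ Λ, t v = t' v) (v : V) :
    mag G θ Λ t v = mag G θ Λ t' v := by
  unfold mag Zf
  rw [gexp_congr G h, gexp_congr G h]

theorem cov_congr {θ : ℝ} {Λ : Finset V} {t t' : V → ℝ} (h : ∀ v ∈ Λ, t v = t' v) (v u : V) :
    cov G θ Λ t v u = cov G θ Λ t' v u := by
  unfold cov Zf
  rw [gexp_congr G h, gexp_congr G h, mag_congr G h, mag_congr G h]

theorem Zf_congr {θ : ℝ} {Λ : Finset V} {t t' : V → ℝ} (h : ∀ v ∈ Λ, t v = t' v) :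
    Zf G θ Λ t = Zf G θ Λ t' := gexp_congr G h _

theorem wt_measurable (θ : ℝ) (Λ : Finset V) (P : Finset V) :
    Measurable (fun t : V → ℝ => wt G θ Λ t P) := by
  unfold wt
  apply Measurable.mul measurable_const
  apply Finset.measurable_prod
  intro v _
  exact (measurable_const.add ((measurable_pi_apply v).mul measurable_const))

theorem gexp_measurable (θ : ℝ) (Λ : Finset V) (F : Finset V → ℝ) :
    Measurable (fun t : V → ℝ => gexp G θ Λ t F) := by
  unfold gexp
  apply Measurable.mul measurable_const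
  apply Finset.measurable_sum
  intro P _
  exact measurable_const.mul (wt_measurable G θ Λ P)

theorem Zf_measurable (θ : ℝ) (Λ : Finset V) : Measurable (fun t : V → ℝ => Zf G θ Λ t) :=
  gexp_measurable G θ Λ _

theorem mag_measurable (θ : ℝ) (Λ : Finset V) (v : V) :
    Measurable (fun t : V → ℝ => mag G θ Λ t v) := by
  unfold mag
  split_ifs
  · exact (gexp_measurable G θ Λ _).div (Zf_measurable G θ Λ)
  · exact measurable_const

theorem cov_measurable (θ : ℝ) (Λ : Finset V) (v u : V) :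
    Measurable (fun t : V → ℝ => cov G θ Λ t v u) := by
  unfold cov
  split_ifs
  · exact ((gexp_measurable G θ Λ _).div (Zf_measurable G θ Λ)).sub
      ((mag_measurable G θ Λ v).mul (mag_measurable G θ Λ u))
  · exact measurable_const

theorem abs_cov_le {θ : ℝ} (hθ : |θ| < 1) (Λ : Finset V) {t : V → ℝ} (ht : ∀ v, |t v| < 1)
    (v u : V) : |cov G θ Λ t v u| ≤ 2 := by
  unfold cov
  split_ifs
  · refine (abs_sub _ _).trans ?_
    have h1 : |gexp G θ Λ t (fun P => spin P v * spin P u) / Zf G θ Λ t| ≤ 1 := by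
      rw [abs_div, abs_of_pos (Zf_pos G hθ Λ ht), div_le_one (Zf_pos G hθ Λ ht)]
      refine abs_gexp_le G hθ Λ ht (fun P => ?_)
      rw [abs_mul, abs_spin, abs_spin, one_mul]
    have h2 : |mag G θ Λ t v * mag G θ Λ t u| ≤ 1 := by
      rw [abs_mul]
      exact mul_le_one₀ (abs_mag_le G hθ Λ ht v) (abs_nonneg _) (abs_mag_le G hθ Λ ht u)
    linarith
  · simp

end Crest.Agent.FreeIs.Samp
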