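import Crest.Agent.FreeIs.Samp2

/-!
S0241, sampler part 3: the fixed point equation, locality and measurability of the sampler.
-/

set_option autoImplicit false

open Set MeasureTheory

universe u

namespace Crest.Agent.FreeIs.Samp

theorem ein_measurable : Measurable (fun p : ℝ × ℝ => ein p.1 p.2) := by
  unfold ein; fun_prop

variable {V : Type u} (G : SimpleGraph V)

open Classical in
/-- the sites observed before `r` -/
noncomputable def before (Λ : Finset V) (T : V → ℝ) (r : ℝ) : Finset V := Λ.filter (fun w => T w < r)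

theorem mem_before {Λ : Finset V} {T : V → ℝ} {r : ℝ} {w : V} :
    w ∈ before Λ T r ↔ w ∈ Λ ∧ T w < r := by
  classical
  unfold before; rw [Finset.mem_filter]

theorem tlt_congr {Λ : Finset V} {t0 T T' Y Y' : V → ℝ} {r r' : ℝ}
    (h1 : ∀ w ∈ Λ, (T w < r ↔ T' w < r'))
    (h2 : ∀ w ∈ Λ, T w < r → T w = T' w ∧ Y w = Y' w) :
    tlt Λ t0 T Y r = tlt Λ t0 T' Y' r' := by
  funext w
  unfold tlt
  by_cases hw : w ∈ Λ
  · by_cases h : T w < r
    · rw [if_pos ⟨hw, h⟩, if_pos ⟨hw, (h1 w hw).1 h⟩, (h2 w hw h).1, (h2 w hw h).2]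
    · rw [if_neg (fun h' => h h'.2), if_neg (fun h' => h ((h1 w hw).2 h'.2))]
  · rw [if_neg (fun h' => hw h'.1), if_neg (fun h' => hw h'.1)]

theorem stepY_congr {θ : ℝ} {Λ : Finset V} {t0 T U Y Y' : V → ℝ} {v : V}
    (h : ∀ w ∈ before Λ T (T v), Y w = Y' w) :
    stepY G θ Λ t0 T U Y v = stepY G θ Λ t0 T U Y' v := by
  unfold stepY
  rw [tlt_congr (fun w _ => Iff.rfl) (fun w hw hlt => ⟨rfl, h w (mem_before.2 ⟨hw, hlt⟩)⟩)]

theorem iter_congr {θ : ℝ} {Λ : Finset V} {t0 T U : V → ℝ} (Y Y' : V → ℝ) (n : ℕ) (v : V)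
    (h : (before Λ T (T v)).card < n) :
    (stepY G θ Λ t0 T U)^[n] Y v = (stepY G θ Λ t0 T U)^[n] Y' v := by
  induction n generalizing v with
  | zero => omega
  | succ n ih =>
    rw [Function.iterate_succ_apply', Function.iterate_succ_apply']
    apply stepY_congr
    intro w hw
    apply ih
    have hss : before Λ T (T w) ⊂ before Λ T (T v) := by
      rw [Finset.ssubset_iff_of_subset]
      · exact ⟨w, hw, fun h' => lt_irrefl _ (mem_before.1 h').2⟩
      · intro x hx
        rw [mem_before] at hx ⊢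
        exact ⟨hx.1, hx.2.trans (mem_before.1 hw).2⟩
    have := Finset.card_lt_card hss
    omega

theorem Ysol_eq {θ : ℝ} {Λ : Finset V} {t0 T U : V → ℝ} {v : V} (hv : v ∈ Λ) :
    Ysol G θ Λ t0 T U v = stepY G θ Λ t0 T U (Ysol G θ Λ t0 T U) v := by
  unfold Ysol
  rw [← Function.iterate_succ_apply' (stepY G θ Λ t0 T U), Function.iterate_succ_apply]
  apply iter_congr
  apply Finset.card_lt_card
  rw [Finset.ssubset_iff_of_subset]
  · exact ⟨v, hv, fun h' => lt_irrefl _ (mem_before.1 h').2⟩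
  · intro x hx
    exact (mem_before.1 hx).1

/-- Locality of the sampler. -/
theorem Ysol_local {θ : ℝ} {Λ : Finset V} {t0 T U T' U' : V → ℝ} {r : ℝ}
    (h : ∀ w ∈ Λ, (T w < r ∨ T' w < r) → T w = T' w ∧ U w = U' w) {v : V} (hv : v ∈ Λ)
    (hr : T v < r) : Ysol G θ Λ t0 T U v = Ysol G θ Λ t0 T' U' v := by
  unfold Ysol
  generalize Λ.card = n
  induction n generalizing v with
  | zero => rfl
  | succ n ih =>
    rw [Function.iterate_succ_apply', Function.iterate_succ_apply']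
    obtain ⟨e1, e2⟩ := h v hv (Or.inl hr)
    have : tlt Λ t0 T ((stepY G θ Λ t0 T U)^[n] fun _ => 0) (T v) =
        tlt Λ t0 T' ((stepY G θ Λ t0 T' U')^[n] fun _ => 0) (T' v) := by
      apply tlt_congr
      · intro w hw
        constructor
        · intro h1
          rw [← e1, ← (h w hw (Or.inl (h1.trans hr))).1]; exact h1
        · intro h1
          rw [← e1] at h1
          have h2 := h w hw (Or.inr (h1.trans hr))
          rw [h2.1]; exact h1
      · intro w hw h1
        exact ⟨(h w hw (Or.inl (h1.trans hr))).1, ih hw (h1.trans hr)⟩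
    unfold stepY at this ⊢
    rw [this, ← e1, ← e2]

theorem rnd_local {θ : ℝ} {Λ : Finset V} {t0 T U T' U' : V → ℝ} {r : ℝ}
    (h : ∀ w ∈ Λ, (T w < r ∨ T' w < r) → T w = T' w ∧ U w = U' w) :
    rnd G θ Λ t0 T U r = rnd G θ Λ t0 T' U' r := by
  unfold rnd
  apply tlt_congr
  · intro w hw
    constructor
    · intro h1; rw [← (h w hw (Or.inl h1)).1]; exact h1
    · intro h1; rw [(h w hw (Or.inr h1)).1]; exact h1
  · intro w hw h1
    exact ⟨(h w hw (Or.inl h1)).1, Ysol_local G h hw h1⟩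

theorem Ysol_eq_rnd {θ : ℝ} {Λ : Finset V} {t0 T U : V → ℝ} {v : V} (hv : v ∈ Λ) :
    Ysol G θ Λ t0 T U v =
      qy (eta (T v) * mag G θ Λ (rnd G θ Λ t0 T U (T v)) v) (U v) := by
  rw [Ysol_eq G hv]
  rfl

section Bounds

theorem tlt_abs_lt {Λ : Finset V} {t0 T Y : V → ℝ} {r : ℝ} (hr : r ≤ 1) (h0 : ∀ w, |t0 w| < 1)
    (hY : ∀ w ∈ Λ, T w < r → |Y w| ≤ 1) (w : V) : |tlt Λ t0 T Y r w| < 1 := by
  unfold tlt
  split_ifs with h
  · apply ein_abs_lt (h0 w)
    rw [abs_mul, abs_of_nonneg (eta_nonneg _)]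
    have h1 := eta_le (h.2.le.trans hr)
    have h2 := hY w h.1 h.2
    have h3 := eta_nonneg (T w)
    nlinarith [abs_nonneg (Y w)]
  · exact h0 w

theorem Ysol_mem {θ : ℝ} (hθ : |θ| < 1) {Λ : Finset V} {t0 T U : V → ℝ} (h0 : ∀ w, |t0 w| < 1)
    (hU : ∀ w, U w ∈ Icc (0 : ℝ) 1) {v : V} (hT : T v ≤ 1) :
    |Ysol G θ Λ t0 T U v| ≤ 1 := by
  have key : ∀ n : ℕ, ∀ w, T w ≤ 1 → |(stepY G θ Λ t0 T U)^[n] (fun _ => 0) w| ≤ 1 := by
    intro n
    induction n with
    | zero => intro w _; simp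
    | succ n ih =>
      intro w hw
      rw [Function.iterate_succ_apply']
      unfold stepY
      have h1 : ∀ x, |tlt Λ t0 T ((stepY G θ Λ t0 T U)^[n] fun _ => 0) (T w) x| < 1 :=
        tlt_abs_lt hw h0 (fun x _ hx => ih x (hx.le.trans hw))
      have h2 := qy_mem (abs_eta_mul_le hw (abs_mag_le G hθ Λ h1 w)) (hU w)
      exact abs_le.2 ⟨h2.1, h2.2⟩
  exact key _ v hT

theorem rnd_abs_lt {θ : ℝ} (hθ : |θ| < 1) {Λ : Finset V} {t0 T U : V → ℝ}
    (h0 : ∀ w, |t0 w| < 1) (hU : ∀ w, U w ∈ Icc (0 : ℝ) 1) {r : ℝ} (hr : r ≤ 1) (w : V) :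
    |rnd G θ Λ t0 T U r w| < 1 := by
  unfold rnd
  exact tlt_abs_lt hr h0 (fun x _ hlt => Ysol_mem G hθ h0 hU (hlt.le.trans hr)) w

theorem UU_mem (ω : Lab V) (j : ℕ) (v : V) : UU ω j v ∈ Icc (0 : ℝ) 1 := (ω (v, j, true)).2

theorem start_abs_lt {θ : ℝ} (hθ : |θ| < 1) (Λ : Finset V) (ω : Lab V) (j : ℕ) (w : V) :
    |start G θ Λ ω j w| < 1 := by
  induction j generalizing w with
  | zero => simp [start]
  | succ j ih => exact rnd_abs_lt G hθ ih (UU_mem ω j) le_rfl w

theorem st_abs_lt {θ : ℝ} (hθ : |θ| < 1) (Λ : Finset V) (ω : Lab V) (j : ℕ) {r : ℝ} (hr : r ≤ 1)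
    (w : V) : |st G θ Λ ω j r w| < 1 :=
  rnd_abs_lt G hθ (start_abs_lt G hθ Λ ω j) (UU_mem ω j) hr w

end Bounds

section Meas

variable {P : Type*} [MeasurableSpace P]

theorem tlt_measurable (Λ : Finset V) {t0 T Y : P → V → ℝ} {r : P → ℝ}
    (h0 : ∀ w, Measurable fun p => t0 p w) (hT : ∀ w, Measurable fun p => T p w)
    (hY : ∀ w, Measurable fun p => Y p w) (hr : Measurable r) :
    Measurable fun p => tlt Λ (t0 p) (T p) (Y p) (r p) := by
  classical
  rw [measurable_pi_iff]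
  intro w
  unfold tlt
  by_cases hw : w ∈ Λ
  · simp only [hw, true_and]
    apply Measurable.ite
    · exact measurableSet_lt (hT w) hr
    · exact ein_measurable.comp ((h0 w).prodMk ((eta_measurable.comp (hT w)).mul (hY w)))
    · exact h0 w
  · simp only [hw, false_and, if_false]
    exact h0 w

theorem stepY_measurable (θ : ℝ) (Λ : Finset V) {t0 T U Y : P → V → ℝ}
    (h0 : ∀ w, Measurable fun p => t0 p w) (hT : ∀ w, Measurable fun p => T p w)
    (hU : ∀ w, Measurable fun p => U p w) (hY : ∀ w, Measurable fun p => Y p w) (v : V) :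
    Measurable fun p => stepY G θ Λ (t0 p) (T p) (U p) (Y p) v := by
  unfold stepY
  have h1 : Measurable fun p => mag G θ Λ (tlt Λ (t0 p) (T p) (Y p) (T p v)) v :=
    (mag_measurable G θ Λ v).comp (tlt_measurable Λ h0 hT hY (hT v))
  have h2 : Measurable fun p => eta (T p v) * mag G θ Λ (tlt Λ (t0 p) (T p) (Y p) (T p v)) v :=
    (eta_measurable.comp (hT v)).mul h1
  exact qy_measurable.comp (h2.prodMk (hU v))

theorem Ysol_measurable (θ : ℝ) (Λ : Finset V) {t0 T U : P → V → ℝ}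
    (h0 : ∀ w, Measurable fun p => t0 p w) (hT : ∀ w, Measurable fun p => T p w)
    (hU : ∀ w, Measurable fun p => U p w) (v : V) :
    Measurable fun p => Ysol G θ Λ (t0 p) (T p) (U p) v := by
  unfold Ysol
  generalize Λ.card = n
  induction n generalizing v with
  | zero => exact measurable_const
  | succ n ih =>
    simp only [Function.iterate_succ_apply']
    exact stepY_measurable G θ Λ h0 hT hU ih v

theorem rnd_measurable (θ : ℝ) (Λ : Finset V) {t0 T U : P → V → ℝ} {r : P → ℝ}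
    (h0 : ∀ w, Measurable fun p => t0 p w) (hT : ∀ w, Measurable fun p => T p w)
    (hU : ∀ w, Measurable fun p => U p w) (hr : Measurable r) :
    Measurable fun p => rnd G θ Λ (t0 p) (T p) (U p) (r p) := by
  unfold rnd
  exact tlt_measurable Λ h0 hT (Ysol_measurable G θ Λ h0 hT hU) hr

end Meas

theorem TT_measurable (j : ℕ) (v : V) : Measurable fun ω : Lab V => TT ω j v := by
  unfold TT
  exact measurable_const.mul (measurable_subtype_coe.comp (measurable_pi_apply _))

theorem UU_measurable (j : ℕ) (v : V) : Measurable fun ω : Lab V => UU ω j v := by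
  unfold UU
  exact measurable_subtype_coe.comp (measurable_pi_apply _)

theorem start_measurable (θ : ℝ) (Λ : Finset V) (j : ℕ) :
    Measurable fun ω : Lab V => start G θ Λ ω j := by
  induction j with
  | zero => exact measurable_const
  | succ j ih =>
    exact rnd_measurable G θ Λ (fun w => (measurable_pi_apply w).comp ih) (TT_measurable j)
      (UU_measurable j) measurable_const

theorem st_measurable_pair (θ : ℝ) (Λ : Finset V) (j : ℕ) :
    Measurable fun p : Lab V × ℝ => st G θ Λ p.1 j p.2 := by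
  unfold st
  exact rnd_measurable G θ Λ
    (fun w => (measurable_pi_apply w).comp ((start_measurable G θ Λ j).comp measurable_fst))
    (fun w => (TT_measurable j w).comp measurable_fst)
    (fun w => (UU_measurable j w).comp measurable_fst) measurable_snd

theorem st_measurable (θ : ℝ) (Λ : Finset V) (j : ℕ) (r : ℝ) :
    Measurable fun ω : Lab V => st G θ Λ ω j r :=
  (st_measurable_pair G θ Λ j).comp (measurable_id.prodMk measurable_const)

theorem Mf_measurable_pair (θ : ℝ) (Λ : Finset V) (j : ℕ) (v : V) :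
    Measurable fun p : Lab V × ℝ => Mf G θ Λ p.1 j p.2 v :=
  (mag_measurable G θ Λ v).comp (st_measurable_pair G θ Λ j)

theorem Mf_measurable (θ : ℝ) (Λ : Finset V) (j : ℕ) (r : ℝ) (v : V) :
    Measurable fun ω : Lab V => Mf G θ Λ ω j r v :=
  (mag_measurable G θ Λ v).comp (st_measurable G θ Λ j r)

theorem Cf_measurable_pair (θ : ℝ) (Λ : Finset V) (j : ℕ) (v u : V) :
    Measurable fun p : Lab V × ℝ => Cf G θ Λ p.1 j p.2 v u :=
  (cov_measurable G θ Λ v u).comp (st_measurable_pair G θ Λ j)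

theorem Cf_measurable (θ : ℝ) (Λ : Finset V) (j : ℕ) (r : ℝ) (v u : V) :
    Measurable fun ω : Lab V => Cf G θ Λ ω j r v u :=
  (cov_measurable G θ Λ v u).comp (st_measurable G θ Λ j r)

theorem abs_Mf_le {θ : ℝ} (hθ : |θ| < 1) (Λ : Finset V) (ω : Lab V) (j : ℕ) {r : ℝ} (hr : r ≤ 1)
    (v : V) : |Mf G θ Λ ω j r v| ≤ 1 :=
  abs_mag_le G hθ Λ (st_abs_lt G hθ Λ ω j hr) v

theorem abs_Cf_le {θ : ℝ} (hθ : |θ| < 1) (Λ : Finset V) (ω : Lab V) (j : ℕ) {r : ℝ} (hr : r ≤ 1)
    (v u : V) : |Cf G θ Λ ω j r v u| ≤ 2 :=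
  abs_cov_le G hθ Λ (st_abs_lt G hθ Λ ω j hr) v u

/-- The sampler only sees the labels of the earlier rounds. -/
theorem start_congr {θ : ℝ} {Λ : Finset V} {ω ω' : Lab V} (j : ℕ)
    (h : ∀ i < j, ∀ v ∈ Λ, ∀ b, ω (v, i, b) = ω' (v, i, b)) :
    start G θ Λ ω j = start G θ Λ ω' j := by
  induction j with
  | zero => rfl
  | succ j ih =>
    show rnd G θ Λ (start G θ Λ ω j) (TT ω j) (UU ω j) 1 =
      rnd G θ Λ (start G θ Λ ω' j) (TT ω' j) (UU ω' j) 1
    rw [ih (fun i hi => h i (hi.trans (Nat.lt_succ_self j)))]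
    apply rnd_local
    intro w hw _
    unfold TT UU
    rw [h j (Nat.lt_succ_self j) w hw, h j (Nat.lt_succ_self j) w hw]
    exact ⟨rfl, rfl⟩

open Classical in
theorem start_update {θ : ℝ} {Λ : Finset V} (ω : Lab V) (j : ℕ) (v : V) (b : Bool)
    (s : unitInterval) :
    start G θ Λ (Function.update ω (v, j, b) s) j = start G θ Λ ω j := by
  apply start_congr
  intro i hi w _ c
  rw [Function.update_of_ne]
  intro h
  have := congrArg (fun p : V × ℕ × Bool => p.2.1) h
  simp only at this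
  omega

end Crest.Agent.FreeIs.Samp
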