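import Crest.Agent.FreeIs.Samp3

/-!
S0241, sampler part 4: resampling, the martingale identity for one round.
-/

set_option autoImplicit false
set_option linter.style.haveILetI false

open Set MeasureTheory Measure

universe u

namespace Crest.Agent.FreeIs.Samp

section Resample

variable {ι : Type*} {X : Type*} [MeasurableSpace X] (μ : Measure X) [IsProbabilityMeasure μ]

/-- Resampling a block of coordinates of a product measure. -/
theorem resample_block (S : Set ι) [DecidablePred (· ∈ S)] :
    ((infinitePi (fun _ : ι => μ)).prod (infinitePi (fun _ : ι => μ))).map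
      (fun p : (ι → X) × (ι → X) => fun i => if i ∈ S then p.2 i else p.1 i) =
      infinitePi (fun _ : ι => μ) := by
  classical
  have hmeas : Measurable (fun p : (ι → X) × (ι → X) => fun i => if i ∈ S then p.2 i else p.1 i) := by
    rw [measurable_pi_iff]
    intro i
    by_cases h : i ∈ S
    · simp only [h, if_true]; exact (measurable_pi_apply i).comp measurable_snd
    · simp only [h, if_false]; exact (measurable_pi_apply i).comp measurable_fst
  apply eq_infinitePi
  intro s t ht
  rw [map_apply hmeas (MeasurableSet.pi s.countable_toSet (fun i _ => ht i))]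
  have h1 : (fun p : (ι → X) × (ι → X) => fun i => if i ∈ S then p.2 i else p.1 i) ⁻¹'
      (Set.pi s t) = (Set.pi (s.filter (· ∉ S) : Finset ι) t) ×ˢ
        (Set.pi (s.filter (· ∈ S) : Finset ι) t) := by
    ext p
    simp only [mem_preimage, Set.mem_pi, Finset.mem_coe, mem_prod, Finset.mem_filter]
    constructor
    · intro h
      refine ⟨fun i hi => ?_, fun i hi => ?_⟩
      · have := h i hi.1; rwa [if_neg hi.2] at this
      · have := h i hi.1; rwa [if_pos hi.2] at this
    · rintro ⟨h1, h2⟩ i hi
      by_cases hiS : i ∈ S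
      · rw [if_pos hiS]; exact h2 i ⟨hi, hiS⟩
      · rw [if_neg hiS]; exact h1 i ⟨hi, hiS⟩
  rw [h1, prod_prod, infinitePi_pi _ (fun i _ => ht i), infinitePi_pi _ (fun i _ => ht i),
    mul_comm, Finset.prod_filter_mul_prod_filter_not]

variable [DecidableEq ι]

/-- Resampling one coordinate of a product measure. -/
theorem resample_map (c : ι) :
    ((infinitePi (fun _ : ι => μ)).prod μ).map (fun p => Function.update p.1 c p.2) =
      infinitePi (fun _ : ι => μ) := by
  have hmeas : Measurable (fun p : (ι → X) × X => Function.update p.1 c p.2) := by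
    rw [measurable_pi_iff]
    intro i
    by_cases h : i = c
    · subst h; simpa using measurable_snd
    · simp only [Function.update_of_ne h]
      exact (measurable_pi_apply i).comp measurable_fst
  apply eq_infinitePi
  intro s t ht
  rw [map_apply hmeas (MeasurableSet.pi s.countable_toSet (fun i _ => ht i))]
  by_cases hc : c ∈ s
  · have : (fun p : (ι → X) × X => Function.update p.1 c p.2) ⁻¹' (Set.pi s t) =
        (Set.pi (s.erase c : Finset ι) t) ×ˢ (t c) := by
      ext p
      simp only [mem_preimage, Set.mem_pi, Finset.mem_coe, mem_prod, Finset.mem_erase]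
      constructor
      · intro h
        refine ⟨fun i hi => ?_, ?_⟩
        · have := h i hi.2
          rwa [Function.update_of_ne hi.1] at this
        · have := h c hc
          rwa [Function.update_self] at this
      · rintro ⟨h1, h2⟩ i hi
        by_cases hic : i = c
        · subst hic; rwa [Function.update_self]
        · rw [Function.update_of_ne hic]; exact h1 i ⟨hic, hi⟩
    rw [this, prod_prod, infinitePi_pi _ (fun i _ => ht i), mul_comm, Finset.mul_prod_erase s
      (fun i => μ (t i)) hc]
  · have : (fun p : (ι → X) × X => Function.update p.1 c p.2) ⁻¹' (Set.pi s t) =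
        (Set.pi s t) ×ˢ univ := by
      ext p
      simp only [mem_preimage, Set.mem_pi, Finset.mem_coe, mem_prod, mem_univ, and_true]
      constructor
      · intro h i hi
        have := h i hi
        rwa [Function.update_of_ne (by rintro rfl; exact hc hi)] at this
      · intro h i hi
        rw [Function.update_of_ne (by rintro rfl; exact hc hi)]; exact h i hi
    rw [this, prod_prod, infinitePi_pi _ (fun i _ => ht i), measure_univ, mul_one]

theorem update_measurable (c : ι) :
    Measurable (fun p : (ι → X) × X => Function.update p.1 c p.2) := by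
  rw [measurable_pi_iff]
  intro i
  by_cases h : i = c
  · subst h; simpa using measurable_snd
  · simp only [Function.update_of_ne h]
    exact (measurable_pi_apply i).comp measurable_fst

theorem lintegral_resample (c : ι) (Φ : (ι → X) → ENNReal) (hΦ : Measurable Φ) :
    ∫⁻ V, Φ V ∂(infinitePi (fun _ : ι => μ)) =
      ∫⁻ V, ∫⁻ t, Φ (Function.update V c t) ∂μ ∂(infinitePi (fun _ : ι => μ)) := by
  conv_lhs => rw [← resample_map μ c]
  rw [lintegral_map hΦ (update_measurable c)]
  rw [lintegral_prod]
  exact (hΦ.comp (update_measurable c)).aemeasurable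

theorem integral_resample (c : ι) (Φ : (ι → X) → ℝ)
    (hΦ : Integrable Φ (infinitePi (fun _ : ι => μ))) :
    ∫ V, Φ V ∂(infinitePi (fun _ : ι => μ)) =
      ∫ V, ∫ t, Φ (Function.update V c t) ∂μ ∂(infinitePi (fun _ : ι => μ)) := by
  have h1 : Integrable Φ (((infinitePi (fun _ : ι => μ)).prod μ).map
      (fun p => Function.update p.1 c p.2)) := by rw [resample_map μ c]; exact hΦ
  conv_lhs => rw [← resample_map μ c]
  rw [integral_map (update_measurable c).aemeasurable h1.aestronglyMeasurable]
  exact integral_prod _ (h1.comp_measurable (update_measurable c))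

end Resample

/-- Telescoping along the order of the times. -/
theorem telescope {V : Type u} (Λ : Finset V) (T : V → ℝ) (hinj : Set.InjOn T Λ) (f : ℝ → ℝ)
    (g : V → ℝ) (f0 : ℝ) (h0 : ∀ r, (∀ a ∈ Λ, ¬ T a < r) → f r = f0)
    (h1 : ∀ r, ∀ a ∈ Λ, T a < r → (∀ b ∈ Λ, T b < r → T b ≤ T a) → f r = g a) (φ : ℝ → ℝ) (r : ℝ) :
    φ (f r) = φ f0 + ∑ a ∈ before Λ T r, (φ (g a) - φ (f (T a))) := by
  classical
  induction hn : (before Λ T r).card using Nat.strong_induction_on generalizing r with
  | _ n ih =>
    rcases (before Λ T r).eq_empty_or_nonempty with he | hne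
    · rw [he, Finset.sum_empty, add_zero, h0 r]
      intro a ha hlt
      have : a ∈ before Λ T r := mem_before.2 ⟨ha, hlt⟩
      rw [he] at this
      simp at this
    · obtain ⟨a, ha, hmax⟩ := Finset.exists_max_image (before Λ T r) T hne
      obtain ⟨haΛ, har⟩ := mem_before.1 ha
      have hmax' : ∀ b ∈ Λ, T b < r → T b ≤ T a := fun b hb hlt => hmax b (mem_before.2 ⟨hb, hlt⟩)
      have hins : before Λ T r = insert a (before Λ T (T a)) := by
        ext b
        rw [Finset.mem_insert, mem_before, mem_before]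
        constructor
        · rintro ⟨hb, hlt⟩
          rcases (hmax' b hb hlt).lt_or_eq with h | h
          · exact Or.inr ⟨hb, h⟩
          · exact Or.inl (hinj hb haΛ h)
        · rintro (rfl | ⟨hb, hlt⟩)
          · exact ⟨haΛ, har⟩
          · exact ⟨hb, hlt.trans har⟩
      have hnot : a ∉ before Λ T (T a) := fun h => lt_irrefl _ (mem_before.1 h).2
      have hcard : (before Λ T (T a)).card < n := by
        rw [← hn, hins, Finset.card_insert_of_notMem hnot]
        exact Nat.lt_succ_self _
      have := ih _ hcard (T a) rfl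
      rw [h1 r a haΛ har hmax', hins, Finset.sum_insert hnot]
      linarith

variable {V : Type u} (G : SimpleGraph V)

section State

variable {θ : ℝ} {Λ Λ' : Finset V} {t0 T U : V → ℝ}

theorem rnd_of_none {r : ℝ} (h : ∀ a ∈ Λ, ¬ T a < r) : rnd G θ Λ t0 T U r = t0 := by
  funext w
  unfold rnd tlt
  rw [if_neg (fun h' => h w h'.1 h'.2)]

theorem rnd_apply_of_not {r : ℝ} {w : V} (h : ¬ T w < r) : rnd G θ Λ t0 T U r w = t0 w := by
  unfold rnd tlt
  rw [if_neg (fun h' => h h'.2)]

open Classical in
theorem rnd_step (hsub : Λ ⊆ Λ') (hinj : Set.InjOn T Λ') {r : ℝ} {a : V} (ha : a ∈ Λ')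
    (har : T a < r) (hmax : ∀ b ∈ Λ', T b < r → T b ≤ T a) :
    rnd G θ Λ t0 T U r = if a ∈ Λ then Function.update (rnd G θ Λ t0 T U (T a)) a
      (ein (rnd G θ Λ t0 T U (T a) a) (eta (T a) * Ysol G θ Λ t0 T U a))
      else rnd G θ Λ t0 T U (T a) := by
  have key : ∀ w, w ≠ a → rnd G θ Λ t0 T U r w = rnd G θ Λ t0 T U (T a) w := by
    intro w hw
    unfold rnd tlt
    by_cases hwΛ : w ∈ Λ
    · by_cases h : T w < r
      · have h2 : T w < T a := by
          rcases (hmax w (hsub hwΛ) h).lt_or_eq with h' | h'
          · exact h'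
          · exact absurd (hinj (hsub hwΛ) ha h') hw
        rw [if_pos ⟨hwΛ, h⟩, if_pos ⟨hwΛ, h2⟩]
      · rw [if_neg (fun h' => h h'.2), if_neg (fun h' => h (h'.2.trans har))]
    · rw [if_neg (fun h' => hwΛ h'.1), if_neg (fun h' => hwΛ h'.1)]
  by_cases haΛ : a ∈ Λ
  · rw [if_pos haΛ]
    funext w
    by_cases hw : w = a
    · subst hw
      rw [Function.update_self, rnd_apply_of_not G (lt_irrefl _)]
      unfold rnd tlt
      rw [if_pos ⟨haΛ, har⟩]
    · rw [Function.update_of_ne hw, key w hw]
  · rw [if_neg haΛ]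
    funext w
    by_cases hw : w = a
    · subst hw
      unfold rnd tlt
      rw [if_neg (fun h' => haΛ h'.1), if_neg (fun h' => haΛ h'.1)]
    · exact key w hw

theorem mag_rnd_step (hθ : |θ| < 1) (h0 : ∀ w, |t0 w| < 1) (hU : ∀ w, U w ∈ Icc (0 : ℝ) 1)
    (hsub : Λ ⊆ Λ') (hinj : Set.InjOn T Λ') {r : ℝ} (hr : r ≤ 1) {a : V} (ha : a ∈ Λ')
    (har : T a < r) (hmax : ∀ b ∈ Λ', T b < r → T b ≤ T a) (v : V) :
    mag G θ Λ (rnd G θ Λ t0 T U r) v = mag G θ Λ (rnd G θ Λ t0 T U (T a)) v +
      cov G θ Λ (rnd G θ Λ t0 T U (T a)) v a *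
        jmp (eta (T a)) (mag G θ Λ (rnd G θ Λ t0 T U (T a)) a) (U a) := by
  classical
  rw [rnd_step G hsub hinj ha har hmax]
  have hTa : T a ≤ 1 := har.le.trans hr
  by_cases haΛ : a ∈ Λ
  · rw [if_pos haΛ]
    have ht : ∀ w, |rnd G θ Λ t0 T U (T a) w| < 1 := rnd_abs_lt G hθ h0 hU hTa
    have hY := Ysol_mem G hθ h0 hU hTa (Λ := Λ) (T := T) (U := U)
    have ha' : |eta (T a) * Ysol G θ Λ t0 T U a| < 1 := by
      rw [abs_mul, abs_of_nonneg (eta_nonneg _)]
      have := eta_le hTa
      have := eta_nonneg (T a)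
      nlinarith [abs_nonneg (Ysol G θ Λ t0 T U a)]
    rw [mag_update G hθ ht haΛ ha' v, Ysol_eq_rnd G haΛ]
    unfold jmp
    congr 2
    congr 1
    ring
  · rw [if_neg haΛ, cov_eq_zero_of_notMem G haΛ, zero_mul, add_zero]

end State

end Crest.Agent.FreeIs.Samp
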