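import Crest.Agent.FreeIs.Samp5

/-!
S0241, sampler part 6: the martingale inequality for a pair of systems.
-/

set_option autoImplicit false
set_option linter.style.haveILetI false

open Set MeasureTheory Measure unitInterval

universe u

namespace Crest.Agent.FreeIs.Samp

theorem integrable_bdd {α : Type*} [MeasurableSpace α] {μ : Measure α} [IsFiniteMeasure μ]
    {f : α → ℝ} (hf : Measurable f) {K : ℝ} (hK : ∀ x, |f x| ≤ K) : Integrable f μ :=
  Integrable.of_bound hf.aestronglyMeasurable K (Filter.Eventually.of_forall hK)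

instance labP_prob (V : Type u) : IsProbabilityMeasure (labP V) := by
  unfold labP Crest.ProbabilityR.Labels.labelMeasure
  infer_instance

theorem labP_eq (V : Type u) : labP V = infinitePi (fun _ : V × ℕ × Bool => (volume : Measure I)) :=
  rfl

theorem integral_sq_dens {κ : ℝ} (hκ : |κ| ≤ 1 / 2) :
    ∫ t : I, (2 * (t : ℝ) - 1) ^ 2 / (1 + κ * (2 * (t : ℝ) - 1)) ≤ 1 := by
  obtain ⟨k1, k2⟩ := abs_le.1 hκ
  have h1 : ∀ t : I, (2 * (t : ℝ) - 1) ^ 2 / (1 + κ * (2 * (t : ℝ) - 1)) ≤
      2 * (2 * (t : ℝ) - 1) ^ 2 := by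
    intro t
    have ht0 := t.2.1
    have ht1 := t.2.2
    have : 1 / 2 ≤ 1 + κ * (2 * (t : ℝ) - 1) := by nlinarith
    rw [div_le_iff₀ (by linarith)]
    nlinarith [sq_nonneg (2 * (t : ℝ) - 1)]
  have h2 : ∫ t : I, 2 * (2 * (t : ℝ) - 1) ^ 2 = 2 / 3 := by
    have hm : Measurable fun y : ℝ => 2 * (2 * y - 1) ^ 2 := by fun_prop
    have h3 : ∫ t : I, 2 * (2 * (t : ℝ) - 1) ^ 2 = ∫ y in Icc (0 : ℝ) 1, 2 * (2 * y - 1) ^ 2 := by
      rw [← integral_map (μ := (volume : Measure I)) (φ := fun t : I => (t : ℝ))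
        (f := fun y => 2 * (2 * y - 1) ^ 2)
        measurable_subtype_coe.aemeasurable hm.aestronglyMeasurable,
        unitInterval.measurePreserving_coe.map_eq]
    rw [h3, integral_Icc_eq_integral_Ioc, ← intervalIntegral.integral_of_le zero_le_one]
    have h4 : ∀ t ∈ Set.uIcc (0 : ℝ) 1,
        HasDerivAt (fun t => (2 * t - 1) ^ 3 / 3) (2 * (2 * t - 1) ^ 2) t := by
      intro t _
      have h5 : HasDerivAt (fun t : ℝ => 2 * t - 1) 2 t := by
        have := ((hasDerivAt_id t).const_mul 2).sub_const 1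
        simpa using this
      have h6 : HasDerivAt (fun t : ℝ => (2 * t - 1) ^ 3 / 3)
          (((3 : ℕ) * (2 * t - 1) ^ (3 - 1) * 2) / 3) t := (h5.pow 3).div_const 3
      have e : (((3 : ℕ) : ℝ) * (2 * t - 1) ^ (3 - 1) * 2) / 3 = 2 * (2 * t - 1) ^ 2 := by
        norm_num
        ring
      rw [e] at h6
      exact h6
    rw [intervalIntegral.integral_eq_sub_of_hasDerivAt h4
      ((by fun_prop : Continuous fun t : ℝ => 2 * (2 * t - 1) ^ 2).intervalIntegrable _ _)]
    norm_num
  have h3 : ∫ t : I, (2 * (t : ℝ) - 1) ^ 2 / (1 + κ * (2 * (t : ℝ) - 1)) ≤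
      ∫ t : I, 2 * (2 * (t : ℝ) - 1) ^ 2 := by
    apply integral_mono _ _ h1
    · apply integrable_bdd (by fun_prop) (K := 2)
      intro t
      have ht0 := t.2.1
      have ht1 := t.2.2
      have : 1 / 2 ≤ 1 + κ * (2 * (t : ℝ) - 1) := by nlinarith
      rw [abs_of_nonneg (by positivity)]
      refine (h1 t).trans ?_
      nlinarith
    · apply integrable_bdd (by fun_prop) (K := 2)
      intro t
      have ht0 := t.2.1
      have ht1 := t.2.2
      rw [abs_of_nonneg (by positivity)]
      nlinarith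
  linarith

theorem integral_jmp_sq {h M : ℝ} (hh : |h * M| ≤ 1 / 2) :
    ∫ t : I, (jmp h M t) ^ 2 ≤ h ^ 2 := by
  obtain ⟨k1, k2⟩ := abs_le.1 hh
  have hm : Measurable (fun y : ℝ => (h * y / (1 + h * M * y)) ^ 2) := by fun_prop
  have := integral_qy hh hm
  have e1 : ∫ t : I, (jmp h M t) ^ 2 =
    ∫ t : I, (fun y : ℝ => (h * y / (1 + h * M * y)) ^ 2) (qy (h * M) t) := rfl
  rw [e1, this]
  have e2 : ∀ t : I, (fun y : ℝ => (h * y / (1 + h * M * y)) ^ 2) (2 * (t : ℝ) - 1) *
      (1 + h * M * (2 * (t : ℝ) - 1)) =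
      h ^ 2 * ((2 * (t : ℝ) - 1) ^ 2 / (1 + h * M * (2 * (t : ℝ) - 1))) := by
    intro t
    have ht0 := t.2.1
    have ht1 := t.2.2
    have : 0 < 1 + h * M * (2 * (t : ℝ) - 1) := by nlinarith
    have h3 := this.ne'
    simp only
    field_simp
  simp_rw [e2]
  rw [integral_const_mul]
  have := integral_sq_dens hh
  nlinarith [sq_nonneg h]

/-- The mean squared increment. -/
theorem integral_inc_sq {h M M' C C' : ℝ} (h0 : 0 ≤ h) (h1 : h ≤ 1 / 2) (hM : |M| ≤ 1)
    (hM' : |M'| ≤ 1) :
    ∫ t : I, (C * jmp h M t - C' * jmp h M' t) ^ 2 ≤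
      h ^ 2 * (2 * (C - C') ^ 2 + 32 * C' ^ 2 * (M - M') ^ 2) := by
  have hh : |h * M| ≤ 1 / 2 := by
    rw [abs_mul, abs_of_nonneg h0]; nlinarith [abs_nonneg M]
  have hh' : |h * M'| ≤ 1 / 2 := by
    rw [abs_mul, abs_of_nonneg h0]; nlinarith [abs_nonneg M']
  have hmj : ∀ m : ℝ, Measurable fun t : I => jmp h m t := fun m =>
    jmp_measurable.comp (measurable_const.prodMk (measurable_const.prodMk measurable_subtype_coe))
  have hb : ∀ m : ℝ, |h * m| ≤ 1 / 2 → ∀ t : I, |jmp h m t| ≤ 1 := fun m hm t =>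
    (jmp_abs_le h0 hm t.2).trans (by linarith)
  have hpt : ∀ t : I, (C * jmp h M t - C' * jmp h M' t) ^ 2 ≤
      2 * (C - C') ^ 2 * (jmp h M t) ^ 2 + 32 * h ^ 2 * C' ^ 2 * (M - M') ^ 2 := by
    intro t
    have a2 := jmp_sub_le h0 h1 hM hM' t.2
    have b2 : (jmp h M t - jmp h M' t) ^ 2 ≤ (4 * h * |M - M'|) ^ 2 := by
      rw [← sq_abs]; exact pow_le_pow_left₀ (abs_nonneg _) a2 2
    have b3 : (4 * h * |M - M'|) ^ 2 = 16 * h ^ 2 * (M - M') ^ 2 := by
      rw [mul_pow, sq_abs]; ring
    rw [b3] at b2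
    have e : C * jmp h M t - C' * jmp h M' t =
        (C - C') * jmp h M t + C' * (jmp h M t - jmp h M' t) := by ring
    rw [e]
    have c1 : ((C - C') * jmp h M t + C' * (jmp h M t - jmp h M' t)) ^ 2 ≤
        2 * ((C - C') ^ 2 * (jmp h M t) ^ 2) + 2 * (C' ^ 2 * (jmp h M t - jmp h M' t) ^ 2) := by
      nlinarith [sq_nonneg ((C - C') * jmp h M t - C' * (jmp h M t - jmp h M' t))]
    have c3 : C' ^ 2 * (jmp h M t - jmp h M' t) ^ 2 ≤ C' ^ 2 * (16 * h ^ 2 * (M - M') ^ 2) :=
      mul_le_mul_of_nonneg_left b2 (sq_nonneg _)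
    linarith
  have hi1 : Integrable (fun t : I => (C * jmp h M t - C' * jmp h M' t) ^ 2) := by
    apply integrable_bdd ((((hmj M).const_mul C).sub ((hmj M').const_mul C')).pow_const 2)
      (K := (|C| + |C'|) ^ 2)
    intro t
    rw [abs_pow]
    apply pow_le_pow_left₀ (abs_nonneg _)
    refine (abs_sub _ _).trans ?_
    rw [abs_mul, abs_mul]
    nlinarith [hb M hh t, hb M' hh' t, abs_nonneg C, abs_nonneg C']
  have hi3 : Integrable (fun t : I => (jmp h M t) ^ 2) := by
    apply integrable_bdd ((hmj M).pow_const 2) (K := 1)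
    intro t
    rw [abs_pow]
    exact pow_le_one₀ (abs_nonneg _) (hb M hh t)
  have hi2 : Integrable (fun t : I => 2 * (C - C') ^ 2 * (jmp h M t) ^ 2 +
      32 * h ^ 2 * C' ^ 2 * (M - M') ^ 2) := (hi3.const_mul _).add (integrable_const _)
  refine (integral_mono hi1 hi2 hpt).trans ?_
  rw [integral_add (hi3.const_mul _) (integrable_const _), integral_const_mul, integral_const]
  have h4 := integral_jmp_sq hh
  simp only [probReal_univ, smul_eq_mul, one_mul]
  have : 2 * (C - C') ^ 2 * ∫ t : I, (jmp h M t) ^ 2 ≤ 2 * (C - C') ^ 2 * h ^ 2 :=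
    mul_le_mul_of_nonneg_left h4 (by positivity)
  linarith

/-- The cross term vanishes. -/
theorem integral_inc {h M M' A C C' : ℝ} (h0 : 0 ≤ h) (h1 : h ≤ 1 / 2) (hM : |M| ≤ 1)
    (hM' : |M'| ≤ 1) :
    ∫ t : I, (2 * A * (C * jmp h M t - C' * jmp h M' t) + (C * jmp h M t - C' * jmp h M' t) ^ 2) ≤
      h ^ 2 * (2 * (C - C') ^ 2 + 32 * C' ^ 2 * (M - M') ^ 2) := by
  have hh : |h * M| ≤ 1 / 2 := by
    rw [abs_mul, abs_of_nonneg h0]; nlinarith [abs_nonneg M]
  have hh' : |h * M'| ≤ 1 / 2 := by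
    rw [abs_mul, abs_of_nonneg h0]; nlinarith [abs_nonneg M']
  have hmj : ∀ m : ℝ, Measurable fun t : I => jmp h m t := fun m =>
    jmp_measurable.comp (measurable_const.prodMk (measurable_const.prodMk measurable_subtype_coe))
  have hb : ∀ m : ℝ, |h * m| ≤ 1 / 2 → ∀ t : I, |jmp h m t| ≤ 1 := fun m hm t =>
    (jmp_abs_le h0 hm t.2).trans (by linarith)
  have hi1 : Integrable (fun t : I => (C * jmp h M t - C' * jmp h M' t) ^ 2) := by
    apply integrable_bdd ((((hmj M).const_mul C).sub ((hmj M').const_mul C')).pow_const 2)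
      (K := (|C| + |C'|) ^ 2)
    intro t
    rw [abs_pow]
    apply pow_le_pow_left₀ (abs_nonneg _)
    refine (abs_sub _ _).trans ?_
    rw [abs_mul, abs_mul]
    nlinarith [hb M hh t, hb M' hh' t, abs_nonneg C, abs_nonneg C']
  have hj : ∀ m : ℝ, |h * m| ≤ 1 / 2 → Integrable (fun t : I => jmp h m t) := fun m hm =>
    integrable_bdd (hmj m) (hb m hm)
  have hi2 : Integrable (fun t : I => 2 * A * (C * jmp h M t - C' * jmp h M' t)) :=
    (((hj M hh).const_mul C).sub ((hj M' hh').const_mul C')).const_mul (2 * A)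
  rw [integral_add hi2 hi1, integral_const_mul, integral_sub ((hj M hh).const_mul C)
    ((hj M' hh').const_mul C'), integral_const_mul, integral_const_mul, integral_jmp hh,
    integral_jmp hh']
  have := integral_inc_sq (C := C) (C' := C') h0 h1 hM hM'
  linarith

theorem eta_sq {r : ℝ} (hr : 0 ≤ r) : eta r ^ 2 = r / 4 := by
  unfold eta
  rw [div_pow, Real.sq_sqrt hr]
  norm_num

/-- Telescoping between two times. -/
theorem telescope2 {V : Type u} (Λ : Finset V) (T : V → ℝ) (hinj : Set.InjOn T Λ) (f : ℝ → ℝ)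
    (g : V → ℝ) (f0 R : ℝ) (h0 : ∀ r ≤ R, (∀ a ∈ Λ, ¬ T a < r) → f r = f0)
    (h1 : ∀ r ≤ R, ∀ a ∈ Λ, T a < r → (∀ b ∈ Λ, T b < r → T b ≤ T a) → f r = g a) (φ : ℝ → ℝ)
    {s0 s : ℝ} (hs : s0 ≤ s) (hsR : s ≤ R) :
    φ (f s) = φ (f s0) + ∑ a ∈ Λ, (if s0 ≤ T a ∧ T a < s then (φ (g a) - φ (f (T a))) else 0) := by
  classical
  have key : ∀ r ≤ R, φ (f r) = φ f0 + ∑ a ∈ before Λ T r, (φ (g a) - φ (f (T a))) := by
    intro r
    induction hn : (before Λ T r).card using Nat.strong_induction_on generalizing r with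
    | _ n ih =>
      intro hrR
      rcases (before Λ T r).eq_empty_or_nonempty with he | hne
      · rw [he, Finset.sum_empty, add_zero, h0 r hrR]
        intro a ha hlt
        have : a ∈ before Λ T r := mem_before.2 ⟨ha, hlt⟩
        rw [he] at this
        simp at this
      · obtain ⟨a, ha, hmax⟩ := Finset.exists_max_image (before Λ T r) T hne
        obtain ⟨haΛ, har⟩ := mem_before.1 ha
        have hmax' : ∀ b ∈ Λ, T b < r → T b ≤ T a :=
          fun b hb hlt => hmax b (mem_before.2 ⟨hb, hlt⟩)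
        have hins : before Λ T r = insert a (before Λ T (T a)) := by
          ext b
          rw [Finset.mem_insert, mem_before, mem_before]
          constructor
          · rintro ⟨hb, hlt⟩
            rcases (hmax' b hb hlt).lt_or_eq with h | h
            · exact Or.inr ⟨hb, h⟩
            · exact Or.inl (hinj hb haΛ h)
          · rintro (rfl | ⟨hb, hlt⟩)
            · exact ⟨haΛ, har⟩
            · exact ⟨hb, hlt.trans har⟩
        have hnot : a ∉ before Λ T (T a) := fun h => lt_irrefl _ (mem_before.1 h).2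
        have hcard : (before Λ T (T a)).card < n := by
          rw [← hn, hins, Finset.card_insert_of_notMem hnot]
          exact Nat.lt_succ_self _
        have := ih _ hcard (T a) rfl (har.le.trans hrR)
        rw [h1 r hrR a haΛ har hmax', hins, Finset.sum_insert hnot]
        linarith
  rw [key s hsR, key s0 (hs.trans hsR)]
  have hsplit : before Λ T s = before Λ T s0 ∪ Λ.filter (fun a => s0 ≤ T a ∧ T a < s) := by
    ext a
    rw [Finset.mem_union, mem_before, mem_before, Finset.mem_filter]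
    constructor
    · rintro ⟨ha, hlt⟩
      rcases lt_or_ge (T a) s0 with h | h
      · exact Or.inl ⟨ha, h⟩
      · exact Or.inr ⟨ha, h, hlt⟩
    · rintro (⟨ha, hlt⟩ | ⟨ha, h, hlt⟩)
      · exact ⟨ha, hlt.trans_le hs⟩
      · exact ⟨ha, hlt⟩
  have hdisj : Disjoint (before Λ T s0) (Λ.filter (fun a => s0 ≤ T a ∧ T a < s)) := by
    rw [Finset.disjoint_left]
    intro a ha hb
    have h1 := (mem_before.1 ha).2
    have h2 := (Finset.mem_filter.1 hb).2.1
    exact absurd h1 (not_lt.2 h2)
  rw [hsplit, Finset.sum_union hdisj, Finset.sum_filter, add_assoc]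

/-- Two given observation times differ almost surely. -/
theorem ae_TT_ne {V : Type u} (j : ℕ) {a b : V} (hab : a ≠ b) :
    ∀ᵐ ω ∂(labP V), TT ω j a ≠ TT ω j b := by
  classical
  have hms : MeasurableSet {ω : Lab V | TT ω j a = TT ω j b} :=
    measurableSet_eq_fun (TT_measurable j a) (TT_measurable j b)
  rw [ae_iff]
  have h0 : {ω : Lab V | ¬ TT ω j a ≠ TT ω j b} = {ω : Lab V | TT ω j a = TT ω j b} := by
    ext ω; simp
  rw [h0, ← lintegral_indicator_one hms, labP_eq,
    lintegral_resample (volume : Measure I) (a, j, false) _ (measurable_one.indicator hms)]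
  have h1 : ∀ ω : Lab V, ∫⁻ t : I, ({ω : Lab V | TT ω j a = TT ω j b}.indicator 1
      (Function.update ω (a, j, false) t) : ENNReal) = 0 := by
    intro ω
    have h2 : ∀ t : I, ({ω : Lab V | TT ω j a = TT ω j b}.indicator 1
      (Function.update ω (a, j, false) t) : ENNReal) =
        ({ω (b, j, false)} : Set I).indicator 1 t := by
      intro t
      have hT1 : TT (Function.update ω (a, j, false) t) j a = 2 * (t : ℝ) := by
        unfold TT; rw [Function.update_self]
      have hT2 : TT (Function.update ω (a, j, false) t) j b = 2 * (ω (b, j, false) : ℝ) := by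
        unfold TT
        rw [Function.update_of_ne]
        intro h
        exact hab (congrArg Prod.fst h).symm
      by_cases h : t = ω (b, j, false)
      · rw [indicator_of_mem, indicator_of_mem]
        · rfl
        · exact h
        · show TT _ j a = TT _ j b
          rw [hT1, hT2, h]
      · rw [indicator_of_notMem, indicator_of_notMem]
        · exact h
        · intro h3
          have h4 : TT (Function.update ω (a, j, false) t) j a =
            TT (Function.update ω (a, j, false) t) j b := h3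
          rw [hT1, hT2] at h4
          exact h (Subtype.ext (by linarith))
    rw [lintegral_congr h2, lintegral_indicator_one (measurableSet_singleton _),
      measure_singleton]
  rw [lintegral_congr h1]
  simp

theorem ae_TT_injOn {V : Type u} (j : ℕ) (Λ : Finset V) :
    ∀ᵐ ω ∂(labP V), Set.InjOn (TT ω j) Λ := by
  have h : ∀ᵐ ω ∂(labP V), ∀ a ∈ Λ, ∀ b ∈ Λ, a ≠ b → TT ω j a ≠ TT ω j b := by
    rw [Filter.eventually_all_finset]
    intro a ha
    rw [Filter.eventually_all_finset]
    intro b hb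
    by_cases hab : a = b
    · exact Filter.Eventually.of_forall fun ω h => absurd hab h
    · filter_upwards [ae_TT_ne j hab] with ω hω _ using hω
  filter_upwards [h] with ω hω a ha b hb hab
  by_contra hne
  exact hω a ha b hb hne hab

end Crest.Agent.FreeIs.Samp
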