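import Crest.Agent.FreeIs.Samp6

/-!
S0241, sampler part 7: the martingale inequality for a pair of systems.
-/

set_option autoImplicit false
set_option linter.style.haveILetI false

open Set MeasureTheory Measure unitInterval

universe u

namespace Crest.Agent.FreeIs.Samp

theorem integral_two_mul (ψ : ℝ → ℝ) {s0 s : ℝ} (h0 : 0 ≤ s0) (hs : s0 ≤ s) (h1 : s ≤ 1) :
    ∫ t : I, (if s0 ≤ 2 * (t : ℝ) ∧ 2 * (t : ℝ) < s then ψ (2 * (t : ℝ)) else 0) =
      (1 / 2) * ∫ ρ in s0..s, ψ ρ := by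
  have e1 : ∫ t : I, (if s0 ≤ 2 * (t : ℝ) ∧ 2 * (t : ℝ) < s then ψ (2 * (t : ℝ)) else 0) =
      ∫ y in Icc (0 : ℝ) 1, (if s0 ≤ 2 * y ∧ 2 * y < s then ψ (2 * y) else 0) := by
    rw [← unitInterval.measurePreserving_coe.map_eq,
      unitInterval.measurableEmbedding_coe.integral_map]
  have e2 : ∀ y : ℝ, (if s0 ≤ 2 * y ∧ 2 * y < s then ψ (2 * y) else 0) =
      (Ico (s0 / 2) (s / 2)).indicator (fun y => ψ (2 * y)) y := by
    intro y
    by_cases h : s0 ≤ 2 * y ∧ 2 * y < s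
    · rw [if_pos h, indicator_of_mem]
      exact ⟨by linarith [h.1], by linarith [h.2]⟩
    · rw [if_neg h, indicator_of_notMem]
      intro h'
      exact h ⟨by linarith [h'.1], by linarith [h'.2]⟩
  rw [e1]
  simp_rw [e2]
  rw [setIntegral_indicator measurableSet_Ico]
  have e3 : Icc (0 : ℝ) 1 ∩ Ico (s0 / 2) (s / 2) = Ico (s0 / 2) (s / 2) := by
    apply inter_eq_right.2
    intro y hy
    exact ⟨by linarith [hy.1], by linarith [hy.2]⟩
  rw [e3, integral_Ico_eq_integral_Ioo, ← integral_Ioc_eq_integral_Ioo,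
    ← intervalIntegral.integral_of_le (by linarith),
    intervalIntegral.integral_comp_mul_left _ (by norm_num : (2 : ℝ) ≠ 0)]
  have : 2 * (s0 / 2) = s0 := by ring
  have : 2 * (s / 2) = s := by ring
  simp only [*, smul_eq_mul]
  norm_num

variable {V : Type u} (G : SimpleGraph V)

open Classical in
theorem st_update_true {θ : ℝ} {Λ : Finset V} (ω : Lab V) (j : ℕ) (a : V) (t : I) {r : ℝ}
    (h : r ≤ TT ω j a) : st G θ Λ (Function.update ω (a, j, true) t) j r = st G θ Λ ω j r := by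
  unfold st
  rw [start_update]
  apply rnd_local
  intro w hw hlt
  have hT : TT (Function.update ω (a, j, true) t) j w = TT ω j w := by
    unfold TT
    rw [Function.update_of_ne]
    intro h
    have := congrArg (fun p : V × ℕ × Bool => p.2.2) h
    simp at this
  rw [hT] at hlt ⊢
  refine ⟨rfl, ?_⟩
  have hwa : w ≠ a := by
    rintro rfl
    rcases hlt with h' | h' <;> linarith
  unfold UU
  rw [Function.update_of_ne]
  intro h
  exact hwa (congrArg Prod.fst h)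

open Classical in
theorem st_update_false {θ : ℝ} {Λ : Finset V} (ω : Lab V) (j : ℕ) (a : V) (t : I) {r : ℝ}
    (h : r ≤ TT ω j a) (ht : r ≤ 2 * (t : ℝ)) :
    st G θ Λ (Function.update ω (a, j, false) t) j r = st G θ Λ ω j r := by
  unfold st
  rw [start_update]
  apply rnd_local
  intro w hw hlt
  have hU : UU (Function.update ω (a, j, false) t) j w = UU ω j w := by
    unfold UU
    rw [Function.update_of_ne]
    intro h
    have := congrArg (fun p : V × ℕ × Bool => p.2.2) h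
    simp at this
  refine ⟨?_, hU⟩
  have hwa : w ≠ a := by
    rintro rfl
    have hT : TT (Function.update ω (w, j, false) t) j w = 2 * (t : ℝ) := by
      unfold TT
      rw [Function.update_self]
    rw [hT] at hlt
    rcases hlt with h' | h' <;> linarith
  unfold TT
  rw [Function.update_of_ne]
  intro h
  exact hwa (congrArg Prod.fst h)

section Pair

variable (θ θ' : ℝ) (Λ Λ' : Finset V) (v : V) (j : ℕ)

/-- difference of the magnetisations -/
noncomputable def Df (ω : Lab V) (r : ℝ) : ℝ := Mf G θ Λ ω j r v - Mf G θ' Λ' ω j r v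

/-- rate -/
noncomputable def Jf (a : V) (ω : Lab V) (r : ℝ) : ℝ :=
  2 * (Cf G θ Λ ω j r v a - Cf G θ' Λ' ω j r v a) ^ 2
    + 32 * (Cf G θ' Λ' ω j r v a) ^ 2 * (Mf G θ Λ ω j r a - Mf G θ' Λ' ω j r a) ^ 2

/-- increment at the observation of `a` -/
noncomputable def Inc (a : V) (ω : Lab V) : ℝ :=
  Cf G θ Λ ω j (TT ω j a) v a * jmp (eta (TT ω j a)) (Mf G θ Λ ω j (TT ω j a) a) (UU ω j a) -
  Cf G θ' Λ' ω j (TT ω j a) v a * jmp (eta (TT ω j a)) (Mf G θ' Λ' ω j (TT ω j a) a) (UU ω j a)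

variable {θ θ' Λ Λ' v j}

theorem Df_meas : Measurable fun p : Lab V × ℝ => Df G θ θ' Λ Λ' v j p.1 p.2 :=
  (Mf_measurable_pair G θ Λ j v).sub (Mf_measurable_pair G θ' Λ' j v)

theorem Jf_meas (a : V) : Measurable fun p : Lab V × ℝ => Jf G θ θ' Λ Λ' v j a p.1 p.2 := by
  unfold Jf
  have h1 := Cf_measurable_pair G θ Λ j v a
  have h2 := Cf_measurable_pair G θ' Λ' j v a
  have h3 := Mf_measurable_pair G θ Λ j a
  have h4 := Mf_measurable_pair G θ' Λ' j a
  exact (((h1.sub h2).pow_const 2).const_mul 2).add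
    (((h2.pow_const 2).const_mul 32).mul ((h3.sub h4).pow_const 2))

theorem Jf_nonneg (a : V) (ω : Lab V) (r : ℝ) : 0 ≤ Jf G θ θ' Λ Λ' v j a ω r := by
  unfold Jf; positivity

theorem Jf_le (hθ : |θ| < 1) (hθ' : |θ'| < 1) (a : V) (ω : Lab V) {r : ℝ} (hr : r ≤ 1) :
    Jf G θ θ' Λ Λ' v j a ω r ≤ 1000 := by
  have h1 := abs_Cf_le G hθ Λ ω j hr v a
  have h2 := abs_Cf_le G hθ' Λ' ω j hr v a
  have h3 := abs_Mf_le G hθ Λ ω j hr a
  have h4 := abs_Mf_le G hθ' Λ' ω j hr a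
  unfold Jf
  set c := Cf G θ Λ ω j r v a
  set c' := Cf G θ' Λ' ω j r v a
  set m := Mf G θ Λ ω j r a
  set m' := Mf G θ' Λ' ω j r a
  have e1 : (c - c') ^ 2 ≤ 16 := by
    have : |c - c'| ≤ 4 := (abs_sub _ _).trans (by linarith)
    rw [← sq_abs]; nlinarith [abs_nonneg (c - c')]
  have e2 : (m - m') ^ 2 ≤ 4 := by
    have : |m - m'| ≤ 2 := (abs_sub _ _).trans (by linarith)
    rw [← sq_abs]; nlinarith [abs_nonneg (m - m')]
  have e3 : c' ^ 2 ≤ 4 := by
    rw [← sq_abs]; nlinarith [abs_nonneg c']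
  have e4 : c' ^ 2 * (m - m') ^ 2 ≤ 4 * 4 :=
    mul_le_mul e3 e2 (sq_nonneg _) (by norm_num)
  nlinarith

theorem Inc_meas (a : V) : Measurable fun ω : Lab V => Inc G θ θ' Λ Λ' v j a ω := by
  have hT := TT_measurable (V := V) j a
  have hU := UU_measurable (V := V) j a
  have hp : Measurable fun ω : Lab V => (ω, TT ω j a) := measurable_id.prodMk hT
  have h1 := (Cf_measurable_pair G θ Λ j v a).comp hp
  have h2 := (Cf_measurable_pair G θ' Λ' j v a).comp hp
  have h3 := (Mf_measurable_pair G θ Λ j a).comp hp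
  have h4 := (Mf_measurable_pair G θ' Λ' j a).comp hp
  have he := eta_measurable.comp hT
  exact (h1.mul (jmp_measurable.comp (he.prodMk (h3.prodMk hU)))).sub
    (h2.mul (jmp_measurable.comp (he.prodMk (h4.prodMk hU))))

theorem abs_Df_le (hθ : |θ| < 1) (hθ' : |θ'| < 1) (ω : Lab V) {r : ℝ} (hr : r ≤ 1) :
    |Df G θ θ' Λ Λ' v j ω r| ≤ 2 := by
  have h3 := abs_Mf_le G hθ Λ ω j hr v
  have h4 := abs_Mf_le G hθ' Λ' ω j hr v
  exact (abs_sub _ _).trans (by linarith)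

theorem abs_Inc_le (hθ : |θ| < 1) (hθ' : |θ'| < 1) (a : V) (ω : Lab V) (hr : TT ω j a ≤ 1) :
    |Inc G θ θ' Λ Λ' v j a ω| ≤ 4 := by
  have h1 := abs_Cf_le G hθ Λ ω j hr v a
  have h2 := abs_Cf_le G hθ' Λ' ω j hr v a
  have h3 := abs_Mf_le G hθ Λ ω j hr a
  have h4 := abs_Mf_le G hθ' Λ' ω j hr a
  have k1 := jmp_abs_le (eta_nonneg _) (abs_eta_mul_le hr h3) (UU_mem ω j a)
  have k2 := jmp_abs_le (eta_nonneg _) (abs_eta_mul_le hr h4) (UU_mem ω j a)
  have ke := eta_le hr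
  unfold Inc
  refine (abs_sub _ _).trans ?_
  rw [abs_mul, abs_mul]
  have m1 := mul_le_mul h1 (k1.trans (by linarith : _ ≤ (1 : ℝ))) (abs_nonneg _) (by norm_num)
  have m2 := mul_le_mul h2 (k2.trans (by linarith : _ ≤ (1 : ℝ))) (abs_nonneg _) (by norm_num)
  linarith

variable [DecidableEq V]

theorem pair_pointwise (hθ : |θ| < 1) (hθ' : |θ'| < 1) (ω : Lab V)
    (hinj : Set.InjOn (TT ω j) (Λ ∪ Λ' : Finset V)) {s0 s : ℝ} (hs : s0 ≤ s) (hs1 : s ≤ 1) :
    (Df G θ θ' Λ Λ' v j ω s) ^ 2 = (Df G θ θ' Λ Λ' v j ω s0) ^ 2 +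
      ∑ a ∈ Λ ∪ Λ', (if s0 ≤ TT ω j a ∧ TT ω j a < s then
        (2 * Df G θ θ' Λ Λ' v j ω (TT ω j a) * Inc G θ θ' Λ Λ' v j a ω +
          (Inc G θ θ' Λ Λ' v j a ω) ^ 2) else 0) := by
  have h := telescope2 (Λ ∪ Λ') (TT ω j) hinj (fun r => Df G θ θ' Λ Λ' v j ω r)
    (fun a => Df G θ θ' Λ Λ' v j ω (TT ω j a) + Inc G θ θ' Λ Λ' v j a ω)
    (mag G θ Λ (start G θ Λ ω j) v - mag G θ' Λ' (start G θ' Λ' ω j) v) 1 ?_ ?_
    (fun x => x ^ 2) hs hs1
  · rw [h]
    congr 1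
    apply Finset.sum_congr rfl
    intro a _
    congr 1
    ring
  · intro r hr hnone
    show mag G θ Λ (rnd G θ Λ (start G θ Λ ω j) (TT ω j) (UU ω j) r) v -
      mag G θ' Λ' (rnd G θ' Λ' (start G θ' Λ' ω j) (TT ω j) (UU ω j) r) v = _
    rw [rnd_of_none G (fun a ha => hnone a (Finset.mem_union_left _ ha)),
      rnd_of_none G (fun a ha => hnone a (Finset.mem_union_right _ ha))]
  · intro r hr a ha har hmax
    have e1 := mag_rnd_step G hθ (start_abs_lt G hθ Λ ω j) (UU_mem ω j)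
      (Finset.subset_union_left : Λ ⊆ Λ ∪ Λ') hinj hr ha har hmax v
    have e2 := mag_rnd_step G hθ' (start_abs_lt G hθ' Λ' ω j) (UU_mem ω j)
      (Finset.subset_union_right : Λ' ⊆ Λ ∪ Λ') hinj hr ha har hmax v
    show mag G θ Λ (rnd G θ Λ (start G θ Λ ω j) (TT ω j) (UU ω j) r) v -
      mag G θ' Λ' (rnd G θ' Λ' (start G θ' Λ' ω j) (TT ω j) (UU ω j) r) v = _
    rw [e1, e2]
    unfold Df Inc Mf Cf st
    ring

end Pair

end Crest.Agent.FreeIs.Samp
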