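import Crest.Agent.FreeIs.Samp7

/-!
S0241, sampler part 8: the martingale inequality for a pair of systems, integrated.
-/

set_option autoImplicit false
set_option linter.style.haveILetI false

open Set MeasureTheory Measure unitInterval

universe u

namespace Crest.Agent.FreeIs.Samp

theorem integrable_resample {ι : Type*} {X : Type*} [MeasurableSpace X] (μ : Measure X)
    [IsProbabilityMeasure μ] [DecidableEq ι] (c : ι) (Φ : (ι → X) → ℝ)
    (hΦ : Integrable Φ (infinitePi (fun _ : ι => μ))) :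
    Integrable (fun V => ∫ t, Φ (Function.update V c t) ∂μ) (infinitePi (fun _ : ι => μ)) := by
  have h1 : Integrable Φ (((infinitePi (fun _ : ι => μ)).prod μ).map
      (fun p => Function.update p.1 c p.2)) := by rw [resample_map μ c]; exact hΦ
  exact (h1.comp_measurable (update_measurable c)).integral_prod_left

theorem half_general {ι : Type*} [DecidableEq ι] (c : ι) {r : ℝ} (hr0 : 0 ≤ r) (hr : r ≤ 1)
    (J K : (ι → I) → ℝ) (hJm : Measurable J) (hKm : Measurable K) (hJ0 : ∀ ω, 0 ≤ J ω)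
    (hJ1 : ∀ ω, J ω ≤ 1000) (hK0 : ∀ ω, 0 ≤ K ω) (hK1 : ∀ ω, K ω ≤ 1000)
    (h : ∀ (ω : ι → I) (t : I), r ≤ 2 * (t : ℝ) → J (Function.update ω c t) = K ω) :
    (1 / 2) * ∫ ω, K ω ∂(infinitePi (fun _ : ι => (volume : Measure I))) ≤
      ∫ ω, J ω ∂(infinitePi (fun _ : ι => (volume : Measure I))) := by
  have hJ : Integrable J (infinitePi (fun _ : ι => (volume : Measure I))) :=
    integrable_bdd hJm (fun ω => by rw [abs_of_nonneg (hJ0 ω)]; exact hJ1 ω)
  have hK : Integrable K (infinitePi (fun _ : ι => (volume : Measure I))) :=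
    integrable_bdd hKm (fun ω => by rw [abs_of_nonneg (hK0 ω)]; exact hK1 ω)
  rw [integral_resample (volume : Measure I) c _ hJ, ← integral_const_mul]
  apply integral_mono (hK.const_mul _) (integrable_resample (volume : Measure I) c _ hJ)
  intro ω
  show (1 / 2) * K ω ≤ ∫ t : I, J (Function.update ω c t)
  have hr2 : r / 2 ∈ Icc (0 : ℝ) 1 := ⟨by linarith, by linarith⟩
  have h1 : ∫ t : I, (Ici (⟨r / 2, hr2⟩ : I)).indicator (fun _ => K ω) t ≤
      ∫ t : I, J (Function.update ω c t) := by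
    apply integral_mono
    · exact (integrable_const _).indicator measurableSet_Ici
    · have hm : Measurable fun t : I => J (Function.update ω c t) :=
        hJm.comp ((update_measurable (X := I) c).comp (measurable_const.prodMk measurable_id))
      exact integrable_bdd hm (fun t => by rw [abs_of_nonneg (hJ0 _)]; exact hJ1 _)
    · intro t
      show (Ici (⟨r / 2, hr2⟩ : I)).indicator (fun _ => K ω) t ≤ J (Function.update ω c t)
      by_cases ht : t ∈ Ici (⟨r / 2, hr2⟩ : I)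
      · rw [indicator_of_mem ht, h ω t]
        have : r / 2 ≤ (t : ℝ) := ht
        linarith
      · rw [indicator_of_notMem ht]
        exact hJ0 _
  refine le_trans ?_ h1
  rw [integral_indicator measurableSet_Ici, integral_const]
  simp only [measureReal_restrict_apply_univ, smul_eq_mul]
  have h2 : (volume : Measure I).real (Ici (⟨r / 2, hr2⟩ : I)) = 1 - r / 2 := by
    unfold Measure.real
    rw [unitInterval.volume_Ici, ENNReal.toReal_ofReal]
    show 0 ≤ 1 - r / 2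
    linarith
  rw [h2]
  apply mul_le_mul_of_nonneg_right _ (hK0 ω)
  linarith

/-- Integrating out the time of the observation. -/
theorem time_general {ι : Type*} [DecidableEq ι] (c : ι) {s0 s : ℝ} (h0 : 0 ≤ s0) (hs : s0 ≤ s)
    (h1 : s ≤ 1) (Y : (ι → I) → ℝ) (K : (ι → I) → ℝ → ℝ) (hYm : Measurable Y)
    (hKm : Measurable fun p : (ι → I) × ℝ => K p.1 p.2) (hY0 : ∀ ω, 0 ≤ Y ω)
    (hY1 : ∀ ω, Y ω ≤ 1000) (hK0 : ∀ ω r, 0 ≤ K ω r) (hK1 : ∀ ω, ∀ r ≤ 1, K ω r ≤ 1000)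
    (h : ∀ (ω : ι → I) (t : I), Y (Function.update ω c t) =
      if s0 ≤ 2 * (t : ℝ) ∧ 2 * (t : ℝ) < s then (2 * (t : ℝ)) / 4 * K ω (2 * (t : ℝ)) else 0) :
    ∫ ω, Y ω ∂(infinitePi (fun _ : ι => (volume : Measure I))) =
      ∫ ρ in s0..s, (ρ / 4) * ((1 / 2) *
        ∫ ω, K ω ρ ∂(infinitePi (fun _ : ι => (volume : Measure I)))) := by
  set P := infinitePi (fun _ : ι => (volume : Measure I)) with hP
  have hY : Integrable Y P :=
    integrable_bdd hYm (fun ω => by rw [abs_of_nonneg (hY0 ω)]; exact hY1 ω)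
  rw [integral_resample (volume : Measure I) c _ hY]
  have e1 : ∀ ω : ι → I, ∫ t : I, Y (Function.update ω c t) =
      (1 / 2) * ∫ ρ in s0..s, (ρ / 4) * K ω ρ := by
    intro ω
    simp_rw [h]
    exact integral_two_mul (fun ρ => ρ / 4 * K ω ρ) h0 hs h1
  simp_rw [e1]
  rw [integral_const_mul]
  have e2 : ∀ ω : ι → I, ∫ ρ in s0..s, (ρ / 4) * K ω ρ = ∫ ρ in Ioc s0 s, (ρ / 4) * K ω ρ :=
    fun ω => intervalIntegral.integral_of_le hs
  simp_rw [e2]
  rw [integral_integral_swap, ← integral_const_mul, intervalIntegral.integral_of_le hs]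
  · apply integral_congr_ae
    filter_upwards with ρ
    rw [integral_const_mul]
    ring
  · have hm : Measurable (Function.uncurry fun (ω : ι → I) (ρ : ℝ) => ρ / 4 * K ω ρ) := by
      have : Measurable fun p : (ι → I) × ℝ => p.2 / 4 * K p.1 p.2 :=
        (measurable_snd.div_const 4).mul hKm
      exact this
    refine Integrable.of_bound hm.aestronglyMeasurable 1000 ?_
    have h3 : ∀ᵐ ρ ∂(volume.restrict (Ioc s0 s)), ρ ∈ Ioc s0 s := ae_restrict_mem measurableSet_Ioc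
    have h4 : ∀ᵐ p ∂(P.prod (volume.restrict (Ioc s0 s))), p.2 ∈ Ioc s0 s :=
      Measure.quasiMeasurePreserving_snd.ae h3
    filter_upwards [h4] with p hp
    show ‖p.2 / 4 * K p.1 p.2‖ ≤ 1000
    have h5 : 0 ≤ p.2 := h0.trans hp.1.le
    have h6 : p.2 ≤ 1 := hp.2.trans h1
    have h7 := hK0 p.1 p.2
    have h8 := hK1 p.1 p.2 h6
    rw [Real.norm_of_nonneg (by positivity)]
    nlinarith

variable {V : Type u} (G : SimpleGraph V)

section Pair

/-- the term of `a` in the telescoping sum -/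
noncomputable def Xf (θ θ' : ℝ) (Λ Λ' : Finset V) (v : V) (j : ℕ) (s0 s : ℝ) (a : V)
    (ω : Lab V) : ℝ :=
  if s0 ≤ TT ω j a ∧ TT ω j a < s then
    (2 * Df G θ θ' Λ Λ' v j ω (TT ω j a) * Inc G θ θ' Λ Λ' v j a ω +
      (Inc G θ θ' Λ Λ' v j a ω) ^ 2) else 0

/-- the rate at the observation of `a` -/
noncomputable def Yf (θ θ' : ℝ) (Λ Λ' : Finset V) (v : V) (j : ℕ) (s0 s : ℝ) (a : V)
    (ω : Lab V) : ℝ :=
  if s0 ≤ TT ω j a ∧ TT ω j a < s then
    (TT ω j a / 4) * Jf G θ θ' Λ Λ' v j a ω (TT ω j a) else 0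

variable {θ θ' : ℝ} {Λ Λ' : Finset V} {v : V} {j : ℕ}

theorem window_meas (s0 s : ℝ) (a : V) :
    MeasurableSet {ω : Lab V | s0 ≤ TT ω j a ∧ TT ω j a < s} :=
  (measurableSet_le measurable_const (TT_measurable j a)).inter
    (measurableSet_lt (TT_measurable j a) measurable_const)

theorem Xf_meas (s0 s : ℝ) (a : V) : Measurable (Xf G θ θ' Λ Λ' v j s0 s a) := by
  unfold Xf
  have hp : Measurable fun ω : Lab V => (ω, TT ω j a) :=
    measurable_id.prodMk (TT_measurable j a)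
  have h1 := (Df_meas G (θ := θ) (θ' := θ') (Λ := Λ) (Λ' := Λ') (v := v) (j := j)).comp hp
  have h2 := Inc_meas G (θ := θ) (θ' := θ') (Λ := Λ) (Λ' := Λ') (v := v) (j := j) a
  apply Measurable.ite (window_meas s0 s a) _ measurable_const
  exact ((h1.const_mul 2).mul h2).add (h2.pow_const 2)

theorem Yf_meas (s0 s : ℝ) (a : V) : Measurable (Yf G θ θ' Λ Λ' v j s0 s a) := by
  unfold Yf
  have hp : Measurable fun ω : Lab V => (ω, TT ω j a) :=
    measurable_id.prodMk (TT_measurable j a)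
  have h1 := (Jf_meas G (θ := θ) (θ' := θ') (Λ := Λ) (Λ' := Λ') (v := v) (j := j) a).comp hp
  apply Measurable.ite (window_meas s0 s a) _ measurable_const
  exact ((TT_measurable j a).div_const 4).mul h1

theorem abs_Xf_le (hθ : |θ| < 1) (hθ' : |θ'| < 1) {s0 s : ℝ} (hs1 : s ≤ 1) (a : V) (ω : Lab V) :
    |Xf G θ θ' Λ Λ' v j s0 s a ω| ≤ 32 := by
  unfold Xf
  split_ifs with h
  · have hT : TT ω j a ≤ 1 := h.2.le.trans hs1
    have h1 := abs_Df_le G hθ hθ' ω hT (Λ := Λ) (Λ' := Λ') (v := v) (j := j)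
    have h2 := abs_Inc_le G hθ hθ' a ω hT (Λ := Λ) (Λ' := Λ') (v := v) (j := j)
    set D := Df G θ θ' Λ Λ' v j ω (TT ω j a)
    set In := Inc G θ θ' Λ Λ' v j a ω
    refine (abs_add_le _ _).trans ?_
    rw [abs_mul, abs_mul, abs_pow, abs_two]
    have := mul_le_mul h1 h2 (abs_nonneg _) (by norm_num)
    have h3 : |In| ^ 2 ≤ 4 ^ 2 := pow_le_pow_left₀ (abs_nonneg _) h2 2
    nlinarith
  · norm_num

theorem Yf_nonneg (s0 s : ℝ) (a : V) (ω : Lab V) : 0 ≤ Yf G θ θ' Λ Λ' v j s0 s a ω := by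
  unfold Yf
  split_ifs with h
  · exact mul_nonneg (div_nonneg (TT_nonneg ω j a) (by norm_num)) (Jf_nonneg G a ω _)
  · exact le_rfl

theorem Yf_le (hθ : |θ| < 1) (hθ' : |θ'| < 1) {s0 s : ℝ} (hs1 : s ≤ 1) (a : V) (ω : Lab V) :
    Yf G θ θ' Λ Λ' v j s0 s a ω ≤ 1000 := by
  unfold Yf
  split_ifs with h
  · have hT : TT ω j a ≤ 1 := h.2.le.trans hs1
    have h0 := TT_nonneg ω j a
    have h1 := Jf_le G hθ hθ' a ω hT (Λ := Λ) (Λ' := Λ') (v := v) (j := j)
    have h2 := Jf_nonneg G a ω (TT ω j a) (θ := θ) (θ' := θ') (Λ := Λ) (Λ' := Λ') (v := v) (j := j)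
    nlinarith
  · norm_num

open Classical in
theorem integral_X_le_Y (hθ : |θ| < 1) (hθ' : |θ'| < 1) {s0 s : ℝ} (hs1 : s ≤ 1) (a : V) :
    ∫ ω, Xf G θ θ' Λ Λ' v j s0 s a ω ∂(labP V) ≤ ∫ ω, Yf G θ θ' Λ Λ' v j s0 s a ω ∂(labP V) := by
  have hiX : Integrable (Xf G θ θ' Λ Λ' v j s0 s a) (labP V) :=
    integrable_bdd (Xf_meas G s0 s a) (abs_Xf_le G hθ hθ' hs1 a)
  have hiY : Integrable (Yf G θ θ' Λ Λ' v j s0 s a) (labP V) :=
    integrable_bdd (Yf_meas G s0 s a) (fun ω => by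
      rw [abs_of_nonneg (Yf_nonneg G s0 s a ω)]; exact Yf_le G hθ hθ' hs1 a ω)
  have e1 : ∫ ω, Xf G θ θ' Λ Λ' v j s0 s a ω ∂(labP V) =
      ∫ ω, (∫ t : I, Xf G θ θ' Λ Λ' v j s0 s a (Function.update ω (a, j, true) t)) ∂(labP V) :=
    integral_resample (volume : Measure I) (a, j, true) _ hiX
  have e2 : Integrable (fun ω => ∫ t : I, Xf G θ θ' Λ Λ' v j s0 s a
      (Function.update ω (a, j, true) t)) (labP V) :=
    integrable_resample (volume : Measure I) (a, j, true) _ hiX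
  rw [e1]
  apply integral_mono e2 hiY
  intro ω
  show ∫ t : I, Xf G θ θ' Λ Λ' v j s0 s a (Function.update ω (a, j, true) t) ≤
    Yf G θ θ' Λ Λ' v j s0 s a ω
  have hT : ∀ t : I, TT (Function.update ω (a, j, true) t) j a = TT ω j a := by
    intro t
    unfold TT
    rw [Function.update_of_ne]
    intro h
    have := congrArg (fun p : V × ℕ × Bool => p.2.2) h
    simp at this
  have hU : ∀ t : I, UU (Function.update ω (a, j, true) t) j a = (t : ℝ) := by
    intro t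
    unfold UU
    rw [Function.update_self]
  by_cases hw : s0 ≤ TT ω j a ∧ TT ω j a < s
  · have hT1 : TT ω j a ≤ 1 := hw.2.le.trans hs1
    have hst : ∀ (t : I) (ϑ : ℝ) (Γ : Finset V), st G ϑ Γ (Function.update ω (a, j, true) t) j
        (TT ω j a) = st G ϑ Γ ω j (TT ω j a) := fun t ϑ Γ => st_update_true G ω j a t le_rfl
    have hX : ∀ t : I, Xf G θ θ' Λ Λ' v j s0 s a (Function.update ω (a, j, true) t) =
        2 * Df G θ θ' Λ Λ' v j ω (TT ω j a) *
          (Cf G θ Λ ω j (TT ω j a) v a * jmp (eta (TT ω j a)) (Mf G θ Λ ω j (TT ω j a) a) t -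
          Cf G θ' Λ' ω j (TT ω j a) v a * jmp (eta (TT ω j a)) (Mf G θ' Λ' ω j (TT ω j a) a) t) +
          (Cf G θ Λ ω j (TT ω j a) v a * jmp (eta (TT ω j a)) (Mf G θ Λ ω j (TT ω j a) a) t -
          Cf G θ' Λ' ω j (TT ω j a) v a * jmp (eta (TT ω j a)) (Mf G θ' Λ' ω j (TT ω j a) a) t) ^ 2 := by
      intro t
      unfold Xf Df Inc Mf Cf
      rw [hT, hU, if_pos hw, hst, hst]
    simp_rw [hX]
    refine (integral_inc (eta_nonneg _) (eta_le hT1) (abs_Mf_le G hθ Λ ω j hT1 a)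
      (abs_Mf_le G hθ' Λ' ω j hT1 a)).trans ?_
    rw [eta_sq (TT_nonneg ω j a)]
    unfold Yf Jf
    rw [if_pos hw]
  · have hX : ∀ t : I, Xf G θ θ' Λ Λ' v j s0 s a (Function.update ω (a, j, true) t) = 0 := by
      intro t
      unfold Xf
      rw [hT, if_neg hw]
    simp_rw [hX]
    rw [integral_zero]
    exact Yf_nonneg G s0 s a ω

open Classical in
/-- the rate with `a` not observed in the round -/
noncomputable def Kf (θ θ' : ℝ) (Λ Λ' : Finset V) (v : V) (j : ℕ) (a : V)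
    (ω : Lab V) (r : ℝ) : ℝ :=
  Jf G θ θ' Λ Λ' v j a (Function.update ω (a, j, false) 1) r

open Classical in
theorem Kf_meas (a : V) : Measurable fun p : Lab V × ℝ => Kf G θ θ' Λ Λ' v j a p.1 p.2 := by
  unfold Kf
  have h1 : Measurable fun p : Lab V × ℝ => (Function.update p.1 (a, j, false) (1 : I), p.2) := by
    have h2 : Measurable fun p : Lab V × ℝ => Function.update p.1 (a, j, false) (1 : I) :=
      (update_measurable (X := I) (a, j, false)).comp (measurable_fst.prodMk measurable_const)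
    exact h2.prodMk measurable_snd
  have h3 := (Jf_meas G (θ := θ) (θ' := θ') (Λ := Λ) (Λ' := Λ') (v := v) (j := j) a).comp h1
  exact h3

theorem Kf_nonneg (a : V) (ω : Lab V) (r : ℝ) : 0 ≤ Kf G θ θ' Λ Λ' v j a ω r :=
  Jf_nonneg G a _ r

theorem Kf_le (hθ : |θ| < 1) (hθ' : |θ'| < 1) (a : V) (ω : Lab V) {r : ℝ} (hr : r ≤ 1) :
    Kf G θ θ' Λ Λ' v j a ω r ≤ 1000 := Jf_le G hθ hθ' a _ hr

open Classical in
theorem TT_update (ω : Lab V) (j : ℕ) (a : V) (t : I) :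
    TT (Function.update ω (a, j, false) t) j a = 2 * (t : ℝ) := by
  unfold TT
  rw [Function.update_self]

open Classical in
theorem st_update_one (θ : ℝ) (Λ : Finset V) (j : ℕ) (a : V) (ω : Lab V) (t : I) {r : ℝ}
    (hr : r ≤ 1) (ht : r ≤ 2 * (t : ℝ)) :
    st G θ Λ (Function.update ω (a, j, false) t) j r =
      st G θ Λ (Function.update ω (a, j, false) (1 : I)) j r := by
  have h1 : r ≤ TT (Function.update ω (a, j, false) (1 : I)) j a := by
    rw [TT_update, Set.Icc.coe_one]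
    linarith
  have h2 := st_update_false G (Λ := Λ) (θ := θ) (Function.update ω (a, j, false) (1 : I))
    j a t h1 ht
  rw [← h2, Function.update_idem]

open Classical in
theorem Jf_update_eq (a : V) (ω : Lab V) (t : I) {r : ℝ} (hr : r ≤ 1) (ht : r ≤ 2 * (t : ℝ)) :
    Jf G θ θ' Λ Λ' v j a (Function.update ω (a, j, false) t) r = Kf G θ θ' Λ Λ' v j a ω r := by
  unfold Kf Jf Cf Mf
  rw [st_update_one G θ Λ j a ω t hr ht, st_update_one G θ' Λ' j a ω t hr ht]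

theorem Jf_meas_r (a : V) (r : ℝ) : Measurable fun ω : Lab V => Jf G θ θ' Λ Λ' v j a ω r := by
  have hp : Measurable fun ω : Lab V => (ω, r) := measurable_id.prodMk measurable_const
  have h3 := (Jf_meas G (θ := θ) (θ' := θ') (Λ := Λ) (Λ' := Λ') (v := v) (j := j) a)
  generalize Jf G θ θ' Λ Λ' v j a = Q at h3 ⊢
  exact h3.comp hp

theorem Kf_meas_r (a : V) (r : ℝ) : Measurable fun ω : Lab V => Kf G θ θ' Λ Λ' v j a ω r := by
  have hp : Measurable fun ω : Lab V => (ω, r) := measurable_id.prodMk measurable_const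
  have h3 := (Kf_meas G (θ := θ) (θ' := θ') (Λ := Λ) (Λ' := Λ') (v := v) (j := j) a)
  generalize Kf G θ θ' Λ Λ' v j a = Q at h3 ⊢
  exact h3.comp hp

/-- the comparison of the mean rates -/
theorem half_K_le_J (hθ : |θ| < 1) (hθ' : |θ'| < 1) (a : V) {r : ℝ} (hr0 : 0 ≤ r) (hr : r ≤ 1) :
    (1 / 2) * ∫ ω, Kf G θ θ' Λ Λ' v j a ω r ∂(labP V) ≤
      ∫ ω, Jf G θ θ' Λ Λ' v j a ω r ∂(labP V) := by
  classical
  have hJm := Jf_meas_r G (θ := θ) (θ' := θ') (Λ := Λ) (Λ' := Λ') (v := v) (j := j) a r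
  have hKm := Kf_meas_r G (θ := θ) (θ' := θ') (Λ := Λ) (Λ' := Λ') (v := v) (j := j) a r
  have hJ0 := fun ω => Jf_nonneg G (θ := θ) (θ' := θ') (Λ := Λ) (Λ' := Λ') (v := v) (j := j) a ω r
  have hJ1 := fun ω => Jf_le G hθ hθ' (Λ := Λ) (Λ' := Λ') (v := v) (j := j) a ω hr
  have hK0 := fun ω => Kf_nonneg G (θ := θ) (θ' := θ') (Λ := Λ) (Λ' := Λ') (v := v) (j := j) a ω r
  have hK1 := fun ω => Kf_le G hθ hθ' (Λ := Λ) (Λ' := Λ') (v := v) (j := j) a ω hr
  have hh : ∀ (ω : Lab V) (t : I), r ≤ 2 * (t : ℝ) →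
      Jf G θ θ' Λ Λ' v j a (Function.update ω (a, j, false) t) r = Kf G θ θ' Λ Λ' v j a ω r :=
    fun ω t ht => Jf_update_eq G a ω t hr ht
  generalize Jf G θ θ' Λ Λ' v j a = J at *
  generalize Kf G θ θ' Λ Λ' v j a = K at *
  exact half_general (a, j, false) hr0 hr (fun ω => J ω r) (fun ω => K ω r) hJm hKm
    hJ0 hJ1 hK0 hK1 hh

theorem integral_Y (hθ : |θ| < 1) (hθ' : |θ'| < 1) {s0 s : ℝ} (h0 : 0 ≤ s0) (hs : s0 ≤ s)
    (hs1 : s ≤ 1) (a : V) :
    ∫ ω, Yf G θ θ' Λ Λ' v j s0 s a ω ∂(labP V) =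
      ∫ ρ in s0..s, (ρ / 4) * ((1 / 2) * ∫ ω, Kf G θ θ' Λ Λ' v j a ω ρ ∂(labP V)) := by
  classical
  have hKm := Kf_meas G (θ := θ) (θ' := θ') (Λ := Λ) (Λ' := Λ') (v := v) (j := j) a
  have hK0 := Kf_nonneg G (θ := θ) (θ' := θ') (Λ := Λ) (Λ' := Λ') (v := v) (j := j) a
  have hK1 : ∀ ω : Lab V, ∀ r ≤ 1, Kf G θ θ' Λ Λ' v j a ω r ≤ 1000 :=
    fun ω r hr => Kf_le G hθ hθ' (Λ := Λ) (Λ' := Λ') (v := v) (j := j) a ω hr
  have hYm := Yf_meas G (θ := θ) (θ' := θ') (Λ := Λ) (Λ' := Λ') (v := v) (j := j) s0 s a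
  have hY0 := Yf_nonneg G (θ := θ) (θ' := θ') (Λ := Λ) (Λ' := Λ') (v := v) (j := j) s0 s a
  have hY1 := Yf_le G hθ hθ' (Λ := Λ) (Λ' := Λ') (v := v) (j := j) (s0 := s0) hs1 a
  have hh : ∀ (ω : Lab V) (t : I), Yf G θ θ' Λ Λ' v j s0 s a
      (Function.update ω (a, j, false) t) = if s0 ≤ 2 * (t : ℝ) ∧ 2 * (t : ℝ) < s then
        (2 * (t : ℝ)) / 4 * Kf G θ θ' Λ Λ' v j a ω (2 * (t : ℝ)) else 0 := by
    intro ω t
    unfold Yf
    rw [TT_update]
    by_cases h : s0 ≤ 2 * (t : ℝ) ∧ 2 * (t : ℝ) < s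
    · rw [if_pos h, if_pos h, Jf_update_eq G a ω t (h.2.le.trans hs1) le_rfl]
    · rw [if_neg h, if_neg h]
  generalize Yf G θ θ' Λ Λ' v j s0 s a = Y at *
  generalize Kf G θ θ' Λ Λ' v j a = K at *
  exact time_general (a, j, false) h0 hs hs1 Y K hYm hKm hY0 hY1 hK0 hK1 hh

theorem integral_par_meas {f : Lab V → ℝ → ℝ} (hf : Measurable fun p : Lab V × ℝ => f p.1 p.2) :
    Measurable fun r : ℝ => ∫ ω, f ω r ∂(labP V) := by
  have h1 : Measurable fun p : ℝ × Lab V => f p.2 p.1 :=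
    hf.comp (measurable_snd.prodMk measurable_fst)
  exact (h1.stronglyMeasurable.integral_prod_right').measurable

theorem integral_par_bound {f : Lab V → ℝ → ℝ} (hf0 : ∀ ω r, 0 ≤ f ω r)
    (hf1 : ∀ ω, ∀ r ≤ 1, f ω r ≤ 1000) {r : ℝ} (hr : r ≤ 1) :
    0 ≤ ∫ ω, f ω r ∂(labP V) ∧ ∫ ω, f ω r ∂(labP V) ≤ 1000 := by
  refine ⟨integral_nonneg fun ω => hf0 ω r, ?_⟩
  by_cases hi : Integrable (fun ω => f ω r) (labP V)
  · have := integral_mono hi (integrable_const (1000 : ℝ)) (fun ω => hf1 ω r hr)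
    simpa using this
  · rw [integral_undef hi]; norm_num

theorem par_intervalIntegrable {f : Lab V → ℝ → ℝ}
    (hf : Measurable fun p : Lab V × ℝ => f p.1 p.2) (hf0 : ∀ ω r, 0 ≤ f ω r)
    (hf1 : ∀ ω, ∀ r ≤ 1, f ω r ≤ 1000) {s0 s : ℝ} (h0 : 0 ≤ s0) (hs : s0 ≤ s) (hs1 : s ≤ 1)
    {c : ℝ} (hc0 : 0 ≤ c) (hc1 : c ≤ 1) :
    IntervalIntegrable (fun ρ => (ρ / 4) * (c * ∫ ω, f ω ρ ∂(labP V))) volume s0 s := by
  rw [intervalIntegrable_iff_integrableOn_Ioc_of_le hs]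
  have hm : Measurable fun ρ : ℝ => (ρ / 4) * (c * ∫ ω, f ω ρ ∂(labP V)) :=
    (measurable_id.div_const 4).mul ((integral_par_meas hf).const_mul c)
  refine Integrable.of_bound hm.aestronglyMeasurable 1000 ?_
  filter_upwards [ae_restrict_mem measurableSet_Ioc] with ρ hρ
  have h5 : 0 ≤ ρ := h0.trans hρ.1.le
  have h6 : ρ ≤ 1 := hρ.2.trans hs1
  obtain ⟨h7, h8⟩ := integral_par_bound hf0 hf1 h6
  set x := ∫ ω, f ω ρ ∂(labP V)
  rw [Real.norm_of_nonneg (by positivity)]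
  have h9 : c * x ≤ 1 * 1000 := mul_le_mul hc1 h8 h7 zero_le_one
  have h10 : 0 ≤ c * x := mul_nonneg hc0 h7
  nlinarith

end Pair

end Crest.Agent.FreeIs.Samp
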