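import Crest.Agent.FreeIs.ConeBase
import Crest.Agent.FreeIs.Moments

/-!
Decay and double exponential tail of the susceptibility on cones (module M5 of S0241).
-/

set_option autoImplicit false
set_option linter.unusedVariables false

open MeasureTheory Filter Topology

namespace Crest.Agent.FreeIs

namespace Susc

open CB

variable {q : ℕ}

/-! ### the functional `coneE` -/

section functional

variable {θ : ℝ} {π : Measure ℝ} {τ : ℝ} {i : Fin (q + 1)} {N : ℕ} {f g : (W q → ℝ) → ℝ}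

theorem coneE_congr (hπ : SiteLaw π τ) (h : ∀ t : W q → ℝ, (∀ w, |t w| < 1) → f t = g t) :
    coneE θ π i N f = coneE θ π i N g := by
  unfold coneE
  refine integral_congr_ae ?_
  filter_upwards [hπ.ae_cube1 (ι := W q)] with t ht
  rw [h t ht]

theorem coneE_mono (h0 : 0 ≤ θ) (h1 : θ < 1) (hπ : SiteLaw π τ) (hf : BC f) (hg : BC g)
    (h : ∀ t : W q → ℝ, (∀ w, |t w| < 1) → f t ≤ g t) :
    coneE θ π i N f ≤ coneE θ π i N g := by
  unfold coneE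
  refine integral_mono_ae ((hf.mul (Zc_BC h0 h1.le i N)).integrable hπ)
    ((hg.mul (Zc_BC h0 h1.le i N)).integrable hπ) ?_
  filter_upwards [hπ.ae_cube1 (ι := W q)] with t ht
  exact mul_le_mul_of_nonneg_right (h t ht) (Zf_pos _ h0 h1 fun v _ => ht v).le

theorem coneE_add (h0 : 0 ≤ θ) (h1 : θ < 1) (hπ : SiteLaw π τ) (hf : BC f) (hg : BC g) :
    coneE θ π i N (fun t => f t + g t) = coneE θ π i N f + coneE θ π i N g := by
  change ∫ t, (f t + g t) * Zc θ i N t ∂_ = ∫ t, f t * Zc θ i N t ∂_ + ∫ t, g t * Zc θ i N t ∂_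
  rw [← integral_add ((hf.mul (Zc_BC h0 h1.le i N)).integrable hπ)
    ((hg.mul (Zc_BC h0 h1.le i N)).integrable hπ)]
  refine integral_congr_ae (ae_of_all _ fun t => ?_)
  simp only [Zc]
  ring

theorem coneE_mul (c : ℝ) : coneE θ π i N (fun t => c * f t) = c * coneE θ π i N f := by
  unfold coneE
  rw [← integral_const_mul]
  refine integral_congr_ae (ae_of_all _ fun t => ?_)
  simp only
  ring

theorem coneE_sum (h0 : 0 ≤ θ) (h1 : θ < 1) (hπ : SiteLaw π τ) {ι : Type*} (J : Finset ι)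
    {F : ι → (W q → ℝ) → ℝ} (hF : ∀ j ∈ J, BC (F j)) :
    coneE θ π i N (fun t => ∑ j ∈ J, F j t) = ∑ j ∈ J, coneE θ π i N (F j) := by
  change ∫ t, (∑ j ∈ J, F j t) * Zc θ i N t ∂_ = ∑ j ∈ J, ∫ t, F j t * Zc θ i N t ∂_
  rw [← integral_finsetSum J fun j hj => ((hF j hj).mul (Zc_BC h0 h1.le i N)).integrable hπ]
  refine integral_congr_ae (ae_of_all _ fun t => ?_)
  simp only [Zc]
  rw [Finset.sum_mul]

theorem coneE_const (h0 : 0 ≤ θ) (h1 : θ < 1) (hπ : SiteLaw π τ) (c : ℝ) :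
    coneE θ π i N (fun _ => c) = c := by
  have := coneE_mul (θ := θ) (π := π) (i := i) (N := N) (f := fun _ => 1) c
  rw [coneE_one h0 h1 hπ] at this
  simpa using this

end functional

/-! ### truncation: versions of the cone identities for functions bounded on the cube -/

/-- truncation at level `K` -/
noncomputable def clip (K x : ℝ) : ℝ := max (-K) (min K x)

theorem clip_abs {K : ℝ} (hK : 0 ≤ K) (x : ℝ) : |clip K x| ≤ K := by
  unfold clip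
  rw [abs_le]
  refine ⟨le_max_left _ _, max_le (by linarith) (min_le_left _ _)⟩

theorem clip_eq {K x : ℝ} (h : |x| ≤ K) : clip K x = x := by
  have := abs_le.1 h
  unfold clip
  rw [min_eq_right this.2, max_eq_right this.1]

theorem measurable_clip (K : ℝ) : Measurable (clip K) := by
  unfold clip
  fun_prop

/-- one distinguished child `j0` -/
theorem coneE_child' {θ : ℝ} (h0 : 0 ≤ θ) (h1 : θ < 1) {π : Measure ℝ} {τ : ℝ} (hπ : SiteLaw π τ)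
    {i j0 : Fin (q + 1)} (hij : j0 ≠ i) (N : ℕ) (F : ℝ → ℝ) (hF : Measurable F)
    (hFb : ∃ K, ∀ x, |x| < 1 → |F x| ≤ K) (G : (W q → ℝ) → ℝ) (hG : BC G)
    (hGd : ∀ t t' : W q → ℝ, (∀ w ∈ wcone (toW [j0]) N, t w = t' w) → G t = G t') :
    (coneE θ π i (N + 1) fun t => F (cmsg θ i (N + 1) t (toW [i])) * G (fun w => t (tog i w)))
      = ∫ μ, (coneE θ π j0 N fun t => F (ein μ (θ * cmsg θ j0 N t (toW [j0]))) *
          (1 + μ * (θ * cmsg θ j0 N t (toW [j0]))) * G t) ∂(muLaw q θ π N) := by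
  obtain ⟨B, hB⟩ := hFb
  obtain ⟨C, hC⟩ := hG.bd
  have hB0 : 0 ≤ B := (abs_nonneg _).trans (hB 0 (by norm_num))
  have hC0 : 0 ≤ C := (abs_nonneg _).trans (hC 0 (fun w => by simp))
  have h := coneE_child h0 h1 hπ hij N (fun x => clip B (F x)) ((measurable_clip B).comp hF)
    ⟨B, fun x => clip_abs hB0 _⟩ (fun t => clip C (G t)) ((measurable_clip C).comp hG.meas)
    ⟨C, fun t => clip_abs hC0 _⟩ (fun t t' ht => by rw [hGd t t' ht])
  obtain ⟨σ, hσ⟩ := muLaw_site q h0 h1.le hπ N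
  rw [coneE_congr (g := fun t => clip B (F (cmsg θ i (N + 1) t (toW [i])))
    * clip C (G fun w => t (tog i w))) hπ, h]
  · refine integral_congr_ae ?_
    filter_upwards [hσ.supp] with μ hμ
    refine coneE_congr hπ fun t ht => ?_
    rw [clip_eq (hB _ (ein_abs_lt (hμ.trans_lt hσ.lt) (scaled_abs_lt h0 h1
      (cmsg_abs_lt h0 h1 j0 N ht _)))), clip_eq (hC t ht)]
  · intro t ht
    rw [clip_eq (hB _ (cmsg_abs_lt h0 h1 i (N + 1) ht _)), clip_eq (hC _ fun w => ht _)]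

theorem coneE_sub' {θ : ℝ} (h0 : 0 ≤ θ) (h1 : θ < 1) {π : Measure ℝ} {τ : ℝ} (hπ : SiteLaw π τ)
    {i j0 : Fin (q + 1)} (hij : j0 ≠ i) (N : ℕ) (G : (W q → ℝ) → ℝ) (hG : BC G)
    (hGd : ∀ t t' : W q → ℝ, (∀ w ∈ wcone (toW [j0]) N, t w = t' w) → G t = G t') :
    (coneE θ π i (N + 1) fun t => G (fun w => t (tog i w))) = coneE θ π j0 N G := by
  obtain ⟨C, hC⟩ := hG.bd
  have hC0 : 0 ≤ C := (abs_nonneg _).trans (hC 0 (fun w => by simp))
  have h := coneE_sub h0 h1 hπ hij N (fun t => clip C (G t)) ((measurable_clip C).comp hG.meas)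
    ⟨C, fun t => clip_abs hC0 _⟩ (fun t t' ht => by rw [hGd t t' ht])
  rw [coneE_congr (g := fun t => clip C (G fun w => t (tog i w))) hπ, h]
  · exact coneE_congr hπ fun t ht => clip_eq (hC t ht)
  · intro t ht
    rw [clip_eq (hC _ fun w => ht _)]

theorem coneE_prod' {θ : ℝ} (h0 : 0 ≤ θ) (h1 : θ < 1) {π : Measure ℝ} {τ : ℝ} (hπ : SiteLaw π τ)
    (i : Fin (q + 1)) (N : ℕ) (G : Fin (q + 1) → (W q → ℝ) → ℝ) (hG : ∀ j, BC (G j))
    (hGe : ∀ j t, G j (fun w => - t w) = G j t)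
    (hGd : ∀ j (t t' : W q → ℝ), (∀ w ∈ wcone (toW [j]) N, t w = t' w) → G j t = G j t') :
    (coneE θ π i (N + 1) fun t => ∏ j ∈ Finset.univ.erase i, G j (fun w => t (tog i w)))
      = ∏ j ∈ Finset.univ.erase i, coneE θ π j N (G j) := by
  choose C hC using fun j => (hG j).bd
  have hC0 : ∀ j, 0 ≤ C j := fun j => (abs_nonneg _).trans (hC j 0 (fun w => by simp))
  have hCs : ∀ j, C j ≤ ∑ j, C j := fun j =>
    Finset.single_le_sum (f := C) (fun j _ => hC0 j) (Finset.mem_univ j)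
  have h := coneE_prod h0 h1 hπ i N (fun j t => clip (C j) (G j t))
    (fun j => (measurable_clip _).comp (hG j).meas)
    ⟨∑ j, C j, fun j t => (clip_abs (hC0 j) _).trans (hCs j)⟩
    (fun j t => by rw [hGe]) (fun j t t' ht => by rw [hGd j t t' ht])
  rw [coneE_congr (g := fun t => ∏ j ∈ Finset.univ.erase i,
    clip (C j) (G j (fun w => t (tog i w)))) hπ, h]
  · exact Finset.prod_congr rfl fun j _ => coneE_congr hπ fun t ht => clip_eq (hC j t ht)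
  · intro t ht
    exact Finset.prod_congr rfl fun j _ => by rw [clip_eq (hC j _ fun w => ht _)]

/-! ### decay -/

theorem AN_BC {θ : ℝ} (h0 : 0 ≤ θ) (h1 : q * θ ^ 2 ≤ 1) (hq : 2 ≤ q) (i : Fin (q + 1))
    (N k : ℕ) {l : List (Fin (q + 1))} (hl : l.IsChain (· ≠ ·)) (hl0 : l ≠ []) :
    BC (fun t : W q → ℝ => AN θ i N t k l) :=
  ⟨measurable_AN i N k l, 1, fun t ht => by
    have := AN_nonneg_le_one h0 h1 hq i N k t ht l hl hl0
    rw [abs_of_nonneg this.1]; exact this.2⟩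

/-- the summand of the child `j` in `AN (k+1) [i]` -/
noncomputable def GN (θ : ℝ) (j : Fin (q + 1)) (N k : ℕ) (t : W q → ℝ) : ℝ :=
  √(q : ℝ) * θ * gg θ (cmsg θ j N t (toW [j])) * AN θ j N t k [j]

theorem AN_succ {θ : ℝ} (i : Fin (q + 1)) (N k : ℕ) (t : W q → ℝ) :
    AN θ i (N + 1) t (k + 1) [i]
      = (q : ℝ)⁻¹ * ∑ j ∈ Finset.univ.erase i, GN θ j N k (fun w => t (tog i w)) := by
  have h : AN θ i (N + 1) t (k + 1) [i] = (q : ℝ)⁻¹ * ∑ j ∈ nxt [i],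
      √(q : ℝ) * θ * gg θ (cmsg θ i (N + 1) t (toW ([i] ++ [j]))) * AN θ i (N + 1) t k ([i] ++ [j]) :=
    rfl
  rw [h, nxt_single]
  refine congrArg _ (Finset.sum_congr rfl fun j hj => ?_)
  have hij := Finset.ne_of_mem_erase hj
  have e1 := cmsg_shift (θ := θ) hij N t [] (List.isChain_singleton j)
  have e2 := AN_shift (θ := θ) hij N k t
  change _ * gg θ (cmsg θ i (N + 1) t (toW [i, j])) * AN θ i (N + 1) t k [i, j] = _
  rw [e1, e2]
  rfl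

theorem GN_congr (θ : ℝ) (j : Fin (q + 1)) (N k : ℕ) {t t' : W q → ℝ}
    (h : ∀ w ∈ wcone (toW [j]) N, t w = t' w) : GN θ j N k t = GN θ j N k t' := by
  unfold GN
  rw [cmsg_congr θ j N h, AN_congr θ j N k h]

theorem sqrt_theta_le {θ : ℝ} (h0 : 0 ≤ θ) (h1 : q * θ ^ 2 ≤ 1) :
    0 ≤ √(q : ℝ) * θ ∧ √(q : ℝ) * θ ≤ 1 - (1 - q * θ ^ 2) / 2 := by
  have hq0 : (0 : ℝ) ≤ q := Nat.cast_nonneg q
  refine ⟨by positivity, ?_⟩
  have h2 : (√(q : ℝ) * θ) ^ 2 = q * θ ^ 2 := by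
    rw [mul_pow, Real.sq_sqrt hq0]
  nlinarith [sq_nonneg (√(q : ℝ) * θ - 1)]

theorem GN_mem {θ : ℝ} (h0 : 0 ≤ θ) (h1 : q * θ ^ 2 ≤ 1) (hq : 2 ≤ q) (j : Fin (q + 1))
    (N k : ℕ) {t : W q → ℝ} (ht : ∀ w, |t w| < 1) : 0 ≤ GN θ j N k t ∧ GN θ j N k t ≤ 1 := by
  have hθ := theta_lt_one h0 h1 hq
  have h2 := AN_nonneg_le_one h0 h1 hq j N k t ht [j] (List.isChain_singleton j) (by simp)
  have h3 := gg_mem h0 hθ (cmsg_abs_lt h0 hθ j N ht (toW [j]))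
  have h4 := sqrt_theta_le h0 h1
  have h5 : √(q : ℝ) * θ ≤ 1 := by linarith [h4.2]
  unfold GN
  exact ⟨mul_nonneg (mul_nonneg h4.1 h3.1) h2.1,
    mul_le_one₀ (mul_le_one₀ h5 h3.1 h3.2) h2.1 h2.2⟩

theorem measurable_GN {θ : ℝ} (j : Fin (q + 1)) (N k : ℕ) :
    Measurable fun t : W q → ℝ => GN θ j N k t :=
  (((CB.measurable_gg θ).comp (measurable_cmsg j N _)).const_mul _).mul (measurable_AN j N k _)

theorem GN_BC {θ : ℝ} (h0 : 0 ≤ θ) (h1 : q * θ ^ 2 ≤ 1) (hq : 2 ≤ q) (j : Fin (q + 1))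
    (N k : ℕ) : BC (fun t : W q → ℝ => GN θ j N k t) :=
  ⟨measurable_GN j N k, 1, fun t ht => by
    have := GN_mem h0 h1 hq j N k ht
    rw [abs_of_nonneg this.1]; exact this.2⟩

theorem real_key {θ μ m : ℝ} (h0 : 0 ≤ θ) (h1 : θ < 1) (hμ : |μ| < 1) (hm : |m| < 1) :
    (1 - θ ^ 2) * μ ^ 2 * 2 ≤ (ein μ (θ * m)) ^ 2 * (1 + μ * (θ * m))
      + (ein (-μ) (θ * m)) ^ 2 * (1 + -μ * (θ * m)) := by
  have hr := scaled_abs_lt h0 h1 hm
  have hrθ : (θ * m) ^ 2 ≤ θ ^ 2 := by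
    rw [mul_pow]
    have : m ^ 2 ≤ 1 := by
      have := abs_lt.1 hm
      nlinarith
    nlinarith [sq_nonneg θ]
  set r := θ * m
  have hmr : |μ * r| < 1 := by
    rw [abs_mul]
    nlinarith [abs_nonneg μ, abs_nonneg r]
  have hmr' := abs_lt.1 hmr
  have d1 : 0 < 1 + μ * r := by linarith
  have d2 : 0 < 1 + -μ * r := by linarith
  have e1 : (ein μ r) ^ 2 * (1 + μ * r) = (μ + r) ^ 2 / (1 + μ * r) := by
    unfold ein; field_simp
  have e2 : (ein (-μ) r) ^ 2 * (1 + -μ * r) = (-μ + r) ^ 2 / (1 + -μ * r) := by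
    unfold ein; field_simp
  have e3 : (μ + r) ^ 2 / (1 + μ * r) + (-μ + r) ^ 2 / (1 + -μ * r)
      = 2 * (μ ^ 2 + r ^ 2 - 2 * μ ^ 2 * r ^ 2) / (1 - μ ^ 2 * r ^ 2) := by
    have d3 : (1 - μ ^ 2 * r ^ 2) = (1 + μ * r) * (1 + -μ * r) := by ring
    rw [d3, div_add_div _ _ d1.ne' d2.ne']
    congr 1
    ring
  rw [e1, e2, e3, le_div_iff₀ (by nlinarith)]
  have hμ2 : μ ^ 2 ≤ 1 := by
    have := abs_lt.1 hμ
    nlinarith
  have a1 : 0 ≤ μ ^ 2 := sq_nonneg _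
  have a2 : 0 ≤ r ^ 2 := sq_nonneg _
  have a3 : 0 ≤ θ ^ 2 := sq_nonneg _
  have a4 : θ ^ 2 ≤ 1 := by nlinarith
  have a5 : r ^ 2 ≤ 1 := hrθ.trans a4
  have b1 : (1 - θ ^ 2) * μ ^ 2 * 2 * (1 - μ ^ 2 * r ^ 2) ≤ (1 - θ ^ 2) * μ ^ 2 * 2 := by
    have : 0 ≤ (1 - θ ^ 2) * μ ^ 2 * 2 := by
      have : 0 ≤ 1 - θ ^ 2 := by linarith
      positivity
    nlinarith [mul_nonneg a1 a2]
  have b2 : (1 - θ ^ 2) * μ ^ 2 ≤ (1 - r ^ 2) * μ ^ 2 := by nlinarith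
  have b3 : 0 ≤ r ^ 2 * (1 - μ ^ 2) := mul_nonneg a2 (by linarith)
  nlinarith

theorem child_second {θ : ℝ} (h0 : 0 ≤ θ) (h1 : θ < 1) {π : Measure ℝ} {τ : ℝ} (hπ : SiteLaw π τ)
    {i j0 : Fin (q + 1)} (hij : j0 ≠ i) (N : ℕ) (G : (W q → ℝ) → ℝ) (hG : BC G)
    (hG0 : ∀ t, (∀ w, |t w| < 1) → 0 ≤ G t)
    (hGd : ∀ t t' : W q → ℝ, (∀ w ∈ wcone (toW [j0]) N, t w = t' w) → G t = G t') :
    (1 - θ ^ 2) * (∫ μ, μ ^ 2 ∂(muLaw q θ π N)) * coneE θ π j0 N G ≤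
    (coneE θ π i (N + 1) fun t => (cmsg θ i (N + 1) t (toW [i])) ^ 2 * G (fun w => t (tog i w))) := by
  have hpr := hπ.prob
  obtain ⟨σ, hσ⟩ := muLaw_site q h0 h1.le hπ N
  have := hσ.prob
  obtain ⟨C, hC⟩ := hG.bd
  rw [coneE_child' h0 h1 hπ hij N (fun x => x ^ 2) (measurable_id.pow_const 2)
    ⟨1, fun x hx => by rw [abs_pow]; nlinarith [abs_nonneg x]⟩ G hG hGd]
  set Φ : ℝ → ℝ := fun μ => coneE θ π j0 N fun t =>
    (ein μ (θ * cmsg θ j0 N t (toW [j0]))) ^ 2 * (1 + μ * (θ * cmsg θ j0 N t (toW [j0]))) * G t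
    with hΦ
  have hm : Measurable (Function.uncurry fun (μ : ℝ) (t : W q → ℝ) =>
      (ein μ (θ * cmsg θ j0 N t (toW [j0]))) ^ 2 * (1 + μ * (θ * cmsg θ j0 N t (toW [j0]))) * G t
        * Zf (WG q) θ (wcone (toW [j0]) N) t) := by
    have e := ((measurable_K1 (θ := θ) j0 N (Φ := fun x => x ^ 2) (measurable_id.pow_const 2)).mul
      (hG.meas.comp measurable_snd)).mul ((Zc_BC h0 h1.le j0 N).meas.comp measurable_snd)
    convert e using 1
    funext p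
    simp only [Function.uncurry, Pi.mul_apply, Function.comp, Zc]
    ring
  have hBC : ∀ μ : ℝ, |μ| < 1 → BC fun t : W q → ℝ =>
      (ein μ (θ * cmsg θ j0 N t (toW [j0]))) ^ 2 * (1 + μ * (θ * cmsg θ j0 N t (toW [j0]))) * G t := by
    intro μ hμ
    have e := measurable_K1 (θ := θ) j0 N (Φ := fun x => x ^ 2) (measurable_id.pow_const 2)
    have e2 : Measurable fun t : W q → ℝ => (1 + μ * (θ * cmsg θ j0 N t (toW [j0])))
        * (ein μ (θ * cmsg θ j0 N t (toW [j0]))) ^ 2 := e.comp measurable_prodMk_left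
    have e3 : BC fun t : W q → ℝ => (1 + μ * (θ * cmsg θ j0 N t (toW [j0])))
        * (ein μ (θ * cmsg θ j0 N t (toW [j0]))) ^ 2 :=
      ⟨e2, 2 * 1, fun t ht => K1_bd h0 h1 (Φ := fun x => x ^ 2) (B := 1)
        (fun x hx => by rw [abs_pow]; nlinarith [abs_nonneg x]) hμ (cmsg_abs_lt h0 h1 j0 N ht _)⟩
    have e4 := e3.mul hG
    convert e4 using 1
    funext t
    ring
  have hΦm : Measurable Φ := hm.stronglyMeasurable.integral_prod_right.measurable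
  have hΦb : ∀ μ, |μ| < 1 → |Φ μ| ≤ 2 * 1 * C := by
    intro μ hμ
    rw [abs_le]
    have hb : ∀ t : W q → ℝ, (∀ w, |t w| < 1) →
        |(ein μ (θ * cmsg θ j0 N t (toW [j0]))) ^ 2
          * (1 + μ * (θ * cmsg θ j0 N t (toW [j0]))) * G t| ≤ 2 * 1 * C := by
      intro t ht
      have := K1_bd h0 h1 (Φ := fun x => x ^ 2) (B := 1)
        (fun x hx => by rw [abs_pow]; nlinarith [abs_nonneg x]) hμ (cmsg_abs_lt h0 h1 j0 N ht (toW [j0]))
      rw [mul_comm ((ein μ _) ^ 2), abs_mul]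
      exact mul_le_mul this (hC t ht) (abs_nonneg _) (by norm_num)
    constructor
    · rw [← coneE_const (θ := θ) (i := j0) (N := N) h0 h1 hπ (-(2 * 1 * C))]
      exact coneE_mono h0 h1 hπ (BC.const _) (hBC μ hμ) fun t ht => (abs_le.1 (hb t ht)).1
    · rw [← coneE_const (θ := θ) (i := j0) (N := N) h0 h1 hπ (2 * 1 * C)]
      exact coneE_mono h0 h1 hπ (hBC μ hμ) (BC.const _) fun t ht => (abs_le.1 (hb t ht)).2
  have hΦi : Integrable Φ (muLaw q θ π N) :=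
    hσ.integrable hΦm fun x hx => hΦb x (hx.trans_lt hσ.lt)
  have hΦi' : Integrable (fun μ => Φ (-μ)) (muLaw q θ π N) :=
    hσ.integrable (hΦm.comp measurable_neg) fun x hx =>
      hΦb (-x) (by rw [abs_neg]; exact hx.trans_lt hσ.lt)
  have hsym := hσ.integral_neg Φ
  have hpt : ∀ μ : ℝ, |μ| < 1 → (1 - θ ^ 2) * μ ^ 2 * 2 * coneE θ π j0 N G ≤ Φ μ + Φ (-μ) := by
    intro μ hμ
    rw [hΦ]
    simp only
    rw [← coneE_add h0 h1 hπ (hBC μ hμ) (hBC (-μ) (by rwa [abs_neg])), ← coneE_mul]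
    refine coneE_mono h0 h1 hπ ((BC.const _).mul hG)
      ((hBC μ hμ).add (hBC (-μ) (by rwa [abs_neg]))) fun t ht => ?_
    have h3 := real_key h0 h1 hμ (cmsg_abs_lt h0 h1 j0 N ht (toW [j0]))
    have h4 := hG0 t ht
    nlinarith
  have hint : ∫ μ, (1 - θ ^ 2) * μ ^ 2 * 2 * coneE θ π j0 N G ∂(muLaw q θ π N)
      ≤ ∫ μ, (Φ μ + Φ (-μ)) ∂(muLaw q θ π N) := by
    refine integral_mono_ae ?_ (hΦi.add hΦi') ?_
    · refine hσ.integrable (K := |(1 - θ ^ 2) * 2 * coneE θ π j0 N G|)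
        (by fun_prop) fun x hx => ?_
      have hx1 : |x| < 1 := hx.trans_lt hσ.lt
      have : (1 - θ ^ 2) * x ^ 2 * 2 * coneE θ π j0 N G
        = x ^ 2 * ((1 - θ ^ 2) * 2 * coneE θ π j0 N G) := by ring
      rw [this, abs_mul, abs_pow]
      have : |x| ^ 2 ≤ 1 := by nlinarith [abs_nonneg x]
      nlinarith [abs_nonneg ((1 - θ ^ 2) * 2 * coneE θ π j0 N G)]
    · filter_upwards [hσ.supp] with μ hμ
      exact hpt μ (hμ.trans_lt hσ.lt)
  rw [integral_add hΦi hΦi', hsym] at hint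
  have e5 : ∫ μ, (1 - θ ^ 2) * μ ^ 2 * 2 * coneE θ π j0 N G ∂(muLaw q θ π N)
      = 2 * ((1 - θ ^ 2) * (∫ μ, μ ^ 2 ∂(muLaw q θ π N)) * coneE θ π j0 N G) := by
    have : (fun μ : ℝ => (1 - θ ^ 2) * μ ^ 2 * 2 * coneE θ π j0 N G)
        = fun μ => (2 * (1 - θ ^ 2) * coneE θ π j0 N G) * μ ^ 2 := by
      funext μ; ring
    rw [this, integral_const_mul]
    ring
  rw [e5] at hint
  linarith

theorem coneE_AN_succ {θ : ℝ} (h0 : 0 ≤ θ) (h1 : q * θ ^ 2 ≤ 1) (hq : 2 ≤ q) {π : Measure ℝ}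
    {τ : ℝ} (hπ : SiteLaw π τ) (i : Fin (q + 1)) (N k : ℕ) :
    (coneE θ π i (N + 1) fun t => AN θ i (N + 1) t (k + 1) [i])
      = (q : ℝ)⁻¹ * ∑ j ∈ Finset.univ.erase i, coneE θ π j N (GN θ j N k) := by
  have hθ := theta_lt_one h0 h1 hq
  simp only [AN_succ]
  rw [coneE_mul, coneE_sum h0 hθ hπ _ fun j _ => (GN_BC h0 h1 hq j N k).comp_tog i]
  refine congrArg _ (Finset.sum_congr rfl fun j hj => ?_)
  exact coneE_sub' h0 hθ hπ (Finset.ne_of_mem_erase hj) N (GN θ j N k) (GN_BC h0 h1 hq j N k)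
    fun t t' h => GN_congr θ j N k h

theorem AN_second {θ : ℝ} (h0 : 0 ≤ θ) (h1 : q * θ ^ 2 ≤ 1) (hq : 2 ≤ q) {π : Measure ℝ}
    {τ : ℝ} (hπ : SiteLaw π τ) (i : Fin (q + 1)) (N k : ℕ) :
    (1 - θ ^ 2) * (∫ μ, μ ^ 2 ∂(muLaw q θ π N)) *
        (coneE θ π i (N + 1) fun t => AN θ i (N + 1) t k [i])
      ≤ coneE θ π i (N + 1) fun t =>
        (cmsg θ i (N + 1) t (toW [i])) ^ 2 * AN θ i (N + 1) t k [i] := by
  have hθ := theta_lt_one h0 h1 hq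
  cases k with
  | zero =>
    have : Nontrivial (Fin (q + 1)) := Fin.nontrivial_iff_two_le.2 (by omega)
    obtain ⟨j0, hj0⟩ := exists_ne i
    have h := child_second h0 hθ hπ hj0 N (fun _ => 1) (BC.const 1) (fun _ _ => zero_le_one)
      (fun _ _ _ => rfl)
    rw [coneE_one h0 hθ hπ] at h
    simp only [AN]
    rw [coneE_one h0 hθ hπ]
    exact h
  | succ k =>
    rw [coneE_AN_succ h0 h1 hq hπ]
    have e : (fun t => (cmsg θ i (N + 1) t (toW [i])) ^ 2 * AN θ i (N + 1) t (k + 1) [i])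
        = fun t => (q : ℝ)⁻¹ * ∑ j ∈ Finset.univ.erase i,
          ((cmsg θ i (N + 1) t (toW [i])) ^ 2 * GN θ j N k (fun w => t (tog i w))) := by
      funext t
      rw [AN_succ, ← Finset.mul_sum]
      ring
    have hm2 : BC fun t : W q → ℝ => (cmsg θ i (N + 1) t (toW [i])) ^ 2 := by
      have := (cmsg_BC h0 hθ i (N + 1) (toW [i])).mul (cmsg_BC h0 hθ i (N + 1) (toW [i]))
      simpa [sq] using this
    rw [e, coneE_mul, coneE_sum h0 hθ hπ _ fun j _ => hm2.mul ((GN_BC h0 h1 hq j N k).comp_tog i)]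
    rw [← mul_assoc, mul_comm _ (q : ℝ)⁻¹, mul_assoc, Finset.mul_sum]
    refine mul_le_mul_of_nonneg_left (Finset.sum_le_sum fun j hj => ?_) (by positivity)
    exact child_second h0 hθ hπ (Finset.ne_of_mem_erase hj) N (GN θ j N k) (GN_BC h0 h1 hq j N k)
      (fun t ht => (GN_mem h0 h1 hq j N k ht).1) (fun t t' h => GN_congr θ j N k h)

theorem gg_le_aux {θ m : ℝ} (h0 : 0 ≤ θ) (h1 : θ < 1) (hm : |m| ≤ 1) :
    gg θ m ≤ 1 - (1 - θ ^ 2) * m ^ 2 := by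
  have hm2 : m ^ 2 ≤ 1 := by
    have := abs_le.1 hm
    nlinarith
  have hθ2 : θ ^ 2 < 1 := by nlinarith
  have hm0 := sq_nonneg m
  have hθ0 := sq_nonneg θ
  have hp : θ ^ 2 * m ^ 2 ≤ θ ^ 2 := by nlinarith
  have hd : 0 < 1 - θ ^ 2 * m ^ 2 := by linarith
  unfold gg
  rw [div_le_iff₀ hd]
  have e : (1 - (1 - θ ^ 2) * m ^ 2) * (1 - θ ^ 2 * m ^ 2) - (1 - m ^ 2)
      = (1 - θ ^ 2) * (θ ^ 2 * (m ^ 2) ^ 2) := by ring
  have e2 : 0 ≤ (1 - θ ^ 2) * (θ ^ 2 * (m ^ 2) ^ 2) :=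
    mul_nonneg (by linarith) (by positivity)
  linarith

theorem GN_le {θ : ℝ} (h0 : 0 ≤ θ) (h1 : q * θ ^ 2 ≤ 1) (hq : 2 ≤ q) {π : Measure ℝ}
    {τ : ℝ} (hπ : SiteLaw π τ) (i : Fin (q + 1)) (N k : ℕ) :
    coneE θ π i (N + 1) (GN θ i (N + 1) k) ≤
      √(q : ℝ) * θ * (1 - (1 - θ ^ 2) ^ 2 * ∫ μ, μ ^ 2 ∂(muLaw q θ π N)) *
        coneE θ π i (N + 1) fun t => AN θ i (N + 1) t k [i] := by
  have hθ := theta_lt_one h0 h1 hq
  have hθ2 : θ ^ 2 < 1 := by nlinarith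
  have hs := sqrt_theta_le h0 h1
  have hAN := AN_BC h0 h1 hq i (N + 1) k (List.isChain_singleton i) (by simp)
  have hm2 : BC fun t : W q → ℝ => (cmsg θ i (N + 1) t (toW [i])) ^ 2 := by
    have := (cmsg_BC h0 hθ i (N + 1) (toW [i])).mul (cmsg_BC h0 hθ i (N + 1) (toW [i]))
    simpa [sq] using this
  have step1 : coneE θ π i (N + 1) (GN θ i (N + 1) k) ≤ coneE θ π i (N + 1) fun t =>
      √(q : ℝ) * θ * (AN θ i (N + 1) t k [i]
        + (-(1 - θ ^ 2)) * ((cmsg θ i (N + 1) t (toW [i])) ^ 2 * AN θ i (N + 1) t k [i])) := by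
    refine coneE_mono h0 hθ hπ (GN_BC h0 h1 hq i (N + 1) k)
      ((BC.const _).mul (hAN.add ((BC.const _).mul (hm2.mul hAN)))) fun t ht => ?_
    have h2 := AN_nonneg_le_one h0 h1 hq i (N + 1) k t ht [i] (List.isChain_singleton i) (by simp)
    have h3 := gg_le_aux h0 hθ (cmsg_abs_lt h0 hθ i (N + 1) ht (toW [i])).le
    unfold GN
    rw [mul_assoc]
    refine mul_le_mul_of_nonneg_left ?_ hs.1
    nlinarith [h2.1]
  refine step1.trans ?_
  rw [coneE_mul, coneE_add h0 hθ hπ hAN ((BC.const _).mul (hm2.mul hAN)), coneE_mul]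
  have h4 := AN_second h0 h1 hq hπ i N k
  rw [mul_assoc (√(q : ℝ) * θ)]
  refine mul_le_mul_of_nonneg_left ?_ hs.1
  nlinarith

theorem second_le_one {π : Measure ℝ} {τ : ℝ} (hπ : SiteLaw π τ) : ∫ t, t ^ 2 ∂π ≤ 1 := by
  have := hπ.prob
  have h : ∫ t, t ^ 2 ∂π ≤ ∫ _, (1 : ℝ) ∂π := by
    refine integral_mono_ae (hπ.integrable (by fun_prop) (K := 1) fun x hx => ?_)
      (integrable_const _) ?_
    · rw [abs_pow]
      nlinarith [abs_nonneg x, hx.trans_lt hπ.lt]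
    · filter_upwards [hπ.supp] with x hx
      have := abs_le.1 hx
      have := hπ.lt
      change x ^ 2 ≤ 1
      nlinarith
  simpa using h

theorem second_nonneg (π : Measure ℝ) : 0 ≤ ∫ t, t ^ 2 ∂π :=
  integral_nonneg fun x => sq_nonneg x

end Susc

open Susc CB

/-- the contraction factor -/
theorem factor_le {q c c' s θ x y r : ℝ} (hq2 : 2 ≤ q) (h0 : 0 ≤ θ) (h1 : q * θ ^ 2 ≤ 1)
    (hs0 : 0 ≤ s) (hs1 : s ≤ 1) (hc'4 : c' ≤ 1 / 4) (hc'c : c' ≤ c / (16 * q))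
    (e1 : 0 ≤ y) (e2 : y ≤ 1) (e3 : 0 ≤ x) (e4 : x ≤ 1) (e5 : θ ^ 2 * x ≤ y)
    (e6 : c * s ≤ (1 - q * θ ^ 2) + x) (e7 : 0 ≤ r ∧ r ≤ 1 - (1 - q * θ ^ 2) / 2) :
    0 ≤ r * (1 - (1 - θ ^ 2) ^ 2 * y) ∧ r * (1 - (1 - θ ^ 2) ^ 2 * y) ≤ 1 - c' * s := by
  have hθ2 : 0 ≤ θ ^ 2 := sq_nonneg θ
  have hθh : θ ^ 2 ≤ 1 / 2 := by nlinarith
  have hδ0 : 0 ≤ 1 - q * θ ^ 2 := by linarith
  have g1 : 0 ≤ (1 - θ ^ 2) ^ 2 := sq_nonneg _
  have g2 : (1 - θ ^ 2) ^ 2 ≤ 1 := by nlinarith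
  have g3 : (1 - θ ^ 2) ^ 2 * y ≤ 1 := by nlinarith
  refine ⟨mul_nonneg e7.1 (by linarith), ?_⟩
  by_cases hcase : 1 / 2 ≤ q * θ ^ 2
  · have g4 : 1 / 4 ≤ (1 - θ ^ 2) ^ 2 := by nlinarith
    have g5 : x / (8 * q) ≤ (1 - θ ^ 2) ^ 2 * y := by
      have g6 : x / (2 * q) ≤ y := by
        refine le_trans ?_ e5
        rw [div_le_iff₀ (by positivity)]
        nlinarith
      have g7 : x / (8 * q) = (1 / 4) * (x / (2 * q)) := by field_simp; ring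
      rw [g7]
      exact mul_le_mul g4 g6 (by positivity) g1
    have g8 : x / (8 * q) ≤ 1 := by
      rw [div_le_one (by positivity)]; linarith
    have g9 : 0 ≤ x / (8 * q) := by positivity
    have f1 : r * (1 - (1 - θ ^ 2) ^ 2 * y)
        ≤ (1 - (1 - q * θ ^ 2) / 2) * (1 - x / (8 * q)) := by
      refine mul_le_mul e7.2 (by linarith) (by linarith) (by linarith)
    refine f1.trans ?_
    have f2 : (1 - (1 - q * θ ^ 2) / 2) * (1 - x / (8 * q))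
        ≤ 1 - ((1 - q * θ ^ 2) / 2 + x / (8 * q)) / 2 := by
      have h3 : 0 ≤ (1 - q * θ ^ 2) / 2 := by linarith
      have h4 : (1 - q * θ ^ 2) / 2 ≤ 1 := by linarith
      nlinarith [mul_nonneg h3 g9, mul_le_mul h4 le_rfl g9 zero_le_one,
        mul_le_mul g8 le_rfl h3 zero_le_one]
    refine f2.trans ?_
    have f3 : c' * s ≤ ((1 - q * θ ^ 2) + x) / (16 * q) := by
      have : c' * s ≤ c / (16 * q) * s := mul_le_mul_of_nonneg_right hc'c hs0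
      refine this.trans ?_
      rw [div_mul_eq_mul_div]
      exact div_le_div_of_nonneg_right e6 (by positivity)
    have f4 : ((1 - q * θ ^ 2) + x) / (16 * q) ≤ ((1 - q * θ ^ 2) / 2 + x / (8 * q)) / 2 := by
      have : ((1 - q * θ ^ 2) / 2 + x / (8 * q)) / 2
          = (4 * q * (1 - q * θ ^ 2) + x) / (16 * q) := by
        field_simp; ring
      rw [this]
      refine div_le_div_of_nonneg_right ?_ (by positivity)
      nlinarith
    linarith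
  · have f0 : q * θ ^ 2 < 1 / 2 := not_le.1 hcase
    have f1 : r * (1 - (1 - θ ^ 2) ^ 2 * y) ≤ r * 1 :=
      mul_le_mul_of_nonneg_left (by linarith [mul_nonneg g1 e1]) e7.1
    have f2 : c' * s ≤ 1 / 4 * 1 := mul_le_mul hc'4 hs1 hs0 (by norm_num)
    linarith

theorem cone_decay {q : ℕ} (hq : 2 ≤ q) : ∃ c : ℝ, 0 < c ∧ c ≤ 1 ∧ ∀ (θ : ℝ), 0 ≤ θ → q * θ ^ 2 ≤ 1 →
    ∀ (π : Measure ℝ) (τ : ℝ), SiteLaw π τ → 0 < ∫ t, t ^ 2 ∂π →
    ∃ N0 : ℕ, ∀ (i : Fin (q + 1)) (N k : ℕ), N0 + k ≤ N →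
      (coneE θ π i N fun t => AN θ i N t k [i]) ≤ (1 - c * √(∫ t, t ^ 2 ∂π)) ^ k := by
  obtain ⟨c, hc, hcc⟩ := msg_second_ge hq
  have hq2 : (2 : ℝ) ≤ q := by exact_mod_cast hq
  have hq0 : (0 : ℝ) < q := by linarith
  refine ⟨min (c / (16 * q)) (1 / 4), by positivity, (min_le_right _ _).trans (by norm_num), ?_⟩
  intro θ h0 h1 π τ hπ ho
  obtain ⟨N0, hN0⟩ := hcc θ h0 h1 π τ hπ ho
  have hθ := theta_lt_one h0 h1 hq
  set s := √(∫ t, t ^ 2 ∂π) with hs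
  have hs0 : 0 ≤ s := Real.sqrt_nonneg _
  have hs1 : s ≤ 1 := Real.sqrt_le_one.2 (second_le_one hπ)
  set c' := min (c / (16 * q)) (1 / 4) with hc'
  have hc'4 : c' ≤ 1 / 4 := min_le_right _ _
  have hc'c : c' ≤ c / (16 * q) := min_le_left _ _
  have hρ0 : 0 ≤ 1 - c' * s := by
    have f2 : c' * s ≤ 1 / 4 * 1 := mul_le_mul hc'4 hs1 hs0 (by norm_num)
    linarith
  -- the factor
  have hfac : ∀ N, N0 ≤ N → 0 ≤ √(q : ℝ) * θ * (1 - (1 - θ ^ 2) ^ 2 * ∫ μ, μ ^ 2 ∂(muLaw q θ π N)) ∧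
      √(q : ℝ) * θ * (1 - (1 - θ ^ 2) ^ 2 * ∫ μ, μ ^ 2 ∂(muLaw q θ π N)) ≤ 1 - c' * s := by
    intro N hN
    obtain ⟨σ, hσ⟩ := muLaw_site q h0 hθ.le hπ N
    obtain ⟨σ', hσ'⟩ := msgLaw_site q h0 hθ.le hπ N
    exact factor_le hq2 h0 h1 hs0 hs1 hc'4 hc'c (second_nonneg _) (second_le_one hσ)
      (second_nonneg _) (second_le_one hσ') (mu_second_ge hq h0 h1 hπ N) (hN0 N hN)
      (sqrt_theta_le h0 h1)
  refine ⟨N0 + 1, fun i N k => ?_⟩
  induction k generalizing i N with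
  | zero =>
    intro _
    simp only [AN, pow_zero]
    rw [coneE_one h0 hθ hπ]
  | succ k ih =>
    intro hN
    obtain ⟨M, rfl⟩ : ∃ M, N = M + 2 := ⟨N - 2, by omega⟩
    rw [coneE_AN_succ h0 h1 hq hπ i (M + 1) k]
    have hf := hfac M (by omega)
    have hterm : ∀ j : Fin (q + 1), coneE θ π j (M + 1) (GN θ j (M + 1) k)
        ≤ (1 - c' * s) ^ (k + 1) := by
      intro j
      refine (GN_le h0 h1 hq hπ j M k).trans ?_
      have h5 := ih j (M + 1) (by omega)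
      have h6 : 0 ≤ coneE θ π j (M + 1) fun t => AN θ j (M + 1) t k [j] := by
        rw [← coneE_const (θ := θ) (π := π) (i := j) (N := M + 1) h0 hθ hπ 0]
        exact coneE_mono h0 hθ hπ (BC.const _)
          (AN_BC h0 h1 hq j (M + 1) k (List.isChain_singleton j) (by simp))
          fun t ht => (AN_nonneg_le_one h0 h1 hq j (M + 1) k t ht [j]
            (List.isChain_singleton j) (by simp)).1
      have e : (1 - c' * s) ^ (k + 1) = (1 - c' * s) * (1 - c' * s) ^ k := by ring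
      rw [e]
      exact mul_le_mul hf.2 h5 h6 hρ0
    have hsum : ∑ j ∈ Finset.univ.erase i, coneE θ π j (M + 1) (GN θ j (M + 1) k)
        ≤ (Finset.univ.erase i).card • (1 - c' * s) ^ (k + 1) :=
      Finset.sum_le_card_nsmul _ _ _ fun j _ => hterm j
    have hcard : (Finset.univ.erase i).card = q := by
      rw [Finset.card_erase_of_mem (Finset.mem_univ _)]; simp
    rw [hcard, nsmul_eq_mul] at hsum
    rw [inv_mul_le_iff₀ hq0]
    exact hsum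

end Crest.Agent.FreeIs
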